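import Crest.Agent.R217.DegTh

/-! # R217 / Act : elementary facts on `ℤ_p`-actions -/

set_option autoImplicit false
open Set Topology Filter

namespace Crest.Agent.R217

variable {p : ℕ} [Fact p.Prime]

section top
variable {V : Type*} [TopologicalSpace V] {X₀ : Set V} {act : ℤ_[p] → V → V}

theorem Act.cont1 (hA : Act p X₀ act) (a : ℤ_[p]) : ContinuousOn (act a) X₀ :=
  hA.cont.comp (f := fun x => (a, x)) (by fun_prop) fun _ hx => ⟨trivial, hx⟩

theorem Act.cont2 (hA : Act p X₀ act) {x : V} (hx : x ∈ X₀) : Continuous fun a => act a x :=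
  hA.cont.comp_continuous (f := fun a => (a, x)) (by fun_prop) fun _ => ⟨trivial, hx⟩

theorem Act.contAt (hA : Act p X₀ act) (a : ℤ_[p]) {x : V} (hx : x ∈ X₀) :
    ContinuousAt (fun q : ℤ_[p] × V => act q.1 q.2) (a, x) :=
  hA.cont.continuousAt ((isOpen_univ.prod hA.isOpen).mem_nhds ⟨trivial, hx⟩)

theorem Act.neg_act (hA : Act p X₀ act) (a : ℤ_[p]) {x : V} (hx : x ∈ X₀) : act (-a) (act a x) = x := by
  rw [← hA.add _ _ x hx, neg_add_cancel, hA.zero x hx]

theorem Act.act_neg (hA : Act p X₀ act) (a : ℤ_[p]) {x : V} (hx : x ∈ X₀) : act a (act (-a) x) = x := by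
  rw [← hA.add _ _ x hx, add_neg_cancel, hA.zero x hx]

theorem Act.isOpen_image (hA : Act p X₀ act) (a : ℤ_[p]) {O : Set V} (hO : IsOpen O) (hOX : O ⊆ X₀) :
    IsOpen (act a '' O) := by
  have : act a '' O = X₀ ∩ act (-a) ⁻¹' O := by
    ext y
    constructor
    · rintro ⟨x, hx, rfl⟩
      exact ⟨hA.maps a (hOX hx), by rw [mem_preimage, hA.neg_act a (hOX hx)]; exact hx⟩
    · rintro ⟨hy, hy'⟩
      exact ⟨_, hy', hA.act_neg a hy⟩
  rw [this]
  exact (hA.cont1 _).isOpen_inter_preimage hA.isOpen hO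

theorem isClosed_toZModPow_ne (n : ℕ) : IsClosed {a : ℤ_[p] | PadicInt.toZModPow n a ≠ 0} := by
  have : {a : ℤ_[p] | PadicInt.toZModPow n a ≠ 0} = {a | (p : ℝ) ^ (-(n : ℤ) + 1) ≤ ‖a‖} := by
    ext a
    rw [mem_ofPred_eq, mem_ofPred_eq, Ne, ← RingHom.mem_ker, PadicInt.ker_toZModPow,
      ← PadicInt.norm_le_pow_iff_mem_span_pow, PadicInt.norm_le_pow_iff_norm_lt_pow_add_one, not_lt]
  rw [this]
  exact isClosed_le continuous_const continuous_norm

/-- `act a` as a partial homeomorphism (inverse `act (-a)`). -/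
theorem Act.exists_homeo (hA : Act p X₀ act) (a : ℤ_[p]) :
    ∃ g : OpenPartialHomeomorph V V, g.source = X₀ ∧ g.target = X₀ ∧ (g : V → V) = act a := by
  exact ⟨{ toFun := act a
           invFun := act (-a)
           source := X₀
           target := X₀
           map_source' := hA.maps a
           map_target' := hA.maps (-a)
           left_inv' := fun _ hx => hA.neg_act a hx
           right_inv' := fun _ hx => hA.act_neg a hx
           open_source := hA.isOpen
           open_target := hA.isOpen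
           continuousOn_toFun := hA.cont1 a
           continuousOn_invFun := hA.cont1 (-a) }, rfl, rfl, rfl⟩

theorem Act.image_eq (hA : Act p X₀ act) {A : Set V} (hAX : A ⊆ X₀) (hI : Inv act A)
    (a : ℤ_[p]) : act a '' A = A := by
  refine (hI a).image_subset.antisymm fun x hx => ⟨_, hI (-a) hx, hA.act_neg a (hAX hx)⟩

/-- An open set invariant under the generator is invariant.  (`y = act a x`; `act (-a) y ∈ O`, so
`act n y ∈ O` for an integer `n` close to `-a` (ℤ or ℕ is dense), then iterate `g '' O = O` and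
injectivity of `g` on `X₀`.) -/
theorem Act.inv_of_isOpen (hA : Act p X₀ act) {O : Set V} (hO : IsOpen O) (hOX : O ⊆ X₀)
    (h : act 1 '' O = O) : Inv act O := by
  have key : ∀ n : ℕ, ∀ y ∈ X₀, act n y ∈ O → y ∈ O := by
    intro n
    induction n with
    | zero =>
      intro y hy h0
      rwa [Nat.cast_zero, hA.zero y hy] at h0
    | succ n ih =>
      intro y hy h0
      rw [Nat.cast_succ, hA.add _ _ y hy] at h0
      have h1 := ih _ (hA.maps 1 hy) h0
      rw [← h] at h1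
      obtain ⟨z, hz, hzy⟩ := h1
      have h2 := congrArg (act (-1)) hzy
      rw [hA.neg_act 1 (hOX hz), hA.neg_act 1 hy] at h2
      exact h2 ▸ hz
  intro a x hx
  have hy := hA.maps a (hOX hx)
  obtain ⟨n, hn⟩ := PadicInt.denseRange_natCast.exists_mem_open (hO.preimage (hA.cont2 hy))
    ⟨-a, by rw [mem_preimage, hA.neg_act a (hOX hx)]; exact hx⟩
  exact key n _ hy hn

/-- the saturation of an open set is open, of a compact set is compact -/
theorem Act.isOpen_sat (hA : Act p X₀ act) {O : Set V} (hO : IsOpen O) (hOX : O ⊆ X₀) :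
    IsOpen (⋃ a, act a '' O) := by
  exact isOpen_iUnion fun a => hA.isOpen_image a hO hOX

theorem Act.isCompact_sat (hA : Act p X₀ act) {K : Set V} (hK : IsCompact K) (hKX : K ⊆ X₀) :
    IsCompact (⋃ a, act a '' K) := by
  have : (⋃ a, act a '' K) = (fun q : ℤ_[p] × V => act q.1 q.2) '' (univ ×ˢ K) := by
    ext y
    simp only [mem_iUnion, mem_image, mem_prod, mem_univ, true_and, Prod.exists]
  rw [this]
  exact (isCompact_univ.prod hK).image_of_continuousOn (hA.cont.mono (prod_mono subset_rfl hKX))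

theorem Act.inv_sat (hA : Act p X₀ act) {A : Set V} (hAX : A ⊆ X₀) :
    Inv act (⋃ a, act a '' A) ∧ A ⊆ ⋃ a, act a '' A ∧ (⋃ a, act a '' A) ⊆ X₀ := by
  refine ⟨fun b y hy => ?_, fun x hx => mem_iUnion.2 ⟨0, x, hx, hA.zero x (hAX hx)⟩, fun y hy => ?_⟩
  · obtain ⟨a, x, hx, rfl⟩ := mem_iUnion.1 hy
    exact mem_iUnion.2 ⟨b + a, x, hx, hA.add _ _ x (hAX hx)⟩
  · obtain ⟨a, x, hx, rfl⟩ := mem_iUnion.1 hy
    exact hA.maps a (hAX hx)

/-- closure (when inside `X₀`), interior and frontier of invariant sets are invariant -/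
theorem Act.inv_closure (hA : Act p X₀ act) {A : Set V} (hAX : closure A ⊆ X₀) (hI : Inv act A) :
    Inv act (closure A) := by
  exact fun a => (hI a).closure_of_continuousOn ((hA.cont1 a).mono hAX)

theorem Act.inv_interior (hA : Act p X₀ act) {A : Set V} (hAX : A ⊆ X₀) (hI : Inv act A) :
    Inv act (interior A) := by
  intro a x hx
  refine interior_maximal ?_ (hA.isOpen_image a isOpen_interior (interior_subset.trans hAX)) ⟨x, hx, rfl⟩
  rintro _ ⟨y, hy, rfl⟩
  exact hI a (interior_subset hy)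

theorem Act.inv_diff (hA : Act p X₀ act) {A B : Set V} (hAX : A ⊆ X₀) (hI : Inv act A)
    (hB : Inv act (B ∩ X₀)) : Inv act (A \ B) := by
  intro a x hx
  refine ⟨hI a hx.1, fun h => hx.2 ?_⟩
  have := hB (-a) ⟨h, hA.maps a (hAX hx.1)⟩
  rw [hA.neg_act a (hAX hx.1)] at this
  exact this.1

theorem Act.inv_Fx (hA : Act p X₀ act) (k : ℕ) : Inv act (Fx X₀ act k) := by
  intro a x hx
  refine ⟨hA.maps a hx.1, fun b => ?_⟩
  rw [← hA.add _ _ x hx.1, add_comm, hA.add _ _ x hx.1, hx.2]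

theorem Fx_mono (X₀ : Set V) (act : ℤ_[p] → V → V) {k l : ℕ} (h : k ≤ l) :
    Fx X₀ act k ⊆ Fx X₀ act l := by
  intro x hx
  refine ⟨hx.1, fun a => ?_⟩
  obtain ⟨m, rfl⟩ := Nat.exists_eq_add_of_le h
  rw [pow_add, mul_assoc]
  exact hx.2 _

/-- `Fx` is relatively closed in `X₀` -/
theorem Act.isOpen_diff_Fx [T2Space V] (hA : Act p X₀ act) (k : ℕ) :
    IsOpen (X₀ \ Fx X₀ act k) := by
  have : X₀ \ Fx X₀ act k =
      ⋃ a, X₀ ∩ (fun x => (act ((p : ℤ_[p]) ^ k * a) x, x)) ⁻¹' (diagonal V)ᶜ := by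
    ext x
    simp only [Fx, Set.mem_sdiff, mem_ofPred_eq, not_and, not_forall, mem_iUnion, mem_inter_iff, mem_preimage,
      mem_compl_iff, mem_diagonal_iff]
    exact ⟨fun h => (h.2 h.1).imp fun a ha => ⟨h.1, ha⟩, fun ⟨a, h⟩ => ⟨h.1, fun _ => ⟨a, h.2⟩⟩⟩
  rw [this]
  exact isOpen_iUnion fun a => ((hA.cont1 _).prodMk continuousOn_id).isOpen_inter_preimage hA.isOpen
    isClosed_diagonal.isOpen_compl

/-- a fixed point has a basis of invariant open neighbourhoods (tube lemma; take the interior of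
`{y ∈ X₀ | ∀ a, act a y ∈ O}`) -/
theorem Act.exists_inv_nhds (hA : Act p X₀ act) {x : V} (hx : x ∈ Fx X₀ act 0) {O : Set V}
    (hO : O ∈ 𝓝 x) : ∃ U, IsOpen U ∧ x ∈ U ∧ U ⊆ O ∧ U ⊆ X₀ ∧ Inv act U := by
  have hx' : ∀ a, act a x = x := fun a => by simpa using hx.2 a
  have h1 : ∀ᶠ y in 𝓝 x, ∀ a ∈ (univ : Set ℤ_[p]), act a y ∈ O := by
    refine isCompact_univ.eventually_forall_of_forall_eventually (P := fun y a => act a y ∈ O) fun a _ => ?_
    have h2 : ContinuousAt (fun z : V × ℤ_[p] => act z.2 z.1) (x, a) :=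
      ContinuousAt.comp (g := fun q : ℤ_[p] × V => act q.1 q.2) (f := Prod.swap) (x := (x, a))
        (hA.contAt a hx.1) continuous_swap.continuousAt
    refine h2 ?_
    change O ∈ 𝓝 (act a x)
    rwa [hx']
  have hI : Inv act {y | y ∈ X₀ ∧ ∀ a, act a y ∈ O} := fun b y hy =>
    ⟨hA.maps b hy.1, fun a => by rw [← hA.add _ _ y hy.1]; exact hy.2 _⟩
  refine ⟨interior {y | y ∈ X₀ ∧ ∀ a, act a y ∈ O}, isOpen_interior, mem_interior_iff_mem_nhds.2 ?_,
    fun y hy => ?_, fun y hy => (interior_subset hy).1, hA.inv_interior (fun y hy => hy.1) hI⟩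
  · filter_upwards [h1, hA.isOpen.mem_nhds hx.1] with y hy hy' using ⟨hy', fun a => hy a trivial⟩
  · have h3 := interior_subset hy
    have h4 := h3.2 0
    rwa [hA.zero y h3.1] at h4

/-- Stabilisers: if `act a x = x` with `a ∉ p^(k+1) ℤ_p` then `x` is fixed by the closure of `ℤ a`,
which is `a ℤ_p ⊇ p^k ℤ_p`. -/
theorem Act.stab [T2Space V] (hA : Act p X₀ act) {k : ℕ} {x : V} (hx : x ∈ X₀)
    (hF : x ∉ Fx X₀ act k) {a : ℤ_[p]} (ha : act a x = x) : PadicInt.toZModPow (k + 1) a = 0 := by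
  by_contra hne
  apply hF
  have h1 : ∀ c, act (a * c) x = x := by
    intro c
    refine PadicInt.denseRange_natCast.induction_on (p := fun c => act (a * c) x = x) c
      (isClosed_eq ((hA.cont2 hx).comp (continuous_const.mul continuous_id)) continuous_const) fun n => ?_
    induction n with
    | zero => rw [Nat.cast_zero, mul_zero, hA.zero x hx]
    | succ n ih => rw [Nat.cast_succ, mul_add, mul_one, hA.add _ _ x hx, ha, ih]
  have ha0 : a ≠ 0 := fun h => hne (by rw [h, map_zero])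
  rw [← RingHom.mem_ker, PadicInt.ker_toZModPow, PadicInt.mem_span_pow_iff_le_valuation a ha0] at hne
  obtain ⟨m, hm⟩ := Nat.exists_eq_add_of_le (show a.valuation ≤ k by omega)
  refine ⟨hx, fun b => ?_⟩
  have h2 : (p : ℤ_[p]) ^ k * b = a * (((PadicInt.unitCoeff ha0)⁻¹ : ℤ_[p]ˣ) * (p : ℤ_[p]) ^ m * b) := by
    have h4 := PadicInt.unitCoeff_spec ha0
    rw [hm, pow_add]
    have h3 := (PadicInt.unitCoeff ha0).mul_inv
    linear_combination (-(p : ℤ_[p]) ^ a.valuation * (p : ℤ_[p]) ^ m * b) * h3 -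
      (((PadicInt.unitCoeff ha0)⁻¹ : ℤ_[p]ˣ) * (p : ℤ_[p]) ^ m * b) * h4
  rw [h2, h1]

/-- Slices.  The orbit of `x` is the disjoint union of the compact sets `(j + p^(k+1) ℤ_p) x`,
`j ∈ ZMod (p^(k+1))` (by `stab`).  Choose an open `O ∋ x`, `O ⊆ W`, so small that
`act a O ∩ O = ∅` whenever `toZModPow (k+1) a ≠ 0` (compactness of that set of `a`, Hausdorff, tube
lemma), `U` = saturation of `O`, `τ (act a z) = toZModPow a` for `z ∈ O` (well defined). -/
theorem Act.exists_slice [T2Space V] (hA : Act p X₀ act) {W : Set V} (hW : IsOpen W)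
    (hWX : W ⊆ X₀) (hI : Inv act W) {k : ℕ} {x : V} (hx : x ∈ W) (hF : x ∉ Fx X₀ act k) :
    ∃ U, IsOpen U ∧ x ∈ U ∧ U ⊆ W ∧ Inv act U ∧ ∃ τ : V → ZMod (p ^ (k + 1)), ∀ y ∈ U,
      (∀ a, τ (act a y) = τ y + PadicInt.toZModPow (k + 1) a) ∧ ∀ᶠ z in 𝓝 y, τ z = τ y := by
  classical
  have h1 : ∀ᶠ z in 𝓝 (x, x), ∀ a ∈ {a : ℤ_[p] | PadicInt.toZModPow (k + 1) a ≠ 0}, act a z.1 ≠ z.2 := by
    refine (isClosed_toZModPow_ne (k + 1)).isCompact.eventually_forall_of_forall_eventually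
      (P := fun (z : V × V) a => act a z.1 ≠ z.2) fun a ha => ?_
    have h2 : ContinuousAt (fun z : (V × V) × ℤ_[p] => act z.2 z.1.1) ((x, x), a) :=
      ContinuousAt.comp (g := fun q : ℤ_[p] × V => act q.1 q.2) (f := fun z : (V × V) × ℤ_[p] => (z.2, z.1.1))
        (x := ((x, x), a)) (hA.contAt a (hWX hx)) (by fun_prop)
    exact (h2.ne_iff_eventually_ne (g := fun z : (V × V) × ℤ_[p] => z.1.2) (by fun_prop)).1
      fun h => ha (hA.stab (hWX hx) hF h)
  obtain ⟨O₁, O₂, hO₁, hx₁, hO₂, hx₂, hO⟩ := mem_nhds_prod_iff'.1 h1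
  set O := W ∩ (O₁ ∩ O₂) with hOdef
  have hOo : IsOpen O := hW.inter (hO₁.inter hO₂)
  have hOX : O ⊆ X₀ := inter_subset_left.trans hWX
  obtain ⟨hs1, hs2, hs3⟩ := hA.inv_sat hOX
  let τ : V → ZMod (p ^ (k + 1)) := fun y =>
    if h : ∃ a, y ∈ act a '' O then PadicInt.toZModPow (k + 1) h.choose else 0
  have hτ : ∀ a, ∀ y ∈ act a '' O, τ y = PadicInt.toZModPow (k + 1) a := by
    intro a y hy
    have h : ∃ a, y ∈ act a '' O := ⟨a, hy⟩
    simp only [τ, dif_pos h]
    obtain ⟨z', hz', he⟩ := h.choose_spec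
    generalize h.choose = c at he ⊢
    obtain ⟨z, hz, rfl⟩ := hy
    have h3 : act (-c + a) z = z' := by
      rw [hA.add _ _ z (hOX hz), ← he, hA.neg_act _ (hOX hz')]
    have h4 : PadicInt.toZModPow (k + 1) (-c + a) = 0 := by
      by_contra hne
      exact hO (mk_mem_prod hz.2.1 hz'.2.2) _ hne h3
    rw [map_add, map_neg, neg_add_eq_zero] at h4
    exact h4
  refine ⟨⋃ a, act a '' O, hA.isOpen_sat hOo hOX, hs2 ⟨hx, hx₁, hx₂⟩, fun y hy => ?_, hs1, τ, fun y hy => ?_⟩
  · obtain ⟨a, z, hz, rfl⟩ := mem_iUnion.1 hy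
    exact hI a hz.1
  · obtain ⟨a, hy⟩ := mem_iUnion.1 hy
    refine ⟨fun b => ?_, ?_⟩
    · obtain ⟨z, hz, rfl⟩ := hy
      rw [hτ a _ ⟨z, hz, rfl⟩, hτ (b + a) _ ⟨z, hz, hA.add _ _ z (hOX hz)⟩, map_add]
      exact add_comm _ _
    · filter_upwards [(hA.isOpen_image a hOo hOX).mem_nhds hy] with z hz
      rw [hτ a z hz, hτ a y hy]

end top

section RN
variable {N : ℕ} {X₀ : Set (R N)} {act : ℤ_[p] → R N → R N}

/-- `V` = saturation of a relatively compact open neighbourhood of `C` with closure in `O`. -/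
theorem Act.nbhdProp (hA : Act p X₀ act) {W : Set (R N)} (hWX : W ⊆ X₀) :
    NbhdProp (act 1) W := by
  intro C O hC hO hCO hOW _ hgO
  have hOX := hOW.trans hWX
  have hI := hA.inv_of_isOpen hO hOX hgO
  obtain ⟨V, hV, hCV, hVO, hVc⟩ := exists_open_between_and_isCompact_closure hC hO hCO
  have hVX : V ⊆ X₀ := subset_closure.trans (hVO.trans hOX)
  obtain ⟨hs1, hs2, hs3⟩ := hA.inv_sat hVX
  have hK := hA.isCompact_sat hVc (hVO.trans hOX)
  have hcl : closure (⋃ a, act a '' V) ⊆ ⋃ a, act a '' closure V :=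
    closure_minimal (iUnion_mono fun a => image_mono subset_closure) hK.isClosed
  refine ⟨⋃ a, act a '' V, hA.isOpen_sat hV hVX, hCV.trans hs2, hK.of_isClosed_subset isClosed_closure hcl,
    hcl.trans fun y hy => ?_, hA.image_eq hs3 hs1 1⟩
  obtain ⟨a, z, hz, rfl⟩ := mem_iUnion.1 hy
  exact hI a (hVO hz)

/-- from `exists_slice`: `τ' y = ω ^ (τ y).val`. -/
theorem Act.sliced (hA : Act p X₀ act) {W : Set (R N)} (hW : IsOpen W) (hWX : W ⊆ X₀)
    (hI : Inv act W) {k : ℕ} (hF : Disjoint W (Fx X₀ act k)) {ω : ℂ}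
    (hω : IsPrimitiveRoot ω (p ^ (k + 1))) : Sliced (act 1) W ω := by
  intro x hx
  obtain ⟨U, hU, hxU, hUW, hUI, τ, hτ⟩ := hA.exists_slice hW hWX hI hx (disjoint_left.1 hF hx)
  have hn : p ^ (k + 1) ≠ 0 := pow_ne_zero _ (Fact.out : p.Prime).ne_zero
  have : NeZero (p ^ (k + 1)) := ⟨hn⟩
  refine ⟨U, hU, hxU, hUW, hA.image_eq (hUW.trans hWX) hUI 1, fun y => ω ^ (τ y).val, fun y hy => ⟨?_, ?_, ?_⟩⟩
  · rw [norm_pow, hω.norm'_eq_one hn, one_pow]
  · have h1 : τ y + 1 = (((τ y).val + 1 : ℕ) : ZMod (p ^ (k + 1))) := by simp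
    beta_reduce
    rw [(hτ y hy).1, map_one, h1, ZMod.val_natCast, ← pow_eq_pow_mod _ hω.pow_eq_one, pow_succ']
  · filter_upwards [(hτ y hy).2] with z hz
    rw [hz]

end RN

/-- Averaging over `ℤ_p` with the Haar probability measure
(`φ x = ∫ a, ψ (act a x)`; continuity: parametric integral over a compact space, e.g. pass to the
subtype `A` and use `continuous_parametric_integral_of_continuous`/uniform continuity;
`Convex.integral_mem`). -/
theorem Act.exists_avg {V F : Type*} [MetricSpace V] [NormedAddCommGroup F] [NormedSpace ℝ F]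
    [FiniteDimensional ℝ F] {X₀ : Set V} {act : ℤ_[p] → V → V} (hA : Act p X₀ act) {A : Set V}
    (hAX : A ⊆ X₀) (hI : Inv act A) {ψ : V → F} (hψ : ContinuousOn ψ A) :
    ∃ φ : V → F, ContinuousOn φ A ∧ (∀ a, ∀ x ∈ A, φ (act a x) = φ x) ∧
      ∀ x ∈ A, ∀ C : Set F, Convex ℝ C → IsClosed C → (∀ a, ψ (act a x) ∈ C) → φ x ∈ C := by
  borelize ℤ_[p]
  have : CompleteSpace F := FiniteDimensional.complete ℝ F
  let μ : MeasureTheory.Measure ℤ_[p] := MeasureTheory.Measure.addHaarMeasure ⊤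
  have : MeasureTheory.IsProbabilityMeasure μ := ⟨by
    have := MeasureTheory.Measure.addHaarMeasure_self (K₀ := (⊤ : TopologicalSpace.PositiveCompacts ℤ_[p]))
    rwa [TopologicalSpace.PositiveCompacts.coe_top] at this⟩
  have hint : ∀ f : C(ℤ_[p], F), MeasureTheory.Integrable f μ := fun f =>
    f.continuous.integrable_of_hasCompactSupport (HasCompactSupport.of_compactSpace _)
  have hL : Continuous fun f : C(ℤ_[p], F) => ∫ a, f a ∂μ := by
    refine (LipschitzWith.of_dist_le_mul (K := 1) fun f g => ?_).continuous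
    rw [dist_eq_norm, dist_eq_norm, ← MeasureTheory.integral_sub (hint f) (hint g)]
    have := MeasureTheory.norm_integral_le_of_norm_le_const (μ := μ) (f := fun a => f a - g a) (C := ‖f - g‖)
      (Filter.Eventually.of_forall fun a => (f - g).norm_coe_le_norm a)
    simpa using this
  let G : C(A × ℤ_[p], F) := ⟨fun z => ψ (act z.2 z.1), hψ.comp_continuous
    (hA.cont.comp_continuous (f := fun z : A × ℤ_[p] => (z.2, (z.1 : V))) (by fun_prop)
      fun z => ⟨trivial, hAX z.1.2⟩) fun z => hI z.2 z.1.2⟩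
  refine ⟨fun x => ∫ a, ψ (act a x) ∂μ, ?_, fun a x hx => ?_, fun x hx C hC hC' h => ?_⟩
  · rw [continuousOn_iff_continuous_restrict]
    exact hL.comp G.curry.continuous
  · have h1 : (fun b => ψ (act b (act a x))) = fun b => ψ (act (a + b) x) := by
      funext b
      rw [add_comm, hA.add _ _ x (hAX hx)]
    beta_reduce
    rw [h1]
    exact MeasureTheory.integral_add_left_eq_self (fun b => ψ (act b x)) a
  · exact hC.integral_mem hC' (Filter.Eventually.of_forall h) (hint (G.curry ⟨x, hx⟩))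

end Crest.Agent.R217
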