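import Crest.Agent.R217.DegTh

/-! # R217 / Sard : smooth approximation, images of nowhere dense sets, regular values -/

set_option autoImplicit false
open Set Topology Filter

namespace Crest.Agent.R217

theorem Sard.exists_ext {N : ℕ} {K : Set (R N)} (hK : IsClosed K) {φ : R N → R N} (hφ : ContinuousOn φ K) :
    ∃ g : R N → R N, Continuous g ∧ ∀ x ∈ K, g x = φ x := by
  obtain ⟨g, hg⟩ := ContinuousMap.exists_restrict_eq hK ⟨K.domRestrict φ, hφ.domRestrict⟩
  exact ⟨g, g.continuous, fun x hx => congrArg (fun h : C(K, R N) => h ⟨x, hx⟩) hg⟩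

/-- Tietze + smooth approximation (e.g. `Continuous.exists_contDiff_dist_le_of_forall_mem_ball_dist_le`,
`exists_contMDiff_forall_mem_convex_of_local`, or Stone–Weierstrass). -/
theorem exists_smooth_approx {N : ℕ} {K : Set (R N)} (hK : IsCompact K) {φ : R N → R N}
    (hφ : ContinuousOn φ K) {ε : ℝ} (hε : 0 < ε) :
    ∃ f : R N → R N, ContDiff ℝ 1 f ∧ ∀ x ∈ K, ‖f x - φ x‖ < ε := by
  obtain ⟨g, hg, hgK⟩ := Sard.exists_ext hK.isClosed hφ
  obtain ⟨f, hf, hfa, -⟩ := hg.exists_contDiff_approx 1 (ε := fun _ => ε) continuous_const fun _ => hε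
  exact ⟨f, hf, fun x hx => by rw [← hgK x hx, ← dist_eq_norm]; exact hfa x⟩

/-- critical values in a compact set form a compact null set
(`MeasureTheory.addHaar_image_eq_zero_of_det_fderivWithin_eq_zero`). -/
theorem interior_crit_image {N : ℕ} {f : R N → R N} (hf : ContDiff ℝ 1 f) {K : Set (R N)}
    (hK : IsCompact K) :
    IsCompact (f '' (K ∩ {x | (fderiv ℝ f x).det = 0})) ∧
      interior (f '' (K ∩ {x | (fderiv ℝ f x).det = 0})) = ∅ := by
  have hc : IsClosed {x | (fderiv ℝ f x).det = 0} :=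
    isClosed_eq (ContinuousLinearMap.continuous_det.comp (hf.continuous_fderiv one_ne_zero)) continuous_const
  refine ⟨(hK.inter_right hc).image hf.continuous, ?_⟩
  have h0 : MeasureTheory.volume (f '' (K ∩ {x | (fderiv ℝ f x).det = 0})) = 0 :=
    MeasureTheory.addHaar_image_eq_zero_of_det_fderivWithin_eq_zero _ (f' := fderiv ℝ f)
      (fun x _ => (hf.differentiable one_ne_zero x).hasFDerivAt.hasFDerivWithinAt) fun x hx => hx.2
  exact MeasureTheory.Measure.interior_eq_empty_of_null h0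

/-- at a regular point `f` is a local homeomorphism (`ContDiffAt.toOpenPartialHomeomorph`) -/
theorem exists_local_homeo {N : ℕ} {f : R N → R N} (hf : ContDiff ℝ 1 f) {x : R N}
    (hx : (fderiv ℝ f x).det ≠ 0) :
    ∃ g : OpenPartialHomeomorph (R N) (R N), x ∈ g.source ∧ (g : R N → R N) = f := by
  have h1 : HasFDerivAt f (((fderiv ℝ f x).toContinuousLinearEquivOfDetNeZero hx : R N ≃L[ℝ] R N) :
      R N →L[ℝ] R N) x := by
    rw [ContinuousLinearMap.coe_toContinuousLinearEquivOfDetNeZero]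
    exact (hf.differentiable one_ne_zero x).hasFDerivAt
  exact ⟨hf.contDiffAt.toOpenPartialHomeomorph f h1 one_ne_zero,
    hf.contDiffAt.mem_toOpenPartialHomeomorph_source h1 one_ne_zero, rfl⟩

/-- The image of a compact nowhere dense set under a `C¹` map has empty interior: it is a countable
union of compact sets with empty interior (critical part; compact pieces inside local
homeomorphism domains, Lindelöf), Baire. -/
theorem interior_image_eq_empty {N : ℕ} {f : R N → R N} (hf : ContDiff ℝ 1 f) {A : Set (R N)}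
    (hA : IsCompact A) (hi : interior A = ∅) : interior (f '' A) = ∅ := by
  obtain ⟨hc1, hc2⟩ := interior_crit_image hf hA
  have key : ∀ x ∈ A \ {x | (fderiv ℝ f x).det = 0}, ∃ K ∈ 𝓝[A \ {x | (fderiv ℝ f x).det = 0}] x,
      IsMeagre (f '' (A ∩ K)) := by
    intro x hx
    obtain ⟨g, hxg, hg⟩ := exists_local_homeo hf hx.2
    obtain ⟨K, hK, hxK, hKs⟩ := exists_compact_subset g.open_source hxg
    refine ⟨K, mem_nhdsWithin_of_mem_nhds (mem_interior_iff_mem_nhds.1 hxK), IsNowhereDense.isMeagre ?_⟩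
    rw [((hA.inter hK).image hf.continuous).isClosed.isNowhereDense_iff, eq_empty_iff_forall_notMem]
    intro y hy
    obtain ⟨z, hz, rfl⟩ := interior_subset hy
    have hO : IsOpen (g.source ∩ g ⁻¹' interior (f '' (A ∩ K))) := g.isOpen_inter_preimage isOpen_interior
    have hsub : g.source ∩ g ⁻¹' interior (f '' (A ∩ K)) ⊆ A := by
      rintro w ⟨hw, hw'⟩
      obtain ⟨w', hw1, hw2⟩ := interior_subset hw'
      have : w' = w := g.injOn (hKs hw1.2) hw (by rw [← hw2, hg])
      exact this ▸ hw1.1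
    have : z ∈ interior A := interior_maximal hsub hO ⟨hKs hz.2, by rw [mem_preimage, hg]; exact hy⟩
    rw [hi] at this
    exact this
  choose! K hK hKm using key
  obtain ⟨s, hs, hsc, hcov⟩ := TopologicalSpace.countable_cover_nhdsWithin hK
  have hm : IsMeagre (f '' A) := by
    refine IsMeagre.mono ?_ ((IsNowhereDense.isMeagre (hc1.isClosed.isNowhereDense_iff.2 hc2)).union
      (isMeagre_biUnion hsc fun x hx => hKm x (hs hx)))
    rintro _ ⟨x, hx, rfl⟩
    by_cases h : (fderiv ℝ f x).det = 0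
    · exact Or.inl ⟨x, ⟨hx, h⟩, rfl⟩
    · obtain ⟨z, hz, hxz⟩ := mem_iUnion₂.1 (hcov ⟨hx, h⟩)
      exact Or.inr (mem_iUnion₂.2 ⟨z, hz, x, ⟨hx, hxz⟩, rfl⟩)
  by_contra hne
  exact not_isMeagre_of_isOpen isOpen_interior (nonempty_iff_ne_empty.2 hne) (hm.mono interior_subset)

/-- AV0: approximate by `f`, choose a small `y ∉ f '' D`, take `f - y`. -/
theorem avoid_zero {N : ℕ} {D : Set (R N)} (hD : IsCompact D) (hi : interior D = ∅)
    {φ : R N → R N} (hφ : ContinuousOn φ D) {ε : ℝ} (hε : 0 < ε) :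
    ∃ φ' : R N → R N, ContinuousOn φ' D ∧ ∀ x ∈ D, ‖φ' x - φ x‖ < ε ∧ φ' x ≠ 0 := by
  obtain ⟨f, hf, hfa⟩ := exists_smooth_approx hD hφ (half_pos hε)
  have h1 := interior_image_eq_empty hf hD hi
  obtain ⟨y, hy, hyD⟩ : ∃ y ∈ Metric.ball (0 : R N) (ε / 2), y ∉ f '' D := by
    by_contra h
    push Not at h
    have : (0 : R N) ∈ interior (f '' D) :=
      interior_maximal h Metric.isOpen_ball (Metric.mem_ball_self (half_pos hε))
    rw [h1] at this
    exact this
  refine ⟨fun x => f x - y, (hf.continuous.sub continuous_const).continuousOn, fun x hx => ⟨?_, fun h => ?_⟩⟩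
  · rw [mem_ball_zero_iff] at hy
    calc ‖f x - y - φ x‖ = ‖(f x - φ x) - y‖ := by congr 1; abel
      _ ≤ ‖f x - φ x‖ + ‖y‖ := norm_sub_le _ _
      _ < ε := by linarith [hfa x hx]
  · exact hyD ⟨x, hx, sub_eq_zero.1 h⟩

end Crest.Agent.R217
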