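import Crest.Agent.R217.Act
import Crest.Agent.R217.Sard

/-! # R217 / Avoid : invariant perturbations avoiding `0` on nowhere dense subsets of `Fx k` -/

set_option autoImplicit false
open Set Topology Filter

namespace Crest.Agent.R217

variable {p : ℕ} [Fact p.Prime] {N : ℕ} {X₀ : Set (R N)} {act : ℤ_[p] → R N → R N}

/-- One piece.  `avoid_zero` gives `δ = φ' - φ` on `D` with `‖δ‖ ≤ ε' < ε`.  Extend `δ` invariantly to
the compact saturation `G·D` (`δ (act a x) = δ x`; continuous because `ℤ_p × D → G·D` is a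
quotient map of compact Hausdorff spaces), extend to `K` by Tietze keeping the sup norm `≤ ε'`
(coordinatewise, or compose with the coordinatewise truncation), average (`exists_avg`, closed
ball is convex; on `G·D` use the convex set `{δ x}`). -/
theorem Act.avoid_piece (hA : Act p X₀ act) {K D : Set (R N)} (hK : IsCompact K) (hKX : K ⊆ X₀)
    (hI : Inv act K) (hD : IsCompact D) (hDK : D ⊆ K) (hi : interior D = ∅)
    (hinj : ∀ a, ∀ x ∈ D, act a x ∈ D → act a x = x) {φ : R N → R N} (hφ : ContinuousOn φ K)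
    (hφI : ∀ a, ∀ x ∈ K, φ (act a x) = φ x) {ε : ℝ} (hε : 0 < ε) :
    ∃ φ' : R N → R N, ContinuousOn φ' K ∧ (∀ a, ∀ x ∈ K, φ' (act a x) = φ' x) ∧
      (∀ x ∈ K, ‖φ' x - φ x‖ < ε) ∧ ∀ x ∈ D, φ' x ≠ 0 := by
  classical
  obtain ⟨φ₁, hφ₁, hφ₁a⟩ := avoid_zero hD hi (hφ.mono hDK) (half_pos hε)
  set δ : R N → R N := fun x => φ₁ x - φ x with hδ
  have hδc : ContinuousOn δ D := hφ₁.sub (hφ.mono hDK)
  have hDX : D ⊆ X₀ := hDK.trans hKX
  have huniq : ∀ a b, ∀ x ∈ D, ∀ y ∈ D, act a x = act b y → x = y := by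
    intro a b x hx y hy h
    have h1 : act (-b + a) x = y := by
      rw [hA.add _ _ x (hDX hx), h, ← hA.add _ _ y (hDX hy), neg_add_cancel, hA.zero y (hDX hy)]
    rw [← h1, hinj _ x hx (h1 ▸ hy)]
  let δ' : R N → R N := fun y => if h : ∃ x ∈ D, ∃ a, act a x = y then δ h.choose else 0
  have hδ' : ∀ a, ∀ x ∈ D, δ' (act a x) = δ x := by
    intro a x hx
    have h : ∃ z ∈ D, ∃ b, act b z = act a x := ⟨x, hx, a, rfl⟩
    obtain ⟨hz, b, hb⟩ := h.choose_spec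
    simp only [δ', dif_pos h]
    rw [huniq _ _ _ hz _ hx hb]
  have hS := hA.isCompact_sat hD hDX
  have hδ'c : ContinuousOn δ' (⋃ a, act a '' D) := by
    rw [continuousOn_iff_isClosed]
    intro t ht
    have h1 : IsCompact (D ∩ δ ⁻¹' t) := hD.of_isClosed_subset
      (hδc.preimage_isClosed_of_isClosed hD.isClosed ht) inter_subset_left
    refine ⟨_, (hA.isCompact_sat h1 (inter_subset_left.trans hDX)).isClosed, ?_⟩
    ext y
    simp only [mem_inter_iff, mem_preimage, mem_iUnion, mem_image]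
    constructor
    · rintro ⟨h2, a, x, hx, rfl⟩
      exact ⟨⟨a, x, ⟨hx, by rwa [hδ' a x hx] at h2⟩, rfl⟩, a, x, hx, rfl⟩
    · rintro ⟨⟨a, x, ⟨hx, h2⟩, rfl⟩, h3⟩
      exact ⟨by rwa [hδ' a x hx], h3⟩
  obtain ⟨g, hg, hgS⟩ := Sard.exists_ext hS.isClosed hδ'c
  let ψ : R N → R N := fun y i => max (-(ε / 2)) (min (ε / 2) (g y i))
  have hψc : Continuous ψ := by fun_prop
  have hψb : ∀ y, ψ y ∈ Metric.closedBall (0 : R N) (ε / 2) := by
    intro y
    rw [mem_closedBall_zero_iff, pi_norm_le_iff_of_nonneg (half_pos hε).le]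
    intro i
    rw [Real.norm_eq_abs, abs_le]
    exact ⟨le_max_left _ _, max_le (by linarith) (min_le_left _ _)⟩
  have hψD : ∀ a, ∀ x ∈ D, ψ (act a x) = δ x := by
    intro a x hx
    funext i
    have h1 : |δ x i| ≤ ε / 2 := ((norm_le_pi_norm (δ x) i).trans (hφ₁a x hx).1.le)
    rw [abs_le] at h1
    simp only [ψ, hgS _ (mem_iUnion.2 ⟨a, x, hx, rfl⟩), hδ' a x hx, min_eq_right h1.2, max_eq_right h1.1]
  obtain ⟨χ, hχc, hχI, hχC⟩ := hA.exists_avg hKX hI hψc.continuousOn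
  refine ⟨fun x => φ x + χ x, hφ.add hχc, fun a x hx => by simp only [hφI a x hx, hχI a x hx],
    fun x hx => ?_, fun x hx => ?_⟩
  · have := hχC x hx _ (convex_closedBall _ _) Metric.isClosed_closedBall fun a => hψb _
    rw [mem_closedBall_zero_iff] at this
    rw [add_sub_cancel_left]
    linarith
  · have : χ x ∈ ({δ x} : Set (R N)) := hχC x (hDK hx) _ (convex_singleton _) isClosed_singleton fun a => hψD a x hx
    show φ x + χ x ≠ 0
    rw [mem_singleton_iff.1 this]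
    simpa [hδ] using (hφ₁a x hx).2

namespace Avoid

/-- `0` can be avoided on `A` -/
def Av (act : ℤ_[p] → R N → R N) (K A : Set (R N)) : Prop :=
  ∀ φ : R N → R N, ContinuousOn φ K → (∀ a, ∀ x ∈ K, φ (act a x) = φ x) → ∀ ε : ℝ, 0 < ε →
    ∃ φ' : R N → R N, ContinuousOn φ' K ∧ (∀ a, ∀ x ∈ K, φ' (act a x) = φ' x) ∧
      (∀ x ∈ K, ‖φ' x - φ x‖ < ε) ∧ ∀ x ∈ A, φ' x ≠ 0

theorem exists_lb {A : Set (R N)} (hA : IsCompact A) {φ : R N → R N} (hφ : ContinuousOn φ A)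
    (h : ∀ x ∈ A, φ x ≠ 0) : ∃ η : ℝ, 0 < η ∧ ∀ x ∈ A, η < ‖φ x‖ := by
  rcases A.eq_empty_or_nonempty with rfl | hne
  · exact ⟨1, one_pos, fun x hx => hx.elim⟩
  obtain ⟨x, hx, hm⟩ := hA.exists_isMinOn hne hφ.norm
  have := norm_pos_iff.2 (h x hx)
  exact ⟨‖φ x‖ / 2, half_pos this, fun y hy => lt_of_lt_of_le (half_lt_self this) (hm hy)⟩

/-- two-step avoidance -/
theorem Av.step {K A A₀ : Set (R N)} (h₀ : Av act K A₀) (hc : IsCompact A₀) (h₀K : A₀ ⊆ K) (hAK : A ⊆ K)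
    (h : ∀ (φ : R N → R N) (η : ℝ), ContinuousOn φ K → (∀ x ∈ A₀, η < ‖φ x‖) →
      Av act K (A ∩ {x | ‖φ x‖ ≤ η})) : Av act K A := by
  intro φ hφ hφI ε hε
  obtain ⟨φ₁, h1, h2, h3, h4⟩ := h₀ φ hφ hφI _ (half_pos hε)
  obtain ⟨η, hη, hη'⟩ := exists_lb hc (h1.mono h₀K) h4
  obtain ⟨φ₂, k1, k2, k3, k4⟩ := h φ₁ η h1 hη' φ₁ h1 h2 _ (lt_min hη (half_pos hε))
  refine ⟨φ₂, k1, k2, fun x hx => ?_, fun x hx h0 => ?_⟩
  · calc ‖φ₂ x - φ x‖ = ‖(φ₂ x - φ₁ x) + (φ₁ x - φ x)‖ := by congr 1; abel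
      _ ≤ ‖φ₂ x - φ₁ x‖ + ‖φ₁ x - φ x‖ := norm_add_le _ _
      _ < ε := by linarith [h3 x hx, (lt_min_iff.1 (k3 x hx)).2]
  · by_cases h5 : ‖φ₁ x‖ ≤ η
    · exact k4 x ⟨hx, h5⟩ h0
    · have := (lt_min_iff.1 (k3 x (hAK hx))).1
      rw [h0, zero_sub, norm_neg] at this
      exact h5 this.le

theorem Av.mono {K A B : Set (R N)} (h : Av act K B) (hAB : A ⊆ B) : Av act K A := by
  intro φ hφ hφI ε hε
  obtain ⟨φ₁, h1, h2, h3, h4⟩ := h φ hφ hφI ε hε
  exact ⟨φ₁, h1, h2, h3, fun x hx => h4 x (hAB hx)⟩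

theorem Av.union {K A B : Set (R N)} (hA : Av act K A) (hB : Av act K B) (hc : IsCompact A) (hAK : A ⊆ K)
    (hBK : B ⊆ K) : Av act K (A ∪ B) :=
  hA.step hc hAK (union_subset hAK hBK) fun _ _ _ h => hB.mono fun x hx =>
    hx.1.resolve_left fun hxA => (not_le.2 (h x hxA)) hx.2

theorem Av.of_local {K C : Set (R N)} (hC : IsCompact C)
    (h : ∀ x ∈ C, ∃ D ∈ 𝓝[C] x, IsCompact D ∧ D ⊆ K ∧ Av act K D) : Av act K C := by
  obtain ⟨t, -, -, h1, h2⟩ := hC.induction_on (p := fun s => ∃ t, IsCompact t ∧ t ⊆ K ∧ s ⊆ t ∧ Av act K t)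
    ⟨∅, isCompact_empty, empty_subset _, Subset.rfl, fun φ hφ hφI ε hε =>
      ⟨φ, hφ, hφI, fun x _ => by simpa using hε, fun x hx => hx.elim⟩⟩
    (fun s s' hs ⟨t, h1, h2, h3, h4⟩ => ⟨t, h1, h2, hs.trans h3, h4⟩)
    (fun s s' ⟨t, h1, h2, h3, h4⟩ ⟨t', k1, k2, k3, k4⟩ =>
      ⟨t ∪ t', h1.union k1, union_subset h2 k2, union_subset_union h3 k3, h4.union k4 h1 h2 k2⟩)
    (fun x hx => by
      obtain ⟨D, h1, h2, h3, h4⟩ := h x hx
      exact ⟨D, h1, D, h2, h3, Subset.rfl, h4⟩)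
  exact h2.mono h1

end Avoid
open Avoid

/-- Induction on `k`.  (First: "avoidable" compact sets are closed under finite unions, because a map
avoiding `0` on a compact set keeps avoiding it under small perturbations.)  `k = 0`: one piece.
Step: avoid `A ∩ Fx k` by `φ₁` (ε/2); the compact set `C = {x ∈ A | ‖φ₁ x‖ ≤ η}` misses `Fx k` for
small `η`; cover `C` by finitely many compact pieces `D ⊆ C ∩ {τ = τ x}` inside slices
(`exists_slice` with `W = X₀`; if `act a x ∈ D`, `x ∈ D` then `toZModPow (k+1) a = 0`, so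
`a ∈ p^(k+1) ℤ_p` fixes `x ∈ Fx (k+1)`); perturb by `< min η (ε/2)`. -/
theorem Act.avoid (hA : Act p X₀ act) {K : Set (R N)} (hK : IsCompact K) (hKX : K ⊆ X₀)
    (hI : Inv act K) (k : ℕ) {A : Set (R N)} (hAc : IsCompact A) (hAK : A ⊆ K)
    (hAF : A ⊆ Fx X₀ act k) (hi : interior A = ∅) {φ : R N → R N} (hφ : ContinuousOn φ K)
    (hφI : ∀ a, ∀ x ∈ K, φ (act a x) = φ x) {ε : ℝ} (hε : 0 < ε) :
    ∃ φ' : R N → R N, ContinuousOn φ' K ∧ (∀ a, ∀ x ∈ K, φ' (act a x) = φ' x) ∧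
      (∀ x ∈ K, ‖φ' x - φ x‖ < ε) ∧ ∀ x ∈ A, φ' x ≠ 0 := by
  suffices H : Av act K A from H φ hφ hφI ε hε
  clear hφ hφI hε φ ε
  have hsub : ∀ {B : Set (R N)}, B ⊆ A → interior B = ∅ := fun h =>
    eq_empty_of_subset_empty (hi ▸ interior_mono h)
  induction k generalizing A with
  | zero =>
    intro φ hφ hφI ε hε
    exact hA.avoid_piece hK hKX hI hAc hAK hi (fun a x hx _ => by simpa using (hAF hx).2 a) hφ hφI hε
  | succ k ih =>
    have h0 : IsCompact (A \ (X₀ \ Fx X₀ act k)) := hAc.diff (hA.isOpen_diff_Fx k)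
    have h1 : Av act K (A \ (X₀ \ Fx X₀ act k)) := ih h0 (sdiff_subset.trans hAK)
      (fun x hx => by_contra fun h => hx.2 ⟨hKX (hAK hx.1), h⟩) (hsub sdiff_subset)
      fun h => hsub (h.trans sdiff_subset)
    refine h1.step h0 (sdiff_subset.trans hAK) hAK fun φ η hφ hη => ?_
    have hC : IsCompact (A ∩ {x | ‖φ x‖ ≤ η}) := hAc.of_isClosed_subset
      (((hφ.mono hAK).norm).preimage_isClosed_of_isClosed hAc.isClosed isClosed_Iic) inter_subset_left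
    refine Av.of_local hC fun x hx => ?_
    have hxX : x ∈ X₀ := hKX (hAK hx.1)
    have hxF : x ∉ Fx X₀ act k := fun h => (not_le.2 (hη x ⟨hx.1, fun h' => h'.2 h⟩)) hx.2
    obtain ⟨U, hU, hxU, -, -, τ, hτ⟩ := hA.exists_slice hA.isOpen Subset.rfl hA.maps hxX hxF
    obtain ⟨L, hL, hLU, hLc⟩ := local_compact_nhds (inter_mem (hU.mem_nhds hxU) (hτ x hxU).2)
    refine ⟨A ∩ {x | ‖φ x‖ ≤ η} ∩ L, inter_mem_nhdsWithin _ hL, hC.inter hLc,
      fun y hy => hAK hy.1.1, fun ψ hψ hψI ε hε => ?_⟩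
    refine hA.avoid_piece hK hKX hI (hC.inter hLc) (fun y hy => hAK hy.1.1) (hsub fun y hy => hy.1.1)
      (fun a y hy hy' => ?_) hψ hψI hε
    have h2 := (hτ y (hLU hy.2).1).1 a
    have h3 : τ (act a y) = τ x := (hLU hy'.2).2
    have h4 : τ y = τ x := (hLU hy.2).2
    rw [h3, h4, left_eq_add] at h2
    have h5 : a ∈ RingHom.ker (PadicInt.toZModPow (p := p) (k + 1)) := h2
    rw [PadicInt.ker_toZModPow, Ideal.mem_span_singleton] at h5
    obtain ⟨b, rfl⟩ := h5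
    exact (hAF hy.1.1).2 b

end Crest.Agent.R217
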