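import Crest.Agent.R217.Defs

/-! # R217 / Basic : supports, locality, `dT`, gauge, pull back -/

set_option autoImplicit false
open Set Topology Filter

namespace Crest.Agent.R217

section alg
variable {X Y : Type*} {E E' : Type*} [AddCommGroup E] [AddCommGroup E']

/-- locality of `dd` (induction on `l` generalising `f g`) -/
theorem dd_congr {f g : Co X E} {l : List X}
    (h : ∀ l' : List X, l'.length + 1 = l.length → (∀ x ∈ l', x ∈ l) → f l' = g l') :
    dd f l = dd g l := by
  induction l generalizing f g with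
  | nil => rfl
  | cons x l ih =>
    rw [dd_cons, dd_cons, h l rfl fun y hy => List.mem_cons_of_mem _ hy]
    congr 1
    refine ih fun l' h1 h2 => h (x :: l') (by simp [h1]) fun y hy => ?_
    rcases List.mem_cons.1 hy with rfl | hy
    · exact List.mem_cons_self
    · exact List.mem_cons_of_mem _ (h2 y hy)

theorem dd_sub (f g : Co X E) : dd (f - g) = dd f - dd g := by
  exact eq_sub_of_add_eq (by rw [← dd_add, sub_add_cancel])

/-- `(dd f) ∘ cons x = f - dd (f ∘ cons x)`, induction on the list -/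
theorem dd_dd (f : Co X E) : dd (dd f) = 0 := by
  funext l
  induction l generalizing f with
  | nil => rfl
  | cons x l ih =>
    rw [dd_cons, show (fun l' => dd f (x :: l')) = f - dd (fun l' => f (x :: l')) from rfl, dd_sub,
      Pi.sub_apply, ih]
    simp

theorem dd_map_list (φ : Y → X) (f : Co X E) (l : List Y) :
    dd (fun l' => f (l'.map φ)) l = dd f (l.map φ) := by
  induction l generalizing f with
  | nil => rfl
  | cons x l ih =>
    rw [List.map_cons, dd_cons, dd_cons, ← ih]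
    rfl

variable [Module ℝ E] [Module ℝ E']

theorem dT_singleton (T : Tw X E) (f : Co X E) (x : X) : dT T f [x] = 0 := by
  simp [dT_cons, dd_cons]

theorem dT_pair (T : Tw X E) (f : Co X E) (x y : X) :
    dT T f [x, y] = T x y (f [y]) - T x x (f [x]) := by
  simp [dT_cons, dd_cons]

theorem dT_T1 (f : Co X E) {l : List X} (hl : 2 ≤ l.length) : dT (T1 X E) f l = dd f l := by
  cases l with
  | nil => simp at hl
  | cons x l =>
    rw [dT_cons]
    refine dd_congr fun l' h1 _ => ?_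
    cases l' with
    | nil => simp only [List.length_cons, List.length_nil] at h1 hl; omega
    | cons y l' => rfl

theorem dT_congr (T : Tw X E) {f g : Co X E} {l : List X}
    (h : ∀ l' : List X, l'.length + 1 = l.length → (∀ x ∈ l', x ∈ l) → f l' = g l') :
    dT T f l = dT T g l := by
  cases l with
  | nil => rfl
  | cons x l =>
    rw [dT_cons, dT_cons]
    refine dd_congr fun l' h1 h2 => ?_
    cases l' with
    | nil => rfl
    | cons y l' => rw [gau_cons, gau_cons, h _ h1 h2]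

/-- naturality in the coefficients (exact) -/
theorem dT_gau_const (φ : E →ₗ[ℝ] E') (T : Tw X E) (T' : Tw X E')
    (h : ∀ x y, T' x y ∘ₗ φ = φ ∘ₗ T x y) (f : Co X E) :
    dT T' (gau (fun _ => φ) f) = gau (fun _ => φ) (dT T f) := by
  funext l
  cases l with
  | nil => rfl
  | cons x l =>
    rw [dT_cons, gau_cons, dT_cons]
    refine Eq.trans ?_ (dd_map φ.toAddMonoidHom (gau (T x) f) (x :: l))
    congr 1
    funext l'
    cases l' with
    | nil => simp
    | cons y l' => exact LinearMap.congr_fun (h x y) _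

theorem gau_gau {E'' : Type*} [AddCommGroup E''] [Module ℝ E''] (a : X → E →ₗ[ℝ] E')
    (a' : X → E' →ₗ[ℝ] E'') (f : Co X E) :
    gau a' (gau a f) = gau (fun x => a' x ∘ₗ a x) f := by
  funext l
  cases l <;> rfl

theorem hm_cons (S : Set X) (f : Co X E) (x : X) (l : List X) [Decidable (x ∈ S)] :
    hm S f (x :: l) = if x ∈ S then f (x :: l) else 0 := by
  by_cases h : x ∈ S <;> simp [hm, h]

theorem hm_nil (S : Set X) (f : Co X E) : hm S f [] = 0 := rfl

theorem hm_gau (S : Set X) (a : X → E →ₗ[ℝ] E') (f : Co X E) :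
    hm S (gau a f) = gau a (hm S f) := by
  classical
  funext l
  cases l with
  | nil => rfl
  | cons x l =>
    rw [hm_cons, gau_cons, gau_cons, hm_cons]
    split_ifs <;> simp

theorem hm_hm (S S' : Set X) (f : Co X E) : hm S (hm S' f) = hm (S ∩ S') f := by
  classical
  funext l
  cases l with
  | nil => rfl
  | cons x l =>
    rw [hm_cons, hm_cons, hm_cons]
    by_cases h : x ∈ S <;> by_cases h' : x ∈ S' <;> simp [h, h']

theorem hm_add_compl (S : Set X) (f : Co X E) {l : List X} (hl : l ≠ []) :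
    hm S f l + hm Sᶜ f l = f l := by
  classical
  cases l with
  | nil => exact absurd rfl hl
  | cons x l =>
    rw [hm_cons, hm_cons]
    by_cases h : x ∈ S <;> simp [h]

theorem pb_dT (φ : Y → X) (T : Tw X E) (f : Co X E) :
    pb φ (dT T f) = dT (pbT φ T) (pb φ f) := by
  funext l
  cases l with
  | nil => rfl
  | cons x l =>
    rw [pb_apply, List.map_cons, dT_cons, dT_cons, ← List.map_cons, ← dd_map_list]
    congr 1
    funext l'
    cases l' <;> rfl

theorem pb_gau (φ : Y → X) (a : X → E →ₗ[ℝ] E') (f : Co X E) :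
    pb φ (gau a f) = gau (fun y => a (φ y)) (pb φ f) := by
  funext l
  cases l <;> rfl

theorem pb_hm (φ : Y → X) (S : Set X) (f : Co X E) : pb φ (hm S f) = hm (φ ⁻¹' S) (pb φ f) := by
  exact pb_gau φ _ f

theorem pb_pb {Y' : Type*} (φ : Y → X) (ψ : Y' → Y) (f : Co X E) :
    pb ψ (pb φ f) = pb (φ ∘ ψ) f := by
  funext l
  simp

theorem pbT_T1 (φ : Y → X) : pbT φ (T1 X E) = T1 Y E := rfl

theorem dT_smul_complex [Module ℂ E] {T : Tw X E} (hT : ∀ x y (c : ℂ) e, T x y (c • e) = c • T x y e)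
    (c : ℂ) (f : Co X E) : dT T (c • f) = c • dT T f := by
  funext l
  cases l with
  | nil => simp
  | cons x l =>
    rw [Pi.smul_apply, dT_cons, dT_cons]
    refine Eq.trans ?_ (dd_map (DistribSMul.toAddMonoidHom E c) (gau (T x) f) (x :: l))
    congr 1
    funext l'
    cases l' with
    | nil => simp
    | cons y l' => exact hT x y c _

theorem hm_smul_complex [Module ℂ E] (S : Set X) (c : ℂ) (f : Co X E) :
    hm S (c • f) = c • hm S f := by
  classical
  funext l
  cases l with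
  | nil => simp [hm_nil]
  | cons x l =>
    rw [Pi.smul_apply, hm_cons, hm_cons]
    split_ifs <;> simp

end alg

section loc
variable {X Y : Type*} [TopologicalSpace X] [TopologicalSpace Y] {E E' E'' : Type*}
  [AddCommGroup E] [AddCommGroup E'] [AddCommGroup E'']

theorem Basic.supp_subset {k j : ℕ} {f : Co X E} {g : Co X E'}
    (h : ∀ W : Set X, (∀ l : List X, l.length = k → (∀ x ∈ l, x ∈ W) → f l = 0) →
      ∀ l : List X, l.length = j → (∀ x ∈ l, x ∈ W) → g l = 0) : supp j g ⊆ supp k f := by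
  intro z hz
  by_contra h'
  obtain ⟨W, hW, h1⟩ := not_mem_supp.1 h'
  exact not_mem_supp.2 ⟨W, hW, h W h1⟩ hz

theorem isClosed_supp (k : ℕ) (f : Co X E) : IsClosed (supp k f) := by
  refine isOpen_compl_iff.1 (isOpen_iff_mem_nhds.2 fun z hz => ?_)
  obtain ⟨W, hW, h⟩ := not_mem_supp.1 hz
  filter_upwards [eventually_mem_nhds_iff.2 hW] with y hy using not_mem_supp.2 ⟨W, hy, h⟩

theorem supp_neg (k : ℕ) (f : Co X E) : supp k (-f) = supp k f := by
  refine Subset.antisymm (Basic.supp_subset fun W h l h1 h2 => ?_)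
    (Basic.supp_subset fun W h l h1 h2 => ?_)
  · simp [h l h1 h2]
  · simpa using h l h1 h2

theorem supp_sub (k : ℕ) (f g : Co X E) : supp k (f - g) ⊆ supp k f ∪ supp k g := by
  rw [sub_eq_add_neg, ← supp_neg k g]
  exact supp_add k f (-g)

theorem supp_dd (k : ℕ) (f : Co X E) : supp (k + 1) (dd f) ⊆ supp k f := by
  refine Basic.supp_subset fun W h l h1 h2 => ?_
  rw [dd_congr (g := 0) fun l' k1 k2 => h l' (by omega) fun x hx => h2 x (k2 x hx)]
  have := dd_sub (0 : Co X E) 0
  rw [sub_self, sub_self] at this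
  rw [this]
  rfl

theorem Van.mono {k : ℕ} {U V : Set X} {f : Co X E} (h : Van k V f) (hUV : U ⊆ V) : Van k U f :=
  fun z hz => h z (hUV hz)

theorem Van.union {k : ℕ} {U V : Set X} {f : Co X E} (hU : Van k U f) (hV : Van k V f) :
    Van k (U ∪ V) f := fun z hz => hz.elim (hU z) (hV z)

theorem van_iff_inter {k : ℕ} {U : Set X} {f : Co X E} : Van k U f ↔ supp k f ∩ U = ∅ := by
  rw [eq_empty_iff_forall_notMem]
  exact ⟨fun h z hz => h z hz.2 hz.1, fun h z hz hz' => h z ⟨hz', hz⟩⟩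

theorem van_of_forall {k : ℕ} {U : Set X} (hU : IsOpen U) {f : Co X E}
    (h : ∀ l : List X, l.length = k → (∀ x ∈ l, x ∈ U) → f l = 0) : Van k U f := by
  exact fun z hz => not_mem_supp.2 ⟨U, hU.mem_nhds hz, h⟩

theorem Van.add {k : ℕ} {U : Set X} {f g : Co X E} (hf : Van k U f) (hg : Van k U g) :
    Van k U (f + g) := by
  exact fun z hz h => (supp_add k f g h).elim (hf z hz) (hg z hz)

theorem Van.neg {k : ℕ} {U : Set X} {f : Co X E} (hf : Van k U f) : Van k U (-f) := by
  exact fun z hz h => hf z hz (supp_neg k f ▸ h)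

theorem Van.sub {k : ℕ} {U : Set X} {f g : Co X E} (hf : Van k U f) (hg : Van k U g) :
    Van k U (f - g) := by
  exact fun z hz h => (supp_sub k f g h).elim (hf z hz) (hg z hz)

theorem Van.symm {k : ℕ} {U : Set X} {f g : Co X E} (h : Van k U (f - g)) : Van k U (g - f) := by
  rw [← neg_sub]
  exact h.neg

theorem Van.trans {k : ℕ} {U : Set X} {f g h : Co X E} (h₁ : Van k U (f - g))
    (h₂ : Van k U (g - h)) : Van k U (f - h) := by
  rw [← sub_add_sub_cancel f g h]
  exact h₁.add h₂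

/-- locally equal cochains have the same support in `U` -/
theorem Van.supp_eq {k : ℕ} {U : Set X} {f g : Co X E} (h : Van k U (f - g)) :
    supp k f ∩ U = supp k g ∩ U := by
  ext z
  constructor
  · rintro ⟨h1, h2⟩
    rw [← sub_add_cancel f g] at h1
    exact ⟨(supp_add k _ _ h1).resolve_left (h z h2), h2⟩
  · rintro ⟨h1, h2⟩
    rw [← sub_add_cancel g f] at h1
    exact ⟨(supp_add k _ _ h1).resolve_left (h.symm z h2), h2⟩

theorem van_one_iff {U : Set X} (hU : IsOpen U) {f : Co X E} :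
    Van 1 U f ↔ ∀ x ∈ U, f [x] = 0 := by
  constructor
  · intro h x hx
    obtain ⟨W, hW, h1⟩ := not_mem_supp.1 (h x hx)
    exact h1 [x] rfl (by simpa using mem_of_mem_nhds hW)
  · intro h
    refine van_of_forall hU fun l h1 h2 => ?_
    obtain ⟨x, rfl⟩ := List.length_eq_one_iff.1 h1
    exact h x (h2 x List.mem_cons_self)

theorem isCompact_supp_inter {k : ℕ} {f : Co X E} {Ω K : Set X} (hK : IsCompact K) (hKΩ : K ⊆ Ω)
    (h : supp k f ∩ Ω ⊆ K) : IsCompact (supp k f ∩ Ω) := by
  have : supp k f ∩ Ω = K ∩ supp k f :=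
    Subset.antisymm (fun z hz => ⟨h hz, hz.1⟩) fun z hz => ⟨hz.2, hKΩ hz.1⟩
  rw [this]
  exact hK.inter_right (isClosed_supp k f)

theorem supp_smul_complex [Module ℂ E] (k : ℕ) (c : ℂ) (f : Co X E) :
    supp k (c • f) ⊆ supp k f := by
  exact Basic.supp_subset fun W h l h1 h2 => by simp [h l h1 h2]

variable [Module ℝ E] [Module ℝ E'] [Module ℝ E'']

theorem Van.smul {k : ℕ} {U : Set X} {f : Co X E} (hf : Van k U f) (c : ℝ) : Van k U (c • f) :=
  fun z hz h => hf z hz (supp_smul k c f h)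

theorem supp_gau (k : ℕ) (a : X → E →ₗ[ℝ] E') (f : Co X E) : supp k (gau a f) ⊆ supp k f := by
  refine Basic.supp_subset fun W h l h1 h2 => ?_
  cases l with
  | nil => rfl
  | cons x l => rw [gau_cons, h _ h1 h2, map_zero]

theorem supp_hm (k : ℕ) (S : Set X) (f : Co X E) : supp k (hm S f) ⊆ supp k f ∩ closure S := by
  classical
  refine subset_inter (supp_gau k _ f) fun z hz => ?_
  by_contra h
  refine van_of_forall (k := k) (f := hm S f) isClosed_closure.isOpen_compl (fun l _ h2 => ?_) z h hz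
  cases l with
  | nil => rfl
  | cons x l => rw [hm_cons, if_neg fun hx => h2 x List.mem_cons_self (subset_closure hx)]

theorem van_sub_hm (k : ℕ) (S : Set X) (f : Co X E) : Van (k + 1) (interior S) (f - hm S f) := by
  classical
  refine van_of_forall isOpen_interior fun l h1 h2 => ?_
  cases l with
  | nil => simp at h1
  | cons x l => rw [Pi.sub_apply, hm_cons, if_pos (interior_subset (h2 x List.mem_cons_self)), sub_self]

theorem van_hm_compl (k : ℕ) (S U : Set X) (f : Co X E) :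
    Van (k + 1) U (f - (hm S f + hm Sᶜ f)) := by
  refine Van.mono (van_of_forall isOpen_univ fun l h1 _ => ?_) (subset_univ _)
  rw [Pi.sub_apply, Pi.add_apply, hm_add_compl S f (by rintro rfl; simp at h1), sub_self]

/-- gauges (in particular `hm`) agreeing on an open set -/
theorem van_gau_congr (k : ℕ) {U : Set X} (hU : IsOpen U) {a a' : X → E →ₗ[ℝ] E'}
    (h : ∀ x ∈ U, a x = a' x) (f : Co X E) : Van k U (gau a f - gau a' f) := by
  refine van_of_forall hU fun l _ h2 => ?_
  cases l with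
  | nil => simp
  | cons x l => rw [Pi.sub_apply, gau_cons, gau_cons, h x (h2 x List.mem_cons_self), sub_self]

theorem van_gau_id (k : ℕ) {U : Set X} (hU : IsOpen U) {a : X → E →ₗ[ℝ] E}
    (h : ∀ x ∈ U, a x = LinearMap.id) (f : Co X E) : Van (k + 1) U (gau a f - f) := by
  refine van_of_forall hU fun l h1 h2 => ?_
  cases l with
  | nil => simp at h1
  | cons x l => simp [h x (h2 x List.mem_cons_self)]

theorem van_hm_congr (k : ℕ) {U S S' : Set X} (hU : IsOpen U) (h : ∀ x ∈ U, x ∈ S ↔ x ∈ S')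
    (f : Co X E) : Van k U (hm S f - hm S' f) := by
  unfold hm
  refine van_gau_congr k hU (fun x hx => ?_) f
  by_cases h1 : x ∈ S
  · rw [if_pos h1, if_pos ((h x hx).1 h1)]
  · rw [if_neg h1, if_neg (mt (h x hx).2 h1)]

theorem supp_dT (k : ℕ) (T : Tw X E) (f : Co X E) : supp (k + 1) (dT T f) ⊆ supp k f := by
  refine Basic.supp_subset fun W h l h1 h2 => ?_
  rw [dT_congr T (g := 0) fun l' k1 k2 => h l' (by omega) fun x hx => h2 x (k2 x hx), map_zero]
  rfl

theorem van_one_dT (U : Set X) (T : Tw X E) (f : Co X E) : Van 1 U (dT T f) := by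
  exact Van.mono ((van_one_iff isOpen_univ).2 fun x _ => dT_singleton T f x) (subset_univ _)

theorem Van.dT {k : ℕ} {U : Set X} {f : Co X E} (h : Van k U f) (T : Tw X E) :
    Van (k + 1) U (dT T f) := fun z hz h' => h z hz (supp_dT k T f h')

/-- on lists in `W`: `gau (T' x) (gau a f) = a x ∘ gau (T x) f`; `dd_congr`, `dd_map` -/
theorem Inter.van {U : Set X} {a : X → E →ₗ[ℝ] E'} {T : Tw X E} {T' : Tw X E'}
    (h : Inter U a T T') (k : ℕ) (f : Co X E) :
    Van k U (dT T' (gau a f) - gau a (dT T f)) := by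
  intro z hz
  obtain ⟨W, hW, h1⟩ := h z hz
  refine not_mem_supp.2 ⟨W, hW, fun l _ h2 => ?_⟩
  cases l with
  | nil => simp
  | cons x l =>
    rw [Pi.sub_apply, sub_eq_zero, dT_cons, gau_cons, dT_cons]
    refine Eq.trans ?_ (dd_map (a x).toAddMonoidHom (gau (T x) f) (x :: l))
    refine dd_congr fun l' _ k2 => ?_
    cases l' with
    | nil => simp
    | cons y l' =>
      exact LinearMap.congr_fun (h1 x (h2 x List.mem_cons_self) y
        (h2 y (k2 y List.mem_cons_self))) _

/-- near `z`, `T z` intertwines `T` with the trivial connection and `T · z` goes back -/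
theorem Flat.triv {U : Set X} {T : Tw X E} (h : Flat U T) {z : X} (hz : z ∈ U) :
    ∃ W ∈ 𝓝 z, Triv W T := by
  obtain ⟨W, hW, h1, h2⟩ := h z hz
  have hzW := mem_of_mem_nhds hW
  refine ⟨interior W, interior_mem_nhds.2 hW, fun x => T x z, fun x => T z x, fun x hx => ?_,
    fun y hy => ⟨W, mem_interior_iff_mem_nhds.1 hy, fun x hx y hy => ?_⟩,
    fun y hy => ⟨W, mem_interior_iff_mem_nhds.1 hy, fun x hx y hy => ?_⟩⟩
  · have hx' := interior_subset hx
    exact ⟨(h2 x hx' z hzW x hx').trans (h1 x hx'), (h2 z hzW x hx' z hzW).trans (h1 z hzW)⟩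
  · rw [h2 x hx y hy z hzW]; rfl
  · rw [h2 z hzW x hx y hy]; rfl

/-- for `l ⊆ W` with head `x`: `gau (T x) (dT T f) = dd (gau (T x) f)` on lists in `W` of length
`≠ 0` (length one: both vanish), then `dd_dd` -/
theorem Flat.dT_dT {U : Set X} {T : Tw X E} (h : Flat U T) (k : ℕ) (f : Co X E) :
    Van k U (dT T (dT T f)) := by
  intro z hz
  obtain ⟨W, hW, -, h2⟩ := h z hz
  refine not_mem_supp.2 ⟨W, hW, fun l _ hl => ?_⟩
  cases l with
  | nil => rfl
  | cons x l =>
    have hx := hl x List.mem_cons_self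
    rw [dT_cons, dd_congr (g := dd (gau (T x) f)), dd_dd]
    · rfl
    intro l' _ k2
    cases l' with
    | nil => rfl
    | cons y l' =>
      rw [gau_cons, dT_cons]
      refine (dd_map (T x y).toAddMonoidHom (gau (T y) f) (y :: l')).symm.trans ?_
      refine dd_congr fun l'' _ k3 => ?_
      cases l'' with
      | nil => simp
      | cons w l'' =>
        exact LinearMap.congr_fun (h2 x hx y (hl y (k2 y List.mem_cons_self)) w
          (hl w (k2 w (k3 w List.mem_cons_self)))) _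

theorem flat_T1 (U : Set X) : Flat U (T1 X E) := by
  exact fun z _ => ⟨univ, univ_mem, fun _ _ => rfl, fun _ _ _ _ _ _ => rfl⟩

theorem Flat.mono {U V : Set X} {T : Tw X E} (h : Flat V T) (hUV : U ⊆ V) : Flat U T :=
  fun z hz => h z (hUV hz)

theorem Compat.mono {U V : Set X} {μ : E →ₗ[ℝ] E' →ₗ[ℝ] E''} {T : Tw X E} {T' : Tw X E'}
    {T'' : Tw X E''} (h : Compat V μ T T' T'') (hUV : U ⊆ V) : Compat U μ T T' T'' :=
  fun z hz => h z (hUV hz)

theorem Inter.mono {U V : Set X} {a : X → E →ₗ[ℝ] E'} {T : Tw X E} {T' : Tw X E'}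
    (h : Inter V a T T') (hUV : U ⊆ V) : Inter U a T T' := fun z hz => h z (hUV hz)

theorem Triv.mono {U V : Set X} {T : Tw X E} (h : Triv V T) (hUV : U ⊆ V) : Triv U T := by
  obtain ⟨a, a', h1, h2, h3⟩ := h
  exact ⟨a, a', fun x hx => h1 x (hUV hx), h2.mono hUV, h3.mono hUV⟩

theorem supp_dT_hm (k : ℕ) (T : Tw X E) (S : Set X) (f : Co X E) :
    supp (k + 2) (dT T (hm S f) - hm S (dT T f)) ⊆ frontier S ∩ supp (k + 1) f := by
  intro z hz
  have hf : z ∈ supp (k + 1) f := by
    rcases supp_sub _ _ _ hz with h | h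
    · exact (supp_hm _ _ _ (supp_dT _ _ _ h)).1
    · exact supp_dT _ _ _ (supp_hm _ _ _ h).1
  refine ⟨⟨?_, fun hi => ?_⟩, hf⟩
  · rcases supp_sub _ _ _ hz with h | h
    · exact (supp_hm _ _ _ (supp_dT _ _ _ h)).2
    · exact (supp_hm _ _ _ h).2
  · have h1 := (van_sub_hm k S f).symm.dT T
    rw [map_sub] at h1
    exact h1.trans (van_sub_hm (k + 1) S (dT T f)) z hi hz

/-- for a cocycle `y` on `U`, `dT (hm S y)` lives on the frontier of `S` -/
theorem supp_dT_hm_cocycle {k : ℕ} {T : Tw X E} {U : Set X} {y : Co X E} (hy : y ∈ Zc T k U)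
    (S : Set X) : supp (k + 2) (dT T (hm S y)) ∩ U ⊆ frontier S ∩ supp (k + 1) y := by
  rintro z ⟨hz, hU⟩
  rw [← sub_add_cancel (dT T (hm S y)) (hm S (dT T y))] at hz
  exact supp_dT_hm k T S y ((supp_add _ _ _ hz).resolve_right
    fun h => hy z hU (supp_hm _ _ _ h).1)

theorem supp_pb {k : ℕ} {φ : Y → X} {z : Y} (hφ : ContinuousAt φ z) {f : Co X E}
    (hz : z ∈ supp k (pb φ f)) : φ z ∈ supp k f := by
  by_contra h
  obtain ⟨W, hW, h1⟩ := not_mem_supp.1 h
  refine not_mem_supp.2 ⟨φ ⁻¹' W, hφ hW, fun l k1 k2 => h1 _ (by simpa using k1) fun x hx => ?_⟩ hz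
  obtain ⟨y, hy, rfl⟩ := List.mem_map.1 hx
  exact k2 y hy

theorem Van.pb {k : ℕ} {φ : Y → X} {U : Set Y} {V : Set X} (hU : IsOpen U)
    (hφ : ContinuousOn φ U) (hm : MapsTo φ U V) {f : Co X E} (h : Van k V f) :
    Van k U (pb φ f) := by
  exact fun z hz h' => h _ (hm hz) (supp_pb (hφ.continuousAt (hU.mem_nhds hz)) h')

theorem van_pb_congr (k : ℕ) {φ ψ : Y → X} {U : Set Y} (hU : IsOpen U) (h : ∀ y ∈ U, φ y = ψ y)
    (f : Co X E) : Van k U (pb φ f - pb ψ f) := by
  refine van_of_forall hU fun l _ h2 => ?_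
  rw [Pi.sub_apply, pb_apply, pb_apply, List.map_congr_left fun y hy => h y (h2 y hy), sub_self]

theorem Flat.pbT {φ : Y → X} {U : Set Y} {V : Set X} (hU : IsOpen U) (hφ : ContinuousOn φ U)
    (hm : MapsTo φ U V) {T : Tw X E} (h : Flat V T) : Flat U (pbT φ T) := by
  intro z hz
  obtain ⟨W, hW, h1, h2⟩ := h _ (hm hz)
  exact ⟨φ ⁻¹' W, hφ.continuousAt (hU.mem_nhds hz) hW, fun x hx => h1 _ hx,
    fun x hx y hy w hw => h2 _ hx _ hy _ hw⟩

theorem Compat.pbT {φ : Y → X} {U : Set Y} {V : Set X} (hU : IsOpen U) (hφ : ContinuousOn φ U)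
    (hm : MapsTo φ U V) {μ : E →ₗ[ℝ] E' →ₗ[ℝ] E''} {T : Tw X E} {T' : Tw X E'} {T'' : Tw X E''}
    (h : Compat V μ T T' T'') : Compat U μ (pbT φ T) (pbT φ T') (pbT φ T'') := by
  intro z hz
  obtain ⟨W, hW, h1⟩ := h _ (hm hz)
  exact ⟨φ ⁻¹' W, hφ.continuousAt (hU.mem_nhds hz) hW, fun x hx y hy => h1 _ hx _ hy⟩

theorem Inter.pbT {φ : Y → X} {U : Set Y} {V : Set X} (hU : IsOpen U) (hφ : ContinuousOn φ U)
    (hm : MapsTo φ U V) {a : X → E →ₗ[ℝ] E'} {T : Tw X E} {T' : Tw X E'} (h : Inter V a T T') :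
    Inter U (fun y => a (φ y)) (pbT φ T) (pbT φ T') := by
  intro z hz
  obtain ⟨W, hW, h1⟩ := h _ (hm hz)
  exact ⟨φ ⁻¹' W, hφ.continuousAt (hU.mem_nhds hz) hW, fun x hx y hy => h1 _ hx _ hy⟩

/-- connections that agree on an open set -/
theorem van_dT_congr (k : ℕ) {U : Set X} {T T' : Tw X E}
    (h : Inter U (fun _ => LinearMap.id) T T') (f : Co X E) : Van k U (dT T' f - dT T f) := by
  intro z hz
  obtain ⟨W, hW, h1⟩ := h z hz
  refine not_mem_supp.2 ⟨W, hW, fun l _ h2 => ?_⟩
  cases l with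
  | nil => simp
  | cons x l =>
    rw [Pi.sub_apply, sub_eq_zero, dT_cons, dT_cons]
    refine dd_congr fun l' _ k2 => ?_
    cases l' with
    | nil => simp
    | cons y l' =>
      exact LinearMap.congr_fun (h1 x (h2 x List.mem_cons_self) y
        (h2 y (k2 y List.mem_cons_self))) _

/-- `x ↦ f [x]` is locally constant -/
theorem const_of_cocycle {U : Set X} (hU : IsOpen U) (hc : IsPreconnected U) {f : Co X E}
    (hf : f ∈ Zc (T1 X E) 0 U) : ∃ e : E, ∀ x ∈ U, f [x] = e := by
  rcases U.eq_empty_or_nonempty with rfl | ⟨x₀, hx₀⟩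
  · exact ⟨0, fun _ h => h.elim⟩
  have hloc : ∀ z ∈ U, ∀ᶠ y in 𝓝 z, f [y] = f [z] := by
    intro z hz
    obtain ⟨W, hW, h1⟩ := not_mem_supp.1 (hf z hz)
    filter_upwards [hW] with y hy
    have := h1 [z, y] rfl (by simp [hy, mem_of_mem_nhds hW])
    rw [dT_pair] at this
    exact sub_eq_zero.1 this
  refine ⟨f [x₀], fun x hx => ?_⟩
  refine hc.induction₂' (fun x y => f [y] = f [x]) (fun z hz => ?_) (fun x y z _ _ _ h1 h2 => h2.trans h1) hx₀ hx
  filter_upwards [mem_nhdsWithin_of_mem_nhds (hloc z hz)] with y hy using ⟨hy, hy.symm⟩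

theorem const_mem_Zc (U : Set X) (e : E) : (fun _ => e : Co X E) ∈ Zc (T1 X E) 0 U := by
  refine Van.mono (van_of_forall isOpen_univ fun l h1 _ => ?_) (subset_univ _)
  obtain ⟨x, y, rfl⟩ := List.length_eq_two.1 h1
  rw [dT_pair]
  exact sub_self _

/-- gauge invariance of vanishing of cohomology -/
theorem ExT.of_inter {U : Set X} (hU : IsOpen U) {a : X → E →ₗ[ℝ] E'} {a' : X → E' →ₗ[ℝ] E}
    {T : Tw X E} {T' : Tw X E'} (ha : Inter U a T T') (ha' : Inter U a' T' T)
    (hid : ∀ x ∈ U, a x ∘ₗ a' x = LinearMap.id) {k : ℕ} (h : ExT T k U) : ExT T' k U := by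
  intro f hf
  have h1 : gau a' f ∈ Zc T k U := by
    have := (ha'.van (k + 2) f).add (fun z hz h' => hf z hz (supp_gau _ a' _ h'))
    rwa [sub_add_cancel] at this
  obtain ⟨w, hw⟩ := h _ h1
  refine ⟨gau a w, ?_⟩
  have h2 : Van (k + 1) U (gau a (gau a' f) - gau a (dT T w)) := by
    rw [← map_sub]
    exact fun z hz h' => hw z hz (supp_gau _ a _ h')
  have h3 : Van (k + 1) U (gau a (gau a' f) - f) := by
    rw [gau_gau]
    exact van_gau_id k hU hid f
  exact (h3.symm.trans h2).trans (ha.van (k + 1) w).symm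

end loc

end Crest.Agent.R217
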