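import Crest.Agent.R217.Defs

/-! # R217 / DegTh : the interface "degree theory with the twisting property", and `ℤ_p`-actions
(definitions only). -/

set_option autoImplicit false
open Set Topology Filter

namespace Crest.Agent.R217

/-- `φ` is continuous on the open set `W` with compact zero set -/
def Adm0 {N : ℕ} (φ : R N → R N) (W : Set (R N)) : Prop :=
  IsOpen W ∧ ContinuousOn φ W ∧ IsCompact (W ∩ φ ⁻¹' {0})

/-- invariant compact sets have small invariant open neighbourhoods -/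
def NbhdProp {N : ℕ} (g : R N → R N) (W : Set (R N)) : Prop :=
  ∀ C O : Set (R N), IsCompact C → IsOpen O → C ⊆ O → O ⊆ W → g '' C = C → g '' O = O →
    ∃ V, IsOpen V ∧ C ⊆ V ∧ IsCompact (closure V) ∧ closure V ⊆ O ∧ g '' V = V

/-- `W` is covered by invariant open sets carrying a locally constant `ω`-eigenfunction -/
def Sliced {N : ℕ} (g : R N → R N) (W : Set (R N)) (ω : ℂ) : Prop :=
  ∀ x ∈ W, ∃ U, IsOpen U ∧ x ∈ U ∧ U ⊆ W ∧ g '' U = U ∧ ∃ τ : R N → ℂ, ∀ y ∈ U,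
    ‖τ y‖ = 1 ∧ τ (g y) = ω * τ y ∧ ∀ᶠ z in 𝓝 y, τ z = τ y

/-- the twisting property of `deg` for the self-homeomorphism `g` of `X₀` -/
def TwProp {N : ℕ} (deg : (R N → R N) → Set (R N) → ℤ) (g : R N → R N) (X₀ : Set (R N)) : Prop :=
  ∀ (φ : R N → R N) (W : Set (R N)) (p k : ℕ) (ω : ℂ), W ⊆ X₀ → g '' W = W → Adm0 φ W →
    (∀ x ∈ W, φ (g x) = φ x) → NbhdProp g W → p.Prime → IsPrimitiveRoot ω (p ^ k) →
    Sliced g W ω → ((p : ℤ) ^ k) ∣ deg φ W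

/-- a degree theory (values are multiples of the Brouwer degree) with the twisting property -/
structure DegTh (N : ℕ) where
  deg : (R N → R N) → Set (R N) → ℤ
  s0 : ℤ
  s0_ne : s0 ≠ 0
  excise : ∀ φ W W', Adm0 φ W → IsOpen W' → W' ⊆ W → W ∩ φ ⁻¹' {0} ⊆ W' → deg φ W' = deg φ W
  add : ∀ φ W₁ W₂, Adm0 φ (W₁ ∪ W₂) → IsOpen W₁ → IsOpen W₂ → Disjoint W₁ W₂ →
    deg φ (W₁ ∪ W₂) = deg φ W₁ + deg φ W₂
  homot : ∀ φ φ' W K, IsOpen W → ContinuousOn φ W → ContinuousOn φ' W → IsCompact K → K ⊆ W →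
    (∀ τ ∈ Icc (0 : ℝ) 1, ∀ x ∈ W, (1 - τ) • φ x + τ • φ' x = 0 → x ∈ K) → deg φ W = deg φ' W
  ident : ∀ (y : R N) W, IsOpen W → y ∈ W → deg (fun x => x - y) W = s0
  homeo : ∀ (g : OpenPartialHomeomorph (R N) (R N)) (X₀ : Set (R N)), IsOpen X₀ →
    IsPreconnected X₀ → X₀ ⊆ g.source → ∃ ε : ℤ, (ε = 1 ∨ ε = -1) ∧
      (∀ φ W, W ⊆ X₀ → IsOpen W → Adm0 φ (g '' W) → deg (φ ∘ g) W = ε * deg φ (g '' W)) ∧
      (ε = 1 → g '' X₀ = X₀ → TwProp deg g X₀)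

/-- a continuous action of `ℤ_p` on the open set `X₀` -/
structure Act (p : ℕ) [Fact p.Prime] {V : Type*} [TopologicalSpace V] (X₀ : Set V)
    (act : ℤ_[p] → V → V) : Prop where
  isOpen : IsOpen X₀
  cont : ContinuousOn (fun q : ℤ_[p] × V => act q.1 q.2) (univ ×ˢ X₀)
  maps : ∀ a, MapsTo (act a) X₀ X₀
  zero : ∀ x ∈ X₀, act 0 x = x
  add : ∀ a b, ∀ x ∈ X₀, act (a + b) x = act a (act b x)

/-- fixed points of `p^k ℤ_p` -/
def Fx {p : ℕ} [Fact p.Prime] {V : Type*} (X₀ : Set V) (act : ℤ_[p] → V → V) (k : ℕ) : Set V :=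
  {x | x ∈ X₀ ∧ ∀ a, act ((p : ℤ_[p]) ^ k * a) x = x}

/-- invariant set -/
def Inv {p : ℕ} [Fact p.Prime] {V : Type*} (act : ℤ_[p] → V → V) (A : Set V) : Prop :=
  ∀ a, MapsTo (act a) A A

/-- orientation hypothesis: the generator is homotopic to the identity around some point -/
def Ori {V : Type*} [NormedAddCommGroup V] [NormedSpace ℝ V] (X₀ : Set V) (g : V → V) : Prop :=
  ∃ (U₀ : Set V) (y₀ : V), IsOpen U₀ ∧ IsCompact (closure U₀) ∧ closure U₀ ⊆ X₀ ∧ y₀ ∈ U₀ ∧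
    ∀ τ ∈ Icc (0 : ℝ) 1, ∀ x ∈ frontier U₀, (1 - τ) • x + τ • g x ≠ y₀

end Crest.Agent.R217
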