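import Crest.Agent.R217.Lam
import Crest.Agent.R217.DegTh

/-! # R217 / Beta0 : the codimension one signature (definitions only) -/

set_option autoImplicit false
open Set Topology Filter

namespace Crest.Agent.R217

/-- `g^*` multiplies the fundamental class by `c` -/
def Conf {n : ℕ} (Ω Ω' : Set (R n)) (g : R n → R n) (c : ℝ) : Prop :=
  ∀ u ∈ Zc (T1 (R n) ℝ) n Ω', IsCompact (supp (n + 1) u ∩ Ω') → lamO Ω (pb g u) = c * lamO Ω' u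

variable {E : Type*} [AddCommGroup E] [Module ℝ E]

/-- `β (x, y) = ⟨x ∪ δ(1_S y), [Ω]⟩` -/
noncomputable def beta {m : ℕ} (b : E →ₗ[ℝ] E →ₗ[ℝ] ℝ) (Ω S : Set (R (2 * m + 1)))
    (T : Tw (R (2 * m + 1)) E) : Co (R (2 * m + 1)) E →ₗ[ℝ] Co (R (2 * m + 1)) E →ₗ[ℝ] ℝ :=
  ((cup b T m).compl₂ (dT T ∘ₗ hm S)).compr₂ (lamO Ω)

theorem beta_apply {m : ℕ} (b : E →ₗ[ℝ] E →ₗ[ℝ] ℝ) (Ω S : Set (R (2 * m + 1)))
    (T : Tw (R (2 * m + 1)) E) (x y : Co (R (2 * m + 1)) E) :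
    beta b Ω S T x y = lamO Ω (cup b T m x (dT T (hm S y))) := rfl

/-- total signature -/
noncomputable def sT {m : ℕ} (b : E →ₗ[ℝ] E →ₗ[ℝ] ℝ) (Ω S : Set (R (2 * m + 1)))
    (T : Tw (R (2 * m + 1)) E) : ℤ := sg (beta b Ω S T) (Zc T m Ω)

variable [Module ℂ E]

/-- signature of the generalised `ζ`-eigenspace of `g^*` -/
noncomputable def sE {m : ℕ} (b : E →ₗ[ℝ] E →ₗ[ℝ] ℝ) (Ω S : Set (R (2 * m + 1)))
    (T : Tw (R (2 * m + 1)) E) (g : R (2 * m + 1) → R (2 * m + 1)) (ζ : ℂ) : ℤ :=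
  sg (beta b Ω S T) (eig (Zc T m Ω) (beta b Ω S T) (pb g) ζ)

/-- the fibre form: real part of a nondegenerate `(-1)^m`-hermitian form -/
structure HB (m : ℕ) (b : E →ₗ[ℝ] E →ₗ[ℝ] ℝ) : Prop where
  nondeg : ∀ e, (∀ e', b e e' = 0) → e = 0
  symm : ∀ e e', b e e' = (-1 : ℝ) ^ m * b e' e
  herm : ∀ e e', b (Complex.I • e) (Complex.I • e') = b e e'

/-- a cut `S` of the open set `Ω` with a flat hermitian bundle `T` -/
structure Cut {n : ℕ} (b : E →ₗ[ℝ] E →ₗ[ℝ] ℝ) (Ω S : Set (R n)) (T : Tw (R n) E) : Prop where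
  isOpen : IsOpen Ω
  flat : Flat Ω T
  compat : Compat Ω b T T (T1 _ _)
  cplx : ∀ x y (c : ℂ) e, T x y (c • e) = c • T x y e
  cpt : IsCompact (frontier S ∩ Ω)

/-- an orientation preserving symmetry of the data -/
structure Sym {n : ℕ} (Ω S : Set (R n)) (T : Tw (R n) E)
    (g : OpenPartialHomeomorph (R n) (R n)) : Prop where
  src : Ω ⊆ g.source
  img : g '' Ω = Ω
  cut : ∀ x ∈ Ω, g x ∈ S ↔ x ∈ S
  tw : ∀ x ∈ Ω, ∀ y ∈ Ω, T (g x) (g y) = T x y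
  conf : ∃ c, 0 < c ∧ Conf Ω Ω g c

/-- a cut in `ℝ^(2m+1)` with nonzero signature -/
def HasBase (m : ℕ) : Prop :=
  ∃ (E : Type) (_ : AddCommGroup E) (_ : Module ℝ E) (_ : Module ℂ E) (_ : IsScalarTower ℝ ℂ E)
    (_ : FiniteDimensional ℝ E) (b : E →ₗ[ℝ] E →ₗ[ℝ] ℝ) (Ω S : Set (R (2 * m + 1)))
    (T : Tw (R (2 * m + 1)) E), HB m b ∧ Cut b Ω S T ∧ sT b Ω S T ≠ 0

end Crest.Agent.R217
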