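import Crest.Agent.R217.Cup

/-! # R217 / Comm : graded commutativity with supports.

The homotopy is Steenrod's `∪₁` product `C1` (recursion on the degree of the first factor), with
`δ (f ∪₁ g) = f ∪ g - (-1)^(pq) g ∪ f - δf ∪₁ g - (-1)^p f ∪₁ δg` (`dd_C1`); it is local and natural in
the coefficients (`C1_nat`), so the twisted version `w (x :: l) = C1 (gau (T x) f) (gau (T' x) g) (x :: l)`
works. -/

set_option autoImplicit false
open Set Topology Filter

namespace Crest.Agent.R217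

namespace Comm

variable {X : Type*} {E E' E'' F F' F'' : Type*} [AddCommGroup E] [AddCommGroup E']
  [AddCommGroup E''] [Module ℝ E] [Module ℝ E'] [Module ℝ E''] [AddCommGroup F] [AddCommGroup F']
  [AddCommGroup F''] [Module ℝ F] [Module ℝ F'] [Module ℝ F'']

/-- contraction with a point -/
def A (x : X) (f : Co X E) : Co X E := fun l => f (x :: l)

/-- Steenrod's `∪₁`; `g` has degree `r + 1`, `f` has degree `p` -/
noncomputable def C1 (μ : E →ₗ[ℝ] E' →ₗ[ℝ] E'') (r : ℕ) (g : Co X E') : ℕ → Co X E → Co X E''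
  | 0, _ => 0
  | p + 1, f => fun l => match l with
    | [] => 0
    | x :: l => (-(-1 : ℝ) ^ (p * (r + 1))) • cup0 μ.flip r (A x g) (A x f) l - C1 μ r g p (A x f) l

variable (μ : E →ₗ[ℝ] E' →ₗ[ℝ] E'')

theorem C1_zero (r : ℕ) (g : Co X E') (f : Co X E) : C1 μ r g 0 f = 0 := rfl

theorem C1_nil (r : ℕ) (g : Co X E') (p : ℕ) (f : Co X E) : C1 μ r g p f [] = 0 := by
  cases p <;> rfl

theorem C1_cons (r : ℕ) (g : Co X E') (p : ℕ) (f : Co X E) (x : X) (l : List X) :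
    C1 μ r g (p + 1) f (x :: l) =
      (-(-1 : ℝ) ^ (p * (r + 1))) • cup0 μ.flip r (A x g) (A x f) l - C1 μ r g p (A x f) l := rfl

theorem C1_sub (r : ℕ) (g : Co X E') (p : ℕ) (f f' : Co X E) (l : List X) :
    C1 μ r g p (f - f') l = C1 μ r g p f l - C1 μ r g p f' l := by
  induction p generalizing f f' l with
  | zero => simp [C1_zero]
  | succ p ih =>
    cases l with
    | nil => simp [C1_nil]
    | cons x l =>
      rw [C1_cons, C1_cons, C1_cons, show A x (f - f') = A x f - A x f' from rfl, ih]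
      simp only [cup0, Pi.sub_apply, map_sub, smul_sub]
      abel

omit [Module ℝ E] in
theorem dd_A (x : X) (f : Co X E) : dd (A x f) = f - A x (dd f) := by
  funext l
  have := dd_cons f x l
  simp only [Pi.sub_apply, A] at this ⊢
  rw [this]
  simp only [sub_sub_cancel]
  rfl

theorem dd_C1 (r : ℕ) (g : Co X E') (p : ℕ) (f : Co X E) (l : List X)
    (hl : l.length = p + r + 2) : dd (C1 μ r g p f) l =
      cup0 μ p f g l - (-1 : ℝ) ^ (p * (r + 1)) • cup0 μ.flip (r + 1) g f l -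
        C1 μ r g (p + 1) (dd f) l - (-1 : ℝ) ^ p • C1 μ (r + 1) (dd g) p f l := by
  induction p generalizing f l with
  | zero =>
    obtain _ | ⟨x, l⟩ := l
    · simp at hl
    have hl' : l.length = r + 1 := by simpa using hl
    have h0 : dd (0 : Co X E'') = 0 := by simpa using dd_sub (0 : Co X E'') 0
    obtain ⟨y, hy⟩ : ∃ y, l.drop r = [y] := List.length_eq_one_iff.1 (by simp [hl'])
    have ht : l.take (r + 1) = l := List.take_of_length_le hl'.le
    rw [C1_cons, C1_zero, h0]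
    simp [C1_zero, cup0, A, hy, ht, dd_cons]
  | succ p ih =>
    obtain _ | ⟨x, l⟩ := l
    · simp at hl
    have hl' : l.length = p + r + 2 := by simp at hl; omega
    have h1 : (fun l' => C1 μ r g (p + 1) f (x :: l')) =
        (-(-1 : ℝ) ^ (p * (r + 1))) • cup0 μ.flip r (A x g) (A x f) - C1 μ r g p (A x f) := rfl
    rw [dd_cons, h1, dd_sub, dd_smul, Pi.sub_apply, Pi.smul_apply, dd_cup0 _ _ _ _ (by omega),
      ih _ _ hl', dd_A, dd_A, C1_sub, C1_cons, C1_cons]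
    have e1 : cup0 μ (p + 1) f g (x :: l) = cup0 μ p (A x f) g l := rfl
    have e2 : cup0 μ.flip (r + 1) g f (x :: l) = cup0 μ.flip r (A x g) f l := rfl
    have e3 : cup0 μ.flip (r + 1) (g - A x (dd g)) (A x f) l =
        cup0 μ.flip (r + 1) g (A x f) l - cup0 μ.flip (r + 1) (A x (dd g)) (A x f) l := by
      simp [cup0]
    have e4 : cup0 μ.flip r (A x g) (f - A x (dd f)) l =
        cup0 μ.flip r (A x g) f l - cup0 μ.flip r (A x g) (A x (dd f)) l := by
      simp [cup0]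
    rw [e1, e2, e3, e4]
    have s1 : (-1 : ℝ) ^ ((p + 1) * (r + 1)) = -((-1) ^ (p * (r + 1)) * (-1) ^ r) := by ring
    have s2 : (-1 : ℝ) ^ (p * (r + 1 + 1)) = (-1) ^ (p * (r + 1)) * (-1) ^ p := by ring
    have s3 : (-1 : ℝ) ^ (p + 1) = -(-1) ^ p := by ring
    rw [s1, s2, s3]
    rcases neg_one_pow_eq_or ℝ p with hp | hp <;> rw [hp] <;> module

theorem C1_nat (ν : F →ₗ[ℝ] F' →ₗ[ℝ] F'') (φ : E'' →ₗ[ℝ] F'') (W : Set X) (r : ℕ) (g : Co X E')
    (g' : Co X F') (p : ℕ) (f : Co X E) (f' : Co X F)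
    (h : ∀ a b : List X, a.length = p + 1 → b.length = r + 2 → (∀ x ∈ a, x ∈ W) →
      (∀ x ∈ b, x ∈ W) → φ (μ (f a) (g b)) = ν (f' a) (g' b))
    (l : List X) (hl : l.length = p + r + 1) (hW : ∀ x ∈ l, x ∈ W) :
    φ (C1 μ r g p f l) = C1 ν r g' p f' l := by
  induction p generalizing f f' l with
  | zero => simp [C1_zero]
  | succ p ih =>
    obtain _ | ⟨x, l⟩ := l
    · simp at hl
    have hl' : l.length = p + r + 1 := by simp at hl; omega
    have hx : x ∈ W := hW x (by simp)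
    have hW' : ∀ y ∈ l, y ∈ W := fun y hy => hW y (by simp [hy])
    have hc : ∀ a : List X, (∀ y ∈ a, y ∈ W) → ∀ y ∈ x :: a, y ∈ W := fun a ha y hy => by
      rcases List.mem_cons.1 hy with rfl | hy
      exacts [hx, ha y hy]
    rw [C1_cons, C1_cons, map_sub, map_smul, ih (A x f) (A x f') ?_ l hl' hW']
    · congr 2
      exact h (x :: l.drop r) (x :: l.take (r + 1)) (by simp; omega) (by simp; omega)
        (hc _ fun y hy => hW' y (List.mem_of_mem_drop hy))
        (hc _ fun y hy => hW' y (List.mem_of_mem_take hy))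
    · intro a b ha hb haW hbW
      exact h (x :: a) b (by simp [ha]) hb (hc a haW) hbW

theorem C1_eq_zero (W : Set X) (r : ℕ) (g : Co X E') (p : ℕ) (f : Co X E)
    (h : ∀ a b : List X, a.length = p + 1 → b.length = r + 2 → (∀ x ∈ a, x ∈ W) →
      (∀ x ∈ b, x ∈ W) → μ (f a) (g b) = 0)
    (l : List X) (hl : l.length = p + r + 1) (hW : ∀ x ∈ l, x ∈ W) : C1 μ r g p f l = 0 :=
  (C1_nat μ μ 0 W r g g p f f (fun a b ha hb haW hbW => (h a b ha hb haW hbW).symm) l hl hW).symm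

theorem gau_flat {T : Tw X E} {W : Set X} (hT : ∀ x ∈ W, ∀ y ∈ W, ∀ w ∈ W, T x y ∘ₗ T y w = T x w)
    {x y : X} (hx : x ∈ W) (hy : y ∈ W) (f : Co X E) {a : List X} (ha : ∀ z ∈ a, z ∈ W) :
    T x y (gau (T y) f a) = gau (T x) f a := by
  cases a with
  | nil => simp
  | cons z a => rw [gau_cons, gau_cons, ← hT x hx y hy z (ha z (by simp))]; rfl

theorem dd_gau_zero {T : Tw X E} {W : Set X}
    (hT : ∀ x ∈ W, ∀ y ∈ W, ∀ w ∈ W, T x y ∘ₗ T y w = T x w) {x : X} (hx : x ∈ W) (f : Co X E)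
    {a : List X} (ha : ∀ z ∈ a, z ∈ W) (h0 : dT T f a = 0) : dd (gau (T x) f) a = 0 := by
  cases a with
  | nil => simp
  | cons y a =>
    have hy : y ∈ W := ha y (by simp)
    rw [dT_cons] at h0
    have h1 := dd_map (T x y).toAddMonoidHom (gau (T y) f) (y :: a)
    rw [h0, map_zero] at h1
    rw [← h1]
    exact dd_congr fun l' _ hl' => (gau_flat hT hx hy f fun z hz => ha z (hl' z hz)).symm

theorem gau_eq_zero (a : X → E →ₗ[ℝ] F) {f : Co X E} {l : List X} (h : f l = 0) :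
    gau a f l = 0 := by
  cases l with
  | nil => rfl
  | cons x l => rw [gau_cons, h, map_zero]

/-- the twisted `∪₁` -/
noncomputable def C1T (T : Tw X E) (T' : Tw X E') (p r : ℕ) (f : Co X E) (g : Co X E') :
    Co X E'' := fun l => match l with
  | [] => 0
  | x :: l => C1 μ r (gau (T' x) g) p (gau (T x) f) (x :: l)

end Comm

open Comm

variable {X : Type*} [TopologicalSpace X] {E E' E'' : Type*} [AddCommGroup E] [AddCommGroup E']
  [AddCommGroup E''] [Module ℝ E] [Module ℝ E'] [Module ℝ E'']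

theorem cup_comm {U : Set X} {μ : E →ₗ[ℝ] E' →ₗ[ℝ] E''} {T : Tw X E} {T' : Tw X E'}
    {T'' : Tw X E''} (hT : Flat U T) (hT' : Flat U T') (hT'' : Flat U T'')
    (hμ : Compat U μ T T' T'') {p q : ℕ} {f : Co X E} {g : Co X E'} (hf : f ∈ Zc T p U)
    (hg : g ∈ Zc T' q U) :
    ∃ w : Co X E'', supp (p + q) w ∩ U ⊆ supp (p + 1) f ∩ supp (q + 1) g ∧
      Van (p + q + 1) U (cup μ T' p f g - (-1 : ℝ) ^ (p * q) • cup μ.flip T q g f - dT T'' w) := by
  have key : ∀ z ∈ U, ∃ W ∈ 𝓝 z, (∀ x ∈ W, T x x = LinearMap.id) ∧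
      (∀ x ∈ W, T' x x = LinearMap.id) ∧
      (∀ x ∈ W, ∀ y ∈ W, ∀ w ∈ W, T x y ∘ₗ T y w = T x w) ∧
      (∀ x ∈ W, ∀ y ∈ W, ∀ w ∈ W, T' x y ∘ₗ T' y w = T' x w) ∧
      (∀ x ∈ W, ∀ y ∈ W, ∀ e e', T'' x y (μ e e') = μ (T x y e) (T' x y e')) ∧
      (∀ x ∈ W, ∀ a : List X, a.length = p + 2 → (∀ y ∈ a, y ∈ W) → dd (gau (T x) f) a = 0) ∧
      (∀ x ∈ W, ∀ a : List X, a.length = q + 2 → (∀ y ∈ a, y ∈ W) → dd (gau (T' x) g) a = 0) := by
    intro z hz
    obtain ⟨W1, hW1, h1, h1'⟩ := hT z hz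
    obtain ⟨W2, hW2, h2, h2'⟩ := hT' z hz
    obtain ⟨W3, hW3, h3⟩ := hμ z hz
    obtain ⟨W4, hW4, h4⟩ := not_mem_supp.1 (hf z hz)
    obtain ⟨W5, hW5, h5⟩ := not_mem_supp.1 (hg z hz)
    refine ⟨W1 ∩ W2 ∩ W3 ∩ W4 ∩ W5,
      inter_mem (inter_mem (inter_mem (inter_mem hW1 hW2) hW3) hW4) hW5,
      fun x hx => h1 x hx.1.1.1.1, fun x hx => h2 x hx.1.1.1.2,
      fun x hx y hy w hw => h1' x hx.1.1.1.1 y hy.1.1.1.1 w hw.1.1.1.1,
      fun x hx y hy w hw => h2' x hx.1.1.1.2 y hy.1.1.1.2 w hw.1.1.1.2,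
      fun x hx y hy => h3 x hx.1.1.2 y hy.1.1.2, fun x hx a ha haW => ?_, fun x hx a ha haW => ?_⟩
    · exact dd_gau_zero h1' hx.1.1.1.1 f (fun y hy => (haW y hy).1.1.1.1)
        (h4 a ha fun y hy => (haW y hy).1.2)
    · exact dd_gau_zero h2' hx.1.1.1.2 g (fun y hy => (haW y hy).1.1.1.2)
        (h5 a ha fun y hy => (haW y hy).2)
  cases q with
  | zero =>
    refine ⟨0, by simp [supp_zero], fun z hz => ?_⟩
    obtain ⟨W, hW, h1, h2, -, -, -, -, h7⟩ := key z hz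
    refine not_mem_supp.2 ⟨W, hW, fun l hl hlW => ?_⟩
    obtain _ | ⟨x, l⟩ := l
    · simp at hl
    have hx : x ∈ W := hlW x (by simp)
    obtain ⟨y, hy⟩ : ∃ y, (x :: l).drop p = [y] := List.length_eq_one_iff.1 (by
      rw [List.length_drop, hl]; omega)
    have hyW : y ∈ W := hlW y (List.mem_of_mem_drop (by rw [hy]; simp))
    have ht : (x :: l).take (p + 1) = x :: l := List.take_of_length_le (by omega)
    have h8 := h7 x hx [x, y] rfl (by simp [hx, hyW])
    simp only [dd_cons, gau_cons, dd_nil, h2 x hx, LinearMap.id_coe, id_eq, sub_zero,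
      sub_eq_zero] at h8
    simp only [Pi.sub_apply, Pi.smul_apply, map_zero, cup_cons, hy, ht]
    simp [h8, h1 x hx]
  | succ r =>
    refine ⟨C1T μ T T' p r f g, fun z hz => ?_, fun z hz => ?_⟩
    · by_contra hn
      rw [mem_inter_iff, not_and_or] at hn
      have : ∃ W ∈ 𝓝 z, ∀ a b : List X, a.length = p + 1 → b.length = r + 2 → (∀ x ∈ a, x ∈ W) →
          (∀ x ∈ b, x ∈ W) → f a = 0 ∨ g b = 0 := by
        rcases hn with hn | hn <;> obtain ⟨W, hW, h⟩ := not_mem_supp.1 hn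
        · exact ⟨W, hW, fun a b ha _ haW _ => Or.inl (h a ha haW)⟩
        · exact ⟨W, hW, fun a b _ hb _ hbW => Or.inr (h b hb hbW)⟩
      obtain ⟨W, hW, h⟩ := this
      refine not_mem_supp.2 ⟨W, hW, fun l hl hlW => ?_⟩ hz.1
      obtain _ | ⟨x, l⟩ := l
      · rfl
      refine C1_eq_zero μ W _ _ _ _ (fun a b ha hb haW hbW => ?_) _ hl hlW
      rcases h a b ha hb haW hbW with h0 | h0 <;> simp [gau_eq_zero _ h0]
    · obtain ⟨W, hW, h1, h2, h3, h4, h5, h6, h7⟩ := key z hz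
      refine not_mem_supp.2 ⟨W, hW, fun l hl hlW => ?_⟩
      obtain _ | ⟨x, l⟩ := l
      · simp at hl
      have hx : x ∈ W := hlW x (by simp)
      have e1 : dT T'' (C1T μ T T' p r f g) (x :: l) =
          dd (C1 μ r (gau (T' x) g) p (gau (T x) f)) (x :: l) := by
        rw [dT_cons]
        refine dd_congr fun l' hl' hl'W => ?_
        obtain _ | ⟨y, l'⟩ := l'
        · rw [C1_nil, gau_nil]
        have hy : y ∈ W := hlW y (hl'W y (by simp))
        rw [gau_cons]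
        refine C1_nat μ μ (T'' x y) W _ _ _ _ _ _ (fun a b _ _ haW hbW => ?_) _ (by omega)
          (fun u hu => hlW u (hl'W u hu))
        rw [h5 x hx y hy, gau_flat h3 hx hy f haW, gau_flat h4 hx hy g hbW]
      have e2 : C1 μ r (gau (T' x) g) (p + 1) (dd (gau (T x) f)) (x :: l) = 0 :=
        C1_eq_zero μ W _ _ _ _ (fun a b ha _ haW _ => by simp [h6 x hx a ha haW]) _ (by omega) hlW
      have e3 : C1 μ (r + 1) (dd (gau (T' x) g)) p (gau (T x) f) (x :: l) = 0 :=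
        C1_eq_zero μ W _ _ _ _ (fun a b _ hb _ hbW => by simp [h7 x hx b hb hbW]) _ (by omega) hlW
      simp only [Pi.sub_apply, Pi.smul_apply]
      rw [e1, dd_C1 μ _ _ _ _ _ (by omega), e2, e3]
      simp [cup_cons, cup0, h1 x hx, h2 x hx]

end Crest.Agent.R217
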