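import Crest.Agent.R217.Glue

/-! # R217 / LG : the local-to-global principle for "flabby sheaf complexes" -/

set_option autoImplicit false
open Set Topology Filter

namespace Crest.Agent.R217

section abs
variable {X : Type*} [TopologicalSpace X]

/-- `U ↦ M j ⧸ N j U` is a complex of flabby sheaves on `Ω` -/
structure Sh (Ω : Set X) {M : ℤ → Type*} [∀ j, AddCommGroup (M j)] [∀ j, Module ℝ (M j)]
    (d : ∀ j, M j →ₗ[ℝ] M (j + 1)) (N : ∀ j, Set X → Submodule ℝ (M j)) : Prop where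
  anti : ∀ j U V, U ⊆ V → N j V ≤ N j U
  d_mem : ∀ j U, IsOpen U → U ⊆ Ω → ∀ f ∈ N j U, d j f ∈ N (j + 1) U
  dd : ∀ j f, d (j + 1) (d j f) ∈ N (j + 1 + 1) Ω
  empty : ∀ j, N j ∅ = ⊤
  inter : ∀ j U V, IsOpen U → IsOpen V → U ⊆ Ω → V ⊆ Ω → N j U ⊓ N j V ≤ N j (U ∪ V)
  glue : ∀ j U V, IsOpen U → IsOpen V → U ⊆ Ω → V ⊆ Ω → N j (U ∩ V) ≤ N j U ⊔ N j V
  seq_loc : ∀ j (P : ℕ → Set X), (∀ i, IsOpen (P i)) → (∀ i, P i ⊆ Ω) → Monotone P →
    ∀ f, (∀ i, f ∈ N j (P i)) → f ∈ N j (⋃ i, P i)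
  seq_glue : ∀ j (P : ℕ → Set X), (∀ i, IsOpen (P i)) → (∀ i, P i ⊆ Ω) →
    (∀ i, closure (P i) ⊆ P (i + 1)) → ∀ f : ℕ → M j, (∀ i, f (i + 1) - f i ∈ N j (P i)) →
    ∃ g, ∀ i, g - f i ∈ N j (P i)

variable {Ω : Set X} {M M' : ℤ → Type*} [∀ j, AddCommGroup (M j)] [∀ j, Module ℝ (M j)]
  [∀ j, AddCommGroup (M' j)] [∀ j, Module ℝ (M' j)]
  {d : ∀ j, M j →ₗ[ℝ] M (j + 1)} {N : ∀ j, Set X → Submodule ℝ (M j)}
  {d' : ∀ j, M' j →ₗ[ℝ] M' (j + 1)} {N' : ∀ j, Set X → Submodule ℝ (M' j)}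

/-- acyclic on `U` -/
def Acy (d : ∀ j, M j →ₗ[ℝ] M (j + 1)) (N : ∀ j, Set X → Submodule ℝ (M j)) (U : Set X) : Prop :=
  ∀ j (f : M (j + 1)), d (j + 1) f ∈ N (j + 1 + 1) U → ∃ w, f - d j w ∈ N (j + 1) U

/-- `Φ` is a quasi-isomorphism on `U` -/
def QI (d : ∀ j, M j →ₗ[ℝ] M (j + 1)) (N : ∀ j, Set X → Submodule ℝ (M j))
    (d' : ∀ j, M' j →ₗ[ℝ] M' (j + 1)) (N' : ∀ j, Set X → Submodule ℝ (M' j))
    (Φ : ∀ j, M j →ₗ[ℝ] M' j) (U : Set X) : Prop :=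
  (∀ j (f : M (j + 1)), d (j + 1) f ∈ N (j + 1 + 1) U →
    (∃ w, Φ (j + 1) f - d' j w ∈ N' (j + 1) U) → ∃ v, f - d j v ∈ N (j + 1) U) ∧
  ∀ j (g : M' (j + 1)), d' (j + 1) g ∈ N' (j + 1 + 1) U →
    ∃ f, d (j + 1) f ∈ N (j + 1 + 1) U ∧ ∃ w, g - Φ (j + 1) f - d' j w ∈ N' (j + 1) U

/-- an exhaustion of `Ω` by finite unions of members of `B` -/
def Exh (Ω : Set X) (B : Set (Set X)) : Prop :=
  ∃ P : ℕ → Set X, (∀ i, ∃ s ⊆ B, s.Finite ∧ P i = ⋃₀ s) ∧ (∀ i, closure (P i) ⊆ P (i + 1)) ∧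
    ⋃ i, P i = Ω

/-- Mayer–Vietoris as in `mv_cob` (write the index as `j - 1 + 1`, e.g.
`obtain ⟨j, rfl⟩ : ∃ i, j = i + 1`). -/
theorem Sh.acy_union (h : Sh Ω d N) {U V : Set X} (hU : IsOpen U) (hV : IsOpen V) (hUΩ : U ⊆ Ω)
    (hVΩ : V ⊆ Ω) (h₁ : Acy d N U) (h₂ : Acy d N V) (h₃ : Acy d N (U ∩ V)) : Acy d N (U ∪ V) := by
  intro j f hf
  obtain ⟨i, rfl⟩ : ∃ i, j = i + 1 := ⟨j - 1, by ring⟩
  obtain ⟨a, ha⟩ := h₁ _ f (h.anti _ _ _ subset_union_left hf)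
  obtain ⟨b, hb⟩ := h₂ _ f (h.anti _ _ _ subset_union_right hf)
  obtain ⟨c, hc⟩ := h₃ i (a - b) (by
    have := Submodule.sub_mem _ (h.anti _ _ _ inter_subset_right hb) (h.anti _ _ _ inter_subset_left ha)
    rwa [sub_sub_sub_cancel_left, ← map_sub] at this)
  obtain ⟨x, hx, y, hy, hxy⟩ := Submodule.mem_sup.1 (h.glue _ U V hU hV hUΩ hVΩ hc)
  refine ⟨b + y, h.inter _ U V hU hV hUΩ hVΩ ⟨?_, ?_⟩⟩
  · have e : b + y = a - d i c - x := by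
      rw [eq_sub_iff_add_eq, add_assoc, add_comm y, hxy]
      abel
    have := Submodule.add_mem _ (Submodule.add_mem _ ha (h.anti _ _ _ hUΩ (h.dd i c)))
      (h.d_mem _ U hU hUΩ x hx)
    rw [e, map_sub, map_sub, SetLike.mem_coe]
    convert this using 1
    abel
  · have := Submodule.sub_mem _ hb (h.d_mem _ V hV hVΩ y hy)
    rw [map_add, SetLike.mem_coe]
    convert this using 1
    abel

theorem LG.acy_empty (h : Sh Ω d N) : Acy d N ∅ := fun j f _ => ⟨0, by rw [h.empty]; trivial⟩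

theorem LG.acy_finite (h : Sh Ω d N) {B : Set (Set X)} (hBo : ∀ b ∈ B, IsOpen b ∧ b ⊆ Ω)
    (hBi : ∀ b ∈ B, ∀ c ∈ B, b ∩ c ∈ B) (hB : ∀ b ∈ B, Acy d N b) {s : Set (Set X)} (hs : s.Finite)
    (hsB : s ⊆ B) : Acy d N (⋃₀ s) ∧ ∀ c ∈ B, Acy d N (c ∩ ⋃₀ s) := by
  induction s, hs using Set.Finite.induction_on with
  | empty => exact ⟨by simpa using LG.acy_empty h, fun c _ => by simpa using LG.acy_empty h⟩
  | @insert b t _ _ ih =>
    have hb : b ∈ B := hsB (mem_insert _ _)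
    have ht : t ⊆ B := (subset_insert _ _).trans hsB
    obtain ⟨ih1, ih2⟩ := ih ht
    have ho : IsOpen (⋃₀ t) := isOpen_sUnion fun c hc => (hBo c (ht hc)).1
    have hΩ : ⋃₀ t ⊆ Ω := sUnion_subset fun c hc => (hBo c (ht hc)).2
    rw [sUnion_insert]
    refine ⟨h.acy_union (hBo b hb).1 ho (hBo b hb).2 hΩ (hB b hb) ih1 (ih2 b hb), fun c hc => ?_⟩
    rw [inter_union_distrib_left]
    refine h.acy_union (hBo _ (hBi c hc b hb)).1 ((hBo c hc).1.inter ho) (hBo _ (hBi c hc b hb)).2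
      (inter_subset_right.trans hΩ) (hB _ (hBi c hc b hb)) (ih2 c hc) ?_
    have e : c ∩ b ∩ (c ∩ ⋃₀ t) = c ∩ b ∩ ⋃₀ t := by
      ext x
      simp only [mem_inter_iff]
      tauto
    rw [e]
    exact ih2 _ (hBi c hc b hb)

/-- Finite unions: induction on the cardinality (`(⋃₀ s) ∩ b = ⋃₀ {c ∩ b}`).  Limit: build
`b i` with `f - d (b i) ∈ N (P i)`, `b (i+1) - b i ∈ N (P i)` (`b' - b i` is a cocycle on `P i`,
`= d c`, put `b (i+1) = b' - d c`), glue. -/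
theorem Sh.acy (h : Sh Ω d N) {B : Set (Set X)} (hBo : ∀ b ∈ B, IsOpen b ∧ b ⊆ Ω)
    (hBi : ∀ b ∈ B, ∀ c ∈ B, b ∩ c ∈ B) (hB : ∀ b ∈ B, Acy d N b) (hE : Exh Ω B) : Acy d N Ω := by
  obtain ⟨P, hP, hcl, rfl⟩ := hE
  have hA : ∀ i, Acy d N (P i) := fun i => by
    obtain ⟨s, hs, hf, e⟩ := hP i
    rw [e]
    exact (LG.acy_finite h hBo hBi hB hf hs).1
  have hO : ∀ i, IsOpen (P i) := fun i => by
    obtain ⟨s, hs, -, e⟩ := hP i
    rw [e]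
    exact isOpen_sUnion fun c hc => (hBo c (hs hc)).1
  have hΩ : ∀ i, P i ⊆ ⋃ i, P i := fun i => subset_iUnion P i
  have hm : ∀ i, P i ⊆ P (i + 1) := fun i => subset_closure.trans (hcl i)
  intro j f hf
  obtain ⟨i, rfl⟩ : ∃ i, j = i + 1 := ⟨j - 1, by ring⟩
  have step : ∀ (n : ℕ) (b : M (i + 1)), f - d _ b ∈ N _ (P n) →
      ∃ b', f - d _ b' ∈ N _ (P (n + 1)) ∧ b' - b ∈ N _ (P n) := by
    intro n b hb
    obtain ⟨b', hb'⟩ := hA (n + 1) _ f (h.anti _ _ _ (hΩ _) hf)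
    obtain ⟨c, hc⟩ := hA n i (b' - b) (by
      have := Submodule.sub_mem _ hb (h.anti _ _ _ (hm n) hb')
      rwa [sub_sub_sub_cancel_left, ← map_sub] at this)
    refine ⟨b' - d i c, ?_, by rwa [sub_right_comm]⟩
    have := Submodule.add_mem _ hb' (h.anti _ _ _ (hΩ _) (h.dd i c))
    rw [map_sub]
    convert this using 1
    abel
  choose! st h1 h2 using step
  obtain ⟨b₀, hb₀⟩ := hA 0 _ f (h.anti _ _ _ (hΩ _) hf)
  let b : ℕ → M (i + 1) := fun n => Nat.rec b₀ (fun n b => st n b) n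
  have hb : ∀ n, f - d _ (b n) ∈ N _ (P n) := fun n => by
    induction n with
    | zero => exact hb₀
    | succ n ih => exact h1 n _ ih
  obtain ⟨g, hg⟩ := h.seq_glue (i + 1) P hO hΩ hcl b fun n => h2 n _ (hb n)
  refine ⟨g, h.seq_loc _ P hO hΩ (monotone_nat_of_le_succ hm) _ fun n => ?_⟩
  have := Submodule.sub_mem _ (hb n) (h.d_mem _ _ (hO n) (hΩ n) _ (hg n))
  rw [map_sub] at this
  convert this using 1
  abel

/-- differential of the mapping cone -/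
def LG.cd (d : ∀ j, M j →ₗ[ℝ] M (j + 1)) (d' : ∀ j, M' j →ₗ[ℝ] M' (j + 1)) (Φ : ∀ j, M j →ₗ[ℝ] M' j)
    (j : ℤ) : (M (j + 1) × M' j) →ₗ[ℝ] (M (j + 1 + 1) × M' (j + 1)) :=
  LinearMap.prod (-(d (j + 1) ∘ₗ LinearMap.fst ℝ _ _))
    (Φ (j + 1) ∘ₗ LinearMap.fst ℝ _ _ + d' j ∘ₗ LinearMap.snd ℝ _ _)

theorem LG.cd_apply (Φ : ∀ j, M j →ₗ[ℝ] M' j) (j : ℤ) (x : M (j + 1) × M' j) :
    LG.cd d d' Φ j x = (-d (j + 1) x.1, Φ (j + 1) x.1 + d' j x.2) := rfl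

theorem LG.sh_cone (h : Sh Ω d N) (h' : Sh Ω d' N') (Φ : ∀ j, M j →ₗ[ℝ] M' j)
    (hN : ∀ j U, IsOpen U → U ⊆ Ω → ∀ f ∈ N j U, Φ j f ∈ N' j U)
    (hd : ∀ j f, Φ (j + 1) (d j f) - d' j (Φ j f) ∈ N' (j + 1) Ω) :
    Sh Ω (M := fun j => M (j + 1) × M' j) (LG.cd d d' Φ) (fun j U => (N (j + 1) U).prod (N' j U)) where
  anti j U V hUV := Submodule.prod_mono (h.anti _ _ _ hUV) (h'.anti _ _ _ hUV)
  d_mem j U hU hΩ f hf := ⟨Submodule.neg_mem _ (h.d_mem _ U hU hΩ _ hf.1),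
    Submodule.add_mem _ (hN _ U hU hΩ _ hf.1) (h'.d_mem _ U hU hΩ _ hf.2)⟩
  dd j f := by
    refine ⟨?_, ?_⟩
    · have := h.dd (j + 1) f.1
      simpa [LG.cd_apply] using this
    · have := Submodule.add_mem _ (Submodule.neg_mem _ (hd (j + 1) f.1)) (h'.dd j f.2)
      simp only [LG.cd_apply, map_neg, map_add, SetLike.mem_coe]
      convert this using 1
      abel
  empty j := by rw [h.empty, h'.empty, Submodule.prod_top]
  inter j U V hU hV h1 h2 f hf :=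
    ⟨h.inter _ U V hU hV h1 h2 ⟨hf.1.1, hf.2.1⟩, h'.inter _ U V hU hV h1 h2 ⟨hf.1.2, hf.2.2⟩⟩
  glue j U V hU hV h1 h2 f hf := by
    obtain ⟨x, hx, y, hy, e⟩ := Submodule.mem_sup.1 (h.glue _ U V hU hV h1 h2 hf.1)
    obtain ⟨x', hx', y', hy', e'⟩ := Submodule.mem_sup.1 (h'.glue _ U V hU hV h1 h2 hf.2)
    exact Submodule.mem_sup.2 ⟨(x, x'), ⟨hx, hx'⟩, (y, y'), ⟨hy, hy'⟩, Prod.ext e e'⟩
  seq_loc j P h1 h2 h3 f hf :=
    ⟨h.seq_loc _ P h1 h2 h3 _ fun i => (hf i).1, h'.seq_loc _ P h1 h2 h3 _ fun i => (hf i).2⟩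
  seq_glue j P h1 h2 h3 f hf := by
    obtain ⟨g, hg⟩ := h.seq_glue _ P h1 h2 h3 (fun i => (f i).1) fun i => (hf i).1
    obtain ⟨g', hg'⟩ := h'.seq_glue _ P h1 h2 h3 (fun i => (f i).2) fun i => (hf i).2
    exact ⟨(g, g'), fun i => ⟨hg i, hg' i⟩⟩

/-- mapping cone `C j = M (j+1) × M' j`, `D (f, g) = (-d f, Φ f + d' g)`, `N ×ˢ N'`: it is a `Sh`,
and it is acyclic on `U` iff `QI` holds on `U`. -/
theorem Sh.qi (h : Sh Ω d N) (h' : Sh Ω d' N') (Φ : ∀ j, M j →ₗ[ℝ] M' j)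
    (hN : ∀ j U, IsOpen U → U ⊆ Ω → ∀ f ∈ N j U, Φ j f ∈ N' j U)
    (hd : ∀ j f, Φ (j + 1) (d j f) - d' j (Φ j f) ∈ N' (j + 1) Ω)
    {B : Set (Set X)} (hBo : ∀ b ∈ B, IsOpen b ∧ b ⊆ Ω)
    (hBi : ∀ b ∈ B, ∀ c ∈ B, b ∩ c ∈ B) (hB : ∀ b ∈ B, QI d N d' N' Φ b) (hE : Exh Ω B) :
    QI d N d' N' Φ Ω := by
  have hA := (LG.sh_cone h h' Φ hN hd).acy hBo hBi (fun U hU j x hx => by
    obtain ⟨f, g⟩ := x
    obtain ⟨hx1, hx2⟩ := hx
    simp only [LG.cd_apply, SetLike.mem_coe, neg_mem_iff] at hx1 hx2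
    obtain ⟨hUo, hUΩ⟩ := hBo U hU
    obtain ⟨v, hv⟩ := (hB U hU).1 (j + 1) f hx1 ⟨-g, by rwa [map_neg, sub_neg_eq_add]⟩
    obtain ⟨f₁, hf₁, w, hw⟩ := (hB U hU).2 j (g + Φ _ v) (by
      have := Submodule.sub_mem _ (Submodule.sub_mem _ hx2 (hN _ U hUo hUΩ _ hv))
        (h'.anti _ _ _ hUΩ (hd _ v))
      rw [map_sub] at this
      rw [map_add]
      convert this using 1
      abel)
    refine ⟨(f₁ - v, w), ?_, ?_⟩
    · have := Submodule.add_mem _ hv hf₁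
      simp only [LG.cd_apply, Prod.fst_sub, map_sub, SetLike.mem_coe]
      convert this using 1
      abel
    · simp only [LG.cd_apply, Prod.snd_sub, map_sub, SetLike.mem_coe]
      convert hw using 1
      abel) hE
  refine ⟨fun j f hf ⟨w, hw⟩ => ?_, fun j g hg => ?_⟩
  · obtain ⟨i, rfl⟩ : ∃ i, j = i + 1 := ⟨j - 1, by ring⟩
    obtain ⟨x, hx, -⟩ := hA i (f, -w) ⟨by simpa [LG.cd_apply] using hf,
      by simpa [LG.cd_apply, sub_eq_add_neg] using hw⟩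
    exact ⟨-x.1, by simpa [LG.cd_apply] using hx⟩
  · obtain ⟨x, hx1, hx2⟩ := hA j (0, g) ⟨by simp [LG.cd_apply], by simpa [LG.cd_apply] using hg⟩
    exact ⟨x.1, by simpa [LG.cd_apply] using hx1, x.2, by simpa [LG.cd_apply, sub_sub] using hx2⟩

theorem Sh.comap {Y : Type*} [TopologicalSpace Y] {π : X → Y} (hπ : Continuous π) {Ω' : Set Y}
    (h : Sh (π ⁻¹' Ω') d N) : Sh Ω' d (fun j U => N j (π ⁻¹' U)) := by
  refine ⟨fun j U V hUV => h.anti _ _ _ (preimage_mono hUV),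
    fun j U hU hΩ => h.d_mem _ _ (hU.preimage hπ) (preimage_mono hΩ), h.dd, h.empty,
    fun j U V hU hV h1 h2 => h.inter _ _ _ (hU.preimage hπ) (hV.preimage hπ) (preimage_mono h1)
      (preimage_mono h2),
    fun j U V hU hV h1 h2 => h.glue _ _ _ (hU.preimage hπ) (hV.preimage hπ) (preimage_mono h1)
      (preimage_mono h2), fun j P h1 h2 h3 f hf => ?_,
    fun j P h1 h2 h3 => h.seq_glue j (fun i => π ⁻¹' P i) (fun i => (h1 i).preimage hπ)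
      (fun i => preimage_mono (h2 i))
      fun i => (hπ.closure_preimage_subset _).trans (preimage_mono (h3 i))⟩
  rw [preimage_iUnion]
  exact h.seq_loc j (fun i => π ⁻¹' P i) (fun i => (h1 i).preimage hπ) (fun i => preimage_mono (h2 i))
    (fun a b hab => preimage_mono (h3 hab)) f hf

theorem Sh.pi (h : Sh Ω d N) (r : ℕ) :
    Sh Ω (M := fun j => Fin r → M j) (fun j => (d j).compLeft (Fin r))
      (fun j U => Submodule.pi univ (fun _ => N j U)) := by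
  refine ⟨fun j U V hUV f hf i hi => h.anti _ _ _ hUV (hf i hi),
    fun j U hU hΩ f hf i hi => h.d_mem _ _ hU hΩ _ (hf i hi), fun j f i _ => h.dd j (f i),
    fun j => by simp [h.empty],
    fun j U V hU hV h1 h2 f hf i hi => h.inter _ _ _ hU hV h1 h2 ⟨hf.1 i hi, hf.2 i hi⟩,
    fun j U V hU hV h1 h2 f hf => ?_,
    fun j P h1 h2 h3 f hf i hi => h.seq_loc j P h1 h2 h3 _ fun n => hf n i hi,
    fun j P h1 h2 h3 f hf => ?_⟩
  · choose x hx y hy e using fun i => Submodule.mem_sup.1 (h.glue _ _ _ hU hV h1 h2 (hf i trivial))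
    exact Submodule.mem_sup.2 ⟨x, fun i _ => hx i, y, fun i _ => hy i, funext e⟩
  · choose g hg using fun i => h.seq_glue j P h1 h2 h3 (fun n => f n i) fun n => hf n i trivial
    exact ⟨g, fun n i _ => hg i n⟩

end abs

/-- `Van` in degree `j : ℤ` (everything in negative degree) -/
def NZ {X : Type*} [TopologicalSpace X] (E : Type*) [AddCommGroup E] [Module ℝ E] (j : ℤ)
    (U : Set X) : Submodule ℝ (Co X E) := if 0 ≤ j then NV E (j.toNat + 1) U else ⊤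

theorem NZ_natCast {X : Type*} [TopologicalSpace X] (E : Type*) [AddCommGroup E] [Module ℝ E]
    (k : ℕ) (U : Set X) : NZ E (k : ℤ) U = NV E (k + 1) U := by
  simp [NZ]

theorem LG.mem_NZ {X : Type*} [TopologicalSpace X] {E : Type*} [AddCommGroup E] [Module ℝ E] {j : ℤ}
    {U : Set X} {f : Co X E} : f ∈ NZ E j U ↔ (0 ≤ j → Van (j.toNat + 1) U f) := by
  unfold NZ
  split_ifs with h
  · exact ⟨fun h' _ => h', fun h' => h' h⟩
  · exact ⟨fun _ h' => absurd h' h, fun _ => trivial⟩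

/-- the Alexander–Spanier complex (with differential `ε • dT T`) -/
theorem sh_AS {X : Type*} [MetricSpace X] {E : Type*} [AddCommGroup E] [Module ℝ E] {Ω : Set X}
    {T : Tw X E} (hT : Flat Ω T) (ε : ℝ) :
    Sh Ω (M := fun _ => Co X E) (fun _ => ε • dT T) (NZ E) := by
  refine ⟨fun j U V hUV f hf => LG.mem_NZ.2 fun hj => (LG.mem_NZ.1 hf hj).mono hUV,
    fun j U _ _ f hf => LG.mem_NZ.2 fun hj => Van.smul ?_ ε, fun j f => LG.mem_NZ.2 fun _ => ?_,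
    fun j => eq_top_iff.2 fun f _ => LG.mem_NZ.2 fun _ z hz => hz.elim,
    fun j U V _ _ _ _ f hf => LG.mem_NZ.2 fun hj => (LG.mem_NZ.1 hf.1 hj).union (LG.mem_NZ.1 hf.2 hj),
    fun j U V hU hV _ _ f hf => ?_,
    fun j P _ _ _ f hf => LG.mem_NZ.2 fun hj z hz => ?_, fun j P h1 _ h3 f hf => ?_⟩
  · by_cases h0 : 0 ≤ j
    · rw [show (j + 1).toNat = j.toNat + 1 by omega]
      exact (LG.mem_NZ.1 hf h0).dT T
    · rw [show (j + 1).toNat = 0 by omega]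
      exact van_one_dT U T f
  · simp only [LinearMap.smul_apply, map_smul]
    exact ((hT.dT_dT _ f).smul ε).smul ε
  · by_cases h0 : 0 ≤ j
    · obtain ⟨g, h1, h2⟩ := van_inter_split hU hV (LG.mem_NZ.1 hf h0)
      exact Submodule.mem_sup.2 ⟨g, LG.mem_NZ.2 fun _ => h1, f - g, LG.mem_NZ.2 fun _ => h2, by abel⟩
    · exact Submodule.mem_sup_left (LG.mem_NZ.2 fun h => absurd h h0)
  · obtain ⟨i, hi⟩ := mem_iUnion.1 hz
    exact LG.mem_NZ.1 (hf i) hj z hi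
  · by_cases h0 : 0 ≤ j
    · obtain ⟨g, hg⟩ := seq_glue h1 h3 f fun i => LG.mem_NZ.1 (hf i) h0
      exact ⟨g, fun i => LG.mem_NZ.2 fun _ => hg i⟩
    · exact ⟨0, fun i => LG.mem_NZ.2 fun h => absurd h h0⟩

theorem isOpen_box {n : ℕ} (a b : R n) : IsOpen (Box a b) := by
  have : Box a b = Set.pi univ fun i => Ioo (a i) (b i) := by
    ext x
    simp [Box]
  rw [this]
  exact isOpen_set_pi finite_univ fun i _ => isOpen_Ioo

theorem convex_box {n : ℕ} (a b : R n) : Convex ℝ (Box a b) := by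
  have : Box a b = Set.pi univ fun i => Ioo (a i) (b i) := by
    ext x
    simp [Box]
  rw [this]
  exact convex_pi fun i _ => convex_Ioo _ _

theorem box_inter {n : ℕ} (a b a' b' : R n) : Box a b ∩ Box a' b' = Box (a ⊔ a') (b ⊓ b') := by
  ext x
  simp only [Box, mem_inter_iff, mem_ofPred_eq, Pi.sup_apply, Pi.inf_apply, sup_lt_iff, lt_inf_iff]
  exact ⟨fun h i => ⟨⟨(h.1 i).1, (h.2 i).1⟩, (h.1 i).2, (h.2 i).2⟩,
    fun h => ⟨fun i => ⟨(h i).1.1, (h i).2.1⟩, fun i => ⟨(h i).1.2, (h i).2.2⟩⟩⟩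

theorem closure_box_subset {n : ℕ} (a b : R n) : closure (Box a b) ⊆ Icc a b := by
  exact closure_minimal (fun x hx => ⟨fun i => (hx i).1.le, fun i => (hx i).2.le⟩) isClosed_Icc

/-- the small boxes -/
def Boxes {n : ℕ} (Ω : Set (R n)) (Q : Set (R n) → Prop) : Set (Set (R n)) :=
  {W | (∃ a b, W = Box a b) ∧ closure W ⊆ Ω ∧ Q W}

/-- every compact `K ⊆ Ω` is covered by finitely many small boxes (sup-norm balls are boxes) -/
theorem exists_boxes_cover {n : ℕ} {Ω : Set (R n)} (hΩ : IsOpen Ω) {Q : Set (R n) → Prop}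
    (hQ : ∀ U V, U ⊆ V → Q V → Q U) (hl : ∀ z ∈ Ω, ∃ W ∈ 𝓝 z, Q W) {K : Set (R n)}
    (hK : IsCompact K) (hKΩ : K ⊆ Ω) : ∃ s ⊆ Boxes Ω Q, s.Finite ∧ K ⊆ ⋃₀ s := by
  have h1 : ∀ z ∈ K, ∃ W ∈ Boxes Ω Q, W ∈ 𝓝 z := by
    intro z hz
    obtain ⟨W, hW, hQW⟩ := hl z (hKΩ hz)
    obtain ⟨r, hr, hb⟩ := Metric.nhds_basis_closedBall.mem_iff.1 (inter_mem hW (hΩ.mem_nhds (hKΩ hz)))
    have h2 : closure (Box (fun i => z i - r) fun i => z i + r) ⊆ W ∩ Ω := by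
      refine (closure_box_subset _ _).trans (Subset.trans (fun x hx => ?_) hb)
      rw [Metric.mem_closedBall, dist_pi_le_iff hr.le]
      intro i
      rw [Real.dist_eq, abs_le]
      constructor <;> linarith [hx.1 i, hx.2 i]
    exact ⟨_, ⟨⟨_, _, rfl⟩, h2.trans inter_subset_right,
      hQ _ _ (subset_closure.trans (h2.trans inter_subset_left)) hQW⟩,
      (isOpen_box _ _).mem_nhds fun i => ⟨by linarith, by linarith⟩⟩
  choose! W hW hW' using h1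
  obtain ⟨t, ht, hc⟩ := hK.elim_nhds_subcover W hW'
  refine ⟨W '' t, ?_, t.finite_toSet.image W, ?_⟩
  · rintro _ ⟨z, hz, rfl⟩
    exact hW z (ht z hz)
  · rw [sUnion_image]
    exact hc

theorem boxes_inter {n : ℕ} {Ω : Set (R n)} {Q : Set (R n) → Prop}
    (hQ : ∀ U V, U ⊆ V → Q V → Q U) : ∀ b ∈ Boxes Ω Q, ∀ c ∈ Boxes Ω Q, b ∩ c ∈ Boxes Ω Q := by
  rintro _ ⟨⟨a, b, rfl⟩, h1, h2⟩ _ ⟨⟨a', b', rfl⟩, -, -⟩
  exact ⟨⟨_, _, box_inter a b a' b'⟩, (closure_mono inter_subset_left).trans h1,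
    hQ _ _ inter_subset_left h2⟩

/-- `Ω` is a countable union of compact sets `K i`; `P (i+1)` covers `K i ∪ closure (P i)`. -/
theorem exh_boxes {n : ℕ} {Ω : Set (R n)} (hΩ : IsOpen Ω) {Q : Set (R n) → Prop}
    (hQ : ∀ U V, U ⊆ V → Q V → Q U) (hl : ∀ z ∈ Ω, ∃ W ∈ 𝓝 z, Q W) : Exh Ω (Boxes Ω Q) := by
  obtain ⟨F, hFc, hFΩ, hFU, hFm⟩ := hΩ.exists_iUnion_isClosed
  have step : ∀ (i : ℕ) (s : Set (Set (R n))), s ⊆ Boxes Ω Q ∧ s.Finite →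
      ∃ s', (s' ⊆ Boxes Ω Q ∧ s'.Finite) ∧
        (Metric.closedBall 0 i ∩ F i) ∪ closure (⋃₀ s) ⊆ ⋃₀ s' := by
    intro i s hs
    rw [hs.2.closure_sUnion]
    obtain ⟨s', h1, h2, h3⟩ := exists_boxes_cover hΩ hQ hl
      (K := (Metric.closedBall 0 i ∩ F i) ∪ ⋃ t ∈ s, closure t)
      (((isCompact_closedBall _ _).inter_right (hFc i)).union (hs.2.isCompact_biUnion fun t ht => by
        obtain ⟨⟨a, b, rfl⟩, -⟩ := hs.1 ht
        exact isCompact_Icc.of_isClosed_subset isClosed_closure (closure_box_subset a b)))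
      (union_subset (inter_subset_right.trans (hFΩ i)) (iUnion₂_subset fun t ht => (hs.1 ht).2.1))
    exact ⟨s', ⟨h1, h2⟩, h3⟩
  choose! st h1 h2 using step
  let s : ℕ → Set (Set (R n)) := fun i => Nat.rec ∅ (fun i s => st i s) i
  have hs : ∀ i, s i ⊆ Boxes Ω Q ∧ (s i).Finite := fun i => by
    induction i with
    | zero => exact ⟨empty_subset _, finite_empty⟩
    | succ i ih => exact h1 i _ ih
  refine ⟨fun i => ⋃₀ s i, fun i => ⟨s i, (hs i).1, (hs i).2, rfl⟩,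
    fun i => subset_union_right.trans (h2 i _ (hs i)), Subset.antisymm ?_ fun z hz => ?_⟩
  · exact iUnion_subset fun i => sUnion_subset fun t ht => subset_closure.trans ((hs i).1 ht).2.1
  · rw [← hFU] at hz
    obtain ⟨i, hi⟩ := mem_iUnion.1 hz
    obtain ⟨k, hk⟩ := exists_nat_ge ‖z‖
    refine mem_iUnion.2 ⟨max i k + 1, h2 _ _ (hs _) (Or.inl ⟨?_, hFm (le_max_left _ _) hi⟩)⟩
    rw [mem_closedBall_zero_iff]
    exact hk.trans (by exact_mod_cast le_max_right i k)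

end Crest.Agent.R217
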