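import Crest.Agent.R217.Conv
import Crest.Agent.R217.LG

/-! # R217 / FinH : finite dimensionality -/

set_option autoImplicit false
open Set Topology Filter

namespace Crest.Agent.R217

variable {E : Type*} [AddCommGroup E] [Module ℝ E]

/-- the image of `H^k(Ω;T) → H^k(P;T)` is finite dimensional -/
def FinH {X : Type*} [TopologicalSpace X] (T : Tw X E) (k : ℕ) (Ω P : Set X) : Prop :=
  ∃ F : Submodule ℝ (Co X E), F ≤ Zc T k Ω ∧ FiniteDimensional ℝ F ∧
    ∀ x ∈ Zc T k Ω, ∃ f ∈ F, ∃ w, Van (k + 1) P (x - f - dT T w)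

namespace FinHA

theorem lift {M : Type*} [AddCommGroup M] [Module ℝ M] {Z B F : Submodule ℝ M} (hF : FiniteDimensional ℝ F)
    (h : ∀ x ∈ Z, ∃ f ∈ F, x - f ∈ B) :
    ∃ F' : Submodule ℝ M, F' ≤ Z ∧ FiniteDimensional ℝ F' ∧ ∀ x ∈ Z, ∃ f ∈ F', x - f ∈ B := by
  classical
  have h1 : Z.map B.mkQ ≤ F.map B.mkQ := by
    rintro _ ⟨x, hx, rfl⟩
    obtain ⟨f, hf, hxf⟩ := h x hx
    exact ⟨f, hf, ((Submodule.Quotient.eq _).2 hxf).symm⟩
  have h2 : FiniteDimensional ℝ (Z.map B.mkQ) := Submodule.finiteDimensional_of_le h1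
  obtain ⟨s, hs⟩ := (Submodule.fg_iff_finiteDimensional _).2 h2
  have h3 : ∀ y : s, ∃ x ∈ Z, B.mkQ x = y := fun y => by
    have : (y : M ⧸ B) ∈ Z.map B.mkQ := hs ▸ Submodule.subset_span y.2
    exact this
  choose g hg1 hg2 using h3
  refine ⟨Submodule.span ℝ (range g), Submodule.span_le.2 (by rintro _ ⟨y, rfl⟩; exact hg1 y),
    FiniteDimensional.span_of_finite ℝ (finite_range g), fun x hx => ?_⟩
  have h4 : B.mkQ x ∈ (Submodule.span ℝ (range g)).map B.mkQ := by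
    have : B.mkQ x ∈ Submodule.span ℝ (s : Set (M ⧸ B)) := hs ▸ Submodule.mem_map_of_mem hx
    refine Submodule.span_le.2 (fun y hy => ?_) this
    exact ⟨g ⟨y, hy⟩, Submodule.subset_span ⟨_, rfl⟩, hg2 _⟩
  obtain ⟨f, hf, hfx⟩ := h4
  exact ⟨f, hf, (Submodule.Quotient.eq _).1 hfx.symm⟩

/-- coboundaries on `P` -/
def BB {X : Type*} [TopologicalSpace X] (T : Tw X E) (k : ℕ) (P : Set X) : Submodule ℝ (Co X E) where
  carrier := {x | ∃ w, Van (k + 1) P (x - dT T w)}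
  add_mem' := by
    rintro u u' ⟨w, h⟩ ⟨w', h'⟩
    refine ⟨w + w', ?_⟩
    have := h.add h'
    rwa [map_add, show u + u' - (dT T w + dT T w') = u - dT T w + (u' - dT T w') by abel]
  zero_mem' := ⟨0, by simp [Van, supp_zero]⟩
  smul_mem' := by
    rintro c u ⟨w, h⟩
    refine ⟨c • w, ?_⟩
    have := h.smul c
    rwa [map_smul, ← smul_sub]

theorem of_weak {X : Type*} [TopologicalSpace X] {T : Tw X E} {k : ℕ} {Ω P : Set X}
    {F : Submodule ℝ (Co X E)} (hF : FiniteDimensional ℝ F)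
    (h : ∀ x ∈ Zc T k Ω, ∃ f ∈ F, x - f ∈ BB T k P) : FinH T k Ω P :=
  lift hF h

end FinHA


/-- linear algebra: with `B = {x | ∃ w, Van (k+1) P (x - dT w)}`, the image of `Zc Ω` in `Co ⧸ B` lies in
the finite-dimensional image of `F`; lift a basis of it to `Zc Ω`. -/
theorem FinH.of_self {X : Type*} [TopologicalSpace X] {T : Tw X E} {k : ℕ} {Ω P : Set X}
    (hP : P ⊆ Ω) (h : FinH T k P P) : FinH T k Ω P := by
  obtain ⟨F, -, hF, h⟩ := h
  exact FinHA.of_weak hF fun x hx => h x (Van.mono hx hP)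

/-- Mayer–Vietoris: `H^k(U ∪ V) → H^k U × H^k V` has finite-dimensional image, and its kernel is the
image of `H^(k-1)(U ∩ V)` under `c ↦ dT (c - n)`, where `dT c` vanishes on `U ∩ V`... concretely: if
`x = δa` on `U`, `x = δ b` on `V`, `a - b = f + δ c` on `U ∩ V` with `f ∈ F`; for a fixed separating
set `S` (`exists_sep Uᶜ Vᶜ`), `x = ± δ (hm S f)`-like class `conn f := hm`-glued cochain which
depends linearly on `f`.  (Alternatively use quotient modules and `Module.Finite` of an exact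
sequence.) -/
theorem FinH.union {X : Type*} [MetricSpace X] {T : Tw X E} {U V : Set X} (hU : IsOpen U)
    (hV : IsOpen V) (hT : Flat (U ∪ V) T) (h₁ : ∀ k, FinH T k U U) (h₂ : ∀ k, FinH T k V V)
    (h₃ : ∀ k, FinH T k (U ∩ V) (U ∩ V)) (k : ℕ) : FinH T k (U ∪ V) (U ∪ V) := by
  obtain ⟨F₁, -, hF₁, h₁⟩ := h₁ k
  obtain ⟨F₂, -, hF₂, h₂⟩ := h₂ k
  obtain ⟨G₁, hG₁Z, hG₁, g₁⟩ := FinHA.lift (Z := Zc T k (U ∪ V)) (B := FinHA.BB T k U) hF₁
    fun x hx => h₁ x (Van.mono hx subset_union_left)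
  obtain ⟨G₂, hG₂Z, hG₂, g₂⟩ := FinHA.lift (Z := Zc T k (U ∪ V) ⊓ FinHA.BB T k U) (B := FinHA.BB T k V) hF₂
    fun x hx => h₂ x (Van.mono hx.1 subset_union_right)
  have key : ∃ G₃ : Submodule ℝ (Co X E), FiniteDimensional ℝ G₃ ∧ ∀ x ∈ FinHA.BB T k U, x ∈ FinHA.BB T k V →
      ∃ f ∈ G₃, x - f ∈ FinHA.BB T k (U ∪ V) := by
    cases k with
    | zero =>
      refine ⟨⊥, inferInstance, ?_⟩
      rintro x ⟨a, ha⟩ ⟨b, hb⟩
      refine ⟨0, Submodule.zero_mem _, 0, ?_⟩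
      have ha' := ha.add (van_one_dT U T a)
      have hb' := hb.add (van_one_dT V T b)
      rw [sub_add_cancel] at ha' hb'
      simpa using ha'.union hb'
    | succ j =>
      obtain ⟨F₃, -, hF₃, h₃⟩ := h₃ j
      obtain ⟨S, hS1, hS2⟩ := exists_sep hU.isClosed_compl hV.isClosed_compl
      have hS1' : ∀ z ∈ U ∪ V, z ∈ closure Sᶜ → z ∈ U := by
        intro z hz hc
        by_contra hzU
        rw [closure_compl] at hc
        exact hc (hS1 ⟨hzU, fun h => h (hz.resolve_left hzU)⟩)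
      have hS2' : ∀ z ∈ U ∪ V, z ∈ closure S → z ∈ V := by
        intro z hz hc
        by_contra hzV
        have := hS2 ⟨hzV, fun h => h (hz.resolve_right hzV)⟩
        rw [interior_compl] at this
        exact this hc
      let κ : Co X E →ₗ[ℝ] Co X E := dT T ∘ₗ hm S - hm S ∘ₗ dT T
      refine ⟨F₃.map κ, inferInstance, ?_⟩
      rintro x ⟨a, ha⟩ ⟨b, hb⟩
      have hc : a - b ∈ Zc T j (U ∩ V) := by
        have := (hb.mono (inter_subset_right (s := U))).sub (ha.mono (inter_subset_left (t := V)))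
        rwa [mem_Zc, map_sub, show dT T a - dT T b = x - dT T b - (x - dT T a) by abel]
      obtain ⟨f, hf, e, he⟩ := h₃ _ hc
      refine ⟨κ f, Submodule.mem_map_of_mem hf, a - hm S (a - b) + hm S (dT T e), ?_⟩
      have v1 : Van (j + 2) (U ∪ V) (hm Sᶜ (x - dT T a)) := fun z hz hs =>
        ha z (hS1' z hz (supp_hm _ _ _ hs).2) (supp_hm _ _ _ hs).1
      have v2 : Van (j + 2) (U ∪ V) (hm S (x - dT T b)) := fun z hz hs =>
        hb z (hS2' z hz (supp_hm _ _ _ hs).2) (supp_hm _ _ _ hs).1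
      have v3 := van_hm_compl (j + 1) S (U ∪ V) (x - dT T a)
      have v4 : Van (j + 2) (U ∪ V) (hm S (dT T (dT T e))) := fun z hz hs =>
        hT.dT_dT (j + 2) e z hz (supp_hm _ _ _ hs).1
      have v5 : Van (j + 2) (U ∪ V) (dT T (hm S (a - b - f - dT T e)) - hm S (dT T (a - b - f - dT T e))) := by
        intro z hz hs
        obtain ⟨h1, h2⟩ := supp_dT_hm j T S _ hs
        refine he z ⟨hS1' z hz ?_, hS2' z hz (frontier_subset_closure h1)⟩ h2
        rw [← frontier_compl] at h1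
        exact frontier_subset_closure h1
      have := (((v1.add v2).add v3).sub v4).add v5
      convert this using 1
      simp only [κ, LinearMap.sub_apply, LinearMap.comp_apply, map_sub, map_add]
      abel
  obtain ⟨G₃, hG₃, g₃⟩ := key
  refine FinHA.of_weak (F := G₁ ⊔ G₂ ⊔ G₃) inferInstance fun x hx => ?_
  obtain ⟨f₁, hf₁, e₁⟩ := g₁ x hx
  obtain ⟨f₂, hf₂, e₂⟩ := g₂ (x - f₁) ⟨Submodule.sub_mem _ hx (hG₁Z hf₁), e₁⟩
  obtain ⟨f₃, hf₃, e₃⟩ := g₃ (x - f₁ - f₂) (Submodule.sub_mem _ e₁ (hG₂Z hf₂).2) e₂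
  refine ⟨f₁ + f₂ + f₃, Submodule.add_mem_sup (Submodule.add_mem_sup hf₁ hf₂) hf₃, ?_⟩
  rwa [show x - (f₁ + f₂ + f₃) = x - f₁ - f₂ - f₃ by abel]

theorem finH_box [FiniteDimensional ℝ E] {n : ℕ} {T : Tw (R n) E} {a b : R n}
    (h : Triv (Box a b) T) (k : ℕ) : FinH T k (Box a b) (Box a b) := by
  cases k with
  | succ j =>
    refine FinHA.of_weak (F := ⊥) inferInstance fun x hx => ⟨0, Submodule.zero_mem _, ?_⟩
    rw [sub_zero]
    exact h.exT (isOpen_box a b) (convex_box a b) j x hx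
  | zero =>
    obtain ⟨g, g', hid, -, hg'⟩ := h
    let φ : E →ₗ[ℝ] Co (R n) E := gau g ∘ₗ LinearMap.pi fun _ => LinearMap.id
    refine FinHA.of_weak (F := LinearMap.range φ) inferInstance fun x hx => ?_
    have h1 : gau g' x ∈ Zc (T1 (R n) E) 0 (Box a b) := by
      have h2 : Van 2 (Box a b) (gau g' (dT T x)) := fun z hz hs => hx z hz (supp_gau _ _ _ hs)
      have := (hg'.van 2 x).add h2
      rwa [sub_add_cancel] at this
    obtain ⟨e, he⟩ := const_of_cocycle (isOpen_box a b) (convex_box a b).isPreconnected h1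
    refine ⟨φ e, ⟨e, rfl⟩, 0, ?_⟩
    rw [map_zero, sub_zero, van_one_iff (isOpen_box a b)]
    intro y hy
    have h3 : g y (g' y (x [y])) = x [y] := LinearMap.congr_fun (hid y hy).1 _
    have h4 : g' y (x [y]) = e := he y hy
    show x [y] - g y e = 0
    rw [← h4, h3, sub_self]

/-- `P` = finite union of small boxes (`exists_boxes_cover`), induction on their number -/
theorem exists_finH [FiniteDimensional ℝ E] {n : ℕ} {Ω K : Set (R n)} (hΩ : IsOpen Ω)
    {T : Tw (R n) E} (hT : Flat Ω T) (hK : IsCompact K) (hKΩ : K ⊆ Ω) (k : ℕ) :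
    ∃ P, IsOpen P ∧ K ⊆ P ∧ P ⊆ Ω ∧ FinH T k Ω P := by
  have hQ : ∀ U V : Set (R n), U ⊆ V → Triv V T → Triv U T := fun U V h h' => h'.mono h
  have hB : ∀ b ∈ Boxes Ω (fun W => Triv W T), IsOpen b ∧ b ⊆ Ω := by
    rintro _ ⟨⟨a, b, rfl⟩, h, -⟩
    exact ⟨isOpen_box a b, subset_closure.trans h⟩
  have key : ∀ (m : ℕ) (L : List (Set (R n))), L.length = m → (∀ b ∈ L, b ∈ Boxes Ω (fun W => Triv W T)) →
      ∀ k, FinH T k (⋃ b ∈ L, b) (⋃ b ∈ L, b) := by
    intro m
    induction m with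
    | zero =>
      intro L hL _ k
      rw [List.length_eq_zero_iff] at hL
      subst hL
      exact FinHA.of_weak (F := ⊥) inferInstance fun x _ =>
        ⟨0, Submodule.zero_mem _, 0, fun z hz => by simp at hz⟩
    | succ m ih =>
      intro L hL hLB k
      obtain ⟨c, L', rfl⟩ := List.exists_cons_of_length_eq_add_one hL
      have hc := hLB c (List.mem_cons_self ..)
      have hL' : ∀ b ∈ L', b ∈ Boxes Ω (fun W => Triv W T) := fun b hb => hLB b (List.mem_cons_of_mem _ hb)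
      have e1 : (⋃ b ∈ c :: L', b) = c ∪ ⋃ b ∈ L', b := by
        ext z
        simp
      have e2 : (c ∩ ⋃ b ∈ L', b) = ⋃ b ∈ L'.map (c ∩ ·), b := by
        ext z
        simp only [mem_inter_iff, mem_iUnion, List.mem_map, exists_prop]
        constructor
        · rintro ⟨h1, b, hb, h2⟩
          exact ⟨_, ⟨b, hb, rfl⟩, h1, h2⟩
        · rintro ⟨_, ⟨b, hb, rfl⟩, h1, h2⟩
          exact ⟨h1, b, hb, h2⟩
      rw [e1]
      refine FinH.union (hB c hc).1 (isOpen_iUnion fun b => isOpen_iUnion fun hb => (hB b (hL' b hb)).1)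
        (hT.mono (union_subset (hB c hc).2 (iUnion₂_subset fun b hb => (hB b (hL' b hb)).2))) ?_
        (ih L' (by simpa using hL) hL') ?_ k
      · obtain ⟨⟨a, b, rfl⟩, -, h⟩ := hc
        exact finH_box h
      · rw [e2]
        refine ih _ (by simpa using hL) ?_
        intro b hb
        obtain ⟨b', hb', rfl⟩ := List.mem_map.1 hb
        exact boxes_inter hQ c hc b' (hL' b' hb')
  obtain ⟨s, hs, hfin, hKs⟩ := exists_boxes_cover hΩ hQ (fun z hz => hT.triv hz) hK hKΩ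
  have e : ⋃₀ s = ⋃ b ∈ hfin.toFinset.toList, b := by
    ext z
    simp
  have hsub : ⋃₀ s ⊆ Ω := sUnion_subset fun b hb => (hB b (hs hb)).2
  refine ⟨⋃₀ s, isOpen_sUnion fun b hb => (hB b (hs hb)).1, hKs, hsub, FinH.of_self hsub ?_⟩
  rw [e]
  exact key _ _ rfl (fun b hb => hs (by simpa using hb)) k

end Crest.Agent.R217
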