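import Crest.Agent.R217.Sig2

/-! # R217 / Sig3 : equivariant signature lemmas -/

set_option autoImplicit false
set_option linter.unusedSectionVars false
open Set

namespace Crest.Agent.R217

variable {M M' : Type*} [AddCommGroup M] [Module ℝ M] [Module ℂ M] [IsScalarTower ℝ ℂ M]
  [AddCommGroup M'] [Module ℝ M'] [Module ℂ M'] [IsScalarTower ℝ ℂ M']
  {Z : Submodule ℝ M} {β : M →ₗ[ℝ] M →ₗ[ℝ] ℝ} {u : M →ₗ[ℝ] M}

namespace Sig3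

/-- sums of eigenvectors -/
def eigSum (h : HF Z β u) (t : Finset ℂ) : Submodule ℝ M where
  carrier := {x | ∃ v : ℂ → M, (∀ ζ, v ζ ∈ eig Z β u ζ) ∧ x = ∑ ζ ∈ t, v ζ}
  add_mem' := by
    rintro _ _ ⟨v, hv, rfl⟩ ⟨w, hw, rfl⟩
    exact ⟨fun ζ => v ζ + w ζ, fun ζ => (h.eigS ζ).add_mem (hv ζ) (hw ζ),
      Finset.sum_add_distrib.symm⟩
  zero_mem' := ⟨fun _ => 0, fun ζ => (h.eigS ζ).zero_mem, by simp⟩
  smul_mem' := by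
    rintro r _ ⟨v, hv, rfl⟩
    exact ⟨fun ζ => r • v ζ, fun ζ => (h.eigS ζ).smul_mem r (hv ζ), Finset.smul_sum⟩

theorem eigSum_le (h : HF Z β u) (t : Finset ℂ) : eigSum h t ≤ Z := by
  rintro _ ⟨v, hv, rfl⟩
  exact Z.sum_mem fun ζ _ => (hv ζ).1

theorem eigSum_orth (h : HF Z β u) {c : ℝ}
    (hc : ∀ x ∈ Z, ∀ y ∈ Z, β (u x) (u y) = c * β x y) {t t' : Finset ℂ}
    (hne : ∀ ζ ∈ t, ∀ ζ' ∈ t', ζ * (starRingEnd ℂ) ζ' ≠ c) :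
    ∀ x ∈ eigSum h t, ∀ y ∈ eigSum h t', β x y = 0 := by
  rintro _ ⟨v, hv, rfl⟩ _ ⟨w, hw, rfl⟩
  simp only [map_sum, LinearMap.sum_apply]
  exact Finset.sum_eq_zero fun ζ' hζ' => Finset.sum_eq_zero fun ζ hζ =>
    h.eig_orth hc (hne ζ hζ ζ' hζ') _ (hv ζ) _ (hw ζ')

theorem normSq_of {ζ ζ' : ℂ} {c : ℝ} (e : ζ * (starRingEnd ℂ) ζ' = c) :
    Complex.normSq ζ * Complex.normSq ζ' = c * c := by
  have := congrArg Complex.normSq e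
  simpa using this

theorem eq_of {ζ ζ' : ℂ} {c : ℝ} (hc : 0 < c) (e : ζ * (starRingEnd ℂ) ζ' = c)
    (e' : ζ' * (starRingEnd ℂ) ζ' = c) : ζ = ζ' := by
  have hne : (starRingEnd ℂ) ζ' ≠ 0 := by
    intro h0
    rw [h0, mul_zero] at e'
    exact hc.ne (by exact_mod_cast e')
  exact mul_right_cancel₀ hne (e.trans e'.symm)

theorem sg_eig_iso (h : HF Z β u) {c : ℝ}
    (hc : ∀ x ∈ Z, ∀ y ∈ Z, β (u x) (u y) = c * β x y) {ζ : ℂ}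
    (hne : ζ * (starRingEnd ℂ) ζ ≠ c) : sg β (eig Z β u ζ) = 0 :=
  sg_eq_zero fun x hx => h.eig_orth hc hne x hx x hx

theorem sg_eigSum (h : HF Z β u) {c : ℝ} (hc0 : 0 < c)
    (hc : ∀ x ∈ Z, ∀ y ∈ Z, β (u x) (u y) = c * β x y) (t : Finset ℂ)
    (ht : ∀ ζ ∈ t, ζ * (starRingEnd ℂ) ζ = c) :
    sg β (eigSum h t) = ∑ ζ ∈ t, sg β (eig Z β u ζ) := by
  classical
  induction t using Finset.induction_on with
  | empty =>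
    rw [Finset.sum_empty]
    refine sg_eq_zero ?_
    rintro _ ⟨v, -, rfl⟩
    simp
  | insert a t ha ih =>
    rw [Finset.sum_insert ha, ← ih fun ζ hζ => ht ζ (Finset.mem_insert_of_mem hζ), ← h.coe_eigS]
    refine sg_orth_add (h.toRF.mono (eigSum_le h _)) ?_ ?_ ?_ ?_
    · intro x hx
      refine ⟨Pi.single a x, fun ζ => ?_, ?_⟩
      · by_cases e : ζ = a
        · subst e; rw [Pi.single_eq_same]; exact hx
        · rw [Pi.single_eq_of_ne e]; exact (h.eigS ζ).zero_mem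
      · simp
    · rintro _ ⟨v, hv, rfl⟩
      refine ⟨Function.update v a 0, fun ζ => ?_, ?_⟩
      · by_cases e : ζ = a
        · subst e; rw [Function.update_self]; exact (h.eigS ζ).zero_mem
        · rw [Function.update_of_ne e]; exact hv ζ
      · rw [Finset.sum_insert ha, Function.update_self, zero_add]
        exact Finset.sum_congr rfl fun ζ hζ =>
          (Function.update_of_ne (fun e : ζ = a => ha (e ▸ hζ)) _ _).symm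
    · rintro x hx _ ⟨w, hw, rfl⟩
      rw [map_sum]
      refine Finset.sum_eq_zero fun ζ hζ => h.eig_orth hc (fun e => ?_) x hx _ (hw ζ)
      exact ha (eq_of hc0 e (ht ζ (Finset.mem_insert_of_mem hζ)) ▸ hζ)
    · rintro _ ⟨v, hv, rfl⟩
      refine ⟨v a, hv a, ∑ ζ ∈ t, v ζ, ⟨v, hv, rfl⟩, fun y _ => ?_⟩
      rw [Finset.sum_insert ha]
      simp

/-- the `ζ`-component of an element of an invariant subspace -/
theorem proj (h : HF Z β u) {J : Submodule ℝ M} (hJ : J ≤ Z)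
    (hc : ∀ (c : ℂ), ∀ x ∈ J, c • x ∈ J) (hu : ∀ x ∈ J, u x ∈ J) {x : M} (hx : x ∈ J) (ζ : ℂ) :
    ∃ a ∈ J, a ∈ eig Z β u ζ ∧ ∀ y ∈ Z,
      (∀ ζ' ≠ ζ, ∀ v ∈ J, v ∈ eig Z β u ζ' → β v y = 0) → β (x - a) y = 0 := by
  classical
  obtain ⟨s, hs, hdec⟩ := h.eig_decomp
  obtain ⟨v, hv, hsum⟩ := hdec J hJ hc hu x hx
  refine ⟨v ζ, (hv ζ).1, (hv ζ).2, fun y hy ho => ?_⟩
  have e1 : β (∑ ζ' ∈ s, v ζ') y = β (v ζ) y := by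
    rw [map_sum, LinearMap.sum_apply]
    refine Finset.sum_eq_single ζ (fun ζ' _ hne => ho ζ' hne _ (hv ζ').1 (hv ζ').2) fun hn => ?_
    exact hs ζ hn _ (hv ζ).2 y hy
  have e2 := hsum y hy
  rw [map_sub, LinearMap.sub_apply, e1] at e2
  rw [map_sub, LinearMap.sub_apply, e2]

/-- left radical -/
def radS (Z : Submodule ℝ M) (β : M →ₗ[ℝ] M →ₗ[ℝ] ℝ) : Submodule ℝ M where
  carrier := {x | ∀ y ∈ Z, β x y = 0}
  add_mem' {a b} ha hb y hy := by rw [map_add, LinearMap.add_apply, ha y hy, hb y hy, add_zero]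
  zero_mem' y _ := by simp
  smul_mem' r a ha y hy := by rw [map_smul, LinearMap.smul_apply, ha y hy, smul_zero]

theorem mem_radS {x : M} : x ∈ radS Z β ↔ ∀ y ∈ Z, β x y = 0 := Iff.rfl

theorem eig_of_sub_rad (h : HF Z β u) {ζ : ℂ} {x x' : M} (hx : x ∈ eig Z β u ζ) (hx' : x' ∈ Z)
    (hr : ∀ y ∈ Z, β (x - x') y = 0) : x' ∈ eig Z β u ζ := by
  have := (h.eigS ζ).sub_mem hx (h.rad_mem_eig ζ (Z.sub_mem hx.1 hx') hr)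
  rwa [sub_sub_cancel] at this

/-- half of `sg_add` -/
theorem rad_left {Z₁ Z₂ : Submodule ℝ M} {β₁ β₂ : M →ₗ[ℝ] M →ₗ[ℝ] ℝ}
    (h₁ : HF Z₁ β₁ u) (h₂ : HF Z₂ β₂ u) (hZ₁ : Z ≤ Z₁) (hZ₂ : Z ≤ Z₂)
    (hβ : ∀ x ∈ Z, ∀ y ∈ Z, β x y = β₁ x y + β₂ x y)
    (hs : ∀ x₁ ∈ Z₁, ∃ x ∈ Z, (∀ y ∈ Z₁, β₁ (x₁ - x) y = 0) ∧ ∀ y ∈ Z₂, β₂ x y = 0)
    {x : M} (hx : x ∈ Z) (hr : ∀ y ∈ Z, β x y = 0) : ∀ y ∈ Z₁, β₁ x y = 0 := by
  intro y₁ hy₁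
  obtain ⟨y, hy, e₁, e₂⟩ := hs y₁ hy₁
  have a1 := hr y hy
  rw [hβ x hx y hy, h₂.symm x (hZ₂ hx) y (hZ₂ hy), e₂ x (hZ₂ hx), add_zero] at a1
  have a2 := e₁ x (hZ₁ hx)
  rw [h₁.symm _ (Z₁.sub_mem hy₁ (hZ₁ hy)) x (hZ₁ hx), map_sub, a1, sub_zero] at a2
  exact a2

theorem sg_add_half {Z₁ Z₂ : Submodule ℝ M} {β₁ β₂ : M →ₗ[ℝ] M →ₗ[ℝ] ℝ} (h : HF Z β u)
    (h₁ : HF Z₁ β₁ u) (h₂ : HF Z₂ β₂ u) (hZ₁ : Z ≤ Z₁) (hZ₂ : Z ≤ Z₂)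
    (hβ : ∀ x ∈ Z, ∀ y ∈ Z, β x y = β₁ x y + β₂ x y)
    (hs : ∀ x₁ ∈ Z₁, ∃ x ∈ Z, (∀ y ∈ Z₁, β₁ (x₁ - x) y = 0) ∧ ∀ y ∈ Z₂, β₂ x y = 0) (ζ : ℂ)
    (heig : ∀ x ∈ Z, x ∈ eig Z β u ζ ↔ x ∈ eig Z₁ β₁ u ζ ∧ x ∈ eig Z₂ β₂ u ζ) :
    sg β₁ (eig Z₁ β₁ u ζ) = sg β (h.eigS ζ ⊓ radS Z₂ β₂ : Submodule ℝ M) := by
  rw [← h₁.coe_eigS]
  refine sg_transport (h₁.toRF.mono (h₁.eigS_le ζ)) LinearMap.id
    (fun x hx => ((heig x hx.1.1).mp hx.1).1) one_pos (fun x hx y hy => ?_) (fun x' hx' => ?_)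
  · rw [hβ x hx.1.1 y hy.1.1, hx.2 y (hZ₂ hy.1.1)]; simp
  · obtain ⟨x, hx, e₁, e₂⟩ := hs x' hx'.1
    refine ⟨x, ⟨(heig x hx).mpr ⟨eig_of_sub_rad h₁ hx' (hZ₁ hx) e₁,
      h₂.rad_mem_eig ζ (hZ₂ hx) e₂⟩, e₂⟩, fun y hy => e₁ y hy.1⟩

end Sig3

open Sig2 Sig3

/-- `Z = ⊥_{|ζ|² = c} eig ζ ⊥ (Σ_{|ζ|²<c} eig ζ + Σ_{|ζ|²>c} eig ζ)` mod radical; the last part is
spanned by two isotropic subspaces, and each `eig ζ` with `|ζ|² ≠ c` is isotropic. -/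
theorem HF.sg_sum (h : HF Z β u) : ∃ s : Finset ℂ, (∀ ζ ∉ s, sg β (eig Z β u ζ) = 0) ∧
    sg β Z = ∑ ζ ∈ s, sg β (eig Z β u ζ) := by
  classical
  obtain ⟨s, hs, hdec⟩ := h.eig_decomp
  obtain ⟨c, hc0, hc⟩ := h.conf
  refine ⟨s, fun ζ hζ => sg_eq_zero fun x hx => hs ζ hζ x hx x hx.1, ?_⟩
  set s₀ := s.filter fun ζ => Complex.normSq ζ = c with hs₀
  set sL := s.filter fun ζ => Complex.normSq ζ < c with hsL
  set sG := s.filter fun ζ => c < Complex.normSq ζ with hsG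
  have hiff : ∀ ζ : ℂ, ζ * (starRingEnd ℂ) ζ = c ↔ Complex.normSq ζ = c := fun ζ => by
    rw [Complex.mul_conj, Complex.ofReal_inj]
  have hle : eigSum h sL ⊔ eigSum h sG ≤ Z := sup_le (eigSum_le h _) (eigSum_le h _)
  have e1 : sg β Z = sg β (eigSum h s₀) + sg β (eigSum h sL ⊔ eigSum h sG : Submodule ℝ M) := by
    refine sg_orth_add h.toRF (eigSum_le h _) hle ?_ ?_
    · intro x hx y hy
      obtain ⟨y₁, hy₁, y₂, hy₂, rfl⟩ := Submodule.mem_sup.mp hy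
      rw [map_add, eigSum_orth h hc ?_ x hx y₁ hy₁, eigSum_orth h hc ?_ x hx y₂ hy₂, add_zero]
      · intro ζ hζ ζ' hζ' e
        have := normSq_of e
        rw [(Finset.mem_filter.mp hζ).2] at this
        exact (Finset.mem_filter.mp hζ').2.ne' (mul_left_cancel₀ hc0.ne' this)
      · intro ζ hζ ζ' hζ' e
        have := normSq_of e
        rw [(Finset.mem_filter.mp hζ).2] at this
        exact (Finset.mem_filter.mp hζ').2.ne (mul_left_cancel₀ hc0.ne' this)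
    · intro x hx
      obtain ⟨v, hv, hsum⟩ := hdec Z le_rfl h.smul_mem h.u_mem x hx
      refine ⟨∑ ζ ∈ s₀, v ζ, ⟨v, fun ζ => (hv ζ).2, rfl⟩, ∑ ζ ∈ sL, v ζ + ∑ ζ ∈ sG, v ζ,
        Submodule.add_mem_sup ⟨v, fun ζ => (hv ζ).2, rfl⟩ ⟨v, fun ζ => (hv ζ).2, rfl⟩,
        fun y hy => ?_⟩
      have e : ∑ ζ ∈ s, v ζ = ∑ ζ ∈ s₀, v ζ + (∑ ζ ∈ sL, v ζ + ∑ ζ ∈ sG, v ζ) := by
        simp only [hs₀, hsL, hsG, Finset.sum_filter, ← Finset.sum_add_distrib]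
        refine Finset.sum_congr rfl fun ζ _ => ?_
        rcases lt_trichotomy (Complex.normSq ζ) c with hl | hl | hl
        · simp [hl, hl.ne, not_lt.mpr hl.le]
        · simp [hl]
        · simp [hl, hl.ne', not_lt.mpr hl.le]
      rw [sub_sub, ← e]
      exact hsum y hy
  have e2 : sg β (eigSum h sL ⊔ eigSum h sG : Submodule ℝ M) = 0 := by
    refine sg_two_isotropic (h.toRF.mono hle) le_sup_left le_sup_right
      (fun x hx => eigSum_orth h hc ?_ x hx x hx) (fun x hx => eigSum_orth h hc ?_ x hx x hx) ?_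
    · intro ζ hζ ζ' hζ' e
      have h1 := normSq_of e
      have h2 := (Finset.mem_filter.mp hζ).2
      have h3 := (Finset.mem_filter.mp hζ').2
      have h4 := Complex.normSq_nonneg ζ
      have h5 := Complex.normSq_nonneg ζ'
      nlinarith
    · intro ζ hζ ζ' hζ' e
      have h1 := normSq_of e
      have h2 := (Finset.mem_filter.mp hζ).2
      have h3 := (Finset.mem_filter.mp hζ').2
      nlinarith
    · intro x hx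
      obtain ⟨y₁, hy₁, y₂, hy₂, rfl⟩ := Submodule.mem_sup.mp hx
      exact ⟨y₁, hy₁, y₂, hy₂, fun y _ => by simp⟩
  rw [e1, e2, add_zero, sg_eigSum h hc0 hc s₀ fun ζ hζ => (hiff ζ).mpr (Finset.mem_filter.mp hζ).2,
    hs₀]
  refine Finset.sum_filter_of_ne fun ζ _ hne => ?_
  by_contra hn
  exact hne (sg_eig_iso h hc fun e => hn ((hiff ζ).mp e))

/-- Restriction lemma.  For `|ζ|² ≠ c` both sides vanish (take for `c` the constant of `h'`).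
Otherwise put `W' = eig Z' β' u ζ`, `I = Z ∩ W'`; `sg W' = sg I + sg P` (`sg_perp`), `P = I^⊥ ∩ W'`
is orthogonal to all of `Z` (`eig_decomp` of `Z` inside `Z'`, `eig_orth`), hence spanned mod
radical by `J₁ ∩ W' ≤ P`, `J₂ ∩ W' ≤ P` (decompose `w₁`, `w₂`; components for other eigenvalues are
orthogonal to `W'`), so `sg P = 0`.  Finally `I ≤ eig Z β u ζ` is everything modulo the radical
of `β` on `Z`: the components of `x ∈ eig Z β u ζ` for `ζ' ≠ ζ` are orthogonal to `eig Z β u ζ`. -/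
theorem HF.sg_restrict {Z' J₁ J₂ : Submodule ℝ M} {β' : M →ₗ[ℝ] M →ₗ[ℝ] ℝ} (h : HF Z β u)
    (h' : HF Z' β' u) (hZ : Z ≤ Z') (hβ : ∀ x ∈ Z, ∀ y ∈ Z, β x y = β' x y)
    (hJ₁ : J₁ ≤ Z') (hJ₂ : J₂ ≤ Z')
    (hc₁ : ∀ (c : ℂ), ∀ x ∈ J₁, c • x ∈ J₁) (hc₂ : ∀ (c : ℂ), ∀ x ∈ J₂, c • x ∈ J₂)
    (hu₁ : ∀ x ∈ J₁, u x ∈ J₁) (hu₂ : ∀ x ∈ J₂, u x ∈ J₂)
    (hi₁ : ∀ x ∈ J₁, β' x x = 0) (hi₂ : ∀ x ∈ J₂, β' x x = 0)
    (ho₁ : ∀ x ∈ Z, ∀ w ∈ J₁, β' x w = 0) (ho₂ : ∀ x ∈ Z, ∀ w ∈ J₂, β' x w = 0)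
    (hs : ∀ y ∈ Z', (∀ x ∈ Z, β' x y = 0) →
      ∃ w₁ ∈ J₁, ∃ w₂ ∈ J₂, ∀ x ∈ Z', β' x (y - w₁ - w₂) = 0) (ζ : ℂ) :
    sg β' (eig Z' β' u ζ) = sg β (eig Z β u ζ) := by
  obtain ⟨c, hc0, hc'⟩ := h'.conf
  have hc : ∀ x ∈ Z, ∀ y ∈ Z, β (u x) (u y) = c * β x y := fun x hx y hy => by
    rw [hβ _ (h.u_mem x hx) _ (h.u_mem y hy), hβ x hx y hy, hc' x (hZ hx) y (hZ hy)]
  by_cases hζ : ζ * (starRingEnd ℂ) ζ = c
  swap
  · rw [sg_eig_iso h' hc' hζ, sg_eig_iso h hc hζ]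
  have hne : ∀ ζ' ≠ ζ, ζ' * (starRingEnd ℂ) ζ ≠ c := fun ζ' hn e => hn (eq_of hc0 e hζ)
  have hproj : ∀ J : Submodule ℝ M, J ≤ Z' → (∀ (c : ℂ), ∀ x ∈ J, c • x ∈ J) →
      (∀ x ∈ J, u x ∈ J) → ∀ x ∈ J, ∃ a ∈ J, a ∈ eig Z' β' u ζ ∧
        ∀ y ∈ eig Z' β' u ζ, β' (x - a) y = 0 := by
    intro J hJ hcJ huJ x hx
    obtain ⟨a, ha, ha', hxa⟩ := proj h' hJ hcJ huJ hx ζ
    exact ⟨a, ha, ha', fun y hy => hxa y hy.1 fun ζ' hn v _ hv =>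
      h'.eig_orth hc' (hne ζ' hn) v hv y hy⟩
  have hsub : ∀ ζ', ∀ x ∈ Z, x ∈ eig Z' β' u ζ' → x ∈ eig Z β u ζ' := by
    intro ζ' x hx hx'
    obtain ⟨-, N, hN⟩ := mem_eig.mp hx'
    refine mem_eig.mpr ⟨hx, N, fun y hy => ?_⟩
    rw [hβ _ (h.T_pow_mem ζ' N hx) y hy]
    exact hN y (hZ hy)
  let I : Submodule ℝ M := Z ⊓ h'.eigS ζ
  let P : Submodule ℝ M :=
    { carrier := {y | y ∈ h'.eigS ζ ∧ ∀ x ∈ I, β' x y = 0}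
      add_mem' := fun {a b} ha hb => ⟨(h'.eigS ζ).add_mem ha.1 hb.1, fun x hx => by
        rw [map_add, ha.2 x hx, hb.2 x hx, add_zero]⟩
      zero_mem' := ⟨(h'.eigS ζ).zero_mem, fun x _ => by simp⟩
      smul_mem' := fun r a ha => ⟨(h'.eigS ζ).smul_mem r ha.1, fun x hx => by
        rw [map_smul, ha.2 x hx, smul_zero]⟩ }
  have hPle : P ≤ Z' := fun y hy => hy.1.1
  have e1 : sg β' (h'.eigS ζ) = sg β' I + sg β' P :=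
    sg_perp (h'.toRF.mono (h'.eigS_le ζ)) inf_le_right fun _ => Iff.rfl
  have e2 : sg β' P = 0 := by
    refine sg_two_isotropic (J₁ := J₁ ⊓ h'.eigS ζ) (J₂ := J₂ ⊓ h'.eigS ζ) (h'.toRF.mono hPle)
      (fun w hw => ⟨hw.2, fun x hx => ho₁ x hx.1 w hw.1⟩)
      (fun w hw => ⟨hw.2, fun x hx => ho₂ x hx.1 w hw.1⟩)
      (fun w hw => hi₁ w hw.1) (fun w hw => hi₂ w hw.1) fun y hy => ?_
    have hyZ : ∀ x ∈ Z, β' x y = 0 := by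
      intro x hx
      obtain ⟨a, ha, ha', hxa⟩ := hproj Z hZ h.smul_mem h.u_mem x hx
      have a1 := hxa y hy.1
      rwa [map_sub, LinearMap.sub_apply, hy.2 a ⟨ha, ha'⟩, sub_zero] at a1
    obtain ⟨w₁, hw₁, w₂, hw₂, hw⟩ := hs y (hPle hy) hyZ
    obtain ⟨a₁, ha₁, ha₁', hxa₁⟩ := hproj J₁ hJ₁ hc₁ hu₁ w₁ hw₁
    obtain ⟨a₂, ha₂, ha₂', hxa₂⟩ := hproj J₂ hJ₂ hc₂ hu₂ w₂ hw₂
    refine ⟨a₁, ⟨ha₁, ha₁'⟩, a₂, ⟨ha₂, ha₂'⟩, fun y' hy' => ?_⟩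
    have e : y - a₁ - a₂ = (y - w₁ - w₂) + (w₁ - a₁) + (w₂ - a₂) := by abel
    have b0 := hw y' (hPle hy')
    rw [h'.symm _ (hPle hy') _ (Z'.sub_mem (Z'.sub_mem (hPle hy) (hJ₁ hw₁)) (hJ₂ hw₂))] at b0
    rw [e, map_add, map_add, LinearMap.add_apply, LinearMap.add_apply, b0, hxa₁ y' hy'.1,
      hxa₂ y' hy'.1]
    simp
  have e3 : sg β (h.eigS ζ) = sg β' I := by
    refine sg_transport (h.toRF.mono (h.eigS_le ζ)) LinearMap.id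
      (fun x hx => hsub ζ x hx.1 hx.2) one_pos (fun x hx y hy => ?_) (fun x hx => ?_)
    · simpa using hβ x hx.1 y hy.1
    · obtain ⟨a, ha, ha', hxa⟩ := proj h' hZ h.smul_mem h.u_mem hx.1 ζ
      refine ⟨a, ⟨ha, ha'⟩, fun y hy => ?_⟩
      rw [LinearMap.id_apply, hβ _ (Z.sub_mem hx.1 ha) y hy.1]
      refine hxa y (hZ hy.1) fun ζ' hn v hv hv' => ?_
      rw [← hβ v hv y hy.1]
      exact h.eig_orth hc (hne ζ' hn) v (hsub ζ' v hv hv') y hy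
  rw [← h'.coe_eigS, ← h.coe_eigS, e1, e2, e3, add_zero]

/-- transport with a shift of the eigenvalue: `f` induces an isomorphism `Z/rad ≃ Z'/rad'` with
`u' f = ω f u`; so `f x ∈ eig' (ω ζ) ↔ x ∈ eig ζ`; then `sg_transport`. -/
theorem HF.sg_shift {Z' : Submodule ℝ M'} {β' : M' →ₗ[ℝ] M' →ₗ[ℝ] ℝ} {u' : M' →ₗ[ℝ] M'}
    (h : HF Z β u) (h' : HF Z' β' u') (f : M →ₗ[ℝ] M') (hfc : ∀ (c : ℂ) x, f (c • x) = c • f x)
    (hf : ∀ x ∈ Z, f x ∈ Z') (hβ : ∀ x ∈ Z, ∀ y ∈ Z, β' (f x) (f y) = β x y)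
    (hs : ∀ x' ∈ Z', ∃ x ∈ Z, ∀ y' ∈ Z', β' (x' - f x) y' = 0) {ω : ℂ} (hω : ω ≠ 0)
    (hu : ∀ x ∈ Z, ∀ y' ∈ Z', β' (u' (f x) - ω • f (u x)) y' = 0) (ζ : ℂ) :
    sg β' (eig Z' β' u' (ω * ζ)) = sg β (eig Z β u ζ) := by
  have hrad : ∀ x ∈ Z, (∀ y' ∈ Z', β' (f x) y' = 0) ↔ ∀ y ∈ Z, β x y = 0 := by
    intro x hx
    refine ⟨fun hr y hy => by rw [← hβ x hx y hy]; exact hr _ (hf y hy), fun hr y' hy' => ?_⟩
    obtain ⟨y, hy, e⟩ := hs y' hy'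
    have a1 := e _ (hf x hx)
    rwa [h'.symm _ (Z'.sub_mem hy' (hf y hy)) _ (hf x hx), map_sub, hβ x hx y hy, hr y hy,
      sub_zero] at a1
  have hpow : ∀ x ∈ Z, ∀ N : ℕ, ∀ y' ∈ Z',
      β' ((T u' (ω * ζ) ^ N) (f x) - ω ^ N • f ((T u ζ ^ N) x)) y' = 0 := by
    intro x hx N
    induction N with
    | zero => intro y' _; simp
    | succ N ih =>
      intro y' hy'
      have hz := h.T_pow_mem ζ N hx
      have hm : (T u' (ω * ζ) ^ N) (f x) - ω ^ N • f ((T u ζ ^ N) x) ∈ Z' :=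
        Z'.sub_mem (h'.T_pow_mem _ N (hf x hx)) (h'.smul_mem _ _ (hf _ hz))
      have a1 := h'.T_rad (ω * ζ) hm ih y' hy'
      have hm2 : u' (f ((T u ζ ^ N) x)) - ω • f (u ((T u ζ ^ N) x)) ∈ Z' :=
        Z'.sub_mem (h'.u_mem _ (hf _ hz)) (h'.smul_mem _ _ (hf _ (h.u_mem _ hz)))
      have a2 := h'.smul_rad (ω ^ N) hm2 (hu _ hz) y' hy'
      have e : (T u' (ω * ζ) ^ (N + 1)) (f x) - ω ^ (N + 1) • f ((T u ζ ^ (N + 1)) x) =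
          T u' (ω * ζ) ((T u' (ω * ζ) ^ N) (f x) - ω ^ N • f ((T u ζ ^ N) x)) +
            ω ^ N • (u' (f ((T u ζ ^ N) x)) - ω • f (u ((T u ζ ^ N) x))) := by
        rw [pow_succ' (T u' (ω * ζ)), pow_succ' (T u ζ), Module.End.mul_apply,
          Module.End.mul_apply, map_sub (T u' (ω * ζ)), h'.T_smul, T_apply u ζ, map_sub f, hfc,
          T_apply u' (ω * ζ) (f _)]
        module
      rw [e, map_add, LinearMap.add_apply, a1, a2, add_zero]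
  have heig : ∀ x ∈ Z, f x ∈ eig Z' β' u' (ω * ζ) ↔ x ∈ eig Z β u ζ := by
    intro x hx
    rw [mem_eig, mem_eig]
    simp only [hx, hf x hx, true_and]
    refine exists_congr fun N => ?_
    have hz := h.T_pow_mem ζ N hx
    rw [← hrad _ hz]
    constructor
    · intro hr
      have a1 : ∀ y' ∈ Z', β' (ω ^ N • f ((T u ζ ^ N) x)) y' = 0 := fun y' hy' => by
        have := hpow x hx N y' hy'
        rwa [map_sub, LinearMap.sub_apply, hr y' hy', zero_sub, neg_eq_zero] at this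
      have a2 := h'.smul_rad (ω ^ N)⁻¹ (h'.smul_mem _ _ (hf _ hz)) a1
      rwa [smul_smul, inv_mul_cancel₀ (pow_ne_zero N hω), one_smul] at a2
    · intro hr y' hy'
      have := hpow x hx N y' hy'
      rwa [map_sub, LinearMap.sub_apply, h'.smul_rad _ (hf _ hz) hr y' hy', sub_zero] at this
  rw [← h'.coe_eigS, ← h.coe_eigS]
  refine sg_transport (h'.toRF.mono (h'.eigS_le _)) f (fun x hx => (heig x hx.1).mpr hx) one_pos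
    (fun x hx y hy => by rw [hβ x hx.1 y hy.1, one_mul]) fun x' hx' => ?_
  obtain ⟨x, hx, e⟩ := hs x' hx'.1
  exact ⟨x, (heig x hx).mp (eig_of_sub_rad h' hx' (hf x hx) e), fun y' hy' => e y' hy'.1⟩

/-- additivity (`Z/rad ≃ Z₁/rad₁ × Z₂/rad₂`): apply `sg_orth_add` to `eig Z β u ζ` with the
subspaces of elements lying in `rad₂`, resp. `rad₁`, then `sg_transport` with the identity. -/
theorem HF.sg_add {Z₁ Z₂ : Submodule ℝ M} {β₁ β₂ : M →ₗ[ℝ] M →ₗ[ℝ] ℝ} (h : HF Z β u)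
    (h₁ : HF Z₁ β₁ u) (h₂ : HF Z₂ β₂ u) (hZ₁ : Z ≤ Z₁) (hZ₂ : Z ≤ Z₂)
    (hβ : ∀ x ∈ Z, ∀ y ∈ Z, β x y = β₁ x y + β₂ x y)
    (hs : ∀ x₁ ∈ Z₁, ∀ x₂ ∈ Z₂, ∃ x ∈ Z, (∀ y ∈ Z₁, β₁ (x₁ - x) y = 0) ∧
      ∀ y ∈ Z₂, β₂ (x₂ - x) y = 0) (ζ : ℂ) :
    sg β (eig Z β u ζ) = sg β₁ (eig Z₁ β₁ u ζ) + sg β₂ (eig Z₂ β₂ u ζ) := by
  have hs₁ : ∀ x₁ ∈ Z₁, ∃ x ∈ Z, (∀ y ∈ Z₁, β₁ (x₁ - x) y = 0) ∧ ∀ y ∈ Z₂, β₂ x y = 0 := by
    intro x₁ hx₁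
    obtain ⟨x, hx, e₁, e₂⟩ := hs x₁ hx₁ 0 Z₂.zero_mem
    exact ⟨x, hx, e₁, fun y hy => by simpa using e₂ y hy⟩
  have hs₂ : ∀ x₂ ∈ Z₂, ∃ x ∈ Z, (∀ y ∈ Z₂, β₂ (x₂ - x) y = 0) ∧ ∀ y ∈ Z₁, β₁ x y = 0 := by
    intro x₂ hx₂
    obtain ⟨x, hx, e₁, e₂⟩ := hs 0 Z₁.zero_mem x₂ hx₂
    exact ⟨x, hx, e₂, fun y hy => by simpa using e₁ y hy⟩
  have hβ' : ∀ x ∈ Z, ∀ y ∈ Z, β x y = β₂ x y + β₁ x y := fun x hx y hy => by
    rw [hβ x hx y hy, add_comm]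
  have heig : ∀ x ∈ Z, x ∈ eig Z β u ζ ↔ x ∈ eig Z₁ β₁ u ζ ∧ x ∈ eig Z₂ β₂ u ζ := by
    intro x hx
    simp only [mem_eig]
    constructor
    · rintro ⟨-, N, hN⟩
      have hz := h.T_pow_mem ζ N hx
      exact ⟨⟨hZ₁ hx, N, rad_left h₁ h₂ hZ₁ hZ₂ hβ hs₁ hz hN⟩,
        ⟨hZ₂ hx, N, rad_left h₂ h₁ hZ₂ hZ₁ hβ' hs₂ hz hN⟩⟩
    · rintro ⟨⟨-, N₁, hN₁⟩, -, N₂, hN₂⟩
      refine ⟨hx, max N₁ N₂, fun y hy => ?_⟩
      rw [hβ _ (h.T_pow_mem ζ _ hx) y hy,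
        h₁.T_pow_rad_mono ζ (le_max_left _ _) (hZ₁ hx) hN₁ y (hZ₁ hy),
        h₂.T_pow_rad_mono ζ (le_max_right _ _) (hZ₂ hx) hN₂ y (hZ₂ hy), add_zero]
  rw [sg_add_half h h₁ h₂ hZ₁ hZ₂ hβ hs₁ ζ heig,
    sg_add_half h h₂ h₁ hZ₂ hZ₁ hβ' hs₂ ζ fun x hx => (heig x hx).trans and_comm, ← h.coe_eigS]
  refine sg_orth_add (h.toRF.mono (h.eigS_le ζ)) inf_le_left inf_le_left
    (fun x hx y hy => ?_) fun x hx => ?_
  · rw [hβ x hx.1.1 y hy.1.1, hx.2 y (hZ₂ hy.1.1), h₁.symm x (hZ₁ hx.1.1) y (hZ₁ hy.1.1),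
      hy.2 x (hZ₁ hx.1.1), add_zero]
  · obtain ⟨x₁, hx₁, e₁, e₂⟩ := hs₁ x (hZ₁ hx.1)
    have hx₁W : x₁ ∈ h.eigS ζ := (heig x₁ hx₁).mpr
      ⟨eig_of_sub_rad h₁ ((heig x hx.1).mp hx).1 (hZ₁ hx₁) e₁, h₂.rad_mem_eig ζ (hZ₂ hx₁) e₂⟩
    exact ⟨x₁, ⟨hx₁W, e₂⟩, x - x₁, ⟨(h.eigS ζ).sub_mem hx hx₁W, e₁⟩, fun y _ => by simp⟩

/-- the difference operator -/
def Dl (ω : ℂ) (F : ℂ → ℤ) : ℂ → ℤ := fun ζ => F (ω * ζ) - F ζ

/-- If `Dl^[r] F = 0` with `ω^q = 1` then `Dl F = 0` (descending induction: if `Dl G` is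
`ω`-invariant then `0 = G(ω^q ζ) - G ζ = q * Dl G ζ`).  Then `F 0 = 0`-free argument: the support of
`F` away from `0` splits into free orbits of size `q`; at `ζ = 0` we assume `F 0 = 0`. -/
theorem dvd_sum_of_Dl {q r : ℕ} (hq : 0 < q) {ω : ℂ} (hω : IsPrimitiveRoot ω q) (F : ℂ → ℤ)
    (hF : (Dl ω)^[r] F = 0) (h0 : F 0 = 0) (s : Finset ℂ) (hs : ∀ ζ ∉ s, F ζ = 0) :
    (q : ℤ) ∣ ∑ ζ ∈ s, F ζ := by
  classical
  have hstep : ∀ G : ℂ → ℤ, Dl ω (Dl ω G) = 0 → Dl ω G = 0 := by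
    intro G hG
    have hinv : ∀ ζ, Dl ω G (ω * ζ) = Dl ω G ζ := fun ζ => sub_eq_zero.mp (congrFun hG ζ)
    have hinv' : ∀ (k : ℕ) ζ, Dl ω G (ω ^ k * ζ) = Dl ω G ζ := by
      intro k ζ
      induction k with
      | zero => simp
      | succ k ih => rw [pow_succ', mul_assoc, hinv, ih]
    have hk : ∀ (k : ℕ) ζ, G (ω ^ k * ζ) = G ζ + k * Dl ω G ζ := by
      intro k ζ
      induction k with
      | zero => simp
      | succ k ih =>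
        have := hinv' k ζ
        rw [Dl] at this
        rw [pow_succ', mul_assoc]
        push_cast
        linarith
    funext ζ
    have := hk q ζ
    rw [hω.pow_eq_one, one_mul] at this
    have hq' : (q : ℤ) ≠ 0 := by exact_mod_cast hq.ne'
    have h2 : (q : ℤ) * Dl ω G ζ = 0 := by linarith
    exact (mul_eq_zero.mp h2).resolve_left hq'
  have hD : ∀ (r : ℕ) (G : ℂ → ℤ), (Dl ω)^[r] G = 0 → Dl ω G = 0 := by
    intro r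
    induction r with
    | zero => intro G hG; rw [Function.iterate_zero_apply] at hG; subst hG; funext ζ; simp [Dl]
    | succ r ih => intro G hG; exact hstep G (ih _ (by rwa [Function.iterate_succ_apply] at hG))
  have hinv : ∀ ζ, F (ω * ζ) = F ζ := fun ζ => sub_eq_zero.mp (congrFun (hD r F hF) ζ)
  have hinv' : ∀ (k : ℕ) ζ, F (ω ^ k * ζ) = F ζ := by
    intro k ζ
    induction k with
    | zero => simp
    | succ k ih => rw [pow_succ', mul_assoc, hinv, ih]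
  rw [← Finset.sum_filter_ne_zero, ← Finset.sum_fiberwise_of_maps_to
    (t := (s.filter fun ζ => F ζ ≠ 0).image fun ζ => ζ ^ q) (g := fun ζ => ζ ^ q)
    (fun ζ hζ => Finset.mem_image_of_mem _ hζ)]
  refine Finset.dvd_sum fun t ht => ?_
  obtain ⟨ζ₀, hζ₀, rfl⟩ := Finset.mem_image.mp ht
  have hF0 : F ζ₀ ≠ 0 := (Finset.mem_filter.mp hζ₀).2
  have hζ0 : ζ₀ ≠ 0 := fun e => hF0 (e ▸ h0)
  have hset : (s.filter fun ζ => F ζ ≠ 0).filter (fun ζ => ζ ^ q = ζ₀ ^ q) =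
      (Finset.range q).image fun k => ω ^ k * ζ₀ := by
    ext ζ
    simp only [Finset.mem_filter, Finset.mem_image, Finset.mem_range]
    constructor
    · rintro ⟨-, e⟩
      have : NeZero q := ⟨hq.ne'⟩
      obtain ⟨k, hk, ek⟩ := hω.eq_pow_of_pow_eq_one (ξ := ζ / ζ₀)
        (by rw [div_pow, e, div_self (pow_ne_zero q hζ0)])
      exact ⟨k, hk, by rw [ek, div_mul_cancel₀ _ hζ0]⟩
    · rintro ⟨k, -, rfl⟩
      have hne : F (ω ^ k * ζ₀) ≠ 0 := by rwa [hinv']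
      refine ⟨⟨by_contra fun hn => hne (hs _ hn), hne⟩, ?_⟩
      rw [mul_pow, ← pow_mul, mul_comm k q, pow_mul, hω.pow_eq_one, one_pow, one_mul]
  rw [hset, Finset.sum_image fun i hi j hj e => hω.pow_inj (Finset.mem_range.mp hi)
    (Finset.mem_range.mp hj) (mul_right_cancel₀ hζ0 e)]
  simp [hinv']

/-- `eig 0` is isotropic -/
theorem HF.sg_eig_zero (h : HF Z β u) : sg β (eig Z β u 0) = 0 := by
  obtain ⟨c, hc0, hc⟩ := h.conf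
  refine sg_eig_iso h hc fun e => hc0.ne ?_
  rw [zero_mul] at e
  exact_mod_cast e

end Crest.Agent.R217
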