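import Crest.Agent.R217.Scal
import Crest.Agent.R217.FinH
import Crest.Agent.R217.Comm
import Crest.Agent.R217.Sig3

/-! # R217 / Beta1 : basic properties of `beta` -/

set_option autoImplicit false
open Set Topology Filter

namespace Crest.Agent.R217

variable {m : ℕ} {E : Type*} [AddCommGroup E] [Module ℝ E] [Module ℂ E] [IsScalarTower ℝ ℂ E]
  {b : E →ₗ[ℝ] E →ₗ[ℝ] ℝ} {Ω S : Set (R (2 * m + 1))} {T : Tw (R (2 * m + 1)) E}

namespace Beta1

section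
variable {X : Type*} [TopologicalSpace X] {E E' E'' : Type*} [AddCommGroup E] [AddCommGroup E'] [AddCommGroup E'']
  [Module ℝ E] [Module ℝ E'] [Module ℝ E'']

theorem supp_cup' (μ : E →ₗ[ℝ] E' →ₗ[ℝ] E'') (T' : Tw X E') (p q : ℕ) {k : ℕ} (h : k = p + q + 1) (f : Co X E)
    (g : Co X E') : supp k (cup μ T' p f g) ⊆ supp (p + 1) f ∩ supp (q + 1) g := h ▸ supp_cup μ T' p q f g

theorem van_cup_l (μ : E →ₗ[ℝ] E' →ₗ[ℝ] E'') (T' : Tw X E') {p : ℕ} (q : ℕ) {k : ℕ} (h : k = p + q + 1)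
    {U : Set X} {f : Co X E} (hf : Van (p + 1) U f) (g : Co X E') : Van k U (cup μ T' p f g) :=
  fun z hz h' => hf z hz (supp_cup' μ T' p q h f g h').1

theorem van_cup_r (μ : E →ₗ[ℝ] E' →ₗ[ℝ] E'') (T' : Tw X E') (p : ℕ) {q k : ℕ} (h : k = p + q + 1)
    {U : Set X} (f : Co X E) {g : Co X E'} (hg : Van (q + 1) U g) : Van k U (cup μ T' p f g) :=
  fun z hz h' => hg z hz (supp_cup' μ T' p q h f g h').2

omit [Module ℝ E] in
theorem van_cast {k k' : ℕ} {U : Set X} {f g : Co X E} (h : Van k U f) (e : k' = k) (e' : g = f) : Van k' U g :=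
  e ▸ e' ▸ h

theorem van_cup_tw (μ : E →ₗ[ℝ] E' →ₗ[ℝ] E'') {T T' : Tw X E'} {U : Set X} (hU : IsOpen U)
    (h : ∀ x ∈ U, ∀ y ∈ U, T x y = T' x y) (p k : ℕ) (f : Co X E) (g : Co X E') :
    Van k U (cup μ T p f g - cup μ T' p f g) := by
  refine van_of_forall hU fun l _ hl => ?_
  cases l with
  | nil => simp
  | cons x l =>
    rw [Pi.sub_apply, cup_cons, cup_cons, sub_eq_zero]
    congr 1
    have hm : ∀ y ∈ (x :: l).drop p, y ∈ U := fun y hy => hl y (List.mem_of_mem_drop hy)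
    generalize (x :: l).drop p = l' at hm
    cases l' with
    | nil => rfl
    | cons y l' => rw [gau_cons, gau_cons, h x (hl x (by simp)) y (hm y (by simp))]

omit [TopologicalSpace X] in
theorem cup_smul_form (c : ℝ) (μ : E →ₗ[ℝ] E' →ₗ[ℝ] E'') (T : Tw X E') (p : ℕ) (f : Co X E) (g : Co X E') :
    cup (c • μ) T p f g = c • cup μ T p f g := by
  funext l
  cases l <;> simp [cup_cons]

theorem cpt_of_closed {A Ω K : Set X} (hA : IsClosed A) (hK : IsCompact K) (hKΩ : K ⊆ Ω) (h : A ∩ Ω ⊆ K) :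
    IsCompact (A ∩ Ω) := by
  have : A ∩ Ω = K ∩ A := Subset.antisymm (fun z hz => ⟨h hz, hz.1⟩) fun z hz => ⟨hz.2, hKΩ hz.1⟩
  rw [this]
  exact hK.inter_right hA
end

end Beta1
open Beta1

theorem Cut.mono {n : ℕ} {Ω Ω' S : Set (R n)} {T : Tw (R n) E} (h : Cut b Ω S T) (hΩ' : IsOpen Ω')
    (hs : Ω' ⊆ Ω) (hf : frontier S ∩ Ω ⊆ Ω') : Cut b Ω' S T := by
  refine ⟨hΩ', h.flat.mono hs, h.compat.mono hs, h.cplx, ?_⟩
  have : frontier S ∩ Ω' = frontier S ∩ Ω :=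
    Subset.antisymm (inter_subset_inter_right _ hs) fun z hz => ⟨hz.1, hf hz⟩
  rw [this]
  exact h.cpt

theorem Cut.compl {n : ℕ} {Ω S : Set (R n)} {T : Tw (R n) E} (h : Cut b Ω S T) :
    Cut b Ω Sᶜ T := by
  exact ⟨h.isOpen, h.flat, h.compat, h.cplx, by rw [frontier_compl]; exact h.cpt⟩

theorem Sym.mono {n : ℕ} {Ω Ω' S : Set (R n)} {T : Tw (R n) E}
    {g : OpenPartialHomeomorph (R n) (R n)} (h : Sym Ω S T g) (hΩ : IsOpen Ω) (hΩ' : IsOpen Ω')
    (hs : Ω' ⊆ Ω) (hi : g '' Ω' = Ω') : Sym Ω' S T g := by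
  obtain ⟨c, hc, hc'⟩ := h.conf
  refine ⟨hs.trans h.src, hi, fun x hx => h.cut x (hs hx), fun x hx y hy => h.tw x (hs hx) y (hs hy), c, hc, ?_⟩
  have := Conf.mono g hΩ h.src hΩ' hs (c := c) (by rw [h.img]; exact hc')
  rwa [hi] at this

theorem sym_refl {n : ℕ} (Ω S : Set (R n)) (T : Tw (R n) E) :
    Sym Ω S T (OpenPartialHomeomorph.refl _) := by
  exact ⟨by simp, by simp, by simp, by simp, 1, one_pos, conf_refl Ω⟩

theorem sE_refl (b : E →ₗ[ℝ] E →ₗ[ℝ] ℝ) (Ω S : Set (R (2 * m + 1))) (T : Tw (R (2 * m + 1)) E) :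
    sE b Ω S T (OpenPartialHomeomorph.refl (R (2 * m + 1))) 1 = sT b Ω S T := by
  unfold sE sT
  congr 1
  ext x
  refine ⟨fun hx => hx.1, fun hx => ⟨hx, 1, fun y _ => ?_⟩⟩
  have : pb id x = x := by
    funext l; simp
  simp [this]

/-- the integrand lives on the frontier (`m + (m+1) + 1 = 2m+1+1`) -/
theorem supp_beta (b : E →ₗ[ℝ] E →ₗ[ℝ] ℝ) (x : Co (R (2 * m + 1)) E) {y : Co (R (2 * m + 1)) E}
    (hy : y ∈ Zc T m Ω) :
    supp (2 * m + 1 + 1) (cup b T m x (dT T (hm S y))) ∩ Ω ⊆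
      frontier S ∩ supp (m + 1) x ∩ supp (m + 1) y := by
  rintro z ⟨hz, hzΩ⟩
  obtain ⟨h1, h2⟩ := supp_cup' b T m (m + 1) (by ring) x _ hz
  obtain ⟨h3, h4⟩ := supp_dT_hm_cocycle hy S ⟨h2, hzΩ⟩
  exact ⟨⟨h3, h1⟩, h4⟩

theorem Cut.beta_mono (h : Cut b Ω S T) {Ω' : Set (R (2 * m + 1))} (hs : Ω' ⊆ Ω)
    (hf : frontier S ∩ Ω ⊆ Ω') (x : Co (R (2 * m + 1)) E) {y : Co (R (2 * m + 1)) E}
    (hy : y ∈ Zc T m Ω) : beta b Ω' S T x y = beta b Ω S T x y := by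
  have k : supp (2 * m + 1 + 1) (cup b T m x (dT T (hm S y))) ∩ Ω ⊆ frontier S ∩ Ω :=
    fun z hz => ⟨(supp_beta b x hy hz).1.1, hz.2⟩
  exact lamO_mono h.isOpen hs (isCompact_supp_inter h.cpt inter_subset_right k) (k.trans hf)

/-- if `hm S y` is compactly supported modulo ... : `x ∪ δ w = ± δ (x ∪ w)` for a cocycle `x` -/
theorem Cut.lam_cup_dT (h : Cut b Ω S T) {x w : Co (R (2 * m + 1)) E} (hx : x ∈ Zc T m Ω)
    (hw : IsCompact (supp (m + 1) x ∩ supp (m + 1) w ∩ Ω)) :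
    lamO Ω (cup b T m x (dT T w)) = 0 := by
  have h1 := dT_cup h.flat h.flat h.compat m m x w
  have h2 : Van (m + m + 2) Ω (cup b T (m + 1) (dT T x) w) := van_cup_l b T m (by ring) hx w
  have h3 : lamO Ω (dT (T1 _ _) (cup b T m x w)) = lamO Ω ((-1 : ℝ) ^ m • cup b T m x (dT T w)) :=
    lamO_congr (van_cast (h1.add h2) (by ring) (by abel))
  rw [lamO_cob h.isOpen (isCompact_supp_inter hw inter_subset_right fun z hz =>
    ⟨supp_cup' b T m m (by ring) x w hz.1, hz.2⟩), map_smul, smul_eq_mul] at h3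
  exact (mul_eq_zero.1 h3.symm).resolve_left (pow_ne_zero _ (by norm_num))

/-- `δ v ∪ u = δ (v ∪ u)` for the compactly supported cocycle `u = δ (1_S y)`; restrict to `P`
first (`m = 0`: `dT v` vanishes in length one) -/
theorem Cut.beta_left (h : Cut b Ω S T) {P : Set (R (2 * m + 1))} (hP : IsOpen P) (hPΩ : P ⊆ Ω)
    (hf : frontier S ∩ Ω ⊆ P) {x v y : Co (R (2 * m + 1)) E} (hx : Van (m + 1) P (x - dT T v))
    (hy : y ∈ Zc T m Ω) : beta b Ω S T x y = 0 := by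
  rw [← h.beta_mono hPΩ hf x hy, beta_apply]
  have hT := h.flat.mono hPΩ
  have h1 : lamO P (cup b T m x (dT T (hm S y))) = lamO P (cup b T m (dT T v) (dT T (hm S y))) := by
    refine lamO_congr ?_
    rw [← LinearMap.sub_apply, ← map_sub]
    exact van_cup_l b T (m + 1) (by ring) hx _
  rw [h1]
  cases m with
  | zero => exact lamO_van (van_cup_l b T 1 rfl (van_one_dT P T v) _)
  | succ m =>
    have h2 := dT_cup hT hT (h.compat.mono hPΩ) m (m + 2) v (dT T (hm S y))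
    have h3 : Van (m + (m + 2) + 2) P ((-1 : ℝ) ^ m • cup b T m v (dT T (dT T (hm S y)))) :=
      (van_cup_r b T m (q := m + 3) (by ring) v (hT.dT_dT _ _)).smul _
    rw [← lamO_congr (u := dT (T1 _ _) (cup b T m v (dT T (hm S y)))) (van_cast (h2.add h3) (by ring) (by abel))]
    refine lamO_cob hP (isCompact_supp_inter h.cpt hf fun z hz => ?_)
    have := (supp_cup' b T m (m + 2) (by ring) v _ hz.1).2
    exact ⟨(supp_dT_hm_cocycle hy S ⟨this, hPΩ hz.2⟩).1, hPΩ hz.2⟩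

/-- `δ(1_S x ∪ y) = δ(1_S x) ∪ y`, `δ (x ∪ 1_S y) = (-1)^m x ∪ δ(1_S y)`, `1_S x ∪ y - x ∪ 1_S y` is
supported on the frontier (`hm_cup`, `supp_cup_hm`); `cup_comm` for `δ(1_S x)` (degree `m+1`) and
`y`, sign `(-1)^((m+1) m) = 1`; `b.flip = (-1)^m • b`. -/
theorem Cut.beta_symm (hb : HB m b) (h : Cut b Ω S T) {x y : Co (R (2 * m + 1)) E}
    (hx : x ∈ Zc T m Ω) (hy : y ∈ Zc T m Ω) : beta b Ω S T x y = beta b Ω S T y x := by
  have h1 := (dT_cup h.flat h.flat h.compat m m (hm S x) y).add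
    ((van_cup_r b T m (q := m + 1) (k := m + m + 2) (by ring) (hm S x) hy).smul ((-1 : ℝ) ^ m))
  have h2 := (dT_cup h.flat h.flat h.compat m m x (hm S y)).add
    (van_cup_l b T (p := m + 1) m (k := m + m + 2) (by ring) hx (hm S y))
  have h3 : lamO Ω ((-1 : ℝ) ^ m • cup b T m x (dT T (hm S y))) = lamO Ω (cup b T (m + 1) (dT T (hm S x)) y) := by
    refine lamO_eq_of_cob h.isOpen (w := cup b T m x (hm S y) - hm S (cup b T m x y))
      (isCompact_supp_inter h.cpt inter_subset_right fun z hz => ⟨?_, hz.2⟩)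
      (van_cast (h1.sub h2) (by ring) ?_)
    · have := supp_cup_hm S b T m m x y
      rw [show m + m + 1 = 2 * m + 1 by ring] at this
      exact (this hz.1).1.1
    · rw [hm_cup, map_sub]
      abel
  obtain ⟨w, hw, hw'⟩ := cup_comm h.flat h.flat (flat_T1 Ω) h.compat (p := m + 1) (q := m) (f := dT T (hm S x))
    (h.flat.dT_dT _ _) hy
  have h4 : lamO Ω (cup b T (m + 1) (dT T (hm S x)) y) =
      lamO Ω ((-1 : ℝ) ^ ((m + 1) * m) • cup b.flip T m y (dT T (hm S x))) := by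
    refine lamO_eq_of_cob h.isOpen (w := w) (isCompact_supp_inter h.cpt inter_subset_right fun z hz => ⟨?_, hz.2⟩)
      (van_cast hw' (by ring) rfl)
    rw [show m + 1 + m = 2 * m + 1 by ring] at hw
    exact (supp_dT_hm_cocycle hx S ⟨(hw hz).1, hz.2⟩).1
  have e1 : b.flip = (-1 : ℝ) ^ m • b := by
    ext e e'
    simpa using hb.symm e' e
  have e2 : (-1 : ℝ) ^ ((m + 1) * m) = 1 := by
    rw [mul_comm]
    exact (Nat.even_mul_succ_self m).neg_one_pow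
  rw [h4, e2, one_smul, e1, cup_smul_form, map_smul, map_smul, smul_eq_mul, smul_eq_mul] at h3
  exact mul_left_cancel₀ (pow_ne_zero _ (by norm_num)) h3

theorem Cut.rf [FiniteDimensional ℝ E] (hb : HB m b) (h : Cut b Ω S T) :
    RF (Zc T m Ω) (beta b Ω S T) := by
  refine ⟨fun x hx y hy => h.beta_symm hb hx hy, ?_⟩
  obtain ⟨P, hP, hKP, hPΩ, F, hF, hfd, hF'⟩ := exists_finH h.isOpen h.flat h.cpt inter_subset_right m
  refine ⟨F, hF, hfd, fun x hx => ?_⟩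
  obtain ⟨f, hf, w, hw⟩ := hF' x hx
  exact ⟨f, hf, fun y hy => h.beta_left hP hPΩ hKP hw hy⟩

theorem Sym.pb_mem {n k : ℕ} {Ω S U : Set (R n)} {T : Tw (R n) E}
    {g : OpenPartialHomeomorph (R n) (R n)} (hg : Sym Ω S T g) (hU : IsOpen U) (hUΩ : U ⊆ Ω)
    (hm : MapsTo g U U) {x : Co (R n) E} (hx : x ∈ Zc T k U) : pb g x ∈ Zc T k U := by
  have h1 : Van (k + 2) U (dT (pbT g T) (pb g x)) := by
    rw [← pb_dT]
    exact Van.pb hU (g.continuousOn.mono (hUΩ.trans hg.src)) hm hx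
  have h2 := van_dT_congr (k + 2) (U := U) (T := pbT g T) (T' := T)
    (fun z hz => ⟨U, hU.mem_nhds hz, fun x hx y hy => by
      rw [pbT, hg.tw x (hUΩ hx) y (hUΩ hy)]; rfl⟩) (pb g x)
  exact van_cast (h2.add h1) rfl (by abel)

theorem Cut.hf [FiniteDimensional ℝ E] (hb : HB m b) (h : Cut b Ω S T)
    {g : OpenPartialHomeomorph (R (2 * m + 1)) (R (2 * m + 1))} (hg : Sym Ω S T g) :
    HF (Zc T m Ω) (beta b Ω S T) (pb g) := by
  have hmap : MapsTo g Ω Ω := mapsTo_iff_image_subset.2 hg.img.subset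
  refine ⟨h.rf hb, fun c x hx => ?_, fun x _ y _ => ?_, fun x hx => hg.pb_mem h.isOpen subset_rfl hmap hx,
    fun _ _ => rfl, ?_⟩
  · rw [mem_Zc, dT_smul_complex h.cplx]
    exact fun z hz h' => hx z hz (supp_smul_complex _ _ _ h')
  · rw [beta_apply, beta_apply, hm_smul_complex, dT_smul_complex h.cplx, cup_I hb.herm h.cplx]
  · obtain ⟨c, hc, hc'⟩ := hg.conf
    refine ⟨c, hc, fun x hx y hy => ?_⟩
    have hZ : cup b T m x (dT T (hm S y)) ∈ Zc (T1 (R (2 * m + 1)) ℝ) (2 * m + 1) Ω := by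
      have := cup_mem_Zc h.flat h.flat h.compat (q := m + 1) (g := dT T (hm S y)) hx (h.flat.dT_dT _ _)
      rwa [show m + (m + 1) = 2 * m + 1 by ring] at this
    rw [beta_apply, beta_apply, ← hc' _ hZ (isCompact_supp_inter h.cpt inter_subset_right
      fun z hz => ⟨(supp_beta b x hy hz).1.1, hz.2⟩), pb_cup, pb_dT, pb_hm]
    have h1 := van_dT_congr (m + 2) (U := Ω) (T := pbT g T) (T' := T)
      (fun z hz => ⟨Ω, h.isOpen.mem_nhds hz, fun x hx y hy => by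
        rw [pbT, hg.tw x hx y hy]; rfl⟩) (hm (g ⁻¹' S) (pb g y))
    have h2 := (van_hm_congr (m + 1) (S := S) (S' := g ⁻¹' S) h.isOpen (fun x hx => (hg.cut x hx).symm)
      (pb g y)).dT T
    have h3 := van_cup_r b T m (q := m + 1) (k := 2 * m + 1 + 1) (by ring) (pb g x) (h2.add h1)
    have h4 := van_cup_tw b (T := T) (T' := pbT g T) h.isOpen (fun x hx y hy => (hg.tw x hx y hy).symm) m
      (2 * m + 1 + 1) (pb g x) (dT (pbT g T) (hm (g ⁻¹' S) (pb g y)))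
    refine lamO_congr (van_cast (h3.add h4) rfl ?_)
    simp only [map_add, map_sub]
    abel

/-- cobordism invariance: `hm S y - hm S' y` is supported in `K` (on `Ω`) -/
theorem Cut.beta_cob (h : Cut b Ω S T) {S' K : Set (R (2 * m + 1))} (hK : IsCompact K)
    (hKΩ : K ⊆ Ω) (hS : ∀ x ∈ Ω, x ∉ K → (x ∈ S ↔ x ∈ S')) {x : Co (R (2 * m + 1)) E}
    (hx : x ∈ Zc T m Ω) (y : Co (R (2 * m + 1)) E) : beta b Ω S T x y = beta b Ω S' T x y := by
  rw [beta_apply, beta_apply, ← sub_eq_zero, ← map_sub, ← map_sub, ← map_sub]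
  refine h.lam_cup_dT hx (cpt_of_closed ((isClosed_supp _ _).inter (isClosed_supp _ _)) hK hKΩ fun z hz => ?_)
  by_contra hzK
  exact van_hm_congr (m + 1) (U := Ω ∩ Kᶜ) (h.isOpen.inter hK.isClosed.isOpen_compl)
    (fun x hx => hS x hx.1 hx.2) y z ⟨hz.2, hzK⟩ hz.1.2

theorem Cut.of_cob {n : ℕ} {Ω S S' K : Set (R n)} {T : Tw (R n) E} (h : Cut b Ω S T)
    (hK : IsCompact K) (hKΩ : K ⊆ Ω) (hS : ∀ x ∈ Ω, x ∉ K → (x ∈ S ↔ x ∈ S')) :
    Cut b Ω S' T := by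
  refine ⟨h.isOpen, h.flat, h.compat, h.cplx, cpt_of_closed isClosed_frontier (h.cpt.union hK)
    (union_subset inter_subset_right hKΩ) fun z hz => ?_⟩
  by_cases hzK : z ∈ K
  · exact Or.inr hzK
  · have hU : IsOpen (Ω ∩ Kᶜ) := h.isOpen.inter hK.isClosed.isOpen_compl
    have e : S' ∩ (Ω ∩ Kᶜ) = S ∩ (Ω ∩ Kᶜ) := by
      ext x
      exact ⟨fun hx => ⟨(hS x hx.2.1 hx.2.2).2 hx.1, hx.2⟩, fun hx => ⟨(hS x hx.2.1 hx.2.2).1 hx.1, hx.2⟩⟩
    have : z ∈ frontier S' ∩ (Ω ∩ Kᶜ) := ⟨hz.1, hz.2, hzK⟩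
    rw [← frontier_inter_open_inter hU, e, frontier_inter_open_inter hU] at this
    exact Or.inl ⟨this.1, hz.2⟩

theorem Cut.beta_compl (h : Cut b Ω S T) (x : Co (R (2 * m + 1)) E) {y : Co (R (2 * m + 1)) E}
    (hy : y ∈ Zc T m Ω) : beta b Ω Sᶜ T x y = -beta b Ω S T x y := by
  rw [beta_apply, beta_apply, eq_neg_iff_add_eq_zero, ← map_add, ← map_add, ← map_add]
  refine lamO_van (van_cup_r b T m (q := m + 1) (by ring) x ?_)
  refine van_cast ((mem_Zc.1 hy).sub ((van_hm_compl m S Ω y).dT T)) rfl ?_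
  simp only [map_add, map_sub]
  abel

end Crest.Agent.R217
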