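import Crest.Agent.R217.Beta1

/-! # R217 / Beta2 : cobordism, complement, additivity, gauge, homeomorphisms -/

set_option autoImplicit false
set_option linter.unusedSectionVars false
open Set Topology Filter

namespace Crest.Agent.R217

variable {m : ℕ} {E : Type*} [AddCommGroup E] [Module ℝ E] [Module ℂ E] [IsScalarTower ℝ ℂ E]
  [FiniteDimensional ℝ E] {b : E →ₗ[ℝ] E →ₗ[ℝ] ℝ} {Ω S : Set (R (2 * m + 1))}
  {T : Tw (R (2 * m + 1)) E} {g : OpenPartialHomeomorph (R (2 * m + 1)) (R (2 * m + 1))}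

namespace Beta2

theorem van_cup_right {U : Set (R (2 * m + 1))} (f : Co (R (2 * m + 1)) E)
    {y : Co (R (2 * m + 1)) E} (hy : Van (m + 2) U y) : Van (2 * m + 1 + 1) U (cup b T m f y) := by
  intro z hz hs
  rw [show 2 * m + 1 + 1 = m + (m + 1) + 1 by ring] at hs
  exact hy z hz (supp_cup b T m (m + 1) f y hs).2

theorem cpt_beta (h : Cut b Ω S T) (x : Co (R (2 * m + 1)) E) {y : Co (R (2 * m + 1)) E}
    (hy : y ∈ Zc T m Ω) :
    IsCompact (supp (2 * m + 1 + 1) (cup b T m x (dT T (hm S y))) ∩ Ω) :=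
  isCompact_supp_inter h.cpt inter_subset_right fun _ hz => ⟨(supp_beta b x hy hz).1.1, hz.2⟩

theorem beta_van (h : Cut b Ω S T) {x y : Co (R (2 * m + 1)) E} (hx : Van (m + 1) Ω x)
    (hy : y ∈ Zc T m Ω) : beta b Ω S T x y = 0 :=
  h.beta_left (v := 0) h.isOpen subset_rfl inter_subset_right (by simpa using hx) hy

theorem beta_eq_zero (hf : frontier S ∩ Ω = ∅) (x : Co (R (2 * m + 1)) E)
    {y : Co (R (2 * m + 1)) E} (hy : y ∈ Zc T m Ω) : beta b Ω S T x y = 0 := by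
  rw [beta_apply]
  refine lamO_van fun z hz hs => ?_
  have : z ∈ frontier S ∩ Ω := ⟨(supp_beta b x hy ⟨hs, hz⟩).1.1, hz⟩
  rw [hf] at this
  exact this

theorem mem_Zc_of_van {n k : ℕ} {U : Set (R n)} {T : Tw (R n) E} {x y : Co (R n) E}
    (hx : x ∈ Zc T k U) (hxy : Van (k + 1) U (x - y)) : y ∈ Zc T k U := by
  have := (mem_Zc.mp hx).sub (hxy.dT T)
  rw [map_sub, sub_sub_cancel] at this
  exact this

theorem van_glue {n k : ℕ} {Ω₁ Ω₂ : Set (R n)} (h₁ : IsOpen Ω₁) (hd : Disjoint Ω₁ Ω₂)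
    (x₁ x₂ : Co (R n) E) : Van (k + 1) Ω₁ (x₁ - (hm Ω₁ x₁ + hm Ω₂ x₂)) := by
  have a1 : Van (k + 1) Ω₁ (x₁ - hm Ω₁ x₁) := by
    have := van_sub_hm k Ω₁ x₁
    rwa [h₁.interior_eq] at this
  have a2 : Van (k + 1) Ω₁ (hm Ω₂ x₂) := fun z hz hs =>
    disjoint_left.mp (hd.closure_right h₁) hz (supp_hm _ _ _ hs).2
  rw [← sub_sub]
  exact a1.sub a2

theorem gau_mem {n k : ℕ} {U : Set (R n)} {T T' : Tw (R n) E} {a : R n → E →ₗ[ℝ] E}
    (ha : Inter U a T T') {x : Co (R n) E} (hx : x ∈ Zc T k U) : gau a x ∈ Zc T' k U := by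
  have a1 := ha.van (k + 2) x
  have a2 : Van (k + 2) U (gau a (dT T x)) := fun z hz hs => hx z hz (supp_gau _ _ _ hs)
  have := a1.add a2
  rw [sub_add_cancel] at this
  exact this

theorem beta_gau {T' : Tw (R (2 * m + 1)) E} (hΩ : IsOpen Ω) {a : R (2 * m + 1) → E →ₗ[ℝ] E}
    (ha : Inter Ω a T T') (hab : ∀ x ∈ Ω, ∀ e e', b (a x e) (a x e') = b e e')
    (x y : Co (R (2 * m + 1)) E) : beta b Ω S T' (gau a x) (gau a y) = beta b Ω S T x y := by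
  rw [beta_apply, beta_apply, hm_gau]
  refine lamO_congr ?_
  have a1 := van_cup_right (b := b) (T := T') (gau a x) (ha.van (m + 2) (hm S y))
  rw [map_sub] at a1
  have a2 := cup_gau hΩ (μ := b) (ν := b) (a := a) (a' := a) (a'' := fun _ => LinearMap.id) ha
    (fun x hx e e' => hab x hx e e') m (m + 1) x (dT T (hm S y))
  rw [show m + (m + 1) + 1 = 2 * m + 1 + 1 by ring] at a2
  exact (a1.trans a2).trans (van_gau_id _ hΩ (fun _ _ => rfl) _)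

theorem gau_surj {T' : Tw (R (2 * m + 1)) E} (h' : Cut b Ω S T')
    {a a' : R (2 * m + 1) → E →ₗ[ℝ] E} (ha' : Inter Ω a' T' T)
    (hid : ∀ x ∈ Ω, a x ∘ₗ a' x = LinearMap.id) :
    ∀ x' ∈ Zc T' m Ω, ∃ x ∈ Zc T m Ω, ∀ y' ∈ Zc T' m Ω, beta b Ω S T' (x' - gau a x) y' = 0 := by
  intro x' hx'
  refine ⟨gau a' x', gau_mem ha' hx', fun y' hy' => beta_van h' ?_ hy'⟩
  rw [gau_gau]
  exact (van_gau_id m h'.isOpen hid x').symm

end Beta2

open Beta2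

theorem Cut.sE_cob (hb : HB m b) (h : Cut b Ω S T) (hg : Sym Ω S T g)
    {S' K : Set (R (2 * m + 1))} (hK : IsCompact K) (hKΩ : K ⊆ Ω)
    (hS : ∀ x ∈ Ω, x ∉ K → (x ∈ S ↔ x ∈ S')) (ζ : ℂ) : sE b Ω S' T g ζ = sE b Ω S T g ζ := by
  have he : ∀ x ∈ Zc T m Ω, ∀ y ∈ Zc T m Ω, beta b Ω S T x y = beta b Ω S' T x y :=
    fun x hx y _ => h.beta_cob hK hKΩ hS hx y
  unfold sE
  rw [← (h.hf hb hg).eig_congr he]
  exact sg_congr fun x hx => (he x hx.1 x hx.1).symm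

theorem Cut.sT_cob (h : Cut b Ω S T) {S' K : Set (R (2 * m + 1))} (hK : IsCompact K)
    (hKΩ : K ⊆ Ω) (hS : ∀ x ∈ Ω, x ∉ K → (x ∈ S ↔ x ∈ S')) : sT b Ω S' T = sT b Ω S T := by
  exact sg_congr fun x hx => (h.beta_cob hK hKΩ hS hx x).symm

theorem Cut.sE_compl (hb : HB m b) (h : Cut b Ω S T) (hg : Sym Ω S T g) (ζ : ℂ) :
    sE b Ω Sᶜ T g ζ = -sE b Ω S T g ζ := by
  have he : ∀ x ∈ Zc T m Ω, ∀ y ∈ Zc T m Ω, beta b Ω S T x y = (-beta b Ω Sᶜ T) x y :=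
    fun x _ y hy => by simp [h.beta_compl x hy]
  unfold sE
  rw [← sg_neg, (h.hf hb hg).eig_congr he, eig_neg]
  exact sg_congr fun x hx => by simp [h.beta_compl x hx.1]

theorem sE_eq_zero (hf : frontier S ∩ Ω = ∅) (g : R (2 * m + 1) → R (2 * m + 1)) (ζ : ℂ) :
    sE b Ω S T g ζ = 0 := by
  exact sg_eq_zero fun x hx => beta_eq_zero hf x hx.1

theorem sT_eq_zero (hf : frontier S ∩ Ω = ∅) : sT b Ω S T = 0 := by
  exact sg_eq_zero fun x hx => beta_eq_zero hf x hx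

theorem Cut.left {n : ℕ} {Ω₁ Ω₂ S : Set (R n)} {T : Tw (R n) E} (h : Cut b (Ω₁ ∪ Ω₂) S T)
    (h₁ : IsOpen Ω₁) (h₂ : IsOpen Ω₂) (hd : Disjoint Ω₁ Ω₂) : Cut b Ω₁ S T := by
  refine ⟨h₁, h.flat.mono subset_union_left, h.compat.mono subset_union_left, h.cplx, ?_⟩
  have e : frontier S ∩ Ω₁ = (frontier S ∩ (Ω₁ ∪ Ω₂)) \ Ω₂ := by
    ext x
    constructor
    · rintro ⟨hx, hx₁⟩
      exact ⟨⟨hx, Or.inl hx₁⟩, disjoint_left.mp hd hx₁⟩
    · rintro ⟨⟨hx, hx₁ | hx₂⟩, hn⟩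
      · exact ⟨hx, hx₁⟩
      · exact absurd hx₂ hn
  rw [e]
  exact h.cpt.diff h₂

/-- `HF.sg_add`, `lamO_union`; `x = hm Ω₁ x₁ + hm Ω₂ x₂`, `beta_left` with `v = 0` -/
theorem Cut.sE_union {Ω₁ Ω₂ : Set (R (2 * m + 1))} (hb : HB m b) (h : Cut b (Ω₁ ∪ Ω₂) S T)
    (hg : Sym (Ω₁ ∪ Ω₂) S T g) (h₁ : IsOpen Ω₁) (h₂ : IsOpen Ω₂) (hd : Disjoint Ω₁ Ω₂)
    (hi₁ : g '' Ω₁ = Ω₁) (hi₂ : g '' Ω₂ = Ω₂) (ζ : ℂ) :
    sE b (Ω₁ ∪ Ω₂) S T g ζ = sE b Ω₁ S T g ζ + sE b Ω₂ S T g ζ := by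
  have c₁ : Cut b Ω₁ S T := h.left h₁ h₂ hd
  have c₂ : Cut b Ω₂ S T := Cut.left (Ω₂ := Ω₁) (by rwa [union_comm]) h₂ h₁ hd.symm
  refine (h.hf hb hg).sg_add (c₁.hf hb (hg.mono h.isOpen h₁ subset_union_left hi₁))
    (c₂.hf hb (hg.mono h.isOpen h₂ subset_union_right hi₂))
    (fun x hx => Van.mono hx subset_union_left) (fun x hx => Van.mono hx subset_union_right)
    (fun x _ y hy => lamO_union h₁ h₂ hd (cpt_beta h x hy)) (fun x₁ hx₁ x₂ hx₂ => ?_) ζ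
  have a₁ : Van (m + 1) Ω₁ (x₁ - (hm Ω₁ x₁ + hm Ω₂ x₂)) := van_glue h₁ hd x₁ x₂
  have a₂ : Van (m + 1) Ω₂ (x₂ - (hm Ω₁ x₁ + hm Ω₂ x₂)) := by
    rw [add_comm (hm Ω₁ x₁)]; exact van_glue h₂ hd.symm x₂ x₁
  exact ⟨hm Ω₁ x₁ + hm Ω₂ x₂, Van.union (mem_Zc_of_van hx₁ a₁) (mem_Zc_of_van hx₂ a₂),
    fun y hy => beta_van c₁ a₁ hy, fun y hy => beta_van c₂ a₂ hy⟩

theorem Cut.sT_union {Ω₁ Ω₂ : Set (R (2 * m + 1))} (hb : HB m b) (h : Cut b (Ω₁ ∪ Ω₂) S T)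
    (h₁ : IsOpen Ω₁) (h₂ : IsOpen Ω₂) (hd : Disjoint Ω₁ Ω₂) :
    sT b (Ω₁ ∪ Ω₂) S T = sT b Ω₁ S T + sT b Ω₂ S T := by
  rw [← sE_refl, ← sE_refl, ← sE_refl]
  exact h.sE_union hb (sym_refl _ _ _) h₁ h₂ hd (by simp) (by simp) 1

/-- gauge transformations; `HF.sg_shift` with `f = gau a` (`Inter.van`, `cup_gau`, `hm_gau`),
`pb g (gau a x) = ω • gau a (pb g x)` on `Ω` -/
theorem Cut.sE_gauge (hb : HB m b) {T' : Tw (R (2 * m + 1)) E} (h : Cut b Ω S T)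
    (h' : Cut b Ω S T') (hg : Sym Ω S T g) (hg' : Sym Ω S T' g)
    {a a' : R (2 * m + 1) → E →ₗ[ℝ] E} (hac : ∀ x (c : ℂ) e, a x (c • e) = c • a x e)
    (ha : Inter Ω a T T') (ha' : Inter Ω a' T' T) (hid : ∀ x ∈ Ω, a x ∘ₗ a' x = LinearMap.id)
    (hab : ∀ x ∈ Ω, ∀ e e', b (a x e) (a x e') = b e e') {ω : ℂ} (hω : ω ≠ 0)
    (hag : ∀ x ∈ Ω, ∀ e, a (g x) e = ω • a x e) (ζ : ℂ) :
    sE b Ω S T' g (ω * ζ) = sE b Ω S T g ζ := by
  refine (h.hf hb hg).sg_shift (h'.hf hb hg') (gau a) (fun c x => ?_) (fun x hx => gau_mem ha hx)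
    (fun x _ y _ => beta_gau h.isOpen ha hab x y) (gau_surj h' ha' hid) hω
    (fun x _ y' hy' => beta_van h' ?_ hy') ζ
  · funext l
    cases l with
    | nil => simp
    | cons z l => simp [hac]
  · refine van_of_forall h.isOpen fun l hl hm => ?_
    cases l with
    | nil => simp at hl
    | cons z l => simp [hag z (hm z (by simp))]

theorem Cut.sT_gauge (hb : HB m b) {T' : Tw (R (2 * m + 1)) E} (h : Cut b Ω S T)
    (h' : Cut b Ω S T') {a a' : R (2 * m + 1) → E →ₗ[ℝ] E}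
    (ha : Inter Ω a T T') (ha' : Inter Ω a' T' T) (hid : ∀ x ∈ Ω, a x ∘ₗ a' x = LinearMap.id)
    (hab : ∀ x ∈ Ω, ∀ e e', b (a x e) (a x e') = b e e') : sT b Ω S T' = sT b Ω S T := by
  exact sg_transport (h'.rf hb) (gau a) (fun x hx => gau_mem ha hx) one_pos
    (fun x _ y _ => by rw [beta_gau h.isOpen ha hab x y, one_mul]) (gau_surj h' ha' hid)

/-- connections that agree near the diagonal of `Ω` -/
theorem Cut.sE_congr (hb : HB m b) {T' : Tw (R (2 * m + 1)) E} (h : Cut b Ω S T)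
    (h' : Cut b Ω S T') (hg : Sym Ω S T g) (hg' : Sym Ω S T' g)
    (hT : Inter Ω (fun _ => LinearMap.id) T T') (ζ : ℂ) : sE b Ω S T' g ζ = sE b Ω S T g ζ := by
  have hT' : Inter Ω (fun _ => LinearMap.id) T' T := fun z hz => by
    obtain ⟨W, hW, hh⟩ := hT z hz
    exact ⟨W, hW, fun x hx y hy => by simpa using (hh x hx y hy).symm⟩
  have := h.sE_gauge hb h' hg hg' (a := fun _ => LinearMap.id) (a' := fun _ => LinearMap.id)
    (fun _ _ _ => rfl) hT hT' (fun _ _ => rfl) (fun _ _ _ _ => rfl) one_ne_zero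
    (fun _ _ _ => by simp) ζ
  rwa [one_mul] at this

theorem Cut.pb_homeo {n : ℕ} (g : OpenPartialHomeomorph (R n) (R n)) {Ω S' : Set (R n)}
    {T' : Tw (R n) E} (hΩ : IsOpen Ω) (hs : Ω ⊆ g.source) (h : Cut b (g '' Ω) S' T') :
    Cut b Ω (g ⁻¹' S') (pbT g T') := by
  have hc : ContinuousOn g Ω := g.continuousOn.mono hs
  refine ⟨hΩ, h.flat.pbT hΩ hc (mapsTo_image _ _), h.compat.pbT hΩ hc (mapsTo_image _ _),
    fun x y c e => h.cplx _ _ c e, ?_⟩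
  have e : frontier (g ⁻¹' S') ∩ Ω = g.symm '' (frontier S' ∩ g '' Ω) := by
    ext x
    constructor
    · rintro ⟨hx, hxΩ⟩
      have : x ∈ g.source ∩ g ⁻¹' frontier S' := by
        rw [g.preimage_frontier]; exact ⟨hs hxΩ, hx⟩
      exact ⟨g x, ⟨this.2, x, hxΩ, rfl⟩, g.left_inv (hs hxΩ)⟩
    · rintro ⟨_, ⟨hy, x', hx', rfl⟩, rfl⟩
      rw [g.left_inv (hs hx')]
      have : x' ∈ g.source ∩ frontier (g ⁻¹' S') := by
        rw [← g.preimage_frontier]; exact ⟨hs hx', hy⟩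
      exact ⟨this.2, hx'⟩
  rw [e]
  refine h.cpt.image_of_continuousOn (g.continuousOn_symm.mono ?_)
  rintro _ ⟨-, x, hx, rfl⟩
  exact g.map_source (hs hx)

/-- `sg_transport` with `f = pb g` (onto modulo the radical via `pb g.symm`), `κ = |c|`, `sg_neg` -/
theorem Cut.sT_homeo (hb : HB m b) (g : OpenPartialHomeomorph (R (2 * m + 1)) (R (2 * m + 1)))
    {S' : Set (R (2 * m + 1))} {T' : Tw (R (2 * m + 1)) E} (hΩ : IsOpen Ω) (hs : Ω ⊆ g.source)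
    (h : Cut b (g '' Ω) S' T') {c : ℝ} (hc : c ≠ 0) (hconf : Conf Ω (g '' Ω) g c) :
    sT b Ω (g ⁻¹' S') (pbT g T') = (if 0 < c then 1 else -1) * sT b (g '' Ω) S' T' := by
  have hcut := h.pb_homeo g hΩ hs
  have hcg : ContinuousOn g Ω := g.continuousOn.mono hs
  have hf : ∀ x ∈ Zc T' m (g '' Ω), pb g x ∈ Zc (pbT g T') m Ω := by
    intro x hx
    rw [mem_Zc, ← pb_dT]
    exact Van.pb hΩ hcg (mapsTo_image _ _) hx
  have hβ : ∀ x ∈ Zc T' m (g '' Ω), ∀ y ∈ Zc T' m (g '' Ω),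
      beta b Ω (g ⁻¹' S') (pbT g T') (pb g x) (pb g y) = c * beta b (g '' Ω) S' T' x y := by
    intro x hx y hy
    rw [beta_apply, beta_apply, ← pb_hm, ← pb_dT, ← pb_cup]
    refine hconf _ ?_ (cpt_beta h x hy)
    have := cup_mem_Zc h.flat h.flat h.compat hx (q := m + 1) (g := dT T' (hm S' y))
      (h.flat.dT_dT _ _)
    rwa [show m + (m + 1) = 2 * m + 1 by ring] at this
  have hsurj : ∀ x' ∈ Zc (pbT g T') m Ω, ∃ x ∈ Zc T' m (g '' Ω), ∀ y' ∈ Zc (pbT g T') m Ω,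
      beta b Ω (g ⁻¹' S') (pbT g T') (x' - pb g x) y' = 0 := by
    intro x' hx'
    have htg : g '' Ω ⊆ g.target := by
      rintro _ ⟨x, hx, rfl⟩; exact g.map_source (hs hx)
    refine ⟨pb g.symm x', ?_, fun y' hy' => beta_van hcut ?_ hy'⟩
    · have a1 : Van (m + 2) (g '' Ω) (pb g.symm (dT (pbT g T') x')) := by
        refine Van.pb h.isOpen (g.continuousOn_symm.mono htg) ?_ hx'
        rintro _ ⟨x, hx, rfl⟩
        rwa [g.left_inv (hs hx)]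
      rw [pb_dT] at a1
      have a2 := van_dT_congr (m + 2) (U := g '' Ω) (T := pbT g.symm (pbT g T')) (T' := T')
        (fun z hz => ⟨g '' Ω, h.isOpen.mem_nhds hz, fun x hx y hy => by
          simp [pbT, g.right_inv (htg hx), g.right_inv (htg hy)]⟩) (pb g.symm x')
      have := a2.add a1
      rw [sub_add_cancel] at this
      exact this
    · rw [pb_pb]
      have := van_pb_congr (m + 1) (φ := id) (ψ := g.symm ∘ g) hΩ
        (fun y hy => (g.left_inv (hs hy)).symm) x'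
      have e : pb id x' = x' := by funext l; simp
      rwa [e] at this
  unfold sT
  split_ifs with hpos
  · rw [one_mul]
    exact sg_transport (hcut.rf hb) (pb g) hf hpos hβ hsurj
  · have hneg : 0 < -c := by
      rcases lt_or_gt_of_ne hc with h1 | h1
      · linarith
      · exact absurd h1 hpos
    rw [neg_one_mul, ← sg_neg]
    exact sg_transport (hcut.rf hb) (pb g) hf hneg
      (fun x hx y hy => by rw [hβ x hx y hy]; simp) hsurj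

theorem Cut.sT_eq_sum (hb : HB m b) (h : Cut b Ω S T) (hg : Sym Ω S T g) :
    sE b Ω S T g 0 = 0 ∧ ∃ s : Finset ℂ, (∀ ζ ∉ s, sE b Ω S T g ζ = 0) ∧
      sT b Ω S T = ∑ ζ ∈ s, sE b Ω S T g ζ := by
  exact ⟨(h.hf hb hg).sg_eig_zero, (h.hf hb hg).sg_sum⟩

end Crest.Agent.R217
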