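import Crest.Agent.R217.Glue

/-! # R217 / Conv : convex open sets are acyclic -/

set_option autoImplicit false
open Set Topology Filter

namespace Crest.Agent.R217

variable {E : Type*} [AddCommGroup E] [Module ℝ E]

namespace Conv

/-- the prism operator -/
def pr {X Y : Type*} (φ₀ φ₁ : Y → X) : List Y → Co X E → E
  | [], _ => 0
  | x :: l, f => f (φ₀ x :: (x :: l).map φ₁) - pr φ₀ φ₁ l fun l' => f (φ₀ x :: l')

omit [Module ℝ E] in
theorem pr_sub {X Y : Type*} (φ₀ φ₁ : Y → X) (l : List Y) (f g : Co X E) :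
    pr φ₀ φ₁ l (f - g) = pr φ₀ φ₁ l f - pr φ₀ φ₁ l g := by
  induction l generalizing f g with
  | nil => simp [pr]
  | cons x l ih =>
    have := ih (fun l' => f (φ₀ x :: l')) (fun l' => g (φ₀ x :: l'))
    simp only [pr, Pi.sub_apply]
    rw [show (fun l' => f (φ₀ x :: l') - g (φ₀ x :: l')) =
      (fun l' => f (φ₀ x :: l')) - (fun l' => g (φ₀ x :: l')) from rfl, this]
    abel

omit [Module ℝ E] in
theorem pr_spec {X Y : Type*} (φ₀ φ₁ : Y → X) (l : List Y) (f : Co X E) :
    dd (fun l' => pr φ₀ φ₁ l' f) l + pr φ₀ φ₁ l (dd f) = f (l.map φ₁) - f (l.map φ₀) := by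
  induction l generalizing f with
  | nil => simp [pr]
  | cons x l ih =>
    have h1 := ih (fun l' => f (φ₀ x :: l'))
    have h2 : (fun l' => pr φ₀ φ₁ (x :: l') f) =
        (fun l' : List Y => f (φ₀ x :: φ₁ x :: l'.map φ₁)) -
          fun l' => pr φ₀ φ₁ l' fun l'' => f (φ₀ x :: l'') := rfl
    have h3 : (fun l' => dd f (φ₀ x :: l')) = f - dd fun l' => f (φ₀ x :: l') := rfl
    rw [dd_cons, h2, dd_sub, Pi.sub_apply, dd_map_list φ₁ (fun l' => f (φ₀ x :: φ₁ x :: l')), pr, h3,
      pr_sub, List.map_cons, List.map_cons, dd_cons, dd_cons, eq_sub_of_add_eq h1]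
    abel

omit [Module ℝ E] in
theorem pr_eq_zero {X Y : Type*} (φ₀ φ₁ : Y → X) (l : List Y) (g : Co X E)
    (h : ∀ l' : List X, l'.length = l.length + 1 → (∀ x ∈ l', ∃ y ∈ l, x = φ₀ y ∨ x = φ₁ y) → g l' = 0) :
    pr φ₀ φ₁ l g = 0 := by
  induction l generalizing g with
  | nil => rfl
  | cons x l ih =>
    rw [pr, h _ (by simp) fun y hy => ?_, ih _ fun l' h1 h2 => h _ (by simp [h1]) fun y hy => ?_, sub_zero]
    · rcases List.mem_cons.1 hy with rfl | hy
      · exact ⟨x, List.mem_cons_self, Or.inl rfl⟩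
      · obtain ⟨w, hw, e⟩ := h2 y hy
        exact ⟨w, List.mem_cons_of_mem _ hw, e⟩
    · rcases List.mem_cons.1 hy with rfl | hy
      · exact ⟨x, List.mem_cons_self, Or.inl rfl⟩
      · obtain ⟨w, hw, rfl⟩ := List.mem_map.1 hy
        exact ⟨w, hw, Or.inr rfl⟩

theorem exists_exh {V : Type*} [NormedAddCommGroup V] [NormedSpace ℝ V] [FiniteDimensional ℝ V]
    {U : Set V} (hU : IsOpen U) (hc : Convex ℝ U) {z : V} (hz : z ∈ U) :
    ∃ P : ℕ → Set V, (∀ i, IsOpen (P i)) ∧ (∀ i, Convex ℝ (P i)) ∧ (∀ i, z ∈ P i) ∧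
      (∀ i, IsCompact (closure (P i))) ∧ (∀ i, closure (P i) ⊆ P (i + 1)) ∧ (∀ i, P i ⊆ U) ∧
      ∀ x ∈ U, ∃ i, x ∈ P i := by
  haveI : ProperSpace V := FiniteDimensional.proper_real V
  let s : ℕ → ℝ := fun i => 1 + 1 / ((i : ℝ) + 1)
  have hs1 : ∀ i, 1 < s i := fun i => by
    have : 0 < 1 / ((i : ℝ) + 1) := by positivity
    simp only [s]
    linarith
  have hs2 : ∀ i, s (i + 1) < s i := fun i => by
    simp only [s]
    push_cast
    have := one_div_lt_one_div_of_lt (by positivity : (0 : ℝ) < i + 1) (by linarith : (i : ℝ) + 1 < i + 1 + 1)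
    linarith
  have key : ∀ (a b : ℝ) (x : V), 0 ≤ a → a < b → z + b • (x - z) ∈ closure U → z + a • (x - z) ∈ U := by
    intro a b x ha hab hx
    have hb : 0 < b := lt_of_le_of_lt ha hab
    have h1 := hc.combo_interior_closure_mem_interior (hU.interior_eq.symm ▸ hz) hx
      (a := 1 - a / b) (b := a / b) (by rw [sub_pos, div_lt_one hb]; exact hab) (by positivity) (by ring)
    rw [hU.interior_eq] at h1
    convert h1 using 1
    rw [smul_add, smul_smul, div_mul_cancel₀ _ hb.ne', ← add_assoc, ← add_smul]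
    simp
  have hcont : ∀ a : ℝ, Continuous fun x : V => z + a • (x - z) := fun a => by fun_prop
  refine ⟨fun i => (fun x => z + s i • (x - z)) ⁻¹' U ∩ Metric.ball z (i + 1),
    fun i => (hU.preimage (hcont _)).inter Metric.isOpen_ball, fun i => Convex.inter ?_ (convex_ball _ _),
    fun i => ⟨by simpa using hz, Metric.mem_ball_self (by positivity)⟩,
    fun i => (isCompact_closedBall z (i + 1)).of_isClosed_subset isClosed_closure
      ((closure_mono inter_subset_right).trans Metric.closure_ball_subset_closedBall),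
    fun i x hx => ⟨?_, ?_⟩, fun i x hx => ?_, fun x hx => ?_⟩
  · intro x hx y hy a b ha hb hab
    have := hc hx hy ha hb hab
    rw [mem_preimage]
    convert this using 1
    obtain rfl : b = 1 - a := by linarith
    module
  · exact key _ (s i) x (by linarith [hs1 (i + 1)]) (hs2 i)
      ((hcont _).closure_preimage_subset U (closure_mono inter_subset_left hx))
  · refine Metric.closedBall_subset_ball ?_
      (Metric.closure_ball_subset_closedBall (closure_mono inter_subset_right hx))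
    push_cast
    linarith
  · simpa using key 1 (s i) x zero_le_one (hs1 i) (subset_closure hx.1)
  · have h1 : Tendsto s atTop (𝓝 1) := by
      have := (tendsto_const_nhds (x := (1 : ℝ))).add (tendsto_one_div_add_atTop_nhds_zero_nat (𝕜 := ℝ))
      rwa [add_zero] at this
    have h2 : Tendsto (fun i => z + s i • (x - z)) atTop (𝓝 (z + (1 : ℝ) • (x - z))) :=
      tendsto_const_nhds.add (h1.smul_const _)
    have h3 := h2.eventually (hU.mem_nhds (by simpa using hx))
    obtain ⟨k, hk⟩ := exists_nat_ge (dist x z)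
    obtain ⟨i, hi, hi'⟩ := (h3.and (eventually_ge_atTop k)).exists
    refine ⟨i, hi, ?_⟩
    have : (k : ℝ) ≤ i := by exact_mod_cast hi'
    rw [Metric.mem_ball]
    linarith

end Conv

/-- Prism operator: `P f [] = 0`,
`P f (x :: l) = f (φ₀ x :: (x :: l).map φ₁) - P (f ∘ cons (φ₀ x)) l`; then
`dd (P f) + P (dd f) = f ∘ map φ₁ - f ∘ map φ₀`; `P g l` only depends on the values of `g` on lists
of length `|l| + 1` with entries in `φ₀ '' l ∪ φ₁ '' l`. -/
theorem exists_prism {X Y : Type*} (φ₀ φ₁ : Y → X) (f : Co X E) : ∃ w : Co Y E, ∀ l : List Y,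
    (∀ l' : List X, l'.length = l.length + 1 → (∀ x ∈ l', ∃ y ∈ l, x = φ₀ y ∨ x = φ₁ y) →
      dd f l' = 0) → f (l.map φ₁) - f (l.map φ₀) = dd w l := by
  refine ⟨fun l => Conv.pr φ₀ φ₁ l f, fun l h => ?_⟩
  rw [← Conv.pr_spec, Conv.pr_eq_zero φ₀ φ₁ l _ h, add_zero]

/-- Compact step.  `K' = {z + τ (x - z)}` (`x ∈ K`) is compact in `U`; Lebesgue number: `dd f`
vanishes on all lists of length `k+1` inside `ball y ε`, `y ∈ K'`.  `φ_i x = z + (i/N)(x - z)`,
`exists_prism` for consecutive maps on lists of diameter `< ε/2` in `K`; `f (l.map φ_0) =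
dd (f ∘ cons z) (l.map φ_0)` because `dd f (z :: replicate z) = 0` (`dd_map_list`). -/
theorem cob_on_compact {V : Type*} [NormedAddCommGroup V] [NormedSpace ℝ V] {U K : Set V}
    (hK : IsCompact K) {z : V} (hz : z ∈ U) (hs : ∀ x ∈ K, segment ℝ z x ⊆ U) {k : ℕ} {f : Co V E}
    (hf : Van (k + 1) U (dd f)) : ∃ w, Van k (interior K) (f - dd w) := by
  have hK' : IsCompact ((fun p : ℝ × V => z + p.1 • (p.2 - z)) '' (Icc 0 1 ×ˢ K)) :=
    (isCompact_Icc.prod hK).image (by fun_prop)
  have h1 : ∀ y ∈ (fun p : ℝ × V => z + p.1 • (p.2 - z)) '' (Icc 0 1 ×ˢ K), y ∈ U := by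
    rintro _ ⟨⟨t, x⟩, ⟨ht, hx⟩, rfl⟩
    refine hs x hx ?_
    rw [segment_eq_image']
    exact ⟨t, ht, rfl⟩
  choose! W hW hW' using fun y (hy : y ∈ U) => not_mem_supp.1 (hf y hy)
  obtain ⟨ε, hε, hl⟩ := lebesgue_number_lemma_of_metric hK' (c := fun y : U => interior (W y))
    (fun _ => isOpen_interior)
    (fun y hy => mem_iUnion.2 ⟨⟨y, h1 y hy⟩, mem_interior_iff_mem_nhds.2 (hW y (h1 y hy))⟩)
  obtain ⟨C, hC⟩ := hK.isBounded.subset_closedBall z
  obtain ⟨N, hN⟩ := exists_nat_gt (2 * C / ε)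
  have hN0 : (0 : ℝ) < N + 1 := by positivity
  have hNC : C / (N + 1) < ε / 2 := by
    rw [div_lt_iff₀ hε] at hN
    rw [div_lt_iff₀ hN0]
    nlinarith
  let φ : ℕ → V → V := fun i x => z + ((i : ℝ) / (N + 1)) • (x - z)
  have key : ∀ i : ℕ, i ≤ N + 1 → ∃ w : Co V E, ∀ y ∈ K, ∀ l : List V, l.length = k →
      (∀ x ∈ l, x ∈ Metric.ball y (ε / 2) ∩ K) → f (l.map (φ i)) = dd w l := by
    intro i
    induction i with
    | zero =>
      refine fun _ => ⟨fun l' => f (z :: l'.map (φ 0)), fun y _ l hl _ => ?_⟩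
      rw [dd_map_list (φ 0) fun l' => f (z :: l'), ← sub_eq_zero, ← dd_cons]
      refine hW' z hz _ (by simp [hl]) fun x hx => ?_
      have : x = z := by
        rcases List.mem_cons.1 hx with rfl | hx
        · rfl
        · obtain ⟨w, -, rfl⟩ := List.mem_map.1 hx
          simp [φ]
      rw [this]
      exact mem_of_mem_nhds (hW z hz)
    | succ i ih =>
      intro hi
      obtain ⟨w, hw⟩ := ih (by omega)
      obtain ⟨w', hw'⟩ := exists_prism (φ i) (φ (i + 1)) f
      refine ⟨w + w', fun y hy l hl' hm => ?_⟩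
      have hi0 : (0 : ℝ) ≤ i / (N + 1) := by positivity
      have hi1 : (i : ℝ) / (N + 1) ≤ 1 := by
        rw [div_le_one hN0]
        exact_mod_cast (by omega : i ≤ N + 1)
      obtain ⟨u, hu⟩ := hl (φ i y) ⟨(i / (N + 1), y), ⟨⟨hi0, hi1⟩, hy⟩, rfl⟩
      rw [dd_add, Pi.add_apply, ← hw y hy l hl' hm, ← hw' l fun l' h2 h3 =>
        hW' u u.2 l' (by omega) fun x hx => interior_subset (hu ?_), add_sub_cancel]
      obtain ⟨v, hv, e⟩ := h3 x hx
      obtain ⟨hv1, hv2⟩ := hm v hv
      have h4 : dist (φ i v) (φ i y) < ε / 2 := by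
        rw [dist_eq_norm, show φ i v - φ i y = ((i : ℝ) / (N + 1)) • (v - y) by simp only [φ]; module,
          norm_smul, Real.norm_of_nonneg hi0]
        rw [Metric.mem_ball, dist_eq_norm] at hv1
        exact lt_of_le_of_lt (mul_le_of_le_one_left (norm_nonneg _) hi1) hv1
      rcases e with rfl | rfl
      · exact lt_trans h4 (by linarith)
      · have h5 : dist (φ (i + 1) v) (φ i v) < ε / 2 := by
          have h6 := hC hv2
          rw [Metric.mem_closedBall, dist_eq_norm] at h6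
          rw [dist_eq_norm, show φ (i + 1) v - φ i v = (1 / ((N : ℝ) + 1)) • (v - z) by
            simp only [φ]; push_cast; rw [add_div]; module, norm_smul, Real.norm_of_nonneg (by positivity)]
          refine lt_of_le_of_lt ?_ hNC
          rw [one_div, div_eq_inv_mul]
          exact mul_le_mul_of_nonneg_left h6 (by positivity)
        rw [Metric.mem_ball]
        linarith [dist_triangle (φ (i + 1) v) (φ i v) (φ i y)]
  obtain ⟨w, hw⟩ := key (N + 1) le_rfl
  refine ⟨w, fun y hy => not_mem_supp.2 ⟨Metric.ball y (ε / 2) ∩ K,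
    inter_mem (Metric.ball_mem_nhds y (by positivity)) (mem_interior_iff_mem_nhds.1 hy), fun l h2 h3 => ?_⟩⟩
  have e : φ (N + 1) = id := by
    funext x
    simp only [φ]
    push_cast
    rw [div_self hN0.ne']
    simp
  rw [Pi.sub_apply, ← hw y (interior_subset hy) l h2 h3, e, List.map_id, sub_self]

/-- Exhaust `U` by convex open `P i ∋ z` with compact closure in `P (i+1)` (e.g. homothetic copies
`z + t_i (U - z)` intersected with balls, or interiors of a compact exhaustion made of convex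
hulls).  Cocycles on `P (i+1)` are coboundaries on `P i` in every degree; build `b i` with
`f - dd (b i)` vanishing on `P i`, `b (i+1) - b i` vanishing on `P (i-1)`, `seq_glue`.
(`k = 0` is trivial, for `k = 1` all `b i []` agree.) -/
theorem ac_convex {V : Type*} [NormedAddCommGroup V] [NormedSpace ℝ V] [FiniteDimensional ℝ V]
    {U : Set V} (hU : IsOpen U) (hc : Convex ℝ U) (hne : U.Nonempty) : AC E U := by
  refine ⟨hne, ?_⟩
  obtain ⟨z, hz⟩ := hne
  obtain ⟨P, hPo, hPc, hPz, hPk, hcl, hPU, hcov⟩ := Conv.exists_exh hU hc hz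
  have S : ∀ (i k : ℕ) (f : Co V E), Van (k + 1) (P (i + 1)) (dd f) → ∃ w, Van k (P i) (f - dd w) := by
    intro i k f hf
    obtain ⟨w, hw⟩ := cob_on_compact (hPk i) (hPz (i + 1))
      (fun x hx => (hPc (i + 1)).segment_subset (hPz _) (hcl i hx)) hf
    exact ⟨w, hw.mono (hPo i).subset_interior_closure⟩
  have hm : ∀ i, P i ⊆ P (i + 1) := fun i => subset_closure.trans (hcl i)
  intro k f hf
  match k, hf with
  | 0, hf =>
    refine ⟨0, van_of_forall hU fun l hl _ => ?_⟩
    obtain rfl := List.length_eq_zero_iff.1 hl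
    simpa [dd_cons] using (van_one_iff hU).1 hf z hz
  | 1, hf =>
    refine ⟨fun _ => f [z], (van_one_iff hU).2 fun x hx => ?_⟩
    obtain ⟨i, hi⟩ := hcov x hx
    obtain ⟨w, hw⟩ := S i 1 f (hf.mono (hPU _))
    have h1 := (van_one_iff (hPo i)).1 hw x hi
    have h2 := (van_one_iff (hPo i)).1 hw z (hPz i)
    simp only [Pi.sub_apply, dd_cons, dd_nil, sub_zero, sub_eq_zero] at h1 h2 ⊢
    rw [h1, h2]
  | m + 2, hf =>
    have step : ∀ (n : ℕ) (b : Co V E), Van (m + 2) (P (n + 1)) (f - dd b) →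
        ∃ b', Van (m + 2) (P (n + 1 + 1)) (f - dd b') ∧ Van (m + 1) (P n) (b' - b) := by
      intro n b hb
      obtain ⟨b', hb'⟩ := S (n + 1 + 1) _ f (hf.mono (hPU _))
      obtain ⟨c, hc⟩ := S n (m + 1) (b' - b) (by
        rw [dd_sub]
        exact (hb'.mono (hm _)).symm.trans hb)
      exact ⟨b' - dd c, by rwa [dd_sub, dd_dd, sub_zero], by rwa [sub_right_comm]⟩
    choose! st h1 h2 using step
    obtain ⟨b₀, hb₀⟩ := S 1 _ f (hf.mono (hPU _))
    let b : ℕ → Co V E := fun n => Nat.rec b₀ (fun n b => st n b) n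
    have hb : ∀ n, Van (m + 2) (P (n + 1)) (f - dd (b n)) := fun n => by
      induction n with
      | zero => exact hb₀
      | succ n ih => exact h1 n _ ih
    obtain ⟨g, hg⟩ := seq_glue hPo hcl b fun n => h2 n _ (hb n)
    refine ⟨g, fun x hx => ?_⟩
    obtain ⟨i, hi⟩ := hcov x hx
    have h3 : Van (m + 2) (P i) (dd g - dd (b i)) := by
      rw [← dd_sub]
      exact fun y hy h' => hg i y hy (supp_dd _ _ h')
    exact ((hb i).mono (hm i)).trans h3.symm x hi

/-- "cone nerve": induction on the list generalising `H`;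
`(H ∪ ⋃ L) ∩ C = (H ∩ C) ∪ ⋃ (L.map (· ∩ C))` (if `C = ∅` drop it). -/
theorem ac_cone {V : Type*} [NormedAddCommGroup V] [NormedSpace ℝ V] [FiniteDimensional ℝ V]
    (L : List (Set V)) (hL : ∀ C ∈ L, IsOpen C ∧ Convex ℝ C) {H : Set V} (hH : IsOpen H)
    (hc : Convex ℝ H) (hne : H.Nonempty)
    (hm : ∀ L' : List (Set V), L' ⊆ L → (⋂ C ∈ L', C).Nonempty → (H ∩ ⋂ C ∈ L', C).Nonempty) :
    AC E (H ∪ ⋃ C ∈ L, C) := by
  classical
  induction hn : L.length generalizing L H with
  | zero =>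
    obtain rfl := List.length_eq_zero_iff.1 hn
    simpa using ac_convex hH hc hne
  | succ n ih =>
    obtain ⟨C, L, rfl⟩ := List.exists_cons_of_length_eq_add_one hn
    have hn' : L.length = n := by simpa using hn
    have hC := hL C List.mem_cons_self
    have hL' : ∀ D ∈ L, IsOpen D ∧ Convex ℝ D := fun D hD => hL D (List.mem_cons_of_mem _ hD)
    have h1 := ih L hL' hH hc hne (fun L' h => hm L' (List.Subset.trans h (List.subset_cons_self _ _))) hn'
    have e : H ∪ ⋃ D ∈ C :: L, D = (H ∪ ⋃ D ∈ L, D) ∪ C := by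
      ext x
      simp only [List.mem_cons, mem_union, mem_iUnion, exists_prop, exists_eq_or_imp]
      rw [or_assoc, or_comm (b := x ∈ C)]
    rw [e]
    rcases C.eq_empty_or_nonempty with rfl | hCne
    · simpa using h1
    refine AC.union (hH.union (isOpen_biUnion fun D hD => (hL' D hD).1)) hC.1 h1
      (ac_convex hC.1 hC.2 hCne) ?_
    have e2 : (H ∪ ⋃ D ∈ L, D) ∩ C = (H ∩ C) ∪ ⋃ D ∈ L.map (· ∩ C), D := by
      ext x
      simp only [mem_inter_iff, mem_union, mem_iUnion, exists_prop, List.mem_map]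
      constructor
      · rintro ⟨h | ⟨D, hD, hx⟩, hx'⟩
        · exact Or.inl ⟨h, hx'⟩
        · exact Or.inr ⟨_, ⟨D, hD, rfl⟩, hx, hx'⟩
      · rintro (h | ⟨_, ⟨D, hD, rfl⟩, hx⟩)
        · exact ⟨Or.inl h.1, h.2⟩
        · exact ⟨Or.inr ⟨D, hD, hx.1⟩, hx.2⟩
    rw [e2]
    refine ih _ (fun D hD => ?_) (hH.inter hC.1) (hc.inter hC.2) ?_ (fun L' hL'' hne' => ?_) (by simpa using hn')
    · obtain ⟨D', hD', rfl⟩ := List.mem_map.1 hD
      exact ⟨(hL' D' hD').1.inter hC.1, (hL' D' hD').2.inter hC.2⟩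
    · simpa using hm [C] (by simp) (by simpa using hCne)
    · obtain ⟨y, hy1, hy2⟩ := hm (C :: L.filter fun D => D ∩ C ∈ L')
        (List.cons_subset_cons _ (List.filter_subset_self _)) (by
          cases L' with
          | nil => simpa using hCne
          | cons D₀ L' =>
            obtain ⟨x, hx⟩ := hne'
            rw [mem_iInter₂] at hx
            refine ⟨x, mem_iInter₂.2 fun D hD => ?_⟩
            rcases List.mem_cons.1 hD with rfl | hD
            · obtain ⟨D₁, -, e₁⟩ := List.mem_map.1 (hL'' List.mem_cons_self)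
              have := hx D₀ List.mem_cons_self
              rw [← e₁] at this
              exact this.2
            · exact (hx (D ∩ C) (by simpa using (List.mem_filter.1 hD).2)).1)
      rw [mem_iInter₂] at hy2
      refine ⟨y, ⟨hy1, hy2 C List.mem_cons_self⟩, mem_iInter₂.2 fun D hD => ?_⟩
      obtain ⟨D₁, hD₁, rfl⟩ := List.mem_map.1 (hL'' hD)
      exact ⟨hy2 D₁ (List.mem_cons_of_mem _ (List.mem_filter.2 ⟨hD₁, by simpa using hD⟩)),
        hy2 C List.mem_cons_self⟩

theorem Triv.exT {V : Type*} [NormedAddCommGroup V] [NormedSpace ℝ V] [FiniteDimensional ℝ V]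
    {U : Set V} (hU : IsOpen U) (hc : Convex ℝ U) {T : Tw V E} (hT : Triv U T) (k : ℕ) :
    ExT T (k + 1) U := by
  rcases U.eq_empty_or_nonempty with rfl | hne
  · exact exT_empty _ _
  obtain ⟨a, a', h1, h2, h3⟩ := hT
  exact ExT.of_inter hU h2 h3 (fun x hx => (h1 x hx).1) ((ac_convex hU hc hne).exT k)

end Crest.Agent.R217
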