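import Crest.Agent.R217.Basic

/-! # R217 / Cup : Leibniz rule, associativity, gauge covariance -/

set_option autoImplicit false
open Set Topology Filter

namespace Crest.Agent.R217

variable {X Y : Type*} {E E' E'' F F' F'' : Type*} [AddCommGroup E] [AddCommGroup E']
  [AddCommGroup E''] [Module ℝ E] [Module ℝ E'] [Module ℝ E''] [AddCommGroup F] [AddCommGroup F']
  [AddCommGroup F''] [Module ℝ F] [Module ℝ F'] [Module ℝ F'']

/-- untwisted cup product -/
def cup0 (μ : E →ₗ[ℝ] E' →ₗ[ℝ] E'') (p : ℕ) (f : Co X E) (g : Co X E') : Co X E'' :=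
  fun l => μ (f (l.take (p + 1))) (g (l.drop p))

/-- Untwisted Leibniz rule.  Induction on `p` using
`cup0 μ (p+1) f g (x :: l) = cup0 μ p (f ∘ cons x) g l` and `(dd f) ∘ cons x = f - dd (f ∘ cons x)`;
for `p = 0`: `(cup0 μ 0 f g) ∘ cons x = μ (f [x]) ∘ (g ∘ cons x)`, `dd_map`. -/
theorem dd_cup0 (μ : E →ₗ[ℝ] E' →ₗ[ℝ] E'') (p : ℕ) (f : Co X E) (g : Co X E') {l : List X}
    (hl : p + 2 ≤ l.length) : dd (cup0 μ p f g) l =
      cup0 μ (p + 1) (dd f) g l + (-1 : ℝ) ^ p • cup0 μ p f (dd g) l := by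
  induction p generalizing f l with
  | zero =>
    match l, hl with
    | x :: y :: l, _ =>
      have h1 := dd_map (μ (f [x])).toAddMonoidHom (fun l' => g (x :: l')) (y :: l)
      have h2 : (fun l' => cup0 μ 0 f g (x :: l')) =
          fun l' => (μ (f [x])).toAddMonoidHom (g (x :: l')) := rfl
      rw [dd_cons, h2, h1]
      simp only [cup0, List.take_succ_cons, List.take_zero, List.drop_zero, List.drop_succ_cons, zero_add,
        pow_zero, one_smul, dd_cons g x, dd_cons f x, dd_cons _ y [], dd_nil, sub_zero, map_sub,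
        LinearMap.sub_apply, LinearMap.toAddMonoidHom_coe]
      abel
  | succ p ih =>
    match l, hl with
    | x :: l, hl =>
      have h2 : (fun l' => cup0 μ (p + 1) f g (x :: l')) = cup0 μ p (fun l' => f (x :: l')) g := rfl
      rw [dd_cons, h2, ih _ (by simp only [List.length_cons] at hl; omega)]
      simp only [cup0, List.take_succ_cons, List.drop_succ_cons, dd_cons f x, map_sub, LinearMap.sub_apply,
        pow_succ, mul_neg, mul_one, neg_smul]
      abel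

theorem pb_cup (φ : Y → X) (μ : E →ₗ[ℝ] E' →ₗ[ℝ] E'') (T' : Tw X E') (p : ℕ) (f : Co X E)
    (g : Co X E') : pb φ (cup μ T' p f g) = cup μ (pbT φ T') p (pb φ f) (pb φ g) := by
  funext l
  cases l with
  | nil => rfl
  | cons x l =>
    rw [pb_apply, List.map_cons, cup_cons, cup_cons, ← List.map_cons, ← List.map_take, ← List.map_drop]
    congr 1
    cases (x :: l).drop p <;> rfl

theorem hm_cup (S : Set X) (μ : E →ₗ[ℝ] E' →ₗ[ℝ] E'') (T' : Tw X E') (p : ℕ) (f : Co X E)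
    (g : Co X E') : hm S (cup μ T' p f g) = cup μ T' p (hm S f) g := by
  classical
  funext l
  cases l with
  | nil => rfl
  | cons x l =>
    rw [hm_cons, cup_cons, cup_cons, List.take_succ_cons, hm_cons]
    split_ifs <;> simp

theorem gau_const_cup (φ : E'' →ₗ[ℝ] F) (μ : E →ₗ[ℝ] E' →ₗ[ℝ] E'') (T' : Tw X E') (p : ℕ)
    (f : Co X E) (g : Co X E') :
    gau (fun _ => φ) (cup μ T' p f g) = cup (μ.compr₂ φ) T' p f g := by
  funext l
  cases l <;> rfl

theorem cup_I [Module ℂ E] {b : E →ₗ[ℝ] E →ₗ[ℝ] ℝ}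
    (hb : ∀ e e', b (Complex.I • e) (Complex.I • e') = b e e') {T : Tw X E}
    (hT : ∀ x y (c : ℂ) e, T x y (c • e) = c • T x y e) (p : ℕ) (f g : Co X E) :
    cup b T p (Complex.I • f) (Complex.I • g) = cup b T p f g := by
  funext l
  cases l with
  | nil => rfl
  | cons x l =>
    rw [cup_cons, cup_cons, ← hb (f _)]
    congr 1
    cases (x :: l).drop p with
    | nil => simp
    | cons y m => exact hT _ _ _ _

namespace Cup

theorem gau_zero (a : X → E →ₗ[ℝ] E') {g : Co X E} {m : List X} (h : g m = 0) : gau a g m = 0 := by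
  cases m with
  | nil => rfl
  | cons y m => rw [gau_cons, h, map_zero]

theorem gau_trans {T : Tw X E} {W : Set X} (hW : ∀ x ∈ W, ∀ y ∈ W, ∀ w ∈ W, T x y ∘ₗ T y w = T x w)
    (g : Co X E) {x y : X} (hx : x ∈ W) (hy : y ∈ W) {m : List X} (hm : ∀ w ∈ m, w ∈ W) :
    T x y (gau (T y) g m) = gau (T x) g m := by
  cases m with
  | nil => simp
  | cons w m => exact LinearMap.congr_fun (hW x hx y hy w (hm w (by simp))) _

theorem gau_dT {T : Tw X E} {W : Set X} (hW : ∀ x ∈ W, ∀ y ∈ W, ∀ w ∈ W, T x y ∘ₗ T y w = T x w)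
    (g : Co X E) {x : X} (hx : x ∈ W) {m : List X} (hm : ∀ w ∈ m, w ∈ W) :
    gau (T x) (dT T g) m = dd (gau (T x) g) m := by
  cases m with
  | nil => rfl
  | cons w m =>
    rw [gau_cons, dT_cons]
    refine (dd_map (T x w).toAddMonoidHom _ _).symm.trans (dd_congr fun l' _ hl' => ?_)
    exact gau_trans hW g hx (hm w (by simp)) fun v hv => hm v (hl' v hv)

end Cup

variable [TopologicalSpace X]

theorem supp_cup (μ : E →ₗ[ℝ] E' →ₗ[ℝ] E'') (T' : Tw X E') (p q : ℕ) (f : Co X E) (g : Co X E') :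
    supp (p + q + 1) (cup μ T' p f g) ⊆ supp (p + 1) f ∩ supp (q + 1) g := by
  intro z hz
  constructor
  · by_contra h
    obtain ⟨W, hW, h⟩ := not_mem_supp.1 h
    refine (not_mem_supp.2 ⟨W, hW, fun l hl hm => ?_⟩) hz
    cases l with
    | nil => rfl
    | cons x l =>
      rw [cup_cons, h _ (by rw [List.length_take, hl]; omega) fun y hy => hm y (List.mem_of_mem_take hy)]
      simp
  · by_contra h
    obtain ⟨W, hW, h⟩ := not_mem_supp.1 h
    refine (not_mem_supp.2 ⟨W, hW, fun l hl hm => ?_⟩) hz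
    cases l with
    | nil => rfl
    | cons x l =>
      rw [cup_cons, Cup.gau_zero _
        (h _ (by rw [List.length_drop, hl]; omega) fun y hy => hm y (List.mem_of_mem_drop hy)), map_zero]

theorem supp_cup_hm (S : Set X) (μ : E →ₗ[ℝ] E' →ₗ[ℝ] E'') (T' : Tw X E') (p q : ℕ)
    (f : Co X E) (g : Co X E') :
    supp (p + q + 1) (cup μ T' p f (hm S g) - hm S (cup μ T' p f g)) ⊆
      frontier S ∩ supp (p + 1) f ∩ supp (q + 1) g := by
  classical
  intro z hz
  have h1 : z ∈ supp (p + 1) f ∩ supp (q + 1) g := by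
    rcases supp_sub _ _ _ hz with h | h
    · exact ⟨(supp_cup _ _ _ _ _ _ h).1, (supp_hm _ _ _ (supp_cup _ _ _ _ _ _ h).2).1⟩
    · exact supp_cup _ _ _ _ _ _ (supp_hm _ _ _ h).1
  refine ⟨⟨⟨?_, fun h => ?_⟩, h1.1⟩, h1.2⟩
  · rcases supp_sub _ _ _ hz with h | h
    · exact (supp_hm _ _ _ (supp_cup _ _ _ _ _ _ h).2).2
    · exact (supp_hm _ _ _ h).2
  · refine (not_mem_supp.2 ⟨S, mem_interior_iff_mem_nhds.1 h, fun l _ hm => ?_⟩) hz
    cases l with
    | nil => simp [hm_nil]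
    | cons x l =>
      rw [Pi.sub_apply, hm_cons, if_pos (hm x (by simp)), cup_cons, cup_cons, sub_eq_zero]
      congr 1
      have h2 : ∀ y ∈ (x :: l).drop p, y ∈ S := fun y hy => hm y (List.mem_of_mem_drop hy)
      generalize (x :: l).drop p = m at h2
      cases m with
      | nil => rfl
      | cons y m => rw [gau_cons, gau_cons, hm_cons, if_pos (h2 y (by simp))]

/-- on lists in a good `W` with head `x`, everything is `cup0` of `gau (T x) f`, `gau (T' x) g` -/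
theorem dT_cup {U : Set X} {μ : E →ₗ[ℝ] E' →ₗ[ℝ] E''} {T : Tw X E} {T' : Tw X E'}
    {T'' : Tw X E''} (hT : Flat U T) (hT' : Flat U T') (hμ : Compat U μ T T' T'') (p q : ℕ)
    (f : Co X E) (g : Co X E') :
    Van (p + q + 2) U (dT T'' (cup μ T' p f g) -
      (cup μ T' (p + 1) (dT T f) g + (-1 : ℝ) ^ p • cup μ T' p f (dT T' g))) := by
  intro z hz
  obtain ⟨W₁, hW₁, h1, -⟩ := hT z hz
  obtain ⟨W₂, hW₂, -, h2⟩ := hT' z hz
  obtain ⟨W₃, hW₃, h3⟩ := hμ z hz
  refine not_mem_supp.2 ⟨W₁ ∩ W₂ ∩ W₃, inter_mem (inter_mem hW₁ hW₂) hW₃, fun l hl hm => ?_⟩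
  cases l with
  | nil => simp at hl
  | cons x l =>
    have hx := hm x (by simp)
    have e1 : dT T'' (cup μ T' p f g) (x :: l) = dd (cup0 μ p (gau (T x) f) (gau (T' x) g)) (x :: l) := by
      rw [dT_cons]
      refine dd_congr fun l' hl' hm' => ?_
      cases l' with
      | nil => simp [cup0]
      | cons y l' =>
        have hy := hm y (hm' y (by simp))
        rw [gau_cons, cup_cons, h3 x hx.2 y hy.2, Cup.gau_trans h2 g hx.1.2 hy.1.2
          fun w hw => (hm w (hm' w (List.mem_of_mem_drop hw))).1.2]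
        rfl
    rw [Pi.sub_apply, sub_eq_zero, e1, dd_cup0 _ _ _ _ (by omega), Pi.add_apply, Pi.smul_apply, cup_cons, cup_cons,
      Cup.gau_dT h2 g hx.1.2 fun w hw => (hm w (List.mem_of_mem_drop hw)).1.2]
    simp only [cup0, List.take_succ_cons, gau_cons, h1 x hx.1.1, LinearMap.id_apply, dT_cons]

theorem cup_mem_Zc {U : Set X} {μ : E →ₗ[ℝ] E' →ₗ[ℝ] E''} {T : Tw X E} {T' : Tw X E'}
    {T'' : Tw X E''} (hT : Flat U T) (hT' : Flat U T') (hμ : Compat U μ T T' T'') {p q : ℕ}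
    {f : Co X E} {g : Co X E'} (hf : f ∈ Zc T p U) (hg : g ∈ Zc T' q U) :
    cup μ T' p f g ∈ Zc T'' (p + q) U := by
  have h1 := dT_cup hT hT' hμ p q f g
  have h2 : Van (p + q + 2) U (cup μ T' (p + 1) (dT T f) g) := fun z hz h =>
    hf z hz (supp_cup μ T' (p + 1) q _ _ (by rwa [show p + 1 + q + 1 = p + q + 2 by omega])).1
  have h3 : Van (p + q + 2) U (cup μ T' p f (dT T' g)) := fun z hz h =>
    hg z hz (supp_cup μ T' p (q + 1) _ _ h).2
  have h4 := h1.add (h2.add (h3.smul ((-1 : ℝ) ^ p)))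
  rw [sub_add_cancel] at h4
  exact h4

/-- `(f ∪ g) ∪ h = f ∪ (g ∪ h)` -/
theorem cup_assoc {U : Set X} {μ₁ : E →ₗ[ℝ] E' →ₗ[ℝ] F} {μ₂ : F →ₗ[ℝ] E'' →ₗ[ℝ] F''}
    {μ₃ : E →ₗ[ℝ] F' →ₗ[ℝ] F''} {μ₄ : E' →ₗ[ℝ] E'' →ₗ[ℝ] F'}
    (hμ : ∀ a b c, μ₂ (μ₁ a b) c = μ₃ a (μ₄ b c)) {T' : Tw X E'} {T'' : Tw X E''} {S' : Tw X F'}
    (hT'' : Flat U T'') (h₄ : Compat U μ₄ T' T'' S') (p q r : ℕ) (f : Co X E) (g : Co X E')
    (h : Co X E'') :
    Van (p + q + r + 1) U (cup μ₂ T'' (p + q) (cup μ₁ T' p f g) h -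
      cup μ₃ S' p f (cup μ₄ T'' q g h)) := by
  intro z hz
  obtain ⟨W₂, hW₂, -, h2⟩ := hT'' z hz
  obtain ⟨W₃, hW₃, h3⟩ := h₄ z hz
  refine not_mem_supp.2 ⟨W₂ ∩ W₃, inter_mem hW₂ hW₃, fun l hl hm => ?_⟩
  cases l with
  | nil => simp at hl
  | cons x l =>
    have hx := hm x (by simp)
    rw [Pi.sub_apply, sub_eq_zero, cup_cons, cup_cons, List.take_succ_cons, cup_cons, ← List.take_succ_cons,
      hμ, List.take_take, min_eq_left (by omega), List.drop_take, show p + q + 1 - p = q + 1 by omega,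
      ← List.drop_drop]
    congr 1
    have h4 : ∀ y ∈ (x :: l).drop p, y ∈ W₂ ∩ W₃ := fun y hy => hm y (List.mem_of_mem_drop hy)
    generalize (x :: l).drop p = m at h4
    cases m with
    | nil => simp
    | cons y m =>
      have hy := h4 y (by simp)
      rw [gau_cons, cup_cons, h3 x hx.2 y hy.2, Cup.gau_trans h2 h hx.1 hy.1
        fun w hw => (h4 w (List.mem_of_mem_drop hw)).1]
      rfl

/-- gauge covariance -/
theorem cup_gau {U : Set X} (hU : IsOpen U) {μ : E →ₗ[ℝ] E' →ₗ[ℝ] E''} {ν : F →ₗ[ℝ] F' →ₗ[ℝ] F''}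
    {a : X → E →ₗ[ℝ] F} {a' : X → E' →ₗ[ℝ] F'} {a'' : X → E'' →ₗ[ℝ] F''} {T' : Tw X E'}
    {S' : Tw X F'} (h' : Inter U a' T' S')
    (h : ∀ x ∈ U, ∀ e e', ν (a x e) (a' x e') = a'' x (μ e e')) (p q : ℕ) (f : Co X E)
    (g : Co X E') :
    Van (p + q + 1) U (cup ν S' p (gau a f) (gau a' g) - gau a'' (cup μ T' p f g)) := by
  intro z hz
  obtain ⟨W, hW, h2⟩ := h' z hz
  refine not_mem_supp.2 ⟨W ∩ U, inter_mem hW (hU.mem_nhds hz), fun l hl hm => ?_⟩
  cases l with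
  | nil => simp at hl
  | cons x l =>
    have hx := hm x (by simp)
    rw [Pi.sub_apply, sub_eq_zero, gau_cons, cup_cons, cup_cons, ← h x hx.2, List.take_succ_cons, gau_cons]
    congr 1
    have h4 : ∀ y ∈ (x :: l).drop p, y ∈ W ∩ U := fun y hy => hm y (List.mem_of_mem_drop hy)
    generalize (x :: l).drop p = m at h4
    cases m with
    | nil => simp
    | cons y m => exact LinearMap.congr_fun (h2 x hx.1 y (h4 y (by simp)).1) _

/-- `θ_S ∪ y = dT (1_S y)` for a cocycle `y` (`dT_cup` with `f = hm S 1`, `cup .. 0 (hm S 1) y = hm S y`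
locally) -/
theorem cup_theta {U : Set X} {T : Tw X E} (hT : Flat U T) {q : ℕ} {y : Co X E}
    (hy : y ∈ Zc T q U) (S : Set X) :
    Van (q + 2) U (cup (LinearMap.lsmul ℝ E) T 1 (dT (T1 X ℝ) (hm S (fun _ => 1))) y -
      dT T (hm S y)) := by
  classical
  have hc : Compat U (LinearMap.lsmul ℝ E) (T1 X ℝ) T T := fun z _ =>
    ⟨univ, univ_mem, fun x _ w _ e e' => by simp [T1]⟩
  have h1 := dT_cup (flat_T1 U) hT hc 0 q (hm S fun _ => (1 : ℝ)) y
  rw [zero_add, zero_add, pow_zero, one_smul] at h1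
  have h2 : Van (q + 2) U (cup (LinearMap.lsmul ℝ E) T 0 (hm S fun _ => (1 : ℝ)) (dT T y)) := fun z hz h =>
    hy z hz (supp_cup _ T 0 (q + 1) _ _ (by rwa [zero_add])).2
  have h3 : Van (q + 1) U (cup (LinearMap.lsmul ℝ E) T 0 (hm S fun _ => (1 : ℝ)) y - hm S y) := by
    intro z hz
    obtain ⟨W, hW, h4, -⟩ := hT z hz
    refine not_mem_supp.2 ⟨W, hW, fun l hl hm' => ?_⟩
    cases l with
    | nil => simp at hl
    | cons x l =>
      rw [Pi.sub_apply, sub_eq_zero, cup_cons, List.take_succ_cons, hm_cons, hm_cons, List.drop_zero, gau_cons,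
        h4 x (hm' x (by simp))]
      split_ifs <;> simp
  have h5 := h3.dT T
  rw [map_sub] at h5
  have h6 := (h5.sub h1).sub h2
  convert h6 using 1
  abel

end Crest.Agent.R217
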