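import Mathlib

/-! # R217 / Defs : Alexander–Spanier cochains on lists, twisted coboundary, cup product

A cochain is an arbitrary function on lists of points; "degree `k`" = lists of length `k+1`.
Everything is considered modulo functions vanishing on small lists (`supp`, `Van`). -/

set_option autoImplicit false
open Set Topology Filter

namespace Crest.Agent.R217

/-- ambient euclidean space with the sup norm -/
abbrev R (n : ℕ) := Fin n → ℝ

/-- cochains -/
abbrev Co (X E : Type*) := List X → E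

section alg
variable {X Y : Type*} {E E' E'' : Type*} [AddCommGroup E] [AddCommGroup E'] [AddCommGroup E'']

/-- auxiliary recursion for the augmented coboundary: `∂ (x :: l) = l - x :: ∂ l`. -/
def ddA : List X → Co X E → E
  | [], _ => 0
  | x :: l, f => f l - ddA l (fun l' => f (x :: l'))

/-- untwisted *augmented* coboundary (`f []` is the degree `-1` part). -/
def dd (f : Co X E) : Co X E := fun l => ddA l f

@[simp] theorem dd_nil (f : Co X E) : dd f [] = 0 := rfl
theorem dd_cons (f : Co X E) (x : X) (l : List X) :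
    dd f (x :: l) = f l - dd (fun l' => f (x :: l')) l := rfl

/-- naturality of `dd` in the coefficients -/
theorem dd_map (φ : E →+ E') (f : Co X E) (l : List X) :
    dd (fun l' => φ (f l')) l = φ (dd f l) := by
  induction l generalizing f with
  | nil => simp
  | cons x l ih => rw [dd_cons, dd_cons, map_sub, ← ih]

theorem dd_add (f g : Co X E) : dd (f + g) = dd f + dd g := by
  funext l
  induction l generalizing f g with
  | nil => simp
  | cons x l ih =>
    have := ih (fun l' => f (x :: l')) (fun l' => g (x :: l'))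
    simp only [Pi.add_apply, dd_cons] at this ⊢
    rw [show (fun l' => f (x :: l') + g (x :: l')) =
      (fun l' => f (x :: l')) + (fun l' => g (x :: l')) from rfl, this]
    abel

variable [Module ℝ E] [Module ℝ E'] [Module ℝ E'']

theorem dd_smul (c : ℝ) (f : Co X E) : dd (c • f) = c • dd f := by
  funext l
  exact dd_map (DistribSMul.toAddMonoidHom E c) f l

/-- a "connection": `T x y` transports the fibre at `y` to the fibre at `x` -/
abbrev Tw (X E : Type*) [AddCommGroup E] [Module ℝ E] := X → X → (E →ₗ[ℝ] E)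

/-- the trivial connection -/
def T1 (X E : Type*) [AddCommGroup E] [Module ℝ E] : Tw X E := fun _ _ => LinearMap.id

/-- act on the value of a cochain by `a (head)`; `0` on the empty list -/
def gau (a : X → E →ₗ[ℝ] E') : Co X E →ₗ[ℝ] Co X E' where
  toFun f l := match l with
    | [] => 0
    | x :: l' => a x (f (x :: l'))
  map_add' f g := by funext l; cases l <;> simp
  map_smul' c f := by funext l; cases l <;> simp

@[simp] theorem gau_nil (a : X → E →ₗ[ℝ] E') (f : Co X E) : gau a f [] = 0 := rfl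
@[simp] theorem gau_cons (a : X → E →ₗ[ℝ] E') (f : Co X E) (x : X) (l : List X) :
    gau a f (x :: l) = a x (f (x :: l)) := rfl

open Classical in
/-- multiply by the indicator function of `S` evaluated at the head -/
noncomputable def hm (S : Set X) : Co X E →ₗ[ℝ] Co X E :=
  gau (fun x => if x ∈ S then LinearMap.id else 0)

/-- twisted (non augmented) coboundary: transport to the head, then `dd` -/
def dT (T : Tw X E) : Co X E →ₗ[ℝ] Co X E where
  toFun f l := match l with
    | [] => 0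
    | x :: l' => dd (gau (T x) f) (x :: l')
  map_add' f g := by
    funext l; cases l with
    | nil => simp
    | cons x l => simp [dd_add]
  map_smul' c f := by
    funext l; cases l with
    | nil => simp
    | cons x l => simp [dd_smul]

@[simp] theorem dT_nil (T : Tw X E) (f : Co X E) : dT T f [] = 0 := rfl
theorem dT_cons (T : Tw X E) (f : Co X E) (x : X) (l : List X) :
    dT T f (x :: l) = dd (gau (T x) f) (x :: l) := rfl

/-- pull back of cochains -/
def pb (φ : Y → X) : Co X E →ₗ[ℝ] Co Y E where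
  toFun f l := f (l.map φ)
  map_add' _ _ := rfl
  map_smul' _ _ := rfl

@[simp] theorem pb_apply (φ : Y → X) (f : Co X E) (l : List Y) : pb φ f l = f (l.map φ) := rfl

/-- pull back of a connection -/
def pbT (φ : Y → X) (T : Tw X E) : Tw Y E := fun x y => T (φ x) (φ y)

/-- cup product; `p` is the degree of the first factor, `T'` the connection of the second one -/
def cup (μ : E →ₗ[ℝ] E' →ₗ[ℝ] E'') (T' : Tw X E') (p : ℕ) :
    Co X E →ₗ[ℝ] Co X E' →ₗ[ℝ] Co X E'' :=
  LinearMap.mk₂ ℝ (fun f g l => match l with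
      | [] => 0
      | x :: l' => μ (f ((x :: l').take (p + 1))) (gau (T' x) g ((x :: l').drop p)))
    (by intro f f' g; funext l; cases l <;> simp)
    (by intro c f g; funext l; cases l <;> simp)
    (by intro f g g'; funext l; cases l <;> simp)
    (by intro c f g; funext l; cases l <;> simp)

@[simp] theorem cup_nil (μ : E →ₗ[ℝ] E' →ₗ[ℝ] E'') (T' : Tw X E') (p : ℕ) (f : Co X E)
    (g : Co X E') : cup μ T' p f g [] = 0 := rfl
theorem cup_cons (μ : E →ₗ[ℝ] E' →ₗ[ℝ] E'') (T' : Tw X E') (p : ℕ) (f : Co X E)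
    (g : Co X E') (x : X) (l : List X) : cup μ T' p f g (x :: l) =
      μ (f ((x :: l).take (p + 1))) (gau (T' x) g ((x :: l).drop p)) := rfl

end alg

section loc
variable {X : Type*} [TopologicalSpace X] {E E' E'' : Type*}

/-- support of the length-`k` part of `f` -/
def supp [Zero E] (k : ℕ) (f : Co X E) : Set X :=
  {z | ∀ W ∈ 𝓝 z, ∃ l : List X, l.length = k ∧ (∀ x ∈ l, x ∈ W) ∧ f l ≠ 0}

/-- the length-`k` part of `f` vanishes near the diagonal of `U` -/
def Van [Zero E] (k : ℕ) (U : Set X) (f : Co X E) : Prop := ∀ z ∈ U, z ∉ supp k f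

variable [AddCommGroup E] [AddCommGroup E'] [AddCommGroup E'']
  [Module ℝ E] [Module ℝ E'] [Module ℝ E'']

omit [Module ℝ E] in
theorem not_mem_supp {k : ℕ} {f : Co X E} {z : X} : z ∉ supp k f ↔
    ∃ W ∈ 𝓝 z, ∀ l : List X, l.length = k → (∀ x ∈ l, x ∈ W) → f l = 0 := by
  simp only [supp, mem_ofPred_eq, not_forall, not_exists, not_and, not_not, exists_prop]

omit [Module ℝ E] in
theorem supp_zero (k : ℕ) : supp k (0 : Co X E) = ∅ := by
  ext z; simp only [mem_empty_iff_false, iff_false]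
  exact not_mem_supp.2 ⟨univ, univ_mem, fun _ _ _ => rfl⟩

omit [Module ℝ E] in
theorem supp_add (k : ℕ) (f g : Co X E) : supp k (f + g) ⊆ supp k f ∪ supp k g := by
  intro z hz
  by_contra h
  rw [mem_union, not_or, not_mem_supp, not_mem_supp] at h
  obtain ⟨⟨W, hW, h1⟩, W', hW', h2⟩ := h
  refine (not_mem_supp.2 ⟨W ∩ W', inter_mem hW hW', fun l hl hm => ?_⟩) hz
  simp [h1 l hl fun x hx => (hm x hx).1, h2 l hl fun x hx => (hm x hx).2]

theorem supp_smul (k : ℕ) (c : ℝ) (f : Co X E) : supp k (c • f) ⊆ supp k f := by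
  intro z hz
  by_contra h
  obtain ⟨W, hW, h1⟩ := not_mem_supp.1 h
  exact (not_mem_supp.2 ⟨W, hW, fun l hl hm => by simp [h1 l hl hm]⟩) hz

/-- `Van k U` as a submodule -/
def NV (E : Type*) [AddCommGroup E] [Module ℝ E] (k : ℕ) (U : Set X) : Submodule ℝ (Co X E) where
  carrier := {f | Van k U f}
  add_mem' {f g} hf hg z hz h := (supp_add k f g h).elim (hf z hz) (hg z hz)
  zero_mem' z _ := by simp [supp_zero]
  smul_mem' c f hf z hz h := hf z hz (supp_smul k c f h)

theorem mem_NV {k : ℕ} {U : Set X} {f : Co X E} : f ∈ NV E k U ↔ Van k U f := Iff.rfl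

/-- cocycles of degree `k` on `U` -/
def Zc (T : Tw X E) (k : ℕ) (U : Set X) : Submodule ℝ (Co X E) := (NV E (k + 2) U).comap (dT T)

theorem mem_Zc {T : Tw X E} {k : ℕ} {U : Set X} {f : Co X E} :
    f ∈ Zc T k U ↔ Van (k + 2) U (dT T f) := Iff.rfl

/-- `T` is flat on `U` -/
def Flat (U : Set X) (T : Tw X E) : Prop :=
  ∀ z ∈ U, ∃ W ∈ 𝓝 z, (∀ x ∈ W, T x x = LinearMap.id) ∧
    ∀ x ∈ W, ∀ y ∈ W, ∀ w ∈ W, T x y ∘ₗ T y w = T x w

/-- `μ` is parallel near the diagonal of `U` -/
def Compat (U : Set X) (μ : E →ₗ[ℝ] E' →ₗ[ℝ] E'') (T : Tw X E) (T' : Tw X E') (T'' : Tw X E'') :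
    Prop :=
  ∀ z ∈ U, ∃ W ∈ 𝓝 z, ∀ x ∈ W, ∀ y ∈ W, ∀ e e', T'' x y (μ e e') = μ (T x y e) (T' x y e')

/-- `a` intertwines `T` and `T'` near the diagonal of `U` -/
def Inter (U : Set X) (a : X → E →ₗ[ℝ] E') (T : Tw X E) (T' : Tw X E') : Prop :=
  ∀ z ∈ U, ∃ W ∈ 𝓝 z, ∀ x ∈ W, ∀ y ∈ W, T' x y ∘ₗ a y = a x ∘ₗ T x y

/-- `H^k(U; T) = 0` -/
def ExT (T : Tw X E) (k : ℕ) (U : Set X) : Prop :=
  ∀ f ∈ Zc T k U, ∃ w, Van (k + 1) U (f - dT T w)

/-- `U` is nonempty and has the (untwisted) cohomology of a point -/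
def AC (E : Type*) [AddCommGroup E] (U : Set X) : Prop :=
  U.Nonempty ∧ ∀ (k : ℕ) (f : Co X E), Van (k + 1) U (dd f) → ∃ w, Van k U (f - dd w)

/-- `T` is trivialised on `U` by some gauge transformation -/
def Triv (U : Set X) (T : Tw X E) : Prop :=
  ∃ a a' : X → E →ₗ[ℝ] E, (∀ x ∈ U, a x ∘ₗ a' x = LinearMap.id ∧ a' x ∘ₗ a x = LinearMap.id) ∧
    Inter U a (T1 X E) T ∧ Inter U a' T (T1 X E)

end loc

/-- the iterated "wall" cocycle `θ_{i₁} ∪ θ_{i₂} ∪ …` centred at `z` (degree `L.length`) -/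
noncomputable def gen {n : ℕ} : List (Fin n) → R n → Co (R n) ℝ
  | [], _ => fun _ => 1
  | i :: L, z => dT (T1 _ _) (hm {x | z i < x i} (gen L z))

/-- closed generalised box -/
def KL {n : ℕ} (L : List (Fin n)) (a b : R n) : Set (R n) := {x | ∀ i ∈ L, a i ≤ x i ∧ x i ≤ b i}

/-- open box -/
def Box {n : ℕ} (a b : R n) : Set (R n) := {x | ∀ i, a i < x i ∧ x i < b i}

section sig
variable {M : Type*} [AddCommGroup M] [Module ℝ M]

/-- maximal dimension of a positive definite subspace inside `W` -/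
noncomputable def sPos (β : M →ₗ[ℝ] M →ₗ[ℝ] ℝ) (W : Set M) : ℕ :=
  sSup {k | ∃ F : Submodule ℝ M, (F : Set M) ⊆ W ∧ FiniteDimensional ℝ F ∧
    Module.finrank ℝ F = k ∧ ∀ x ∈ F, x ≠ 0 → 0 < β x x}

/-- signature of `β` on `W` -/
noncomputable def sg (β : M →ₗ[ℝ] M →ₗ[ℝ] ℝ) (W : Set M) : ℤ := (sPos β W : ℤ) - sPos (-β) W

/-- `β` is symmetric of finite rank on `Z` -/
structure RF (Z : Submodule ℝ M) (β : M →ₗ[ℝ] M →ₗ[ℝ] ℝ) : Prop where
  symm : ∀ x ∈ Z, ∀ y ∈ Z, β x y = β y x
  fin : ∃ F : Submodule ℝ M, F ≤ Z ∧ FiniteDimensional ℝ F ∧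
    ∀ x ∈ Z, ∃ f ∈ F, ∀ y ∈ Z, β (x - f) y = 0

variable [Module ℂ M]

/-- generalised `ζ`-eigenspace of `u` on `Z` modulo the radical -/
def eig (Z : Submodule ℝ M) (β : M →ₗ[ℝ] M →ₗ[ℝ] ℝ) (u : M →ₗ[ℝ] M) (ζ : ℂ) : Set M :=
  {x | x ∈ Z ∧ ∃ N : ℕ, ∀ y ∈ Z, β ((fun v => u v - ζ • v)^[N] x) y = 0}

/-- real part of a hermitian form of finite rank on `Z` with a conformal operator `u` -/
structure HF (Z : Submodule ℝ M) (β : M →ₗ[ℝ] M →ₗ[ℝ] ℝ) (u : M →ₗ[ℝ] M) : Prop
    extends RF Z β where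
  smul_mem : ∀ (c : ℂ), ∀ x ∈ Z, c • x ∈ Z
  herm : ∀ x ∈ Z, ∀ y ∈ Z, β (Complex.I • x) (Complex.I • y) = β x y
  u_mem : ∀ x ∈ Z, u x ∈ Z
  u_smul : ∀ (c : ℂ) (x : M), u (c • x) = c • u x
  conf : ∃ c : ℝ, 0 < c ∧ ∀ x ∈ Z, ∀ y ∈ Z, β (u x) (u y) = c * β x y

end sig

end Crest.Agent.R217
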