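import Crest.Agent.R217.TW

/-! # R217 / Deg1 : the signature of pulled back cuts -/

set_option autoImplicit false
set_option linter.unusedSectionVars false
open Set Topology Filter Metric

namespace Crest.Agent.R217

variable {m : ℕ} {E : Type*} [AddCommGroup E] [Module ℝ E]

/-- signature of the cut pulled back by `ψ` on `W` -/
noncomputable def sigm (b : E →ₗ[ℝ] E →ₗ[ℝ] ℝ) (Ω₀ S₀ : Set (R (2 * m + 1)))
    (T₀ : Tw (R (2 * m + 1)) E) (ψ : R (2 * m + 1) → R (2 * m + 1)) (W : Set (R (2 * m + 1))) : ℤ :=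
  sT b (W ∩ ψ ⁻¹' Ω₀) (ψ ⁻¹' S₀) (pbT ψ T₀)

def Adm {N : ℕ} (r : ℝ) (ψ : R N → R N) (W : Set (R N)) : Prop :=
  IsOpen W ∧ ContinuousOn ψ W ∧ IsCompact (W ∩ ψ ⁻¹' closedBall 0 (r + 1))

variable [Module ℂ E] [IsScalarTower ℝ ℂ E] [FiniteDimensional ℝ E]

/-- base data: the frontier lies in the ball of radius `r` -/
structure BD (b : E →ₗ[ℝ] E →ₗ[ℝ] ℝ) (Ω₀ S₀ : Set (R (2 * m + 1))) (T₀ : Tw (R (2 * m + 1)) E)
    (r : ℝ) : Prop where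
  hb : HB m b
  cut : Cut b Ω₀ S₀ T₀
  pos : 0 < r
  bd : frontier S₀ ∩ Ω₀ ⊆ closedBall 0 r

variable {b : E →ₗ[ℝ] E →ₗ[ℝ] ℝ} {Ω₀ S₀ : Set (R (2 * m + 1))} {T₀ : Tw (R (2 * m + 1)) E} {r : ℝ}
  {ψ ψ' : R (2 * m + 1) → R (2 * m + 1)} {W : Set (R (2 * m + 1))}

theorem frontier_preimage_subset {N : ℕ} {ψ : R N → R N} {W : Set (R N)} (hW : IsOpen W)
    (hψ : ContinuousOn ψ W) (S : Set (R N)) : frontier (ψ ⁻¹' S) ∩ W ⊆ ψ ⁻¹' frontier S := by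
  rintro x ⟨hx, hxW⟩
  have hc : ContinuousAt ψ x := hψ.continuousAt (hW.mem_nhds hxW)
  rw [frontier_eq_closure_inter_closure] at hx
  rw [mem_preimage, frontier_eq_closure_inter_closure]
  exact ⟨hc.continuousWithinAt.mem_closure hx.1 fun _ hy => hy,
    hc.continuousWithinAt.mem_closure hx.2 fun _ hy => hy⟩

theorem Adm.cpt {N : ℕ} {r : ℝ} {ψ : R N → R N} {W K : Set (R N)} (hA : Adm r ψ W)
    (hK : IsClosed K) (hKr : K ⊆ closedBall 0 (r + 1)) : IsCompact (W ∩ ψ ⁻¹' K) := by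
  have e : W ∩ ψ ⁻¹' K = (W ∩ ψ ⁻¹' closedBall 0 (r + 1)) ∩ ψ ⁻¹' K :=
    Subset.antisymm (fun x hx => ⟨⟨hx.1, hKr hx.2⟩, hx.2⟩) fun x hx => ⟨hx.1.1, hx.2⟩
  rw [e]
  exact hA.2.2.of_isClosed_subset
    ((hA.2.1.mono inter_subset_left).preimage_isClosed_of_isClosed hA.2.2.isClosed hK)
    inter_subset_left

theorem Deg1.front (hW : IsOpen W) (hψ : ContinuousOn ψ W) {x : R (2 * m + 1)}
    (hx : x ∈ frontier (ψ ⁻¹' S₀) ∩ (W ∩ ψ ⁻¹' Ω₀)) : ψ x ∈ frontier S₀ ∩ Ω₀ :=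
  ⟨frontier_preimage_subset hW hψ S₀ ⟨hx.1, hx.2.1⟩, hx.2.2⟩

theorem BD.bd' (h : BD b Ω₀ S₀ T₀ r) : frontier S₀ ∩ Ω₀ ⊆ closedBall 0 (r + 1) :=
  h.bd.trans (closedBall_subset_closedBall (by linarith))

theorem BD.cut_pb (h : BD b Ω₀ S₀ T₀ r) (hA : Adm r ψ W) :
    Cut b (W ∩ ψ ⁻¹' Ω₀) (ψ ⁻¹' S₀) (pbT ψ T₀) := by
  have ho : IsOpen (W ∩ ψ ⁻¹' Ω₀) := hA.2.1.isOpen_inter_preimage hA.1 h.cut.isOpen
  have hc : ContinuousOn ψ (W ∩ ψ ⁻¹' Ω₀) := hA.2.1.mono inter_subset_left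
  refine ⟨ho, h.cut.flat.pbT ho hc fun _ hx => hx.2, h.cut.compat.pbT ho hc fun _ hx => hx.2,
    fun x y c e => h.cut.cplx _ _ c e, ?_⟩
  have e : frontier (ψ ⁻¹' S₀) ∩ (W ∩ ψ ⁻¹' Ω₀) =
      frontier (ψ ⁻¹' S₀) ∩ (W ∩ ψ ⁻¹' (frontier S₀ ∩ Ω₀)) :=
    Subset.antisymm (fun x hx => ⟨hx.1, hx.2.1, Deg1.front hA.1 hA.2.1 hx⟩)
      fun x hx => ⟨hx.1, hx.2.1, hx.2.2.2⟩
  rw [e]
  exact (hA.cpt h.cut.cpt.isClosed h.bd').inter_left isClosed_frontier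

theorem BD.excise (h : BD b Ω₀ S₀ T₀ r) (hA : Adm r ψ W) {W' : Set (R (2 * m + 1))}
    (hW' : IsOpen W') (hs : W' ⊆ W) (hz : W ∩ ψ ⁻¹' closedBall 0 (r + 1) ⊆ W') :
    Adm r ψ W' ∧ sigm b Ω₀ S₀ T₀ ψ W' = sigm b Ω₀ S₀ T₀ ψ W := by
  have hA' : Adm r ψ W' := by
    refine ⟨hW', hA.2.1.mono hs, ?_⟩
    have e : W' ∩ ψ ⁻¹' closedBall 0 (r + 1) = W ∩ ψ ⁻¹' closedBall 0 (r + 1) :=
      Subset.antisymm (inter_subset_inter_left _ hs) fun x hx => ⟨hz hx, hx.2⟩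
    rw [e]; exact hA.2.2
  refine ⟨hA', (h.cut_pb hA).sT_mono h.hb (h.cut_pb hA').isOpen (inter_subset_inter_left _ hs)
    fun x hx => ⟨hz ⟨hx.2.1, h.bd' (Deg1.front hA.1 hA.2.1 hx)⟩, hx.2.2⟩⟩

theorem BD.add (h : BD b Ω₀ S₀ T₀ r) {W₁ W₂ : Set (R (2 * m + 1))} (hA : Adm r ψ (W₁ ∪ W₂))
    (h₁ : IsOpen W₁) (h₂ : IsOpen W₂) (hd : Disjoint W₁ W₂) :
    sigm b Ω₀ S₀ T₀ ψ (W₁ ∪ W₂) = sigm b Ω₀ S₀ T₀ ψ W₁ + sigm b Ω₀ S₀ T₀ ψ W₂ := by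
  have hc := h.cut_pb hA
  unfold sigm
  rw [union_inter_distrib_right] at hc ⊢
  exact hc.sT_union h.hb ((hA.2.1.mono subset_union_left).isOpen_inter_preimage h₁ h.cut.isOpen)
    ((hA.2.1.mono subset_union_right).isOpen_inter_preimage h₂ h.cut.isOpen)
    (hd.mono inter_subset_left inter_subset_left)

/-- sets on which the base data are uniformly flat -/
def Deg1.good (b : E →ₗ[ℝ] E →ₗ[ℝ] ℝ) (Ω₀ : Set (R (2 * m + 1))) (T₀ : Tw (R (2 * m + 1)) E)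
    (V : Set (R (2 * m + 1))) : Prop := V ⊆ Ω₀ ∧ (∀ x ∈ V, T₀ x x = LinearMap.id) ∧
    (∀ x ∈ V, ∀ y ∈ V, ∀ w ∈ V, T₀ x y ∘ₗ T₀ y w = T₀ x w) ∧
    ∀ x ∈ V, ∀ y ∈ V, ∀ e e', b (T₀ x y e) (T₀ x y e') = b e e'

theorem BD.leb (h : BD b Ω₀ S₀ T₀ r) : ∃ δ > (0 : ℝ), δ ≤ 1 ∧
    ∀ z ∈ thickening (2 * δ) (frontier S₀ ∩ Ω₀), Deg1.good b Ω₀ T₀ (ball z (2 * δ)) := by
  set K₀ := frontier S₀ ∩ Ω₀ with hK₀
  have hK₀c : IsCompact K₀ := h.cut.cpt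
  obtain ⟨ε₁, hε₁, hK₁⟩ := hK₀c.exists_cthickening_subset_open h.cut.isOpen inter_subset_right
  obtain ⟨ε₂, hε₂, hleb⟩ := lebesgue_number_lemma_of_metric_sUnion
    (c := {V | IsOpen V ∧ Deg1.good b Ω₀ T₀ V}) (hK₀c.cthickening (r := ε₁)) (fun V hV => hV.1) (by
      intro z hz
      have hzΩ := hK₁ hz
      obtain ⟨W₁, hW₁, f₁, f₂⟩ := h.cut.flat z hzΩ
      obtain ⟨W₂, hW₂, f₃⟩ := h.cut.compat z hzΩ
      have hm : Ω₀ ∩ (W₁ ∩ W₂) ∈ 𝓝 z := inter_mem (h.cut.isOpen.mem_nhds hzΩ) (inter_mem hW₁ hW₂)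
      obtain ⟨V, hV, hVo, hzV⟩ := _root_.mem_nhds_iff.mp hm
      exact ⟨V, ⟨hVo, fun x hx => (hV hx).1, fun x hx => f₁ x (hV hx).2.1,
        fun x hx y hy w hw => f₂ x (hV hx).2.1 y (hV hy).2.1 w (hV hw).2.1,
        fun x hx y hy e e' => (f₃ x (hV hx).2.2 y (hV hy).2.2 e e').symm⟩, hzV⟩)
  obtain ⟨δ, hδ, hδ₁, hδ₂, hδ₃⟩ : ∃ δ > (0 : ℝ), 2 * δ ≤ ε₁ ∧ 2 * δ ≤ ε₂ ∧ δ ≤ 1 :=
    ⟨min (ε₁ / 2) (min (ε₂ / 2) 1), by positivity, by linarith [min_le_left (ε₁ / 2) (min (ε₂ / 2) 1)],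
      by linarith [min_le_right (ε₁ / 2) (min (ε₂ / 2) 1), min_le_left (ε₂ / 2) 1],
      (min_le_right _ _).trans (min_le_right _ _)⟩
  refine ⟨δ, hδ, hδ₃, fun z hz => ?_⟩
  obtain ⟨V, ⟨-, g₀, g₁, g₂, g₃⟩, hV⟩ := hleb z
    (cthickening_mono hδ₁ _ (thickening_subset_cthickening _ _ hz))
  have hV' : ball z (2 * δ) ⊆ V := (ball_subset_ball hδ₂).trans hV
  exact ⟨hV'.trans g₀, fun x hx => g₁ x (hV' hx),
    fun x hx y hy w hw => g₂ x (hV' hx) y (hV' hy) w (hV' hw),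
    fun x hx y hy => g₃ x (hV' hx) y (hV' hy)⟩

/-- `K₀ = frontier S₀ ∩ Ω₀`.  Choose `δ ≤ 1` with `cthickening (3δ) K₀ ⊆ Ω₀` and (Lebesgue number)
such that for every `z ∈ cthickening (2δ) K₀` the multiplicativity of `T₀` and the
`b`-compatibility hold on `ball z (2δ)`.  `Ω₁ = W ∩ ψ ⁻¹' thickening (2δ) K₀`,
`K = W ∩ ψ ⁻¹' cthickening δ K₀` (compact).  If `x ∈ Ω₁` and `ψ x`, `ψ' x` are on different sides of
`S₀`, the segment between them (inside `Ω₀`, preconnected) meets `frontier S₀`, so `x ∈ K`.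
`sT_mono`, `sT_cob`, `sT_gauge` with `a x = T₀ (ψ' x) (ψ x)`, `a' x = T₀ (ψ x) (ψ' x)`, `sT_mono`. -/
theorem BD.close (h : BD b Ω₀ S₀ T₀ r) : ∃ δ > 0, ∀ (ψ ψ' : R (2 * m + 1) → R (2 * m + 1)) W,
    Adm r ψ W → Adm r ψ' W → (∀ x ∈ W, ‖ψ x - ψ' x‖ < δ) →
      sigm b Ω₀ S₀ T₀ ψ W = sigm b Ω₀ S₀ T₀ ψ' W := by
  obtain ⟨δ, hδ, hδ₃, hgood⟩ := h.leb
  set K₀ := frontier S₀ ∩ Ω₀ with hK₀
  refine ⟨δ, hδ, fun ψ ψ' W hA hA' hcl => ?_⟩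
  have hd : ∀ x ∈ W, dist (ψ' x) (ψ x) < δ := fun x hx => by
    rw [dist_comm, dist_eq_norm]; exact hcl x hx
  set Ω₁ := W ∩ ψ ⁻¹' thickening (2 * δ) K₀ with hΩ₁
  have hΩ₁o : IsOpen Ω₁ := hA.2.1.isOpen_inter_preimage hA.1 isOpen_thickening
  have hb₁ : ∀ x ∈ W, ψ x ∈ ball (ψ x) (2 * δ) := fun x _ => mem_ball_self (by linarith)
  have hb₂ : ∀ x ∈ W, ψ' x ∈ ball (ψ x) (2 * δ) := fun x hx => by
    rw [mem_ball]; linarith [hd x hx]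
  have hs₁ : Ω₁ ⊆ W ∩ ψ ⁻¹' Ω₀ := fun x hx => ⟨hx.1, (hgood _ hx.2).1 (hb₁ x hx.1)⟩
  have hs₂ : Ω₁ ⊆ W ∩ ψ' ⁻¹' Ω₀ := fun x hx => ⟨hx.1, (hgood _ hx.2).1 (hb₂ x hx.1)⟩
  have hf₁ : frontier (ψ ⁻¹' S₀) ∩ (W ∩ ψ ⁻¹' Ω₀) ⊆ Ω₁ := by
    intro x hx
    have a1 : ψ x ∈ K₀ := Deg1.front hA.1 hA.2.1 hx
    have a2 : ψ x ∈ thickening (2 * δ) K₀ := self_subset_thickening (by linarith) _ a1
    exact ⟨hx.2.1, a2⟩
  have hf₂ : frontier (ψ' ⁻¹' S₀) ∩ (W ∩ ψ' ⁻¹' Ω₀) ⊆ Ω₁ := by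
    intro x hx
    have a1 : ψ' x ∈ K₀ := Deg1.front hA'.1 hA'.2.1 hx
    have a2 : ψ x ∈ thickening (2 * δ) K₀ := by
      rw [mem_thickening_iff]
      exact ⟨ψ' x, a1, by rw [dist_comm]; linarith [hd x hx.2.1]⟩
    exact ⟨hx.2.1, a2⟩
  have c₁ := (h.cut_pb hA).mono hΩ₁o hs₁ hf₁
  have c₂ := (h.cut_pb hA').mono hΩ₁o hs₂ hf₂
  have hK : IsCompact (W ∩ ψ ⁻¹' cthickening δ K₀) := by
    refine hA.cpt isClosed_cthickening ?_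
    refine (cthickening_subset_of_subset δ h.bd).trans ?_
    rw [cthickening_closedBall hδ.le h.pos.le]
    exact closedBall_subset_closedBall (by linarith)
  have hKΩ : W ∩ ψ ⁻¹' cthickening δ K₀ ⊆ Ω₁ :=
    inter_subset_inter_right _ (preimage_mono
      (cthickening_subset_thickening' (by linarith) (by linarith) _))
  have hS : ∀ x ∈ Ω₁, x ∉ W ∩ ψ ⁻¹' cthickening δ K₀ → (x ∈ ψ ⁻¹' S₀ ↔ x ∈ ψ' ⁻¹' S₀) := by
    intro x hx hxK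
    have hsub : ball (ψ x) δ ⊆ interior S₀ ∪ interior S₀ᶜ := by
      rw [← compl_frontier_eq_union_interior]
      intro y hy hyf
      have a0 : ψ x ∈ thickening (2 * δ) K₀ := hx.2
      have a1 : y ∈ K₀ := ⟨hyf, (hgood _ a0).1 (ball_subset_ball (by linarith) hy)⟩
      have a2 : ψ x ∈ cthickening δ K₀ := mem_cthickening_of_dist_le _ y _ _ a1
        (by rw [dist_comm]; exact (mem_ball.mp hy).le)
      exact hxK ⟨hx.1, a2⟩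
    have hdis : Disjoint (interior S₀) (interior S₀ᶜ) :=
      disjoint_compl_right.mono interior_subset interior_subset
    have m₁ : ψ x ∈ ball (ψ x) δ := mem_ball_self hδ
    have m₂ : ψ' x ∈ ball (ψ x) δ := hd x hx.1
    rcases (convex_ball (ψ x) δ).isPreconnected.subset_or_subset isOpen_interior isOpen_interior
      hdis hsub with hh | hh
    · exact iff_of_true (interior_subset (s := S₀) (hh m₁)) (interior_subset (s := S₀) (hh m₂))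
    · exact iff_of_false (interior_subset (hh m₁)) (interior_subset (hh m₂))
  have c₃ := c₁.of_cob hK hKΩ hS
  have hloc : ∀ z ∈ Ω₁, ∃ N ∈ 𝓝 z, ∀ x ∈ N,
      ψ x ∈ ball (ψ z) (2 * δ) ∧ ψ' x ∈ ball (ψ z) (2 * δ) := by
    intro z hz
    refine ⟨W ∩ ψ ⁻¹' ball (ψ z) δ, (hA.2.1.isOpen_inter_preimage hA.1 isOpen_ball).mem_nhds
      ⟨hz.1, mem_ball_self hδ⟩, fun x hx => ⟨ball_subset_ball (by linarith) hx.2, ?_⟩⟩
    have a1 := hd x hx.1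
    have a2 : dist (ψ x) (ψ z) < δ := hx.2
    rw [mem_ball]
    linarith [dist_triangle (ψ' x) (ψ x) (ψ z)]
  have e₃ : sT b Ω₁ (ψ' ⁻¹' S₀) (pbT ψ' T₀) = sT b Ω₁ (ψ' ⁻¹' S₀) (pbT ψ T₀) := by
    refine c₃.sT_gauge h.hb c₂ (a := fun x => T₀ (ψ' x) (ψ x)) (a' := fun x => T₀ (ψ x) (ψ' x))
      (fun z hz => ?_) (fun z hz => ?_) (fun x hx => ?_) fun x hx => ?_
    · obtain ⟨N, hN, hm⟩ := hloc z hz
      have g₂ := (hgood _ hz.2).2.2.1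
      refine ⟨N, hN, fun x hx y hy => ?_⟩
      simp only [pbT]
      rw [g₂ _ (hm x hx).2 _ (hm y hy).2 _ (hm y hy).1, g₂ _ (hm x hx).2 _ (hm x hx).1 _ (hm y hy).1]
    · obtain ⟨N, hN, hm⟩ := hloc z hz
      have g₂ := (hgood _ hz.2).2.2.1
      refine ⟨N, hN, fun x hx y hy => ?_⟩
      simp only [pbT]
      rw [g₂ _ (hm x hx).1 _ (hm y hy).1 _ (hm y hy).2, g₂ _ (hm x hx).1 _ (hm x hx).2 _ (hm y hy).2]
    · obtain ⟨-, g₁, g₂, -⟩ := hgood _ hx.2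
      rw [g₂ _ (hb₂ x hx.1) _ (hb₁ x hx.1) _ (hb₂ x hx.1), g₁ _ (hb₂ x hx.1)]
    · exact (hgood _ hx.2).2.2.2 _ (hb₂ x hx.1) _ (hb₁ x hx.1)
  unfold sigm
  rw [← (h.cut_pb hA).sT_mono h.hb hΩ₁o hs₁ hf₁, ← (h.cut_pb hA').sT_mono h.hb hΩ₁o hs₂ hf₂, e₃,
    c₁.sT_cob hK hKΩ hS]

/-- excise to an open `W' ⊇ K` with compact closure in `W`, where `ψ - ψ'` is bounded; subdivide -/
theorem BD.homot (h : BD b Ω₀ S₀ T₀ r) (hW : IsOpen W) (hψ : ContinuousOn ψ W)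
    (hψ' : ContinuousOn ψ' W) {K : Set (R (2 * m + 1))} (hK : IsCompact K) (hKW : K ⊆ W)
    (hz : ∀ τ ∈ Icc (0 : ℝ) 1, ∀ x ∈ W, ‖(1 - τ) • ψ x + τ • ψ' x‖ ≤ r + 1 → x ∈ K) :
    sigm b Ω₀ S₀ T₀ ψ W = sigm b Ω₀ S₀ T₀ ψ' W := by
  obtain ⟨δ, hδ, hcl⟩ := h.close
  obtain ⟨W', hW', hKW', hW'W, hcpt⟩ := exists_open_between_and_isCompact_closure hK hW hKW
  have hsub : W' ⊆ W := subset_closure.trans hW'W
  let φ : ℝ → R (2 * m + 1) → R (2 * m + 1) := fun τ x => (1 - τ) • ψ x + τ • ψ' x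
  have hφc : ∀ τ, ContinuousOn (φ τ) W := fun τ =>
    (hψ.const_smul (1 - τ)).add (hψ'.const_smul τ)
  have hzz : ∀ τ ∈ Icc (0 : ℝ) 1, W ∩ φ τ ⁻¹' closedBall 0 (r + 1) ⊆ K := fun τ hτ x hx =>
    hz τ hτ x hx.1 (mem_closedBall_zero_iff.mp hx.2)
  have hA : ∀ τ ∈ Icc (0 : ℝ) 1, Adm r (φ τ) W := by
    intro τ hτ
    refine ⟨hW, hφc τ, ?_⟩
    have e : W ∩ φ τ ⁻¹' closedBall 0 (r + 1) = K ∩ φ τ ⁻¹' closedBall 0 (r + 1) :=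
      Subset.antisymm (fun x hx => ⟨hzz τ hτ hx, hx.2⟩) (inter_subset_inter_left _ hKW)
    rw [e]
    exact hK.of_isClosed_subset
      (((hφc τ).mono hKW).preimage_isClosed_of_isClosed hK.isClosed isClosed_closedBall)
      inter_subset_left
  have hex : ∀ τ ∈ Icc (0 : ℝ) 1, Adm r (φ τ) W' ∧
      sigm b Ω₀ S₀ T₀ (φ τ) W' = sigm b Ω₀ S₀ T₀ (φ τ) W := fun τ hτ =>
    h.excise (hA τ hτ) hW' hsub ((hzz τ hτ).trans hKW')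
  obtain ⟨M, hM⟩ := hcpt.exists_bound_of_continuousOn ((hψ.sub hψ').mono hW'W)
  obtain ⟨N, hN⟩ := exists_nat_gt (max M 0 / δ)
  have hN0 : (0 : ℝ) < N := lt_of_le_of_lt (by positivity) hN
  have hstep : ∀ k : ℕ, k ≤ N → sigm b Ω₀ S₀ T₀ (φ (k / N)) W = sigm b Ω₀ S₀ T₀ (φ 0) W := by
    intro k
    induction k with
    | zero => intro _; simp
    | succ k ih =>
      intro hk
      have hk' : (k : ℝ) + 1 ≤ N := by exact_mod_cast hk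
      have m₁ : ((k : ℝ) / N) ∈ Icc (0 : ℝ) 1 :=
        ⟨by positivity, by rw [div_le_one hN0]; linarith⟩
      have m₂ : (((k + 1 : ℕ) : ℝ) / N) ∈ Icc (0 : ℝ) 1 :=
        ⟨by positivity, by rw [div_le_one hN0]; exact_mod_cast hk⟩
      rw [← ih (by omega), ← (hex _ m₁).2, ← (hex _ m₂).2]
      refine hcl _ _ W' (hex _ m₂).1 (hex _ m₁).1 fun x hx => ?_
      have e : φ (((k + 1 : ℕ) : ℝ) / N) x - φ (k / N) x = -((N : ℝ)⁻¹ • (ψ x - ψ' x)) := by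
        simp only [φ]
        push_cast
        rw [add_div, one_div]
        module
      rw [e, norm_neg, norm_smul, Real.norm_eq_abs, abs_of_pos (inv_pos.mpr hN0),
        inv_mul_lt_iff₀ hN0]
      have a1 : ‖ψ x - ψ' x‖ ≤ M := hM x (subset_closure hx)
      rw [div_lt_iff₀ hδ] at hN
      linarith [le_max_left M 0]
  have := hstep N le_rfl
  rw [div_self hN0.ne'] at this
  have e0 : φ 0 = ψ := by funext x; simp [φ]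
  have e1 : φ 1 = ψ' := by funext x; simp [φ]
  rw [e0, e1] at this
  exact this.symm

theorem BD.homeo (h : BD b Ω₀ S₀ T₀ r) (g : OpenPartialHomeomorph (R (2 * m + 1)) (R (2 * m + 1)))
    (hW : IsOpen W) (hs : W ⊆ g.source) {c : ℝ} (hc : c ≠ 0) (hconf : Conf W (g '' W) g c)
    (hA : Adm r ψ (g '' W)) :
    sigm b Ω₀ S₀ T₀ (ψ ∘ g) W = (if 0 < c then 1 else -1) * sigm b Ω₀ S₀ T₀ ψ (g '' W) := by
  have hcg : ContinuousOn g W := g.continuousOn.mono hs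
  have ho : IsOpen (W ∩ (ψ ∘ g) ⁻¹' Ω₀) :=
    (hA.2.1.comp hcg (mapsTo_image _ _)).isOpen_inter_preimage hW h.cut.isOpen
  have e : g '' (W ∩ (ψ ∘ g) ⁻¹' Ω₀) = g '' W ∩ ψ ⁻¹' Ω₀ := by
    rw [preimage_comp, image_inter_preimage]
  have hcut := h.cut_pb hA
  have := Cut.sT_homeo h.hb g ho (inter_subset_left.trans hs) (S' := ψ ⁻¹' S₀) (T' := pbT ψ T₀)
    (by rw [e]; exact hcut) hc (Conf.mono g hW hs ho inter_subset_left hconf)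
  rw [e] at this
  exact this

/-- excise from `univ`, straight line from `id` to `Λ • (x - y)` on `univ` -/
theorem BD.ident (h : BD b Ω₀ S₀ T₀ r) (y : R (2 * m + 1)) {Λ : ℝ} (hΛ : 1 ≤ Λ) (hW : IsOpen W)
    (hy : closedBall y ((r + 1) / Λ) ⊆ W) :
    sigm b Ω₀ S₀ T₀ (fun x => Λ • (x - y)) W = sT b Ω₀ S₀ T₀ := by
  have hΛ0 : 0 < Λ := by linarith
  have hc : Continuous fun x : R (2 * m + 1) => Λ • (x - y) := by fun_prop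
  have hsub : univ ∩ (fun x : R (2 * m + 1) => Λ • (x - y)) ⁻¹' closedBall 0 (r + 1) ⊆
      closedBall y ((r + 1) / Λ) := by
    rintro x ⟨-, hx⟩
    rw [mem_preimage, mem_closedBall_zero_iff, norm_smul, Real.norm_eq_abs, abs_of_pos hΛ0] at hx
    rw [mem_closedBall, dist_eq_norm, le_div_iff₀ hΛ0]
    linarith
  have hA : Adm r (fun x : R (2 * m + 1) => Λ • (x - y)) univ :=
    ⟨isOpen_univ, hc.continuousOn, (isCompact_closedBall _ _).of_isClosed_subset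
      (isClosed_univ.inter (isClosed_closedBall.preimage hc)) hsub⟩
  rw [(h.excise hA hW (subset_univ _) (hsub.trans hy)).2,
    h.homot (ψ' := id) isOpen_univ hc.continuousOn continuousOn_id
      (isCompact_closedBall 0 (r + 1 + Λ * ‖y‖)) (subset_univ _) ?_]
  · simp only [sigm, preimage_id, univ_inter]
    rfl
  · intro τ hτ x _ hx
    have e : ((1 - τ) * Λ + τ) • x =
        ((1 - τ) • Λ • (x - y) + τ • id x) + ((1 - τ) * Λ) • y := by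
      simp only [id]; module
    have h1 : 1 ≤ (1 - τ) * Λ + τ := by nlinarith [hτ.1, hτ.2]
    have h2 : 0 ≤ (1 - τ) * Λ := mul_nonneg (by linarith [hτ.2]) hΛ0.le
    have h3 : (1 - τ) * Λ ≤ Λ := by nlinarith [hτ.1]
    have h4 : ‖((1 - τ) * Λ + τ) • x‖ ≤ r + 1 + Λ * ‖y‖ := by
      rw [e]
      refine (norm_add_le _ _).trans (add_le_add hx ?_)
      rw [norm_smul, Real.norm_eq_abs, abs_of_nonneg h2]
      gcongr
    rw [norm_smul, Real.norm_eq_abs, abs_of_nonneg (by linarith)] at h4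
    rw [mem_closedBall_zero_iff]
    nlinarith [norm_nonneg x]

theorem BD.tw (h : BD b Ω₀ S₀ T₀ r) (g : OpenPartialHomeomorph (R (2 * m + 1)) (R (2 * m + 1)))
    (hs : W ⊆ g.source) (hi : g '' W = W) {c : ℝ} (hc : 0 < c) (hconf : Conf W W g c)
    (hA : Adm r ψ W) (hψ : ∀ x ∈ W, ψ (g x) = ψ x) (hN : NbhdProp g W) {q : ℕ} (hq : 0 < q) {ω : ℂ}
    (hω : IsPrimitiveRoot ω q) (hS : Sliced g W ω) : (q : ℤ) ∣ sigm b Ω₀ S₀ T₀ ψ W := by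
  have hcut := h.cut_pb hA
  have hgW : ∀ x ∈ W, g x ∈ W := fun x hx => hi ▸ mem_image_of_mem g hx
  have himg : g '' (W ∩ ψ ⁻¹' Ω₀) = W ∩ ψ ⁻¹' Ω₀ := by
    apply Subset.antisymm
    · rintro _ ⟨x, hx, rfl⟩
      exact ⟨hgW x hx.1, by rw [mem_preimage, hψ x hx.1]; exact hx.2⟩
    · rintro y ⟨hy, hy'⟩
      rw [← hi] at hy
      obtain ⟨x, hx, rfl⟩ := hy
      exact ⟨x, ⟨hx, by rwa [mem_preimage, hψ x hx] at hy'⟩, rfl⟩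
  refine _root_.Crest.Agent.R217.tw (g := g) h.hb hcut ⟨inter_subset_left.trans hs, himg, fun x hx => ?_,
    fun x hx y hy => ?_, c, hc, ?_⟩
    (fun C O hC hO hCO hOW => hN C O hC hO hCO (hOW.trans inter_subset_left)) hq hω fun x hx => ?_
  · rw [mem_preimage, mem_preimage, hψ x hx.1]
  · simp only [pbT, hψ x hx.1, hψ y hy.1]
  · have := Conf.mono g hA.1 hs hcut.isOpen inter_subset_left (c := c) (by rwa [hi])
    rwa [himg] at this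
  · obtain ⟨U, hU, hxU, hUW, hiU, τ, hτ⟩ := hS x hx.1
    refine ⟨U ∩ (W ∩ ψ ⁻¹' Ω₀), hU.inter hcut.isOpen, ⟨hxU, hx⟩, inter_subset_right, ?_, τ,
      fun y hy => hτ y hy.1⟩
    rw [g.injOn.image_inter (hUW.trans hs) (inter_subset_left.trans hs), hiU, himg]

end Crest.Agent.R217
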