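import Crest.Agent.R217.Deg1

/-! # R217 / Deg2 : construction of the degree theory -/

set_option autoImplicit false
open Set Topology Filter Metric

namespace Crest.Agent.R217

variable {m : ℕ} {E : Type*} [AddCommGroup E] [Module ℝ E] [Module ℂ E] [IsScalarTower ℝ ℂ E]
  [FiniteDimensional ℝ E] {b : E →ₗ[ℝ] E →ₗ[ℝ] ℝ} {Ω₀ S₀ : Set (R (2 * m + 1))}
  {T₀ : Tw (R (2 * m + 1)) E} {r : ℝ}

/-- a relatively compact open neighbourhood of the zero set -/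
def Nb {N : ℕ} (φ : R N → R N) (W W' : Set (R N)) : Prop :=
  IsOpen W' ∧ W ∩ φ ⁻¹' {0} ⊆ W' ∧ IsCompact (closure W') ∧ closure W' ⊆ W

theorem Adm0.exists_nb {N : ℕ} {φ : R N → R N} {W : Set (R N)} (h : Adm0 φ W) :
    ∃ W', Nb φ W W' := by
  obtain ⟨V, h1, h2, h3, h4⟩ := exists_open_between_and_isCompact_closure h.2.2 h.1 inter_subset_left
  exact ⟨V, h1, h2, h4, h3⟩

/-- for large `Λ` the set `{x ∈ closure W' | ‖Λ φ x‖ ≤ r + 1}` is inside any open `O` containing the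
zeros; in particular `Adm r (Λ φ) W'` -/
theorem Nb.eventually {N : ℕ} {φ : R N → R N} {W W' O : Set (R N)} (h : Adm0 φ W)
    (hn : Nb φ W W') (hO : IsOpen O) (hz : W ∩ φ ⁻¹' {0} ⊆ O) (r : ℝ) :
    ∀ᶠ Λ : ℝ in atTop, Adm r (fun x => Λ • φ x) W' ∧
      ∀ x ∈ closure W', ‖Λ • φ x‖ ≤ r + 1 → x ∈ O := by
  have hK : IsCompact (closure W' \ (O ∩ W')) := hn.2.2.1.diff (hO.inter hn.1)
  have hφ : ContinuousOn φ (closure W') := h.2.1.mono hn.2.2.2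
  obtain ⟨η, hη, hb⟩ := hK.exists_forall_le' (f := fun x => ‖φ x‖) (a := 0)
    (hφ.mono sdiff_subset).norm fun x hx => norm_pos_iff.2 fun h0 =>
      hx.2 ⟨hz ⟨hn.2.2.2 hx.1, h0⟩, hn.2.1 ⟨hn.2.2.2 hx.1, h0⟩⟩
  filter_upwards [eventually_gt_atTop ((r + 1) / η), eventually_ge_atTop 0] with Λ h1 h0
  have key : ∀ x ∈ closure W', ‖Λ • φ x‖ ≤ r + 1 → x ∈ O ∩ W' := fun x hx hle => by
    by_contra hc
    have h2 := hb x ⟨hx, hc⟩
    rw [norm_smul, Real.norm_of_nonneg h0] at hle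
    rw [div_lt_iff₀ hη] at h1
    nlinarith [mul_le_mul_of_nonneg_left h2 h0]
  have hψ : ContinuousOn (fun x => Λ • φ x) (closure W') := hφ.const_smul Λ
  refine ⟨⟨hn.1, hψ.mono subset_closure, ?_⟩, fun x hx hle => (key x hx hle).1⟩
  have he : W' ∩ (fun x => Λ • φ x) ⁻¹' closedBall 0 (r + 1) =
      closure W' ∩ (fun x => Λ • φ x) ⁻¹' closedBall 0 (r + 1) := by
    ext x
    exact ⟨fun hx => ⟨subset_closure hx.1, hx.2⟩,
      fun hx => ⟨(key x hx.1 (mem_closedBall_zero_iff.1 hx.2)).2, hx.2⟩⟩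
  rw [he]
  exact hn.2.2.1.of_isClosed_subset
    (hψ.preimage_isClosed_of_isClosed isClosed_closure isClosed_closedBall) inter_subset_left

/-- independence of `Λ` (`BD.homot`) and of `W'` (`BD.excise` to `W' ∩ W''`) -/
theorem BD.exists_deg (h : BD b Ω₀ S₀ T₀ r) {φ : R (2 * m + 1) → R (2 * m + 1)}
    {W : Set (R (2 * m + 1))} (hA : Adm0 φ W) : ∃ d : ℤ, ∀ W', Nb φ W W' →
      ∀ᶠ Λ : ℝ in atTop, sigm b Ω₀ S₀ T₀ (fun x => Λ • φ x) W' = d := by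
  obtain ⟨W₀, h₀⟩ := hA.exists_nb
  obtain ⟨Λ₀, hΛ₀, hpos⟩ := ((h₀.eventually hA h₀.1 h₀.2.1 r).and (eventually_ge_atTop 0)).exists
  refine ⟨sigm b Ω₀ S₀ T₀ (fun x => Λ₀ • φ x) W₀, fun W' hn => ?_⟩
  have hO : IsOpen (W' ∩ W₀) := hn.1.inter h₀.1
  have hz : W ∩ φ ⁻¹' {0} ⊆ W' ∩ W₀ := subset_inter hn.2.1 h₀.2.1
  filter_upwards [hn.eventually hA hO hz r, h₀.eventually hA hO hz r, eventually_ge_atTop Λ₀]
    with Λ h1 h2 h3
  have e1 := (h.excise h1.1 hO inter_subset_left fun x hx =>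
    h1.2 x (subset_closure hx.1) (mem_closedBall_zero_iff.1 hx.2)).2
  have e2 := (h.excise h2.1 hO inter_subset_right fun x hx =>
    h2.2 x (subset_closure hx.1) (mem_closedBall_zero_iff.1 hx.2)).2
  rw [← e1, e2]
  refine h.homot h₀.1 h2.1.2.1 hΛ₀.1.2.1 hΛ₀.1.2.2 inter_subset_left fun τ hτ x hx hle => ⟨hx, ?_⟩
  rw [mem_preimage, mem_closedBall_zero_iff]
  refine le_trans ?_ hle
  rw [smul_smul, smul_smul, ← add_smul, norm_smul, norm_smul, Real.norm_of_nonneg hpos,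
    Real.norm_of_nonneg (by nlinarith [hτ.1, hτ.2])]
  exact mul_le_mul_of_nonneg_right (by nlinarith [hτ.1, hτ.2]) (norm_nonneg _)

namespace Deg2

open Classical in
/-- the degree -/
noncomputable def dg (h : BD b Ω₀ S₀ T₀ r) (φ : R (2 * m + 1) → R (2 * m + 1))
    (W : Set (R (2 * m + 1))) : ℤ :=
  if hA : Adm0 φ W then (h.exists_deg hA).choose else 0

theorem dg_spec (h : BD b Ω₀ S₀ T₀ r) {φ : R (2 * m + 1) → R (2 * m + 1)}
    {W W' : Set (R (2 * m + 1))} (hA : Adm0 φ W) (hn : Nb φ W W') :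
    ∀ᶠ Λ : ℝ in atTop, sigm b Ω₀ S₀ T₀ (fun x => Λ • φ x) W' = dg h φ W := by
  rw [dg, dif_pos hA]
  exact (h.exists_deg hA).choose_spec W' hn

theorem excise (h : BD b Ω₀ S₀ T₀ r) (φ : R (2 * m + 1) → R (2 * m + 1))
    (W W' : Set (R (2 * m + 1))) (hA : Adm0 φ W) (hW' : IsOpen W') (hs : W' ⊆ W)
    (hz : W ∩ φ ⁻¹' {0} ⊆ W') : dg h φ W' = dg h φ W := by
  have he : W' ∩ φ ⁻¹' {0} = W ∩ φ ⁻¹' {0} :=
    Subset.antisymm (inter_subset_inter_left _ hs) fun x hx => ⟨hz hx, hx.2⟩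
  have hA' : Adm0 φ W' := ⟨hW', hA.2.1.mono hs, he ▸ hA.2.2⟩
  obtain ⟨V, hV⟩ := hA'.exists_nb
  have hV' : Nb φ W V := ⟨hV.1, he ▸ hV.2.1, hV.2.2.1, hV.2.2.2.trans hs⟩
  obtain ⟨Λ, h1, h2⟩ := ((dg_spec h hA' hV).and (dg_spec h hA hV')).exists
  rw [← h1, h2]

theorem adm_left {N : ℕ} {φ : R N → R N} {W₁ W₂ : Set (R N)} (hA : Adm0 φ (W₁ ∪ W₂))
    (h₁ : IsOpen W₁) (h₂ : IsOpen W₂) (hd : Disjoint W₁ W₂) : Adm0 φ W₁ := by
  refine ⟨h₁, hA.2.1.mono subset_union_left, ?_⟩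
  have he : W₁ ∩ φ ⁻¹' {0} = ((W₁ ∪ W₂) ∩ φ ⁻¹' {0}) \ W₂ := by
    ext x
    exact ⟨fun hx => ⟨⟨Or.inl hx.1, hx.2⟩, fun h2 => disjoint_left.1 hd hx.1 h2⟩,
      fun hx => ⟨hx.1.1.resolve_right hx.2, hx.1.2⟩⟩
  rw [he]
  exact hA.2.2.diff h₂

theorem add (h : BD b Ω₀ S₀ T₀ r) (φ : R (2 * m + 1) → R (2 * m + 1))
    (W₁ W₂ : Set (R (2 * m + 1))) (hA : Adm0 φ (W₁ ∪ W₂)) (h₁ : IsOpen W₁) (h₂ : IsOpen W₂)
    (hd : Disjoint W₁ W₂) : dg h φ (W₁ ∪ W₂) = dg h φ W₁ + dg h φ W₂ := by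
  have hA₁ := adm_left hA h₁ h₂ hd
  have hA₂ : Adm0 φ W₂ := adm_left (union_comm W₁ W₂ ▸ hA) h₂ h₁ hd.symm
  obtain ⟨V₁, hV₁⟩ := hA₁.exists_nb
  obtain ⟨V₂, hV₂⟩ := hA₂.exists_nb
  have hV : Nb φ (W₁ ∪ W₂) (V₁ ∪ V₂) := by
    refine ⟨hV₁.1.union hV₂.1, fun x hx => hx.1.elim (fun h1 => Or.inl (hV₁.2.1 ⟨h1, hx.2⟩))
      fun h2 => Or.inr (hV₂.2.1 ⟨h2, hx.2⟩), ?_, ?_⟩
    · rw [closure_union]
      exact hV₁.2.2.1.union hV₂.2.2.1
    · rw [closure_union]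
      exact union_subset_union hV₁.2.2.2 hV₂.2.2.2
  obtain ⟨Λ, ⟨e, e₁, e₂⟩, h4⟩ := (((dg_spec h hA hV).and ((dg_spec h hA₁ hV₁).and
    (dg_spec h hA₂ hV₂))).and (hV.eventually hA hV.1 hV.2.1 r)).exists
  rw [← e, ← e₁, ← e₂]
  exact h.add h4.1 hV₁.1 hV₂.1
    (hd.mono (subset_closure.trans hV₁.2.2.2) (subset_closure.trans hV₂.2.2.2))

theorem adm_of {N : ℕ} {φ : R N → R N} {W K : Set (R N)} (hW : IsOpen W) (hφ : ContinuousOn φ W)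
    (hK : IsCompact K) (hKW : K ⊆ W) (hz : ∀ x ∈ W, φ x = 0 → x ∈ K) : Adm0 φ W := by
  refine ⟨hW, hφ, ?_⟩
  have he : W ∩ φ ⁻¹' {0} = K ∩ φ ⁻¹' {0} :=
    Subset.antisymm (fun x hx => ⟨hz x hx.1 hx.2, hx.2⟩) (inter_subset_inter_left _ hKW)
  rw [he]
  exact hK.of_isClosed_subset
    ((hφ.mono hKW).preimage_isClosed_of_isClosed hK.isClosed isClosed_singleton) inter_subset_left

theorem homot (h : BD b Ω₀ S₀ T₀ r) (φ φ' : R (2 * m + 1) → R (2 * m + 1))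
    (W K : Set (R (2 * m + 1))) (hW : IsOpen W) (hφ : ContinuousOn φ W) (hφ' : ContinuousOn φ' W)
    (hK : IsCompact K) (hKW : K ⊆ W)
    (hz : ∀ τ ∈ Icc (0 : ℝ) 1, ∀ x ∈ W, (1 - τ) • φ x + τ • φ' x = 0 → x ∈ K) :
    dg h φ W = dg h φ' W := by
  have z0 : ∀ x ∈ W, φ x = 0 → x ∈ K := fun x hx h0 =>
    hz 0 ⟨le_rfl, zero_le_one⟩ x hx (by simp [h0])
  have z1 : ∀ x ∈ W, φ' x = 0 → x ∈ K := fun x hx h0 =>
    hz 1 ⟨zero_le_one, le_rfl⟩ x hx (by simp [h0])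
  have hA := adm_of hW hφ hK hKW z0
  have hA' := adm_of hW hφ' hK hKW z1
  obtain ⟨W', o1, k1, c1, cc1⟩ := exists_open_between_and_isCompact_closure hK hW hKW
  obtain ⟨V, o2, k2, c2, cc2⟩ := exists_open_between_and_isCompact_closure hK o1 k1
  have hn : Nb φ W W' := ⟨o1, fun x hx => k1 (z0 x hx.1 hx.2), cc1, c1⟩
  have hn' : Nb φ' W W' := ⟨o1, fun x hx => k1 (z1 x hx.1 hx.2), cc1, c1⟩
  have hC : IsCompact (Icc (0 : ℝ) 1 ×ˢ (closure W' \ V)) := isCompact_Icc.prod (cc1.diff o2)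
  obtain ⟨η, hη, hb⟩ := hC.exists_forall_le'
    (f := fun q => ‖(1 - q.1) • φ q.2 + q.1 • φ' q.2‖) (a := 0)
    (ContinuousOn.norm (ContinuousOn.add
      ((continuousOn_const.sub continuousOn_fst).smul
        (hφ.comp continuousOn_snd fun q hq => c1 hq.2.1))
      (continuousOn_fst.smul (hφ'.comp continuousOn_snd fun q hq => c1 hq.2.1))))
    fun q hq => norm_pos_iff.2 fun h0 => hq.2.2 (k2 (hz q.1 hq.1 q.2 (c1 hq.2.1) h0))
  obtain ⟨Λ, ⟨e, e'⟩, h1, h0⟩ := (((dg_spec h hA hn).and (dg_spec h hA' hn')).and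
    ((eventually_gt_atTop ((r + 1) / η)).and (eventually_ge_atTop 0))).exists
  rw [← e, ← e']
  have hs : W' ⊆ W := subset_closure.trans c1
  refine h.homot o1 ((hφ.mono hs).const_smul Λ) ((hφ'.mono hs).const_smul Λ) cc2 c2
    fun τ hτ x hx hle => ?_
  by_contra hc
  have h2 := hb (τ, x) ⟨hτ, subset_closure hx, fun hV => hc (subset_closure hV)⟩
  rw [smul_comm (1 - τ) Λ, smul_comm τ Λ, ← smul_add, norm_smul, Real.norm_of_nonneg h0] at hle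
  rw [div_lt_iff₀ hη] at h1
  nlinarith [mul_le_mul_of_nonneg_left h2 h0]

theorem ident (h : BD b Ω₀ S₀ T₀ r) (y : R (2 * m + 1)) (W : Set (R (2 * m + 1))) (hW : IsOpen W)
    (hy : y ∈ W) : dg h (fun x => x - y) W = sT b Ω₀ S₀ T₀ := by
  have hA : Adm0 (fun x => x - y) W :=
    adm_of hW (by fun_prop) (isCompact_singleton (x := y)) (singleton_subset_iff.2 hy)
      fun x _ h0 => sub_eq_zero.1 h0
  obtain ⟨V, hV⟩ := hA.exists_nb
  have hyV : y ∈ V := hV.2.1 ⟨hy, by simp⟩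
  obtain ⟨ε, hε, hb⟩ := nhds_basis_closedBall.mem_iff.1 (hV.1.mem_nhds hyV)
  obtain ⟨Λ, e, h1, h2⟩ := ((dg_spec h hA hV).and
    ((eventually_ge_atTop ((r + 1) / ε)).and (eventually_ge_atTop 1))).exists
  rw [← e]
  refine h.ident y h2 hV.1 ((closedBall_subset_closedBall ?_).trans hb)
  rw [div_le_iff₀ hε] at h1
  rw [div_le_iff₀ (by linarith)]
  linarith

theorem adm_comp {N : ℕ} (g : OpenPartialHomeomorph (R N) (R N)) {φ : R N → R N} {W : Set (R N)}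
    (hW : IsOpen W) (hs : W ⊆ g.source) (hA : Adm0 φ (g '' W)) : Adm0 (φ ∘ g) W := by
  refine ⟨hW, hA.2.1.comp (g.continuousOn.mono hs) (mapsTo_image _ _), ?_⟩
  have ht : g '' W ⊆ g.target := by
    rintro _ ⟨x, hx, rfl⟩
    exact g.map_source (hs hx)
  have he : W ∩ (φ ∘ g) ⁻¹' {0} = g.symm '' (g '' W ∩ φ ⁻¹' {0}) := by
    ext x
    constructor
    · intro hx
      exact ⟨g x, ⟨⟨x, hx.1, rfl⟩, hx.2⟩, g.left_inv (hs hx.1)⟩
    · rintro ⟨_, ⟨⟨z, hz, rfl⟩, h0⟩, rfl⟩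
      rw [g.left_inv (hs hz)]
      exact ⟨hz, h0⟩
  rw [he]
  exact hA.2.2.image_of_continuousOn (g.continuousOn_symm.mono (inter_subset_left.trans ht))

theorem nb_image {N : ℕ} (g : OpenPartialHomeomorph (R N) (R N)) {φ : R N → R N}
    {W W' : Set (R N)} (hs : W ⊆ g.source) (hn : Nb (φ ∘ g) W W') : Nb φ (g '' W) (g '' W') := by
  have hc : IsCompact (g '' closure W') :=
    hn.2.2.1.image_of_continuousOn (g.continuousOn.mono (hn.2.2.2.trans hs))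
  have hcl : closure (g '' W') ⊆ g '' closure W' :=
    closure_minimal (image_mono subset_closure) hc.isClosed
  refine ⟨g.isOpen_image_of_subset_source hn.1 ((subset_closure.trans hn.2.2.2).trans hs), ?_,
    hc.of_isClosed_subset isClosed_closure hcl, hcl.trans (image_mono hn.2.2.2)⟩
  rintro _ ⟨⟨x, hx, rfl⟩, h0⟩
  exact ⟨x, hn.2.1 ⟨hx, h0⟩, rfl⟩

theorem homeo (h : BD b Ω₀ S₀ T₀ r) (g : OpenPartialHomeomorph (R (2 * m + 1)) (R (2 * m + 1)))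
    {X₀ : Set (R (2 * m + 1))} (hX : IsOpen X₀) (hs : X₀ ⊆ g.source) {c : ℝ} (hc : c ≠ 0)
    (hconf : Conf X₀ (g '' X₀) g c) (φ : R (2 * m + 1) → R (2 * m + 1))
    (W : Set (R (2 * m + 1))) (hWX : W ⊆ X₀) (hW : IsOpen W) (hA : Adm0 φ (g '' W)) :
    dg h (φ ∘ g) W = (if 0 < c then 1 else -1) * dg h φ (g '' W) := by
  have hA' := adm_comp g hW (hWX.trans hs) hA
  obtain ⟨V, hV⟩ := hA'.exists_nb
  have hV' := nb_image g (hWX.trans hs) hV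
  have hVX : V ⊆ X₀ := (subset_closure.trans hV.2.2.2).trans hWX
  obtain ⟨Λ, ⟨e, e'⟩, h1⟩ := (((dg_spec h hA' hV).and (dg_spec h hA hV')).and
    (hV'.eventually hA hV'.1 hV'.2.1 r)).exists
  rw [← e, ← e']
  exact h.homeo (ψ := fun x => Λ • φ x) g hV.1 (hVX.trans hs) hc (hconf.mono g hX hs hV.1 hVX) h1.1

theorem tw (h : BD b Ω₀ S₀ T₀ r) (g : OpenPartialHomeomorph (R (2 * m + 1)) (R (2 * m + 1)))
    {X₀ : Set (R (2 * m + 1))} (hX : IsOpen X₀) (hs : X₀ ⊆ g.source) {c : ℝ} (hc : 0 < c)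
    (hconf : Conf X₀ (g '' X₀) g c) : TwProp (dg h) g X₀ := by
  intro φ W p k ω hWX hi hA hφ hN hp hω hS
  have hC : g '' (W ∩ φ ⁻¹' {0}) = W ∩ φ ⁻¹' {0} := by
    ext y
    constructor
    · rintro ⟨x, hx, rfl⟩
      refine ⟨hi ▸ mem_image_of_mem g hx.1, ?_⟩
      rw [mem_preimage, hφ x hx.1]
      exact hx.2
    · intro hy
      obtain ⟨x, hx, rfl⟩ : y ∈ g '' W := hi.symm ▸ hy.1
      refine ⟨x, ⟨hx, ?_⟩, rfl⟩
      rw [mem_preimage, ← hφ x hx]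
      exact hy.2
  obtain ⟨V, o, k1, cc, c1, hiV⟩ := hN _ W hA.2.2 hA.1 inter_subset_left subset_rfl hC hi
  have hV : Nb φ W V := ⟨o, k1, cc, c1⟩
  have hVW : V ⊆ W := subset_closure.trans c1
  have hVX : V ⊆ X₀ := hVW.trans hWX
  obtain ⟨Λ, e, h1⟩ := ((dg_spec h hA hV).and (hV.eventually hA hV.1 hV.2.1 r)).exists
  rw [← e]
  have hcf : Conf V V g c := by
    have := hconf.mono g hX hs o hVX
    rwa [hiV] at this
  have := h.tw g (hVX.trans hs) hiV hc hcf h1.1 (fun x hx => by rw [hφ x (hVW hx)])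
    (fun C O hC hO h2 h3 => hN C O hC hO h2 (h3.trans hVW)) (pow_pos hp.pos k) hω fun x hx => by
      obtain ⟨U, u1, u2, u3, u4, τ, hτ⟩ := hS x (hVW hx)
      refine ⟨U ∩ V, u1.inter o, ⟨u2, hx⟩, inter_subset_right, ?_, τ, fun y hy => hτ y hy.1⟩
      rw [g.injOn.image_inter ((u3.trans hWX).trans hs) (hVX.trans hs), u4, hiV]
  exact_mod_cast this

end Deg2

/-- `deg φ W := if h : Adm0 φ W then (exists_deg h).choose else 0`, `s0 = sT b Ω₀ S₀ T₀`.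
`homeo`: `exists_conf` on `X₀`, `ε = if 0 < c then 1 else -1`, `Conf.mono`; for `W'` a `Nb` of
`φ ∘ g` in `W`, `g '' W'` is a `Nb` of `φ` in `g '' W`.  `TwProp`: the zero set is invariant, take
an invariant `W'` from `NbhdProp` (`C` = zero set, `O = W`), restrict `NbhdProp`, `Sliced` to `W'`.
`add`: take `W' = W₁' ∪ W₂'`.  `homot`: `W'` a relatively compact open nbhd of `K`; on the compact
`frontier W' × [0,1]` the homotopy is bounded away from `0`. -/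
theorem BD.degTh (h : BD b Ω₀ S₀ T₀ r) (h0 : sT b Ω₀ S₀ T₀ ≠ 0) : Nonempty (DegTh (2 * m + 1)) := by
  refine ⟨⟨Deg2.dg h, sT b Ω₀ S₀ T₀, h0, Deg2.excise h, Deg2.add h, Deg2.homot h, Deg2.ident h,
    fun g X₀ hX hc hs => ?_⟩⟩
  obtain ⟨c, hc0, hconf⟩ := exists_conf g hX hc hs
  refine ⟨if 0 < c then 1 else -1, by split_ifs <;> simp,
    Deg2.homeo h g hX hs hc0 hconf, fun h1 _ => Deg2.tw h g hX hs ?_ hconf⟩
  by_contra hn
  rw [if_neg hn] at h1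
  exact absurd h1 (by decide)

theorem HasBase.degTh (h : HasBase m) : Nonempty (DegTh (2 * m + 1)) := by
  obtain ⟨E, _, _, _, _, _, b, Ω, S, T, hb, hc, h0⟩ := h
  obtain ⟨r, hr, hbd⟩ := hc.cpt.isBounded.subset_closedBall_lt 0 0
  exact BD.degTh ⟨hb, hc, hr, hbd⟩ h0

end Crest.Agent.R217
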