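import Crest.Agent.R217.Sard

/-! # R217 / Dvd : formal consequences of the axioms of `DegTh` -/

set_option autoImplicit false
open Set Topology Filter

namespace Crest.Agent.R217

variable {N : ℕ} (D : DegTh N)

theorem Adm0.mono {φ : R N → R N} {W W' : Set (R N)} (h : Adm0 φ W) (hW' : IsOpen W')
    (hs : W' ⊆ W) (hz : W ∩ φ ⁻¹' {0} ⊆ W') : Adm0 φ W' := by
  refine ⟨hW', h.2.1.mono hs, ?_⟩
  have : W' ∩ φ ⁻¹' {0} = W ∩ φ ⁻¹' {0} :=
    (inter_subset_inter_left _ hs).antisymm fun x hx => ⟨hz hx, hx.2⟩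
  rw [this]
  exact h.2.2

/-- the zero set splits into two relatively clopen, hence compact, parts -/
theorem Adm0.of_union {φ : R N → R N} {W₁ W₂ : Set (R N)} (h : Adm0 φ (W₁ ∪ W₂))
    (h₁ : IsOpen W₁) (h₂ : IsOpen W₂) (hd : Disjoint W₁ W₂) : Adm0 φ W₁ := by
  refine ⟨h₁, h.2.1.mono subset_union_left, ?_⟩
  have : W₁ ∩ φ ⁻¹' {0} = ((W₁ ∪ W₂) ∩ φ ⁻¹' {0}) \ W₂ := by
    ext x
    exact ⟨fun hx => ⟨⟨Or.inl hx.1, hx.2⟩, disjoint_left.1 hd hx.1⟩,
      fun hx => ⟨hx.1.1.resolve_right hx.2, hx.1.2⟩⟩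
  rw [this]
  exact h.2.2.diff h₂

theorem adm0_of_frontier {φ : R N → R N} {U : Set (R N)} (hU : IsOpen U)
    (hc : IsCompact (closure U)) (hφ : ContinuousOn φ (closure U))
    (hf : ∀ x ∈ frontier U, φ x ≠ 0) : Adm0 φ U := by
  refine ⟨hU, hφ.mono subset_closure, ?_⟩
  have : U ∩ φ ⁻¹' {0} = closure U ∩ φ ⁻¹' {0} := by
    refine (inter_subset_inter_left _ subset_closure).antisymm fun x hx => ⟨?_, hx.2⟩
    by_contra hxU
    exact hf x (by rw [hU.frontier_eq]; exact ⟨hx.1, hxU⟩) hx.2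
  rw [this]
  exact hc.of_isClosed_subset (hφ.preimage_isClosed_of_isClosed isClosed_closure isClosed_singleton)
    inter_subset_left

/-- `excise` to `∅` and `add` with `∅ ∪ ∅`. -/
theorem DegTh.eq_zero {φ : R N → R N} {W : Set (R N)} (h : Adm0 φ W)
    (hz : ∀ x ∈ W, φ x ≠ 0) : D.deg φ W = 0 := by
  have h1 := D.excise φ W ∅ h isOpen_empty (empty_subset _) fun x hx => (hz x hx.1 hx.2).elim
  have h2 := D.add φ ∅ ∅ ⟨by simp, by simp, by simp⟩ isOpen_empty isOpen_empty (by simp)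
  rw [union_empty] at h2
  omega

theorem DegTh.congr {φ φ' : R N → R N} {W : Set (R N)} (h : Adm0 φ W)
    (he : ∀ x ∈ W, φ x = φ' x) : D.deg φ W = D.deg φ' W := by
  refine D.homot φ φ' W (W ∩ φ ⁻¹' {0}) h.1 h.2.1 (h.2.1.congr fun x hx => (he x hx).symm) h.2.2
    inter_subset_left fun τ _ x hx h0 => ⟨hx, ?_⟩
  rw [← he x hx, ← add_smul, sub_add_cancel, one_smul] at h0
  exact h0

theorem DegTh.sum {ι : Type*} (s : Finset ι) {φ : R N → R N} (W : ι → Set (R N))
    (h : Adm0 φ (⋃ i ∈ s, W i)) (ho : ∀ i ∈ s, IsOpen (W i))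
    (hd : (s : Set ι).PairwiseDisjoint W) :
    D.deg φ (⋃ i ∈ s, W i) = ∑ i ∈ s, D.deg φ (W i) := by
  classical
  induction s using Finset.induction_on with
  | empty => simpa using D.eq_zero (φ := φ) (W := ∅) ⟨by simp, by simp, by simp⟩ (by simp)
  | insert a s ha ih =>
    rw [Finset.set_biUnion_insert] at h ⊢
    have ho' : IsOpen (⋃ i ∈ s, W i) := isOpen_biUnion fun i hi => ho i (Finset.mem_insert_of_mem hi)
    have hoa := ho a (Finset.mem_insert_self _ _)
    have hdis : Disjoint (W a) (⋃ i ∈ s, W i) := by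
      simp only [disjoint_iUnion_right]
      intro i hi
      exact hd (by simp) (by simp [hi]) fun h => ha (h ▸ hi)
    rw [Finset.sum_insert ha, D.add φ _ _ h hoa ho' hdis,
      ih (Adm0.of_union (by rwa [union_comm]) ho' hoa hdis.symm)
        (fun i hi => ho i (Finset.mem_insert_of_mem hi)) (hd.subset (by simp))]

/-- `K = {x ∈ closure U | ∃ τ, (1-τ) φ x + τ φ' x = 0}` is compact and inside `U`. -/
theorem DegTh.homot_frontier {φ φ' : R N → R N} {U : Set (R N)} (hU : IsOpen U)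
    (hc : IsCompact (closure U)) (hφ : ContinuousOn φ (closure U))
    (hφ' : ContinuousOn φ' (closure U))
    (hf : ∀ τ ∈ Icc (0 : ℝ) 1, ∀ x ∈ frontier U, (1 - τ) • φ x + τ • φ' x ≠ 0) :
    D.deg φ U = D.deg φ' U := by
  let F : ℝ × R N → R N := fun z => (1 - z.1) • φ z.2 + z.1 • φ' z.2
  have h1 : ContinuousOn (fun z : ℝ × R N => φ z.2) (Icc (0 : ℝ) 1 ×ˢ closure U) :=
    hφ.comp continuousOn_snd fun z hz => hz.2
  have h2 : ContinuousOn (fun z : ℝ × R N => φ' z.2) (Icc (0 : ℝ) 1 ×ˢ closure U) :=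
    hφ'.comp continuousOn_snd fun z hz => hz.2
  have hF : ContinuousOn F (Icc (0 : ℝ) 1 ×ˢ closure U) :=
    ((continuousOn_const.sub continuousOn_fst).smul h1).add (continuousOn_fst.smul h2)
  have hK : IsCompact ((Icc (0 : ℝ) 1 ×ˢ closure U) ∩ F ⁻¹' {0}) :=
    (isCompact_Icc.prod hc).of_isClosed_subset
      (hF.preimage_isClosed_of_isClosed (isClosed_Icc.prod isClosed_closure) isClosed_singleton) inter_subset_left
  refine D.homot φ φ' U _ hU (hφ.mono subset_closure) (hφ'.mono subset_closure) (hK.image continuous_snd) ?_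
    fun τ hτ x hx h0 => ⟨(τ, x), ⟨⟨hτ, subset_closure hx⟩, h0⟩, rfl⟩
  rintro _ ⟨z, hz, rfl⟩
  by_contra hxU
  exact hf z.1 hz.1.1 z.2 (by rw [hU.frontier_eq]; exact ⟨hz.1.2, hxU⟩) hz.2

theorem DegTh.s0_dvd_finite {f : R N → R N} (hf : ContDiff ℝ 1 f) (y : R N) (s : Finset (R N)) :
    ∀ U : Set (R N), IsOpen U → U ∩ (fun x => f x - y) ⁻¹' {0} = s → (∀ x ∈ s, (fderiv ℝ f x).det ≠ 0) →
      D.s0 ∣ D.deg (fun x => f x - y) U := by
  classical
  have hc : Continuous fun x => f x - y := hf.continuous.sub continuous_const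
  induction s using Finset.induction_on with
  | empty =>
    intro U hU hs _
    rw [D.eq_zero ⟨hU, hc.continuousOn, by rw [hs]; simp⟩ fun x hx h0 => by
      have : x ∈ U ∩ (fun x => f x - y) ⁻¹' {0} := ⟨hx, h0⟩
      rw [hs] at this
      simp at this]
    exact dvd_zero _
  | insert a s ha ih =>
    intro U hU hs hdet
    have hA : Adm0 (fun x => f x - y) U := ⟨hU, hc.continuousOn, by rw [hs]; exact (Finset.finite_toSet _).isCompact⟩
    have haU : a ∈ U ∩ (fun x => f x - y) ⁻¹' {0} := by rw [hs]; simp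
    obtain ⟨g, hag, hg⟩ := exists_local_homeo hf (hdet a (Finset.mem_insert_self _ _))
    obtain ⟨r, hr, hsub⟩ := Metric.nhds_basis_closedBall.mem_iff.1
      (inter_mem (inter_mem (hU.mem_nhds haU.1) (g.open_source.mem_nhds hag))
        ((Finset.finite_toSet s).isClosed.isOpen_compl.mem_nhds ha))
    have hB : Metric.ball a r ⊆ U ∩ g.source := fun x hx => (hsub (Metric.ball_subset_closedBall hx)).1
    have hW₂ : IsOpen (U \ Metric.closedBall a r) := hU.sdiff Metric.isClosed_closedBall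
    have hs₂ : (U \ Metric.closedBall a r) ∩ (fun x => f x - y) ⁻¹' {0} = s := by
      ext x
      constructor
      · intro hx
        have h1 : x ∈ U ∩ (fun x => f x - y) ⁻¹' {0} := ⟨hx.1.1, hx.2⟩
        rw [hs, Finset.coe_insert] at h1
        rcases h1 with rfl | h1
        · exact absurd (Metric.mem_closedBall_self hr.le) hx.1.2
        · exact h1
      · intro hx
        have h1 : x ∈ U ∩ (fun x => f x - y) ⁻¹' {0} := by
          rw [hs, Finset.coe_insert]
          exact Or.inr hx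
        exact ⟨⟨h1.1, fun h => (hsub h).2 hx⟩, h1.2⟩
    have hsubU : Metric.ball a r ∪ (U \ Metric.closedBall a r) ⊆ U :=
      union_subset (fun x hx => (hB hx).1) fun x hx => hx.1
    have hz : U ∩ (fun x => f x - y) ⁻¹' {0} ⊆ Metric.ball a r ∪ (U \ Metric.closedBall a r) := by
      intro x hx
      rw [hs, Finset.coe_insert] at hx
      rcases hx with rfl | hx
      · exact Or.inl (Metric.mem_ball_self hr)
      · rw [← hs₂] at hx
        exact Or.inr hx.1
    have ho := Metric.isOpen_ball.union hW₂ (s₁ := Metric.ball a r)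
    rw [← D.excise _ U _ hA ho hsubU hz, D.add _ _ _ (hA.mono ho hsubU hz) Metric.isOpen_ball hW₂
      (disjoint_left.2 fun x hx hx' => hx'.2 (Metric.ball_subset_closedBall hx))]
    refine dvd_add ?_ (ih _ hW₂ hs₂ fun x hx => hdet x (Finset.mem_insert_of_mem hx))
    obtain ⟨ε, -, h1, -⟩ := D.homeo g (Metric.ball a r) Metric.isOpen_ball (convex_ball a r).isPreconnected
      fun x hx => (hB hx).2
    have hgo : IsOpen (g '' Metric.ball a r) :=
      g.isOpen_image_of_subset_source Metric.isOpen_ball fun x hx => (hB hx).2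
    have h2 := h1 (fun x => x - y) _ subset_rfl Metric.isOpen_ball ⟨hgo, by fun_prop,
      ((finite_singleton y).subset fun x hx => sub_eq_zero.1 hx.2).isCompact⟩
    rw [D.ident y _ hgo ⟨a, Metric.mem_ball_self hr, by rw [hg]; exact sub_eq_zero.1 haU.2⟩, hg] at h2
    exact ⟨ε, h2.trans (mul_comm _ _)⟩

/-- Excise to a relatively compact open `U`, approximate by a `C¹` map `f`, subtract a small regular
value `y` (`interior_crit_image`): finitely many zeros `xᵢ` (compact + discrete), disjoint small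
balls `Bᵢ` inside local homeomorphism domains; `deg (f - y) Bᵢ = deg ((· - y) ∘ g) Bᵢ = ± s0`
by `homeo` and `ident`. -/
theorem DegTh.s0_dvd {φ : R N → R N} {W : Set (R N)} (h : Adm0 φ W) : D.s0 ∣ D.deg φ W := by
  obtain ⟨U, hU, hKU, hUW, hUc⟩ := exists_open_between_and_isCompact_closure h.2.2 h.1 inter_subset_left
  have hφ : ContinuousOn φ (closure U) := h.2.1.mono hUW
  obtain ⟨η, hη, hlb⟩ := (hUc.of_isClosed_subset isClosed_frontier frontier_subset_closure).exists_forall_le'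
    (hφ.mono frontier_subset_closure).norm (a := 0) fun x hx => norm_pos_iff.2 fun h0 => by
      have h1 := hKU ⟨hUW (frontier_subset_closure hx), h0⟩
      rw [hU.frontier_eq] at hx
      exact hx.2 h1
  obtain ⟨f, hf, hfφ⟩ := exists_smooth_approx hUc hφ (half_pos hη)
  obtain ⟨y, hy, hy'⟩ : ∃ y ∈ Metric.ball (0 : R N) (η / 2),
      y ∉ f '' (closure U ∩ {x | (fderiv ℝ f x).det = 0}) := by
    by_contra hcon
    push Not at hcon
    have h1 := interior_maximal hcon Metric.isOpen_ball (Metric.mem_ball_self (half_pos hη))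
    rw [(interior_crit_image hf hUc).2] at h1
    exact h1
  have hc : Continuous fun x => f x - y := hf.continuous.sub continuous_const
  have hfr : ∀ τ ∈ Icc (0 : ℝ) 1, ∀ x ∈ frontier U, (1 - τ) • φ x + τ • (f x - y) ≠ 0 := by
    intro τ hτ x hx h0
    have h1 : φ x = τ • (y - (f x - φ x)) := by
      rw [← sub_eq_zero, ← h0]
      module
    have h2 := hlb x hx
    have h3 := hfφ x (frontier_subset_closure hx)
    have h4 : ‖y‖ < η / 2 := by simpa using hy
    have h5 : ‖φ x‖ ≤ ‖y - (f x - φ x)‖ := by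
      conv_lhs => rw [h1, norm_smul, Real.norm_of_nonneg hτ.1]
      exact mul_le_of_le_one_left (norm_nonneg _) hτ.2
    have h6 := norm_sub_le y (f x - φ x)
    linarith
  rw [← D.excise φ W U h hU (subset_closure.trans hUW) hKU, D.homot_frontier hU hUc hφ hc.continuousOn hfr]
  have hA := adm0_of_frontier hU hUc hc.continuousOn fun x hx => by simpa using hfr 1 ⟨zero_le_one, le_rfl⟩ x hx
  have hdet : ∀ x ∈ U ∩ (fun x => f x - y) ⁻¹' {0}, (fderiv ℝ f x).det ≠ 0 := fun x hx h0 =>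
    hy' ⟨x, ⟨subset_closure hx.1, h0⟩, sub_eq_zero.1 hx.2⟩
  have hfin : (U ∩ (fun x => f x - y) ⁻¹' {0}).Finite := by
    have : Nonempty (OpenPartialHomeomorph (R N) (R N)) := ⟨OpenPartialHomeomorph.refl _⟩
    choose! g hg1 hg2 using fun x hx => exists_local_homeo hf (hdet x hx)
    obtain ⟨t, ht, hcov⟩ := hA.2.2.elim_nhds_subcover (fun x => (g x).source)
      fun x hx => (g x).open_source.mem_nhds (hg1 x hx)
    refine t.finite_toSet.subset fun z hz => ?_
    obtain ⟨x, hx, hzx⟩ := mem_iUnion₂.1 (hcov hz)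
    have h1 : z = x := (g x).injOn hzx (hg1 x (ht x hx)) (by
      rw [hg2 x (ht x hx), sub_eq_zero.1 hz.2, sub_eq_zero.1 (ht x hx).2])
    exact h1 ▸ hx
  exact D.s0_dvd_finite hf y hfin.toFinset U hU hfin.coe_toFinset.symm
    fun x hx => hdet x (hfin.mem_toFinset.1 hx)

end Crest.Agent.R217
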