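import Crest.Agent.R217.Main

/-! # R217 / FixPt : existence of fixed points in fibres, any finite-dimensional normed space -/

set_option autoImplicit false
open Set Topology Filter

namespace Crest.Agent.R217

/-- the fixed point property of the normed space `V` -/
def FixProp (V : Type*) [NormedAddCommGroup V] [NormedSpace ℝ V] : Prop :=
  ∀ (p : ℕ) [Fact p.Prime] (X₀ : Set V) (act : ℤ_[p] → V → V), Act p X₀ act → IsPreconnected X₀ →
    Ori X₀ (act 1) → ∀ (U : Set V) (y : V) (ψ φ : V → V), IsOpen U → IsCompact (closure U) →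
    closure U ⊆ X₀ → Inv act U → y ∈ U → ContinuousOn ψ (closure U) →
    ContinuousOn φ (closure U) → (∀ a, ∀ x ∈ closure U, φ (act a x) = φ x) →
    (∀ τ ∈ Icc (0 : ℝ) 1, ∀ x ∈ frontier U, (1 - τ) • (x - y) + τ • ψ x ≠ 0) →
    (∀ τ ∈ Icc (0 : ℝ) 1, ∀ x ∈ frontier U, (1 - τ) • ψ x + τ • φ x ≠ 0) →
    ∃ x ∈ U, φ x = 0 ∧ ∀ a, act a x = x

/-- `Act.main`, `homot_frontier` twice, `ident`. -/
theorem fixProp_of_degTh {N : ℕ} (D : DegTh N) : FixProp (R N) := by
  intro p _ X₀ act hA hc hor U y ψ φ hU hUc hUX hI hy hψ hφ hφI h1 h2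
  by_contra hne
  push Not at hne
  have hf : ∀ x ∈ frontier U, φ x ≠ 0 := by
    intro x hx
    have := h2 1 ⟨zero_le_one, le_rfl⟩ x hx
    simpa using this
  have hz : ∀ x ∈ U, φ x = 0 → x ∉ Fx X₀ act 0 := by
    intro x hx h0 hF
    obtain ⟨a, ha⟩ := hne x hx h0
    have := hF.2 a
    rw [pow_zero, one_mul] at this
    exact ha this
  refine hA.main D hc hor hU hUc hUX hI hφ hφI hf hz ?_
  have e1 : D.deg (fun x => x - y) U = D.deg ψ U :=
    D.homot_frontier hU hUc (continuous_id.sub continuous_const).continuousOn hψ h1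
  have e2 : D.deg ψ U = D.deg φ U := D.homot_frontier hU hUc hψ hφ h2
  rw [← e2, ← e1, D.ident y U hU hy]

/-- transport along a continuous linear equivalence (conjugate everything) -/
theorem FixProp.of_equiv {V V' : Type*} [NormedAddCommGroup V] [NormedSpace ℝ V]
    [NormedAddCommGroup V'] [NormedSpace ℝ V'] (e : V ≃L[ℝ] V') (h : FixProp V') : FixProp V := by
  intro p _ X₀ act hA hc hor U y ψ φ hU hUc hUX hI hy hψ hφ hφI h1 h2
  have hcl : ∀ S : Set V, closure (e.symm ⁻¹' S) = e.symm ⁻¹' closure S := fun S =>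
    (e.symm.toHomeomorph.preimage_closure S).symm
  have hfr : ∀ S : Set V, frontier (e.symm ⁻¹' S) = e.symm ⁻¹' frontier S := fun S =>
    (e.symm.toHomeomorph.preimage_frontier S).symm
  have hcp : ∀ S : Set V, IsCompact S → IsCompact (e.symm ⁻¹' S) := fun S hS =>
    e.symm.toHomeomorph.isCompact_preimage.2 hS
  have hA' : Act p (e.symm ⁻¹' X₀) (fun a x => e (act a (e.symm x))) := by
    refine ⟨hA.isOpen.preimage e.symm.continuous, ?_, ?_, ?_, ?_⟩
    · have h0 : ContinuousOn ((fun q : ℤ_[p] × V => act q.1 q.2) ∘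
          (fun q : ℤ_[p] × V' => (q.1, e.symm q.2))) (univ ×ˢ (e.symm ⁻¹' X₀)) := by
        refine hA.cont.comp ?_ ?_
        · exact (continuous_fst.prodMk (e.symm.continuous.comp continuous_snd)).continuousOn
        · intro q hq
          exact ⟨mem_univ _, hq.2⟩
      exact e.continuous.comp_continuousOn h0
    · intro a x hx
      simp only [mem_preimage, ContinuousLinearEquiv.symm_apply_apply]
      exact hA.maps a hx
    · intro x hx
      rw [hA.zero _ hx]; simp
    · intro a b x hx
      rw [hA.add a b _ hx]; simp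
  have hc' : IsPreconnected (e.symm ⁻¹' X₀) := by
    have : e.symm ⁻¹' X₀ = e '' X₀ := by
      ext x; constructor
      · intro hx; exact ⟨e.symm x, hx, by simp⟩
      · rintro ⟨z, hz, rfl⟩; simpa using hz
    rw [this]
    exact hc.image _ e.continuous.continuousOn
  have hor' : Ori (e.symm ⁻¹' X₀) (fun x => e (act 1 (e.symm x))) := by
    obtain ⟨U₀, y₀, ho, hk, hs, hy₀, hh⟩ := hor
    refine ⟨e.symm ⁻¹' U₀, e y₀, ho.preimage e.symm.continuous, ?_, ?_, by simpa using hy₀, ?_⟩
    · rw [hcl]; exact hcp _ hk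
    · rw [hcl]; exact preimage_mono hs
    · intro τ hτ x hx he
      rw [hfr] at hx
      apply hh τ hτ _ hx
      apply e.injective
      rw [← he]; simp
  obtain ⟨x, hx, h0, hfix⟩ := h p (e.symm ⁻¹' X₀) (fun a x => e (act a (e.symm x))) hA' hc' hor'
    (e.symm ⁻¹' U) (e y) (fun x => e (ψ (e.symm x))) (fun x => e (φ (e.symm x)))
    (hU.preimage e.symm.continuous) (by rw [hcl]; exact hcp _ hUc)
    (by rw [hcl]; exact preimage_mono hUX)
    (by
      intro a x hx
      simp only [mem_preimage, ContinuousLinearEquiv.symm_apply_apply]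
      exact hI a hx)
    (by simpa using hy)
    (by
      rw [hcl]
      exact e.continuous.comp_continuousOn
        (hψ.comp e.symm.continuous.continuousOn (fun x hx => hx)))
    (by
      rw [hcl]
      exact e.continuous.comp_continuousOn
        (hφ.comp e.symm.continuous.continuousOn (fun x hx => hx)))
    (by
      intro a x hx
      rw [hcl] at hx
      simp only [ContinuousLinearEquiv.symm_apply_apply]
      rw [hφI a _ hx])
    (by
      intro τ hτ x hx he
      rw [hfr] at hx
      apply h1 τ hτ _ hx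
      apply e.injective
      rw [map_zero, ← he]; simp)
    (by
      intro τ hτ x hx he
      rw [hfr] at hx
      apply h2 τ hτ _ hx
      apply e.injective
      rw [map_zero, ← he]; simp)
  refine ⟨e.symm x, hx, ?_, fun a => ?_⟩
  · apply e.injective
    rw [map_zero]; exact h0
  · apply e.injective
    rw [hfix a]; simp

/-- cross with the trivial action on `V'`: `X₀ ×ˢ univ`, `U ×ˢ ball 0 1`, `(y, 0)`, `ψ × id`,
`φ × id`; `frontier_prod_eq`. -/
theorem FixProp.of_prod {V V' : Type*} [NormedAddCommGroup V] [NormedSpace ℝ V]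
    [NormedAddCommGroup V'] [NormedSpace ℝ V'] [FiniteDimensional ℝ V'] (h : FixProp (V × V')) :
    FixProp V := by
  intro p _ X₀ act hA hc hor U y ψ φ hU hUc hUX hI hy hψ hφ hφI h1 h2
  have : ProperSpace V' := FiniteDimensional.proper_real V'
  set B : Set V' := Metric.ball 0 1 with hB
  have hBc : IsCompact (closure B) :=
    (isCompact_closedBall (0 : V') 1).of_isClosed_subset isClosed_closure
      Metric.closure_ball_subset_closedBall
  have hBf : ∀ v ∈ frontier B, v ≠ 0 := by
    intro v hv h0
    have := Metric.frontier_ball_subset_sphere hv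
    rw [h0] at this
    simp at this
  have h0B : (0 : V') ∈ B := Metric.mem_ball_self one_pos
  have hcomb : ∀ (τ : ℝ) (v : V'), (1 - τ) • v + τ • v = v := by
    intro τ v; rw [← add_smul]; simp
  have hA' : Act p (X₀ ×ˢ (univ : Set V')) (fun a q => (act a q.1, q.2)) := by
    refine ⟨hA.isOpen.prod isOpen_univ, ?_, ?_, ?_, ?_⟩
    · refine ContinuousOn.prodMk ?_ (continuous_snd.comp continuous_snd).continuousOn
      have h0 : ContinuousOn ((fun q : ℤ_[p] × V => act q.1 q.2) ∘
          (fun q : ℤ_[p] × (V × V') => (q.1, q.2.1))) (univ ×ˢ (X₀ ×ˢ (univ : Set V'))) := by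
        refine hA.cont.comp ?_ ?_
        · exact (continuous_fst.prodMk (continuous_fst.comp continuous_snd)).continuousOn
        · intro q hq
          exact ⟨mem_univ _, hq.2.1⟩
      exact h0
    · intro a q hq
      exact ⟨hA.maps a hq.1, mem_univ _⟩
    · intro q hq
      simp only [hA.zero _ hq.1]
    · intro a b q hq
      simp only [hA.add a b _ hq.1]
  have hor' : Ori (X₀ ×ˢ (univ : Set V')) (fun q : V × V' => (act 1 q.1, q.2)) := by
    obtain ⟨U₀, y₀, ho, hk, hs, hy₀, hh⟩ := hor
    refine ⟨U₀ ×ˢ B, (y₀, 0), ho.prod Metric.isOpen_ball, ?_, ?_, ⟨hy₀, h0B⟩, ?_⟩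
    · rw [closure_prod_eq]; exact hk.prod hBc
    · rw [closure_prod_eq]; exact prod_mono hs (subset_univ _)
    · intro τ hτ q hq he
      rw [frontier_prod_eq] at hq
      rcases hq with hq | hq
      · apply hBf _ hq.2
        have := congrArg Prod.snd he
        simpa [hcomb] using this
      · apply hh τ hτ _ hq.1
        have := congrArg Prod.fst he
        simpa using this
  obtain ⟨q, hq, h0, hfix⟩ := h p (X₀ ×ˢ (univ : Set V')) (fun a q => (act a q.1, q.2)) hA'
    (hc.prod isPreconnected_univ) hor' (U ×ˢ B) (y, 0) (fun q => (ψ q.1, q.2))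
    (fun q => (φ q.1, q.2)) (hU.prod Metric.isOpen_ball)
    (by rw [closure_prod_eq]; exact hUc.prod hBc)
    (by rw [closure_prod_eq]; exact prod_mono hUX (subset_univ _))
    (fun a q hq => ⟨hI a hq.1, hq.2⟩) ⟨hy, h0B⟩
    (by
      rw [closure_prod_eq]
      exact (hψ.comp continuous_fst.continuousOn (fun q hq => hq.1)).prodMk
        continuous_snd.continuousOn)
    (by
      rw [closure_prod_eq]
      exact (hφ.comp continuous_fst.continuousOn (fun q hq => hq.1)).prodMk
        continuous_snd.continuousOn)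
    (by
      intro a q hq
      rw [closure_prod_eq] at hq
      simp only [hφI a _ hq.1])
    (by
      intro τ hτ q hq he
      rw [frontier_prod_eq] at hq
      rcases hq with hq | hq
      · apply hBf _ hq.2
        have := congrArg Prod.snd he
        simpa [hcomb] using this
      · apply h1 τ hτ _ hq.1
        have := congrArg Prod.fst he
        simpa using this)
    (by
      intro τ hτ q hq he
      rw [frontier_prod_eq] at hq
      rcases hq with hq | hq
      · apply hBf _ hq.2
        have := congrArg Prod.snd he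
        simpa [hcomb] using this
      · apply h2 τ hτ _ hq.1
        have := congrArg Prod.fst he
        simpa using this)
  exact ⟨q.1, hq.1, congrArg Prod.fst h0, fun a => congrArg Prod.fst (hfix a)⟩

/-- `V × R (n+1) ≃L R (2n+1)` for `n = finrank V` (`ContinuousLinearEquiv.ofFinrankEq`). -/
theorem fixProp_of_odd (h : ∀ m, Nonempty (DegTh (2 * m + 1))) (V : Type*) [NormedAddCommGroup V]
    [NormedSpace ℝ V] [FiniteDimensional ℝ V] : FixProp V := by
  set n := Module.finrank ℝ V with hn
  obtain ⟨D⟩ := h n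
  have e : (V × R (n + 1)) ≃L[ℝ] R (2 * n + 1) := by
    refine ContinuousLinearEquiv.ofFinrankEq ?_
    rw [Module.finrank_prod, ← hn]
    simp
    omega
  exact FixProp.of_prod (FixProp.of_equiv e (fixProp_of_degTh D))

end Crest.Agent.R217
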