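import Crest.Agent.R217.Beta1

/-! # R217 / Germ : the signature only depends on the germ along the frontier -/

set_option autoImplicit false
set_option linter.unusedSectionVars false
open Set Topology Filter

namespace Crest.Agent.R217

variable {m : ℕ} {E : Type*} [AddCommGroup E] [Module ℝ E] [Module ℂ E] [IsScalarTower ℝ ℂ E]
  [FiniteDimensional ℝ E] {b : E →ₗ[ℝ] E →ₗ[ℝ] ℝ} {Ω S : Set (R (2 * m + 1))}
  {T : Tw (R (2 * m + 1)) E} {g : OpenPartialHomeomorph (R (2 * m + 1)) (R (2 * m + 1))}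

namespace Germ

theorem image_inter_interior {n : ℕ} {Ω B : Set (R n)} {g : OpenPartialHomeomorph (R n) (R n)}
    (hΩ : IsOpen Ω) (hsrc : Ω ⊆ g.source) (himg : g '' Ω = Ω) (hB : ∀ x ∈ Ω, g x ∈ B ↔ x ∈ B) :
    g '' (Ω ∩ interior B) = Ω ∩ interior B := by
  apply Subset.antisymm
  · refine subset_inter ((image_mono inter_subset_left).trans himg.subset) ?_
    refine interior_maximal ?_ (g.isOpen_image_of_subset_source (hΩ.inter isOpen_interior)
      (inter_subset_left.trans hsrc))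
    rintro _ ⟨x, hx, rfl⟩
    exact (hB x hx.1).2 (interior_subset hx.2)
  · rintro y ⟨hy, hyB⟩
    obtain ⟨x, hx, rfl⟩ := himg.symm.subset hy
    refine ⟨x, ⟨hx, ?_⟩, rfl⟩
    have ho : IsOpen (Ω ∩ g ⁻¹' interior B) :=
      (g.continuousOn.mono hsrc).isOpen_inter_preimage hΩ isOpen_interior
    refine interior_maximal (s := B) (t := Ω ∩ g ⁻¹' interior B) ?_ ho ⟨hx, hyB⟩
    intro z hz
    exact (hB z hz.1).1 (interior_subset hz.2)

theorem sym_compl {n : ℕ} {Ω S : Set (R n)} {T : Tw (R n) E}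
    {g : OpenPartialHomeomorph (R n) (R n)} (hg : Sym Ω S T g) : Sym Ω Sᶜ T g :=
  ⟨hg.src, hg.img, fun x hx => by simp [hg.cut x hx], hg.tw, hg.conf⟩

theorem Zc_mono {n k : ℕ} {U V : Set (R n)} {T : Tw (R n) E} (h : U ⊆ V) : Zc T k V ≤ Zc T k U :=
  fun _ hx => Van.mono hx h

theorem beta_van_right {U B : Set (R (2 * m + 1))} (x : Co (R (2 * m + 1)) E)
    {y : Co (R (2 * m + 1)) E} (hy : Van (m + 1) U y) : beta b U B T x y = 0 := by
  rw [beta_apply]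
  refine lamO_van fun z hz hzs => ?_
  have h1 := supp_cup b T m (m + 1) x (dT T (hm B y))
  rw [show m + (m + 1) + 1 = 2 * m + 1 + 1 by ring] at h1
  exact hy z hz (supp_hm _ _ _ (supp_dT _ _ _ (h1 hzs).2)).1

/-- the isotropic subspaces -/
def JJ (m : ℕ) (T : Tw (R (2 * m + 1)) E) (U B : Set (R (2 * m + 1))) :
    Submodule ℝ (Co (R (2 * m + 1)) E) where
  carrier := {w | w ∈ Zc T m U ∧ IsCompact (supp (m + 1) (hm B w) ∩ U)}
  add_mem' {v w} hv hw := by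
    refine ⟨add_mem hv.1 hw.1, isCompact_supp_inter (hv.2.union hw.2)
      (union_subset inter_subset_right inter_subset_right) ?_⟩
    rw [map_add]
    rintro z ⟨hz, hzU⟩
    exact (supp_add _ _ _ hz).imp (fun h => ⟨h, hzU⟩) (fun h => ⟨h, hzU⟩)
  zero_mem' := ⟨zero_mem _, by simp [supp_zero]⟩
  smul_mem' c w hw := by
    refine ⟨Submodule.smul_mem _ c hw.1, isCompact_supp_inter hw.2 inter_subset_right ?_⟩
    rw [map_smul]
    exact inter_subset_inter_left _ (supp_smul _ _ _)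

theorem JJ_smul {U B : Set (R (2 * m + 1))}
    (hT : ∀ x y (c : ℂ) e, T x y (c • e) = c • T x y e) (c : ℂ) :
    ∀ w ∈ JJ m T U B, c • w ∈ JJ m T U B := by
  intro w hw
  refine ⟨?_, isCompact_supp_inter hw.2 inter_subset_right ?_⟩
  · rw [mem_Zc, dT_smul_complex hT]
    exact fun z hz hzs => hw.1 z hz (supp_smul_complex _ _ _ hzs)
  · rw [hm_smul_complex]
    exact inter_subset_inter_left _ (supp_smul_complex _ _ _)

theorem JJ_pb {U B : Set (R (2 * m + 1))} (hg : Sym Ω B T g) (hU : IsOpen U) (hUΩ : U ⊆ Ω)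
    (hi : g '' U = U) : ∀ w ∈ JJ m T U B, pb g w ∈ JJ m T U B := by
  intro w hw
  refine ⟨hg.pb_mem hU hUΩ (fun x hx => hi.subset (mem_image_of_mem _ hx)) hw.1, ?_⟩
  have h1 : Van (m + 1) U (hm B (pb g w) - hm (g ⁻¹' B) (pb g w)) :=
    van_hm_congr _ hU (fun x hx => (hg.cut x (hUΩ hx)).symm) _
  rw [h1.supp_eq, ← pb_hm]
  exact isCompact_supp_pb g hU (hUΩ.trans hg.src) (by rw [hi]; exact hw.2)

theorem JJ_orth {B Ω' U : Set (R (2 * m + 1))} (h : Cut b U B T) (hs : Ω' ⊆ U)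
    (hf : frontier B ∩ U ⊆ Ω') {x w : Co (R (2 * m + 1)) E} (hx : x ∈ Zc T m U)
    (hw : w ∈ JJ m T U B) : beta b Ω' B T x w = 0 := by
  rw [h.beta_mono hs hf x hw.1, beta_apply]
  refine h.lam_cup_dT hx ?_
  rw [inter_assoc]
  exact hw.2.inter_left (isClosed_supp _ _)

theorem mem_JJ {B Ω' : Set (R (2 * m + 1))} (hs : Ω' ⊆ Ω) (hf : frontier B ∩ Ω ⊆ Ω')
    {y z : Co (R (2 * m + 1)) E} (hz : IsCompact (supp (m + 1) z ∩ Ω))
    (h1 : Van (m + 2) Ω' (dT T (hm Bᶜ y - z))) (h2 : Van (m + 2) (Ω ∩ interior B) (dT T z)) :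
    hm Bᶜ y - z ∈ JJ m T (Ω' ∪ Ω ∩ interior B) B := by
  refine ⟨Van.union h1 ?_, ?_⟩
  · rw [map_sub]
    refine Van.sub (Van.dT (fun x hx hxs => ?_) T) h2
    have := (supp_hm _ _ _ hxs).2
    rw [closure_compl] at this
    exact this hx.2
  · refine isCompact_supp_inter (K := supp (m + 1) z ∩ Ω ∩ closure B)
      (hz.inter_right isClosed_closure) ?_ ?_
    · rintro x ⟨⟨-, hx⟩, hxB⟩
      by_cases hi : x ∈ interior B
      · exact Or.inr ⟨hx, hi⟩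
      · exact Or.inl (hf ⟨⟨hxB, hi⟩, hx⟩)
    · rintro x ⟨hx, hxU⟩
      rw [map_sub, hm_hm, inter_compl_self] at hx
      rcases supp_sub _ _ _ hx with h | h
      · simpa using (supp_hm _ _ _ h).2
      · exact ⟨⟨(supp_hm _ _ _ h).1, hxU.elim (fun h => hs h) (fun h => h.1)⟩, (supp_hm _ _ _ h).2⟩

end Germ

open _root_.Crest.Agent.R217.Germ in

/-- `HF.sg_restrict` with `Z = Zc T m Ω ≤ Z' = Zc T m Ω'`.  For a set `A ∈ {S, Sᶜ}` let
`Ω_A = Ω' ∪ (Ω ∩ interior Aᶜ)` and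
`J A = {w | ∃ w' ∈ Zc T m Ω_A, Van (m+1) Ω' (w - w') ∧ ∃ K compact ⊆ Ω_A,
  supp (m+1) w' ∩ Ω_A ⊆ K ∪ interior A}` (a complex, `pb g`-invariant submodule of `Z'`; `g` maps
`Ω_A` onto itself).  For `x ∈ Zc T m Ω_A` and `w ∈ J A`: `β' x w = 0`, because
`hm Aᶜ w'` has support in `K` on `Ω_A` (`lam_cup_dT` on `Ω_A`, `beta_mono`, `beta_compl`); this gives
isotropy and orthogonality to `Z`.  If `y ∈ Z'` is orthogonal to `Z`, cut `δ(1_S y)` from `Ω'` to a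
global cocycle `u` supported in `frontier S ∩ Ω` (`exists_cut`), `pd` on `Ω` (`p = m`, `q = m+1`)
gives `z` with `u = δ z` on `Ω`.  `w₁ = hm S y - z ∈ J S` (with `w₁' = hm (S ∩ Ω')`-version: on
`Ω ∩ interior Sᶜ` it is `-z`; `K = (frontier S ∩ Ω) ∪ (supp z ∩ Ω \ interior S)`), and
`w₂ = hm Sᶜ y + z ∈ J Sᶜ`; `y = w₁ + w₂` on `Ω'`. -/
theorem Cut.sE_mono (hb : HB m b) (h : Cut b Ω S T) (hg : Sym Ω S T g) {Ω' : Set (R (2 * m + 1))}
    (hΩ' : IsOpen Ω') (hs : Ω' ⊆ Ω) (hf : frontier S ∩ Ω ⊆ Ω') (hi : g '' Ω' = Ω') (ζ : ℂ) :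
    sE b Ω' S T g ζ = sE b Ω S T g ζ := by
  have h' : Cut b Ω' S T := h.mono hΩ' hs hf
  have hg' : Sym Ω' S T g := hg.mono h.isOpen hΩ' hs hi
  have hfc : frontier Sᶜ ∩ Ω ⊆ Ω' := by rwa [frontier_compl]
  have hUo : ∀ B : Set (R (2 * m + 1)), IsOpen (Ω' ∪ Ω ∩ interior B) := fun B =>
    hΩ'.union (h.isOpen.inter isOpen_interior)
  have hUs : ∀ B : Set (R (2 * m + 1)), Ω' ∪ Ω ∩ interior B ⊆ Ω := fun B =>
    union_subset hs inter_subset_left
  have hUi : ∀ B : Set (R (2 * m + 1)), Sym Ω B T g →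
      g '' (Ω' ∪ Ω ∩ interior B) = Ω' ∪ Ω ∩ interior B := fun B hB => by
    rw [image_union, hi, image_inter_interior h.isOpen hB.src hB.img hB.cut]
  have hJ : ∀ B : Set (R (2 * m + 1)), JJ m T (Ω' ∪ Ω ∩ interior B) B ≤ Zc T m Ω' :=
    fun B w hw => Zc_mono subset_union_left hw.1
  have hO : ∀ B : Set (R (2 * m + 1)), Cut b Ω B T → frontier B ∩ Ω ⊆ Ω' →
      ∀ x ∈ Zc T m (Ω' ∪ Ω ∩ interior B), ∀ w ∈ JJ m T (Ω' ∪ Ω ∩ interior B) B,
        beta b Ω' B T x w = 0 := fun B hB hfB x hx w hw =>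
    JJ_orth (hB.mono (hUo B) (hUs B) (hfB.trans subset_union_left)) subset_union_left
      ((inter_subset_inter_right _ (hUs B)).trans hfB) hx hw
  have hO2 := hO S h hf
  have hO1 : ∀ x ∈ Zc T m (Ω' ∪ Ω ∩ interior Sᶜ), ∀ w ∈ JJ m T (Ω' ∪ Ω ∩ interior Sᶜ) Sᶜ,
      beta b Ω' S T x w = 0 := fun x hx w hw => by
    have := hO Sᶜ h.compl hfc x hx w hw
    rwa [h'.beta_compl x (hJ _ hw), neg_eq_zero] at this
  refine HF.sg_restrict (J₁ := JJ m T (Ω' ∪ Ω ∩ interior Sᶜ) Sᶜ)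
    (J₂ := JJ m T (Ω' ∪ Ω ∩ interior S) S) (h.hf hb hg) (h'.hf hb hg') (Zc_mono hs)
    (fun x _ y hy => (h.beta_mono hs hf x hy).symm) (hJ _) (hJ _) (JJ_smul h.cplx) (JJ_smul h.cplx)
    (JJ_pb (sym_compl hg) (hUo _) (hUs _) (hUi _ (sym_compl hg)))
    (JJ_pb hg (hUo _) (hUs _) (hUi _ hg)) (fun x hx => hO1 x hx.1 x hx) (fun x hx => hO2 x hx.1 x hx)
    (fun x hx w hw => hO1 x (Zc_mono (hUs _) hx) w hw)
    (fun x hx w hw => hO2 x (Zc_mono (hUs _) hx) w hw) ?_ ζ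
  intro y hy hyo
  have hs0 : supp (m + 2) (dT T (hm S y)) ∩ Ω' ⊆ frontier S ∩ Ω := fun x hx =>
    ⟨(supp_dT_hm_cocycle hy S hx).1, hs hx.2⟩
  have hc0 : IsCompact (supp (m + 1 + 1) (dT T (hm S y)) ∩ Ω') :=
    isCompact_supp_inter h.cpt hf hs0
  obtain ⟨u, hu1, hu2, hu3⟩ := exists_cut hΩ' hc0
  have hu4 : u ∈ Zc T (m + 1) Ω := Zc_mono (subset_univ _) ((hu3 0).2 T (h'.flat.dT_dT _ _))
  have hu5 : supp (m + 1 + 1) u ⊆ frontier S ∩ Ω := by rw [hu1]; exact hs0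
  have hu6 : IsCompact (supp (m + 1 + 1) u ∩ Ω) :=
    isCompact_supp_inter h.cpt inter_subset_right (inter_subset_left.trans hu5)
  obtain ⟨z, hz1, hz2⟩ := pd h.isOpen h.flat hb.nondeg h.compat (p := m) (q := m + 1) (by ring)
    hu4 hu6 (fun x hx => by
      have h1 := supp_cup b T m (m + 1) x u
      have h2 := supp_cup b T m (m + 1) x (dT T (hm S y) - u)
      rw [show m + (m + 1) + 1 = 2 * m + 1 + 1 by ring] at h1 h2
      have h3 : supp (2 * m + 1 + 1) (cup b T m x u) ∩ Ω ⊆ frontier S ∩ Ω := fun z hz =>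
        hu5 (h1 hz.1).2
      rw [← lamO_mono h.isOpen hs (isCompact_supp_inter h.cpt inter_subset_right h3) (h3.trans hf),
        ← hyo x hx, beta_apply]
      refine (lamO_congr ?_).symm
      rw [← map_sub]
      exact fun z hz hzs => hu2 z hz (h2 hzs).2)
  have hz3 : ∀ B : Set (R (2 * m + 1)), frontier B = frontier S →
      Van (m + 2) (Ω ∩ interior B) (dT T z) := by
    intro B hB
    have h1 : Van (m + 2) (Ω ∩ interior B) u := fun x hx hxs => by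
      have := (hu5 hxs).1
      rw [← hB] at this
      exact this.2 hx.2
    have h2 := h1.sub (hz2.mono inter_subset_left)
    rwa [sub_sub_cancel] at h2
  have hz4 : Van (m + 2) Ω' (dT T (hm S y) - dT T z) := hu2.trans (hz2.mono hs)
  refine ⟨hm S y - z, ?_, hm Sᶜ y - -z, ?_, fun x _ => beta_van_right x ?_⟩
  · have := mem_JJ (T := T) (B := Sᶜ) (y := y) hs hfc hz1 (by rw [compl_compl, map_sub]; exact hz4)
      (hz3 _ (frontier_compl S))
    rwa [compl_compl] at this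
  · refine mem_JJ hs hf (by rwa [supp_neg]) ?_ (by rw [map_neg]; exact (hz3 S rfl).neg)
    have h1 := (van_hm_compl m S Ω' y).dT T
    have h2 := (Van.sub (show Van (m + 2) Ω' (dT T y) from hy) h1).sub hz4
    convert h2 using 1
    simp only [map_sub, map_add, map_neg]
    abel
  · convert van_hm_compl m S Ω' y using 1
    abel

theorem Cut.sT_mono (hb : HB m b) (h : Cut b Ω S T) {Ω' : Set (R (2 * m + 1))}
    (hΩ' : IsOpen Ω') (hs : Ω' ⊆ Ω) (hf : frontier S ∩ Ω ⊆ Ω') : sT b Ω' S T = sT b Ω S T := by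
  rw [← sE_refl, ← sE_refl]
  exact h.sE_mono hb (sym_refl _ _ _) hΩ' hs hf (by simp) 1

end Crest.Agent.R217
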