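import Crest.Agent.R217.Basic

/-! # R217 / Glue : splitting and gluing of cochains on a metric space -/

set_option autoImplicit false
open Set Topology Filter

namespace Crest.Agent.R217

variable {X : Type*} [MetricSpace X] {E : Type*} [AddCommGroup E] [Module ℝ E]

theorem Glue.van_congr {k : ℕ} {U : Set X} {f g : Co X E} (h : Van k U f)
    (e : ∀ l : List X, l.length = k → g l = f l) : Van k U g := by
  intro z hz
  obtain ⟨W, hW, h1⟩ := not_mem_supp.1 (h z hz)
  exact not_mem_supp.2 ⟨W, hW, fun l k1 k2 => (e l k1).trans (h1 l k1 k2)⟩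

theorem Glue.van_zero_of {U V : Set X} (hU : U.Nonempty) {f : Co X E} (h : Van 0 U f) :
    Van 0 V f := by
  obtain ⟨z, hz⟩ := hU
  obtain ⟨W, -, h1⟩ := not_mem_supp.1 (h z hz)
  refine fun y _ => not_mem_supp.2 ⟨univ, univ_mem, fun l k1 _ => ?_⟩
  obtain rfl := List.length_eq_zero_iff.1 k1
  exact h1 [] rfl (by simp)

theorem Glue.van_zero (k : ℕ) (U : Set X) : Van k U (0 : Co X E) := fun z _ => by simp [supp_zero]

/-- two closed sets `A`, `B`: a set `S` with `A \ B ⊆ interior S`, `B \ A ⊆ interior Sᶜ`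
(`S = {x | infEDist x A ≤ infEDist x B}`, `infEDist` is continuous, zero exactly on the closed set) -/
theorem exists_sep {A B : Set X} (hA : IsClosed A) (hB : IsClosed B) :
    ∃ S : Set X, A \ B ⊆ interior S ∧ B \ A ⊆ interior Sᶜ := by
  have key : ∀ {A B : Set X}, IsClosed B →
      A \ B ⊆ {x | Metric.infEDist x A < Metric.infEDist x B} := by
    intro A B hB x hx
    rw [mem_ofPred_eq, Metric.infEDist_zero_of_mem hx.1]
    exact Metric.infEDist_pos_iff_notMem_closure.2 (by rw [hB.closure_eq]; exact hx.2)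
  have ho : ∀ A B : Set X, IsOpen {x | Metric.infEDist x A < Metric.infEDist x B} := fun A B =>
    isOpen_lt Metric.continuous_infEDist Metric.continuous_infEDist
  refine ⟨{x | Metric.infEDist x A ≤ Metric.infEDist x B},
    (key hB).trans (interior_maximal (fun x hx => ?_) (ho A B)),
    (key hA).trans (interior_maximal (fun x hx => ?_) (ho B A))⟩
  · rw [mem_ofPred_eq] at hx ⊢
    exact hx.le
  · rw [mem_ofPred_eq] at hx
    rw [mem_compl_iff, mem_ofPred_eq]
    exact hx.not_ge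

/-- `g = hm S f` with `exists_sep` for `A = Uᶜ`, `B = Vᶜ` -/
theorem van_inter_split {k : ℕ} {U V : Set X} (hU : IsOpen U) (hV : IsOpen V) {f : Co X E}
    (h : Van (k + 1) (U ∩ V) f) : ∃ g, Van (k + 1) U g ∧ Van (k + 1) V (f - g) := by
  obtain ⟨S, h1, h2⟩ := exists_sep hU.isClosed_compl hV.isClosed_compl
  refine ⟨hm S f, fun z hz hs => ?_, fun z hz hs => ?_⟩
  · obtain ⟨k1, k2⟩ := supp_hm _ _ _ hs
    by_cases hzV : z ∈ V
    · exact h z ⟨hz, hzV⟩ k1
    · have := h2 ⟨hzV, not_not.2 hz⟩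
      rw [interior_compl] at this
      exact this k2
  · by_cases hzU : z ∈ U
    · rcases supp_sub _ _ _ hs with k1 | k1
      · exact h z ⟨hzU, hz⟩ k1
      · exact h z ⟨hzU, hz⟩ (supp_hm _ _ _ k1).1
    · exact van_sub_hm k S f z (h1 ⟨hzU, not_not.2 hz⟩) hs

/-- cut a cochain whose support in `Ω` is compact: `u' = hm N u`, `K ⊆ interior N`,
`closure N ⊆ Ω` (thickening) -/
theorem exists_cut {k : ℕ} {Ω : Set X} (hΩ : IsOpen Ω) {u : Co X E}
    (h : IsCompact (supp (k + 1) u ∩ Ω)) :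
    ∃ u', supp (k + 1) u' = supp (k + 1) u ∩ Ω ∧ Van (k + 1) Ω (u - u') ∧
      ∀ j, supp j u' ⊆ supp j u ∧ ∀ T : Tw X E, u ∈ Zc T k Ω → u' ∈ Zc T k univ := by
  obtain ⟨V, hV, hKV, hVΩ⟩ := normal_exists_closure_subset h.isClosed hΩ inter_subset_right
  have h1 : Van (k + 1) V (u - hm V u) := by
    have := van_sub_hm k V u
    rwa [hV.interior_eq] at this
  have h2 : supp (k + 1) (hm V u) ⊆ supp (k + 1) u ∩ Ω := fun z hz =>
    ⟨(supp_hm _ _ _ hz).1, hVΩ (supp_hm _ _ _ hz).2⟩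
  refine ⟨hm V u, Subset.antisymm h2 fun z hz => ?_, fun z hz hs => ?_,
    fun j => ⟨fun z hz => (supp_hm _ _ _ hz).1, fun T hu z _ hs => ?_⟩⟩
  · have : z ∈ supp (k + 1) u ∩ V := ⟨hz.1, hKV hz⟩
    rw [h1.supp_eq] at this
    exact this.1
  · have : z ∈ supp (k + 1) u := (supp_sub _ _ _ hs).elim id fun k1 => (h2 k1).1
    exact h1 z (hKV ⟨this, hz⟩) hs
  · have k1 := h2 (supp_dT _ _ _ hs)
    have k2 := (supp_dT_hm_cocycle hu V ⟨hs, k1.2⟩).1
    rw [hV.frontier_eq] at k2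
    exact k2.2 (hKV k1)

/-- split a compact support along an open cover by two sets (`IsCompact.binary_compact_cover`, then
`exists_sep`) -/
theorem compact_split {k : ℕ} {Ω U V : Set X} (hU : IsOpen U) (hV : IsOpen V) {u : Co X E}
    (h : IsCompact (supp (k + 1) u ∩ Ω)) (hs : supp (k + 1) u ∩ Ω ⊆ U ∪ V) :
    ∃ u₁, IsCompact (supp (k + 1) u₁ ∩ Ω) ∧ supp (k + 1) u₁ ∩ Ω ⊆ U ∧
      IsCompact (supp (k + 1) (u - u₁) ∩ Ω) ∧ supp (k + 1) (u - u₁) ∩ Ω ⊆ V := by
  obtain ⟨S, h1, h2⟩ := exists_sep hV.isClosed_compl hU.isClosed_compl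
  have a1 : supp (k + 1) (hm S u) ⊆ supp (k + 1) u := fun z hz => (supp_hm _ _ _ hz).1
  have a2 : supp (k + 1) (u - hm S u) ⊆ supp (k + 1) u := fun z hz =>
    (supp_sub _ _ _ hz).elim id fun k1 => a1 k1
  refine ⟨hm S u, isCompact_supp_inter h inter_subset_right (inter_subset_inter_left _ a1),
    fun z hz => ?_, isCompact_supp_inter h inter_subset_right (inter_subset_inter_left _ a2),
    fun z hz => ?_⟩
  · by_contra hzU
    have hzV := (hs ⟨a1 hz.1, hz.2⟩).resolve_left hzU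
    have := h2 ⟨hzU, not_not.2 hzV⟩
    rw [interior_compl] at this
    exact this (supp_hm _ _ _ hz.1).2
  · by_contra hzV
    have hzU := (hs ⟨a2 hz.1, hz.2⟩).resolve_right hzV
    exact van_sub_hm k S u z (h1 ⟨hzV, not_not.2 hzU⟩) hz.1

/-- `g l = f (i (head l) + 1) l` with `i x = min {i | x ∈ P i}`; near `z` with `i z = i₀` only
`i₀ - 1, i₀` occur -/
theorem seq_glue {k : ℕ} {P : ℕ → Set X} (hP : ∀ i, IsOpen (P i))
    (hc : ∀ i, closure (P i) ⊆ P (i + 1)) (f : ℕ → Co X E)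
    (hf : ∀ i, Van (k + 1) (P i) (f (i + 1) - f i)) : ∃ g, ∀ i, Van (k + 1) (P i) (g - f i) := by
  have hmono : Monotone P := monotone_nat_of_le_succ fun i => subset_closure.trans (hc i)
  let ι : X → ℕ := fun x => sInf {n | x ∈ P n}
  have hι : ∀ {x n}, x ∈ P n → x ∈ P (ι x) ∧ ι x ≤ n := fun hx =>
    ⟨Nat.sInf_mem (s := {n | _ ∈ P n}) ⟨_, hx⟩, Nat.sInf_le hx⟩
  have hch : ∀ i j, i ≤ j → Van (k + 1) (P i) (f j - f i) := by
    intro i j hij
    induction j, hij using Nat.le_induction with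
    | base => rw [sub_self]; exact Glue.van_zero _ _
    | succ j hij ih => exact ((hf j).mono (hmono hij)).trans ih
  refine ⟨fun l => match l with
    | [] => 0
    | x :: l' => f (ι x + 1) (x :: l'), fun i z hz => ?_⟩
  obtain ⟨hz0, hle⟩ := hι hz
  obtain ⟨W₁, hW₁, e₁⟩ := not_mem_supp.1 (hch _ _ hle z hz0)
  obtain ⟨W₂, hW₂, e₂⟩ := not_mem_supp.1 (hf _ z hz0)
  have hW₃ : {x | ι z ≤ ι x + 1} ∩ P (ι z) ∈ 𝓝 z := by
    have hP0 := (hP _).mem_nhds hz0
    rcases Nat.lt_or_ge (ι z) 2 with h2 | h2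
    · filter_upwards [hP0] with x hx using ⟨by simp only [mem_ofPred_eq]; omega, hx⟩
    · have hz' : z ∉ closure (P (ι z - 2)) := fun h => by
        have := (hι (hc _ h)).2
        omega
      filter_upwards [hP0, isClosed_closure.isOpen_compl.mem_nhds hz'] with x hx hx'
      refine ⟨?_, hx⟩
      by_contra hlt
      simp only [mem_ofPred_eq] at hlt
      exact hx' (subset_closure (hmono (show ι x ≤ ι z - 2 by omega) (hι hx).1))
  refine not_mem_supp.2 ⟨_, inter_mem (inter_mem hW₁ hW₂) hW₃, fun l k1 k2 => ?_⟩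
  cases l with
  | nil => simp at k1
  | cons x l =>
    have b1 := e₁ _ k1 fun y hy => (k2 y hy).1.1
    have b2 := e₂ _ k1 fun y hy => (k2 y hy).1.2
    obtain ⟨b3, b4⟩ := (k2 x List.mem_cons_self).2
    have b5 := (hι b4).2
    simp only [mem_ofPred_eq] at b3
    rw [Pi.sub_apply, sub_eq_zero] at b1 b2 ⊢
    show f (ι x + 1) (x :: l) = _
    rcases (show ι x + 1 = ι z ∨ ι x = ι z by omega) with h | h
    · rw [h, b1]
    · rw [h, b2, b1]

/-- Mayer–Vietoris, elementwise: `a - b` is a cocycle on `U ∩ V`, `= dT c`; split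
`a - b - dT c = n_U + n_V`, `w = a - dT c - n_U`. -/
theorem mv_cob {U V : Set X} (hU : IsOpen U) (hV : IsOpen V) {T : Tw X E} (hT : Flat (U ∪ V) T)
    {k : ℕ} (hI : ExT T k (U ∩ V)) {f a b : Co X E} (ha : Van (k + 2) U (f - dT T a))
    (hb : Van (k + 2) V (f - dT T b)) : ∃ w, Van (k + 2) (U ∪ V) (f - dT T w) := by
  have h1 : a - b ∈ Zc T k (U ∩ V) := by
    have := (hb.mono inter_subset_right).sub (ha.mono inter_subset_left)
    rwa [sub_sub_sub_cancel_left, ← map_sub] at this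
  obtain ⟨c, hc⟩ := hI _ h1
  obtain ⟨g, hg, hg'⟩ := van_inter_split hU hV hc
  refine ⟨a - dT T c - g, Van.union ?_ ?_⟩
  · have := (ha.add ((hT.mono subset_union_left).dT_dT _ c)).add (hg.dT T)
    convert this using 1
    simp only [map_sub]
    abel
  · have := hb.sub (hg'.dT T)
    convert this using 1
    simp only [map_sub]
    abel

theorem ExT.union {U V : Set X} (hU : IsOpen U) (hV : IsOpen V) {T : Tw X E}
    (hT : Flat (U ∪ V) T) {k : ℕ} (h₁ : ExT T (k + 1) U) (h₂ : ExT T (k + 1) V)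
    (hI : ExT T k (U ∩ V)) : ExT T (k + 1) (U ∪ V) := by
  intro f hf
  obtain ⟨a, ha⟩ := h₁ f (Van.mono hf subset_union_left)
  obtain ⟨b, hb⟩ := h₂ f (Van.mono hf subset_union_right)
  exact mv_cob hU hV hT hI ha hb

theorem ExT.union_zero {U V : Set X} {T : Tw X E} (h₁ : ExT T 0 U) (h₂ : ExT T 0 V) :
    ExT T 0 (U ∪ V) := by
  intro f hf
  obtain ⟨a, ha⟩ := h₁ f (Van.mono hf subset_union_left)
  obtain ⟨b, hb⟩ := h₂ f (Van.mono hf subset_union_right)
  refine ⟨a, ha.union ?_⟩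
  have := (hb.add (van_one_dT V T b)).sub (van_one_dT V T a)
  rwa [sub_add_cancel] at this

theorem exT_empty (T : Tw X E) (k : ℕ) : ExT T k ∅ := by
  exact fun _ _ => ⟨0, fun _ h => h.elim⟩

theorem ExT.union_disjoint {U V : Set X} (hU : IsOpen U) (hV : IsOpen V) (hd : Disjoint U V)
    {T : Tw X E} (hT : Flat (U ∪ V) T) {k : ℕ} (h₁ : ExT T k U) (h₂ : ExT T k V) :
    ExT T k (U ∪ V) := by
  cases k with
  | zero => exact h₁.union_zero h₂
  | succ k =>
    refine ExT.union hU hV hT h₁ h₂ ?_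
    rw [hd.inter_eq]
    exact exT_empty T k

/-- same argument for the augmented complex (`k = 0, 1` need care: `U ∩ V` is nonempty) -/
theorem AC.union {U V : Set X} (hU : IsOpen U) (hV : IsOpen V) (h₁ : AC E U) (h₂ : AC E V)
    (hI : AC E (U ∩ V)) : AC E (U ∪ V) := by
  refine ⟨h₁.1.mono subset_union_left, fun k f hf => ?_⟩
  obtain ⟨a, ha⟩ := h₁.2 k f (hf.mono subset_union_left)
  obtain ⟨b, hb⟩ := h₂.2 k f (hf.mono subset_union_right)
  cases k with
  | zero => exact ⟨a, Glue.van_zero_of h₁.1 ha⟩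
  | succ k =>
    have h1 : Van (k + 1) (U ∩ V) (dd (a - b)) := by
      have := (hb.mono inter_subset_right).sub (ha.mono inter_subset_left)
      rwa [sub_sub_sub_cancel_left, ← dd_sub] at this
    obtain ⟨c, hc⟩ := hI.2 k _ h1
    obtain ⟨g, hg, hg'⟩ : ∃ g, Van k U g ∧ Van k V (a - b - dd c - g) := by
      cases k with
      | zero => exact ⟨0, Glue.van_zero _ _, by rw [sub_zero]; exact Glue.van_zero_of hI.1 hc⟩
      | succ k => exact van_inter_split hU hV hc
    have hd : ∀ {W : Set X} {g : Co X E}, Van k W g → Van (k + 1) W (dd g) :=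
      fun h z hz h' => h z hz (supp_dd _ _ h')
    refine ⟨a - dd c - g, Van.union ?_ ?_⟩
    · have := ha.add (hd hg)
      convert this using 1
      simp only [dd_sub, dd_dd]
      abel
    · have := hb.sub (hd hg')
      convert this using 1
      simp only [dd_sub, dd_dd]
      abel

theorem AC.exT {U : Set X} (h : AC E U) (k : ℕ) : ExT (T1 X E) (k + 1) U := by
  intro f hf
  obtain ⟨w, hw⟩ := h.2 (k + 2) f (Glue.van_congr hf fun l hl => (dT_T1 f (by omega)).symm)
  exact ⟨w, Glue.van_congr hw fun l hl => by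
    rw [Pi.sub_apply, Pi.sub_apply, dT_T1 w (by omega)]⟩

theorem AC.const {U : Set X} (hU : IsOpen U) (h : AC E U) {f : Co X E}
    (hf : f ∈ Zc (T1 X E) 0 U) : ∃ e : E, ∀ x ∈ U, f [x] = e := by
  obtain ⟨w, hw⟩ := h.2 1 f (Glue.van_congr hf fun l hl => (dT_T1 f (by omega)).symm)
  refine ⟨w [], fun x hx => ?_⟩
  have := (van_one_iff hU).1 hw x hx
  rw [Pi.sub_apply, dd_cons, dd_nil, sub_zero, sub_eq_zero] at this
  exact this

end Crest.Agent.R217
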