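import Mathlib

/-! # R217 / H5, part C : a Lie group structure from one chart at the identity -/

set_option autoImplicit false
open scoped Manifold ContDiff Topology
open Filter Set

namespace Crest.Agent.R217

/-- The translated chart at `a`. -/
noncomputable def h5Chart {G : Type*} [Group G] [TopologicalSpace G] [IsTopologicalGroup G]
    {E : Type*} [TopologicalSpace E] (φ : OpenPartialHomeomorph G E) (a : G) :
    OpenPartialHomeomorph G E :=
  (Homeomorph.mulLeft a⁻¹).toOpenPartialHomeomorph.trans φ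

section
variable {G : Type*} [Group G] [TopologicalSpace G] [IsTopologicalGroup G]
    {E : Type*} [TopologicalSpace E] (φ : OpenPartialHomeomorph G E) (a : G)

theorem h5Chart_apply (g : G) : h5Chart φ a g = φ (a⁻¹ * g) := rfl

theorem h5Chart_symm_apply (x : E) : (h5Chart φ a).symm x = a * φ.symm x := by
  simp [h5Chart, Homeomorph.mulLeft_symm]

theorem h5Chart_source (g : G) : g ∈ (h5Chart φ a).source ↔ a⁻¹ * g ∈ φ.source := by
  simp [h5Chart]

theorem h5Chart_target (x : E) : x ∈ (h5Chart φ a).target ↔ x ∈ φ.target := by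
  simp [h5Chart]

end

/-- The charted space of translated charts. -/
@[reducible] noncomputable def h5Charted {G : Type*} [Group G] [TopologicalSpace G]
    [IsTopologicalGroup G] {E : Type*} [TopologicalSpace E] (φ : OpenPartialHomeomorph G E)
    (h1 : (1 : G) ∈ φ.source) : ChartedSpace E G where
  atlas := range (h5Chart φ)
  chartAt := h5Chart φ
  mem_chart_source a := by rw [h5Chart_source]; simpa using h1
  chart_mem_atlas a := ⟨a, rfl⟩

theorem lie_of_chart_aux {G : Type*} [Group G] [TopologicalSpace G] [IsTopologicalGroup G]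
    {E : Type*} [NormedAddCommGroup E] [NormedSpace ℝ E]
    (φ : OpenPartialHomeomorph G E) (h1 : (1 : G) ∈ φ.source) (ex : E → G) (hex : Continuous ex)
    (hsymm : ∀ x ∈ φ.target, φ.symm x = ex x) (hneg : ∀ x, (ex x)⁻¹ = ex (-x))
    (hsm : ∀ c b : G, ContDiffOn ℝ ∞ (fun p : E × E => φ (c * ex p.1 * b * ex p.2))
      {p : E × E | c * ex p.1 * b * ex p.2 ∈ φ.source}) :
    @LieGroup ℝ _ E _ E _ _ 𝓘(ℝ, E) ∞ G _ _ (h5Charted φ h1) := by
  let := h5Charted φ h1
  have hx0 : φ 1 ∈ φ.target := φ.map_source h1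
  have hex0 : ex (φ 1) = 1 := by rw [← hsymm _ hx0, φ.left_inv h1]
  have hchart : ∀ a : G, chartAt E a = h5Chart φ a := fun _ => rfl
  -- one-variable smoothness
  have hsm1 : ∀ c b : G, ContDiffOn ℝ ∞ (fun x : E => φ (c * ex x * b))
      {x : E | c * ex x * b ∈ φ.source} := by
    intro c b
    have h := (hsm c b).comp (s := {x : E | c * ex x * b ∈ φ.source})
      (f := fun x : E => (x, φ 1)) (by fun_prop) (fun x hx => by simpa [hex0] using hx)
    refine h.congr fun x _ => ?_
    simp [hex0]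
  have hman : IsManifold 𝓘(ℝ, E) ∞ G := by
    refine isManifold_of_contDiffOn _ _ _ ?_
    rintro _ _ ⟨a, rfl⟩ ⟨b, rfl⟩
    have hsub : ∀ x ∈ ((h5Chart φ a).symm ≫ₕ h5Chart φ b).source,
        x ∈ φ.target ∧ b⁻¹ * (a * φ.symm x) ∈ φ.source := by
      intro x hx
      rw [OpenPartialHomeomorph.trans_source] at hx
      obtain ⟨hx1, hx2⟩ := hx
      refine ⟨(h5Chart_target φ a x).mp hx1, ?_⟩
      rw [mem_preimage, h5Chart_source, h5Chart_symm_apply] at hx2
      exact hx2
    simp only [modelWithCornersSelf_coe, modelWithCornersSelf_coe_symm, Function.id_comp,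
      Function.comp_id, preimage_id, range_id, inter_univ]
    refine ((hsm1 (b⁻¹ * a) 1).mono fun x hx => ?_).congr fun x hx => ?_
    · obtain ⟨h1', h2'⟩ := hsub x hx
      rw [hsymm x h1'] at h2'
      simpa [mul_assoc] using h2'
    · obtain ⟨h1', _⟩ := hsub x hx
      rw [OpenPartialHomeomorph.trans_apply, h5Chart_apply, h5Chart_symm_apply, hsymm x h1']
      simp [mul_assoc]
  have htg : φ.target ∈ 𝓝 (φ 1) := φ.open_target.mem_nhds hx0
  refine @LieGroup.mk _ _ _ _ _ _ _ _ _ _ _ _ _ (@ContMDiffMul.mk _ _ _ _ _ _ _ _ _ _ _ _ _ hman ?_) ?_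
  · rintro ⟨a, b⟩
    rw [contMDiffAt_iff]
    refine ⟨by fun_prop, ?_⟩
    rw [extChartAt_prod]
    simp only [extChartAt, OpenPartialHomeomorph.extend, hchart, modelWithCornersSelf_partialEquiv,
      PartialEquiv.trans_refl, modelWithCorners_prod_coe, modelWithCornersSelf_coe,
      PartialEquiv.prod_coe, OpenPartialHomeomorph.toFun_eq_coe, PartialEquiv.prod_symm,
      h5Chart_apply, inv_mul_cancel]
    have hopen : IsOpen {p : E × E | (a * b)⁻¹ * a * ex p.1 * b * ex p.2 ∈ φ.source} :=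
      φ.open_source.preimage (by fun_prop)
    have hmem : (φ 1, φ 1) ∈ {p : E × E | (a * b)⁻¹ * a * ex p.1 * b * ex p.2 ∈ φ.source} := by
      simpa [hex0, mul_assoc] using h1
    have h := (hsm ((a * b)⁻¹ * a) b).contDiffAt (hopen.mem_nhds hmem)
    refine (h.congr_of_eventuallyEq ?_).contDiffWithinAt
    filter_upwards [prod_mem_nhds htg htg] with p hp
    have e1 := hsymm _ hp.1
    have e2 := hsymm _ hp.2
    simp [h5Chart_apply, h5Chart_symm_apply, e1, e2, mul_assoc]
  · intro a
    rw [contMDiffAt_iff]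
    refine ⟨by fun_prop, ?_⟩
    simp only [extChartAt, OpenPartialHomeomorph.extend, hchart, modelWithCornersSelf_partialEquiv,
      PartialEquiv.trans_refl, modelWithCornersSelf_coe,
      OpenPartialHomeomorph.toFun_eq_coe, h5Chart_apply, inv_mul_cancel]
    have hopen : IsOpen {x : E | a * ex x * a⁻¹ ∈ φ.source} :=
      φ.open_source.preimage (by fun_prop)
    have hmem : -φ 1 ∈ {x : E | a * ex x * a⁻¹ ∈ φ.source} := by
      simpa [← hneg, hex0] using h1
    have h := ((hsm1 a a⁻¹).contDiffAt (hopen.mem_nhds hmem)).comp (φ 1)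
      (f := fun x : E => -x) (by fun_prop)
    refine (h.congr_of_eventuallyEq ?_).contDiffWithinAt
    filter_upwards [htg] with x hx
    have e1 := hsymm _ hx
    simp [h5Chart_apply, h5Chart_symm_apply, e1, hneg, mul_assoc]

/-- Charts `g ↦ φ (a⁻¹ * g)` (`(Homeomorph.mulLeft a⁻¹).toOpenPartialHomeomorph.trans φ`),
`chartAt a` = the chart of `a`.  Transition `x ↦ φ (b⁻¹ * a * ex x * 1 * ex 0)` (`ex (φ 1) = 1`;
use the second variable `φ 1`), multiplication in the charts at `a, b, ab'`: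
`(x, y) ↦ φ (c⁻¹ * a * ex x * b * ex y)`, inversion: `(a * ex x)⁻¹ = ex (-x) * a⁻¹`, so
`x ↦ φ (c⁻¹ * ex (-x) * a⁻¹ * ex (φ 1))`.  First build it on `E`, after transporting `φ` along
`E ≃L[ℝ] EuclideanSpace ℝ (Fin (finrank ℝ E))` (`toEuclidean`). -/
theorem lie_of_chart {G : Type*} [Group G] [TopologicalSpace G] [IsTopologicalGroup G]
    {E : Type*} [NormedAddCommGroup E] [NormedSpace ℝ E] [FiniteDimensional ℝ E]
    (φ : OpenPartialHomeomorph G E) (h1 : (1 : G) ∈ φ.source) (ex : E → G) (hex : Continuous ex)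
    (hsymm : ∀ x ∈ φ.target, φ.symm x = ex x) (hneg : ∀ x, (ex x)⁻¹ = ex (-x))
    (hsm : ∀ c b : G, ContDiffOn ℝ ∞ (fun p : E × E => φ (c * ex p.1 * b * ex p.2))
      {p : E × E | c * ex p.1 * b * ex p.2 ∈ φ.source}) :
    ∃ (d : ℕ) (c : ChartedSpace (EuclideanSpace ℝ (Fin d)) G),
      @LieGroup ℝ _ (EuclideanSpace ℝ (Fin d)) _ (EuclideanSpace ℝ (Fin d)) _ _
        𝓘(ℝ, EuclideanSpace ℝ (Fin d)) ∞ G _ _ c := by
  let T : E ≃L[ℝ] EuclideanSpace ℝ (Fin (Module.finrank ℝ E)) := toEuclidean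
  let ψ : OpenPartialHomeomorph G (EuclideanSpace ℝ (Fin (Module.finrank ℝ E))) :=
    φ.transHomeomorph T.toHomeomorph
  have hs : ψ.source = φ.source := rfl
  refine ⟨Module.finrank ℝ E, h5Charted ψ h1, lie_of_chart_aux ψ h1 (fun y => ex (T.symm y))
    (hex.comp T.symm.continuous) (fun y hy => hsymm _ hy) (fun y => by simp [hneg]) ?_⟩
  intro c b
  have h := (hsm c b).comp
    (s := {p : EuclideanSpace ℝ (Fin (Module.finrank ℝ E)) ×
      EuclideanSpace ℝ (Fin (Module.finrank ℝ E)) |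
        c * ex (T.symm p.1) * b * ex (T.symm p.2) ∈ ψ.source})
    (f := fun p => (T.symm p.1, T.symm p.2)) (by fun_prop) (fun p hp => hp)
  exact T.contDiff.comp_contDiffOn h

end Crest.Agent.R217
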