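import Crest.Agent.R217.H5B5
import Crest.Agent.R217.H5Atlas

/-! # R217 / H5, part B6 : `exp` is a local homeomorphism; smoothness of the multiplication -/

set_option autoImplicit false
set_option linter.unusedSectionVars false
open scoped Topology ContDiff Manifold
open Filter Set Asymptotics

namespace Crest.Agent.R217

variable {G V W : Type*} [Group G] [TopologicalSpace G] [NormedAddCommGroup V] [NormedSpace ℝ V]
  [NormedAddCommGroup W] [NormedSpace ℝ W]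

namespace GX

variable (E : GX G V W) [IsTopologicalGroup G] [T2Space G] [CompleteSpace V]
  [FiniteDimensional ℝ W] [CompleteSpace W]

/-- Local surjectivity of `exp`. -/
theorem ex_image_mem_nhds {ρ : ℝ} (hρ : 0 < ρ)
    (hlip : ∀ x y : W, ‖x‖ ≤ ρ → ‖y‖ ≤ ρ → ‖y - x‖ ≤ 2 * ‖E.l (E.ex y) - E.l (E.ex x)‖) :
    E.ex '' Metric.closedBall 0 ρ ∈ 𝓝 (1 : G) := by
  have : ProperSpace W := FiniteDimensional.proper_real W
  by_contra hcon
  have hne : (𝓝 (1 : G) ⊓ 𝓟 (E.ex '' Metric.closedBall 0 ρ)ᶜ).NeBot := by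
    rw [inf_principal_neBot_iff]
    intro U hU
    by_contra h
    rw [not_nonempty_iff_eq_empty, ← disjoint_iff_inter_eq_empty, disjoint_compl_right_iff_subset]
      at h
    exact hcon (mem_of_superset hU h)
  set 𝒰 := Ultrafilter.of (𝓝 (1 : G) ⊓ 𝓟 (E.ex '' Metric.closedBall 0 ρ)ᶜ) with h𝒰
  have hle := Ultrafilter.of_le (𝓝 (1 : G) ⊓ 𝓟 (E.ex '' Metric.closedBall 0 ρ)ᶜ)
  rw [← h𝒰] at hle
  have h1 : Tendsto (fun g : G => ‖E.l g‖) 𝒰 (𝓝 0) :=
    E.tendsto_norm (g := id) (hle.trans inf_le_left)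
  have h2 : ∀ᶠ g in (𝒰 : Filter G), g ∉ E.ex '' Metric.closedBall 0 ρ :=
    (hle.trans inf_le_right) (mem_principal_self _)
  have hmin : ∀ g : G, ∃ x ∈ Metric.closedBall (0 : W) ρ, ∀ y ∈ Metric.closedBall (0 : W) ρ,
      ‖E.l ((E.ex x)⁻¹ * g)‖ ≤ ‖E.l ((E.ex y)⁻¹ * g)‖ := by
    intro g
    obtain ⟨x, hx, hx'⟩ := (isCompact_closedBall (0 : W) ρ).exists_isMinOn
      (f := fun x => ‖E.l ((E.ex x)⁻¹ * g)‖) ⟨0, Metric.mem_closedBall_self hρ.le⟩
      (E.cont.comp (E.continuous_ex.inv.mul continuous_const)).norm.continuousOn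
    exact ⟨x, hx, fun y hy => hx' hy⟩
  choose x hx hxmin using hmin
  set k : G → G := fun g => (E.ex (x g))⁻¹ * g with hk
  have hkg : ∀ g, ‖E.l (k g)‖ ≤ ‖E.l g‖ := fun g => by
    simpa [E.ex_zero] using hxmin g 0 (Metric.mem_closedBall_self hρ.le)
  have hk0 : Tendsto (fun g => ‖E.l (k g)‖) 𝒰 (𝓝 0) :=
    squeeze_zero (fun _ => norm_nonneg _) hkg h1
  have hkpos : ∀ᶠ g in (𝒰 : Filter G), 0 < ‖E.l (k g)‖ := by
    filter_upwards [h2] with g hg
    rw [norm_pos_iff]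
    intro h0
    exact hg ⟨x g, hx g, inv_mul_eq_one.1 (E.eq_one h0)⟩
  have hx0 : Tendsto x 𝒰 (𝓝 0) := by
    rw [tendsto_zero_iff_norm_tendsto_zero]
    refine squeeze_zero (fun _ => norm_nonneg _) (fun g => ?_) (by simpa using h1.const_mul 4)
    have h3 := hlip 0 (x g) (by simpa using hρ.le) (by simpa using hx g)
    rw [sub_zero, E.ex_zero, E.l_one, sub_zero] at h3
    have h4 := hkg g
    rw [hk, E.norm_inv_mul] at h4
    have h5 := norm_sub_norm_le (E.l (E.ex (x g))) (E.l g)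
    rw [norm_sub_rev] at h5
    linarith
  set n : G → ℕ := fun g => ⌈‖E.l (k g)‖⁻¹⌉₊ with hn
  have hn1 : ∀ᶠ g in (𝒰 : Filter G), 1 ≤ (n g : ℝ) * ‖E.l (k g)‖ := by
    filter_upwards [hkpos] with g hg
    rw [← div_le_iff₀ hg, one_div]
    exact Nat.le_ceil _
  have hn2 : ∀ᶠ g in (𝒰 : Filter G), (n g : ℝ) * ‖E.l (k g)‖ ≤ 2 := by
    filter_upwards [hkpos, hk0.eventually (ge_mem_nhds one_pos)] with g hg hg1
    have h3 := (Nat.ceil_lt_add_one (inv_pos.2 hg).le).le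
    calc (n g : ℝ) * ‖E.l (k g)‖ ≤ (‖E.l (k g)‖⁻¹ + 1) * ‖E.l (k g)‖ := by gcongr
      _ = 1 + ‖E.l (k g)‖ := by field_simp
      _ ≤ 2 := by linarith
  have hn3 : Tendsto n 𝒰 atTop := by
    refine tendsto_nat_ceil_atTop.comp (tendsto_inv_nhdsGT_zero.comp ?_)
    exact tendsto_nhdsWithin_iff.2 ⟨hk0, hkpos⟩
  have hn4 : Tendsto (fun g => (n g : ℝ)⁻¹) 𝒰 (𝓝 0) :=
    tendsto_inv_atTop_zero.comp (tendsto_natCast_atTop_atTop.comp hn3)
  obtain ⟨v', X, hX, hv, -⟩ := E.exists_isOP 𝒰 k n hn3 hn2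
  obtain ⟨v, rfl⟩ := E.surj _ _ hX
  obtain ⟨K, hK0, hK⟩ := E.exists_diff ρ
  set y : G → W := fun g => x g + (n g : ℝ)⁻¹ • v with hy
  have hy0 : Tendsto y 𝒰 (𝓝 0) := by simpa using hx0.add (hn4.smul_const v)
  have hP := tendsto_iff_norm_sub_tendsto_zero.1 ((E.contDiff_Psi.continuous.tendsto 0).comp hy0)
  rw [E.Psi_zero] at hP
  have hlim : Tendsto (fun g => ‖(n g : ℝ) • E.l (k g) - E.ι v‖ + ‖E.Psi (y g) - 1‖ * ‖v‖ +
      K ^ 2 * ‖v‖ ^ 2 * (n g : ℝ)⁻¹) 𝒰 (𝓝 0) := by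
    have := ((tendsto_iff_norm_sub_tendsto_zero.1 hv).add (hP.mul_const ‖v‖)).add
      (hn4.const_mul (K ^ 2 * ‖v‖ ^ 2))
    simpa using this
  have hyρ : ∀ᶠ g in (𝒰 : Filter G), ‖y g‖ ≤ ρ := by
    have := hy0.norm
    rw [norm_zero] at this
    exact this.eventually (ge_mem_nhds hρ)
  obtain ⟨g, ⟨⟨ha, hb⟩, hc⟩, hd⟩ := (((hlim.eventually (gt_mem_nhds one_pos)).and hn1).and hyρ).and
    (hn3.eventually_gt_atTop 0) |>.exists
  have hd' : (0 : ℝ) < n g := by exact_mod_cast hd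
  have h3 := hxmin g (y g) (mem_closedBall_zero_iff.2 hc)
  have h4 : (E.ex (y g))⁻¹ * g = ((E.ex (x g))⁻¹ * E.ex (y g))⁻¹ * k g := by
    simp only [hk]; group
  rw [h4, E.norm_inv_mul (_ * _)] at h3
  have h5 := (hK (x g) (y g) hc).2
  have h6 : y g - x g = (n g : ℝ)⁻¹ • v := by simp [hy]
  rw [h6] at h5
  have h7 : (n g : ℝ) • (E.l (k g) - E.l ((E.ex (x g))⁻¹ * E.ex (y g))) =
      ((n g : ℝ) • E.l (k g) - E.ι v) - E.ι ((E.Psi (y g) - 1) v) -
        (n g : ℝ) • (E.l ((E.ex (x g))⁻¹ * E.ex (y g)) - E.ι (E.Psi (y g) ((n g : ℝ)⁻¹ • v))) := by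
    simp only [sub_apply, one_apply_eq_self, map_sub E.ι, map_smul, smul_sub,
      smul_inv_smul₀ hd'.ne']
    abel
  have h8 : (n g : ℝ) * ‖E.l (k g) - E.l ((E.ex (x g))⁻¹ * E.ex (y g))‖ ≤
      ‖(n g : ℝ) • E.l (k g) - E.ι v‖ + ‖E.Psi (y g) - 1‖ * ‖v‖ +
        K ^ 2 * ‖v‖ ^ 2 * (n g : ℝ)⁻¹ := by
    rw [← Real.norm_of_nonneg hd'.le, ← norm_smul, h7, Real.norm_of_nonneg hd'.le]
    refine (norm_sub_le _ _).trans (add_le_add ((norm_sub_le _ _).trans ?_) ?_)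
    · rw [E.norm_ι]
      gcongr
      exact ContinuousLinearMap.le_opNorm _ _
    · rw [norm_smul, Real.norm_of_nonneg hd'.le]
      rw [norm_smul, Real.norm_of_nonneg (inv_pos.2 hd').le] at h5
      calc _ ≤ (n g : ℝ) * (K ^ 2 * ((n g : ℝ)⁻¹ * ‖v‖) ^ 2) := by gcongr
        _ = _ := by field_simp
  have h9 : (n g : ℝ) * ‖E.l (k g)‖ ≤
      (n g : ℝ) * ‖E.l (k g) - E.l ((E.ex (x g))⁻¹ * E.ex (y g))‖ := by gcongr
  linarith

/-- The logarithm chart. -/
theorem exists_chart : ∃ φ : OpenPartialHomeomorph G W, (1 : G) ∈ φ.source ∧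
    (∀ x, φ.symm x = E.ex x) ∧ (∀ g ∈ φ.source, ‖E.Psi (φ g) - 1‖ ≤ 1 / 4) ∧
    ∀ g ∈ φ.source, ∀ h ∈ φ.source, ‖φ h - φ g‖ ≤ 2 * ‖E.l h - E.l g‖ := by
  obtain ⟨ρ, hρ, hP, hlip⟩ := E.exists_rho
  have hnh := E.ex_image_mem_nhds (half_pos hρ)
    (fun x y hx hy => hlip x y (by linarith) (by linarith))
  set S := interior (E.ex '' Metric.ball (0 : W) ρ) with hS
  have h1 : (1 : G) ∈ S := mem_interior_iff_mem_nhds.2
    (mem_of_superset hnh (image_mono (Metric.closedBall_subset_ball (half_lt_self hρ))))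
  have hinj : InjOn E.ex (Metric.ball (0 : W) ρ) := by
    intro x hx y hy hxy
    have := hlip x y (mem_ball_zero_iff.1 hx).le (mem_ball_zero_iff.1 hy).le
    rw [hxy, sub_self, norm_zero, mul_zero, norm_le_zero_iff, sub_eq_zero] at this
    exact this.symm
  set lg := Function.invFunOn E.ex (Metric.ball (0 : W) ρ) with hlg
  have hm : ∀ g ∈ S, lg g ∈ Metric.ball (0 : W) ρ := fun g hg =>
    Function.invFunOn_mem (interior_subset (s := E.ex '' Metric.ball (0 : W) ρ) hg)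
  have he : ∀ g ∈ S, E.ex (lg g) = g := fun g hg =>
    Function.invFunOn_eq (interior_subset (s := E.ex '' Metric.ball (0 : W) ρ) hg)
  have hl : ∀ g ∈ S, ∀ h ∈ S, ‖lg h - lg g‖ ≤ 2 * ‖E.l h - E.l g‖ := by
    intro g hg h hh
    have := hlip (lg g) (lg h) (mem_ball_zero_iff.1 (hm g hg)).le (mem_ball_zero_iff.1 (hm h hh)).le
    rwa [he g hg, he h hh] at this
  refine ⟨{
    toFun := lg
    invFun := E.ex
    source := S
    target := Metric.ball 0 ρ ∩ E.ex ⁻¹' S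
    map_source' := fun g hg => ⟨hm g hg, by rw [mem_preimage, he g hg]; exact hg⟩
    map_target' := fun x hx => hx.2
    left_inv' := he
    right_inv' := fun x hx => hinj (hm _ hx.2) hx.1 (he _ hx.2)
    open_source := isOpen_interior
    open_target := Metric.isOpen_ball.inter (isOpen_interior.preimage E.continuous_ex)
    continuousOn_toFun := fun g hg => ?_
    continuousOn_invFun := E.continuous_ex.continuousOn }, h1, fun _ => rfl,
    fun g hg => hP _ (mem_ball_zero_iff.1 (hm g hg)).le, hl⟩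
  refine tendsto_iff_norm_sub_tendsto_zero.2 ?_
  have h2 := (tendsto_iff_norm_sub_tendsto_zero.1 (E.cont.tendsto g)).const_mul 2
  rw [mul_zero] at h2
  refine squeeze_zero' (Eventually.of_forall fun _ => norm_nonneg _) ?_
    (h2.mono_left nhdsWithin_le_nhds)
  filter_upwards [self_mem_nhdsWithin] with h hh using hl g hg h hh

theorem hasFDerivAt_chart {F : Type*} [NormedAddCommGroup F] [NormedSpace ℝ F]
    (φ : OpenPartialHomeomorph G W) (hsymm : ∀ x, φ.symm x = E.ex x)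
    (hl : ∀ g ∈ φ.source, ∀ h ∈ φ.source, ‖φ h - φ g‖ ≤ 2 * ‖E.l h - E.l g‖)
    {P : F → G} {P' : F →L[ℝ] W} {p : F} (hP : E.HasLD P P' p) (hp : P p ∈ φ.source)
    (hu : IsUnit (E.Psi (φ (P p)))) :
    HasFDerivAt (fun q => φ (P q)) (Ring.inverse (E.Psi (φ (P p))) ∘L P') p := by
  have hev : ∀ᶠ q in 𝓝 p, P q ∈ φ.source := hP.continuousAt (φ.open_source.mem_nhds hp)
  have he : ∀ g ∈ φ.source, E.ex (φ g) = g := fun g hg => by rw [← hsymm, φ.left_inv hg]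
  have h1 : (fun q => φ (P q) - φ (P p)) =O[𝓝 p] fun q => q - p := by
    refine IsBigO.trans (IsBigO.of_bound 2 ?_) hP.isBigO
    filter_upwards [hev] with q hq
    rw [E.norm_inv_mul]
    exact hl _ hp _ hq
  have h2 : Tendsto (fun q => φ (P q)) (𝓝 p) (𝓝 (φ (P p))) :=
    (φ.continuousAt hp).tendsto.comp hP.continuousAt
  have h3 := (IsLittleO.comp_tendsto (E.hasLD_ex (φ (P p))) h2).trans_isBigO h1
  have h4 : (fun q => E.Psi (φ (P p)) (φ (P q) - φ (P p)) - P' (q - p)) =o[𝓝 p] fun q => q - p := by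
    have h5 := (IsLittleO.sub hP h3).norm_left
    rw [← isLittleO_norm_left]
    refine h5.congr' ?_ EventuallyEq.rfl
    filter_upwards [hev] with q hq
    simp only [Function.comp, he _ hq, he _ hp]
    rw [← E.norm_ι, map_sub E.ι]
    congr 1; abel
  rw [hasFDerivAt_iff_isLittleO]
  refine (((Ring.inverse (E.Psi (φ (P p)))).isBigO_comp _ _).trans_isLittleO h4).congr_left
    fun q => ?_
  rw [map_sub, ← mul_apply_eq_comp, Ring.inverse_mul_cancel _ hu]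
  simp

include E in
theorem lie : ∃ (d : ℕ) (c : ChartedSpace (EuclideanSpace ℝ (Fin d)) G),
      @LieGroup ℝ _ (EuclideanSpace ℝ (Fin d)) _ (EuclideanSpace ℝ (Fin d)) _ _
        𝓘(ℝ, EuclideanSpace ℝ (Fin d)) ∞ G _ _ c := by
  obtain ⟨φ, h1, hsymm, hP, hl⟩ := E.exists_chart
  refine lie_of_chart φ h1 E.ex E.continuous_ex (fun x _ => hsymm x) (fun x => (E.ex_neg x).symm)
    fun c b => ?_
  have hunit : ∀ z : W, ‖E.Psi z - 1‖ ≤ 1 / 4 → IsUnit (E.Psi z) := by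
    intro z hz
    have := (Units.oneSub (1 - E.Psi z) (by rw [norm_sub_rev]; linarith)).isUnit
    simpa using this
  refine contDiffOn_of_hasFDerivAt (t := {z | ‖E.Psi z - 1‖ ≤ 1 / 4})
    (Φ := fun pz : (W × W) × W => Ring.inverse (E.Psi pz.2) ∘L
      (E.Ad (E.ex (-pz.1.2)) ∘L (E.Ad b⁻¹ ∘L (E.Psi pz.1.1 ∘L ContinuousLinearMap.fst ℝ W W)) +
        E.Psi pz.1.2 ∘L ContinuousLinearMap.snd ℝ W W)) ?_ ?_ (fun p hp => hP _ hp) ?_
  · refine φ.open_source.preimage (f := fun p : W × W => c * E.ex p.1 * b * E.ex p.2) ?_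
    have := E.continuous_ex
    fun_prop
  · refine ContDiffOn.clm_comp ?_ (ContDiff.contDiffOn ?_)
    · intro pz hpz
      obtain ⟨u, hu⟩ := hunit _ hpz.2
      have h2 : ContDiffAt ℝ ∞ (Ring.inverse : (W →L[ℝ] W) → W →L[ℝ] W) (E.Psi pz.2) :=
        hu ▸ contDiffAt_ringInverse ℝ u
      exact (h2.comp pz (E.contDiff_Psi.comp contDiff_snd).contDiffAt).contDiffWithinAt
    · refine ContDiff.add (ContDiff.clm_comp ?_ (contDiff_const.clm_comp
        (ContDiff.clm_comp ?_ contDiff_const))) (ContDiff.clm_comp ?_ contDiff_const)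
      · exact E.contDiff_Ad_ex.comp (by fun_prop)
      · exact E.contDiff_Psi.comp (by fun_prop)
      · exact E.contDiff_Psi.comp (by fun_prop)
  · intro p hp
    have h2 := (E.hasLD_ex p.1).comp_clm (ContinuousLinearMap.fst ℝ W W) (p := p)
    have h3 := (E.hasLD_ex p.2).comp_clm (ContinuousLinearMap.snd ℝ W W) (p := p)
    have h4 := ((h2.const_mul c).mul (hasLD_const b p)).mul h3
    have h5 := E.hasFDerivAt_chart φ hsymm hl h4 hp (hunit _ (hP _ hp))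
    simpa [E.ex_neg] using h5

end GX

end Crest.Agent.R217
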