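import Crest.Agent.R217.H5A
import Crest.Agent.R217.H5B6

/-! # R217 / H5 : Hilbert's fifth problem for NSS groups (Gleason–Montgomery–Zippin–Yamabe)

SUB-PROJECT (split it into files `Crest/Agent/R217/H5*.lean` and post tasks).
Plan = T. Tao, *Hilbert's fifth problem and related topics*, §1.3–1.5 (recalled):

A. (NSS ⇒ Gleason norm.)  `U₀` open symmetric precompact with closure containing no nontrivial
   subgroup.  Escape norm `‖g‖_{e,U} = inf {1/(n+1) : g,g²,…,gⁿ ∈ U}`; all small `U` give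
   comparable escape norms (compactness + NSS).  `‖g‖_{*,ε} = inf Σ (‖gᵢ‖_e + ε)` over `g = g₁…gₙ`.
   Bootstrap with the convolution `φ = ψ * η` w.r.t. Haar measure (ψ Lipschitz for `‖‖_{*,ε}`,
   η built from the escape time), cocycle identity `∂_{gh} = ∂_g + τ(g) ∂_h`,
   `∂_{gⁿ} φ = n ∂_g φ + Σ ∂_{gⁱ} ∂_g φ` : gives `‖g₁…gₙ‖_e ≤ C Σ ‖gᵢ‖_e`.  Hence a left-invariant
   "weak Gleason" norm `‖‖` (escape property `‖gⁿ‖ ≥ n‖g‖/C` when `n‖g‖ ≤ 1/C`, generates the
   topology); a second convolution gives the commutator estimate `‖[g,h]‖ ≤ C‖g‖‖h‖`.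
B. (Gleason norm ⇒ C^{1,1} local group.)  `L(G)` = continuous homs `ℝ → G`, norm
   `‖φ‖ = lim ‖φ(t)‖/|t|`, sum `lim (φ(t/n)ψ(t/n))ⁿ`; estimates `d(gⁿhⁿ,(gh)ⁿ) ≲ n²‖g‖‖h‖`,
   `d(gⁿ,hⁿ) ~ n d(g,h)`; `L(G)` is a normed space, locally compact (Arzelà–Ascoli) hence finite
   dimensional; `exp φ = φ 1` is bi-Lipschitz near 0 and `exp(ball)` is a neighbourhood of 1
   (take g → 1 outside K = exp(closed ball), h nearest point, k = h⁻¹g, kⁿ-limits give φ ∈ L(G),
   contradiction with minimality).  In exp coordinates `x * y = x + y + O(‖x‖‖y‖)`.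
C. (smoothness.)  `Ad_g : L(G) → L(G)` is linear, continuous hom `G → GL(L)`,
   `Ad_{exp tx} = exp(t ad x)` with `ad` linear; `z(t) = x * (t y)` is differentiable with
   `Φ(ad z) z' = y`, `Φ(a) = ∫₀¹ exp(-s a) ds`; `exp(ad z(t)) = exp(ad x) exp(t ad y)`.  So
   `x * y = x + ∫₀¹ Φ(log(e^{ad x} e^{t ad y}))⁻¹ y dt` is C^∞ near 0 (do it in the Banach algebra
   `C([0,1], L →L L)`, `log` = local inverse of `exp` by the inverse function theorem, or any
   other route).  Atlas: left translates of the exp chart restricted to a small symmetric `W`;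
   transitions / multiplication / inversion are smooth because of smooth `*`, `x⁻¹ = -x`, and
   `g exp(x) g⁻¹ = exp(Ad_g x)`.  Finally transport `L(G) ≃L EuclideanSpace ℝ (Fin d)`.
-/

set_option autoImplicit false
open scoped Manifold ContDiff Topology

namespace Crest.Agent.R217

/-- A locally compact Hausdorff (second countable) group with no small subgroups is a Lie group. -/
theorem lie_of_nss (G : Type*) [Group G] [TopologicalSpace G] [IsTopologicalGroup G] [T2Space G]
    [SecondCountableTopology G] [LocallyCompactSpace G]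
    (h : ∃ U ∈ 𝓝 (1 : G), ∀ H : Subgroup G, (H : Set G) ⊆ U → H = ⊥) :
    ∃ (d : ℕ) (c : ChartedSpace (EuclideanSpace ℝ (Fin d)) G),
      @LieGroup ℝ _ (EuclideanSpace ℝ (Fin d)) _ (EuclideanSpace ℝ (Fin d)) _ _
        𝓘(ℝ, EuclideanSpace ℝ (Fin d)) ∞ G _ _ c := by
  obtain ⟨E⟩ := exists_GE h
  obtain ⟨E'⟩ := E.exists_GF
  have := E'.finiteDimensional
  have : CompleteSpace E'.L := FiniteDimensional.complete ℝ E'.L
  exact E'.toGX.lie

end Crest.Agent.R217
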