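import Crest.Agent.R217.H5Defs

/-! # R217 / H5 : estimates for the convolution `conv μ ψ η x = ∫ ψ y * η (y⁻¹ * x) ∂μ` -/

set_option autoImplicit false
open scoped Topology Pointwise
open Filter Set MeasureTheory

namespace Crest.Agent.R217

variable {G : Type*} [Group G] [MeasurableSpace G] [MeasurableMul G] [MeasurableInv G]
  {μ : Measure G} {ψ η : G → ℝ} {K : Set G}

namespace H5Conv

theorem int_ind (hK : MeasurableSet K) (hμK : μ K ≠ ⊤) (c : ℝ) : Integrable (K.indicator fun _ => c) μ :=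
  (integrable_indicator_iff hK).2 (integrableOn_const hμK)

theorem le_ind {f : G → ℝ} {c : ℝ} (hc : ∀ y ∈ K, |f y| ≤ c) (hf : ∀ y, f y ≠ 0 → y ∈ K) (y : G) :
    ‖f y‖ ≤ K.indicator (fun _ => c) y := by
  by_cases hy : y ∈ K
  · rw [indicator_of_mem hy]
    exact hc y hy
  · rw [indicator_of_notMem hy, not_not.mp (mt (hf y) hy), norm_zero]

theorem abs_int_le (hK : MeasurableSet K) (hμK : μ K ≠ ⊤) {f : G → ℝ} {c : ℝ} (hc : ∀ y ∈ K, |f y| ≤ c)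
    (hf : ∀ y, f y ≠ 0 → y ∈ K) : |∫ y, f y ∂μ| ≤ μ.real K * c := by
  have := norm_integral_le_of_norm_le (int_ind hK hμK c) (Eventually.of_forall (le_ind hc hf))
  rwa [integral_indicator_const _ hK, smul_eq_mul] at this

theorem int_of (hK : MeasurableSet K) (hμK : μ K ≠ ⊤) {f g : G → ℝ} (hf : Measurable f) (hg : Measurable g)
    (hf0 : ∀ x, 0 ≤ f x) (hf1 : ∀ x, f x ≤ 1) (hg0 : ∀ x, 0 ≤ g x) (hg1 : ∀ x, g x ≤ 1)
    (hfK : ∀ y, f y ≠ 0 → y ∈ K) (x : G) : Integrable (fun y => f y * g (y⁻¹ * x)) μ := by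
  refine (int_ind hK hμK 1).mono' (Measurable.aestronglyMeasurable (by fun_prop))
    (Eventually.of_forall (le_ind (fun y _ => ?_) fun y hy => hfK y (left_ne_zero_of_mul hy)))
  rw [abs_of_nonneg (mul_nonneg (hf0 _) (hg0 _))]
  exact mul_le_one₀ (hf1 _) (hg0 _) (hg1 _)

theorem conv_mul [μ.IsMulLeftInvariant] (h x : G) :
    conv μ ψ η (h * x) = ∫ y, ψ (h * y) * η (y⁻¹ * x) ∂μ := by
  unfold conv
  rw [← integral_mul_left_eq_self _ h]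
  simp only [mul_inv_rev, mul_assoc, inv_mul_cancel_left]

theorem diff_eq [μ.IsMulLeftInvariant] (hψ : Measurable ψ) (hη : Measurable η)
    (hψ0 : ∀ x, 0 ≤ ψ x) (hψ1 : ∀ x, ψ x ≤ 1) (hη0 : ∀ x, 0 ≤ η x) (hη1 : ∀ x, η x ≤ 1)
    (hK : MeasurableSet K) (hμK : μ K ≠ ⊤) {h : G} (hψK : ∀ y, ψ y ≠ 0 → y ∈ K)
    (hψK' : ∀ y, ψ (h * y) ≠ 0 → y ∈ K) (x : G) :
    Integrable (fun y => (ψ y - ψ (h * y)) * η (y⁻¹ * x)) μ ∧
      conv μ ψ η x - conv μ ψ η (h * x) = ∫ y, (ψ y - ψ (h * y)) * η (y⁻¹ * x) ∂μ := by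
  have h1 := int_of hK hμK hψ hη hψ0 hψ1 hη0 hη1 hψK x
  have h2 := int_of (f := fun y => ψ (h * y)) hK hμK (by fun_prop) hη (fun _ => hψ0 _) (fun _ => hψ1 _) hη0 hη1
    hψK' x
  simp only [sub_mul]
  refine ⟨h1.sub h2, ?_⟩
  rw [conv_mul, integral_sub h1 h2]
  rfl

theorem supp_diff {h : G} (hψK : ∀ y, ψ y ≠ 0 → y ∈ K) (hψK' : ∀ y, ψ (h * y) ≠ 0 → y ∈ K) {y : G}
    (hy : ψ y - ψ (h * y) ≠ 0) : y ∈ K := by
  by_contra hcon
  exact hy (by rw [not_not.mp (mt (hψK y) hcon), not_not.mp (mt (hψK' y) hcon), sub_zero])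

theorem pow_diff {φ : G → ℝ} {ν : ℝ} {g : G} (h : ∀ x, |φ x - φ (g * x)| ≤ ν) (i : ℕ) (x : G) :
    |φ x - φ (g ^ i * x)| ≤ i * ν := by
  induction i with
  | zero => simp
  | succ i ih =>
    have h1 := h (g ^ i * x)
    rw [pow_succ', mul_assoc, Nat.cast_succ]
    rw [abs_le] at *
    constructor <;> linarith [h1.1, h1.2, ih.1, ih.2]

end H5Conv
open H5Conv

theorem conv_nonneg (hψ0 : ∀ x, 0 ≤ ψ x) (hη0 : ∀ x, 0 ≤ η x) (x : G) : 0 ≤ conv μ ψ η x := by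
  exact integral_nonneg fun y => mul_nonneg (hψ0 _) (hη0 _)

theorem conv_le (hψ0 : ∀ x, 0 ≤ ψ x) (hψ1 : ∀ x, ψ x ≤ 1) (hη0 : ∀ x, 0 ≤ η x)
    (hη1 : ∀ x, η x ≤ 1) (hK : MeasurableSet K) (hμK : μ K ≠ ⊤) (hψK : ∀ y, ψ y ≠ 0 → y ∈ K)
    (x : G) : conv μ ψ η x ≤ μ.real K := by
  have := abs_int_le (μ := μ) hK hμK (f := fun y => ψ y * η (y⁻¹ * x)) (c := 1) (fun y _ => by
    rw [abs_of_nonneg (mul_nonneg (hψ0 _) (hη0 _))]
    exact mul_le_one₀ (hψ1 _) (hη0 _) (hη1 _)) fun y hy => hψK y (left_ne_zero_of_mul hy)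
  rw [mul_one] at this
  exact (le_abs_self _).trans this

theorem conv_ne_zero {x : G} (h : conv μ ψ η x ≠ 0) : ∃ y, ψ y ≠ 0 ∧ η (y⁻¹ * x) ≠ 0 := by
  by_contra hcon
  push Not at hcon
  refine h (integral_eq_zero_of_ae (Eventually.of_forall fun y => ?_))
  by_cases hy : ψ y = 0
  · simp [hy]
  · simp [hcon y hy]

theorem le_conv_one (hψ : Measurable ψ) (hη : Measurable η) (hψ0 : ∀ x, 0 ≤ ψ x)
    (hψ1 : ∀ x, ψ x ≤ 1) (hη0 : ∀ x, 0 ≤ η x) (hη1 : ∀ x, η x ≤ 1) (hK : MeasurableSet K)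
    (hμK : μ K ≠ ⊤) (hψK : ∀ y, ψ y ≠ 0 → y ∈ K) {U : Set G} (hU : MeasurableSet U)
    (hψU : ∀ y ∈ U, ψ y = 1) (hηU : ∀ y ∈ U, η y⁻¹ = 1) : μ.real U ≤ conv μ ψ η 1 := by
  rw [← integral_indicator_one hU]
  refine integral_mono_of_nonneg (Eventually.of_forall fun y => indicator_nonneg (fun _ _ => zero_le_one) y)
    (int_of hK hμK hψ hη hψ0 hψ1 hη0 hη1 hψK 1) (Eventually.of_forall fun y => ?_)
  by_cases hy : y ∈ U
  · simp [indicator_of_mem hy, hψU y hy, hηU y hy]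
  · simp only [indicator_of_notMem hy]
    exact mul_nonneg (hψ0 _) (hη0 _)

/-- `conv (h * x) = ∫ ψ (h * y) * η (y⁻¹ * x)` by left invariance (`integral_mul_left_eq_self`). -/
theorem conv_diff [μ.IsMulLeftInvariant] (hψ : Measurable ψ) (hη : Measurable η)
    (hψ0 : ∀ x, 0 ≤ ψ x) (hψ1 : ∀ x, ψ x ≤ 1) (hη0 : ∀ x, 0 ≤ η x) (hη1 : ∀ x, η x ≤ 1)
    (hK : MeasurableSet K) (hμK : μ K ≠ ⊤) {h : G} (hψK : ∀ y, ψ y ≠ 0 → y ∈ K)
    (hψK' : ∀ y, ψ (h * y) ≠ 0 → y ∈ K) {a : ℝ} (ha : ∀ y, |ψ y - ψ (h * y)| ≤ a) (x : G) :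
    |conv μ ψ η x - conv μ ψ η (h * x)| ≤ μ.real K * a := by
  rw [(diff_eq hψ hη hψ0 hψ1 hη0 hη1 hK hμK hψK hψK' x).2]
  refine abs_int_le hK hμK (fun y _ => ?_) fun y hy => supp_diff hψK hψK' (left_ne_zero_of_mul hy)
  rw [abs_mul, abs_of_nonneg (hη0 _)]
  exact (mul_le_of_le_one_right (abs_nonneg _) (hη1 _)).trans (ha y)

/-- The second difference is `∫ (ψ y - ψ (h * y)) * (η (y⁻¹ * x) - η ((y⁻¹ * g * y) * (y⁻¹ * x)))`. -/
theorem conv_diff2 [μ.IsMulLeftInvariant] (hψ : Measurable ψ) (hη : Measurable η)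
    (hψ0 : ∀ x, 0 ≤ ψ x) (hψ1 : ∀ x, ψ x ≤ 1) (hη0 : ∀ x, 0 ≤ η x) (hη1 : ∀ x, η x ≤ 1)
    (hK : MeasurableSet K) (hμK : μ K ≠ ⊤) {h g : G} (hψK : ∀ y, ψ y ≠ 0 → y ∈ K)
    (hψK' : ∀ y, ψ (h * y) ≠ 0 → y ∈ K) {a b : ℝ} (ha : ∀ y, |ψ y - ψ (h * y)| ≤ a)
    (hb : ∀ y ∈ K, ∀ z, |η z - η (y⁻¹ * g * y * z)| ≤ b) (hb0 : 0 ≤ b) (x : G) :
    |conv μ ψ η x - conv μ ψ η (h * x) - conv μ ψ η (g * x) + conv μ ψ η (h * (g * x))|
      ≤ μ.real K * a * b := by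
  obtain ⟨h1, h2⟩ := diff_eq hψ hη hψ0 hψ1 hη0 hη1 hK hμK hψK hψK' x
  obtain ⟨h3, h4⟩ := diff_eq hψ hη hψ0 hψ1 hη0 hη1 hK hμK hψK hψK' (g * x)
  have e : conv μ ψ η x - conv μ ψ η (h * x) - conv μ ψ η (g * x) + conv μ ψ η (h * (g * x)) =
      ∫ y, (ψ y - ψ (h * y)) * (η (y⁻¹ * x) - η (y⁻¹ * g * y * (y⁻¹ * x))) ∂μ := by
    simp only [mul_sub _ (η _), mul_assoc, mul_inv_cancel_left]
    rw [integral_sub h1 h3, ← h2, ← h4]
    ring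
  rw [e, mul_assoc]
  refine abs_int_le hK hμK (fun y hy => ?_) fun y hy => supp_diff hψK hψK' (left_ne_zero_of_mul hy)
  rw [abs_mul]
  exact mul_le_mul (ha y) (hb y hy _) (abs_nonneg _) ((abs_nonneg _).trans (ha y))

/-- Discrete Taylor formula: `φ x - φ (g ^ n * x) = ∑_{i<n} D (g ^ i * x)`, `D x = φ x - φ (g * x)`,
so `n * |D x| ≤ B + n * κ`. -/
theorem taylor_bound {φ : G → ℝ} {B κ : ℝ} (hφ0 : ∀ x, 0 ≤ φ x) (hφB : ∀ x, φ x ≤ B) {g : G}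
    {n : ℕ} (h : ∀ i < n, ∀ x, |φ x - φ (g * x) - φ (g ^ i * x) + φ (g * (g ^ i * x))| ≤ κ)
    (x : G) : (n : ℝ) * |φ x - φ (g * x)| ≤ B + n * κ := by
  have e : (n : ℝ) * (φ x - φ (g * x)) = (φ x - φ (g ^ n * x)) +
      ∑ i ∈ Finset.range n, (φ x - φ (g * x) - φ (g ^ i * x) + φ (g * (g ^ i * x))) := by
    have h1 := Finset.sum_range_sub' (fun i => φ (g ^ i * x)) n
    simp only [pow_zero, one_mul, pow_succ', mul_assoc] at h1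
    rw [← h1, ← Finset.sum_add_distrib, Finset.sum_congr rfl (g := fun _ => φ x - φ (g * x))
      (fun i _ => by ring), Finset.sum_const, Finset.card_range, nsmul_eq_mul]
  rw [← abs_of_nonneg (Nat.cast_nonneg (α := ℝ) n), ← abs_mul, e, abs_of_nonneg (Nat.cast_nonneg (α := ℝ) n)]
  refine (abs_add_le _ _).trans (add_le_add ?_ ?_)
  · rw [abs_le]
    constructor <;> linarith [hφ0 x, hφB x, hφ0 (g ^ n * x), hφB (g ^ n * x)]
  · refine (Finset.abs_sum_le_sum_abs _ _).trans ?_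
    refine (Finset.sum_le_sum fun i hi => h i (Finset.mem_range.mp hi) x).trans ?_
    rw [Finset.sum_const, Finset.card_range, nsmul_eq_mul]

/-- Telescoping. -/
theorem list_diff_bound {φ : G → ℝ} {ν : G → ℝ} (h : ∀ g x, |φ x - φ (g * x)| ≤ ν g)
    (l : List G) (x : G) : |φ x - φ (l.prod * x)| ≤ (l.map ν).sum := by
  induction l with
  | nil => simp
  | cons g l ih =>
    have h1 := h g (l.prod * x)
    rw [List.prod_cons, List.map_cons, List.sum_cons, mul_assoc]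
    rw [abs_le] at *
    constructor <;> linarith [h1.1, h1.2, ih.1, ih.2]

/-- Lower bound: if `i * (ν / c) < 1` then `|φ 1 - φ (g ^ i)| ≤ i * ν < c ≤ φ 1`, so
`φ (g ^ i) ≠ 0`.  (Unfold `esc`, `csInf_le`.) -/
theorem esc_le_of_diff {φ : G → ℝ} {c ν : ℝ} (hc : 0 < c) (hφ : c ≤ φ 1) {W : Set G}
    (hW : ∀ x, φ x ≠ 0 → x ∈ W) {g : G} (h : ∀ x, |φ x - φ (g * x)| ≤ ν) :
    esc W g ≤ ν / c := by
  have hν : 0 ≤ ν := (abs_nonneg _).trans (h 1)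
  refine csInf_le ⟨0, fun x hx => hx.1⟩ ⟨div_nonneg hν hc.le, fun i hi => hW _ fun h0 => ?_⟩
  have h1 := pow_diff h i 1
  rw [mul_one, h0, sub_zero] at h1
  rw [← mul_div_assoc, div_lt_one hc] at hi
  linarith [le_abs_self (φ 1)]

end Crest.Agent.R217
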