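import Crest.Agent.R217.H5Esc
import Crest.Agent.R217.H5Conv

/-! # R217 / H5, part A : NSS groups have a Gleason embedding -/

set_option autoImplicit false
open scoped Topology Pointwise BoundedContinuousFunction
open Filter Set MeasureTheory

namespace Crest.Agent.R217

variable {G : Type*} [Group G] [TopologicalSpace G] [IsTopologicalGroup G] [T2Space G]
  [SecondCountableTopology G] [LocallyCompactSpace G]

namespace H5A

omit [SecondCountableTopology G] [LocallyCompactSpace G] in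
theorem trap {K₀ : Set G} (hK : IsCompact K₀) (hKs : ∀ x ∈ K₀, x⁻¹ ∈ K₀)
    (hnss : ∀ H : Subgroup G, (H : Set G) ⊆ K₀ → H = ⊥) {U : Set G} (hU : U ∈ 𝓝 (1 : G)) :
    ∃ m : ℕ, ∀ U' : Set G, 1 ∈ U' → U' ⊆ K₀ → ∀ g, esc U g ≤ m * esc U' g := by
  obtain ⟨m, hm⟩ := exists_pow_trap hK hKs hnss hU
  exact ⟨m, fun U' h1 h2 g => esc_le_mul h1 (fun g hg => hm g fun j hj => h2 (hg j hj)) g⟩

omit [TopologicalSpace G] [IsTopologicalGroup G] [T2Space G] [SecondCountableTopology G]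
  [LocallyCompactSpace G] in
theorem subs {U₀ K₀ : Set G} (h1 : (1 : G) ∈ U₀) (hs : ∀ x ∈ U₀, x⁻¹ ∈ U₀) (h4 : U₀ * U₀ * U₀ * U₀ ⊆ K₀) :
    (1 : G) ∈ U₀ * U₀ * U₀ * U₀ ∧ U₀ ⊆ K₀ ∧ U₀ * U₀ ⊆ K₀ ∧ (∀ h ∈ U₀, ∀ y, h * y ∈ U₀ * U₀ → y ∈ K₀) ∧
      ∀ x y : G, y ∈ U₀ * U₀ → y⁻¹ * x ∈ U₀ * U₀ → x ∈ U₀ * U₀ * U₀ * U₀ := by
  refine ⟨?_, fun x hx => h4 ?_, fun x hx => h4 ?_, fun h hh y hy => h4 ?_, fun x y hy hx => ?_⟩
  · simpa using mul_mem_mul (mul_mem_mul (mul_mem_mul h1 h1) h1) h1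
  · simpa using mul_mem_mul (mul_mem_mul (mul_mem_mul hx h1) h1) h1
  · simpa using mul_mem_mul (mul_mem_mul hx h1) h1
  · have := mul_mem_mul (mul_mem_mul h1 (hs h hh)) hy
    rw [← mul_assoc (U₀ * U₀)] at this
    simpa using this
  · have := mul_mem_mul hy hx
    rw [← mul_assoc (U₀ * U₀)] at this
    simpa using this

end H5A
open H5A

/-- Bootstrap step.  Write `e = esc U₀`, `μ` = Haar measure (`borelize G`, `Measure.haar`),
`c = μ.real U₀ > 0`, `B = μ.real K₀`.  `exists_pow_trap` + `esc_le_mul` give `m` with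
`esc U g ≤ m * esc U' g` whenever `U ∈ 𝓝 1`, `1 ∈ U' ⊆ K₀`: take `m` for `(U₀, U₀*U₀*U₀*U₀)`.
Choose `L : ℕ`, `L ≥ 1`, with `m * B / (c * L) ≤ 1/2`; `U₁` from `exists_nhds_list_prod U₀ L`;
`U₂` from `exists_nhds_conj K₀ (U₁ ∩ U₀)`; `m₂` for `(U₂, U₀)`; `C = m * B * m₂ / c`.
Given `M, ε`: `ψ` = `exists_bump` for `w g = M * (e g + ε)` (`∑ w < 1 ⇒ e ∏ < 1 ⇒ ∏ ∈ U₀`),
`η` = `exists_bump` for `w' g = if g ∈ U₁ then 1/L else 1`, `φ = conv μ ψ η`.
For every `g` and `t > esc U₂ g`, `n = ⌈1/t⌉₊`: for `i < n`, `g ^ i ∈ U₂`; `i = 0` is trivial, and for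
`i ≥ 1` also `g ∈ U₂ ⊆ U₀`, so `conv_diff2` with `K = K₀`, `a = w g`, `b = 1/L` and `taylor_bound`
give `|φ x - φ (g * x)| ≤ B * t + B * w g / L`; let `t ↓ esc U₂ g ≤ m₂ * e g`.
`list_diff_bound`, `le_conv_one`, `conv_ne_zero`, `esc_le_of_diff` (`W = U₀*U₀*U₀*U₀`) finish. -/
theorem boot_step {U₀ K₀ : Set G} (ho : IsOpen U₀) (h1 : (1 : G) ∈ U₀)
    (hs : ∀ x ∈ U₀, x⁻¹ ∈ U₀) (hK : IsCompact K₀) (hKs : ∀ x ∈ K₀, x⁻¹ ∈ K₀)
    (h4 : U₀ * U₀ * U₀ * U₀ ⊆ K₀) (hnss : ∀ H : Subgroup G, (H : Set G) ⊆ K₀ → H = ⊥) :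
    ∃ C : ℝ, 0 ≤ C ∧ ∀ M ε : ℝ, 0 ≤ M → 0 ≤ ε →
      (∀ l : List G, esc U₀ l.prod ≤ M * (l.map fun g => esc U₀ g + ε).sum) →
      ∀ l : List G, esc U₀ l.prod ≤ (M / 2 + C) * (l.map fun g => esc U₀ g + ε).sum := by
  classical
  borelize G
  let μ : Measure G := Measure.haar
  obtain ⟨hW1, hUK, hUUK, hmul, hW⟩ := subs h1 hs h4
  have hU₀ : U₀ ∈ 𝓝 (1 : G) := ho.mem_nhds h1
  have hμK : μ K₀ ≠ ⊤ := hK.measure_lt_top.ne
  have hc : 0 < μ.real U₀ := ENNReal.toReal_pos (ho.measure_pos μ ⟨1, h1⟩).ne' (ne_top_of_le_ne_top hμK (μ.mono hUK))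
  set c := μ.real U₀ with hcdef
  set B := μ.real K₀ with hBdef
  have hB : 0 ≤ B := measureReal_nonneg
  obtain ⟨m, hm⟩ := trap hK hKs hnss hU₀
  obtain ⟨L, hL⟩ := exists_nat_ge (2 * (m * B / c) + 1)
  have hL1 : (1 : ℝ) ≤ L := le_trans (by linarith [show 0 ≤ m * B / c by positivity]) hL
  have hL0 : (0 : ℝ) < L := by linarith
  obtain ⟨U₁, hU₁, hU₁s, hU₁p⟩ := exists_nhds_list_prod hU₀ L
  obtain ⟨U₂, hU₂, hU₂s, -, hU₂c⟩ := exists_nhds_conj hK (inter_mem hU₁ hU₀)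
  obtain ⟨m₂, hm₂⟩ := trap hK hKs hnss hU₂
  refine ⟨m * B * m₂ / c, by positivity, fun M ε hM hε H l => ?_⟩
  have he := esc_nonneg U₀
  obtain ⟨ψ, hψ, hψ0, hψ1, hψU, hψs, hψd⟩ := exists_bump ho (w := fun g => M * (esc U₀ g + ε))
    (fun g => mul_nonneg hM (add_nonneg (he g) hε)) (fun g => by rw [esc_inv hs])
    (fun l hl => mem_of_esc_lt_one h1 ((H l).trans_lt (by rwa [List.sum_map_mul_left] at hl)))
  have hw' : ∀ g : G, 1 / (L : ℝ) ≤ if g ∈ U₁ then 1 / (L : ℝ) else 1 := fun g => by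
    split_ifs
    · exact le_rfl
    · exact (div_le_one hL0).mpr hL1
  obtain ⟨η, hη, hη0, hη1, hηU, hηs, hηd⟩ := exists_bump ho (w := fun g => if g ∈ U₁ then 1 / (L : ℝ) else 1)
    (fun g => le_trans (by positivity) (hw' g))
    (fun g => if_congr ⟨fun h => by simpa using hU₁s _ h, hU₁s g⟩ rfl rfl)
    (fun l hl => by
      refine hU₁p l (fun x hx => ?_) ?_
      · by_contra hcon
        have := List.single_le_sum (l := l.map fun g => if g ∈ U₁ then 1 / (L : ℝ) else 1) (fun a ha => by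
          obtain ⟨g, -, rfl⟩ := List.mem_map.mp ha
          exact le_trans (by positivity) (hw' g)) _ (List.mem_map_of_mem hx)
        rw [if_neg hcon] at this
        linarith
      · have := List.card_nsmul_le_sum (l.map fun g => if g ∈ U₁ then 1 / (L : ℝ) else 1) (1 / (L : ℝ))
          (fun a ha => by
            obtain ⟨g, -, rfl⟩ := List.mem_map.mp ha
            exact hw' g)
        rw [List.length_map, nsmul_eq_mul, mul_one_div] at this
        have h2 := (div_lt_one hL0).mp (this.trans_lt hl)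
        exact_mod_cast h2.le)
  have hψK : ∀ y, ψ y ≠ 0 → y ∈ K₀ := fun y hy => hUUK (hψs y hy)
  have hφ0 : ∀ x, 0 ≤ conv μ ψ η x := conv_nonneg hψ0 hη0
  have hφB : ∀ x, conv μ ψ η x ≤ B := conv_le hψ0 hψ1 hη0 hη1 hK.measurableSet hμK hψK
  have key : ∀ g x, |conv μ ψ η x - conv μ ψ η (g * x)| ≤ (B * m₂ + B * M / L) * (esc U₀ g + ε) := by
    intro g x
    have hκ : 0 ≤ B * (M * (esc U₀ g + ε)) * (1 / L) := by
      have := he g
      positivity
    have h2 : ∀ t, esc U₂ g < t →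
        |conv μ ψ η x - conv μ ψ η (g * x)| ≤ B * t + B * (M * (esc U₀ g + ε)) * (1 / L) := by
      intro t ht
      have ht0 : 0 < t := (esc_nonneg _ _).trans_lt ht
      have hpow : ∀ i < ⌈1 / t⌉₊, g ^ i ∈ U₂ := fun i hi => by
        refine pow_mem_of_esc (mem_of_mem_nhds hU₂) (lt_of_le_of_lt (mul_le_mul_of_nonneg_left ht.le
          (Nat.cast_nonneg i)) ?_)
        exact (lt_div_iff₀ ht0).mp (Nat.lt_ceil.mp hi)
      have h3 := taylor_bound hφ0 hφB (g := g) (n := ⌈1 / t⌉₊) (κ := B * (M * (esc U₀ g + ε)) * (1 / L))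
        (fun i hi x => by
          rcases Nat.eq_zero_or_pos i with rfl | hi0
          · simpa using hκ
          · have hg : g ∈ U₀ := by simpa using (hU₂s (hpow 1 (by omega))).2
            refine conv_diff2 hψ hη hψ0 hψ1 hη0 hη1 hK.measurableSet hμK hψK
              (fun y hy => hmul g hg y (hψs _ hy)) (hψd g) (fun y hy z => ?_) (by positivity) x
            have := hηd (y⁻¹ * g ^ i * y) z
            rwa [if_pos (hU₂c y hy _ (hpow i hi)).1] at this) x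
      have hn : 1 ≤ (⌈1 / t⌉₊ : ℝ) * t := (div_le_iff₀ ht0).mp (Nat.le_ceil _)
      have hn0 : (0 : ℝ) < ⌈1 / t⌉₊ := by
        have := Nat.ceil_pos.mpr (one_div_pos.mpr ht0)
        exact_mod_cast this
      refine le_of_mul_le_mul_left (h3.trans ?_) hn0
      nlinarith [mul_le_mul_of_nonneg_left hn hB]
    have h4 : |conv μ ψ η x - conv μ ψ η (g * x)| ≤ B * esc U₂ g + B * (M * (esc U₀ g + ε)) * (1 / L) := by
      refine le_of_forall_pos_le_add fun δ hδ => (h2 (esc U₂ g + δ / (B + 1)) (by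
        linarith [show 0 < δ / (B + 1) by positivity])).trans ?_
      have : B * (δ / (B + 1)) ≤ δ := by
        rw [← mul_div_assoc, div_le_iff₀ (by positivity)]
        nlinarith
      linarith [mul_add B (esc U₂ g) (δ / (B + 1))]
    refine h4.trans ?_
    have h5 : B * esc U₂ g ≤ B * m₂ * (esc U₀ g + ε) := by
      rw [mul_assoc]
      refine mul_le_mul_of_nonneg_left ((hm₂ U₀ h1 hUK g).trans ?_) hB
      exact mul_le_mul_of_nonneg_left (le_add_of_nonneg_right hε) (Nat.cast_nonneg _)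
    rw [add_mul]
    refine add_le_add h5 (le_of_eq ?_)
    ring
  have h6 := esc_le_of_diff hc (le_conv_one hψ hη hψ0 hψ1 hη0 hη1 hK.measurableSet hμK hψK ho.measurableSet hψU
    fun y hy => hηU _ (hs y hy)) (W := U₀ * U₀ * U₀ * U₀) (fun x hx => by
      obtain ⟨y, h1, h2⟩ := conv_ne_zero hx
      exact hW x y (hψs _ h1) (hηs _ h2)) (list_diff_bound key l)
  rw [List.sum_map_mul_left] at h6
  set S := (l.map fun g => esc U₀ g + ε).sum
  have hS : 0 ≤ S := List.sum_nonneg fun a ha => by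
    obtain ⟨g, -, rfl⟩ := List.mem_map.mp ha
    exact add_nonneg (he g) hε
  refine (hm _ hW1 h4 _).trans ((mul_le_mul_of_nonneg_left h6 (Nat.cast_nonneg m)).trans ?_)
  have h7 : m * B / c / L ≤ 1 / 2 := by
    rw [div_le_iff₀ hL0]
    linarith
  calc (m : ℝ) * ((B * m₂ + B * M / L) * S / c) = (M * (m * B / c / L) + m * B * m₂ / c) * S := by ring
    _ ≤ (M * (1 / 2) + m * B * m₂ / c) * S := by gcongr
    _ = _ := by ring

/-- Iterate `boot_step` from `M = 1/ε + 2C` (`M_k = (1/ε)/2^k + 2C`), let `k → ∞`, `ε → 0`. -/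
theorem esc_prod_le {U₀ K₀ : Set G} (ho : IsOpen U₀) (h1 : (1 : G) ∈ U₀)
    (hs : ∀ x ∈ U₀, x⁻¹ ∈ U₀) (hK : IsCompact K₀) (hKs : ∀ x ∈ K₀, x⁻¹ ∈ K₀)
    (h4 : U₀ * U₀ * U₀ * U₀ ⊆ K₀) (hnss : ∀ H : Subgroup G, (H : Set G) ⊆ K₀ → H = ⊥) :
    ∃ C : ℝ, 0 < C ∧ ∀ l : List G, esc U₀ l.prod ≤ C * (l.map (esc U₀)).sum := by
  obtain ⟨C, hC, H⟩ := boot_step ho h1 hs hK hKs h4 hnss
  have he := esc_nonneg U₀
  have hS : ∀ ε : ℝ, 0 ≤ ε → ∀ l : List G, 0 ≤ (l.map fun g => esc U₀ g + ε).sum := fun ε hε l =>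
    List.sum_nonneg fun a ha => by
      obtain ⟨g, -, rfl⟩ := List.mem_map.mp ha
      exact add_nonneg (he g) hε
  have h2 : ∀ ε : ℝ, 0 < ε → ∀ k : ℕ, ∀ l : List G,
      esc U₀ l.prod ≤ (1 / ε * (1 / 2) ^ k + 2 * C) * (l.map fun g => esc U₀ g + ε).sum := by
    intro ε hε k
    induction k with
    | zero =>
      intro l
      cases l with
      | nil => simp [esc_one h1]
      | cons g l =>
        refine (esc_le_one h1 _).trans ?_
        have h3 : ε ≤ ((g :: l).map fun g => esc U₀ g + ε).sum := by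
          rw [List.map_cons, List.sum_cons]
          linarith [he g, hS ε hε.le l]
        calc (1 : ℝ) = (1 / ε * (1 / 2) ^ 0 + 0) * ε := by field_simp; simp
          _ ≤ _ := by gcongr; positivity
    | succ k ih =>
      intro l
      refine (H _ ε (by positivity) hε.le ih l).trans (le_of_eq ?_)
      ring
  have h3 : ∀ ε : ℝ, 0 < ε → ∀ l : List G,
      esc U₀ l.prod ≤ 2 * C * ((l.map (esc U₀)).sum + l.length * ε) := fun ε hε l => by
    have ht : Tendsto (fun k : ℕ => (1 / ε * (1 / 2) ^ k + 2 * C) * (l.map fun g => esc U₀ g + ε).sum) atTop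
        (𝓝 ((1 / ε * 0 + 2 * C) * (l.map fun g => esc U₀ g + ε).sum)) :=
      (((tendsto_pow_atTop_nhds_zero_of_lt_one (by norm_num) (by norm_num)).const_mul _).add_const _).mul_const _
    have := ge_of_tendsto' ht fun k => h2 ε hε k l
    rwa [mul_zero, zero_add, List.sum_map_add, List.map_const', List.sum_replicate, nsmul_eq_mul] at this
  refine ⟨2 * C + 1, by positivity, fun l => ?_⟩
  have ht : Tendsto (fun ε : ℝ => 2 * C * ((l.map (esc U₀)).sum + l.length * ε)) (𝓝[>] 0)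
      (𝓝 (2 * C * ((l.map (esc U₀)).sum + l.length * 0))) :=
    (Continuous.tendsto (by fun_prop) 0).mono_left nhdsWithin_le_nhds
  have h5 := ge_of_tendsto ht (eventually_mem_nhdsWithin.mono fun ε hε => h3 ε hε l)
  have h6 := hS 0 le_rfl l
  simp only [add_zero] at h6
  rw [mul_zero, add_zero] at h5
  have h7 : 0 ≤ (l.map (esc U₀)).sum := h6
  linarith

/-- `V = G →ᵇ ℝ`, `ψ` = `exists_bump` for `w = C * esc U₀` (`C` from `esc_prod_le`),
`φ = conv μ ψ ψ` (bounded by `conv_le`; continuous since `|φ x - φ (h * x)| ≤ μ.real K₀ * w h` for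
`h ∈ U₀` and `esc_tendsto`), `τ g f = f ∘ (g⁻¹ * ·)` (`BoundedContinuousFunction.compContinuousCLM`),
`l g = φ - τ g φ`.  `cont`: `‖l g - l g'‖ = ‖τ g φ - τ g' φ‖ ≤ μ.real K₀ * w (g'⁻¹ * g)` near `g`.
Lower bound `esc (U₀*U₀*U₀*U₀) g⁻¹ ≤ ‖l g‖ / c` (`esc_le_of_diff`) + `esc_le_mul`,
`mem_of_esc_lt_one` give `small`; `second`: `conv_diff2` with the compact set `K₀ ∪ K * K₀`,
`a = w h⁻¹`, `b = C * esc U₂ g⁻¹` (`exists_nhds_conj`, `esc_conj`), both `≲ ‖l ·‖`. -/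
theorem exists_GE (h : ∃ U ∈ 𝓝 (1 : G), ∀ H : Subgroup G, (H : Set G) ⊆ U → H = ⊥) :
    Nonempty (GE G (G →ᵇ ℝ)) := by
  borelize G
  let μ : Measure G := Measure.haar
  obtain ⟨U₀, K₀, ho, h1, hs, hK, hKs, h4, hnss⟩ := exists_U0 h
  obtain ⟨C, hC, H⟩ := esc_prod_le ho h1 hs hK hKs h4 hnss
  obtain ⟨hW1, hUK, hUUK, hmul, hW⟩ := subs h1 hs h4
  have hU₀ : U₀ ∈ 𝓝 (1 : G) := ho.mem_nhds h1
  have hμK : μ K₀ ≠ ⊤ := hK.measure_lt_top.ne
  have hc : 0 < μ.real U₀ := ENNReal.toReal_pos (ho.measure_pos μ ⟨1, h1⟩).ne' (ne_top_of_le_ne_top hμK (μ.mono hUK))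
  set c := μ.real U₀ with hcdef
  set B := μ.real K₀ with hBdef
  have hB : 0 ≤ B := measureReal_nonneg
  have he := esc_nonneg U₀
  obtain ⟨ψ, hψ, hψ0, hψ1, hψU, hψs, hψd⟩ := exists_bump ho (w := fun g => C * esc U₀ g)
    (fun g => mul_nonneg hC.le (he g)) (fun g => by rw [esc_inv hs])
    (fun l hl => mem_of_esc_lt_one h1 ((H l).trans_lt (by rwa [List.sum_map_mul_left] at hl)))
  have hψK : ∀ y, ψ y ≠ 0 → y ∈ K₀ := fun y hy => hUUK (hψs y hy)
  set φ := conv μ ψ ψ with hφ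
  have hφ0 : ∀ x, 0 ≤ φ x := conv_nonneg hψ0 hψ0
  have hφB : ∀ x, φ x ≤ B := conv_le hψ0 hψ1 hψ0 hψ1 hK.measurableSet hμK hψK
  have hlip : ∀ g ∈ U₀, ∀ x, |φ x - φ (g * x)| ≤ B * (C * esc U₀ g) := fun g hg x =>
    conv_diff hψ hψ hψ0 hψ1 hψ0 hψ1 hK.measurableSet hμK hψK (fun y hy => hmul g hg y (hψs _ hy)) (hψd g) x
  have htend : Tendsto (fun g => B * (C * esc U₀ g)) (𝓝 1) (𝓝 0) := by
    simpa using ((esc_tendsto hU₀).const_mul C).const_mul B
  have hcont : Continuous φ := by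
    refine continuous_iff_continuousAt.mpr fun x => tendsto_iff_dist_tendsto_zero.mpr ?_
    have ht : Tendsto (fun y => y * x⁻¹) (𝓝 x) (𝓝 1) := by
      simpa using (continuous_mul_const x⁻¹).tendsto x
    refine squeeze_zero' (Eventually.of_forall fun _ => dist_nonneg) ?_ (htend.comp ht)
    filter_upwards [ht.eventually hU₀] with y hy
    have := hlip _ hy x
    rwa [inv_mul_cancel_right, ← Real.dist_eq, dist_comm] at this
  let Φ : G →ᵇ ℝ := BoundedContinuousFunction.ofNormedAddCommGroup φ hcont B fun x => by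
    rw [Real.norm_of_nonneg (hφ0 x)]
    exact hφB x
  let τ : G → (G →ᵇ ℝ) →L[ℝ] (G →ᵇ ℝ) := fun g =>
    BoundedContinuousFunction.compContinuousCLM ℝ ℝ ⟨fun x => g⁻¹ * x, continuous_const_mul _⟩
  have hτ : ∀ g v x, τ g v x = v (g⁻¹ * x) := fun _ _ _ => rfl
  let l : G → G →ᵇ ℝ := fun g => Φ - τ g Φ
  have hl : ∀ g x, l g x = φ x - φ (g⁻¹ * x) := fun _ _ => rfl
  have hlow : ∀ U ∈ 𝓝 (1 : G), ∃ m : ℕ, ∀ g, esc U g⁻¹ ≤ m / c * ‖l g‖ := fun U hU => by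
    obtain ⟨m, hm⟩ := trap hK hKs hnss hU
    refine ⟨m, fun g => (hm _ hW1 h4 _).trans ?_⟩
    have h6 := esc_le_of_diff hc (le_conv_one hψ hψ hψ0 hψ1 hψ0 hψ1 hK.measurableSet hμK hψK ho.measurableSet hψU
      fun y hy => hψU _ (hs y hy)) (W := U₀ * U₀ * U₀ * U₀) (fun x hx => by
        obtain ⟨y, h1, h2⟩ := conv_ne_zero hx
        exact hW x y (hψs _ h1) (hψs _ h2)) (g := g⁻¹) (ν := ‖l g‖) fun x => (l g).norm_coe_le_norm x
    refine (mul_le_mul_of_nonneg_left h6 (Nat.cast_nonneg m)).trans (le_of_eq ?_)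
    ring
  refine ⟨⟨l, τ, fun g v => le_antisymm ?_ ?_, fun g g' => ?_, ?_, fun U hU => ?_, fun K hKc => ?_⟩⟩
  · exact (BoundedContinuousFunction.norm_le (norm_nonneg _)).mpr fun x => v.norm_coe_le_norm _
  · refine (BoundedContinuousFunction.norm_le (norm_nonneg _)).mpr fun x => ?_
    have := (τ g v).norm_coe_le_norm (g * x)
    rwa [hτ, inv_mul_cancel_left] at this
  · ext x
    rw [BoundedContinuousFunction.add_apply, hτ, hl, hl, hl, mul_inv_rev, mul_assoc]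
    ring
  · refine continuous_iff_continuousAt.mpr fun g₀ => tendsto_iff_norm_sub_tendsto_zero.mpr ?_
    have ht : Tendsto (fun g => g⁻¹ * g₀) (𝓝 g₀) (𝓝 1) := by
      simpa using (by fun_prop : Continuous fun g : G => g⁻¹ * g₀).tendsto g₀
    refine squeeze_zero' (Eventually.of_forall fun _ => norm_nonneg _) ?_ (htend.comp ht)
    filter_upwards [ht.eventually hU₀] with g hg
    refine (BoundedContinuousFunction.norm_le (mul_nonneg hB (mul_nonneg hC.le (he _)))).mpr fun x => ?_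
    have := hlip _ hg (g₀⁻¹ * x)
    rw [mul_assoc, mul_inv_cancel_left] at this
    rw [BoundedContinuousFunction.sub_apply, hl, hl, sub_sub_sub_cancel_left]
    exact this
  · obtain ⟨m, hm⟩ := hlow U⁻¹ (inv_mem_nhds_one G hU)
    refine ⟨c / (m + 1), by positivity, fun g hg => ?_⟩
    have h2 : g⁻¹ ∈ U⁻¹ := by
      refine mem_of_esc_lt_one (by simpa using mem_of_mem_nhds hU) ((hm g).trans_lt ?_)
      calc (m : ℝ) / c * ‖l g‖ ≤ m / c * (c / (m + 1)) := by gcongr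
        _ = m / (m + 1) := by field_simp
        _ < 1 := (div_lt_one (by positivity)).mpr (lt_add_one _)
    simpa using h2
  · have hK' : IsCompact (K₀ ∪ K * K₀) := hK.union (hKc.mul hK)
    obtain ⟨U₂, hU₂, -, -, hU₂c⟩ := exists_nhds_conj hK' hU₀
    obtain ⟨m, hm⟩ := hlow U₀ hU₀
    obtain ⟨m₂, hm₂⟩ := hlow U₂ hU₂
    refine ⟨μ.real (K₀ ∪ K * K₀) * (C * (m / c)) * (C * (m₂ / c)), fun g g' hg' => ?_⟩
    refine (BoundedContinuousFunction.norm_le (by positivity)).mpr fun x => ?_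
    have h2 := conv_diff2 (μ := μ) hψ hψ hψ0 hψ1 hψ0 hψ1 hK'.measurableSet hK'.measure_lt_top.ne
      (h := g'⁻¹) (g := g⁻¹) (fun y hy => Or.inl (hψK y hy))
      (fun y hy => Or.inr (by simpa using mul_mem_mul hg' (hψK _ hy)))
      (a := C * (m / c * ‖l g'‖)) (b := C * (m₂ / c * ‖l g‖))
      (fun y => (hψd _ y).trans (mul_le_mul_of_nonneg_left (hm g') hC.le))
      (fun y hy z => (hψd _ z).trans (mul_le_mul_of_nonneg_left
        ((esc_conj (mem_of_mem_nhds hU₂) (hU₂c y hy) _).trans (hm₂ g)) hC.le)) (by positivity) x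
    rw [BoundedContinuousFunction.sub_apply, hτ, hl, hl, Real.norm_eq_abs, abs_sub_comm]
    refine le_trans (le_of_eq ?_) (h2.trans (le_of_eq (by ring)))
    congr 1
    ring

end Crest.Agent.R217
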