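import Mathlib

/-! # R217 / H5 : three lemmas of analysis in Banach algebras / spaces -/

set_option autoImplicit false
open scoped ContDiff Topology
open Filter Set

namespace Crest.Agent.R217

/-- A continuous one-parameter group in a Banach algebra is differentiable.  For small `δ > 0`,
`J = ∫₀^δ f` is a unit (`‖δ⁻¹ • J - 1‖ < 1`), `f t * J = ∫_t^{t+δ} f`, so `f` is `C¹`; with
`a = f' 0`: `f' t = f t * a`, hence `f t * exp (-t • a)` is constant (`hasDerivAt_exp_smul_const`). -/
theorem exists_exp_of_oneParam {A : Type*} [NormedRing A] [NormedAlgebra ℝ A] [CompleteSpace A]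
    (f : ℝ → A) (hf : Continuous f) (h0 : f 0 = 1) (hadd : ∀ s t, f (s + t) = f s * f t) :
    ∃ a : A, ∀ t : ℝ, f t = NormedSpace.exp (t • a) := by
  letI : NormedAlgebra ℚ A := NormedAlgebra.restrictScalars ℚ ℝ A
  obtain ⟨δ, hδ, hδ'⟩ : ∃ δ > (0 : ℝ), ∀ s, |s| ≤ δ → ‖f s - 1‖ ≤ 1 / 2 := by
    have h := Metric.continuousAt_iff.mp (hf.continuousAt (x := 0)) (1 / 2) (by norm_num)
    obtain ⟨δ, hδ, h⟩ := h
    refine ⟨δ / 2, by positivity, fun s hs => ?_⟩
    have := @h s (by rw [Real.dist_eq, sub_zero]; linarith)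
    rw [h0, dist_eq_norm] at this
    exact this.le
  set J : A := ∫ s in (0 : ℝ)..δ, f s with hJ
  have hJ1 : ‖1 - δ⁻¹ • J‖ < 1 := by
    have e1 : J - δ • (1 : A) = ∫ s in (0 : ℝ)..δ, (f s - 1) := by
      rw [intervalIntegral.integral_sub (hf.intervalIntegrable _ _)
        (continuous_const.intervalIntegrable _ _)]
      simp [hJ]
    have e2 : ‖∫ s in (0 : ℝ)..δ, (f s - 1)‖ ≤ 1 / 2 * |δ - 0| := by
      refine intervalIntegral.norm_integral_le_of_norm_le_const fun s hs => hδ' s ?_
      rw [uIoc_of_le hδ.le] at hs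
      rw [abs_of_pos hs.1]; exact hs.2
    have e3 : 1 - δ⁻¹ • J = -(δ⁻¹ • (J - δ • (1 : A))) := by
      rw [smul_sub, smul_smul, inv_mul_cancel₀ hδ.ne', one_smul]; abel
    rw [e3, norm_neg, norm_smul, e1, Real.norm_eq_abs, abs_of_pos (inv_pos.mpr hδ)]
    rw [sub_zero, abs_of_pos hδ] at e2
    calc δ⁻¹ * ‖∫ s in (0 : ℝ)..δ, (f s - 1)‖ ≤ δ⁻¹ * (1 / 2 * δ) := by gcongr
      _ = 1 / 2 := by field_simp
      _ < 1 := by norm_num
  -- a right inverse of `J`
  obtain ⟨K, hK⟩ : ∃ K : A, J * K = 1 := by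
    let u : Aˣ := Units.oneSub _ hJ1
    have hu : (u : A) = δ⁻¹ • J := by simp [u]
    refine ⟨δ⁻¹ • (↑u⁻¹ : A), ?_⟩
    rw [mul_smul_comm, ← smul_mul_assoc, ← hu, Units.mul_inv]
  have hmul : ∀ t, f t * J = (∫ s in (0 : ℝ)..(t + δ), f s) - ∫ s in (0 : ℝ)..t, f s := by
    intro t
    rw [intervalIntegral.integral_interval_sub_left (hf.intervalIntegrable _ _)
      (hf.intervalIntegrable _ _)]
    have e1 : f t * J = ∫ s in (0 : ℝ)..δ, f t * f s := by
      have := (ContinuousLinearMap.mul ℝ A (f t)).intervalIntegral_comp_comm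
        (hf.intervalIntegrable (μ := MeasureTheory.volume) 0 δ)
      simpa using this.symm
    rw [e1]
    simp_rw [← hadd]
    rw [intervalIntegral.integral_comp_add_left f t]
    simp
  set a : A := (f δ - 1) * K with ha
  have hder : ∀ t, HasDerivAt f (f t * a) t := by
    intro t
    have d1 : HasDerivAt (fun u => ∫ s in (0 : ℝ)..u, f s) (f t) t :=
      (hf.integral_hasStrictDerivAt 0 t).hasDerivAt
    have d2 : HasDerivAt (fun u => ∫ s in (0 : ℝ)..u, f s) (f (t + δ)) (t + δ) :=
      (hf.integral_hasStrictDerivAt 0 (t + δ)).hasDerivAt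
    have d3 : HasDerivAt (fun u => ∫ s in (0 : ℝ)..(u + δ), f s) (f (t + δ)) t :=
      d2.comp_add_const t δ
    have d4 := (d3.sub d1).mul_const K
    have e1 : (fun u => f u) = fun u =>
        ((∫ s in (0 : ℝ)..(u + δ), f s) - ∫ s in (0 : ℝ)..u, f s) * K := by
      funext u; rw [← hmul, mul_assoc, hK, mul_one]
    have e2 : f t * a = (f (t + δ) - f t) * K := by
      rw [ha, hadd, ← mul_assoc, mul_sub, mul_one]
    rw [e2]
    have : f = fun u => ((∫ s in (0 : ℝ)..(u + δ), f s) - ∫ s in (0 : ℝ)..u, f s) * K := e1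
    have d5 : HasDerivAt
        (fun u => ((∫ s in (0 : ℝ)..(u + δ), f s) - ∫ s in (0 : ℝ)..u, f s) * K)
        ((f (t + δ) - f t) * K) t := d4
    rwa [← this] at d5
  refine ⟨a, fun t => ?_⟩
  have hg : ∀ t, HasDerivAt (fun u : ℝ => f u * NormedSpace.exp (u • (-a))) 0 t := by
    intro t
    have d := (hder t).mul (hasDerivAt_exp_smul_const' (𝕂 := ℝ) (-a) t)
    have e : f t * a * NormedSpace.exp (t • (-a)) + f t * (-a * NormedSpace.exp (t • (-a))) = 0 := by
      noncomm_ring
    rw [e] at d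
    exact d
  have hc : f t * NormedSpace.exp (t • (-a)) = 1 := by
    have := is_const_of_deriv_eq_zero (fun x => (hg x).differentiableAt)
      (fun x => (hg x).deriv) t 0
    simpa [h0] using this
  have hinv : NormedSpace.exp (t • (-a)) * NormedSpace.exp (t • a) = 1 := by
    rw [← NormedSpace.exp_add_of_commute]
    · simp
    · rw [smul_neg]; exact (Commute.refl _).neg_left
  calc f t = f t * (NormedSpace.exp (t • (-a)) * NormedSpace.exp (t • a)) := by rw [hinv, mul_one]
    _ = NormedSpace.exp (t • a) := by rw [← mul_assoc, hc, one_mul]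

theorem contDiff_exp' {A : Type*} [NormedRing A] [NormedAlgebra ℝ A] [CompleteSpace A] :
    ContDiff ℝ ∞ (fun a : A => NormedSpace.exp a) :=
  contDiff_iff_contDiffAt.mpr fun a => (NormedSpace.exp_analytic (𝕂 := ℝ) a).contDiffAt

/-- Smoothness of `a ↦ ∫₀¹ exp (-s a) ds`.  E.g. through the Banach algebra `C(Icc 0 1, A)`:
`a ↦ (s ↦ (-s) • a)` is a continuous linear map, `exp` is analytic there
(`NormedSpace.exp_analytic`), evaluation commutes with `exp` (`NormedSpace.map_exp`), and
integration over `[0,1]` is a continuous linear map.  Any other route is fine. -/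
theorem contDiff_integral_exp {A : Type*} [NormedRing A] [NormedAlgebra ℝ A] [CompleteSpace A] :
    ContDiff ℝ ∞ (fun a : A => ∫ s in (0 : ℝ)..1, NormedSpace.exp ((-s) • a)) := by
  letI : NormedAlgebra ℚ A := NormedAlgebra.restrictScalars ℚ ℝ A
  letI : NormedAlgebra ℚ C(Icc (0 : ℝ) 1, A) := NormedAlgebra.restrictScalars ℚ ℝ _
  have hci : ∀ g : C(Icc (0 : ℝ) 1, A), Continuous (fun s => g (projIcc 0 1 zero_le_one s)) :=
    fun g => g.continuous.comp continuous_projIcc
  let I₀ : C(Icc (0 : ℝ) 1, A) →ₗ[ℝ] A :=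
    { toFun := fun g => ∫ s in (0 : ℝ)..1, g (projIcc 0 1 zero_le_one s)
      map_add' := fun g h => by
        simp only [ContinuousMap.add_apply]
        exact intervalIntegral.integral_add ((hci g).intervalIntegrable _ _)
          ((hci h).intervalIntegrable _ _)
      map_smul' := fun c g => by
        simp only [ContinuousMap.smul_apply, RingHom.id_apply]
        exact intervalIntegral.integral_smul _ _ }
  let I : C(Icc (0 : ℝ) 1, A) →L[ℝ] A := I₀.mkContinuous 1 fun g => by
    have := intervalIntegral.norm_integral_le_of_norm_le_const (a := (0 : ℝ)) (b := 1)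
      (f := fun s => g (projIcc 0 1 zero_le_one s)) (C := ‖g‖)
      (fun s _ => g.norm_coe_le_norm _)
    simpa [I₀] using this
  let L₀ : A →ₗ[ℝ] C(Icc (0 : ℝ) 1, A) :=
    { toFun := fun a => ⟨fun s => (-(s : ℝ)) • a, by fun_prop⟩
      map_add' := fun a b => by ext s; simp only [ContinuousMap.coe_mk, ContinuousMap.add_apply, smul_add]
      map_smul' := fun c a => by
        ext s
        simp only [ContinuousMap.coe_mk, ContinuousMap.smul_apply, RingHom.id_apply]
        exact smul_comm _ _ _ }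
  let L : A →L[ℝ] C(Icc (0 : ℝ) 1, A) := L₀.mkContinuous 1 fun a => by
    rw [ContinuousMap.norm_le _ (by positivity)]
    intro s
    simp only [L₀, LinearMap.coe_mk, AddHom.coe_mk, ContinuousMap.coe_mk, norm_smul, norm_neg,
      Real.norm_eq_abs]
    gcongr
    rw [abs_of_nonneg s.2.1]; exact s.2.2
  have hsm : ContDiff ℝ ∞ (fun a : A => I (NormedSpace.exp (L a))) :=
    I.contDiff.comp (contDiff_exp'.comp L.contDiff)
  have heq : (fun a : A => ∫ s in (0 : ℝ)..1, NormedSpace.exp ((-s) • a)) =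
      fun a : A => I (NormedSpace.exp (L a)) := by
    funext a
    change _ = ∫ s in (0 : ℝ)..1, (NormedSpace.exp (L a)) (projIcc 0 1 zero_le_one s)
    refine intervalIntegral.integral_congr fun s hs => ?_
    rw [uIcc_of_le zero_le_one] at hs
    have hev : ∀ x : Icc (0 : ℝ) 1, (NormedSpace.exp (L a)) x = NormedSpace.exp ((L a) x) := by
      intro x
      let ev : C(Icc (0 : ℝ) 1, A) →+* A :=
        { toFun := fun g => g x
          map_one' := rfl
          map_mul' := fun _ _ => rfl
          map_zero' := rfl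
          map_add' := fun _ _ => rfl }
      exact NormedSpace.map_exp ev (continuous_eval_const x) (L a)
    simp only [hev, projIcc_of_mem _ hs]
    rfl
  rw [heq]; exact hsm

/-- A solution of a smooth total differential equation is smooth (induction on the order,
`contDiffOn_succ_iff_fderiv_of_isOpen` / `contDiffOn_infty`). -/
theorem contDiffOn_of_hasFDerivAt {E F : Type*} [NormedAddCommGroup E] [NormedSpace ℝ E]
    [NormedAddCommGroup F] [NormedSpace ℝ F] {s : Set E} (hs : IsOpen s) {t : Set F} {f : E → F}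
    {Φ : E × F → E →L[ℝ] F} (hΦ : ContDiffOn ℝ ∞ Φ (univ ×ˢ t)) (hft : MapsTo f s t)
    (hf : ∀ x ∈ s, HasFDerivAt f (Φ (x, f x)) x) : ContDiffOn ℝ ∞ f s := by
  have hd : DifferentiableOn ℝ f s := fun x hx => (hf x hx).differentiableAt.differentiableWithinAt
  rw [contDiffOn_infty]
  intro n
  induction n with
  | zero => exact contDiffOn_zero.mpr hd.continuousOn
  | succ n ih =>
    rw [Nat.cast_succ, contDiffOn_succ_iff_fderiv_of_isOpen hs]
    refine ⟨hd, by simp, ?_⟩
    have h1 : ContDiffOn ℝ n (fun x => Φ (x, f x)) s :=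
      (hΦ.of_le (by exact_mod_cast le_top)).comp (contDiffOn_id.prodMk ih)
        (fun x hx => ⟨mem_univ _, hft hx⟩)
    exact h1.congr fun x hx => (hf x hx).fderiv

end Crest.Agent.R217
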