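import Crest.Agent.R217.H5Defs

/-! # R217 / H5, part B1 : normalised Gleason embeddings, basic estimates -/

set_option autoImplicit false
open scoped Topology
open Filter Set Asymptotics

namespace Crest.Agent.R217

/-- A normalised Gleason embedding. -/
structure GF (G V : Type*) [Group G] [TopologicalSpace G] [NormedAddCommGroup V]
    [NormedSpace ℝ V] extends GE G V where
  r : ℝ
  r_pos : 0 < r
  r_le : r ≤ 1
  cpt : IsCompact {g | ‖l g‖ ≤ r}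
  sec : ∀ g h, ‖l h‖ ≤ r → ‖τ g (l h) - l h‖ ≤ ‖l g‖ * ‖l h‖

variable {G V : Type*} [Group G] [TopologicalSpace G] [NormedAddCommGroup V] [NormedSpace ℝ V]

theorem GE.exists_GF [LocallyCompactSpace G] [T2Space G] (E : GE G V) : Nonempty (GF G V) := by
  obtain ⟨K, hK, hK1⟩ := exists_compact_mem_nhds (1 : G)
  obtain ⟨r₀, hr₀, hr⟩ := E.small K hK1
  have hB : IsCompact {g | ‖E.l g‖ ≤ r₀} :=
    hK.of_isClosed_subset (isClosed_le E.cont.norm continuous_const) hr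
  obtain ⟨C₀, hC₀⟩ := E.second _ hB
  set c : ℝ := max C₀ 1 with hc
  have hc0 : 0 < c := lt_of_lt_of_le one_pos (le_max_right _ _)
  have hn : ∀ g, ‖c • E.l g‖ = c * ‖E.l g‖ := fun g => by
    rw [norm_smul, Real.norm_of_nonneg hc0.le]
  have key : ∀ (g : G) (C : ℝ) (h : G), ‖E.τ g (E.l h) - E.l h‖ ≤ C * ‖E.l g‖ * ‖E.l h‖ →
      ‖E.τ g (c • E.l h) - c • E.l h‖ ≤ (C / c) * ‖c • E.l g‖ * ‖c • E.l h‖ := by
    intro g C h hh
    rw [map_smul, ← smul_sub, norm_smul, Real.norm_of_nonneg hc0.le, hn, hn]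
    calc c * ‖E.τ g (E.l h) - E.l h‖ ≤ c * (C * ‖E.l g‖ * ‖E.l h‖) := by gcongr
      _ = C / c * (c * ‖E.l g‖) * (c * ‖E.l h‖) := by field_simp
  refine ⟨{
    l := fun g => c • E.l g
    τ := E.τ
    norm_τ := E.norm_τ
    cocycle := fun g h => by rw [E.cocycle, smul_add, map_smul]
    cont := E.cont.const_smul c
    small := fun U hU => ?_
    second := fun K hK => ?_
    r := min (c * r₀) 1
    r_pos := lt_min (by positivity) one_pos
    r_le := min_le_right _ _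
    cpt := ?_
    sec := fun g h hh => ?_ }⟩
  · obtain ⟨r, hr, h⟩ := E.small U hU
    refine ⟨c * r, by positivity, fun g hg => h g ?_⟩
    rw [hn] at hg
    exact le_of_mul_le_mul_left hg hc0
  · obtain ⟨C, hC⟩ := E.second K hK
    exact ⟨C / c, fun g h hh => key g C h (hC g h hh)⟩
  · refine hB.of_isClosed_subset (isClosed_le (E.cont.const_smul c).norm continuous_const) ?_
    intro g hg
    have : c * ‖E.l g‖ ≤ c * r₀ := by
      have := le_trans (show ‖c • E.l g‖ ≤ _ from hg) (min_le_left _ _); rwa [hn] at this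
    exact le_of_mul_le_mul_left this hc0
  · have h1 : ‖E.l h‖ ≤ r₀ := by
      have := le_trans hh (min_le_left _ _)
      rw [hn] at this
      exact le_of_mul_le_mul_left this hc0
    refine (key g C₀ h (hC₀ g h h1)).trans ?_
    have : C₀ / c ≤ 1 := by rw [div_le_one hc0]; exact le_max_left _ _
    calc C₀ / c * ‖c • E.l g‖ * ‖c • E.l h‖ ≤ 1 * ‖c • E.l g‖ * ‖c • E.l h‖ := by gcongr
      _ = _ := by ring

namespace GF

variable (E : GF G V)

theorem l_one : E.l 1 = 0 := by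
  have h := E.cocycle 1 1
  rw [mul_one] at h
  have h2 : E.τ 1 (E.l 1) = 0 := by simpa using h.symm
  have := E.norm_τ 1 (E.l 1)
  rw [h2, norm_zero] at this
  exact norm_eq_zero.1 this.symm

theorem norm_mul_sub (g h : G) : ‖E.l (g * h) - E.l g‖ = ‖E.l h‖ := by
  rw [E.cocycle, add_sub_cancel_left, E.norm_τ]

theorem norm_inv_mul (g h : G) : ‖E.l (g⁻¹ * h)‖ = ‖E.l h - E.l g‖ := by
  rw [← E.norm_mul_sub g, mul_inv_cancel_left]

theorem norm_inv (g : G) : ‖E.l g⁻¹‖ = ‖E.l g‖ := by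
  have := E.norm_inv_mul g 1
  rwa [mul_one, E.l_one, zero_sub, norm_neg] at this

theorem norm_mul_le (g h : G) : ‖E.l (g * h)‖ ≤ ‖E.l g‖ + ‖E.l h‖ := by
  rw [E.cocycle]
  exact (norm_add_le _ _).trans (by rw [E.norm_τ])

theorem norm_pow_le (g : G) (n : ℕ) : ‖E.l (g ^ n)‖ ≤ n * ‖E.l g‖ := by
  induction n with
  | zero => simp [E.l_one]
  | succ n ih =>
    rw [pow_succ]
    refine (E.norm_mul_le _ _).trans ?_
    push_cast; linarith

theorem norm_zpow_le (g : G) (a : ℤ) : ‖E.l (g ^ a)‖ ≤ |(a : ℝ)| * ‖E.l g‖ := by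
  obtain ⟨n, rfl | rfl⟩ := Int.eq_nat_or_neg a
  · simpa using E.norm_pow_le g n
  · simpa [E.norm_inv] using E.norm_pow_le g n

theorem mul_err (g h : G) (hh : ‖E.l h‖ ≤ E.r) :
    ‖E.l (g * h) - E.l g - E.l h‖ ≤ ‖E.l g‖ * ‖E.l h‖ := by
  rw [E.cocycle, add_sub_cancel_left]
  exact E.sec g h hh

theorem pow_err (g : G) (hg : ‖E.l g‖ ≤ E.r) (n : ℕ) :
    2 * ‖E.l (g ^ n) - (n : ℝ) • E.l g‖ ≤ n * (n - 1) * ‖E.l g‖ ^ 2 := by
  induction n with
  | zero => simp [E.l_one]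
  | succ n ih =>
    have h1 := E.mul_err (g ^ n) g hg
    have h2 := E.norm_pow_le g n
    have h3 : E.l (g ^ (n + 1)) - ((n + 1 : ℕ) : ℝ) • E.l g =
        (E.l (g ^ n * g) - E.l (g ^ n) - E.l g) + (E.l (g ^ n) - (n : ℝ) • E.l g) := by
      rw [pow_succ]; push_cast; module
    rw [h3]
    have h4 := norm_add_le (E.l (g ^ n * g) - E.l (g ^ n) - E.l g) (E.l (g ^ n) - (n : ℝ) • E.l g)
    have h5 : ‖E.l (g ^ n)‖ * ‖E.l g‖ ≤ n * ‖E.l g‖ * ‖E.l g‖ := by gcongr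
    push_cast
    nlinarith

theorem inv_err (g : G) (hg : ‖E.l g‖ ≤ E.r) : ‖E.l g⁻¹ + E.l g‖ ≤ ‖E.l g‖ ^ 2 := by
  have h := E.mul_err g⁻¹ g hg
  rw [inv_mul_cancel, E.l_one, E.norm_inv] at h
  rw [← norm_neg, sq, show -(E.l g⁻¹ + E.l g) = 0 - E.l g⁻¹ - E.l g by abel]
  exact h

theorem zpow_err (g : G) (hg : ‖E.l g‖ ≤ E.r) (a : ℤ) :
    ‖E.l (g ^ a) - (a : ℝ) • E.l g‖ ≤ (a : ℝ) ^ 2 * ‖E.l g‖ ^ 2 := by
  obtain ⟨n, rfl | rfl⟩ := Int.eq_nat_or_neg a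
  · have := E.pow_err g hg n
    have h0 : (0 : ℝ) ≤ n := n.cast_nonneg
    simp only [zpow_natCast, Int.cast_natCast]
    nlinarith [norm_nonneg (E.l (g ^ n) - (n : ℝ) • E.l g), sq_nonneg ‖E.l g‖,
      mul_nonneg h0 (sq_nonneg ‖E.l g‖)]
  · have h1 := E.pow_err g⁻¹ (by rwa [E.norm_inv]) n
    have h2 := E.inv_err g hg
    rw [E.norm_inv] at h1
    have h0 : (0 : ℝ) ≤ n := n.cast_nonneg
    have h3 : E.l (g ^ (-(n : ℤ))) - ((-(n : ℤ) : ℤ) : ℝ) • E.l g =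
        (E.l (g⁻¹ ^ n) - (n : ℝ) • E.l g⁻¹) + (n : ℝ) • (E.l g⁻¹ + E.l g) := by
      rw [zpow_neg, zpow_natCast, inv_pow]; push_cast; module
    rw [h3]
    refine (norm_add_le _ _).trans ?_
    rw [norm_smul, Real.norm_of_nonneg h0]
    have h4 : (n : ℝ) * ‖E.l g⁻¹ + E.l g‖ ≤ n * ‖E.l g‖ ^ 2 := by gcongr
    push_cast
    rcases Nat.eq_zero_or_pos n with rfl | hn
    · simp [E.l_one]
    · have hn' : (1 : ℝ) ≤ n := by exact_mod_cast hn
      nlinarith [mul_nonneg (mul_nonneg h0 (sub_nonneg.2 hn')) (sq_nonneg ‖E.l g‖)]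

theorem conj_le (g k : G) (hg : ‖E.l g‖ ≤ E.r) :
    ‖E.l (g⁻¹ * k * g)‖ ≤ (1 + ‖E.l g‖) * ‖E.l k‖ := by
  rw [mul_assoc, E.norm_inv_mul]
  have h := E.mul_err k g hg
  have h2 : E.l (k * g) - E.l g = (E.l (k * g) - E.l k - E.l g) + E.l k := by abel
  rw [h2]
  refine (norm_add_le _ _).trans ?_
  nlinarith

theorem exists_conj_le (g : G) : ∃ K : ℝ, 0 ≤ K ∧ ∀ k, ‖E.l (g * k * g⁻¹)‖ ≤ K * ‖E.l k‖ := by
  obtain ⟨C, hC⟩ := E.second {g⁻¹} isCompact_singleton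
  refine ⟨1 + |C| * ‖E.l g⁻¹‖, by positivity, fun k => ?_⟩
  have h0 : g * k * g⁻¹ = (g⁻¹)⁻¹ * (k * g⁻¹) := by group
  rw [h0, E.norm_inv_mul, E.cocycle]
  have h := hC k g⁻¹ rfl
  have h2 : E.l k + E.τ k (E.l g⁻¹) - E.l g⁻¹ = E.l k + (E.τ k (E.l g⁻¹) - E.l g⁻¹) := by abel
  rw [h2]
  refine (norm_add_le _ _).trans ?_
  have h3 : C * ‖E.l k‖ * ‖E.l g⁻¹‖ ≤ |C| * ‖E.l k‖ * ‖E.l g⁻¹‖ := by
    gcongr; exact le_abs_self C
  nlinarith

theorem conj_err (g k : G) (hg : ‖E.l g‖ ≤ E.r) (hk : ‖E.l k‖ ≤ E.r) :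
    ‖E.l (g * k * g⁻¹) - E.l k‖ ≤ 3 * ‖E.l g‖ * ‖E.l k‖ := by
  have h1 := E.mul_err (g * k * g⁻¹) g hg
  have h2 := E.mul_err g k hk
  have h3 := E.conj_le g⁻¹ k (by rwa [E.norm_inv])
  rw [inv_inv, E.norm_inv] at h3
  rw [inv_mul_cancel_right] at h1
  have h4 : E.l (g * k * g⁻¹) - E.l k =
      (E.l (g * k) - E.l g - E.l k) - (E.l (g * k) - E.l (g * k * g⁻¹) - E.l g) := by abel
  rw [h4]
  refine (norm_sub_le _ _).trans ?_
  have h5 : ‖E.l g‖ ≤ 1 := hg.trans E.r_le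
  have h6 : ‖E.l (g * k * g⁻¹)‖ ≤ 2 * ‖E.l k‖ := h3.trans (by gcongr; linarith)
  have h7 : ‖E.l (g * k * g⁻¹)‖ * ‖E.l g‖ ≤ 2 * ‖E.l k‖ * ‖E.l g‖ := by gcongr
  nlinarith

theorem tendsto_one {ι : Type*} {f : Filter ι} {g : ι → G}
    (h : Tendsto (fun i => ‖E.l (g i)‖) f (𝓝 0)) : Tendsto g f (𝓝 1) := by
  intro U hU
  obtain ⟨r, hr, hrU⟩ := E.small U hU
  rw [mem_map]
  filter_upwards [h.eventually (ge_mem_nhds hr)] with i hi using hrU _ hi

theorem eq_one [T1Space G] {g : G} (h : E.l g = 0) : g = 1 := by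
  have : Tendsto (fun _ : ℕ => g) atTop (𝓝 1) := E.tendsto_one (by simp [h])
  exact (tendsto_const_nhds_iff.1 this)

theorem l_injective [T1Space G] : Function.Injective E.l := by
  intro g h hgh
  have := E.norm_inv_mul g h
  rw [hgh, sub_self, norm_zero, norm_eq_zero] at this
  exact inv_mul_eq_one.1 (E.eq_one this)

theorem tendsto_norm {ι : Type*} {f : Filter ι} {g : ι → G} (h : Tendsto g f (𝓝 1)) :
    Tendsto (fun i => ‖E.l (g i)‖) f (𝓝 0) := by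
  have := ((E.cont.tendsto 1).comp h).norm
  rwa [E.l_one, norm_zero] at this

theorem tendsto_of_l [IsTopologicalGroup G] {ι : Type*} {f : Filter ι} {g : ι → G} {a : G}
    (h : Tendsto (fun i => ‖E.l (a⁻¹ * g i)‖) f (𝓝 0)) : Tendsto g f (𝓝 a) := by
  have := (E.tendsto_one h).const_mul a
  simpa using this

/-- The product error is negligible. -/
theorem mul_isLittleO {ι F : Type*} [NormedAddCommGroup F] {f : Filter ι} {P Q : ι → G} {u : ι → F}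
    (hP : Tendsto (fun i => E.l (P i)) f (𝓝 0)) (hQ : Tendsto (fun i => E.l (Q i)) f (𝓝 0))
    (hu : (fun i => E.l (Q i)) =O[f] u) :
    (fun i => E.l (P i * Q i) - E.l (P i) - E.l (Q i)) =o[f] u := by
  have h1 : (fun i => E.l (P i * Q i) - E.l (P i) - E.l (Q i)) =O[f]
      fun i => ‖E.l (P i)‖ * ‖E.l (Q i)‖ := by
    refine IsBigO.of_bound 1 ?_
    have h2 := hQ.norm
    rw [norm_zero] at h2
    filter_upwards [h2.eventually (ge_mem_nhds E.r_pos)] with i hi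
    rw [one_mul, Real.norm_of_nonneg (by positivity)]
    exact E.mul_err _ _ hi
  have h3 : (fun i => ‖E.l (P i)‖) =o[f] fun _ => (1 : ℝ) := by
    rw [isLittleO_one_iff]
    simpa using hP.norm
  have h4 := h3.mul_isBigO hu.norm_norm
  refine h1.trans_isLittleO ?_
  simpa using h4

/-- Conjugation is Lipschitz. -/
theorem conj_isBigO {ι : Type*} (f : Filter ι) (g : G) (P Q : ι → G) :
    (fun i => E.l (g * P i * g⁻¹) - E.l (g * Q i * g⁻¹)) =O[f]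
      fun i => E.l (P i) - E.l (Q i) := by
  obtain ⟨K, -, hK⟩ := E.exists_conj_le g
  refine IsBigO.of_bound K (Eventually.of_forall fun i => ?_)
  rw [← E.norm_inv_mul, ← E.norm_inv_mul]
  have : (g * Q i * g⁻¹)⁻¹ * (g * P i * g⁻¹) = g * ((Q i)⁻¹ * P i) * g⁻¹ := by group
  rw [this]
  exact hK _

end GF

end Crest.Agent.R217
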