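import Crest.Agent.R217.H5B1

/-! # R217 / H5, part B2 : one-parameter subgroups; the ultralimit construction -/

set_option autoImplicit false
open scoped Topology
open Filter Set Asymptotics

namespace Crest.Agent.R217

variable {G V : Type*} [Group G] [TopologicalSpace G] [NormedAddCommGroup V] [NormedSpace ℝ V]

namespace GF

variable (E : GF G V)

/-- `X` is a one-parameter subgroup with velocity `v`. -/
structure IsOP (v : V) (X : ℝ → G) : Prop where
  add : ∀ s t, X (s + t) = X s * X t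
  deriv : HasDerivAt (fun t => E.l (X t)) v 0

variable {E}

theorem IsOP.zero {v : V} {X : ℝ → G} (h : E.IsOP v X) : X 0 = 1 := by
  have := h.add 0 0
  rw [add_zero] at this
  exact (left_eq_mul.1 this)

theorem IsOP.neg {v : V} {X : ℝ → G} (h : E.IsOP v X) (t : ℝ) : X (-t) = (X t)⁻¹ := by
  rw [eq_inv_iff_mul_eq_one, ← h.add, neg_add_cancel, h.zero]

theorem IsOP.zpow {v : V} {X : ℝ → G} (h : E.IsOP v X) (t : ℝ) (a : ℤ) :
    X t ^ a = X (a * t) := by
  induction a using Int.induction_on with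
  | zero => simp [h.zero]
  | succ n ih => rw [zpow_add_one, ih, ← h.add]; congr 1; push_cast; ring
  | pred n ih => rw [zpow_sub_one, ih, ← h.neg, ← h.add]; congr 1; push_cast; ring

theorem IsOP.hasDerivAt {v : V} {X : ℝ → G} (h : E.IsOP v X) (t : ℝ) :
    HasDerivAt (fun s => E.l (X s)) (E.τ (X t) v) t := by
  have h1 : HasDerivAt (fun s => E.l (X (s - t))) v t := by
    have := h.deriv
    rw [← sub_self t] at this
    exact this.comp_sub_const t t
  have h2 := ((E.τ (X t)).hasFDerivAt.comp_hasDerivAt t h1).const_add (E.l (X t))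
  refine h2.congr_of_eventuallyEq (Eventually.of_forall fun s => ?_)
  simp only [Function.comp]
  rw [← E.cocycle, ← h.add, add_sub_cancel]

theorem IsOP.norm_le {v : V} {X : ℝ → G} (h : E.IsOP v X) (t : ℝ) : ‖E.l (X t)‖ ≤ |t| * ‖v‖ := by
  have := Convex.norm_image_sub_le_of_norm_hasDerivWithin_le (f := fun s => E.l (X s))
    (s := univ) (C := ‖v‖) (fun s _ => (h.hasDerivAt s).hasDerivWithinAt)
    (fun s _ => (E.norm_τ _ _).le) convex_univ (mem_univ 0) (mem_univ t)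
  simpa [h.zero, E.l_one, mul_comm] using this

theorem IsOP.tendsto_zero {v : V} {X : ℝ → G} (h : E.IsOP v X) :
    Tendsto (fun t => E.l (X t)) (𝓝 0) (𝓝 0) := by
  have := h.deriv.continuousAt.tendsto
  simpa [h.zero, E.l_one] using this

theorem IsOP.τ_sub {v : V} {X : ℝ → G} (h : E.IsOP v X) (g : G) :
    ‖E.τ g v - v‖ ≤ ‖E.l g‖ * ‖v‖ := by
  have h1 := ((E.τ g).hasFDerivAt.comp_hasDerivAt 0 h.deriv).sub h.deriv
  refine h1.le_of_lip' (by positivity) ?_
  have h2 := h.tendsto_zero.norm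
  rw [norm_zero] at h2
  filter_upwards [h2.eventually (ge_mem_nhds E.r_pos)] with t ht
  simp only [Pi.sub_apply, Function.comp, h.zero, E.l_one, map_zero, sub_zero, Real.norm_eq_abs]
  refine (E.sec g _ ht).trans ?_
  have := h.norm_le t
  calc ‖E.l g‖ * ‖E.l (X t)‖ ≤ ‖E.l g‖ * (|t| * ‖v‖) := by gcongr
    _ = _ := by ring

theorem IsOP.sub_le {v : V} {X : ℝ → G} (h : E.IsOP v X) (t : ℝ) :
    ‖E.l (X t) - t • v‖ ≤ t ^ 2 * ‖v‖ ^ 2 := by
  have := Convex.norm_image_sub_le_of_norm_hasDerivWithin_le (f := fun s => E.l (X s) - s • v)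
    (f' := fun s => E.τ (X s) v - v) (s := Metric.closedBall 0 |t|) (C := |t| * ‖v‖ ^ 2)
    (fun s _ => by
      have h2 := (hasDerivAt_id s).smul_const v
      rw [one_smul] at h2
      exact ((h.hasDerivAt s).sub h2).hasDerivWithinAt)
    (fun s hs => by
      refine (h.τ_sub _).trans ?_
      have h3 := h.norm_le s
      have h4 : |s| ≤ |t| := by simpa using hs
      calc ‖E.l (X s)‖ * ‖v‖ ≤ (|t| * ‖v‖) * ‖v‖ := by
            gcongr; exact h3.trans (by gcongr)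
        _ = _ := by ring)
    (convex_closedBall _ _) (x := 0) (y := t) (by simp) (by simp)
  simp only [h.zero, E.l_one, zero_smul, sub_zero, Real.norm_eq_abs] at this
  refine this.trans (le_of_eq ?_)
  rw [← sq_abs t]; ring

theorem IsOP.continuous [IsTopologicalGroup G] {v : V} {X : ℝ → G} (h : E.IsOP v X) :
    Continuous X := by
  refine continuous_iff_continuousAt.2 fun t => E.tendsto_of_l ?_
  simp only [E.norm_inv_mul]
  have := ((h.hasDerivAt t).continuousAt.tendsto.sub_const (E.l (X t))).norm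
  simpa using this

theorem IsOP.unique [T1Space G] {v : V} {X Y : ℝ → G} (hX : E.IsOP v X) (hY : E.IsOP v Y) :
    X = Y := by
  have key : ∀ s, HasDerivAt (fun s => E.l ((X s)⁻¹ * Y s)) 0 s := by
    intro s
    rw [hasDerivAt_iff_isLittleO_nhds_zero]
    simp only [smul_zero, sub_zero]
    have h1 : (fun h => E.l (Y h) - E.l (X h)) =o[𝓝 0] fun h : ℝ => h := by
      have := (hY.deriv.sub hX.deriv)
      rw [hasDerivAt_iff_isLittleO_nhds_zero] at this
      simpa [hX.zero, hY.zero] using this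
    obtain ⟨K, -, hK⟩ := E.exists_conj_le (Y s)⁻¹
    refine IsBigO.trans_isLittleO (IsBigO.of_bound K (Eventually.of_forall fun h => ?_)) h1
    rw [← E.norm_inv_mul, ← E.norm_inv_mul]
    have : ((X s)⁻¹ * Y s)⁻¹ * ((X (s + h))⁻¹ * Y (s + h)) =
        (Y s)⁻¹ * ((X h)⁻¹ * Y h) * (Y s)⁻¹⁻¹ := by
      rw [add_comm s h, hX.add, hY.add]; group
    rw [this]
    exact hK _
  funext t
  have h := is_const_of_deriv_eq_zero (f := fun s => E.l ((X s)⁻¹ * Y s))
    (fun s => (key s).differentiableAt) (fun s => (key s).deriv) t 0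
  simp only [hX.zero, hY.zero, inv_one, mul_one, E.l_one] at h
  exact inv_mul_eq_one.1 (E.eq_one h)

theorem IsOP.smul {v : V} {X : ℝ → G} (h : E.IsOP v X) (c : ℝ) :
    E.IsOP (c • v) (fun t => X (t * c)) := by
  refine ⟨fun s t => by rw [add_mul, h.add], ?_⟩
  have h1 : HasDerivAt (fun t => E.l (X t)) v (0 * c) := by rw [zero_mul]; exact h.deriv
  have h2 := h1.scomp (0 : ℝ) ((hasDerivAt_id (0 : ℝ)).mul_const c)
  simpa [Function.comp_def] using h2

variable (E)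

/-- Powers of small elements of bounded total length stay in a compact set. -/
theorem exists_compact_zpow [IsTopologicalGroup G] (S : ℝ) :
    ∃ K : Set G, IsCompact K ∧ ∃ δ > 0, ∀ (g : G) (a : ℤ), ‖E.l g‖ ≤ δ →
      |(a : ℝ)| * ‖E.l g‖ ≤ S → g ^ a ∈ K := by
  obtain ⟨k, hk⟩ := exists_nat_gt (max (2 * S / E.r) 1)
  have hk1 : (1 : ℝ) < k := (le_max_right _ _).trans_lt hk
  have hk0 : (0 : ℝ) < k := by linarith
  have hr := E.r_pos
  have hkS : 2 * S / E.r < k := (le_max_left _ _).trans_lt hk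
  refine ⟨(fun p : G × G => p.1 ^ (k : ℤ) * p.2) '' ({g | ‖E.l g‖ ≤ E.r} ×ˢ {g | ‖E.l g‖ ≤ E.r}),
    (E.cpt.prod E.cpt).image (by fun_prop), E.r / (2 * k), by positivity, fun g a hg ha => ?_⟩
  have hk0' : (0 : ℤ) < k := by exact_mod_cast hk0
  have h1 : (0 : ℤ) ≤ a % k := Int.emod_nonneg _ hk0'.ne'
  have h2 : a % k < k := Int.emod_lt_of_pos _ hk0'
  have h3 : (k : ℤ) * (a / k) + a % k = a := Int.mul_ediv_add_emod a k
  have h1' : (0 : ℝ) ≤ ((a % k : ℤ) : ℝ) := by exact_mod_cast h1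
  have h2' : ((a % k : ℤ) : ℝ) ≤ k := by exact_mod_cast h2.le
  have h3' : (k : ℝ) * ((a / k : ℤ) : ℝ) + ((a % k : ℤ) : ℝ) = a := by exact_mod_cast h3
  have hg' : (k : ℝ) * ‖E.l g‖ ≤ E.r / 2 := by
    rw [le_div_iff₀ (by positivity)] at hg
    linarith
  have hN := norm_nonneg (E.l g)
  refine ⟨(g ^ (a / k), g ^ (a % k)), ⟨?_, ?_⟩, ?_⟩
  · refine (E.norm_zpow_le _ _).trans ?_
    have h4 : (k : ℝ) * |((a / k : ℤ) : ℝ)| ≤ |(a : ℝ)| + k := by
      rw [← abs_of_pos hk0, ← abs_mul, abs_of_pos hk0, eq_sub_of_add_eq h3']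
      refine (abs_sub _ _).trans ?_
      rw [abs_of_nonneg h1']; linarith
    have h5 : S ≤ k * (E.r / 2) := by
      rw [div_lt_iff₀ hr] at hkS; linarith
    have h6 : (k : ℝ) * (|((a / k : ℤ) : ℝ)| * ‖E.l g‖) ≤ k * E.r := by
      have h7 : (k : ℝ) * |((a / k : ℤ) : ℝ)| * ‖E.l g‖ ≤ (|(a : ℝ)| + k) * ‖E.l g‖ := by gcongr
      nlinarith
    exact le_of_mul_le_mul_left h6 hk0
  · refine (E.norm_zpow_le _ _).trans ?_
    rw [abs_of_nonneg h1']
    have : ((a % k : ℤ) : ℝ) * ‖E.l g‖ ≤ k * ‖E.l g‖ := by gcongr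
    linarith
  · simp only
    rw [← zpow_mul, ← zpow_add, mul_comm, h3]

/-- The key compactness lemma: ultralimits of rescaled powers are one-parameter subgroups. -/
theorem exists_isOP [IsTopologicalGroup G] [T2Space G] [CompleteSpace V] {ι : Type*}
    (𝒰 : Ultrafilter ι) (g : ι → G) (n : ι → ℕ) (hn : Tendsto n 𝒰 atTop) {R : ℝ}
    (hR : ∀ᶠ i in 𝒰, (n i : ℝ) * ‖E.l (g i)‖ ≤ R) :
    ∃ v X, E.IsOP v X ∧ Tendsto (fun i => (n i : ℝ) • E.l (g i)) 𝒰 (𝓝 v) ∧
      ∀ t : ℝ, Tendsto (fun i => g i ^ ⌊(n i : ℝ) * t⌋) 𝒰 (𝓝 (X t)) := by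
  have hn' : Tendsto (fun i => (n i : ℝ)) 𝒰 atTop := tendsto_natCast_atTop_atTop.comp hn
  have hN : Tendsto (fun i => ‖E.l (g i)‖) 𝒰 (𝓝 0) := by
    have h1 : Tendsto (fun i => R / (n i : ℝ)) 𝒰 (𝓝 0) := tendsto_const_nhds.div_atTop hn'
    refine squeeze_zero' (Eventually.of_forall fun i => norm_nonneg _) ?_ h1
    filter_upwards [hR, hn'.eventually_gt_atTop 0] with i h1 h2
    rw [le_div_iff₀ h2]; linarith
  have hfl : ∀ (t : ℝ) (i : ι), |((⌊(n i : ℝ) * t⌋ : ℤ) : ℝ) - n i * t| ≤ 1 := by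
    intro t i
    rw [abs_le]
    constructor
    · linarith [Int.lt_floor_add_one ((n i : ℝ) * t)]
    · linarith [Int.floor_le ((n i : ℝ) * t)]
  have hfl2 : ∀ t : ℝ, ∀ᶠ i in 𝒰,
      |((⌊(n i : ℝ) * t⌋ : ℤ) : ℝ)| * ‖E.l (g i)‖ ≤ |t| * R + ‖E.l (g i)‖ := by
    intro t
    filter_upwards [hR] with i hi
    have h1 : |((⌊(n i : ℝ) * t⌋ : ℤ) : ℝ)| ≤ n i * |t| + 1 := by
      have h2 := abs_sub_abs_le_abs_sub ((⌊(n i : ℝ) * t⌋ : ℤ) : ℝ) (n i * t)
      rw [abs_mul, Nat.abs_cast] at h2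
      linarith [hfl t i]
    have h3 : |t| * ((n i : ℝ) * ‖E.l (g i)‖) ≤ |t| * R := by gcongr
    have h4 : |((⌊(n i : ℝ) * t⌋ : ℤ) : ℝ)| * ‖E.l (g i)‖ ≤ (n i * |t| + 1) * ‖E.l (g i)‖ := by
      gcongr
    nlinarith
  have hex : ∀ t : ℝ, ∃ x, Tendsto (fun i => g i ^ ⌊(n i : ℝ) * t⌋) 𝒰 (𝓝 x) := by
    intro t
    obtain ⟨K, hK, δ, hδ, hKδ⟩ := E.exists_compact_zpow (|t| * R + 1)
    obtain ⟨x, -, hx⟩ := hK.ultrafilter_le_nhds (𝒰.map fun i => g i ^ ⌊(n i : ℝ) * t⌋) (by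
      rw [le_principal_iff, Ultrafilter.coe_map, mem_map]
      filter_upwards [hfl2 t, hN.eventually (ge_mem_nhds hδ), hN.eventually (ge_mem_nhds one_pos)]
        with i h1 h2 h3
      exact hKδ _ _ h2 (by linarith))
    exact ⟨x, hx⟩
  choose X hX using hex
  have hadd : ∀ s t, X (s + t) = X s * X t := by
    intro s t
    have h1 : Tendsto (fun i => g i ^ (⌊(n i : ℝ) * (s + t)⌋ - ⌊(n i : ℝ) * s⌋ - ⌊(n i : ℝ) * t⌋))
        𝒰 (𝓝 1) := by
      refine E.tendsto_one (squeeze_zero (fun i => norm_nonneg _) (fun i => ?_)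
        (by simpa using hN.const_mul 3))
      refine (E.norm_zpow_le _ _).trans ?_
      gcongr
      have a1 := abs_le.1 (hfl (s + t) i)
      have a2 := abs_le.1 (hfl s i)
      have a3 := abs_le.1 (hfl t i)
      push_cast
      rw [abs_le]
      constructor <;> nlinarith
    have h2 := ((hX s).mul (hX t)).mul h1
    rw [mul_one] at h2
    refine tendsto_nhds_unique (hX (s + t)) (h2.congr fun i => ?_)
    rw [← zpow_add, ← zpow_add]
    congr 1; ring
  have hest : ∀ t c : ℝ, t ^ 2 * R ^ 2 < c →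
      ∀ᶠ i in 𝒰, ‖E.l (X t) - t • ((n i : ℝ) • E.l (g i))‖ < c := by
    intro t c hc
    have h1 : Tendsto (fun i => ‖E.l (X t) - E.l (g i ^ ⌊(n i : ℝ) * t⌋)‖ +
        (|t| * R + ‖E.l (g i)‖) ^ 2 + ‖E.l (g i)‖) 𝒰 (𝓝 (t ^ 2 * R ^ 2)) := by
      have h2 := (((E.cont.tendsto _).comp (hX t)).const_sub (E.l (X t))).norm
      have h3 := (h2.add ((hN.const_add (|t| * R)).pow 2)).add hN
      simpa [mul_pow] using h3
    filter_upwards [h1.eventually (gt_mem_nhds hc), hfl2 t, hN.eventually (ge_mem_nhds E.r_pos)]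
      with i h2 h3 h4
    refine lt_of_le_of_lt ?_ h2
    set a := ⌊(n i : ℝ) * t⌋ with ha
    have h5 := E.zpow_err (g i) h4 a
    have h6 : E.l (X t) - t • ((n i : ℝ) • E.l (g i)) = (E.l (X t) - E.l (g i ^ a)) +
        (E.l (g i ^ a) - (a : ℝ) • E.l (g i)) + ((a : ℝ) - n i * t) • E.l (g i) := by module
    rw [h6]
    refine norm_add₃_le.trans ?_
    gcongr
    · refine h5.trans ?_
      rw [← mul_pow, ← sq_abs, abs_mul, abs_norm]
      gcongr
    · rw [norm_smul, Real.norm_eq_abs]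
      exact mul_le_of_le_one_left (norm_nonneg _) (hfl t i)
  have hcauchy : Cauchy (map (fun i => (n i : ℝ) • E.l (g i)) 𝒰) := by
    rw [Metric.cauchy_iff]
    refine ⟨inferInstance, fun ε hε => ?_⟩
    set t : ℝ := ε / (2 * (R ^ 2 + 1)) with ht
    have ht0 : 0 < t := by positivity
    refine ⟨Metric.ball (t⁻¹ • E.l (X t)) (ε / 2), ?_, fun x hx y hy => ?_⟩
    · rw [mem_map]
      have h1 : t ^ 2 * R ^ 2 < t * (ε / 2) := by
        have : t * (R ^ 2 + 1) = ε / 2 := by rw [ht]; field_simp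
        nlinarith
      filter_upwards [hest t _ h1] with i hi
      rw [mem_preimage, mem_ball_iff_norm']
      have h2 : t⁻¹ • E.l (X t) - (n i : ℝ) • E.l (g i) =
          t⁻¹ • (E.l (X t) - t • ((n i : ℝ) • E.l (g i))) := by
        rw [smul_sub, inv_smul_smul₀ ht0.ne']
      rw [h2, norm_smul, _root_.norm_inv, Real.norm_of_nonneg ht0.le, inv_mul_lt_iff₀ ht0]
      exact hi
    · have := dist_triangle_right x y (t⁻¹ • E.l (X t))
      rw [Metric.mem_ball] at hx hy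
      linarith
  obtain ⟨v, hv⟩ := CompleteSpace.complete hcauchy
  have hv' : Tendsto (fun i => (n i : ℝ) • E.l (g i)) 𝒰 (𝓝 v) := hv
  have hfin : ∀ t : ℝ, ‖E.l (X t) - t • v‖ ≤ t ^ 2 * R ^ 2 := by
    intro t
    refine le_of_forall_gt_imp_ge_of_dense fun c hc => ?_
    exact le_of_tendsto ((hv'.const_smul t).const_sub (E.l (X t))).norm
      ((hest t c hc).mono fun i hi => hi.le)
  have hX0 : X 0 = 1 := by
    have := hadd 0 0
    rw [add_zero] at this
    exact (left_eq_mul.1 this)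
  refine ⟨v, X, ⟨hadd, ?_⟩, hv', hX⟩
  rw [hasDerivAt_iff_isLittleO_nhds_zero]
  simp only [zero_add, hX0, E.l_one, sub_zero]
  refine IsBigO.trans_isLittleO (IsBigO.of_bound (R ^ 2) (Eventually.of_forall fun t => ?_))
    (isLittleO_pow_id (𝕜 := ℝ) one_lt_two)
  rw [Real.norm_of_nonneg (sq_nonneg t), mul_comm]
  exact hfin t

/-- Curve version. -/
theorem exists_isOP_of_bound [IsTopologicalGroup G] [T2Space G] [CompleteSpace V] (P : ℝ → G)
    {R : ℝ} (hP : ∀ᶠ t in 𝓝 (0 : ℝ), ‖E.l (P t)‖ ≤ R * |t|) :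
    ∃ v X, E.IsOP v X ∧ Tendsto (fun n : ℕ => (n : ℝ) • E.l (P (n : ℝ)⁻¹)) (hyperfilter ℕ) (𝓝 v) ∧
      ∀ t : ℝ, Tendsto (fun n : ℕ => P (n : ℝ)⁻¹ ^ ⌊(n : ℝ) * t⌋) (hyperfilter ℕ) (𝓝 (X t)) := by
  refine E.exists_isOP (hyperfilter ℕ) (fun n : ℕ => P (n : ℝ)⁻¹) id Nat.hyperfilter_le_atTop
    (R := R) ?_
  refine Eventually.filter_mono Nat.hyperfilter_le_atTop ?_
  filter_upwards [(tendsto_inv_atTop_nhds_zero_nat (𝕜 := ℝ)).eventually hP, eventually_gt_atTop 0]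
    with n hn hn0
  have h0 : (0 : ℝ) < n := by exact_mod_cast hn0
  rw [abs_of_pos (inv_pos.2 h0)] at hn
  calc (n : ℝ) * ‖E.l (P (n : ℝ)⁻¹)‖ ≤ n * (R * (n : ℝ)⁻¹) := by gcongr
    _ = R := by field_simp

theorem exists_isOP_of_hasDerivAt [IsTopologicalGroup G] [T2Space G] [CompleteSpace V] (P : ℝ → G)
    (h0 : P 0 = 1) {v : V} (hP : HasDerivAt (fun t => E.l (P t)) v 0) : ∃ X, E.IsOP v X := by
  obtain ⟨R, hR⟩ := hP.isBigO_sub.bound
  obtain ⟨w, X, hX, hw, -⟩ := E.exists_isOP_of_bound P (R := R) (by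
    simpa [h0, E.l_one] using hR)
  have h1 : Tendsto (fun n : ℕ => (n : ℝ) • E.l (P (n : ℝ)⁻¹)) atTop (𝓝 v) := by
    have h2 := hasDerivAt_iff_tendsto_slope_zero.1 hP
    have h3 : Tendsto (fun n : ℕ => (n : ℝ)⁻¹) atTop (𝓝[≠] 0) := by
      refine tendsto_nhdsWithin_iff.2 ⟨tendsto_inv_atTop_nhds_zero_nat (𝕜 := ℝ), ?_⟩
      filter_upwards [eventually_gt_atTop 0] with n hn
      simpa using hn.ne'
    have h4 := h2.comp h3
    simpa [Function.comp_def, h0, E.l_one] using h4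
  have := tendsto_nhds_unique hw (h1.mono_left Nat.hyperfilter_le_atTop)
  exact ⟨X, this ▸ hX⟩

/-- Conjugates of one-parameter subgroups. -/
theorem IsOP.conj [IsTopologicalGroup G] [T2Space G] [CompleteSpace V] {E : GF G V} {v : V}
    {X : ℝ → G} (h : E.IsOP v X) (g : G) : ∃ w, E.IsOP w (fun t => g * X t * g⁻¹) := by
  obtain ⟨K, hK0, hK⟩ := E.exists_conj_le g
  obtain ⟨w, Y, hY, -, hlim⟩ := E.exists_isOP_of_bound (fun t => g * X t * g⁻¹) (R := K * ‖v‖)
    (Eventually.of_forall fun t => (hK _).trans (by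
      have := h.norm_le t
      calc K * ‖E.l (X t)‖ ≤ K * (|t| * ‖v‖) := by gcongr
        _ = _ := by ring))
  refine ⟨w, ?_⟩
  have : Y = fun t => g * X t * g⁻¹ := by
    funext t
    refine tendsto_nhds_unique (hlim t) ?_
    have h1 : Tendsto (fun n : ℕ => ((⌊(n : ℝ) * t⌋ : ℤ) : ℝ) * (n : ℝ)⁻¹) atTop (𝓝 t) := by
      rw [tendsto_iff_norm_sub_tendsto_zero]
      refine squeeze_zero' (Eventually.of_forall fun _ => norm_nonneg _) ?_
        (tendsto_inv_atTop_nhds_zero_nat (𝕜 := ℝ))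
      filter_upwards [eventually_gt_atTop 0] with n hn
      have h0 : (0 : ℝ) < n := by exact_mod_cast hn
      have h2 : ((⌊(n : ℝ) * t⌋ : ℤ) : ℝ) * (n : ℝ)⁻¹ - t =
          (((⌊(n : ℝ) * t⌋ : ℤ) : ℝ) - n * t) * (n : ℝ)⁻¹ := by field_simp
      rw [h2, norm_mul, Real.norm_of_nonneg (inv_pos.2 h0).le]
      refine mul_le_of_le_one_left (inv_pos.2 h0).le ?_
      rw [Real.norm_eq_abs, abs_le]
      constructor
      · linarith [Int.lt_floor_add_one ((n : ℝ) * t)]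
      · linarith [Int.floor_le ((n : ℝ) * t)]
    have h2 := (((h.continuous.tendsto t).comp h1).const_mul g).mul_const g⁻¹
    refine (h2.mono_left Nat.hyperfilter_le_atTop).congr fun n => ?_
    simp only [Function.comp]
    rw [conj_zpow, h.zpow]
  exact this ▸ hY

end GF

end Crest.Agent.R217
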