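import Crest.Agent.R217.H5B2

/-! # R217 / H5, part B3 : the Lie algebra and `exp` -/

set_option autoImplicit false
open scoped Topology ContDiff
open Filter Set Asymptotics

namespace Crest.Agent.R217

variable {G V : Type*} [Group G] [TopologicalSpace G] [NormedAddCommGroup V] [NormedSpace ℝ V]

namespace GF

variable (E : GF G V)

theorem hasDerivAt_mul {P Q : ℝ → G} {v w : V} (hP0 : P 0 = 1) (hQ0 : Q 0 = 1)
    (hP : HasDerivAt (fun t => E.l (P t)) v 0) (hQ : HasDerivAt (fun t => E.l (Q t)) w 0) :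
    HasDerivAt (fun t => E.l (P t * Q t)) (v + w) 0 := by
  have h1 := E.mul_isLittleO (P := P) (Q := Q) (f := 𝓝 0) (u := fun t : ℝ => t)
    (by simpa [hP0, E.l_one] using hP.continuousAt.tendsto)
    (by simpa [hQ0, E.l_one] using hQ.continuousAt.tendsto)
    (by simpa [hQ0, E.l_one] using hQ.isBigO_sub)
  rw [hasDerivAt_iff_isLittleO_nhds_zero] at hP hQ ⊢
  simp only [zero_add, hP0, hQ0, mul_one, E.l_one, sub_zero] at hP hQ ⊢
  refine ((h1.add hP).add hQ).congr_left fun t => ?_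
  module

variable [IsTopologicalGroup G] [T2Space G] [CompleteSpace V]

/-- The Lie algebra: velocities of one-parameter subgroups. -/
def L : Submodule ℝ V where
  carrier := {v | ∃ X, E.IsOP v X}
  zero_mem' := ⟨fun _ => 1, fun _ _ => (mul_one 1).symm, hasDerivAt_const _ _⟩
  add_mem' := by
    rintro v w ⟨X, hX⟩ ⟨Y, hY⟩
    exact E.exists_isOP_of_hasDerivAt (fun t => X t * Y t) (by simp [hX.zero, hY.zero])
      (E.hasDerivAt_mul hX.zero hY.zero hX.deriv hY.deriv)
  smul_mem' := by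
    rintro c v ⟨X, hX⟩
    exact ⟨_, hX.smul c⟩

/-- The exponential map. -/
noncomputable def ex (v : E.L) : G := Classical.choose v.2 1

theorem ex_smul_eq {v : E.L} {X : ℝ → G} (h : E.IsOP v X) (t : ℝ) : E.ex (t • v) = X t := by
  have h1 := Classical.choose_spec (t • v).2
  have h2 : E.IsOP ((t • v : E.L) : V) (fun s => X (s * t)) := h.smul t
  have := congrFun (h1.unique h2) 1
  simpa [ex] using this

theorem isOP_ex (v : E.L) : E.IsOP v (fun t => E.ex (t • v)) := by
  have h := Classical.choose_spec v.2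
  have : (fun t => E.ex (t • v)) = Classical.choose v.2 := funext fun t => E.ex_smul_eq h t
  rw [this]; exact h

theorem ex_add_smul (v : E.L) (s t : ℝ) : E.ex ((s + t) • v) = E.ex (s • v) * E.ex (t • v) :=
  (E.isOP_ex v).add s t

theorem ex_zero : E.ex 0 = 1 := by simpa using (E.isOP_ex 0).zero

theorem ex_neg (v : E.L) : E.ex (-v) = (E.ex v)⁻¹ := by simpa using (E.isOP_ex v).neg 1

theorem norm_ex_le (v : E.L) : ‖E.l (E.ex v)‖ ≤ ‖v‖ := by simpa using (E.isOP_ex v).norm_le 1

theorem ex_sub_le (v : E.L) : ‖E.l (E.ex v) - v‖ ≤ ‖v‖ ^ 2 := by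
  simpa using (E.isOP_ex v).sub_le 1

theorem τ_sub_le (g : G) (v : E.L) : ‖E.τ g v - v‖ ≤ ‖E.l g‖ * ‖v‖ := (E.isOP_ex v).τ_sub g

theorem finiteDimensional : FiniteDimensional ℝ E.L := by
  refine FiniteDimensional.of_totallyBounded_nhds_zero ℝ
    (Metric.closedBall_mem_nhds (0 : E.L) one_pos) ?_
  have h1 : TotallyBounded {v : V | ∃ w : E.L, ‖w‖ ≤ 1 ∧ v = w} := by
    rw [Metric.totallyBounded_iff]
    intro ε hε
    set t : ℝ := min (ε / 4) E.r with ht
    have ht0 : 0 < t := lt_min (by positivity) E.r_pos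
    have hc : IsCompact ((fun g => t⁻¹ • E.l g) '' {g | ‖E.l g‖ ≤ E.r}) :=
      E.cpt.image (E.cont.const_smul _)
    obtain ⟨F, hF, hFc⟩ := Metric.totallyBounded_iff.1 hc.totallyBounded (ε / 2) (by positivity)
    refine ⟨F, hF, ?_⟩
    rintro v ⟨w, hw, rfl⟩
    have h2 : ‖E.l (E.ex (t • w))‖ ≤ E.r := by
      refine (E.norm_ex_le _).trans ?_
      rw [norm_smul, Real.norm_of_nonneg ht0.le]
      exact (mul_le_of_le_one_right ht0.le hw).trans (min_le_right _ _)
    have h3 := hFc ⟨E.ex (t • w), h2, rfl⟩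
    simp only [mem_iUnion, Metric.mem_ball] at h3 ⊢
    obtain ⟨y, hy, h4⟩ := h3
    refine ⟨y, hy, ?_⟩
    have h5 : dist (w : V) (t⁻¹ • E.l (E.ex (t • w))) ≤ ε / 4 := by
      have h6 := (E.isOP_ex w).sub_le t
      have h7 : (w : V) - t⁻¹ • E.l (E.ex (t • w)) = -(t⁻¹ • (E.l (E.ex (t • w)) - t • (w : V))) := by
        rw [smul_sub, inv_smul_smul₀ ht0.ne', neg_sub]
      rw [dist_eq_norm, h7, norm_neg, norm_smul, _root_.norm_inv, Real.norm_of_nonneg ht0.le,
        inv_mul_le_iff₀ ht0]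
      refine h6.trans ?_
      have h8 : ‖(w : V)‖ ^ 2 ≤ 1 := pow_le_one₀ (norm_nonneg _) hw
      have h9 : t ≤ ε / 4 := min_le_left _ _
      nlinarith
    linarith [dist_triangle (w : V) (t⁻¹ • E.l (E.ex (t • w))) y]
  refine (totallyBounded_preimage isUniformEmbedding_subtype_val.isUniformInducing h1).subset ?_
  intro w hw
  exact ⟨w, by simpa using hw, rfl⟩

omit [IsTopologicalGroup G] [T2Space G] [CompleteSpace V] in
theorem IsOP.vel_unique {E : GF G V} {v w : V} {X : ℝ → G} (h : E.IsOP v X) (h' : E.IsOP w X) :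
    v = w := h.deriv.unique h'.deriv

end GF

/-- A normalised Gleason embedding together with an abstract model `W` of its Lie algebra. -/
structure GX (G V W : Type*) [Group G] [TopologicalSpace G] [NormedAddCommGroup V]
    [NormedSpace ℝ V] [NormedAddCommGroup W] [NormedSpace ℝ W] extends GF G V where
  ι : W →L[ℝ] V
  norm_ι : ∀ w, ‖ι w‖ = ‖w‖
  ex : W → G
  isOP_ex : ∀ w, toGF.IsOP (ι w) (fun t => ex (t • w))
  surj : ∀ v X, toGF.IsOP v X → ∃ w, ι w = v

/-- The Lie algebra itself is such a model. -/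
noncomputable def GF.toGX [IsTopologicalGroup G] [T2Space G] [CompleteSpace V] (E : GF G V) :
    GX G V E.L where
  toGF := E
  ι := E.L.subtypeL
  norm_ι _ := rfl
  ex := E.ex
  isOP_ex := E.isOP_ex
  surj v X h := ⟨⟨v, X, h⟩, rfl⟩

end Crest.Agent.R217
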