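import Crest.Agent.R217.H5B3
import Crest.Agent.R217.H5Ana

/-! # R217 / H5, part B4 : `Ad`, `ad`, `Ψ` -/

set_option autoImplicit false
set_option linter.unusedSectionVars false
open scoped Topology ContDiff
open Filter Set Asymptotics

namespace Crest.Agent.R217

variable {G V W : Type*} [Group G] [TopologicalSpace G] [NormedAddCommGroup V] [NormedSpace ℝ V]
  [NormedAddCommGroup W] [NormedSpace ℝ W]

namespace GX

variable (E : GX G V W)

theorem ι_injective : Function.Injective E.ι := by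
  intro v w h
  have := E.norm_ι (v - w)
  rw [map_sub, h, sub_self, norm_zero] at this
  exact sub_eq_zero.1 (norm_eq_zero.1 this.symm)

theorem ex_add_smul (v : W) (s t : ℝ) : E.ex ((s + t) • v) = E.ex (s • v) * E.ex (t • v) :=
  (E.isOP_ex v).add s t

theorem ex_zero : E.ex 0 = 1 := by simpa using (E.isOP_ex 0).zero

theorem ex_neg (v : W) : E.ex (-v) = (E.ex v)⁻¹ := by simpa using (E.isOP_ex v).neg 1

theorem norm_ex_le (v : W) : ‖E.l (E.ex v)‖ ≤ ‖v‖ := by
  simpa [E.norm_ι] using (E.isOP_ex v).norm_le 1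

theorem ex_sub_le (v : W) : ‖E.l (E.ex v) - E.ι v‖ ≤ ‖v‖ ^ 2 := by
  simpa [E.norm_ι] using (E.isOP_ex v).sub_le 1

theorem τ_sub_le (g : G) (v : W) : ‖E.τ g (E.ι v) - E.ι v‖ ≤ ‖E.l g‖ * ‖v‖ := by
  simpa [E.norm_ι] using (E.isOP_ex v).τ_sub g

variable [IsTopologicalGroup G] [T2Space G] [CompleteSpace V] [FiniteDimensional ℝ W]
  [CompleteSpace W]

theorem ex_smul_eq {v : W} {X : ℝ → G} (h : E.IsOP (E.ι v) X) (t : ℝ) : E.ex (t • v) = X t :=
  congrFun ((E.isOP_ex v).unique h) t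

theorem exists_Ad (g : G) (v : W) :
    ∃ w : W, E.IsOP (E.ι w) (fun t => g * E.ex (t • v) * g⁻¹) := by
  obtain ⟨w, hw⟩ := (E.isOP_ex v).conj g
  obtain ⟨w', rfl⟩ := E.surj _ _ hw
  exact ⟨w', hw⟩

/-- The adjoint action, as a linear map. -/
noncomputable def AdL (g : G) : W →ₗ[ℝ] W where
  toFun v := Classical.choose (E.exists_Ad g v)
  map_add' v w := by
    have hv := Classical.choose_spec (E.exists_Ad g v)
    have hw := Classical.choose_spec (E.exists_Ad g w)
    have hs := Classical.choose_spec (E.exists_Ad g (v + w))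
    apply E.ι_injective
    have h1 := E.hasDerivAt_mul hv.zero hw.zero hv.deriv hw.deriv
    have h2 := E.hasDerivAt_mul (E.isOP_ex v).zero (E.isOP_ex w).zero (E.isOP_ex v).deriv
      (E.isOP_ex w).deriv
    have h3 := (E.isOP_ex (v + w)).deriv.sub h2
    rw [hasDerivAt_iff_isLittleO_nhds_zero] at h3
    simp only [Pi.sub_apply, zero_add, zero_smul, E.ex_zero, mul_one, sub_self, sub_zero,
      map_add, smul_zero] at h3
    have h4 := (E.conj_isBigO (𝓝 0) g _ _).trans_isLittleO h3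
    have h5 : HasDerivAt (fun t : ℝ => E.l (g * E.ex (t • (v + w)) * g⁻¹) -
        E.l (g * E.ex (t • v) * g⁻¹ * (g * E.ex (t • w) * g⁻¹))) 0 0 := by
      rw [hasDerivAt_iff_isLittleO_nhds_zero]
      simp only [zero_add, zero_smul, E.ex_zero, mul_one, mul_inv_cancel, sub_self, sub_zero,
        smul_zero]
      refine h4.congr_left fun t => ?_
      congr 2; group
    have h6 := (hs.deriv.sub h1).unique h5
    rw [map_add]
    exact sub_eq_zero.1 h6
  map_smul' c v := by
    have hv := Classical.choose_spec (E.exists_Ad g v)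
    have hs := Classical.choose_spec (E.exists_Ad g (c • v))
    apply E.ι_injective
    have h1 := hv.smul c
    simp only [mul_smul] at h1
    rw [map_smul]
    exact hs.vel_unique h1

/-- The adjoint action. -/
noncomputable def Ad (g : G) : W →L[ℝ] W := LinearMap.toContinuousLinearMap (E.AdL g)

theorem isOP_Ad (g : G) (v : W) : E.IsOP (E.ι (E.Ad g v)) (fun t => g * E.ex (t • v) * g⁻¹) :=
  Classical.choose_spec (E.exists_Ad g v)

theorem ex_Ad (g : G) (v : W) : E.ex (E.Ad g v) = g * E.ex v * g⁻¹ := by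
  simpa using E.ex_smul_eq (E.isOP_Ad g v) 1

theorem Ad_one : E.Ad 1 = 1 := by
  ext v
  have h := E.isOP_Ad 1 v
  simp only [one_mul, inv_one, mul_one] at h
  exact E.ι_injective (h.vel_unique (E.isOP_ex v))

theorem Ad_mul (g h : G) : E.Ad (g * h) = E.Ad g * E.Ad h := by
  ext v
  have h1 := E.isOP_Ad (g * h) v
  have h2 := E.isOP_Ad g (E.Ad h v)
  refine E.ι_injective (h1.vel_unique ?_)
  have : (fun t : ℝ => g * h * E.ex (t • v) * (g * h)⁻¹) =
      fun t : ℝ => g * E.ex (t • E.Ad h v) * g⁻¹ := by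
    funext t
    rw [← map_smul, E.ex_Ad]; group
  rw [this]; exact h2

theorem norm_Ad_sub_one {g : G} (hg : ‖E.l g‖ ≤ E.r) : ‖E.Ad g - 1‖ ≤ 3 * ‖E.l g‖ := by
  refine ContinuousLinearMap.opNorm_le_bound _ (by positivity) fun v => ?_
  have h1 := (E.isOP_Ad g v).deriv.sub (E.isOP_ex v).deriv
  have h2 := h1.le_of_lip' (C := 3 * ‖E.l g‖ * ‖v‖) (by positivity) (by
    have h3 := (E.isOP_ex v).tendsto_zero.norm
    rw [norm_zero] at h3
    filter_upwards [h3.eventually (ge_mem_nhds E.r_pos)] with t ht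
    simp only [Pi.sub_apply, zero_smul, E.ex_zero, mul_one, mul_inv_cancel, sub_self, sub_zero,
      Real.norm_eq_abs]
    refine (E.conj_err g _ hg ht).trans ?_
    have h4 := (E.isOP_ex v).norm_le t
    rw [E.norm_ι] at h4
    calc 3 * ‖E.l g‖ * ‖E.l (E.ex (t • v))‖ ≤ 3 * ‖E.l g‖ * (|t| * ‖v‖) := by gcongr
      _ = _ := by ring)
  rw [← map_sub, E.norm_ι] at h2
  simpa using h2

theorem norm_Ad_sub {g h : G} (hg : ‖E.l g - E.l h‖ ≤ E.r) :
    ‖E.Ad g - E.Ad h‖ ≤ ‖E.Ad h‖ * (3 * ‖E.l g - E.l h‖) := by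
  rw [← E.norm_inv_mul] at hg ⊢
  have : E.Ad g - E.Ad h = E.Ad h * (E.Ad (h⁻¹ * g) - 1) := by
    rw [mul_sub, ← E.Ad_mul, mul_inv_cancel_left, mul_one]
  rw [this]
  exact (norm_mul_le _ _).trans (by gcongr; exact E.norm_Ad_sub_one hg)

theorem continuous_Ad : Continuous E.Ad := by
  refine continuous_iff_continuousAt.2 fun h => tendsto_iff_norm_sub_tendsto_zero.2 ?_
  have h1 : Tendsto (fun g => ‖E.l g - E.l h‖) (𝓝 h) (𝓝 0) :=
    tendsto_iff_norm_sub_tendsto_zero.1 (E.cont.tendsto h)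
  refine squeeze_zero' (Eventually.of_forall fun _ => norm_nonneg _) ?_
    (by simpa using (h1.const_mul 3).const_mul ‖E.Ad h‖)
  filter_upwards [h1.eventually (ge_mem_nhds E.r_pos)] with g hg using E.norm_Ad_sub hg

theorem exists_ad (x : W) :
    ∃ a : W →L[ℝ] W, ∀ t : ℝ, E.Ad (E.ex (t • x)) = NormedSpace.exp (t • a) :=
  exists_exp_of_oneParam (fun t : ℝ => E.Ad (E.ex (t • x)))
    (E.continuous_Ad.comp (E.isOP_ex x).continuous) (by simp [E.ex_zero, E.Ad_one])
    (fun s t => by rw [E.ex_add_smul, E.Ad_mul])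

theorem hasDerivAt_ad (x : W) :
    HasDerivAt (fun t : ℝ => E.Ad (E.ex (t • x))) (Classical.choose (E.exists_ad x)) 0 := by
  have h := hasDerivAt_exp_smul_const (𝕂 := ℝ) (Classical.choose (E.exists_ad x)) 0
  simp only [zero_smul, NormedSpace.exp_zero, one_mul] at h
  exact h.congr_of_eventuallyEq (Eventually.of_forall (Classical.choose_spec (E.exists_ad x)))

/-- The infinitesimal adjoint action, as a linear map. -/
noncomputable def adL : W →ₗ[ℝ] (W →L[ℝ] W) where
  toFun x := Classical.choose (E.exists_ad x)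
  map_add' x y := by
    have h1 := (E.hasDerivAt_ad x).mul (E.hasDerivAt_ad y)
    simp only [zero_smul, E.ex_zero, E.Ad_one, mul_one, one_mul] at h1
    have h2 := E.hasDerivAt_mul (E.isOP_ex x).zero (E.isOP_ex y).zero (E.isOP_ex x).deriv
      (E.isOP_ex y).deriv
    have h3 := (E.isOP_ex (x + y)).deriv.sub h2
    have h3' := h3.continuousAt.tendsto.norm
    rw [hasDerivAt_iff_isLittleO_nhds_zero] at h3
    simp only [Pi.sub_apply, zero_add, zero_smul, E.ex_zero, mul_one, sub_self, sub_zero,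
      map_add, smul_zero, norm_zero] at h3 h3'
    have h4 := h1.continuousAt.tendsto.norm.eventually (ge_mem_nhds (lt_add_one _))
    have h5 : HasDerivAt (fun t : ℝ => E.Ad (E.ex (t • (x + y))) -
        E.Ad (E.ex (t • x)) * E.Ad (E.ex (t • y))) 0 0 := by
      rw [hasDerivAt_iff_isLittleO_nhds_zero]
      simp only [zero_add, zero_smul, E.ex_zero, E.Ad_one, mul_one, sub_self, sub_zero, smul_zero]
      refine IsBigO.trans_isLittleO (IsBigO.of_bound
        ((‖((fun t : ℝ => E.Ad (E.ex (t • x))) * fun t : ℝ => E.Ad (E.ex (t • y))) 0‖ + 1) * 3)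
        ?_) h3
      filter_upwards [h4, h3'.eventually (ge_mem_nhds E.r_pos)] with t ht1 ht2
      rw [Pi.mul_apply, ← E.Ad_mul] at ht1
      rw [← E.Ad_mul, mul_assoc]
      exact (E.norm_Ad_sub ht2).trans (by gcongr)
    exact sub_eq_zero.1 (((E.hasDerivAt_ad (x + y)).sub h1).unique h5)
  map_smul' c x := by
    have h1 : HasDerivAt (fun t : ℝ => E.Ad (E.ex (t • x))) (Classical.choose (E.exists_ad x))
        (0 * c) := by rw [zero_mul]; exact E.hasDerivAt_ad x
    have h2 := h1.scomp (0 : ℝ) ((hasDerivAt_id (0 : ℝ)).mul_const c)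
    simp only [Function.comp_def, id, mul_smul, one_mul] at h2
    exact (E.hasDerivAt_ad (c • x)).unique h2

/-- The infinitesimal adjoint action. -/
noncomputable def ad : W →L[ℝ] (W →L[ℝ] W) := LinearMap.toContinuousLinearMap E.adL

theorem Ad_ex_smul (x : W) (t : ℝ) : E.Ad (E.ex (t • x)) = NormedSpace.exp (t • E.ad x) :=
  Classical.choose_spec (E.exists_ad x) t

theorem Ad_ex (x : W) : E.Ad (E.ex x) = NormedSpace.exp (E.ad x) := by
  simpa using E.Ad_ex_smul x 1

theorem contDiff_Ad_ex : ContDiff ℝ ∞ (fun x => E.Ad (E.ex x)) := by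
  simp only [E.Ad_ex]
  exact contDiff_exp'.comp E.ad.contDiff

/-- The logarithmic derivative of `exp`. -/
noncomputable def Psi (x : W) : W →L[ℝ] W :=
  ∫ s in (0 : ℝ)..1, NormedSpace.exp ((-s) • E.ad x)

theorem contDiff_Psi : ContDiff ℝ ∞ E.Psi := contDiff_integral_exp.comp E.ad.contDiff

theorem Psi_zero : E.Psi 0 = 1 := by simp [Psi]

theorem Psi_eq (x : W) : E.Psi x = ∫ s in (0 : ℝ)..1, E.Ad (E.ex ((-s) • x)) := by
  simp only [E.Ad_ex_smul, Psi]

end GX

end Crest.Agent.R217
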