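import Crest.Agent.R217.H5B4

/-! # R217 / H5, part B5 : logarithmic derivatives, the differential of `exp` -/

set_option autoImplicit false
set_option linter.unusedSectionVars false
open scoped Topology ContDiff
open Filter Set Asymptotics

namespace Crest.Agent.R217

variable {G V W : Type*} [Group G] [TopologicalSpace G] [NormedAddCommGroup V] [NormedSpace ℝ V]
  [NormedAddCommGroup W] [NormedSpace ℝ W]

namespace GX

variable (E : GX G V W) {F : Type*} [NormedAddCommGroup F] [NormedSpace ℝ F]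

/-- `P'` is the left logarithmic derivative of `P` at `p`. -/
def HasLD (P : F → G) (P' : F →L[ℝ] W) (p : F) : Prop :=
  (fun q => E.l ((P p)⁻¹ * P q) - E.ι (P' (q - p))) =o[𝓝 p] fun q => q - p

theorem ex_isLittleO {α : Type*} {f : Filter α} {u : α → W} {w : α → F} (hu : u =O[f] w)
    (hw : Tendsto w f (𝓝 0)) : (fun q => E.l (E.ex (u q)) - E.ι (u q)) =o[f] w := by
  have h1 : (fun q => E.l (E.ex (u q)) - E.ι (u q)) =O[f] fun q => ‖u q‖ * ‖u q‖ := by
    refine IsBigO.of_bound 1 (Eventually.of_forall fun q => ?_)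
    rw [one_mul, Real.norm_of_nonneg (by positivity), ← sq]
    exact E.ex_sub_le _
  have h3 : (fun q => ‖u q‖) =o[f] fun _ => (1 : ℝ) := by
    rw [isLittleO_one_iff]
    simpa using (hu.trans_tendsto hw).norm
  have h4 := h3.mul_isBigO hu.norm_norm
  refine h1.trans_isLittleO ?_
  simpa using h4

omit E in
theorem tendsto_sub_self (p : F) : Tendsto (fun q => q - p) (𝓝 p) (𝓝 0) := by
  simpa using (tendsto_id (α := F) (x := 𝓝 p)).sub_const p

variable {E}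

theorem HasLD.isBigO {P : F → G} {P' : F →L[ℝ] W} {p : F} (h : E.HasLD P P' p) :
    (fun q => E.l ((P p)⁻¹ * P q)) =O[𝓝 p] fun q => q - p := by
  have h1 : (fun q => E.ι (P' (q - p))) =O[𝓝 p] fun q => q - p :=
    (E.ι ∘L P').isBigO_comp (fun q => q - p) (𝓝 p)
  simpa using (IsLittleO.isBigO h).add h1

theorem HasLD.tendsto {P : F → G} {P' : F →L[ℝ] W} {p : F} (h : E.HasLD P P' p) :
    Tendsto (fun q => E.l ((P p)⁻¹ * P q)) (𝓝 p) (𝓝 0) :=
  h.isBigO.trans_tendsto (tendsto_sub_self p)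

theorem HasLD.const_mul {P : F → G} {P' : F →L[ℝ] W} {p : F} (h : E.HasLD P P' p) (c : G) :
    E.HasLD (fun q => c * P q) P' p := by
  refine IsLittleO.congr_left h fun q => ?_
  congr 2; group

theorem hasLD_const (c : G) (p : F) : E.HasLD (fun _ => c) (0 : F →L[ℝ] W) p := by
  simp [HasLD, E.l_one]

theorem HasLD.comp_clm {F' : Type*} [NormedAddCommGroup F'] [NormedSpace ℝ F'] {P : F → G}
    {P' : F →L[ℝ] W} (f : F' →L[ℝ] F) {p : F'} (h : E.HasLD P P' (f p)) :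
    E.HasLD (fun q => P (f q)) (P' ∘L f) p := by
  have h1 := IsLittleO.comp_tendsto h (f.continuous.tendsto p)
  have h2 := h1.trans_isBigO ((f.isBigO_sub (𝓝 p) p).congr_left fun q => by simp)
  refine h2.congr_left fun q => ?_
  simp

theorem HasLD.hasFDerivAt {P : F → G} {P' : F →L[ℝ] W} {p : F} (h : E.HasLD P P' p) :
    HasFDerivAt (fun q => E.l (P q)) (E.τ (P p) ∘L (E.ι ∘L P')) p := by
  rw [hasFDerivAt_iff_isLittleO]
  refine (((E.τ (P p)).isBigO_comp _ _).trans_isLittleO h).congr_left fun q => ?_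
  have := E.cocycle (P p) ((P p)⁻¹ * P q)
  rw [mul_inv_cancel_left] at this
  simp [this]

variable [IsTopologicalGroup G] [T2Space G] [CompleteSpace V] [FiniteDimensional ℝ W]
  [CompleteSpace W]

theorem HasLD.continuousAt {P : F → G} {P' : F →L[ℝ] W} {p : F} (h : E.HasLD P P' p) :
    ContinuousAt P p := E.tendsto_of_l (by simpa using h.tendsto.norm)

theorem conj_isLittleO {α : Type*} {f : Filter α} {a : α → G} {u : α → W} {w : α → F}
    (hu : u =O[f] w) (hw : Tendsto w f (𝓝 0)) (h : (fun q => E.l (a q) - E.ι (u q)) =o[f] w)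
    (c : G) : (fun q => E.l (c * a q * c⁻¹) - E.ι (E.Ad c (u q))) =o[f] w := by
  have h1 := E.ex_isLittleO hu hw
  have h2 : (fun q => E.l (a q) - E.l (E.ex (u q))) =o[f] w :=
    (h.sub h1).congr_left fun q => by abel
  have h3 := (E.conj_isBigO f c _ _).trans_isLittleO h2
  have h4 := E.ex_isLittleO (((E.Ad c).isBigO_comp u f).trans hu) hw
  refine (h3.add h4).congr_left fun q => ?_
  rw [E.ex_Ad]; abel

theorem HasLD.mul {P Q : F → G} {P' Q' : F →L[ℝ] W} {p : F} (hP : E.HasLD P P' p)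
    (hQ : E.HasLD Q Q' p) : E.HasLD (fun q => P q * Q q) (E.Ad (Q p)⁻¹ ∘L P' + Q') p := by
  have h1 := conj_isLittleO (P'.isBigO_comp (fun q => q - p) (𝓝 p)) (tendsto_sub_self p) hP (Q p)⁻¹
  have h2 : Tendsto (fun q => E.l ((Q p)⁻¹ * ((P p)⁻¹ * P q) * (Q p)⁻¹⁻¹)) (𝓝 p) (𝓝 0) := by
    have h3 := (E.conj_isBigO (𝓝 p) (Q p)⁻¹ (fun q => (P p)⁻¹ * P q) (fun _ => 1))
    simp only [mul_one, mul_inv_cancel, E.l_one, sub_zero] at h3
    exact h3.trans_tendsto hP.tendsto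
  have h3 := E.mul_isLittleO h2 hQ.tendsto hQ.isBigO
  refine ((h3.add h1).add hQ).congr_left fun q => ?_
  have : (Q p)⁻¹ * ((P p)⁻¹ * P q) * (Q p)⁻¹⁻¹ * ((Q p)⁻¹ * Q q) = (P p * Q p)⁻¹ * (P q * Q q) := by
    group
  rw [this]
  simp only [add_apply, ContinuousLinearMap.comp_apply, map_add]
  abel

variable (E)

theorem hasLD_ex_smul (y : W) (s : ℝ) :
    E.HasLD (fun t : ℝ => E.ex (t • y)) (ContinuousLinearMap.toSpanSingleton ℝ y) s := by
  have h := E.ex_isLittleO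
    ((ContinuousLinearMap.toSpanSingleton ℝ y).isBigO_comp (fun q => q - s) (𝓝 s))
    (tendsto_sub_self s)
  refine h.congr_left fun q => ?_
  simp only [ContinuousLinearMap.toSpanSingleton_apply]
  rw [← E.ex_neg, ← neg_smul, ← E.ex_add_smul, neg_add_eq_sub]

theorem Ad_ex_self (y : W) (s : ℝ) : E.Ad (E.ex (s • y)) y = y := by
  refine E.ι_injective ((E.isOP_Ad _ y).vel_unique ?_)
  have : (fun t : ℝ => E.ex (s • y) * E.ex (t • y) * (E.ex (s • y))⁻¹) =
      fun t : ℝ => E.ex (t • y) := by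
    funext t
    rw [← E.ex_add_smul, add_comm, E.ex_add_smul, mul_inv_cancel_right]
  rw [this]; exact E.isOP_ex y

theorem hasDerivAt_gamma (x y : W) (s : ℝ) :
    HasDerivAt (fun t : ℝ => E.l (E.ex (t • (-x)) * E.ex (t • y)))
      (E.τ (E.ex (s • (-x)) * E.ex (s • y)) (E.ι (E.Ad (E.ex ((-s) • y)) (y - x)))) s := by
  have h := ((E.hasLD_ex_smul (-x) s).mul (E.hasLD_ex_smul y s)).hasFDerivAt.hasDerivAt
  simp only [ContinuousLinearMap.comp_apply, add_apply,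
    ContinuousLinearMap.toSpanSingleton_apply, one_smul] at h
  convert h using 3
  rw [map_sub, E.Ad_ex_self, neg_smul, E.ex_neg, map_neg]
  abel

theorem exists_diff (R : ℝ) : ∃ K : ℝ, 0 ≤ K ∧ ∀ x y : W, ‖y‖ ≤ R →
    ‖E.l ((E.ex x)⁻¹ * E.ex y)‖ ≤ K * ‖y - x‖ ∧
      ‖E.l ((E.ex x)⁻¹ * E.ex y) - E.ι (E.Psi y (y - x))‖ ≤ K ^ 2 * ‖y - x‖ ^ 2 := by
  have : ProperSpace W := FiniteDimensional.proper_real W
  obtain ⟨K, hK⟩ := (isCompact_closedBall (0 : W) R).exists_bound_of_continuousOn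
    E.contDiff_Ad_ex.continuous.continuousOn
  refine ⟨max K 0, le_max_right _ _, fun x y hy => ?_⟩
  have hb : ∀ s ∈ Ico (0 : ℝ) 1, ‖E.Ad (E.ex ((-s) • y)) (y - x)‖ ≤ max K 0 * ‖y - x‖ := by
    intro s hs
    refine (ContinuousLinearMap.le_opNorm _ _).trans ?_
    gcongr
    refine (hK _ ?_).trans (le_max_left _ _)
    rw [mem_closedBall_zero_iff, norm_smul, norm_neg, Real.norm_of_nonneg hs.1]
    exact (mul_le_of_le_one_left (norm_nonneg _) hs.2.le).trans hy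
  have h1 : ∀ s ∈ Icc (0 : ℝ) 1, ‖E.l (E.ex (s • (-x)) * E.ex (s • y))‖ ≤ max K 0 * ‖y - x‖ := by
    intro s hs
    have := norm_image_sub_le_of_norm_deriv_le_segment' (a := 0) (b := 1)
      (fun s _ => (E.hasDerivAt_gamma x y s).hasDerivWithinAt)
      (fun s hs => by rw [E.norm_τ, E.norm_ι]; exact hb s hs) s hs
    simp only [zero_smul, E.ex_zero, mul_one, E.l_one, sub_zero] at this
    exact this.trans (mul_le_of_le_one_right (by positivity) hs.2)
  refine ⟨by simpa [E.ex_neg] using h1 1 (by simp), ?_⟩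
  have hc : Continuous fun s : ℝ => E.Ad (E.ex ((-s) • y)) :=
    E.contDiff_Ad_ex.continuous.comp (by fun_prop)
  have h2 : ∀ s : ℝ, HasDerivAt
      (fun s : ℝ => E.ι ((∫ u in (0 : ℝ)..s, E.Ad (E.ex ((-u) • y))) (y - x)))
      (E.ι (E.Ad (E.ex ((-s) • y)) (y - x))) s := by
    intro s
    have h3 := (hc.integral_hasStrictDerivAt 0 s).hasDerivAt.clm_apply (hasDerivAt_const s (y - x))
    simp only [map_zero, add_zero] at h3
    exact E.ι.hasFDerivAt.comp_hasDerivAt s h3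
  have h3 := norm_image_sub_le_of_norm_deriv_le_segment_01' (C := max K 0 ^ 2 * ‖y - x‖ ^ 2)
    (fun s _ => ((E.hasDerivAt_gamma x y s).sub (h2 s)).hasDerivWithinAt)
    (fun s hs => by
      refine (E.τ_sub_le _ _).trans ?_
      have h4 := h1 s (Ico_subset_Icc_self hs)
      have h5 := hb s hs
      calc _ ≤ (max K 0 * ‖y - x‖) * (max K 0 * ‖y - x‖) := by gcongr
        _ = _ := by ring)
  simpa [E.ex_neg, E.ex_zero, E.l_one, E.Psi_eq] using h3

theorem hasLD_ex (x : W) : E.HasLD E.ex (E.Psi x) x := by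
  obtain ⟨K, hK0, hK⟩ := E.exists_diff (‖x‖ + 1)
  have h1 : (fun y => E.l ((E.ex x)⁻¹ * E.ex y) - E.ι (E.Psi y (y - x))) =o[𝓝 x]
      fun y => y - x := by
    refine IsBigO.trans_isLittleO (IsBigO.of_bound (K ^ 2) ?_) (isLittleO_pow_sub_sub x one_lt_two)
    filter_upwards [continuous_norm.continuousAt.eventually (ge_mem_nhds (lt_add_one ‖x‖))]
      with y hy
    rw [Real.norm_of_nonneg (by positivity)]
    exact (hK x y hy).2
  have h2 : (fun y => E.ι ((E.Psi y - E.Psi x) (y - x))) =o[𝓝 x] fun y => y - x := by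
    rw [isLittleO_iff]
    intro c hc
    have h3 := tendsto_iff_norm_sub_tendsto_zero.1 (E.contDiff_Psi.continuous.tendsto x)
    filter_upwards [h3.eventually (ge_mem_nhds hc)] with y hy
    rw [E.norm_ι]
    exact (ContinuousLinearMap.le_opNorm _ _).trans (by gcongr)
  refine (h1.add h2).congr_left fun y => ?_
  simp only [sub_apply, map_sub E.ι]
  abel

theorem continuous_ex : Continuous E.ex :=
  continuous_iff_continuousAt.2 fun x => (E.hasLD_ex x).continuousAt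

theorem exists_rho : ∃ ρ : ℝ, 0 < ρ ∧ (∀ y : W, ‖y‖ ≤ ρ → ‖E.Psi y - 1‖ ≤ 1 / 4) ∧
    ∀ x y : W, ‖x‖ ≤ ρ → ‖y‖ ≤ ρ → ‖y - x‖ ≤ 2 * ‖E.l (E.ex y) - E.l (E.ex x)‖ := by
  obtain ⟨K, hK0, hK⟩ := E.exists_diff 1
  have h3 := tendsto_iff_norm_sub_tendsto_zero.1 (E.contDiff_Psi.continuous.tendsto 0)
  rw [E.Psi_zero] at h3
  obtain ⟨δ, hδ, hδ'⟩ := Metric.nhds_basis_closedBall.eventually_iff.1
    (h3.eventually (ge_mem_nhds (show (0 : ℝ) < 1 / 4 by norm_num)))
  set ρ := min δ (min 1 (1 / (8 * (K ^ 2 + 1)))) with hρ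
  have hρ1 : ρ ≤ δ := min_le_left _ _
  have hρ2 : ρ ≤ 1 := (min_le_right _ _).trans (min_le_left _ _)
  have hρ3 : ρ ≤ 1 / (8 * (K ^ 2 + 1)) := (min_le_right _ _).trans (min_le_right _ _)
  have hP : ∀ y : W, ‖y‖ ≤ ρ → ‖E.Psi y - 1‖ ≤ 1 / 4 := fun y hy =>
    hδ' (mem_closedBall_zero_iff.2 (hy.trans hρ1))
  refine ⟨ρ, lt_min hδ (lt_min one_pos (by positivity)), hP, fun x y hx hy => ?_⟩
  have h4 := (hK x y (hy.trans hρ2)).2
  rw [← E.norm_inv_mul]
  have h5 : ‖(E.Psi y - 1) (y - x)‖ ≤ 1 / 4 * ‖y - x‖ :=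
    (ContinuousLinearMap.le_opNorm _ _).trans (by gcongr; exact hP y hy)
  have h6 : E.ι (y - x) = E.l ((E.ex x)⁻¹ * E.ex y) -
      (E.l ((E.ex x)⁻¹ * E.ex y) - E.ι (E.Psi y (y - x))) - E.ι ((E.Psi y - 1) (y - x)) := by
    simp only [sub_apply, one_apply_eq_self, map_sub E.ι]
    abel
  have h7 : ‖y - x‖ ≤ ‖E.l ((E.ex x)⁻¹ * E.ex y)‖ +
      ‖E.l ((E.ex x)⁻¹ * E.ex y) - E.ι (E.Psi y (y - x))‖ + ‖(E.Psi y - 1) (y - x)‖ := by
    rw [← E.norm_ι (y - x), ← E.norm_ι ((E.Psi y - 1) (y - x))]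
    conv_lhs => rw [h6]
    exact (norm_sub_le _ _).trans (by gcongr; exact norm_sub_le _ _)
  have h8 : ‖y - x‖ ≤ 2 * ρ := (norm_sub_le _ _).trans (by linarith)
  have h9 : K ^ 2 * ‖y - x‖ ≤ 1 / 4 := by
    rw [le_div_iff₀ (by positivity)] at hρ3
    have : K ^ 2 * ‖y - x‖ ≤ K ^ 2 * (2 * ρ) := by gcongr
    have h10 : 0 ≤ ρ := (norm_nonneg _).trans hy
    nlinarith
  have h10 : K ^ 2 * ‖y - x‖ ^ 2 ≤ 1 / 4 * ‖y - x‖ := by
    rw [sq ‖y - x‖, ← mul_assoc]; gcongr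
  linarith

end GX

end Crest.Agent.R217
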