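import Mathlib

/-! # R217 / H5 : the "Gleason embedding" structure and the escape norm / convolution definitions -/

set_option autoImplicit false
open scoped Topology
open Filter Set MeasureTheory

namespace Crest.Agent.R217

/-- A *Gleason embedding* of a topological group into a normed space: a cocycle `l` for an
isometric family `τ`, which generates the topology at `1` and satisfies a second order estimate. -/
structure GE (G V : Type*) [Group G] [TopologicalSpace G] [NormedAddCommGroup V]
    [NormedSpace ℝ V] where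
  l : G → V
  τ : G → V →L[ℝ] V
  norm_τ : ∀ g v, ‖τ g v‖ = ‖v‖
  cocycle : ∀ g h, l (g * h) = l g + τ g (l h)
  cont : Continuous l
  small : ∀ U ∈ 𝓝 (1 : G), ∃ r > 0, ∀ g, ‖l g‖ ≤ r → g ∈ U
  second : ∀ K : Set G, IsCompact K →
    ∃ C : ℝ, ∀ g, ∀ h ∈ K, ‖τ g (l h) - l h‖ ≤ C * ‖l g‖ * ‖l h‖

/-- The escape norm of `g` with respect to `U`. -/
noncomputable def esc {G : Type*} [Group G] (U : Set G) (g : G) : ℝ :=
  sInf {t : ℝ | 0 ≤ t ∧ ∀ i : ℕ, (i : ℝ) * t < 1 → g ^ i ∈ U}

/-- Convolution of two real functions on a group. -/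
noncomputable def conv {G : Type*} [Group G] [MeasurableSpace G] (μ : Measure G) (ψ η : G → ℝ)
    (x : G) : ℝ :=
  ∫ y, ψ y * η (y⁻¹ * x) ∂μ

end Crest.Agent.R217
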