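import Crest.Agent.R217.H5Defs

/-! # R217 / H5 : API of the escape norm and the bump functions -/

set_option autoImplicit false
open scoped Topology Pointwise
open Filter Set MeasureTheory

namespace Crest.Agent.R217

variable {G : Type*} [Group G]

theorem esc_nonneg (U : Set G) (g : G) : 0 ≤ esc U g := by
  exact Real.sInf_nonneg fun x hx => hx.1

/-- `csInf_le`. -/
theorem esc_le {U : Set G} {g : G} {t : ℝ} (ht : 0 ≤ t)
    (h : ∀ i : ℕ, (i : ℝ) * t < 1 → g ^ i ∈ U) : esc U g ≤ t := by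
  exact csInf_le ⟨0, fun x hx => hx.1⟩ ⟨ht, h⟩

theorem esc_le_one {U : Set G} (h1 : (1 : G) ∈ U) (g : G) : esc U g ≤ 1 := by
  refine esc_le zero_le_one fun i hi => ?_
  have : i = 0 := by
    rw [mul_one] at hi
    exact_mod_cast Nat.lt_one_iff.mp (by exact_mod_cast hi)
  rwa [this, pow_zero]

theorem esc_one {U : Set G} (h1 : (1 : G) ∈ U) : esc U (1 : G) = 0 := by
  exact le_antisymm (esc_le le_rfl fun i _ => by rwa [one_pow]) (esc_nonneg U 1)

/-- `i = 0` is trivial; otherwise `esc U g < 1 / i`, `exists_lt_of_csInf_lt` (the set contains 1). -/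
theorem pow_mem_of_esc {U : Set G} (h1 : (1 : G) ∈ U) {g : G} {i : ℕ}
    (h : (i : ℝ) * esc U g < 1) : g ^ i ∈ U := by
  rcases Nat.eq_zero_or_pos i with rfl | hi
  · rwa [pow_zero]
  · have hi' : (0 : ℝ) < i := by exact_mod_cast hi
    have h2 : esc U g < 1 / i := by rwa [lt_div_iff₀ hi', mul_comm]
    obtain ⟨t, ht, ht'⟩ := exists_lt_of_csInf_lt (s := {t : ℝ | 0 ≤ t ∧ ∀ i : ℕ, (i : ℝ) * t < 1 → g ^ i ∈ U})
      ⟨1, zero_le_one, fun j hj => by
        have : j = 0 := by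
          rw [mul_one] at hj
          exact_mod_cast Nat.lt_one_iff.mp (by exact_mod_cast hj)
        rwa [this, pow_zero]⟩ h2
    exact ht.2 i (by rwa [lt_div_iff₀ hi', mul_comm] at ht')

theorem mem_of_esc_lt_one {U : Set G} (h1 : (1 : G) ∈ U) {g : G} (h : esc U g < 1) : g ∈ U := by
  have := pow_mem_of_esc h1 (g := g) (i := 1) (by simpa using h)
  rwa [pow_one] at this

theorem esc_inv {U : Set G} (hs : ∀ x ∈ U, x⁻¹ ∈ U) (g : G) : esc U g⁻¹ = esc U g := by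
  unfold esc
  congr 1
  ext t
  refine and_congr_right fun _ => forall_congr' fun i => imp_congr_right fun _ => ?_
  rw [inv_pow]
  exact ⟨fun h => by simpa using hs _ h, hs _⟩

theorem esc_conj {U U' : Set G} (h1 : (1 : G) ∈ U') {y : G} (h : ∀ u ∈ U', y⁻¹ * u * y ∈ U)
    (g : G) : esc U (y⁻¹ * g * y) ≤ esc U' g := by
  refine esc_le (esc_nonneg _ _) fun i hi => ?_
  have e : (y⁻¹ * g * y) ^ i = y⁻¹ * g ^ i * y := by
    have := conj_pow (a := y⁻¹) (b := g) (i := i)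
    rwa [inv_inv] at this
  rw [e]
  exact h _ (pow_mem_of_esc h1 hi)

/-- If `i * (m * e') < 1` then `(i * j) * e' < 1` for `j ≤ m`, so `(g ^ i) ^ j ∈ U'`. -/
theorem esc_le_mul {U U' : Set G} (h1 : (1 : G) ∈ U') {m : ℕ}
    (h : ∀ g : G, (∀ j ≤ m, g ^ j ∈ U') → g ∈ U) (g : G) : esc U g ≤ m * esc U' g := by
  refine esc_le (mul_nonneg (Nat.cast_nonneg m) (esc_nonneg _ _)) fun i hi => h _ fun j hj => ?_
  rw [← pow_mul]
  refine pow_mem_of_esc h1 (lt_of_le_of_lt ?_ hi)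
  rw [Nat.cast_mul, mul_assoc]
  have hj' : (j : ℝ) ≤ m := by exact_mod_cast hj
  have := esc_nonneg U' g
  gcongr

variable [TopologicalSpace G] [IsTopologicalGroup G]

/-- For `t > 0` only finitely many `i` have `i * t < 1`. -/
theorem esc_tendsto {U : Set G} (hU : U ∈ 𝓝 (1 : G)) : Tendsto (esc U) (𝓝 1) (𝓝 0) := by
  refine tendsto_order.2 ⟨fun a ha => Eventually.of_forall fun g => ha.trans_le (esc_nonneg _ _), fun a ha => ?_⟩
  have h1 : ∀ᶠ g in 𝓝 (1 : G), ∀ i ∈ Finset.range (⌈2 / a⌉₊ + 1), g ^ i ∈ U :=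
    (eventually_all_finset _).2 fun i _ =>
      (continuous_pow i).continuousAt.preimage_mem_nhds (by simpa using hU)
  filter_upwards [h1] with g hg
  refine (esc_le (t := a / 2) (by linarith) fun i hi => hg i ?_).trans_lt (by linarith)
  rw [Finset.mem_range, Nat.lt_succ_iff]
  have h2 : (i : ℝ) ≤ 2 / a := by
    rw [le_div_iff₀ ha]
    linarith
  exact_mod_cast h2.trans (Nat.le_ceil _)

/-- Compactness + NSS: the closed sets `{g | ∀ j ≤ m, g ^ j ∈ K} \ interior U` decrease and have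
empty intersection (`Subgroup.zpowers g ⊆ K` forces `g = 1`). -/
theorem exists_pow_trap [T2Space G] {K : Set G} (hK : IsCompact K) (hs : ∀ x ∈ K, x⁻¹ ∈ K)
    (hnss : ∀ H : Subgroup G, (H : Set G) ⊆ K → H = ⊥) {U : Set G} (hU : U ∈ 𝓝 (1 : G)) :
    ∃ m : ℕ, ∀ g : G, (∀ j ≤ m, g ^ j ∈ K) → g ∈ U := by
  by_contra hcon
  push Not at hcon
  have hcl : ∀ m : ℕ, IsClosed ({g : G | ∀ j ≤ m + 1, g ^ j ∈ K} ∩ (interior U)ᶜ) := fun m => by
    refine IsClosed.inter ?_ isOpen_interior.isClosed_compl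
    simp only [setOf_forall]
    exact isClosed_iInter fun j => isClosed_iInter fun _ => hK.isClosed.preimage (continuous_pow j)
  obtain ⟨g, hg⟩ := IsCompact.nonempty_iInter_of_sequence_nonempty_isCompact_isClosed
    (fun m : ℕ => {g : G | ∀ j ≤ m + 1, g ^ j ∈ K} ∩ (interior U)ᶜ)
    (fun m g hg => ⟨fun j hj => hg.1 j (by omega), hg.2⟩)
    (fun m => by
      obtain ⟨g, h1, h2⟩ := hcon (m + 1)
      exact ⟨g, h1, fun h => h2 (interior_subset h)⟩)
    (hK.of_isClosed_subset (hcl 0) fun g hg => by simpa using hg.1 1 le_rfl) hcl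
  rw [mem_iInter] at hg
  have h1 : ∀ j : ℕ, g ^ j ∈ K := fun j => (hg j).1 j (Nat.le_succ j)
  have h2 := hnss (Subgroup.zpowers g) (by
    rintro _ ⟨k, rfl⟩
    rcases k with k | k
    · simpa using h1 k
    · simpa using hs _ (h1 (k + 1)))
  rw [Subgroup.zpowers_eq_bot] at h2
  exact (hg 0).2 (h2 ▸ mem_interior_iff_mem_nhds.mpr hU)

/-- A symmetric neighbourhood whose conjugates by a compact set stay in `U` (tube lemma). -/
theorem exists_nhds_conj {K : Set G} (hK : IsCompact K) {U : Set G} (hU : U ∈ 𝓝 (1 : G)) :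
    ∃ U' ∈ 𝓝 (1 : G), U' ⊆ U ∧ (∀ x ∈ U', x⁻¹ ∈ U') ∧ ∀ y ∈ K, ∀ u ∈ U', y⁻¹ * u * y ∈ U := by
  have h1 : ∀ᶠ u in 𝓝 (1 : G), ∀ y ∈ K, y⁻¹ * u * y ∈ U := by
    refine hK.eventually_forall_of_forall_eventually fun y _ => ?_
    have hc : Continuous fun z : G × G => z.2⁻¹ * z.1 * z.2 := by fun_prop
    exact hc.continuousAt.preimage_mem_nhds (by simpa using hU)
  have h2 := inter_mem h1 hU
  refine ⟨_, inter_mem h2 (inv_mem_nhds_one G h2), fun x hx => hx.1.2, fun x hx => ⟨hx.2, ?_⟩,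
    fun y hy u hu => hu.1.1 y hy⟩
  rw [Set.mem_inv, inv_inv]
  exact hx.1

/-- A symmetric neighbourhood all of whose products of length `≤ L` stay in `U`. -/
theorem exists_nhds_list_prod {U : Set G} (hU : U ∈ 𝓝 (1 : G)) (L : ℕ) :
    ∃ U' ∈ 𝓝 (1 : G), (∀ x ∈ U', x⁻¹ ∈ U') ∧
      ∀ l : List G, (∀ x ∈ l, x ∈ U') → l.length ≤ L → l.prod ∈ U := by
  induction L generalizing U with
  | zero =>
    refine ⟨univ, univ_mem, fun _ _ => mem_univ _, fun l _ hl => ?_⟩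
    rw [List.length_eq_zero_iff.mp (Nat.le_zero.mp hl), List.prod_nil]
    exact mem_of_mem_nhds hU
  | succ L ih =>
    obtain ⟨V, hV, hVU⟩ := exists_nhds_one_split hU
    obtain ⟨U', h1, h2, h3⟩ := ih hV
    refine ⟨U' ∩ (V ∩ V⁻¹), inter_mem h1 (inter_mem hV (inv_mem_nhds_one G hV)),
      fun x hx => ⟨h2 x hx.1, hx.2.2, by simpa using hx.2.1⟩, fun l hl hlen => ?_⟩
    cases l with
    | nil => exact mem_of_mem_nhds hU
    | cons x l =>
      rw [List.prod_cons]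
      exact hVU x (hl x (by simp)).2.1 _ (h3 l (fun y hy => (hl y (by simp [hy])).1) (by simpa using hlen))

/-- The standing neighbourhood `U₀`. -/
theorem exists_U0 [T2Space G] [LocallyCompactSpace G]
    (h : ∃ U ∈ 𝓝 (1 : G), ∀ H : Subgroup G, (H : Set G) ⊆ U → H = ⊥) :
    ∃ U₀ K₀ : Set G, IsOpen U₀ ∧ (1 : G) ∈ U₀ ∧ (∀ x ∈ U₀, x⁻¹ ∈ U₀) ∧ IsCompact K₀ ∧
      (∀ x ∈ K₀, x⁻¹ ∈ K₀) ∧ U₀ * U₀ * U₀ * U₀ ⊆ K₀ ∧
      ∀ H : Subgroup G, (H : Set G) ⊆ K₀ → H = ⊥ := by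
  obtain ⟨U, hU, hnss⟩ := h
  obtain ⟨K, hK, hKU, hKc⟩ := local_compact_nhds hU
  obtain ⟨U', h1, h2, h3⟩ := exists_nhds_list_prod (inter_mem hK (inv_mem_nhds_one G hK)) 4
  refine ⟨interior U' ∩ (interior U')⁻¹, K ∩ K⁻¹, isOpen_interior.inter isOpen_interior.inv, ?_,
    fun x hx => ⟨hx.2, by simpa using hx.1⟩, hKc.inter_right hKc.inv.isClosed,
    fun x hx => ⟨hx.2, by simpa using hx.1⟩, ?_, fun H hH => hnss H fun x hx => hKU (hH hx).1⟩
  · have := mem_interior_iff_mem_nhds.mpr h1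
    exact ⟨this, by simpa using this⟩
  · rintro _ ⟨_, ⟨_, ⟨a, ha, b, hb, rfl⟩, c, hc, rfl⟩, d, hd, rfl⟩
    have := h3 [a, b, c, d] (by
      simp only [List.mem_cons, List.not_mem_nil, or_false]
      rintro x (rfl | rfl | rfl | rfl)
      exacts [interior_subset ha.1, interior_subset hb.1, interior_subset hc.1, interior_subset hd.1]) le_rfl
    simpa [mul_assoc] using this

/-- Bump function: `ψ x = 1 - d x`, `d x = sInf ({1} ∪ {∑ w gᵢ | x = g₁ ⋯ gₙ * u, u ∈ U})`.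
`d (g * x) ≤ w g + d x`; `{x | d x < a}` is open (so `measurable_of_Iio`). -/
theorem exists_bump [MeasurableSpace G] [BorelSpace G] {U : Set G} (hU : IsOpen U) {w : G → ℝ}
    (hw0 : ∀ g, 0 ≤ w g) (hws : ∀ g, w g⁻¹ = w g)
    (hwU : ∀ l : List G, (l.map w).sum < 1 → l.prod ∈ U) :
    ∃ ψ : G → ℝ, Measurable ψ ∧ (∀ x, 0 ≤ ψ x) ∧ (∀ x, ψ x ≤ 1) ∧ (∀ x ∈ U, ψ x = 1) ∧
      (∀ x, ψ x ≠ 0 → x ∈ U * U) ∧ ∀ g x, |ψ x - ψ (g * x)| ≤ w g := by
  let S : G → Set ℝ := fun x => {s | s = 1 ∨ ∃ l : List G, ∃ u ∈ U, x = l.prod * u ∧ s = (l.map w).sum}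
  have hS0 : ∀ x, ∀ s ∈ S x, 0 ≤ s := by
    rintro x s (rfl | ⟨l, u, -, -, rfl⟩)
    · exact zero_le_one
    · exact List.sum_nonneg (by
        intro a ha
        obtain ⟨g, -, rfl⟩ := List.mem_map.mp ha
        exact hw0 g)
  have hbd : ∀ x, BddBelow (S x) := fun x => ⟨0, hS0 x⟩
  have hne : ∀ x, (S x).Nonempty := fun x => ⟨1, Or.inl rfl⟩
  have hd0 : ∀ x, 0 ≤ sInf (S x) := fun x => le_csInf (hne x) (hS0 x)
  have hd1 : ∀ x, sInf (S x) ≤ 1 := fun x => csInf_le (hbd x) (Or.inl rfl)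
  have hstep : ∀ g x, sInf (S (g * x)) - w g ≤ sInf (S x) := fun g x => by
    refine le_csInf (hne x) ?_
    rintro s (rfl | ⟨l, u, hu, rfl, rfl⟩)
    · linarith [hd1 (g * x), hw0 g]
    · have := csInf_le (hbd (g * (l.prod * u))) (a := ((g :: l).map w).sum)
        (Or.inr ⟨g :: l, u, hu, by rw [List.prod_cons, mul_assoc], rfl⟩)
      rw [List.map_cons, List.sum_cons] at this
      linarith
  refine ⟨fun x => 1 - sInf (S x), Measurable.const_sub (measurable_of_Iio fun a => IsOpen.measurableSet ?_) 1,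
    fun x => by linarith [hd1 x], fun x => by linarith [hd0 x], fun x hx => ?_, fun x hx => ?_, fun g x => ?_⟩
  · rw [isOpen_iff_mem_nhds]
    intro x hx
    obtain ⟨s, hs, hsa⟩ := exists_lt_of_csInf_lt (hne x) hx
    rcases hs with rfl | ⟨l, u, hu, rfl, rfl⟩
    · exact Eventually.of_forall fun y => (hd1 y).trans_lt hsa
    · have h1 : (fun y => l.prod⁻¹ * y) ⁻¹' U ∈ 𝓝 (l.prod * u) :=
        (hU.preimage (continuous_const_mul _)).mem_nhds (by simpa using hu)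
      filter_upwards [h1] with y hy
      exact (csInf_le (hbd y) (Or.inr ⟨l, _, hy, by simp, rfl⟩)).trans_lt hsa
  · have := csInf_le (hbd x) (a := (([] : List G).map w).sum) (Or.inr ⟨[], x, hx, by simp, rfl⟩)
    rw [List.map_nil, List.sum_nil] at this
    simp only
    linarith [hd0 x]
  · have h1 : sInf (S x) < 1 := lt_of_le_of_ne (hd1 x) fun h => hx (by simp only [h, sub_self])
    obtain ⟨s, hs, hsa⟩ := exists_lt_of_csInf_lt (hne x) h1
    rcases hs with rfl | ⟨l, u, hu, rfl, rfl⟩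
    · exact absurd hsa (lt_irrefl _)
    · exact mul_mem_mul (hwU l hsa) hu
  · have h1 := hstep g x
    have h2 := hstep g⁻¹ (g * x)
    rw [inv_mul_cancel_left, hws] at h2
    simp only
    rw [abs_le]
    constructor <;> linarith

end Crest.Agent.R217
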