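import Crest.Agent.R217.Conv

/-! # R217 / HK : cohomology with supports in a closed generalised box -/

set_option autoImplicit false
open Set Topology Filter

namespace Crest.Agent.R217

variable {n : ℕ} {E : Type*} [AddCommGroup E] [Module ℝ E]

/-- cocycles of degree `k` supported in `K` are coboundaries of cochains supported in `K` -/
def ExK (E : Type*) [AddCommGroup E] [Module ℝ E] (k : ℕ) (K : Set (R n)) : Prop :=
  ∀ f ∈ Zc (T1 (R n) E) k univ, supp (k + 1) f ⊆ K →
    ∃ w, supp k w ⊆ K ∧ Van (k + 1) univ (f - dT (T1 _ _) w)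

namespace HKA

theorem gen_Zc (L : List (Fin n)) (z : R n) : gen L z ∈ Zc (T1 (R n) ℝ) L.length univ := by
  cases L with
  | nil => exact const_mem_Zc univ (1 : ℝ)
  | cons i L => exact (flat_T1 univ).dT_dT _ _

theorem mem_cons {L : List (Fin n)} {i : Fin n} {a b x : R n} :
    x ∈ KL (i :: L) a b ↔ (a i ≤ x i ∧ x i ≤ b i) ∧ x ∈ KL L a b := by
  simp [KL]

theorem fr {i : Fin n} {c : ℝ} {x : R n} (h : x ∈ frontier {x : R n | c < x i}) : x i = c :=
  (frontier_lt_subset_eq continuous_const (continuous_apply i) h).symm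

theorem cl_gt {i : Fin n} {c : ℝ} {x : R n} (h : x ∈ closure {x : R n | c < x i}) : c ≤ x i :=
  closure_lt_subset_le continuous_const (continuous_apply i) h

theorem cl_le {i : Fin n} {c : ℝ} {x : R n} (h : x ∈ closure {x : R n | c < x i}ᶜ) : x i ≤ c := by
  have : IsClosed {x : R n | c < x i}ᶜ := (isOpen_lt continuous_const (continuous_apply i)).isClosed_compl
  rw [this.closure_eq] at h
  exact not_lt.1 h

theorem isClosed_KL (L : List (Fin n)) (a b : R n) : IsClosed (KL L a b) := by
  have : KL L a b = ⋂ i ∈ L, ({x | a i ≤ x i} ∩ {x | x i ≤ b i}) := by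
    ext x; simp [KL]
  rw [this]
  exact isClosed_biInter fun i _ => (isClosed_le continuous_const (continuous_apply i)).inter
    (isClosed_le (continuous_apply i) continuous_const)

theorem van_dT_dd {X : Type*} [TopologicalSpace X] {k : ℕ} {w : Co X E} (h : k = 0 → w [] = 0) :
    Van (k + 1) univ (dd w - dT (T1 X E) w) := by
  refine van_of_forall isOpen_univ fun l hl _ => ?_
  rw [Pi.sub_apply, sub_eq_zero]
  cases k with
  | zero =>
    obtain ⟨x, rfl⟩ := List.length_eq_one_iff.1 hl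
    rw [dT_singleton, dd_cons, h rfl, dd_nil, sub_zero]
  | succ k => rw [dT_T1 _ (by omega)]

theorem van_eq {X E : Type*} [TopologicalSpace X] [Zero E] {k : ℕ} {U : Set X} {f g : Co X E} (h : Van k U f)
    (e : g = f) : Van k U g := e ▸ h

theorem van_hm {X : Type*} [TopologicalSpace X] {k : ℕ} {U : Set X} {f : Co X E} (h : Van k U f) (S : Set X) :
    Van k U (hm S f) := fun z hz h' => h z hz (supp_hm k S f h').1

theorem wall {X : Type*} [TopologicalSpace X] (k : ℕ) (S : Set X) (p : Co X E) :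
    supp (k + 1) (hm S (dT (T1 X E) p) - dT (T1 X E) (hm S p)) ⊆ frontier S ∩ supp k p := by
  cases k with
  | zero =>
    intro z hz
    exact absurd hz ((van_hm (van_one_dT univ _ p) S).sub (van_one_dT univ _ _) z (mem_univ _))
  | succ k =>
    rw [← neg_sub, supp_neg]
    exact supp_dT_hm k _ S p

theorem push {X : Type*} [TopologicalSpace X] {k : ℕ} (S : Set X) {f p : Co X E}
    (h : Van (k + 1) univ (f - dT (T1 X E) p)) :
    Van (k + 2) univ (dT (T1 X E) (hm S f) - dT (T1 X E) (hm S (dT (T1 X E) p) - dT (T1 X E) (hm S p))) := by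
  have := ((van_hm h S).dT (T1 X E)).add ((flat_T1 univ).dT_dT (k + 2) (hm S p))
  convert this using 1
  simp only [map_sub]
  abel

theorem ac_compl {L : List (Fin n)} {i : Fin n} (hi : i ∉ L) (a b : R n) {H : Set (R n)} (hH : IsOpen H)
    (hc : Convex ℝ H) {t : ℝ} (ht : ∀ x : R n, Function.update x i t ∈ H) : AC E (KL L a b ∩ Hᶜ)ᶜ := by
  let L' : List (Set (R n)) := L.map (fun j => {x | x j < a j}) ++ L.map fun j => {x | b j < x j}
  have hL' : ∀ C ∈ L', ∃ j ∈ L, C = {x | x j < a j} ∨ C = {x | b j < x j} := by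
    intro C hC
    simp only [L', List.mem_append, List.mem_map] at hC
    rcases hC with ⟨j, hj, rfl⟩ | ⟨j, hj, rfl⟩
    · exact ⟨j, hj, Or.inl rfl⟩
    · exact ⟨j, hj, Or.inr rfl⟩
  have e : (KL L a b ∩ Hᶜ)ᶜ = H ∪ ⋃ C ∈ L', C := by
    ext x
    simp only [mem_compl_iff, mem_inter_iff, mem_union, mem_iUnion, exists_prop]
    constructor
    · intro h
      by_cases hx : x ∈ H
      · exact Or.inl hx
      · right
        have : x ∉ KL L a b := fun h' => h ⟨h', hx⟩
        simp only [KL, mem_ofPred_eq, not_forall, not_and_or, not_le, exists_prop] at this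
        obtain ⟨j, hj, h1 | h1⟩ := this
        · exact ⟨{x | x j < a j}, List.mem_append_left _ (List.mem_map.2 ⟨j, hj, rfl⟩), h1⟩
        · exact ⟨{x | b j < x j}, List.mem_append_right _ (List.mem_map.2 ⟨j, hj, rfl⟩), h1⟩
    · rintro (h | ⟨C, hC, hx⟩) ⟨h1, h2⟩
      · exact h2 h
      · obtain ⟨j, hj, rfl | rfl⟩ := hL' C hC
        · exact absurd (h1 j hj).1 (not_le.2 hx)
        · exact absurd (h1 j hj).2 (not_le.2 hx)
  rw [e]
  refine ac_cone L' (fun C hC => ?_) hH hc ⟨_, ht 0⟩ ?_
  · obtain ⟨j, hj, rfl | rfl⟩ := hL' C hC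
    · exact ⟨isOpen_lt (continuous_apply j) continuous_const,
        convex_halfSpace_lt (LinearMap.proj (R := ℝ) (φ := fun _ : Fin n => ℝ) j).isLinear _⟩
    · exact ⟨isOpen_lt continuous_const (continuous_apply j),
        convex_halfSpace_gt (LinearMap.proj (R := ℝ) (φ := fun _ : Fin n => ℝ) j).isLinear _⟩
  · rintro L'' hsub ⟨x, hx⟩
    refine ⟨Function.update x i t, ht x, ?_⟩
    simp only [mem_iInter] at hx ⊢
    intro C hC
    have h1 := hx C hC
    obtain ⟨j, hj, rfl | rfl⟩ := hL' C (hsub hC)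
    all_goals
      have : j ≠ i := fun h => hi (h ▸ hj)
      simpa [Function.update_of_ne this] using h1

theorem dT_smul_const {X : Type*} (g : Co X ℝ) (e : E) :
    dT (T1 X E) (fun l => g l • e) = fun l => dT (T1 X ℝ) g l • e := by
  funext l
  cases l with
  | nil => simp
  | cons x l =>
    rw [dT_cons, dT_cons]
    have : gau (T1 X E x) (fun l => g l • e) =
        fun l => (LinearMap.toSpanSingleton ℝ E e).toAddMonoidHom (gau (T1 X ℝ x) g l) := by
      funext l'
      cases l' <;> simp [T1]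
    rw [this, dd_map]
    simp

theorem hm_smul_const {X : Type*} (S : Set X) (g : Co X ℝ) (e : E) :
    hm S (fun l => g l • e) = fun l => hm S g l • e := by
  classical
  funext l
  cases l with
  | nil => simp [hm_nil]
  | cons x l =>
    rw [hm_cons, hm_cons]
    split_ifs <;> simp

end HKA
open HKA

theorem supp_gen (L : List (Fin n)) (z : R n) :
    supp (L.length + 1) (gen L z) ⊆ {x | ∀ i ∈ L, x i = z i} := by
  induction L with
  | nil => intro x _ i hi; simp at hi
  | cons i L ih =>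
    intro x hx
    have := supp_dT_hm_cocycle (gen_Zc L z) {x | z i < x i} ⟨hx, mem_univ _⟩
    intro j hj
    rcases List.mem_cons.1 hj with rfl | hj
    · exact fr this.1
    · exact ih this.2 j hj

theorem gen_mem_Zc (L : List (Fin n)) (z : R n) : gen L z ∈ Zc (T1 (R n) ℝ) L.length univ := by
  exact gen_Zc L z

/-- If `Kᶜ` is acyclic (and so is `univ`): `f = δ a` on `univ`; `a` is a cocycle on `Kᶜ`, so
`a = δ c` there (augmented `dd`), `w = a - dd c`.  For `k = 0`, `f` is constant and vanishes on `Kᶜ`. -/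
theorem exK_of_ac {K : Set (R n)} (hK : IsClosed K) (h : AC E Kᶜ) (k : ℕ) : ExK E k K := by
  intro f hf hs
  have hu : AC E (univ : Set (R n)) := ac_convex isOpen_univ convex_univ univ_nonempty
  have h1 : Van (k + 1 + 1) univ (dd f) := by
    have := (van_dT_dd (k := k + 1) (w := f) (by omega)).add hf
    rwa [sub_add_cancel] at this
  obtain ⟨a, ha⟩ := hu.2 _ f h1
  have h2 : Van (k + 1) Kᶜ (dd a) := by
    have h3 : Van (k + 1) Kᶜ f := fun z hz h' => hz (hs h')
    have := h3.sub (ha.mono (subset_univ _))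
    rwa [sub_sub_cancel] at this
  obtain ⟨c, hc⟩ := h.2 k a h2
  refine ⟨a - dd c, fun z hz => by_contra fun h' => hc z h' hz, ?_⟩
  have h4 : k = 0 → (a - dd c) [] = 0 := by
    rintro rfl
    obtain ⟨z, hz⟩ := h.1
    obtain ⟨W, -, hW⟩ := not_mem_supp.1 (hc z hz)
    exact hW [] rfl (by simp)
  have := ha.add (van_dT_dd h4)
  rwa [dd_sub, dd_dd, sub_zero, sub_add_sub_cancel] at this

/-- `(KL L a b ∩ {c ≤ x i})ᶜ = {x i < c} ∪ ⋃_{j ∈ L} ({x j < a j} ∪ {b j < x j})`, `ac_cone`
(the half spaces do not depend on the coordinate `i`: `Function.update x i (c - 1)`). -/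
theorem exK_ray_ge {L : List (Fin n)} {i : Fin n} (hi : i ∉ L) (a b : R n) (c : ℝ) (k : ℕ) :
    ExK E k (KL L a b ∩ {x | c ≤ x i}) := by
  have e : {x : R n | c ≤ x i} = {x : R n | x i < c}ᶜ := by ext x; simp
  refine exK_of_ac ((isClosed_KL L a b).inter (isClosed_le continuous_const (continuous_apply i))) ?_ k
  rw [e]
  exact ac_compl hi a b (isOpen_lt (continuous_apply i) continuous_const)
    (convex_halfSpace_lt (LinearMap.proj (R := ℝ) (φ := fun _ : Fin n => ℝ) i).isLinear _) (t := c - 1)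
    fun x => by simp

theorem exK_ray_le {L : List (Fin n)} {i : Fin n} (hi : i ∉ L) (a b : R n) (c : ℝ) (k : ℕ) :
    ExK E k (KL L a b ∩ {x | x i ≤ c}) := by
  have e : {x : R n | x i ≤ c} = {x : R n | c < x i}ᶜ := by ext x; simp
  refine exK_of_ac ((isClosed_KL L a b).inter (isClosed_le (continuous_apply i) continuous_const)) ?_ k
  rw [e]
  exact ac_compl hi a b (isOpen_lt continuous_const (continuous_apply i))
    (convex_halfSpace_gt (LinearMap.proj (R := ℝ) (φ := fun _ : Fin n => ℝ) i).isLinear _) (t := c + 1)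
    fun x => by simp

/-- The connecting map `f ↦ dT (hm {c < x i} f)` from classes supported in `K' = KL L a b` to classes
supported in `K = KL (i :: L) a b = K₊ ∩ K₋` is onto: `g = δ w₊ = δ w₋`, `f = w₊ - w₋`,
`hm {>} f - w₊ = - hm {≤} w₊ - hm {>} w₋` is supported in `K`.  (For `k = 0` see `exK_zero`.) -/
theorem conn_surj {L : List (Fin n)} {i : Fin n} (hi : i ∉ L) {a b : R n} {c : ℝ} (hac : a i ≤ c)
    (hcb : c ≤ b i) {k : ℕ} {g : Co (R n) E} (hg : g ∈ Zc (T1 _ _) (k + 1) univ)
    (hs : supp (k + 2) g ⊆ KL (i :: L) a b) :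
    ∃ f ∈ Zc (T1 (R n) E) k univ, supp (k + 1) f ⊆ KL L a b ∧ ∃ w, supp (k + 1) w ⊆ KL (i :: L) a b ∧
      Van (k + 2) univ (g - dT (T1 _ _) (hm {x | c < x i} f) - dT (T1 _ _) w) := by
  obtain ⟨p, hp, hp'⟩ := exK_ray_ge (E := E) hi a b (a i) (k + 1) g hg
    fun x hx => ⟨(mem_cons.1 (hs hx)).2, (mem_cons.1 (hs hx)).1.1⟩
  obtain ⟨q, hq, hq'⟩ := exK_ray_le (E := E) hi a b (b i) (k + 1) g hg
    fun x hx => ⟨(mem_cons.1 (hs hx)).2, (mem_cons.1 (hs hx)).1.2⟩
  refine ⟨p - q, ?_, fun x hx => (supp_sub _ _ _ hx).elim (fun h => (hp h).1) fun h => (hq h).1,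
    hm {x | c < x i}ᶜ p + hm {x | c < x i} q, fun x hx => ?_, ?_⟩
  · have := hq'.sub hp'
    rw [mem_Zc, map_sub]
    convert this using 1
    abel
  · rcases supp_add _ _ _ hx with h | h
    · obtain ⟨h1, h2⟩ := supp_hm _ _ _ h
      exact mem_cons.2 ⟨⟨(hp h1).2, (cl_le h2).trans hcb⟩, (hp h1).1⟩
    · obtain ⟨h1, h2⟩ := supp_hm _ _ _ h
      exact mem_cons.2 ⟨⟨hac.trans (cl_gt h2), (hq h1).2⟩, (hq h1).1⟩
  · have := hp'.add ((van_hm_compl k {x | c < x i} univ p).dT (T1 _ _))
    convert this using 1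
    simp only [map_sub, map_add]
    abel

/-- and injective: `hm {>} f - w = δ p₊`, `hm {≤} f + w = δ p₋`. -/
theorem conn_inj {L : List (Fin n)} {i : Fin n} (hi : i ∉ L) {a b : R n} {c : ℝ} (hac : a i ≤ c)
    (hcb : c ≤ b i) {k : ℕ} {f w : Co (R n) E} (hf : f ∈ Zc (T1 _ _) k univ)
    (hs : supp (k + 1) f ⊆ KL L a b) (hw : supp (k + 1) w ⊆ KL (i :: L) a b)
    (h : Van (k + 2) univ (dT (T1 _ _) (hm {x | c < x i} f) - dT (T1 _ _) w)) :
    ∃ p, supp k p ⊆ KL L a b ∧ Van (k + 1) univ (f - dT (T1 _ _) p) := by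
  obtain ⟨p, hp, hp'⟩ := exK_ray_ge (E := E) hi a b (a i) k (hm {x | c < x i} f - w)
    (by rw [mem_Zc, map_sub]; exact h) fun x hx => by
      rcases supp_sub _ _ _ hx with h1 | h1
      · obtain ⟨h1, h2⟩ := supp_hm _ _ _ h1
        exact ⟨hs h1, hac.trans (cl_gt h2)⟩
      · exact ⟨(mem_cons.1 (hw h1)).2, (mem_cons.1 (hw h1)).1.1⟩
  obtain ⟨q, hq, hq'⟩ := exK_ray_le (E := E) hi a b (b i) k (hm {x | c < x i}ᶜ f + w)
    (by
      have := ((mem_Zc.1 hf).sub h).sub ((van_hm_compl k {x | c < x i} univ f).dT (T1 _ _))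
      rw [mem_Zc]
      convert this using 1
      simp only [map_sub, map_add]
      abel) fun x hx => by
      rcases supp_add _ _ _ hx with h1 | h1
      · obtain ⟨h1, h2⟩ := supp_hm _ _ _ h1
        exact ⟨hs h1, (cl_le h2).trans hcb⟩
      · exact ⟨(mem_cons.1 (hw h1)).2, (mem_cons.1 (hw h1)).1.2⟩
  refine ⟨p + q, fun x hx => (supp_add _ _ _ hx).elim (fun h => (hp h).1) fun h => (hq h).1, ?_⟩
  have := ((van_hm_compl k {x | c < x i} univ f).add hp').add hq'
  convert this using 1
  simp only [map_add]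
  abel

/-- Induction on `L` (simultaneously with `hk_gen` if convenient).  If `f = δ p` with `p` supported
in `KL L`, then `δ(hm S f) = δ (hm S δ p - δ (hm S p))` with support in the wall (`supp_dT_hm`). -/
theorem hk_van {L : List (Fin n)} (hL : L.Nodup) {a b : R n} (hab : ∀ i ∈ L, a i ≤ b i) {k : ℕ}
    (hk : k ≠ L.length) : ExK E k (KL L a b) := by
  induction L generalizing k with
  | nil =>
    intro f hf _
    obtain ⟨k, rfl⟩ := Nat.exists_eq_succ_of_ne_zero hk
    obtain ⟨w, hw⟩ := (ac_convex (E := E) isOpen_univ convex_univ (univ_nonempty (α := R n))).exT k f hf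
    exact ⟨w, fun x _ i hi => by simp at hi, hw⟩
  | cons i L ih =>
    obtain ⟨hi, hL'⟩ := List.nodup_cons.1 hL
    have hiab := hab i List.mem_cons_self
    intro g hg hs
    cases k with
    | zero =>
      obtain ⟨p, -, hp⟩ := exK_ray_ge (E := E) hi a b (a i) 0 g hg
        fun x hx => ⟨(mem_cons.1 (hs hx)).2, (mem_cons.1 (hs hx)).1.1⟩
      refine ⟨0, by simp [supp_zero], ?_⟩
      have := hp.add (van_one_dT univ (T1 _ _) p)
      simpa using this
    | succ k =>
      obtain ⟨f, hf, hfs, w, hw, hw'⟩ := conn_surj hi le_rfl hiab hg hs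
      obtain ⟨p, hp, hp'⟩ := ih hL' (fun j hj => hab j (List.mem_cons_of_mem _ hj))
        (k := k) (by simpa using hk) f hf hfs
      refine ⟨(hm {x | a i < x i} (dT (T1 _ _) p) - dT (T1 _ _) (hm {x | a i < x i} p)) + w, fun x hx => ?_, ?_⟩
      · rcases supp_add _ _ _ hx with h | h
        · obtain ⟨h1, h2⟩ := wall _ _ _ h
          exact mem_cons.2 ⟨by rw [fr h1]; exact ⟨le_rfl, hiab⟩, hp h2⟩
        · exact hw h
      · have := hw'.add (push {x | a i < x i} hp')
        convert this using 1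
        simp only [map_add]
        abel

theorem hk_gen {L : List (Fin n)} (hL : L.Nodup) {a b z : R n} (hz : z ∈ KL L a b)
    {f : Co (R n) E} (hf : f ∈ Zc (T1 _ _) L.length univ) (hs : supp (L.length + 1) f ⊆ KL L a b) :
    ∃ (e : E) (w : Co (R n) E), supp L.length w ⊆ KL L a b ∧
      Van (L.length + 1) univ (f - (fun l => gen L z l • e) - dT (T1 _ _) w) := by
  induction L generalizing f with
  | nil =>
    obtain ⟨e, he⟩ := const_of_cocycle isOpen_univ isPreconnected_univ hf
    refine ⟨e, 0, by simp [supp_zero], (van_one_iff isOpen_univ).2 fun x hx => ?_⟩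
    simp [gen, he x hx]
  | cons i L ih =>
    obtain ⟨hi, hL'⟩ := List.nodup_cons.1 hL
    obtain ⟨hz1, hz2⟩ := mem_cons.1 hz
    obtain ⟨g, hg, hgs, w, hw, hw'⟩ := conn_surj hi hz1.1 hz1.2 hf hs
    obtain ⟨e, p, hp, hp'⟩ := ih hL' hz2 hg hgs
    refine ⟨e, (hm {x | z i < x i} (dT (T1 _ _) p) - dT (T1 _ _) (hm {x | z i < x i} p)) + w, fun x hx => ?_, ?_⟩
    · rcases supp_add _ _ _ hx with h | h
      · obtain ⟨h1, h2⟩ := wall _ _ _ h
        exact mem_cons.2 ⟨by rw [fr h1]; exact hz1, hp h2⟩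
      · exact hw h
    · have := hw'.add (push {x | z i < x i} hp')
      have e1 : (fun l => gen (i :: L) z l • e) = dT (T1 _ _) (hm {x | z i < x i} fun l => gen L z l • e) := by
        rw [hm_smul_const, dT_smul_const]; rfl
      rw [e1]
      refine van_eq this ?_
      simp only [map_add, map_sub]
      abel

theorem hk_ne {L : List (Fin n)} (hL : L.Nodup) {a b z : R n} (hz : z ∈ KL L a b)
    {w : Co (R n) ℝ} (hw : supp L.length w ⊆ KL L a b) :
    ¬ Van (L.length + 1) univ (gen L z - dT (T1 _ _) w) := by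
  induction L generalizing w with
  | nil =>
    intro h
    have := (van_one_iff isOpen_univ).1 h z (mem_univ _)
    simp [gen, dT_singleton] at this
  | cons i L ih =>
    obtain ⟨hi, hL'⟩ := List.nodup_cons.1 hL
    obtain ⟨hz1, hz2⟩ := mem_cons.1 hz
    intro h
    obtain ⟨p, hp, hp'⟩ := conn_inj hi hz1.1 hz1.2 (gen_Zc L z)
      (fun x hx j hj => by rw [supp_gen L z hx j hj]; exact hz2 j hj) hw h
    exact ih hL' hz2 hp hp' 

/-- `gen L z - gen L z'` is a coboundary with bounded support (induction: change the inner cocycle as in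
`hk_van`, then `hm {z i <} - hm {z' i <}` is supported in a slab) -/
theorem gen_sub_gen {L : List (Fin n)} {a b z z' : R n} (hz : z ∈ KL L a b) (hz' : z' ∈ KL L a b) :
    ∃ w, supp L.length w ⊆ KL L a b ∧
      Van (L.length + 1) univ (gen L z - gen L z' - dT (T1 _ _) w) := by
  induction L with
  | nil => exact ⟨0, by simp [supp_zero], fun x _ => by simp [gen, supp_zero]⟩
  | cons i L ih =>
    obtain ⟨hz1, hz2⟩ := mem_cons.1 hz
    obtain ⟨hz1', hz2'⟩ := mem_cons.1 hz'
    obtain ⟨p, hp, hp'⟩ := ih hz2 hz2'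
    refine ⟨(hm {x | z i < x i} (dT (T1 _ _) p) - dT (T1 _ _) (hm {x | z i < x i} p)) +
      (hm {x | z i < x i} (gen L z') - hm {x | z' i < x i} (gen L z')), fun x hx => ?_, ?_⟩
    · rcases supp_add _ _ _ hx with h | h
      · obtain ⟨h1, h2⟩ := wall _ _ _ h
        exact mem_cons.2 ⟨by rw [fr h1]; exact hz1, hp h2⟩
      · refine mem_cons.2 ⟨?_, fun j hj => ?_⟩
        · by_contra hx'
          refine van_hm_congr (L.length + 1) (U := {x | x i < a i} ∪ {x | b i < x i})
            ((isOpen_lt (continuous_apply i) continuous_const).union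
              (isOpen_lt continuous_const (continuous_apply i))) ?_ (gen L z') x ?_ h
          · rintro y (hy | hy) <;> simp only [mem_ofPred_eq] at hy ⊢ <;> constructor <;> intro <;>
              linarith [hz1.1, hz1.2, hz1'.1, hz1'.2]
          · simpa only [not_and_or, not_le, mem_union, mem_ofPred_eq] using hx'
        · have : x ∈ supp (L.length + 1) (gen L z') :=
            (supp_sub _ _ _ h).elim (fun h => (supp_hm _ _ _ h).1) fun h => (supp_hm _ _ _ h).1
          rw [supp_gen L z' this j hj]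
          exact hz2' j hj
    · have := push {x | z i < x i} hp'
      refine van_eq this ?_
      simp only [gen, map_add, map_sub]
      abel

theorem KL_eq_Icc {L : List (Fin n)} (hL : ∀ i, i ∈ L) (a b : R n) : KL L a b = Icc a b := by
  ext x
  simp [KL, hL, Pi.le_def, forall_and]

end Crest.Agent.R217
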