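import Crest.Agent.R217.HK

/-! # R217 / Lam : the fundamental class `lam n` and its localisation `lamO Ω` -/

set_option autoImplicit false
open Set Topology Filter

namespace Crest.Agent.R217

variable {n : ℕ}

structure IsLam (n : ℕ) (ℓ : Co (R n) ℝ →ₗ[ℝ] ℝ) : Prop where
  van : ∀ u, Van (n + 1) univ u → ℓ u = 0
  cob : ∀ w, IsCompact (supp n w) → ℓ (dT (T1 _ _) w) = 0
  gen_one : ℓ (gen (List.finRange n) 0) = 1

/-- Let `B` be the submodule `{u | ∃ w, IsCompact (supp n w) ∧ Van (n+1) univ (u - dT w)}`;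
`gen (finRange n) 0 ∉ B` by `hk_ne` (a compact set lies in a box `Icc a b ∋ 0`); take a linear
functional killing `B` with value `1` on `gen` (`Submodule.exists_dual_map_eq_bot_of_notMem` or
`LinearMap.exists_extend_of_notMem`). -/
theorem exists_lam (n : ℕ) : ∃ ℓ, IsLam n ℓ := by
  let B : Submodule ℝ (Co (R n) ℝ) :=
    { carrier := {u | ∃ w, IsCompact (supp n w) ∧ Van (n + 1) univ (u - dT (T1 _ _) w)}
      add_mem' := by
        rintro u u' ⟨w, h1, h2⟩ ⟨w', h1', h2'⟩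
        refine ⟨w + w', (h1.union h1').of_isClosed_subset (isClosed_supp _ _) (supp_add _ _ _), ?_⟩
        have := h2.add h2'
        rwa [map_add, show u + u' - (dT (T1 _ _) w + dT (T1 _ _) w') =
          u - dT (T1 _ _) w + (u' - dT (T1 _ _) w') by abel]
      zero_mem' := ⟨0, by simp [supp_zero], by simp [Van, supp_zero]⟩
      smul_mem' := by
        rintro c u ⟨w, h1, h2⟩
        refine ⟨c • w, h1.of_isClosed_subset (isClosed_supp _ _) (supp_smul _ _ _), ?_⟩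
        have := h2.smul c
        rwa [map_smul, ← smul_sub] }
  have hg : gen (List.finRange n) 0 ∉ B := by
    rintro ⟨w, h1, h2⟩
    obtain ⟨a, ha⟩ := (h1.insert 0).isBounded.bddBelow
    obtain ⟨b, hb⟩ := (h1.insert 0).isBounded.bddAbove
    have hL : ∀ i, i ∈ List.finRange n := List.mem_finRange
    have := hk_ne (L := List.finRange n) (List.nodup_finRange n) (a := a) (b := b) (z := 0) (w := w)
      (by rw [KL_eq_Icc hL]; exact ⟨ha (mem_insert _ _), hb (mem_insert _ _)⟩)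
    rw [List.length_finRange, KL_eq_Icc hL] at this
    exact this (fun x hx => ⟨ha (mem_insert_of_mem _ hx), hb (mem_insert_of_mem _ hx)⟩) h2
  obtain ⟨f, hf, hB⟩ := Submodule.exists_dual_map_eq_bot_of_notMem hg inferInstance
  have h0 : ∀ u ∈ B, f u = 0 := fun u hu => by
    have : f u ∈ B.map f := Submodule.mem_map_of_mem hu
    rwa [hB, Submodule.mem_bot] at this
  refine ⟨(f (gen (List.finRange n) 0))⁻¹ • f, fun u hu => ?_, fun w hw => ?_, ?_⟩
  · rw [LinearMap.smul_apply, h0 u ⟨0, by simp [supp_zero], by simpa using hu⟩, smul_zero]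
  · rw [LinearMap.smul_apply, h0 (dT (T1 _ _) w) ⟨w, hw, by simp [Van, supp_zero]⟩, smul_zero]
  · rw [LinearMap.smul_apply, smul_eq_mul, inv_mul_cancel₀ hf]

noncomputable def lam (n : ℕ) : Co (R n) ℝ →ₗ[ℝ] ℝ := (exists_lam n).choose

theorem isLam (n : ℕ) : IsLam n (lam n) := (exists_lam n).choose_spec

theorem Lam.eq_of_cob {u v w : Co (R n) ℝ} (hw : IsCompact (supp n w))
    (h : Van (n + 1) univ (u - v - dT (T1 _ _) w)) : lam n u = lam n v := by
  have := (isLam n).van _ h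
  rwa [map_sub, map_sub, (isLam n).cob w hw, sub_zero, sub_eq_zero] at this


theorem lam_gen_eq {L : List (Fin n)} (hL : ∀ i, i ∈ L) (hl : L.length = n) (z z' : R n) :
    lam n (gen L z) = lam n (gen L z') := by
  obtain ⟨w, h1, h2⟩ := gen_sub_gen (L := L) (a := z ⊓ z') (b := z ⊔ z') (z := z) (z' := z')
    (by rw [KL_eq_Icc hL]; exact ⟨inf_le_left, le_sup_left⟩)
    (by rw [KL_eq_Icc hL]; exact ⟨inf_le_right, le_sup_right⟩)
  rw [hl] at h1 h2
  rw [KL_eq_Icc hL] at h1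
  exact Lam.eq_of_cob (isCompact_Icc.of_isClosed_subset (isClosed_supp _ _) h1) h2

theorem lam_gen_finRange (z : R n) : lam n (gen (List.finRange n) z) = 1 := by
  rw [lam_gen_eq List.mem_finRange List.length_finRange z 0, (isLam n).gen_one]

/-- `hk_gen` with `L = finRange n` -/
theorem lam_box {a b : R n} (hab : a ≤ b) {u : Co (R n) ℝ} (hu : u ∈ Zc (T1 _ _) n univ)
    (hs : supp (n + 1) u ⊆ Icc a b) (h0 : lam n u = 0) :
    ∃ w, supp n w ⊆ Icc a b ∧ Van (n + 1) univ (u - dT (T1 _ _) w) := by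
  have hL : ∀ i, i ∈ List.finRange n := List.mem_finRange
  have := hk_gen (L := List.finRange n) (List.nodup_finRange n) (a := a) (b := b) (z := a) (f := u)
    (by rw [KL_eq_Icc hL]; exact ⟨le_rfl, hab⟩)
  rw [List.length_finRange, KL_eq_Icc hL] at this
  obtain ⟨e, w, h1, h2⟩ := this hu hs
  have h3 : (fun l => gen (List.finRange n) a l • e) = e • gen (List.finRange n) a := by
    funext l
    simp [mul_comm]
  rw [h3] at h2
  have h4 := Lam.eq_of_cob (isCompact_Icc.of_isClosed_subset (isClosed_supp _ _) h1) h2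
  rw [h0, map_smul, lam_gen_finRange, smul_eq_mul, mul_one] at h4
  refine ⟨w, h1, ?_⟩
  rwa [← h4, zero_smul, sub_zero] at h2

/-- `lam_box` and `hk_ne` -/
theorem lam_gen_ne {L : List (Fin n)} (hN : L.Nodup) (hL : ∀ i, i ∈ L) (z : R n) :
    lam n (gen L z) ≠ 0 := by
  intro h0
  have hl : L.length = n := by
    rw [← List.toFinset_card_of_nodup hN, show L.toFinset = Finset.univ from
      Finset.eq_univ_of_forall fun i => List.mem_toFinset.2 (hL i)]
    simp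
  have h1 := gen_mem_Zc L z
  have h2 := supp_gen L z
  have h3 := fun w => hk_ne (L := L) hN (a := z) (b := z) (z := z) (w := w)
    (by rw [KL_eq_Icc hL]; exact ⟨le_rfl, le_rfl⟩)
  rw [hl] at h1 h2 h3
  obtain ⟨w, h4, h5⟩ := lam_box (le_refl z) h1
    (fun x hx => ⟨fun i => (h2 hx i (hL i)).ge, fun i => (h2 hx i (hL i)).le⟩) h0
  exact h3 w (by rwa [KL_eq_Icc hL]) h5

/-- On the submodule `{u | ∃ u', compact support in Ω, Van Ω (u - u')}` the value `lam u'` is well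
defined and linear; extend (`LinearMap.exists_extend`). -/
theorem exists_lamO (Ω : Set (R n)) : ∃ ℓ : Co (R n) ℝ →ₗ[ℝ] ℝ, ∀ u u',
    IsCompact (supp (n + 1) u') → supp (n + 1) u' ⊆ Ω → Van (n + 1) Ω (u - u') →
      ℓ u = lam n u' := by
  let A : Submodule ℝ (Co (R n) ℝ) :=
    { carrier := {u | IsCompact (supp (n + 1) u) ∧ supp (n + 1) u ⊆ Ω}
      add_mem' := by
        rintro u u' ⟨h1, h2⟩ ⟨h1', h2'⟩
        exact ⟨(h1.union h1').of_isClosed_subset (isClosed_supp _ _) (supp_add _ _ _),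
          (supp_add _ _ _).trans (union_subset h2 h2')⟩
      zero_mem' := by simp [supp_zero]
      smul_mem' := by
        rintro c u ⟨h1, h2⟩
        exact ⟨h1.of_isClosed_subset (isClosed_supp _ _) (supp_smul _ _ _), (supp_smul _ _ _).trans h2⟩ }
  let f : A →ₗ[ℝ] (Co (R n) ℝ ⧸ NV ℝ (n + 1) Ω) := (NV ℝ (n + 1) Ω).mkQ ∘ₗ A.subtype
  have hmem : (lam n ∘ₗ A.subtype) ∈ (LinearMap.ker f).dualAnnihilator := by
    rw [Submodule.mem_dualAnnihilator]
    rintro ⟨u, hu⟩ hker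
    have h1 : Van (n + 1) Ω u := by
      have : (NV ℝ (n + 1) Ω).mkQ u = 0 := hker
      exact (Submodule.Quotient.mk_eq_zero _).1 this
    exact (isLam n).van u fun z _ hz => h1 z (hu.2 hz) hz
  rw [← LinearMap.range_dualMap_eq_dualAnnihilator_ker] at hmem
  obtain ⟨g, hg⟩ := hmem
  refine ⟨g ∘ₗ (NV ℝ (n + 1) Ω).mkQ, fun u u' h1 h2 h3 => ?_⟩
  have h4 : (NV ℝ (n + 1) Ω).mkQ u = (NV ℝ (n + 1) Ω).mkQ u' := (Submodule.Quotient.eq _).2 h3
  have h5 := LinearMap.congr_fun hg ⟨u', h1, h2⟩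
  rw [LinearMap.comp_apply, h4]
  exact h5

noncomputable def lamO (Ω : Set (R n)) : Co (R n) ℝ →ₗ[ℝ] ℝ := (exists_lamO Ω).choose

theorem lamO_eq {Ω : Set (R n)} {u u' : Co (R n) ℝ} (h₁ : IsCompact (supp (n + 1) u'))
    (h₂ : supp (n + 1) u' ⊆ Ω) (h₃ : Van (n + 1) Ω (u - u')) : lamO Ω u = lam n u' :=
  (exists_lamO Ω).choose_spec u u' h₁ h₂ h₃

theorem lamO_van {Ω : Set (R n)} {u : Co (R n) ℝ} (h : Van (n + 1) Ω u) : lamO Ω u = 0 := by
  rw [lamO_eq (u' := 0) (by simp [supp_zero]) (by simp [supp_zero]) (by simpa using h), map_zero]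

theorem lamO_congr {Ω : Set (R n)} {u v : Co (R n) ℝ} (h : Van (n + 1) Ω (u - v)) :
    lamO Ω u = lamO Ω v := by
  have := lamO_van h
  rwa [map_sub, sub_eq_zero] at this

/-- (cut `w`; for `n = 0` use `van_one_dT`) -/
theorem lamO_cob {Ω : Set (R n)} (hΩ : IsOpen Ω) {w : Co (R n) ℝ}
    (h : IsCompact (supp n w ∩ Ω)) : lamO Ω (dT (T1 _ _) w) = 0 := by
  cases n with
  | zero => exact lamO_van (van_one_dT _ _ _)
  | succ k =>
    obtain ⟨w', h1, h2, -⟩ := exists_cut hΩ h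
    have hc : IsCompact (supp (k + 1) w') := h1 ▸ h
    rw [lamO_eq (u' := dT (T1 _ _) w') (hc.of_isClosed_subset (isClosed_supp _ _) (supp_dT _ _ _))
      ((supp_dT _ _ _).trans (h1 ▸ inter_subset_right)) (by rw [← map_sub]; exact h2.dT _)]
    exact (isLam _).cob w' hc

theorem lamO_mono {Ω Ω' : Set (R n)} (hΩ : IsOpen Ω) (hs : Ω' ⊆ Ω) {u : Co (R n) ℝ}
    (h : IsCompact (supp (n + 1) u ∩ Ω)) (h' : supp (n + 1) u ∩ Ω ⊆ Ω') :
    lamO Ω' u = lamO Ω u := by
  obtain ⟨u', h1, h2, -⟩ := exists_cut hΩ h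
  rw [lamO_eq (u' := u') (h1 ▸ h) (h1 ▸ h') (h2.mono hs),
    lamO_eq (u' := u') (h1 ▸ h) (h1 ▸ inter_subset_right) h2]

theorem lamO_union {Ω₁ Ω₂ : Set (R n)} (h₁ : IsOpen Ω₁) (h₂ : IsOpen Ω₂) (hd : Disjoint Ω₁ Ω₂)
    {u : Co (R n) ℝ} (h : IsCompact (supp (n + 1) u ∩ (Ω₁ ∪ Ω₂))) :
    lamO (Ω₁ ∪ Ω₂) u = lamO Ω₁ u + lamO Ω₂ u := by
  obtain ⟨u₁, a1, a2, a3, a4⟩ := compact_split h₁ h₂ h inter_subset_right
  have e1 : lamO Ω₁ u = lamO (Ω₁ ∪ Ω₂) u₁ := by
    rw [← lamO_mono (h₁.union h₂) subset_union_left a1 a2]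
    exact lamO_congr fun z hz hz' => hd.ne_of_mem hz (a4 ⟨hz', Or.inl hz⟩) rfl
  have e2 : lamO Ω₂ u = lamO (Ω₁ ∪ Ω₂) (u - u₁) := by
    rw [← lamO_mono (h₁.union h₂) subset_union_right a3 a4]
    refine lamO_congr ?_
    rw [sub_sub_cancel]
    exact fun z hz hz' => hd.ne_of_mem (a2 ⟨hz', Or.inr hz⟩) hz rfl
  rw [e1, e2, map_sub]
  ring

/-- Stokes: `λ (δf ∪ g) = -(-1)^p λ (f ∪ δg)` is obtained from this and `dT_cup`. -/
theorem lamO_eq_of_cob {Ω : Set (R n)} (hΩ : IsOpen Ω) {u v w : Co (R n) ℝ}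
    (hw : IsCompact (supp n w ∩ Ω)) (h : Van (n + 1) Ω (u - v - dT (T1 _ _) w)) :
    lamO Ω u = lamO Ω v := by
  have := lamO_van h
  rwa [map_sub, map_sub, lamO_cob hΩ hw, sub_zero, sub_eq_zero] at this

end Crest.Agent.R217
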