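import Crest.Agent.R217.Avoid
import Crest.Agent.R217.Dvd

/-! # R217 / Main : the main lemma -/

set_option autoImplicit false
open Set Topology Filter

namespace Crest.Agent.R217

variable {p : ℕ} [Fact p.Prime] {N : ℕ} {X₀ : Set (R N)} {act : ℤ_[p] → R N → R N}

namespace MainA

theorem mem_iff {V : Type*} [TopologicalSpace V] {X₀ : Set V} {act : ℤ_[p] → V → V}
    (hA : Act p X₀ act) {A : Set V} (hI : Inv act A) {x : V} (hx : x ∈ X₀) (a : ℤ_[p]) :
    act a x ∈ A ↔ x ∈ A := by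
  refine ⟨fun h => ?_, fun h => hI a h⟩
  have := hI (-a) h
  rwa [← hA.add _ _ _ hx, neg_add_cancel, hA.zero _ hx] at this

theorem interior_frontiers {V ι : Type*} [TopologicalSpace V] (t : Finset ι) (W : ι → Set V)
    (h : ∀ i ∈ t, IsOpen (W i)) : interior (⋃ i ∈ t, frontier (W i)) = ∅ := by
  classical
  induction t using Finset.induction_on with
  | empty => simp
  | insert a t _ ih =>
    rw [Finset.set_biUnion_insert, interior_union_isClosed_of_interior_empty isClosed_frontier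
      (ih fun i hi => h i (Finset.mem_insert_of_mem hi)), ← frontier_compl]
    exact interior_frontier (h a (Finset.mem_insert_self _ _)).isClosed_compl

theorem ev_mem {V : Type*} [TopologicalSpace V] {W : Set V} (hW : IsOpen W) {x : V}
    (hx : x ∉ frontier W) : ∀ᶠ y in 𝓝 x, y ∈ W ↔ x ∈ W := by
  by_cases h : x ∈ W
  · filter_upwards [hW.mem_nhds h] with y hy
    exact iff_of_true hy h
  · have : x ∉ closure W := fun h' => hx (by rw [hW.frontier_eq]; exact ⟨h', h⟩)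
    filter_upwards [isClosed_closure.isOpen_compl.mem_nhds this] with y hy
    exact iff_of_false (fun h' => hy (subset_closure h')) h

end MainA

/-- Take `g` from `exists_homeo 1` and `ε` from `D.homeo`.  `homot_frontier` gives
`deg (act 1 · - y₀) U₀ = deg (· - y₀) U₀ = s0`, and it is `ε * deg (· - y₀) (g '' U₀)`, which is
`ε * s0` or `0`.  So `ε = 1`. -/
theorem Act.orient (D : DegTh N) (hA : Act p X₀ act) (hc : IsPreconnected X₀)
    (hor : Ori X₀ (act 1)) :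
    (∀ φ W, W ⊆ X₀ → IsOpen W → Adm0 φ (act 1 '' W) →
      D.deg (φ ∘ act 1) W = D.deg φ (act 1 '' W)) ∧ TwProp D.deg (act 1) X₀ := by
  obtain ⟨g, hs, ht, hg⟩ := hA.exists_homeo 1
  obtain ⟨ε, hε, h1, h2⟩ := D.homeo g X₀ hA.isOpen hc hs.ge
  obtain ⟨U₀, y₀, hU, hUc, hUX, hy, hf⟩ := hor
  have hcont : ContinuousOn (act 1) (closure U₀) := hg ▸ g.continuousOn.mono (hUX.trans hs.ge)
  have e1 : D.deg (fun x => x - y₀) U₀ = D.deg (fun x => act 1 x - y₀) U₀ := by
    refine D.homot_frontier hU hUc (by fun_prop) (hcont.sub continuousOn_const) fun τ hτ x hx h => ?_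
    apply hf τ hτ x hx
    rw [← sub_eq_zero, ← h]
    module
  have hU₀ : U₀ ⊆ X₀ := subset_closure.trans hUX
  have ho : IsOpen (g '' U₀) := g.isOpen_image_of_subset_source hU (hU₀.trans hs.ge)
  have hadm : Adm0 (fun x => x - y₀) (g '' U₀) :=
    ⟨ho, by fun_prop, ((finite_singleton y₀).subset fun x hx => sub_eq_zero.1 hx.2).isCompact⟩
  have e2 := h1 _ U₀ hU₀ hU hadm
  have e3 : ((fun x => x - y₀) ∘ g) = fun x => act 1 x - y₀ := by rw [hg]; rfl
  rw [e3, ← e1, D.ident y₀ U₀ hU hy] at e2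
  have hε1 : ε = 1 := by
    by_cases hm : y₀ ∈ g '' U₀
    · rw [D.ident y₀ _ ho hm] at e2
      rcases hε with h | h
      · exact h
      · rw [h] at e2
        exact absurd (by linarith) D.s0_ne
    · rw [D.eq_zero hadm fun x hx h => hm (sub_eq_zero.1 h ▸ hx), mul_zero] at e2
      exact absurd e2 D.s0_ne
  rw [hg] at h1 h2
  refine ⟨fun φ W a b c => by rw [h1 φ W a b c, hε1, one_mul], h2 hε1 ?_⟩
  rw [← hg, ← hs, g.image_source_eq_target, ht, hs]

/-- Decomposition after a generic perturbation.  Let `ε₀ > 0` be `< min_{frontier U} ‖φ‖` and such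
that `C₀ = {x ∈ closure U | ‖φ x‖ ≤ ε₀}` misses `Fx 0`.  Cover `C₀ ⊆ U` by finitely many slices
`W_a` (`exists_slice`, `k = 0`, `W = U`) with labels `τ_a`.  `F = Fx k`, `O = interior F`,
`A = closure U ∩ F ∩ (Oᶜ ∪ ⋃ frontier W_a)` is compact with empty interior.  `avoid` gives `φ'`.
`V₁ = U \ F`; `V₂ = (U ∩ O ∩ ⋃ W_a) \ ⋃ frontier W_a`, `τ x = τ_a x` for the first `a` with
`x ∈ W_a` (locally constant on `V₂`), `V j = {x ∈ V₂ | τ x = j}`. -/
theorem Act.decomp (hA : Act p X₀ act) {U : Set (R N)} (hU : IsOpen U)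
    (hUc : IsCompact (closure U)) (hUX : closure U ⊆ X₀) (hI : Inv act U) {φ : R N → R N}
    (hφ : ContinuousOn φ (closure U)) (hφI : ∀ a, ∀ x ∈ closure U, φ (act a x) = φ x)
    (hf : ∀ x ∈ frontier U, φ x ≠ 0) (hz : ∀ x ∈ U, φ x = 0 → x ∉ Fx X₀ act 0) (k : ℕ) :
    ∃ (φ' : R N → R N) (V : ZMod (p ^ 1) → Set (R N)), ContinuousOn φ' (closure U) ∧
      (∀ a, ∀ x ∈ closure U, φ' (act a x) = φ' x) ∧
      (∀ τ ∈ Icc (0 : ℝ) 1, ∀ x ∈ frontier U, (1 - τ) • φ x + τ • φ' x ≠ 0) ∧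
      (∀ j, IsOpen (V j) ∧ V j ⊆ U ∩ Fx X₀ act k ∧ act 1 '' V j = V (j + 1)) ∧
      Pairwise (Function.onFun Disjoint V) ∧
      ∀ x ∈ U, φ' x = 0 → x ∈ Fx X₀ act k → ∃ j, x ∈ V j := by
  have hcF : ∀ l, IsCompact (closure U ∩ Fx X₀ act l) := fun l => by
    have := hUc.diff (hA.isOpen_diff_Fx l)
    convert this using 1
    ext x
    exact ⟨fun h => ⟨h.1, fun h' => h'.2 h.2⟩, fun h => ⟨h.1, by_contra fun h' => h.2 ⟨hUX h.1, h'⟩⟩⟩
  have hfc : frontier U ⊆ closure U := frontier_subset_closure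
  have hmem : ∀ x ∈ closure U, x ∉ frontier U → x ∈ U := fun x hx h => by
    by_contra h'
    exact h (by rw [hU.frontier_eq]; exact ⟨hx, h'⟩)
  obtain ⟨ε, hε, hεK⟩ := IsCompact.exists_forall_le'
    ((hUc.of_isClosed_subset isClosed_frontier hfc).union (hcF 0))
    (f := fun x => ‖φ x‖) (a := 0) (hφ.norm.mono (union_subset hfc inter_subset_left)) (by
      rintro x (hx | hx)
      · exact norm_pos_iff.2 (hf x hx)
      · refine norm_pos_iff.2 fun h => ?_
        by_cases h' : x ∈ frontier U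
        · exact hf x h' h
        · exact hz x (hmem x hx.1 h') h hx.2)
  set C₀ : Set (R N) := closure U ∩ (fun x => ‖φ x‖) ⁻¹' Iic (ε / 2) with hC₀
  have hC : IsCompact C₀ := hUc.of_isClosed_subset
    (hφ.norm.preimage_isClosed_of_isClosed isClosed_closure isClosed_Iic) inter_subset_left
  have hCU : ∀ x ∈ C₀, x ∈ U ∧ x ∉ Fx X₀ act 0 := fun x hx => by
    have h2 : ‖φ x‖ ≤ ε / 2 := hx.2
    refine ⟨hmem x hx.1 fun h => ?_, fun h => ?_⟩
    · have := hεK x (Or.inl h); linarith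
    · have := hεK x (Or.inr ⟨hx.1, h⟩); linarith
  have hUX' : U ⊆ X₀ := subset_closure.trans hUX
  choose! W hWo hWx hWU hWI τ hτ using fun x (hx : x ∈ C₀) =>
    hA.exists_slice hU hUX' hI (k := 0) (hCU x hx).1 (hCU x hx).2
  obtain ⟨t, htC, ht⟩ := hC.elim_nhds_subcover W fun x hx => (hWo x hx).mem_nhds (hWx x hx)
  set B : Set (R N) := ⋃ i ∈ t, frontier (W i) with hB
  have hBc : IsClosed B := isClosed_biUnion_finset fun _ _ => isClosed_frontier
  have hBi : interior B = ∅ := MainA.interior_frontiers t W fun i hi => hWo i (htC i hi)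
  set O := interior (Fx X₀ act k) with hO
  set A : Set (R N) := closure U ∩ Fx X₀ act k ∩ (Oᶜ ∪ B) with hAdef
  have hAc : IsCompact A := (hcF k).inter_right (isOpen_interior.isClosed_compl.union hBc)
  have hAi : interior A = ∅ := by
    rw [← subset_empty_iff, ← hBi]
    refine interior_maximal (fun x hx => ?_) isOpen_interior
    refine ((interior_subset hx).2).resolve_left fun h => h ?_
    exact interior_mono (fun y hy => hy.1.2) hx
  obtain ⟨φ', c', I', n', z'⟩ := hA.avoid hUc hUX (hA.inv_closure hUX hI) k hAc (fun x hx => hx.1.1)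
    (fun x hx => hx.1.2) hAi hφ hφI (half_pos hε)
  set V₂ : Set (R N) := (U ∩ O ∩ ⋃ i ∈ t, W i) \ B with hV₂
  have hV₂o : IsOpen V₂ := ((hU.inter isOpen_interior).inter
    (isOpen_biUnion fun i hi => hWo i (htC i hi))).sdiff hBc
  let S : R N → R N → Prop := fun x i => i ∈ t ∧ x ∈ W i
  let σ : R N → ZMod (p ^ 1) := fun x => τ (Classical.epsilon (S x)) x
  have hS : ∀ x ∈ V₂, S x (Classical.epsilon (S x)) := fun x hx => by
    obtain ⟨i, hi, hx'⟩ := mem_iUnion₂.1 hx.1.2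
    exact Classical.epsilon_spec ⟨i, hi, hx'⟩
  have hSa : ∀ x ∈ X₀, ∀ a, S (act a x) = S x := fun x hx a => funext fun i => propext <|
    and_congr_right fun hi => MainA.mem_iff hA (hWI i (htC i hi)) hx a
  have hV₂I : ∀ a, ∀ x ∈ V₂, act a x ∈ V₂ ∧ σ (act a x) = σ x + PadicInt.toZModPow 1 a := fun a x hx => by
    have hxX := hUX' hx.1.1.1
    refine ⟨⟨⟨⟨hI a hx.1.1.1, hA.inv_interior (fun y hy => hy.1) (hA.inv_Fx k) a hx.1.1.2⟩, ?_⟩, fun h => hx.2 ?_⟩, ?_⟩
    · obtain ⟨i, hi, hx'⟩ := mem_iUnion₂.1 hx.1.2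
      exact mem_iUnion₂.2 ⟨i, hi, hWI i (htC i hi) a hx'⟩
    · obtain ⟨i, hi, hx'⟩ := mem_iUnion₂.1 h
      have hi' := htC i hi
      refine mem_iUnion₂.2 ⟨i, hi, ?_⟩
      rw [(hWo i hi').frontier_eq] at hx' ⊢
      exact ⟨(MainA.mem_iff hA (hA.inv_closure ((closure_mono (hWU i hi')).trans hUX) (hWI i hi')) hxX a).1 hx'.1,
        fun h => hx'.2 (hWI i hi' a h)⟩
    · change τ (Classical.epsilon (S (act a x))) (act a x) = τ (Classical.epsilon (S x)) x + _
      rw [hSa x hxX a]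
      exact (hτ _ (htC _ (hS x hx).1) x (hS x hx).2).1 a
  refine ⟨φ', fun j => {x | x ∈ V₂ ∧ σ x = j}, c', I', fun s hs x hx h => ?_, fun j => ⟨?_, ?_, ?_⟩, ?_, ?_⟩
  · have h1 := hεK x (Or.inl hx)
    have h2 := n' x (hfc hx)
    have h3 : φ x = -(s • (φ' x - φ x)) := by
      rw [eq_neg_iff_add_eq_zero, ← h]; module
    have h4 : ‖φ x‖ ≤ ‖φ' x - φ x‖ := by
      conv_lhs => rw [h3]
      rw [norm_neg, norm_smul, Real.norm_of_nonneg hs.1]
      exact mul_le_of_le_one_left (norm_nonneg _) hs.2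
    linarith
  · refine isOpen_iff_mem_nhds.2 fun x hx => ?_
    have h1 : ∀ᶠ y in 𝓝 x, ∀ i ∈ t, (y ∈ W i ↔ x ∈ W i) := (eventually_all_finset t).2 fun i hi =>
      MainA.ev_mem (hWo i (htC i hi)) fun h => hx.1.2 (mem_iUnion₂.2 ⟨i, hi, h⟩)
    filter_upwards [hV₂o.mem_nhds hx.1, h1, (hτ _ (htC _ (hS x hx.1).1) x (hS x hx.1).2).2] with y hy h2 h3
    refine ⟨hy, ?_⟩
    have : S y = S x := funext fun i => propext <| and_congr_right fun hi => h2 i hi
    change τ (Classical.epsilon (S y)) y = j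
    rw [this, h3]
    exact hx.2
  · exact fun x hx => ⟨hx.1.1.1.1, interior_subset hx.1.1.1.2⟩
  · ext y
    constructor
    · rintro ⟨x, hx, rfl⟩
      refine ⟨(hV₂I 1 x hx.1).1, ?_⟩
      rw [(hV₂I 1 x hx.1).2, hx.2, map_one]
    · intro hy
      refine ⟨act (-1) y, ⟨(hV₂I _ y hy.1).1, ?_⟩, ?_⟩
      · rw [(hV₂I _ y hy.1).2, hy.2, map_neg, map_one, add_neg_cancel_right]
      · rw [← hA.add _ _ _ (hUX' hy.1.1.1.1), add_neg_cancel, hA.zero _ (hUX' hy.1.1.1.1)]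
  · intro i j hij
    exact disjoint_left.2 fun x h1 h2 => hij (h1.2.symm.trans h2.2)
  · intro x hx h0 hF
    have hxA : x ∉ A := fun h => z' x h h0
    have h1 : x ∉ Oᶜ ∪ B := fun h => hxA ⟨⟨subset_closure hx, hF⟩, h⟩
    rw [mem_union, not_or, notMem_compl_iff] at h1
    have h2 := n' x (subset_closure hx)
    rw [h0, zero_sub, norm_neg] at h2
    exact ⟨σ x, ⟨⟨⟨hx, h1.1⟩, ht ⟨subset_closure hx, h2.le⟩⟩, h1.2⟩, rfl⟩

/-- With `decomp`: `deg φ U = deg φ' U = deg φ' (U \ Fx k) + Σ_j deg φ' (V j)`; the first term is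
divisible by `p^(k+1)` (`TwProp`, `sliced`, `nbhdProp`, `ω = exp (2πi/p^(k+1))`), the others are all
equal (`orient`, `congr`) and divisible by `s0`.  So `s0 = p^(k+1) a + p s0 b` for all `k`,
impossible for `s0 ≠ 0` (`1 - p b` is prime to `p`, so `p^(k+1) ∣ s0` for all `k`). -/
theorem Act.main (D : DegTh N) (hA : Act p X₀ act) (hc : IsPreconnected X₀)
    (hor : Ori X₀ (act 1)) {U : Set (R N)} (hU : IsOpen U)
    (hUc : IsCompact (closure U)) (hUX : closure U ⊆ X₀) (hI : Inv act U) {φ : R N → R N}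
    (hφ : ContinuousOn φ (closure U)) (hφI : ∀ a, ∀ x ∈ closure U, φ (act a x) = φ x)
    (hf : ∀ x ∈ frontier U, φ x ≠ 0) (hz : ∀ x ∈ U, φ x = 0 → x ∉ Fx X₀ act 0) :
    D.deg φ U ≠ D.s0 := by
  classical
  intro hdeg
  have hp : p.Prime := Fact.out
  obtain ⟨o1, o2⟩ := hA.orient D hc hor
  have hUX' : U ⊆ X₀ := subset_closure.trans hUX
  have key : ∀ k : ℕ, (p : ℤ) ^ (k + 1) ∣ D.s0 := fun k => by
    obtain ⟨φ', V, c', I', h', hV, hd, hz'⟩ := hA.decomp hU hUc hUX hI hφ hφI hf hz k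
    have e1 := D.homot_frontier hU hUc hφ c' h'
    have adm : Adm0 φ' U := adm0_of_frontier hU hUc c' fun x hx h => h' 1 ⟨zero_le_one, le_rfl⟩ x hx (by simp [h])
    set W₁ : Set (R N) := U ∩ (X₀ \ Fx X₀ act k) with hW₁
    set W₂ : Set (R N) := ⋃ j ∈ (Finset.univ : Finset (ZMod (p ^ 1))), V j with hW₂
    have o₁ : IsOpen W₁ := hU.inter (hA.isOpen_diff_Fx k)
    have o₂ : IsOpen W₂ := isOpen_biUnion fun j _ => (hV j).1
    have s₂ : W₂ ⊆ U ∩ Fx X₀ act k := iUnion₂_subset fun j _ => (hV j).2.1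
    have hsub : W₁ ∪ W₂ ⊆ U := union_subset inter_subset_left fun x hx => (s₂ hx).1
    have hzs : U ∩ φ' ⁻¹' {0} ⊆ W₁ ∪ W₂ := fun x hx => by
      by_cases hF : x ∈ Fx X₀ act k
      · obtain ⟨j, hj⟩ := hz' x hx.1 hx.2 hF
        exact Or.inr (mem_iUnion₂.2 ⟨j, Finset.mem_univ _, hj⟩)
      · exact Or.inl ⟨hx.1, hUX' hx.1, hF⟩
    have dj : Disjoint W₁ W₂ := disjoint_left.2 fun x h1 h2 => h1.2.2 (s₂ h2).2
    have adm' := adm.mono (o₁.union o₂) hsub hzs
    have e2 := D.excise φ' U _ adm (o₁.union o₂) hsub hzs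
    have e3 := D.add φ' W₁ W₂ adm' o₁ o₂ dj
    have a₁ := adm'.of_union o₁ o₂ dj
    have a₂ : Adm0 φ' W₂ := Adm0.of_union (by rwa [union_comm]) o₂ o₁ dj.symm
    have e4 := D.sum Finset.univ V a₂ (fun j _ => (hV j).1) fun i _ j _ hij => hd hij
    have aV : ∀ j, Adm0 φ' (V j) := fun j => by
      refine Adm0.of_union (W₂ := ⋃ i ∈ Finset.univ.erase j, V i) ?_ (hV j).1
        (isOpen_biUnion fun j _ => (hV j).1) ?_
      · rwa [← Finset.set_biUnion_insert, Finset.insert_erase (Finset.mem_univ j)]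
      · exact disjoint_iUnion₂_right.2 fun i hi => hd (Finset.ne_of_mem_erase hi).symm
    have step : ∀ j, D.deg φ' (V (j + 1)) = D.deg φ' (V j) := fun j => by
      rw [← (hV j).2.2, ← o1 φ' (V j) (fun x hx => hUX' ((hV j).2.1 hx).1) (hV j).1 ((hV j).2.2 ▸ aV (j + 1))]
      exact (D.congr (aV j) fun x hx => (I' 1 x (subset_closure ((hV j).2.1 hx).1)).symm).symm
    have all : ∀ j, D.deg φ' (V j) = D.deg φ' (V 0) := fun j => by
      obtain ⟨n, rfl⟩ := ZMod.natCast_zmod_surjective j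
      induction n with
      | zero => rw [Nat.cast_zero]
      | succ n ih => rw [Nat.cast_succ, step, ih]
    have I₁ : Inv act W₁ := fun a x hx =>
      ⟨hI a hx.1, hA.maps a hx.2.1, fun h => hx.2.2 ((MainA.mem_iff hA (hA.inv_Fx k) hx.2.1 a).1 h)⟩
    have X₁ : W₁ ⊆ X₀ := fun x hx => hx.2.1
    have hω := Complex.isPrimitiveRoot_exp (p ^ (k + 1)) (pow_ne_zero _ hp.ne_zero)
    obtain ⟨a, ha⟩ := o2 φ' W₁ p (k + 1) _ X₁ (hA.image_eq X₁ I₁ 1) a₁
      (fun x hx => I' 1 x (subset_closure hx.1)) (hA.nbhdProp X₁) hp hω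
      (hA.sliced o₁ X₁ I₁ (disjoint_left.2 fun x h1 h2 => h1.2.2 h2) hω)
    obtain ⟨b, hb⟩ := D.s0_dvd (aV 0)
    simp only [all, Finset.sum_const, Finset.card_univ, ZMod.card, pow_one, nsmul_eq_mul] at e4
    have cop : IsCoprime ((p : ℤ) ^ (k + 1)) (1 - p * b) := IsCoprime.pow_left ⟨b, 1, by ring⟩
    refine cop.dvd_of_dvd_mul_right ⟨a, ?_⟩
    rw [← ha]
    linear_combination -hdeg + e1 - e2 + e3 + e4 + p * hb
  refine D.s0_ne (Int.eq_zero_of_dvd_of_natAbs_lt_natAbs (key D.s0.natAbs) ?_)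
  rw [Int.natAbs_pow, Int.natAbs_natCast]
  exact (Nat.lt_succ_self _).trans (Nat.lt_pow_self hp.one_lt)

end Crest.Agent.R217
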