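import Crest.Agent.R217.FixPt

/-! # R217 / Mfd : `ℤ_p`-actions on manifolds -/

set_option autoImplicit false
open Set Topology Filter Metric

namespace Crest.Agent.R217

variable {p : ℕ} [Fact p.Prime] {M : Type*} [TopologicalSpace M]
  {V : Type*} [NormedAddCommGroup V] [InnerProductSpace ℝ V] [FiniteDimensional ℝ V]

namespace MfdA

omit [FiniteDimensional ℝ V] in
theorem seg_ne {x d : V} {τ : ℝ} (hτ : τ ∈ Icc (0 : ℝ) 1) (h : ‖d‖ < ‖x‖) : x + τ • d ≠ 0 := by
  intro h0
  have h1 : ‖x‖ ≤ ‖d‖ := by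
    rw [eq_neg_of_add_eq_zero_left h0, norm_neg, norm_smul, Real.norm_of_nonneg hτ.1]
    exact mul_le_of_le_one_left (norm_nonneg _) hτ.2
  linarith

theorem not_mem_of_frontier {X : Type*} [TopologicalSpace X] {U : Set X} (hU : IsOpen U) {x : X}
    (hx : x ∈ frontier U) : x ∉ U := by
  rw [hU.frontier_eq] at hx
  exact hx.2

theorem restrict {X : Type*} [TopologicalSpace X] {X₁ X₀ : Set X} {act : ℤ_[p] → X → X}
    (hA : Act p X₁ act) (ho : IsOpen X₀) (hs : X₀ ⊆ X₁) (hI : Inv act X₀) : Act p X₀ act :=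
  ⟨ho, hA.cont.mono (prod_mono_right hs), hI, fun x hx => hA.zero x (hs hx),
    fun a b x hx => hA.add a b x (hs hx)⟩

theorem contOn {X : Type*} [TopologicalSpace X] {X₁ : Set X} {act : ℤ_[p] → X → X}
    (hA : Act p X₁ act) (a : ℤ_[p]) : ContinuousOn (act a) X₁ :=
  hA.cont.comp (f := fun x => (a, x)) (by fun_prop) fun _ hx => ⟨mem_univ _, hx⟩

theorem cont_orbit {X : Type*} [TopologicalSpace X] {X₁ : Set X} {act : ℤ_[p] → X → X}
    (hA : Act p X₁ act) {x : X} (hx : x ∈ X₁) : Continuous fun a => act a x :=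
  hA.cont.comp_continuous (f := fun a => (a, x)) (by fun_prop) fun _ => ⟨mem_univ _, hx⟩

omit [FiniteDimensional ℝ V] in
theorem psi_pos {x v : V} (hv : ‖v‖ = 1) {r : ℝ} (hr : 0 < r) (h0 : x ≠ 0) (h1 : ‖x‖ < r)
    (h2 : x ∉ ball (-(r • v)) r) : 0 < inner ℝ (x + (‖x‖ / 2) • v) v := by
  rw [mem_ball, dist_eq_norm, sub_neg_eq_add, not_lt] at h2
  have h3 := norm_add_sq_real x (r • v)
  rw [inner_smul_right, norm_smul, hv, Real.norm_of_nonneg hr.le, mul_one] at h3
  have h4 : r ^ 2 ≤ ‖x + r • v‖ ^ 2 := by gcongr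
  have h5 := norm_pos_iff.2 h0
  rw [inner_add_left, real_inner_smul_left, real_inner_self_eq_norm_sq, hv]
  have h6 : 0 < ‖x‖ * (r - ‖x‖) := mul_pos h5 (by linarith)
  by_contra h
  push Not at h
  nlinarith

omit [FiniteDimensional ℝ V] in
theorem psi_inj {x x' v : V} (hv : ‖v‖ = 1) (h : x + (‖x‖ / 2) • v = x' + (‖x'‖ / 2) • v) : x = x' := by
  have h1 : x - x' = ((‖x'‖ - ‖x‖) / 2) • v := by
    rw [sub_div, sub_smul, sub_eq_sub_iff_add_eq_add, h, add_comm]
  have h2 := congrArg norm h1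
  rw [norm_smul, hv, mul_one, Real.norm_eq_abs, abs_div, abs_two] at h2
  have h3 := abs_norm_sub_norm_le x' x
  rw [norm_sub_rev] at h3
  exact sub_eq_zero.1 (norm_eq_zero.1 (by linarith [norm_nonneg (x - x')]))

end MfdA

/-- transport of the action on an invariant open set inside a chart -/
theorem Act.chart {act : ℤ_[p] → M → M} (hA : Act p univ act) (e : OpenPartialHomeomorph M V)
    {O : Set M} (hO : IsOpen O) (hOe : O ⊆ e.source) (hI : Inv act O) :
    Act p (e '' O) (fun a v => e (act a (e.symm v))) := by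
  have hc : Continuous fun q : ℤ_[p] × M => act q.1 q.2 := by
    have := hA.cont
    rwa [univ_prod_univ, continuousOn_univ] at this
  have hT : e '' O ⊆ e.target := by
    rintro _ ⟨x, hx, rfl⟩
    exact e.map_source (hOe hx)
  refine ⟨e.isOpen_image_of_subset_source hO hOe, ?_, ?_, ?_, ?_⟩
  · refine e.continuousOn.comp (f := fun q : ℤ_[p] × V => act q.1 (e.symm q.2))
      (hc.comp_continuousOn (f := fun q : ℤ_[p] × V => (q.1, e.symm q.2)) (continuousOn_fst.prodMk
        (e.continuousOn_symm.comp continuousOn_snd fun q hq => hT hq.2))) ?_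
    rintro ⟨a, _⟩ ⟨-, x, hx, rfl⟩
    simp only [e.left_inv (hOe hx)]
    exact hOe (hI a hx)
  · rintro a _ ⟨x, hx, rfl⟩
    simp only [e.left_inv (hOe hx)]
    exact ⟨_, hI a hx, rfl⟩
  · rintro _ ⟨x, hx, rfl⟩
    rw [hA.zero _ (mem_univ _), e.left_inv (hOe hx)]
  · rintro a b _ ⟨x, hx, rfl⟩
    rw [e.left_inv (hOe hx), e.left_inv (hOe (hI b hx)), hA.add _ _ _ (mem_univ _)]

/-- (i) A small action is trivial.  `O` = saturation of `e.symm '' ball c (2r)`, `X₀ = e '' O ⊆
ball c (5r/2)` is preconnected (union of the preconnected `act' a '' ball c (2r)`, each meeting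
`ball c (2r)`), contains `ball c (2r)`, and every point of `X₀` moves by `< r/2`.  `U` = saturation of
`ball c (6r/5)`, `closure U ⊆ closedBall c (17r/10)`, `frontier U` misses `ball c (6r/5)`.
`φ₀` = average of `id` on `closure U` (`‖φ₀ x - x‖ ≤ r/2`), `ψ = · - y`, `φ = φ₀ - y`,
`Ori` with `U₀ = U`, `y₀ = c`.  The fixed point `x` has `φ₀ x = x`, so `x = y`. -/
theorem Act.small (hV : FixProp V) {act : ℤ_[p] → M → M} (hA : Act p univ act)
    (e : OpenPartialHomeomorph M V) (c : V) {r : ℝ} (hr : 0 < r)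
    (hb : closedBall c (3 * r) ⊆ e.target)
    (hs : ∀ a, ∀ v ∈ closedBall c (3 * r),
      act a (e.symm v) ∈ e.source ∧ dist (e (act a (e.symm v))) v < r / 2) :
    ∀ a, ∀ v ∈ ball c (r / 2), act a (e.symm v) = e.symm v := by
  set act' : ℤ_[p] → V → V := fun a v => e (act a (e.symm v)) with hact'
  have hB : ball c (2 * r) ⊆ closedBall c (3 * r) :=
    ball_subset_closedBall.trans (closedBall_subset_closedBall (by linarith))
  have hP : IsOpen (e.symm '' ball c (2 * r)) :=
    e.symm.isOpen_image_of_subset_source isOpen_ball (hB.trans hb)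
  set O : Set M := ⋃ a, act a '' (e.symm '' ball c (2 * r)) with hO
  have hOe : O ⊆ e.source := by
    refine iUnion_subset fun a => ?_
    rintro _ ⟨_, ⟨v, hv, rfl⟩, rfl⟩
    exact (hs a v (hB hv)).1
  obtain ⟨hI, hPO, -⟩ := hA.inv_sat (subset_univ (e.symm '' ball c (2 * r)))
  have hA' : Act p (e '' O) act' := hA.chart e (hA.isOpen_sat hP (subset_univ _)) hOe hI
  have h1 : ball c (2 * r) ⊆ e '' O := fun v hv => ⟨_, hPO ⟨v, hv, rfl⟩, e.right_inv (hb (hB hv))⟩
  have h2 : ∀ v ∈ e '' O, ∃ a, ∃ w ∈ ball c (2 * r), v = act' a w := by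
    rintro _ ⟨x, hx, rfl⟩
    obtain ⟨a, _, ⟨w, hw, rfl⟩, rfl⟩ := mem_iUnion.1 hx
    exact ⟨a, w, hw, rfl⟩
  have h3 : ∀ a, ∀ v ∈ e '' O, dist (act' a v) v < r / 2 := fun a v hv => by
    obtain ⟨b, w, hw, rfl⟩ := h2 v hv
    refine (hs a _ ?_).2
    have := (hs b w (hB hw)).2
    have h4 := dist_triangle (act' b w) w c
    rw [mem_ball] at hw
    rw [mem_closedBall]
    simp only [hact'] at h4 ⊢
    linarith
  have hc : IsPreconnected (e '' O) := by
    refine isPreconnected_of_forall c fun y hy => ?_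
    obtain ⟨a, w, hw, rfl⟩ := h2 y hy
    have hc2 : c ∈ ball c (2 * r) := mem_ball_self (by linarith)
    refine ⟨ball c (2 * r) ∪ act' a '' ball c (2 * r), union_subset h1 ?_, Or.inl hc2, Or.inr ⟨w, hw, rfl⟩,
      IsPreconnected.union (act' a c) ?_ ⟨c, hc2, rfl⟩ (convex_ball _ _).isPreconnected
        ((convex_ball _ _).isPreconnected.image _ ((MfdA.contOn hA' a).mono h1))⟩
    · rintro _ ⟨u, hu, rfl⟩
      exact hA'.maps a (h1 hu)
    · have := h3 a c (h1 hc2)
      rw [mem_ball]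
      linarith
  have hb' : ball c (6 * r / 5) ⊆ e '' O := (ball_subset_ball (by linarith)).trans h1
  set U : Set V := ⋃ a, act' a '' ball c (6 * r / 5) with hU
  have hUo : IsOpen U := hA'.isOpen_sat isOpen_ball hb'
  obtain ⟨hUI, hbU, -⟩ := hA'.inv_sat hb'
  have hUb : closure U ⊆ closedBall c (17 * r / 10) := by
    refine closure_minimal (iUnion_subset fun a => ?_) isClosed_closedBall
    rintro _ ⟨w, hw, rfl⟩
    have := h3 a w (hb' hw)
    have h4 := dist_triangle (act' a w) w c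
    rw [mem_ball] at hw
    rw [mem_closedBall]
    linarith
  have hUc : IsCompact (closure U) := (isCompact_closedBall _ _).of_isClosed_subset isClosed_closure hUb
  have hUX : closure U ⊆ e '' O := hUb.trans ((closedBall_subset_ball (by linarith)).trans h1)
  have hfr : ∀ x ∈ frontier U, 6 * r / 5 ≤ ‖x - c‖ := fun x hx => by
    by_contra h
    exact MfdA.not_mem_of_frontier hUo hx (hbU (by rw [mem_ball, dist_eq_norm]; exact not_le.1 h))
  obtain ⟨φ, hφ, hφI, hφC⟩ := hA'.exists_avg hUX (hA'.inv_closure hUX hUI) (ψ := id) continuousOn_id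
  intro a y hy
  have hyU : y ∈ U := hbU (ball_subset_ball (by linarith) hy)
  obtain ⟨x, hx, hx0, hxf⟩ := hV p (e '' O) act' hA' hc
    ⟨U, c, hUo, hUc, hUX, hbU (mem_ball_self (by linarith)), fun τ hτ x hx h => by
      refine MfdA.seg_ne (x := x - c) (d := act' 1 x - x) hτ ?_ ?_
      · have := h3 1 x (hUX (frontier_subset_closure hx))
        rw [dist_eq_norm] at this
        linarith [hfr x hx]
      · rw [← h]; module⟩
    U y (fun x => x - y) (fun x => φ x - y) hUo hUc hUX hUI hyU (by fun_prop) (hφ.sub continuousOn_const)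
    (fun a x hx => by rw [hφI a x hx])
    (fun τ _ x hx h => by
      have : x = y := by rw [← sub_eq_zero, ← h]; module
      exact MfdA.not_mem_of_frontier hUo hx (this ▸ hyU))
    (fun τ hτ x hx h => by
      have hx' := frontier_subset_closure hx
      refine MfdA.seg_ne (x := x - y) (d := φ x - x) hτ ?_ ?_
      · have := hφC x hx' (closedBall x (r / 2)) (convex_closedBall _ _) isClosed_closedBall
          fun a => (h3 a x (hUX hx')).le
        rw [mem_closedBall, dist_eq_norm] at this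
        have h4 := hfr x hx
        have h5 := norm_sub_le_norm_sub_add_norm_sub x y c
        rw [mem_ball, dist_eq_norm] at hy
        linarith
      · rw [← h]; module)
  have h4 : φ x = x := hφC x (subset_closure hx) {x} (convex_singleton x) isClosed_singleton hxf
  have h5 : x = y := by rw [← h4]; exact sub_eq_zero.1 hx0
  subst h5
  have h6 := (hs a x (ball_subset_closedBall (ball_subset_ball (by linarith) hy))).1
  rw [← e.left_inv h6]
  exact congrArg e.symm (hxf a)

/-- (ii') Dress' trick in a vector space.  `X₀` := connected component of `0` in `X₁` (open, invariant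
since `0` is fixed).  `Ori`: a small ball inside `ball (-r v) r ∩ X₀`, where the action is trivial.
`U` invariant open nbhd of `0` with compact closure in `X₀ ∩ ball 0 r` (`exists_inv_nhds`).
`ψ₀ x = x + (‖x‖/2) • v` (injective: `‖ψ₀ x - ψ₀ x'‖ ≥ ‖x - x'‖/2`), `φ₀` = average of `ψ₀` on
`closure U`.  For `x ∈ frontier U`: `(1-τ) x + τ ψ₀ x ≠ 0`; if `x` is fixed `φ₀ x = ψ₀ x ≠ 0`;
otherwise its whole orbit is nonfixed, so consists of `x' ∉ ball (-r v) r`, `0 < ‖x'‖ < r`, whence
`⟪ψ₀ x', v⟫ ≥ ‖x'‖/2 - ‖x'‖²/(2r) > 0`, so `⟪φ₀ x, v⟫ > 0` (compact orbit).  By compactness both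
homotopies stay `δ`-away from `0` on `frontier U`; for `‖y‖` small (`y ∈ U`) apply `FixProp` with
`ψ₀ - y`, `φ₀ - y`: `y ∈ ψ₀ (Fix)`.  For `x` near `0`, `y = ψ₀ x` gives `x ∈ Fix`. -/
theorem Act.dress (hV : FixProp V) {X₁ : Set V} {act : ℤ_[p] → V → V} (hA : Act p X₁ act)
    (h0 : (0 : V) ∈ Fx X₁ act 0) {v : V} (hv : ‖v‖ = 1) {r : ℝ} (hr : 0 < r)
    (hb : ∀ x ∈ X₁, x ∈ ball (-(r • v)) r → ∀ a, act a x = x) :
    ∀ᶠ x in 𝓝 (0 : V), ∀ a, act a x = x := by
  have h0f : ∀ a, act a 0 = 0 := fun a => by simpa using h0.2 a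
  set X₀ := connectedComponentIn X₁ (0 : V) with hX₀
  have hXs : X₀ ⊆ X₁ := connectedComponentIn_subset _ _
  have hX0 : (0 : V) ∈ X₀ := mem_connectedComponentIn h0.1
  have hXo : IsOpen X₀ := hA.isOpen.connectedComponentIn
  have hXc : IsPreconnected X₀ := isPreconnected_connectedComponentIn
  have hXI : Inv act X₀ := fun a x hx =>
    (hXc.image _ ((MfdA.contOn hA a).mono hXs)).subset_connectedComponentIn ⟨0, hX0, h0f a⟩
      (by rintro _ ⟨y, hy, rfl⟩; exact hA.maps a (hXs hy)) ⟨x, hx, rfl⟩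
  have hA' := MfdA.restrict hA hXo hXs hXI
  obtain ⟨ρ, hρ, hρX⟩ := nhds_basis_closedBall.mem_iff.1
    (inter_mem (hXo.mem_nhds hX0) (ball_mem_nhds (0 : V) hr))
  have hρr : ρ < r := by
    have : ρ • v ∈ closedBall (0 : V) ρ := by simp [norm_smul, hv, abs_of_pos hρ]
    simpa [norm_smul, hv, abs_of_pos hρ] using (hρX this).2
  have hor : Ori X₀ (act 1) := by
    have hy : -(ρ • v) ∈ X₀ ∩ ball (-(r • v)) r := by
      refine ⟨(hρX (by simp [norm_smul, hv, abs_of_pos hρ])).1, ?_⟩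
      rw [mem_ball, dist_eq_norm, show -(ρ • v) - -(r • v) = (r - ρ) • v by module, norm_smul, hv,
        Real.norm_of_nonneg (by linarith)]
      linarith
    obtain ⟨η, hη, hηX⟩ := nhds_basis_closedBall.mem_iff.1 ((hXo.inter isOpen_ball).mem_nhds hy)
    have hcl : closure (ball (-(ρ • v)) η) ⊆ closedBall (-(ρ • v)) η := closure_ball_subset_closedBall
    refine ⟨ball (-(ρ • v)) η, -(ρ • v), isOpen_ball,
      (isCompact_closedBall _ _).of_isClosed_subset isClosed_closure hcl,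
      fun x hx => (hηX (hcl hx)).1, mem_ball_self hη, fun τ _ x hx h => ?_⟩
    have h1 := hηX (hcl (frontier_subset_closure hx))
    rw [hb x (hXs h1.1) h1.2] at h
    have : x = -(ρ • v) := by rw [← h]; module
    exact MfdA.not_mem_of_frontier isOpen_ball hx (this ▸ mem_ball_self hη)
  obtain ⟨U, hUo, hU0, hUb, -, hUI⟩ := hA'.exists_inv_nhds ⟨hX0, h0.2⟩ (closedBall_mem_nhds (0 : V) hρ)
  have hUb' : closure U ⊆ closedBall 0 ρ := closure_minimal hUb isClosed_closedBall
  have hUc : IsCompact (closure U) := (isCompact_closedBall _ _).of_isClosed_subset isClosed_closure hUb'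
  have hUX : closure U ⊆ X₀ := fun x hx => (hρX (hUb' hx)).1
  have hcI := hA'.inv_closure hUX hUI
  set ψ : V → V := fun x => x + (‖x‖ / 2) • v with hψ
  have hψc : Continuous ψ := by fun_prop
  obtain ⟨φ, hφ, hφI, hφC⟩ := hA'.exists_avg hUX hcI hψc.continuousOn
  have hfix : ∀ x ∈ closure U, (∀ a, act a x = x) → φ x = ψ x := fun x hx h =>
    hφC x hx {ψ x} (convex_singleton _) isClosed_singleton fun a => by rw [h a]; rfl
  have hne : ∀ x ∈ frontier U, x ≠ 0 := fun x hx h => MfdA.not_mem_of_frontier hUo hx (h ▸ hU0)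
  have H1 : ∀ τ ∈ Icc (0 : ℝ) 1, ∀ x ∈ frontier U, (1 - τ) • x + τ • ψ x ≠ 0 := fun τ hτ x hx h => by
    refine MfdA.seg_ne (x := x) (d := (‖x‖ / 2) • v) hτ ?_ ?_
    · rw [norm_smul, hv, Real.norm_of_nonneg (by positivity)]
      linarith [norm_pos_iff.2 (hne x hx)]
    · rw [← h, hψ]; module
  have H2 : ∀ τ ∈ Icc (0 : ℝ) 1, ∀ x ∈ frontier U, (1 - τ) • ψ x + τ • φ x ≠ 0 := fun τ hτ x hx h => by
    have hx' := frontier_subset_closure hx
    by_cases hf : ∀ a, act a x = x
    · rw [hfix x hx' hf] at h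
      refine H1 1 ⟨zero_le_one, le_rfl⟩ x hx ?_
      rw [← h]; module
    · have nf : ∀ a, ¬ ∀ b, act b (act a x) = act a x := fun a h' => hf fun b => by
        have : x = act a x := by
          rw [← h' (-a), ← hA'.add _ _ _ (hUX hx'), neg_add_cancel, hA'.zero _ (hUX hx')]
        rw [this]
        exact h' b
      have pos : ∀ a, 0 < inner ℝ (ψ (act a x)) v := fun a =>
        MfdA.psi_pos hv hr (fun h' => nf a fun b => by rw [h', h0f])
          (by simpa using (hρX (hUb' (hcI a hx'))).2)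
          (fun h' => nf a (hb _ (hXs (hUX (hcI a hx'))) h'))
      obtain ⟨δ, hδ, hδ'⟩ := isCompact_univ.exists_forall_le' (f := fun a => inner ℝ (ψ (act a x)) v) (a := 0)
        ((hψc.comp (MfdA.cont_orbit hA' (hUX hx'))).inner continuous_const).continuousOn fun a _ => pos a
      have h1 : δ ≤ inner ℝ (φ x) v := hφC x hx' {w | δ ≤ inner ℝ w v}
        (convex_halfSpace_ge ⟨fun a b => inner_add_left a b v, fun c a => real_inner_smul_left a v c⟩ δ)
        (isClosed_le continuous_const (by fun_prop)) fun a => hδ' a (mem_univ _)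
      have h2 := hδ' 0 (mem_univ _)
      simp only [hA'.zero _ (hUX hx')] at h2
      have h3 := congrArg (fun w => inner ℝ w v) h
      simp only [inner_add_left, real_inner_smul_left, inner_zero_left] at h3
      nlinarith [hτ.1, hτ.2]
  have hK : IsCompact (Icc (0 : ℝ) 1 ×ˢ frontier U) :=
    isCompact_Icc.prod (hUc.of_isClosed_subset isClosed_frontier frontier_subset_closure)
  obtain ⟨η₁, hη₁, b₁⟩ := hK.exists_forall_le' (f := fun q => ‖(1 - q.1) • q.2 + q.1 • ψ q.2‖) (a := 0)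
    (by fun_prop) fun q hq => norm_pos_iff.2 (H1 q.1 hq.1 q.2 hq.2)
  obtain ⟨η₂, hη₂, b₂⟩ := hK.exists_forall_le' (f := fun q => ‖(1 - q.1) • ψ q.2 + q.1 • φ q.2‖) (a := 0)
    (ContinuousOn.norm (ContinuousOn.add (by fun_prop) (continuousOn_fst.smul
      (hφ.comp continuousOn_snd fun q hq => frontier_subset_closure hq.2))))
    fun q hq => norm_pos_iff.2 (H2 q.1 hq.1 q.2 hq.2)
  have hψ0 : Tendsto ψ (𝓝 0) (𝓝 0) := by
    have := hψc.tendsto 0
    simpa [hψ] using this
  filter_upwards [hψ0 (hUo.mem_nhds hU0), hψ0 (ball_mem_nhds 0 hη₁), hψ0 (ball_mem_nhds 0 hη₂)] with x' m0 m1 m2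
  rw [mem_preimage, mem_ball_zero_iff] at m1 m2
  obtain ⟨x, hx, hx0, hxf⟩ := hV p X₀ act hA' hXc hor U (ψ x') (fun x => ψ x - ψ x') (fun x => φ x - ψ x')
    hUo hUc hUX hUI m0 (by fun_prop) (hφ.sub continuousOn_const) (fun a x hx => by rw [hφI a x hx])
    (fun τ hτ x hx h => by
      have h1 : (1 - τ) • x + τ • ψ x = ψ x' := by rw [← sub_eq_zero, ← h]; module
      have := b₁ (τ, x) ⟨hτ, hx⟩
      simp only [h1] at this
      linarith)
    (fun τ hτ x hx h => by
      have h1 : (1 - τ) • ψ x + τ • φ x = ψ x' := by rw [← sub_eq_zero, ← h]; module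
      have := b₂ (τ, x) ⟨hτ, hx⟩
      simp only [h1] at this
      linarith)
  rw [hfix x (subset_closure hx) hxf, sub_eq_zero] at hx0
  rw [← MfdA.psi_inj hv hx0]
  exact hxf

/-- (ii) Newman closedness.  `F = {x | ∀ a, act a x = x}` is closed.  If `x₀ ∉ interior F`: chart `e`
at `x₀`, ball `B(e x₀, ρ) ⊆ e.target`, `z ∈ e (interior F)` within `ρ/4`; `r > 0` the distance
from `z` to the closed set `closedBall (e x₀) (ρ/2) \ e (interior F ∩ source)` (contains `e x₀`),
attained at `w`; `ball z r ⊆ e (interior F)`, `x₁ = e.symm w ∈ F \ interior F`.  Translate the chart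
so that `w = 0` (`e.trans (Homeomorph.subRight w)`), take an invariant open nbhd of `x₁` inside the
source (`exists_inv_nhds`), `Act.chart`, `v = (w - z)/r`, `dress` ⇒ `x₁ ∈ interior F`. -/
theorem Act.newman [T2Space M] [ChartedSpace V M] (hV : FixProp V) {act : ℤ_[p] → M → M}
    (hA : Act p univ act) : IsClosed (interior {x | ∀ a, act a x = x}) := by
  set F : Set M := {x | ∀ a, act a x = x} with hF
  have hFc : IsClosed F := by
    rw [hF, ofPred_forall]
    exact isClosed_iInter fun a => isClosed_eq (continuousOn_univ.1 (MfdA.contOn hA a)) continuous_id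
  refine isClosed_of_closure_subset fun x₀ hx₀ => ?_
  by_contra hn
  set e := chartAt V x₀ with he
  have hs : x₀ ∈ e.source := mem_chart_source V x₀
  obtain ⟨ρ, hρ, hρT⟩ := nhds_basis_closedBall.mem_iff.1 (e.open_target.mem_nhds (e.map_source hs))
  set G : Set V := e '' (interior F ∩ e.source) with hG
  have hGo : IsOpen G := e.isOpen_image_of_subset_source (isOpen_interior.inter e.open_source) inter_subset_right
  have hGm : ∀ x ∈ e.source, e x ∈ G → x ∈ interior F := by
    rintro x hx ⟨y, hy, hxy⟩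
    exact e.injOn hy.2 hx hxy ▸ hy.1
  obtain ⟨m, hm, hmF⟩ := mem_closure_iff_nhds.1 hx₀ _ (inter_mem (e.open_source.mem_nhds hs)
    (e.continuousAt hs (ball_mem_nhds (e x₀) (half_pos hρ))))
  have hz : e m ∈ G := ⟨m, ⟨hmF, hm.1⟩, rfl⟩
  have hzd : dist (e m) (e x₀) < ρ / 2 := hm.2
  have hK : IsCompact (closedBall (e x₀) ρ \ G) := (isCompact_closedBall _ _).diff hGo
  have hK0 : e x₀ ∈ closedBall (e x₀) ρ \ G := ⟨mem_closedBall_self hρ.le, fun h => hn (hGm _ hs h)⟩
  obtain ⟨w, hw, hmin⟩ := hK.exists_isMinOn ⟨_, hK0⟩ (f := fun y => dist y (e m)) (by fun_prop)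
  set z := e m
  set r := dist w z with hr
  have hr0 : 0 < r := dist_pos.2 fun h => hw.2 (h ▸ hz)
  have hr1 : r < ρ / 2 := by
    have : dist w z ≤ dist (e x₀) z := hmin hK0
    rw [dist_comm (e x₀)] at this
    linarith
  have hbG : ball z r ⊆ G := fun y hy => by
    by_contra h
    have h1 : dist w z ≤ dist y z := hmin ⟨by
      have := dist_triangle y z (e x₀)
      rw [mem_ball] at hy
      rw [mem_closedBall]
      linarith, h⟩
    exact absurd hy (not_lt.2 h1)
  have hwT : w ∈ e.target := hρT hw.1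
  have hGF : ∀ y ∈ G, e.symm y ∈ F := by
    rintro _ ⟨y, hy, rfl⟩
    rw [e.left_inv hy.2]
    exact interior_subset hy.1
  have hx₁ : e.symm w ∈ F := by
    have h1 : w ∈ closure (ball z r) := by
      rw [closure_ball _ hr0.ne']
      exact mem_closedBall.2 le_rfl
    rw [← hFc.closure_eq]
    exact (e.continuousAt_symm hwT).continuousWithinAt.mem_closure h1 fun y hy => hGF y (hbG hy)
  set e' := e.transHomeomorph (Homeomorph.subRight w) with he'
  have e1 : ∀ x, e' x = e x - w := fun _ => rfl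
  have e2 : ∀ y, e'.symm y = e.symm (y + w) := fun _ => rfl
  have e3 : e'.source = e.source := rfl
  obtain ⟨U, hUo, hU1, hUs, -, hUI⟩ := hA.exists_inv_nhds (x := e.symm w) ⟨mem_univ _, fun a => hx₁ _⟩
    (e.open_source.mem_nhds (e.map_target hwT))
  have e4 : e' (e.symm w) = 0 := by rw [e1, e.right_inv hwT, sub_self]
  have hd := Act.dress hV (hA.chart e' hUo hUs hUI) (v := r⁻¹ • (w - z)) (r := r)
    ⟨⟨_, hU1, e4⟩, fun a => by simp only [e2, zero_add]; rw [hx₁, e4]⟩
    (by rw [norm_smul, ← dist_eq_norm, norm_inv, Real.norm_of_nonneg hr0.le, inv_mul_cancel₀ hr0.ne']) hr0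
    (fun x hx hxb a => by
      have h1 : x + w ∈ ball z r := by
        rw [smul_smul, mul_inv_cancel₀ hr0.ne', one_smul, mem_ball, dist_eq_norm] at hxb
        rw [mem_ball, dist_eq_norm]
        convert hxb using 2
        abel
      obtain ⟨y, hy, rfl⟩ := hx
      have h2 := hGF _ (hbG h1) a
      rw [← e2] at h2
      rw [h2, e'.left_inv (hUs hy)])
  have h5 : Tendsto e' (𝓝 (e.symm w)) (𝓝 0) := e4 ▸ e'.continuousAt (hUs hU1)
  have h6 : F ∈ 𝓝 (e.symm w) := by
    filter_upwards [h5.eventually hd, hUo.mem_nhds hU1] with y h1 h2 a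
    have := h1 a
    rw [e'.left_inv (hUs h2)] at this
    exact e'.injOn (hUs (hUI a h2)) (hUs h2) this
  exact hw.2 ⟨_, ⟨mem_interior_iff_mem_nhds.2 h6, e.map_target hwT⟩, e.right_inv hwT⟩

/-- No small subgroups.  Otherwise take a chart `e` at a point, `closedBall c (3r) ⊆ e.target`, a
neighbourhood `𝒰` of `1` in `G` which is `r/2`-small on that ball (tube lemma), `ρ` from `hp`,
`act a x = ρ a • x`; `small` + `newman` + connectedness ⇒ `ρ 1` acts trivially. -/
theorem nss_of_faithful [T2Space M] [ChartedSpace V M] [ConnectedSpace M] (hV : FixProp V)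
    (G : Type*) [Group G] [TopologicalSpace G] [MulAction G M] [ContinuousSMul G M]
    [FaithfulSMul G M]
    (hp : (∀ U ∈ 𝓝 (1 : G), ∃ H : Subgroup G, (H : Set G) ⊆ U ∧ H ≠ ⊥) → ∀ U ∈ 𝓝 (1 : G),
      ∃ (p : ℕ) (_ : Fact p.Prime) (ρ : ℤ_[p] → G), Continuous ρ ∧ ρ 0 = 1 ∧
        (∀ a b, ρ (a + b) = ρ a * ρ b) ∧ (∀ a, ρ a ∈ U) ∧ ρ 1 ≠ 1) :
    ∃ U ∈ 𝓝 (1 : G), ∀ H : Subgroup G, (H : Set G) ⊆ U → H = ⊥ := by
  by_contra hcon
  have h : ∀ U ∈ 𝓝 (1 : G), ∃ H : Subgroup G, (H : Set G) ⊆ U ∧ H ≠ ⊥ := fun U hU => by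
    by_contra h'
    exact hcon ⟨U, hU, fun H hH => by_contra fun h'' => h' ⟨H, hH, h''⟩⟩
  obtain ⟨x₀⟩ : Nonempty M := inferInstance
  set e := chartAt V x₀ with he
  have hs : x₀ ∈ e.source := mem_chart_source V x₀
  obtain ⟨ρ, hρ, hρT⟩ := nhds_basis_closedBall.mem_iff.1 (e.open_target.mem_nhds (e.map_source hs))
  have hr : 0 < ρ / 3 := by linarith
  have hb : closedBall (e x₀) (3 * (ρ / 3)) ⊆ e.target := by rwa [mul_div_cancel₀ _ three_ne_zero]
  have hU : ∀ᶠ g in 𝓝 (1 : G), ∀ v ∈ closedBall (e x₀) (3 * (ρ / 3)),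
      g • e.symm v ∈ e.source ∧ dist (e (g • e.symm v)) v < ρ / 3 / 2 := by
    refine (isCompact_closedBall _ _).eventually_forall_of_forall_eventually fun y hy => ?_
    have h1 : ContinuousAt (fun q : G × V => q.1 • e.symm q.2) (1, y) :=
      continuousAt_fst.smul ((e.continuousAt_symm (hb hy)).comp_of_eq continuousAt_snd rfl)
    have h2 : (1 : G) • e.symm y ∈ e.source := by rw [one_smul]; exact e.map_target (hb hy)
    have h3 : ContinuousAt (fun q : G × V => dist (e (q.1 • e.symm q.2)) q.2) (1, y) :=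
      ((e.continuousAt h2).comp_of_eq h1 rfl).dist continuousAt_snd
    refine (h1.eventually (e.open_source.mem_nhds h2)).and (h3.eventually (gt_mem_nhds ?_))
    simp only [one_smul, e.right_inv (hb hy), dist_self]
    linarith
  obtain ⟨q, _, σ, hc, h0, hadd, hm, h1⟩ := hp h _ hU
  have hA : Act q (univ : Set M) fun a x => σ a • x :=
    ⟨isOpen_univ, by fun_prop, fun _ => mapsTo_univ _ _, fun x _ => by rw [h0, one_smul],
      fun a b x _ => by rw [hadd, mul_smul]⟩
  have hsm := hA.small hV e (e x₀) hr hb fun a => hm a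
  have hx₀ : x₀ ∈ interior {x | ∀ a, σ a • x = x} := by
    rw [mem_interior_iff_mem_nhds]
    filter_upwards [e.open_source.mem_nhds hs, e.continuousAt hs (ball_mem_nhds (e x₀) (half_pos hr))] with y a1 a2 a
    have := hsm a (e y) a2
    rwa [e.left_inv a1] at this
  have hall := IsClopen.eq_univ ⟨hA.newman hV, isOpen_interior⟩ ⟨x₀, hx₀⟩
  refine h1 (eq_of_smul_eq_smul (α := M) fun x => ?_)
  rw [one_smul]
  exact (interior_subset (hall ▸ mem_univ x : x ∈ interior {x | ∀ a, σ a • x = x})) 1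

end Crest.Agent.R217
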