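import Crest.Agent.R217.LG

/-! # R217 / PDAbs : the dual of a "cosheaf complex" is a flabby sheaf complex -/

set_option autoImplicit false
open Set Topology Filter

namespace Crest.Agent.R217.PD

variable {X : Type*} [TopologicalSpace X] {C : Type*} [AddCommGroup C] [Module ℝ C]

/-- test elements with support in `U` -/
structure CoSh (Ω : Set X) (δ : ℤ → C →ₗ[ℝ] C) (F : ℤ → Set X → Submodule ℝ C) : Prop where
  mono : ∀ j U V, U ⊆ V → F j U ≤ F j V
  d_mem : ∀ j U, ∀ u ∈ F (j + 1) U, δ j u ∈ F j U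
  dd : ∀ j, ∀ u ∈ F (j + 1 + 1) Ω, δ j (δ (j + 1) u) ∈ F j ∅
  union : ∀ j U V, IsOpen U → IsOpen V → F j (U ∪ V) ≤ F j U ⊔ F j V
  inter : ∀ j U V, F j U ⊓ F j V ≤ F j (U ∩ V)
  seq : ∀ j (P : ℕ → Set X), (∀ i, IsOpen (P i)) → Monotone P →
    ∀ u ∈ F j (⋃ i, P i), ∃ i, u ∈ F j (P i)

/-- functionals killing the null elements -/
abbrev DM (F : ℤ → Set X → Submodule ℝ C) (j : ℤ) : Type _ := ↥(F j ∅).dualAnnihilator

/-- functionals killing the test elements with support in `U` -/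
def DN (F : ℤ → Set X → Submodule ℝ C) (j : ℤ) (U : Set X) : Submodule ℝ (DM F j) :=
  (F j U).dualAnnihilator.comap (F j ∅).dualAnnihilator.subtype

omit [TopologicalSpace X] in
theorem mem_DN {F : ℤ → Set X → Submodule ℝ C} {j : ℤ} {U : Set X} {μ : DM F j} :
    μ ∈ DN F j U ↔ ∀ u ∈ F j U, μ.1 u = 0 := by
  simp [DN, Submodule.mem_dualAnnihilator]

omit [TopologicalSpace X] in
theorem DM.zero {F : ℤ → Set X → Submodule ℝ C} {j : ℤ} (μ : DM F j) {u : C} (hu : u ∈ F j ∅) :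
    μ.1 u = 0 := (Submodule.mem_dualAnnihilator _).1 μ.2 u hu

variable {Ω : Set X} {δ : ℤ → C →ₗ[ℝ] C} {F : ℤ → Set X → Submodule ℝ C}

/-- the dual differential -/
def CoSh.d (h : CoSh Ω δ F) (j : ℤ) : DM F j →ₗ[ℝ] DM F (j + 1) :=
  (δ j).dualMap.restrict fun μ hμ => (Submodule.mem_dualAnnihilator _).2 fun u hu =>
    (Submodule.mem_dualAnnihilator _).1 hμ _ (h.d_mem j ∅ u hu)

theorem CoSh.d_apply (h : CoSh Ω δ F) (j : ℤ) (μ : DM F j) (u : C) :
    (h.d j μ).1 u = μ.1 (δ j u) := rfl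

theorem exists_lim : ∃ Λ : (ℕ → ℝ) →ₗ[ℝ] ℝ, ∀ (s : ℕ → ℝ) (c : ℝ),
    (∀ᶠ m in atTop, s m = c) → Λ s = c := by
  let Z : Submodule ℝ (ℕ → ℝ) :=
    { carrier := {s | ∀ᶠ m in atTop, s m = 0}
      add_mem' := fun {s t} hs ht => by
        filter_upwards [hs, ht] with m h1 h2
        simp [h1, h2]
      zero_mem' := Eventually.of_forall fun _ => rfl
      smul_mem' := fun c s hs => by
        filter_upwards [hs] with m h1
        simp [h1] }
  have h1 : (fun _ => (1 : ℝ)) ∉ Z := by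
    intro h
    obtain ⟨m, hm⟩ := Eventually.exists (f := atTop) h
    exact one_ne_zero hm
  obtain ⟨Λ, hΛ, hΛ1⟩ := LinearMap.exists_extend_of_notMem (0 : Z →ₗ[ℝ] ℝ) h1 1
  refine ⟨Λ, fun s c hs => ?_⟩
  have h2 : s - c • (fun _ => (1 : ℝ)) ∈ Z := by
    filter_upwards [hs] with m hm
    simp [hm]
  have h3 : Λ (s - c • (fun _ => (1 : ℝ))) = 0 := LinearMap.congr_fun hΛ ⟨_, h2⟩
  rw [map_sub, map_smul, hΛ1, smul_eq_mul, mul_one] at h3
  exact sub_eq_zero.1 h3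

theorem CoSh.sh (h : CoSh Ω δ F) : Sh Ω (M := DM F) h.d (DN F) where
  anti j U V hUV μ hμ := mem_DN.2 fun u hu => mem_DN.1 hμ u (h.mono j U V hUV hu)
  d_mem j U _ _ μ hμ := mem_DN.2 fun u hu => mem_DN.1 hμ _ (h.d_mem j U u hu)
  dd j μ := mem_DN.2 fun u hu => μ.zero (h.dd j u hu)
  empty j := eq_top_iff.2 fun μ _ => mem_DN.2 fun u hu => μ.zero hu
  inter j U V hU hV _ _ μ hμ := mem_DN.2 fun u hu => by
    obtain ⟨u₁, h₁, u₂, h₂, rfl⟩ := Submodule.mem_sup.1 (h.union j U V hU hV hu)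
    rw [map_add, mem_DN.1 hμ.1 _ h₁, mem_DN.1 hμ.2 _ h₂, add_zero]
  glue j U V _ _ _ _ μ hμ := by
    have h1 : μ.1 ∈ (F j U ⊓ F j V).dualAnnihilator :=
      (Submodule.mem_dualAnnihilator _).2 fun u hu => mem_DN.1 hμ u (h.inter j U V hu)
    rw [Subspace.dualAnnihilator_inf_eq] at h1
    obtain ⟨μ₁, h₁, μ₂, h₂, e⟩ := Submodule.mem_sup.1 h1
    refine Submodule.mem_sup.2 ⟨⟨μ₁, Submodule.dualAnnihilator_anti
      (h.mono j _ _ (empty_subset U)) h₁⟩, h₁, ⟨μ₂, Submodule.dualAnnihilator_anti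
      (h.mono j _ _ (empty_subset V)) h₂⟩, h₂, Subtype.ext e⟩
  seq_loc j P hP _ hm μ hμ := mem_DN.2 fun u hu => by
    obtain ⟨i, hi⟩ := h.seq j P hP hm u hu
    exact mem_DN.1 (hμ i) u hi
  seq_glue j P _ _ hc f hf := by
    obtain ⟨Λ, hΛ⟩ := exists_lim
    have hm : Monotone P := monotone_nat_of_le_succ fun i => subset_closure.trans (hc i)
    let g : Module.Dual ℝ C := Λ ∘ₗ LinearMap.pi fun i => (f i).1
    have hg : ∀ u, g u = Λ fun i => (f i).1 u := fun u => rfl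
    refine ⟨⟨g, (Submodule.mem_dualAnnihilator _).2 fun u hu => ?_⟩, fun i => mem_DN.2 fun u hu => ?_⟩
    · rw [hg]
      exact hΛ _ _ (Eventually.of_forall fun m => (f m).zero hu)
    · change g u - (f i).1 u = 0
      rw [sub_eq_zero, hg]
      refine hΛ _ _ (eventually_atTop.2 ⟨i, fun m hm' => ?_⟩)
      induction m, hm' using Nat.le_induction with
      | base => rfl
      | succ m him ih =>
        have := mem_DN.1 (hf m) u (h.mono j _ _ (hm him) hu)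
        change (f (m + 1)).1 u - (f m).1 u = 0 at this
        rw [← ih]
        exact sub_eq_zero.1 this

/-- a functional killing the cocycles is a coboundary -/
theorem CoSh.factor (h : CoSh Ω δ F) (j : ℤ) (U : Set X) (ν : DM F (j + 1))
    (hν : ∀ u ∈ F (j + 1) U, δ j u ∈ F j ∅ → ν.1 u = 0) :
    ∃ w, ν - h.d j w ∈ DN F (j + 1) U := by
  let ψ : F (j + 1) U →ₗ[ℝ] C ⧸ F j ∅ := (F j ∅).mkQ ∘ₗ δ j ∘ₗ (F (j + 1) U).subtype
  have h1 : ν.1 ∘ₗ (F (j + 1) U).subtype ∈ (LinearMap.ker ψ).dualAnnihilator :=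
    (Submodule.mem_dualAnnihilator _).2 fun u hu =>
      hν u.1 u.2 ((Submodule.Quotient.mk_eq_zero _).1 hu)
  rw [← LinearMap.range_dualMap_eq_dualAnnihilator_ker] at h1
  obtain ⟨w, hw⟩ := h1
  refine ⟨⟨w ∘ₗ (F j ∅).mkQ, (Submodule.mem_dualAnnihilator _).2 fun u hu => ?_⟩,
    mem_DN.2 fun u hu => ?_⟩
  · change w (Submodule.Quotient.mk u) = 0
    rw [(Submodule.Quotient.mk_eq_zero _).2 hu, map_zero]
  · have := LinearMap.congr_fun hw ⟨u, hu⟩
    exact sub_eq_zero.2 this.symm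

end Crest.Agent.R217.PD
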