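import Crest.Agent.R217.Lam
import Crest.Agent.R217.Cup
import Crest.Agent.R217.PDAbs

/-! # R217 / PDLoc : compactly supported cochains and local computations for Poincaré duality -/

set_option autoImplicit false
open Set Topology Filter

namespace Crest.Agent.R217.PD

variable {n : ℕ} {E : Type*} [AddCommGroup E] [Module ℝ E]

/-- cochains whose support in `Ω` is a compact subset of `U` -/
def CS (E : Type*) [AddCommGroup E] [Module ℝ E] (Ω : Set (R n)) (k : ℕ) (U : Set (R n)) :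
    Submodule ℝ (Co (R n) E) where
  carrier := {u | IsCompact (supp k u ∩ Ω) ∧ supp k u ∩ Ω ⊆ U}
  add_mem' {f g} hf hg := by
    have h : supp k (f + g) ∩ Ω ⊆ (supp k f ∩ Ω) ∪ (supp k g ∩ Ω) := fun z hz =>
      (supp_add k f g hz.1).imp (fun h => ⟨h, hz.2⟩) (fun h => ⟨h, hz.2⟩)
    exact ⟨isCompact_supp_inter (hf.1.union hg.1)
      (union_subset inter_subset_right inter_subset_right) h, h.trans (union_subset hf.2 hg.2)⟩
  zero_mem' := by simp [supp_zero]
  smul_mem' c f hf := by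
    have h : supp k (c • f) ∩ Ω ⊆ supp k f ∩ Ω := inter_subset_inter_left _ (supp_smul k c f)
    exact ⟨isCompact_supp_inter hf.1 inter_subset_right h, h.trans hf.2⟩

theorem mem_CS {Ω U : Set (R n)} {k : ℕ} {u : Co (R n) E} :
    u ∈ CS E Ω k U ↔ IsCompact (supp k u ∩ Ω) ∧ supp k u ∩ Ω ⊆ U := Iff.rfl

theorem CS_of_van {Ω U : Set (R n)} {k : ℕ} {u : Co (R n) E} (h : Van k Ω u) : u ∈ CS E Ω k U := by
  rw [mem_CS, van_iff_inter.1 h]
  simp

theorem van_of_CS {Ω : Set (R n)} {k : ℕ} {u : Co (R n) E} (h : u ∈ CS E Ω k ∅) : Van k Ω u :=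
  van_iff_inter.2 (subset_empty_iff.1 h.2)

theorem CS_of_subset {Ω U K : Set (R n)} {k : ℕ} {u : Co (R n) E} (hK : IsCompact K) (hKΩ : K ⊆ Ω)
    (hKU : K ⊆ U) (h : supp k u ⊆ K) : u ∈ CS E Ω k U :=
  ⟨isCompact_supp_inter hK hKΩ (inter_subset_left.trans h), (inter_subset_left.trans h).trans hKU⟩

theorem dT_mem_CS {Ω U : Set (R n)} {k : ℕ} {u : Co (R n) E} (T : Tw (R n) E)
    (h : u ∈ CS E Ω k U) : dT T u ∈ CS E Ω (k + 1) U := by
  have h' : supp (k + 1) (dT T u) ∩ Ω ⊆ supp k u ∩ Ω := inter_subset_inter_left _ (supp_dT k T u)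
  exact ⟨isCompact_supp_inter h.1 inter_subset_right h', h'.trans h.2⟩

/-- test cochains dual to degree `j` -/
def FF (E : Type*) [AddCommGroup E] [Module ℝ E] (Ω : Set (R n)) (j : ℤ) (U : Set (R n)) :
    Submodule ℝ (Co (R n) E) := if j ≤ n then CS E Ω (((n : ℤ) - j).toNat + 1) U else ⊤

theorem FF_eq {Ω : Set (R n)} {j : ℤ} {q : ℕ} (h : j + q = n) (U : Set (R n)) :
    FF E Ω j U = CS E Ω (q + 1) U := by
  rw [FF, if_pos (by omega), show ((n : ℤ) - j).toNat = q by omega]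

theorem FF_top {Ω : Set (R n)} {j : ℤ} (h : (n : ℤ) < j) (U : Set (R n)) : FF E Ω j U = ⊤ := by
  rw [FF, if_neg (by omega)]

theorem cases_j (n : ℕ) (j : ℤ) : (n : ℤ) < j ∨ ∃ q : ℕ, j + q = n := by
  by_cases h : (n : ℤ) < j
  · exact Or.inl h
  · exact Or.inr ⟨((n : ℤ) - j).toNat, by omega⟩

/-- the sign -/
noncomputable def eps (j : ℤ) : ℝ := -(-1 : ℝ) ^ j.toNat

theorem eps_ne (j : ℤ) : eps j ≠ 0 := by simp [eps]

theorem cosh {Ω : Set (R n)} {T : Tw (R n) E} (hT : Flat Ω T) :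
    CoSh Ω (fun j => eps j • dT T) (FF E Ω) where
  mono j U V hUV := by
    rcases cases_j n j with h | ⟨q, h⟩
    · rw [FF_top h, FF_top h]
    · rw [FF_eq h, FF_eq h]
      exact fun u hu => ⟨hu.1, hu.2.trans hUV⟩
  d_mem j U u hu := by
    rcases cases_j n j with h | ⟨q, h⟩
    · rw [FF_top h]; trivial
    · rw [FF_eq h]
      refine Submodule.smul_mem _ _ ?_
      cases q with
      | zero => exact CS_of_van (van_one_dT _ _ _)
      | succ q =>
        rw [FF_eq (q := q) (by push_cast at h; omega)] at hu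
        exact dT_mem_CS T hu
  dd j u _ := by
    rcases cases_j n j with h | ⟨q, h⟩
    · rw [FF_top h]; trivial
    · rw [FF_eq h]
      simp only [LinearMap.smul_apply, map_smul]
      exact Submodule.smul_mem _ _ (Submodule.smul_mem _ _ (CS_of_van (hT.dT_dT _ _)))
  union j U V hU hV := by
    rcases cases_j n j with h | ⟨q, h⟩
    · rw [FF_top h, FF_top h]; exact le_sup_left
    · rw [FF_eq h, FF_eq h, FF_eq h]
      intro u hu
      obtain ⟨u₁, h₁, h₂, h₃, h₄⟩ := compact_split hU hV hu.1 hu.2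
      exact Submodule.mem_sup.2 ⟨u₁, ⟨h₁, h₂⟩, u - u₁, ⟨h₃, h₄⟩, add_sub_cancel _ _⟩
  inter j U V := by
    rcases cases_j n j with h | ⟨q, h⟩
    · rw [FF_top h (U ∩ V)]; exact le_top
    · rw [FF_eq h, FF_eq h, FF_eq h]
      exact fun u hu => ⟨hu.1.1, subset_inter hu.1.2 hu.2.2⟩
  seq j P hP hm u hu := by
    rcases cases_j n j with h | ⟨q, h⟩
    · exact ⟨0, by rw [FF_top h]; trivial⟩
    · rw [FF_eq h] at hu
      obtain ⟨i, hi⟩ := hu.1.elim_directed_cover P hP hu.2 hm.directed_le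
      exact ⟨i, by rw [FF_eq h]; exact ⟨hu.1, hi⟩⟩

theorem lam_cup_zero {Ω : Set (R n)} (b : E →ₗ[ℝ] E →ₗ[ℝ] ℝ) (T : Tw (R n) E) {p q : ℕ}
    (hpq : p + q = n) {x u : Co (R n) E}
    (h : ∀ z ∈ Ω, z ∈ supp (p + 1) x → z ∉ supp (q + 1) u) : lamO Ω (cup b T p x u) = 0 := by
  refine lamO_van fun z hz h' => ?_
  have := supp_cup b T p q x u
  rw [hpq] at this
  exact h z hz (this h').1 (this h').2

/-- Stokes -/
theorem lam_cup_dT {Ω : Set (R n)} (hΩ : IsOpen Ω) {T : Tw (R n) E} (hT : Flat Ω T)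
    {b : E →ₗ[ℝ] E →ₗ[ℝ] ℝ} (hbT : Compat Ω b T T (T1 _ _)) {p q : ℕ} (hpq : p + q + 1 = n)
    (x : Co (R n) E) {u : Co (R n) E} (hu : IsCompact (supp (q + 1) u ∩ Ω)) :
    lamO Ω (cup b T (p + 1) (dT T x) u) = -(-1 : ℝ) ^ p * lamO Ω (cup b T p x (dT T u)) := by
  have h1 := dT_cup hT hT hbT p q x u
  rw [show p + q + 2 = n + 1 by omega] at h1
  have h2 := lamO_congr h1
  have h3 := supp_cup b T p q x u
  rw [hpq] at h3
  rw [lamO_cob hΩ (isCompact_supp_inter hu inter_subset_right fun z hz => ⟨(h3 hz.1).2, hz.2⟩),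
    map_add, map_smul, smul_eq_mul] at h2
  linarith

/-- the generator of the compactly supported top cohomology -/
noncomputable def tst (a : R n → E →ₗ[ℝ] E) (z : R n) : E →ₗ[ℝ] Co (R n) E :=
  gau a ∘ₗ LinearMap.pi fun l => gen (List.finRange n) z l • LinearMap.id

theorem tst_apply (a : R n → E →ₗ[ℝ] E) (z : R n) (e : E) :
    tst a z e = gau a (fun l => gen (List.finRange n) z l • e) := rfl

theorem tst_eq (a : R n → E →ₗ[ℝ] E) (z : R n) (e : E) :
    tst a z e = gau a (gau (fun _ => LinearMap.toSpanSingleton ℝ E e) (gen (List.finRange n) z)) := by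
  funext l
  cases l <;> rfl

theorem supp_gen' (z : R n) : supp (n + 1) (gen (List.finRange n) z) ⊆ {z} := by
  have := supp_gen (List.finRange n) z
  rw [List.length_finRange] at this
  exact fun x hx => funext fun i => this hx i (List.mem_finRange i)

theorem supp_tst (a : R n → E →ₗ[ℝ] E) (z : R n) (e : E) : supp (n + 1) (tst a z e) ⊆ {z} := by
  rw [tst_eq]
  exact (supp_gau _ _ _).trans ((supp_gau _ _ _).trans (supp_gen' z))

theorem tst_cocycle {W : Set (R n)} {T : Tw (R n) E} {a : R n → E →ₗ[ℝ] E}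
    (ha : Inter W a (T1 _ _) T) {z : R n} (hz : z ∈ W) (e : E) (U : Set (R n)) :
    Van (n + 2) U (dT T (tst a z e)) := by
  intro y _ hy
  have h1 : y = z := supp_tst a z e (supp_dT _ _ _ hy)
  subst h1
  have h2 := gen_mem_Zc (List.finRange n) y
  rw [List.length_finRange, mem_Zc] at h2
  have h3 := ha.van (n + 2)
    (gau (fun _ => LinearMap.toSpanSingleton ℝ E e) (gen (List.finRange n) y))
  rw [dT_gau_const _ (T1 _ ℝ) (T1 _ E) (fun _ _ => rfl), ← tst_eq] at h3
  have h4 : Van (n + 2) W (gau a (gau (fun _ => LinearMap.toSpanSingleton ℝ E e)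
      (dT (T1 _ ℝ) (gen (List.finRange n) y)))) :=
    fun x _ hx => h2 x trivial (supp_gau _ _ _ (supp_gau _ _ _ hx))
  have h5 := h3.add h4
  rw [sub_add_cancel] at h5
  exact h5 y hz hy

theorem lam_cup_tst {Ω W : Set (R n)} {T : Tw (R n) E} (hT : Flat Ω T)
    {b : E →ₗ[ℝ] E →ₗ[ℝ] ℝ} (hbT : Compat Ω b T T (T1 _ _)) {a : R n → E →ₗ[ℝ] E}
    (ha : Inter W a (T1 _ _) T) {z : R n} (hz : z ∈ W) (hzΩ : z ∈ Ω) {f : Co (R n) E}
    (hf : f ∈ Zc T 0 W) (e : E) : lamO Ω (cup b T 0 f (tst a z e)) = b (f [z]) (a z e) := by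
  have hs : supp (n + 1) (b (f [z]) (a z e) • gen (List.finRange n) z) ⊆ {z} :=
    (supp_smul _ _ _).trans (supp_gen' z)
  rw [lamO_eq (u' := b (f [z]) (a z e) • gen (List.finRange n) z)
    (isCompact_singleton.of_isClosed_subset (isClosed_supp _ _) hs)
    (hs.trans (singleton_subset_iff.2 hzΩ)), map_smul, lam_gen_finRange, smul_eq_mul, mul_one]
  intro y _ hy
  have h1 : y = z := by
    rcases supp_sub _ _ _ hy with h | h
    · have := supp_cup b T 0 n f (tst a z e)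
      rw [zero_add] at this
      exact supp_tst a z e (this h).2
    · exact hs h
  subst h1
  obtain ⟨W₁, hW₁, k₁, -⟩ := hT y hzΩ
  obtain ⟨W₂, hW₂, k₂⟩ := hbT y hzΩ
  obtain ⟨W₃, hW₃, k₃⟩ := ha y hz
  obtain ⟨W₄, hW₄, k₄⟩ := not_mem_supp.1 (hf y hz)
  refine not_mem_supp.2 ⟨W₁ ∩ W₂ ∩ W₃ ∩ W₄, inter_mem (inter_mem (inter_mem hW₁ hW₂) hW₃) hW₄,
    fun l hl hm => ?_⟩ hy
  cases l with
  | nil => simp at hl
  | cons x l =>
    obtain ⟨⟨⟨m₁, m₂⟩, m₃⟩, m₄⟩ := hm x List.mem_cons_self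
    have e1 : f [x] = T x y (f [y]) := by
      have := k₄ [x, y] rfl (by simpa using ⟨m₄, mem_of_mem_nhds hW₄⟩)
      rw [dT_pair, k₁ x m₁] at this
      exact (sub_eq_zero.1 this).symm
    have e2 : a x e = T x y (a y e) :=
      (LinearMap.congr_fun (k₃ x m₃ y (mem_of_mem_nhds hW₃)) e).symm
    have e3 : b (f [y]) (a y e) = b (T x y (f [y])) (T x y (a y e)) :=
      k₂ x m₂ y (mem_of_mem_nhds hW₂) _ _
    rw [Pi.sub_apply, cup_cons, tst_apply]
    simp only [zero_add, List.take_succ_cons, List.take_zero, List.drop_zero, gau_cons, k₁ x m₁,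
      LinearMap.id_apply, map_smul, Pi.smul_apply, smul_eq_mul]
    rw [e1, e2, ← e3]
    ring

theorem exists_Icc {a b : R n} {K : Set (R n)} (hK : IsCompact K) (hne : K.Nonempty)
    (hs : K ⊆ Box a b) : ∃ a' b' : R n, K ⊆ Icc a' b' ∧ Icc a' b' ⊆ Box a b := by
  choose x hx hx' using fun i => hK.exists_isMinOn hne (continuous_apply i).continuousOn
  choose y hy hy' using fun i => hK.exists_isMaxOn hne (continuous_apply i).continuousOn
  exact ⟨fun i => x i i, fun i => y i i, fun w hw => ⟨fun i => hx' i hw, fun i => hy' i hw⟩,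
    fun w hw i => ⟨(hs (hx i) i).1.trans_le (hw.1 i), (hw.2 i).trans_lt (hs (hy i) i).2⟩⟩

/-- compactly supported cohomology of a box -/
theorem box_main {Ω : Set (R n)} (hΩ : IsOpen Ω) {T : Tw (R n) E} {a₀ b₀ : R n}
    (hW : Box a₀ b₀ ⊆ Ω) {a a' : R n → E →ₗ[ℝ] E}
    (haa : ∀ x ∈ Box a₀ b₀, a x ∘ₗ a' x = LinearMap.id) (ha : Inter (Box a₀ b₀) a (T1 _ _) T)
    (ha' : Inter (Box a₀ b₀) a' T (T1 _ _)) {z : R n} (hz : z ∈ Box a₀ b₀) {q : ℕ}
    {u : Co (R n) E} (hu : u ∈ Zc T q Ω) (hc : u ∈ CS E Ω (q + 1) (Box a₀ b₀)) :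
    ∃ e w, (q ≠ n → e = 0) ∧ w ∈ CS E Ω q (Box a₀ b₀) ∧
      Van (q + 1) Ω (u - tst a z e - dT T w) := by
  obtain ⟨u', h1, h2, h3⟩ := exists_cut hΩ hc.1
  have h4 : u' ∈ Zc T q univ := (h3 0).2 T hu
  obtain ⟨a₁, b₁, k1, k2⟩ := exists_Icc (hc.1.insert z) (insert_nonempty _ _)
    (insert_subset hz hc.2)
  have hz1 : z ∈ Icc a₁ b₁ := k1 (mem_insert _ _)
  have hsu : supp (q + 1) u' ⊆ Icc a₁ b₁ := h1 ▸ (subset_insert _ _).trans k1
  have hsv : supp (q + 1) (gau a' u') ⊆ Icc a₁ b₁ := (supp_gau _ _ _).trans hsu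
  have hv : gau a' u' ∈ Zc (T1 (R n) E) q univ := by
    intro y _ hy
    have hyW := k2 (hsv (supp_dT _ _ _ hy))
    have := (ha'.van (q + 2) u').add (fun x _ hx => h4 x trivial (supp_gau _ a' _ hx))
    rw [sub_add_cancel] at this
    exact this y hyW hy
  have hKL := KL_eq_Icc (L := List.finRange n) (fun i => List.mem_finRange i) a₁ b₁
  have key : ∃ (e : E) (w : Co (R n) E), (q ≠ n → e = 0) ∧ supp q w ⊆ Icc a₁ b₁ ∧
      Van (q + 1) univ (gau a' u' - (fun l => gen (List.finRange n) z l • e) -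
        dT (T1 _ _) w) := by
    by_cases hq : q = n
    · have := @hk_gen n E _ _ (List.finRange n) (List.nodup_finRange n) a₁ b₁ z (hKL ▸ hz1)
        (gau a' u')
      rw [List.length_finRange, hKL] at this
      obtain ⟨e, w, k3, k4⟩ := this (hq ▸ hv) (hq ▸ hsv)
      exact ⟨e, w, fun h => absurd hq h, hq ▸ k3, hq ▸ k4⟩
    · have := hk_van (E := E) (List.nodup_finRange n) (a := a₁) (b := b₁)
        (fun i _ => (hz1.1 i).trans (hz1.2 i)) (k := q) (by rwa [List.length_finRange])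
      rw [hKL] at this
      obtain ⟨w, k3, k4⟩ := this _ hv hsv
      refine ⟨0, w, fun _ => rfl, k3, ?_⟩
      have e0 : (fun l => gen (List.finRange n) z l • (0 : E)) = 0 := by
        funext l; simp
      rwa [e0, sub_zero]
  obtain ⟨e, w, k3, k4, k5⟩ := key
  have hsw : supp q (gau a w) ⊆ Icc a₁ b₁ := (supp_gau _ _ _).trans k4
  refine ⟨e, gau a w, k3, CS_of_subset isCompact_Icc (k2.trans hW) k2 hsw, ?_⟩
  have k6 : Van (q + 1) Ω (u' - tst a z e - dT T (gau a w)) := by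
    intro y _ hy
    have hyW : y ∈ Box a₀ b₀ := by
      rcases supp_sub _ _ _ hy with h | h
      · rcases supp_sub _ _ _ h with h | h
        · exact k2 (hsu h)
        · by_cases hq : q = n
          · rw [hq] at h
            rw [show y = z from supp_tst a z e h]
            exact hz
          · rw [k3 hq, map_zero, supp_zero] at h
            exact h.elim
      · exact k2 (hsw (supp_dT _ _ _ h))
    have m1 := van_gau_id q (isOpen_box a₀ b₀) haa u'
    rw [← gau_gau] at m1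
    have m2 : Van (q + 1) (Box a₀ b₀) (gau a (gau a' u' -
        (fun l => gen (List.finRange n) z l • e) - dT (T1 _ _) w)) :=
      fun x _ hx => k5 x trivial (supp_gau _ _ _ hx)
    have m3 := (m2.sub m1).sub (ha.van (q + 1) w)
    rw [map_sub, map_sub, ← tst_apply] at m3
    refine m3 y hyW ?_
    convert hy using 2
    abel
  have := h2.add k6
  rwa [show u - u' + (u' - tst a z e - dT T (gau a w)) = u - tst a z e - dT T (gau a w) by abel]
    at this

end Crest.Agent.R217.PD
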