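import Crest.Agent.R217.Lam
import Crest.Agent.R217.LG
import Crest.Agent.R217.Cup
import Crest.Agent.R217.PDLoc

/-! # R217 / PD : Poincaré duality on open subsets of `ℝⁿ` with twisted coefficients.

Apply `Sh.qi` with `B = Boxes Ω (Triv · T)` to
* `M j = Co`, `d = 1 • dT T`, `N = NZ E` (`sh_AS`);
* the dual complex: for `j ≤ n` put `k = n - j` (degree of the test cochains),
  `M' j` = annihilator in `Module.Dual ℝ (Co _ E)` of `NV E (k+1) Ω`, `N' j U` = those functionals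
  killing `F k U = {u | IsCompact (supp (k+1) u ∩ Ω) ∧ supp (k+1) u ∩ Ω ⊆ U}`; for `j > n`
  `M' j = ⊤`, `N' j U = ⊤`; `d' j μ = ε_j • μ ∘ dT T` with `ε_j = -(-1)^j` (`Int.negOnePow`).
  `inter`: `compact_split`; `glue`: `F U ⊓ F V = F (U ∩ V)` and
  `Subspace.dualAnnihilator_inf_eq`; `seq_glue`: define `g` on the directed union of the `F (P i)` and
  extend; `seq_loc`: a compact set lies in some `P i`; `empty`: `F k ∅ = NV (k+1) Ω`.
* `Φ j x = (u ↦ lamO Ω (cup b T j x u))` for `0 ≤ j ≤ n`, `0` otherwise; chain map by `dT_cup`,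
  `lamO_cob`, `supp_cup`.
Local check on a box `W` with trivialisation `a` (`T1 → T`), `a'`: `H^j(W;T) = 0` for `j ≥ 1`
(`Triv.exT`), `0`-cocycles are `gau a (const e)`; a cocycle `u ∈ F k W` can be cut (`exists_cut`),
gauged by `a'` to a global `T1`-cocycle supported in a closed box `Icc a b ⊆ W`, so it is the
coboundary of an element of `F (k-1) W` if `k ≠ n` (`hk_van`), and equals `gau a (gen • e')` up
to such a coboundary if `k = n` (`hk_gen`).  `b (a x e) (a x e')` is locally constant on `W`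
(`Compat`), hence a constant nondegenerate form `b₀ e e'`, and
`Φ 0 (gau a (const e)) (gau a (gen z • e')) = b₀ e e' * lam (gen z) = b₀ e e'`.
Surjectivity: a functional vanishing on the cocycles in `F k W` factors through `dT`
(define it on `dT (F k W) + NV (k+2) Ω`, extend). -/

set_option autoImplicit false
open Set Topology Filter

namespace Crest.Agent.R217

variable {n : ℕ} {E : Type*} [AddCommGroup E] [Module ℝ E] [FiniteDimensional ℝ E]

namespace PD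

section
omit [FiniteDimensional ℝ E]

theorem cases3 (n : ℕ) (j : ℤ) : j < 0 ∨ (n : ℤ) < j ∨ ∃ p q : ℕ, j = p ∧ p + q = n := by
  by_cases h : j < 0
  · exact Or.inl h
  by_cases h' : (n : ℤ) < j
  · exact Or.inr (Or.inl h')
  · exact Or.inr (Or.inr ⟨j.toNat, n - j.toNat, by omega, by omega⟩)

theorem NZ_eq {j : ℤ} {p : ℕ} (h : j = p) (U : Set (R n)) : NZ E j U = NV E (p + 1) U := by
  rw [h, NZ_natCast]

theorem NZ_neg {j : ℤ} (h : j < 0) (U : Set (R n)) : NZ E j U = ⊤ := by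
  rw [NZ, if_neg (by omega)]

theorem mem_DN_top {Ω U : Set (R n)} {j : ℤ} (h : (n : ℤ) < j) (μ : DM (FF E Ω) j) :
    μ ∈ DN (FF E Ω) j U := mem_DN.2 fun u _ => μ.zero (by rw [FF_top h]; trivial)

/-- the duality pairing -/
noncomputable def Ph0 (Ω : Set (R n)) (b : E →ₗ[ℝ] E →ₗ[ℝ] ℝ) (T : Tw (R n) E) (j : ℤ) :
    Co (R n) E →ₗ[ℝ] Module.Dual ℝ (Co (R n) E) :=
  if 0 ≤ j ∧ j ≤ n then (cup b T j.toNat).compr₂ (lamO Ω) else 0

variable {Ω : Set (R n)} {b : E →ₗ[ℝ] E →ₗ[ℝ] ℝ} {T : Tw (R n) E}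

theorem Ph0_eq {j : ℤ} {p : ℕ} (hj : j = p) (hp : p ≤ n) (x u : Co (R n) E) :
    Ph0 Ω b T j x u = lamO Ω (cup b T p x u) := by
  rw [Ph0, if_pos (by omega), show j.toNat = p by omega]
  rfl

theorem Ph0_zero {j : ℤ} (h : j < 0 ∨ (n : ℤ) < j) : Ph0 Ω b T j = 0 := by
  rw [Ph0, if_neg (by omega)]

theorem Ph0_van {j : ℤ} {U : Set (R n)} {x u : Co (R n) E} (hx : x ∈ NZ E j U)
    (hu : u ∈ FF E Ω j U) : Ph0 Ω b T j x u = 0 := by
  rcases cases3 n j with h | h | ⟨p, q, h, hpq⟩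
  · rw [Ph0_zero (Or.inl h)]; rfl
  · rw [Ph0_zero (Or.inr h)]; rfl
  · rw [Ph0_eq h (by omega)]
    rw [NZ_eq h] at hx
    rw [FF_eq (q := q) (by omega)] at hu
    exact lam_cup_zero b T hpq fun z hz h1 h2 => hx z (hu.2 ⟨h2, hz⟩) h1

theorem mem_NZ_empty (j : ℤ) (x : Co (R n) E) : x ∈ NZ E j (∅ : Set (R n)) := by
  unfold NZ
  split_ifs
  · exact fun z hz => hz.elim
  · trivial

/-- the duality map -/
noncomputable def Ph (Ω : Set (R n)) (b : E →ₗ[ℝ] E →ₗ[ℝ] ℝ) (T : Tw (R n) E) (j : ℤ) :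
    Co (R n) E →ₗ[ℝ] DM (FF E Ω) j :=
  (Ph0 Ω b T j).codRestrict _ fun x => (Submodule.mem_dualAnnihilator _).2 fun _ hu =>
    Ph0_van (mem_NZ_empty j x) hu

theorem Ph_apply (j : ℤ) (x u : Co (R n) E) : (Ph Ω b T j x).1 u = Ph0 Ω b T j x u := rfl

theorem Ph_chain (hΩ : IsOpen Ω) (hT : Flat Ω T) (hbT : Compat Ω b T T (T1 _ _)) (j : ℤ)
    (f : Co (R n) E) : Ph Ω b T (j + 1) (((1 : ℝ) • dT T) f) - (cosh hT).d j (Ph Ω b T j f) ∈
      DN (FF E Ω) (j + 1) Ω := by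
  rw [one_smul]
  rcases cases_j n (j + 1) with h | ⟨q, h⟩
  · exact mem_DN_top h _
  refine mem_DN.2 fun u hu => ?_
  change Ph0 Ω b T (j + 1) (dT T f) u - Ph0 Ω b T j f ((eps j • dT T) u) = 0
  rw [FF_eq h] at hu
  by_cases hj : j < 0
  · rw [Ph0_zero (j := j) (Or.inl hj)]
    by_cases hj' : j + 1 < 0
    · rw [Ph0_zero (Or.inl hj')]; simp
    · rw [Ph0_eq (p := 0) (by omega) (by omega), lam_cup_zero b T (q := q) (by omega)
        fun z hz h1 _ => van_one_dT Ω T f z hz h1]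
      simp
  · obtain ⟨p, rfl⟩ : ∃ p : ℕ, j = p := ⟨j.toNat, by omega⟩
    rw [Ph0_eq (p := p + 1) (by push_cast; rfl) (by omega), LinearMap.smul_apply, map_smul,
      Ph0_eq rfl (by omega), lam_cup_dT hΩ hT hbT (q := q) (by omega) f hu.1]
    simp [eps]

end

variable {Ω : Set (R n)} {b : E →ₗ[ℝ] E →ₗ[ℝ] ℝ} {T : Tw (R n) E}

theorem qi_box (hΩ : IsOpen Ω) (hT : Flat Ω T) (hb : ∀ e, (∀ e', b e e' = 0) → e = 0)
    (hbT : Compat Ω b T T (T1 _ _)) {W : Set (R n)} (hW : W ∈ Boxes Ω (fun U => Triv U T)) :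
    QI (M := fun _ => Co (R n) E) (M' := DM (FF E Ω)) (fun _ => (1 : ℝ) • dT T) (NZ E)
      (cosh hT).d (DN (FF E Ω))
      (Ph Ω b T) W := by
  obtain ⟨⟨a₀, b₀, rfl⟩, hcl, htriv⟩ := hW
  have hWΩ : Box a₀ b₀ ⊆ Ω := subset_closure.trans hcl
  have hWo := isOpen_box a₀ b₀
  obtain ⟨a, a', haa, ha, ha'⟩ := id htriv
  have hsurj : ∀ z ∈ Box a₀ b₀, ∀ e, a z (a' z e) = e := fun z hz e =>
    LinearMap.congr_fun (haa z hz).1 e
  have htst : ∀ z ∈ Box a₀ b₀, ∀ e, tst a z e ∈ CS E Ω (n + 1) (Box a₀ b₀) := fun z hz e =>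
    CS_of_subset isCompact_singleton (singleton_subset_iff.2 (hWΩ hz))
      (singleton_subset_iff.2 hz) (supp_tst a z e)
  constructor
  · intro j f hf ⟨w, hw⟩
    rw [one_smul] at hf ⊢
    by_cases h : j + 1 < 0
    · exact ⟨0, by rw [NZ_neg h]; trivial⟩
    obtain ⟨p, hp⟩ : ∃ p : ℕ, j + 1 = p := ⟨(j + 1).toNat, by omega⟩
    rw [NZ_eq (p := p + 1) (by push_cast; omega)] at hf
    rw [NZ_eq hp]
    cases p with
    | succ p => exact htriv.exT hWo (convex_box a₀ b₀) p f hf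
    | zero =>
      refine ⟨0, ?_⟩
      rw [map_zero, sub_zero]
      refine (van_one_iff hWo).2 fun z hz => hb _ fun e => ?_
      have h1 := mem_DN.1 hw (tst a z (a' z e))
        (by rw [FF_eq (q := n) (by omega)]; exact htst z hz _)
      change Ph0 Ω b T (j + 1) f _ - w.1 ((eps j • dT T) _) = 0 at h1
      rw [w.zero (u := (eps j • dT T) _) (by
          rw [FF_eq (q := n + 1) (by push_cast; omega)]
          exact Submodule.smul_mem _ _ (CS_of_van (tst_cocycle ha hz _ Ω))),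
        Ph0_eq hp (Nat.zero_le _), lam_cup_tst hT hbT ha hz (hWΩ hz) hf, hsurj z hz] at h1
      simpa using h1
  · intro j g hg
    suffices H : ∃ f : Co (R n) E, ((1 : ℝ) • dT T) f ∈ NZ E (j + 1 + 1) (Box a₀ b₀) ∧
        ∀ u ∈ FF E Ω (j + 1) (Box a₀ b₀), (eps j • dT T) u ∈ FF E Ω j ∅ →
          (g - Ph Ω b T (j + 1) f).1 u = 0 by
      obtain ⟨f, h1, h2⟩ := H
      exact ⟨f, h1, (cosh hT).factor j _ _ h2⟩
    rcases cases_j n (j + 1) with h | ⟨q, h⟩
    · exact ⟨0, by rw [map_zero]; exact zero_mem _, fun u hu _ => mem_DN.1 (mem_DN_top h _) u hu⟩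
    rcases (Box a₀ b₀).eq_empty_or_nonempty with hemp | ⟨z, hz⟩
    · exact ⟨0, by rw [map_zero]; exact zero_mem _, fun u hu _ => DM.zero _ (hemp ▸ hu)⟩
    -- functionals killing the coboundaries are determined by their values on `tst`
    have key : ∀ ν : DM (FF E Ω) (j + 1), (cosh hT).d (j + 1) ν ∈ DN (FF E Ω) (j + 1 + 1) (Box a₀ b₀) →
        (q = n → ∀ e, ν.1 (tst a z e) = 0) → ∀ u ∈ FF E Ω (j + 1) (Box a₀ b₀),
          (eps j • dT T) u ∈ FF E Ω j ∅ → ν.1 u = 0 := by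
      intro ν h1 h2 u hu hdu
      rw [FF_eq h] at hu
      rw [FF_eq (q := q + 1) (by push_cast; omega)] at hdu
      have hdu' : u ∈ Zc T q Ω := by
        have := (van_of_CS hdu).smul (eps j)⁻¹
        rwa [LinearMap.smul_apply, smul_smul, inv_mul_cancel₀ (eps_ne j), one_smul] at this
      obtain ⟨e, w, k1, k2, k3⟩ := box_main hΩ hWΩ (fun x hx => (haa x hx).1) ha ha' hz hdu' hu
      have k4 := ν.zero (u := u - tst a z e - dT T w) (by rw [FF_eq h]; exact CS_of_van k3)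
      have k5 : ν.1 (tst a z e) = 0 := by
        by_cases hq : q = n
        · exact h2 hq e
        · rw [k1 hq, map_zero, map_zero]
      have k6 : ν.1 (dT T w) = 0 := by
        have : ν.1 ((eps (j + 1) • dT T) w) = 0 := by
          refine mem_DN.1 h1 w ?_
          cases q with
          | zero => rw [FF_top (by omega)]; trivial
          | succ q => rw [FF_eq (q := q) (by push_cast at h; omega)]; exact k2
        rw [LinearMap.smul_apply, map_smul, smul_eq_mul] at this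
        exact (mul_eq_zero.1 this).resolve_left (eps_ne _)
      rw [map_sub, map_sub, k5, k6] at k4
      simpa using k4
    by_cases hq : q = n
    swap
    · refine ⟨0, by rw [map_zero]; exact zero_mem _, ?_⟩
      intro u hu hu'
      have := key g hg (fun h => absurd h hq) u hu hu'
      change g.1 u - (Ph Ω b T (j + 1) 0).1 u = 0
      rw [map_zero, this]
      simp
    have hj : j + 1 = (0 : ℕ) := by omega
    have hbs : Function.Surjective (b : E →ₗ[ℝ] Module.Dual ℝ E) :=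
      (LinearMap.injective_iff_surjective_of_finrank_eq_finrank
        Subspace.dual_finrank_eq.symm).1 ((injective_iff_map_eq_zero _).2 fun e he =>
          hb e fun e' => by rw [he]; rfl)
    obtain ⟨e₁, he₁⟩ := hbs (g.1 ∘ₗ tst a z ∘ₗ a' z)
    have hf : gau a (fun _ => a' z e₁) ∈ Zc T 0 (Box a₀ b₀) := by
      have := (ha.van 2 (fun _ => a' z e₁)).add
        (fun x hx h => const_mem_Zc (Box a₀ b₀) (a' z e₁) x hx (supp_gau _ a _ h))
      rwa [sub_add_cancel] at this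
    have hf' : ((1 : ℝ) • dT T) (gau a (fun _ => a' z e₁)) ∈ NZ E (j + 1 + 1) (Box a₀ b₀) := by
      rw [one_smul, NZ_eq (p := 1) (by omega)]
      exact hf
    refine ⟨_, hf', key _ ?_ fun _ e => ?_⟩
    · refine mem_DN.2 fun u hu => ?_
      have m0 := mem_DN.1 hg u hu
      have m1 := mem_DN.1 (Ph_chain hΩ hT hbT (j + 1) (gau a (fun _ => a' z e₁))) u
        ((cosh hT).mono _ _ _ hWΩ hu)
      have m2 : Ph0 Ω b T (j + 1 + 1) (((1 : ℝ) • dT T) (gau a (fun _ => a' z e₁))) u = 0 :=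
        Ph0_van hf' hu
      change g.1 ((eps (j + 1) • dT T) u) = 0 at m0
      change Ph0 Ω b T (j + 1 + 1) _ u - Ph0 Ω b T (j + 1) _ ((eps (j + 1) • dT T) u) = 0 at m1
      change g.1 ((eps (j + 1) • dT T) u) - Ph0 Ω b T (j + 1) _ ((eps (j + 1) • dT T) u) = 0
      linarith
    · change g.1 _ - Ph0 Ω b T (j + 1) _ _ = 0
      rw [Ph0_eq hj (Nat.zero_le _), lam_cup_tst hT hbT ha hz (hWΩ hz) hf, gau_cons, hsurj z hz, he₁]
      have : a' z (a z e) = e := LinearMap.congr_fun (haa z hz).2 e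
      simp [this]

theorem qi (hΩ : IsOpen Ω) (hT : Flat Ω T) (hb : ∀ e, (∀ e', b e e' = 0) → e = 0)
    (hbT : Compat Ω b T T (T1 _ _)) :
    QI (M := fun _ => Co (R n) E) (M' := DM (FF E Ω)) (fun _ => (1 : ℝ) • dT T) (NZ E)
      (cosh hT).d (DN (FF E Ω))
      (Ph Ω b T) Ω :=
  (sh_AS hT 1).qi (cosh hT).sh (Ph Ω b T)
    (fun _ _ _ _ _ hf => mem_DN.2 fun _ hu => Ph0_van hf hu) (Ph_chain hΩ hT hbT)
    (B := Boxes Ω (fun U => Triv U T))
    (by
      rintro W ⟨⟨a, b, rfl⟩, h, -⟩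
      exact ⟨isOpen_box a b, subset_closure.trans h⟩)
    (boxes_inter fun _ _ h h' => h'.mono h) (fun _ hW => qi_box hΩ hT hb hbT hW)
    (exh_boxes hΩ (fun _ _ h h' => h'.mono h) fun _ hz => hT.triv hz)

end PD

open PD in
theorem pd_surj {Ω : Set (R n)} (hΩ : IsOpen Ω) {T : Tw (R n) E} (hT : Flat Ω T)
    {b : E →ₗ[ℝ] E →ₗ[ℝ] ℝ} (hb : ∀ e, (∀ e', b e e' = 0) → e = 0)
    (hbT : Compat Ω b T T (T1 _ _)) {p q : ℕ} (hpq : p + q = n) (μ : Co (R n) E →ₗ[ℝ] ℝ)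
    (h0 : ∀ u, Van (q + 1) Ω u → μ u = 0)
    (h1 : ∀ w, IsCompact (supp q w ∩ Ω) → μ (dT T w) = 0) :
    ∃ x ∈ Zc T p Ω, ∀ u ∈ Zc T q Ω, IsCompact (supp (q + 1) u ∩ Ω) →
      μ u = lamO Ω (cup b T p x u) := by
  obtain ⟨j, hj⟩ : ∃ j : ℤ, j + 1 = p := ⟨p - 1, by omega⟩
  have hF : j + 1 + q = n := by omega
  let g : DM (FF E Ω) (j + 1) := ⟨μ, (Submodule.mem_dualAnnihilator _).2 fun u hu => by
    rw [FF_eq hF] at hu
    exact h0 u (van_of_CS hu)⟩
  obtain ⟨x, hx, w, hw⟩ := (qi hΩ hT hb hbT).2 j g (mem_DN.2 fun u hu => by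
    change μ ((eps (j + 1) • dT T) u) = 0
    rw [LinearMap.smul_apply, map_smul, smul_eq_mul]
    refine mul_eq_zero_of_right _ ?_
    cases q with
    | zero => exact h0 _ (van_one_dT _ _ _)
    | succ q =>
      rw [FF_eq (q := q) (by push_cast at hF; omega)] at hu
      exact h1 u hu.1)
  rw [one_smul, NZ_eq (p := p + 1) (by push_cast; omega)] at hx
  refine ⟨x, hx, fun u hu hc => ?_⟩
  have h2 := mem_DN.1 hw u (by rw [FF_eq hF]; exact ⟨hc, inter_subset_right⟩)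
  change μ u - Ph0 Ω b T (j + 1) x u - w.1 ((eps j • dT T) u) = 0 at h2
  rw [w.zero (u := (eps j • dT T) u) (by
      rw [FF_eq (q := q + 1) (by push_cast; omega)]
      exact Submodule.smul_mem _ _ (CS_of_van hu)), Ph0_eq hj (by omega)] at h2
  linarith

/-- if `u` is not in the submodule `{u | ∃ z compactly supported, Van (u - dT z)}`, separate it by a
functional `μ` and apply `pd_surj` -/
theorem pd {Ω : Set (R n)} (hΩ : IsOpen Ω) {T : Tw (R n) E} (hT : Flat Ω T)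
    {b : E →ₗ[ℝ] E →ₗ[ℝ] ℝ} (hb : ∀ e, (∀ e', b e e' = 0) → e = 0)
    (hbT : Compat Ω b T T (T1 _ _)) {p q : ℕ} (hpq : p + q = n) {u : Co (R n) E}
    (hu : u ∈ Zc T q Ω) (hc : IsCompact (supp (q + 1) u ∩ Ω))
    (h : ∀ x ∈ Zc T p Ω, lamO Ω (cup b T p x u) = 0) :
    ∃ z, IsCompact (supp q z ∩ Ω) ∧ Van (q + 1) Ω (u - dT T z) := by
  let S : Submodule ℝ (Co (R n) E) := (PD.CS E Ω q Ω).map (dT T) ⊔ NV E (q + 1) Ω
  have hS : u ∈ S := by
    by_contra hn
    obtain ⟨μ, h1, h2⟩ := Submodule.exists_le_ker_of_notMem hn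
    obtain ⟨x, hx, h3⟩ := pd_surj hΩ hT hb hbT hpq μ
      (fun v hv => h2 (Submodule.mem_sup_right hv))
      (fun w hw => h2 (Submodule.mem_sup_left ⟨w, ⟨hw, inter_subset_right⟩, rfl⟩))
    exact h1 ((h3 u hu hc).trans (h x hx))
  obtain ⟨_, ⟨z, hz, rfl⟩, v, hv, rfl⟩ := Submodule.mem_sup.1 hS
  exact ⟨z, hz.1, by rwa [add_sub_cancel_left]⟩

end Crest.Agent.R217
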