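import Crest.Agent.R217.PadicGen

/-! # R217 / Padic : a small subgroup contains a nontrivial continuous image of some `ℤ_p`

(Proved in `PadicChar`, `PadicGen`; step 2 is done there with a minimal closed subgroup meeting
`χ₀⁻¹ ζ` (Zorn) instead of the inductive construction.)
Plan.  Shrink `U` to a compact neighbourhood `K ⊆ U`; `H ⊆ K` nontrivial, `x ∈ H`, `x ≠ 1`;
`A` = closure of `zpowers x` is a compact commutative group inside `K`.
1. (characters separate points of a compact abelian group `A`.)  E.g. on `L²(A, Haar)` let `λ_a` be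
   the translation unitaries and `λ(f) v = ∫ f(a) λ_a v da` (`f ∈ C(A,ℂ)`, `‖λ f‖ ≤ ‖f‖`); all
   commute; in the commutative C*-algebra they generate pick (Gelfand) a character `φ` with
   `φ((λ_a - 1) λ(f)) ≠ 0`; `χ(b) = φ(λ_b)` is a hom to the circle, continuous since
   `φ(λ_b) φ(λ f) = φ(λ(f_b))` is norm continuous, `χ(a) ≠ 1`.  (Or any other proof: compact
   self-adjoint convolution operators + finite-dim eigenspaces.)
2. `A` second countable ⇒ a sequence `χ₀, χ₁, …` separates points (Lindelöf on `A \ {1}`), `χ₀ ≠ 1`.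
   Closed subgroups of the circle are finite or everything.  `χ₀(A)` has an element of prime order p.
   Inductively build `y_k ∈ A` with `χ_i(y_{k+1}) = χ_i(y_k)` (i ≤ k) and all `χ_i(y_k)` (i ≤ k) of
   p-power order: `L = χ_{k+1}(∩_{i≤k} ker χ_i)` closed; if `L` is the circle correct `y_k` by an
   element of the kernel; if `L` is finite `χ_{k+1}(y_k)` has finite order `p^a b`, replace `y_k`
   by `y_k^e`, `e ≡ 1 mod p^s` (s large), `e ≡ 0 mod b`.  A cluster point `y` has `χ₀ y ≠ 1` and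
   every `χ_i y` of p-power order, so `y^{p^j n} → 1` uniformly in `n` (A embeds in `∏ circle`).
3. `n ↦ y^n` is uniformly continuous for the p-adic uniformity on `ℤ` (or ℕ), extend to `ℤ_[p]`
   (e.g. `ρ a = lim y^(a.appr k)`; or `DenseInducing.extend`).
-/

set_option autoImplicit false
open scoped Topology

namespace Crest.Agent.R217

theorem exists_padic_hom (G : Type*) [Group G] [TopologicalSpace G] [IsTopologicalGroup G]
    [T2Space G] [SecondCountableTopology G] [LocallyCompactSpace G]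
    (h : ∀ U ∈ 𝓝 (1 : G), ∃ H : Subgroup G, (H : Set G) ⊆ U ∧ H ≠ ⊥)
    (U : Set G) (hU : U ∈ 𝓝 (1 : G)) :
    ∃ (p : ℕ) (_ : Fact p.Prime) (ρ : ℤ_[p] → G), Continuous ρ ∧ ρ 0 = 1 ∧
      (∀ a b, ρ (a + b) = ρ a * ρ b) ∧ (∀ a, ρ a ∈ U) ∧ ρ 1 ≠ 1 := by
  obtain ⟨K, hK, hKU, hKc⟩ := local_compact_nhds hU
  obtain ⟨H, hHK, hH⟩ := h K hK
  obtain ⟨⟨x, hxH⟩, hx⟩ := (Subgroup.ne_bot_iff_exists_ne_one).1 hH
  have hx1 : x ≠ 1 := fun h1 => hx (Subtype.ext h1)
  let A : Subgroup G := (Subgroup.zpowers x).topologicalClosure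
  have hAK : (A : Set G) ⊆ K := by
    refine closure_minimal (fun z hz => hHK ?_) hKc.isClosed
    exact (Subgroup.zpowers_le.2 hxH) hz
  have : CompactSpace A := isCompact_iff_compactSpace.1
    (hKc.of_isClosed_subset (Subgroup.isClosed_topologicalClosure _) hAK)
  let _ : CommGroup A := Subgroup.commGroupTopologicalClosure _ (fun a b => by
    obtain ⟨_, m, rfl⟩ := a
    obtain ⟨_, n, rfl⟩ := b
    exact Subtype.ext (zpow_mul_comm x m n))
  have hxA : x ∈ A := Subgroup.le_topologicalClosure _ (Subgroup.mem_zpowers x)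
  obtain ⟨p, hp, ρ, hρc, hρ0, hρa, hρ1⟩ := PChar.exists_padic_comm (A := A) ⟨x, hxA⟩
    (fun h1 => hx1 (congrArg Subtype.val h1))
  refine ⟨p, hp, fun a => ρ a, continuous_subtype_val.comp hρc, congrArg Subtype.val hρ0,
    fun a b => congrArg Subtype.val (hρa a b), fun a => hKU (hAK (ρ a).2), fun h1 => hρ1 (Subtype.ext h1)⟩

end Crest.Agent.R217
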