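import Mathlib

/-! # R217 / PadicChar : continuous characters separate the points of a compact abelian group

Gelfand theory in the commutative Banach algebra generated by the translations and one
convolution operator on `C(A, ℂ)`. -/

set_option autoImplicit false
open scoped Topology ComplexConjugate InnerProductSpace
open MeasureTheory Filter

namespace Crest.Agent.R217.PChar

/-- a character that does not kill an element of exponential growth -/
theorem exists_char_comm {B : Type*} [NormedCommRing B] [NormedAlgebra ℂ B] [CompleteSpace B]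
    (R : B) (c r : ℝ) (hc : 0 < c) (hr : 0 < r) (hn : ∀ n : ℕ, c * r ^ n ≤ ‖R ^ n‖) :
    ∃ φ : B →ₐ[ℂ] ℂ, Continuous φ ∧ (∀ x, ‖φ x‖ ≤ ‖x‖ * ‖(1 : B)‖) ∧ φ R ≠ 0 := by
  have : Nontrivial B := by
    refine ⟨⟨1, 0, fun h => ?_⟩⟩
    have h0 := hn 0
    rw [pow_zero, pow_zero, h, norm_zero] at h0
    linarith
  obtain ⟨z, hz, hzr⟩ := spectrum.exists_nnnorm_eq_spectralRadius R
  have hz0 : z ≠ 0 := by
    intro h0
    have hlim := spectrum.pow_norm_pow_one_div_tendsto_nhds_spectralRadius R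
    rw [← hzr, h0, nnnorm_zero, ENNReal.coe_zero] at hlim
    have h1 : ∀ᶠ n : ℕ in atTop, ENNReal.ofReal (‖R ^ n‖ ^ (1 / n : ℝ)) < ENNReal.ofReal (r / 2) :=
      hlim.eventually (gt_mem_nhds (by simpa using hr))
    have h2 : Tendsto (fun n : ℕ => (1 / 2 : ℝ) ^ n) atTop (𝓝 0) :=
      tendsto_pow_atTop_nhds_zero_of_lt_one (by norm_num) (by norm_num)
    have h3 : ∀ᶠ n : ℕ in atTop, (1 / 2 : ℝ) ^ n < c := h2.eventually (gt_mem_nhds hc)
    obtain ⟨n, hn1, hn2, hn3⟩ := (h1.and (h3.and (eventually_gt_atTop 0))).exists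
    rw [ENNReal.ofReal_lt_ofReal_iff (by positivity)] at hn1
    have h4 : ‖R ^ n‖ < (r / 2) ^ n := by
      have := pow_lt_pow_left₀ hn1 (by positivity) hn3.ne'
      rwa [one_div, Real.rpow_inv_natCast_pow (norm_nonneg _) hn3.ne'] at this
    have h5 : (r / 2) ^ n = (1 / 2) ^ n * r ^ n := by rw [← mul_pow]; ring
    have h6 : (1 / 2) ^ n * r ^ n < c * r ^ n := mul_lt_mul_of_pos_right hn2 (by positivity)
    linarith [hn n]
  obtain ⟨f, hf⟩ := WeakDual.CharacterSpace.mem_spectrum_iff_exists.1 hz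
  refine ⟨WeakDual.CharacterSpace.equivAlgHom f, ?_, fun x => ?_, ?_⟩
  · exact map_continuous f
  · exact AlgHom.norm_apply_le_self_mul_norm_one _ x
  · simpa [hf] using hz0

theorem exists_char {E : Type*} [NormedRing E] [NormedAlgebra ℂ E] [CompleteSpace E]
    (S : Set E) (hS : ∀ x ∈ S, ∀ y ∈ S, x * y = y * x) :
    ∃ B : Subalgebra ℂ E, (∀ x ∈ S, x ∈ B) ∧ ∀ (R : B) (c r : ℝ), 0 < c → 0 < r →
      (∀ n : ℕ, c * r ^ n ≤ ‖(R : E) ^ n‖) →
      ∃ φ : B →ₐ[ℂ] ℂ, Continuous φ ∧ (∀ x : B, ‖φ x‖ ≤ ‖(x : E)‖ * ‖(1 : E)‖) ∧ φ R ≠ 0 := by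
  let B : Subalgebra ℂ E := Subalgebra.centralizer ℂ (Set.centralizer S)
  have hSB : ∀ x ∈ S, x ∈ B := fun x hx y hy => (hy x hx).symm
  have hBS : ∀ x ∈ B, x ∈ Set.centralizer S := fun x hx y hy => hx y (fun z hz => hS z hz y hy)
  refine ⟨B, hSB, fun R c r hc hr hn => ?_⟩
  letI : NormedCommRing B :=
    { (inferInstance : NormedRing B) with
      mul_comm := fun x y => Subtype.ext (y.2 x.1 (hBS x.1 x.2)) }
  have : CompleteSpace B := by
    have : IsClosed (B : Set E) := Set.isClosed_centralizer _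
    exact this.completeSpace_coe
  exact exists_char_comm R c r hc hr hn

variable {A : Type*} [CommGroup A] [TopologicalSpace A] [IsTopologicalGroup A] [CompactSpace A]

/-- translation operator -/
noncomputable def tr (b : A) : C(A, ℂ) →L[ℂ] C(A, ℂ) :=
  LinearMap.mkContinuous
    { toFun := fun f => f.comp ⟨fun x => x * b, by fun_prop⟩
      map_add' := fun _ _ => rfl
      map_smul' := fun _ _ => rfl } 1 (fun f => by
    rw [one_mul, ContinuousMap.norm_le _ (norm_nonneg _)]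
    intro x
    exact f.norm_coe_le_norm _)

@[simp] theorem tr_apply (b : A) (f : C(A, ℂ)) (x : A) : tr b f x = f (x * b) := rfl

theorem norm_tr_le (b : A) : ‖tr b‖ ≤ 1 := LinearMap.mkContinuous_norm_le _ zero_le_one _

theorem norm_tr_apply_le (b : A) (f : C(A, ℂ)) : ‖tr b f‖ ≤ ‖f‖ := by
  simpa using (tr b).le_of_opNorm_le (norm_tr_le b) f

theorem tr_mul (b c : A) : tr (b * c) = tr b * tr c := by
  ext f x
  simp [mul_assoc]

theorem tr_one : tr (1 : A) = 1 := by
  ext f x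
  simp

theorem continuous_tr (k : C(A, ℂ)) : Continuous fun b : A => tr b k :=
  (ContinuousMap.curry (⟨fun p : A × A => k (p.2 * p.1), by fun_prop⟩ : C(A × A, ℂ))).continuous

variable [T2Space A] [MeasurableSpace A] [BorelSpace A] (μ : Measure A) [IsFiniteMeasure μ]

theorem integrable_cont {F : Type*} [NormedAddCommGroup F] {f : A → F} (hf : Continuous f) :
    Integrable f μ :=
  hf.integrable_of_hasCompactSupport (HasCompactSupport.of_compactSpace f)

theorem cont_aux (k f : C(A, ℂ)) : Continuous fun y : A => f y • tr y⁻¹ k :=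
  f.continuous.smul ((continuous_tr k).comp continuous_inv)

/-- convolution -/
noncomputable def conv : C(A, ℂ) →L[ℂ] C(A, ℂ) →L[ℂ] C(A, ℂ) :=
  LinearMap.mkContinuous₂
    (LinearMap.mk₂ ℂ (fun k f => ∫ y, f y • tr y⁻¹ k ∂μ)
      (fun k₁ k₂ f => by
        simp only [map_add, smul_add]
        exact integral_add (integrable_cont μ (cont_aux _ _)) (integrable_cont μ (cont_aux _ _)))
      (fun c k f => by
        simp only [map_smul]
        rw [← integral_smul]
        simp only [smul_comm c])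
      (fun k f₁ f₂ => by
        simp only [ContinuousMap.add_apply, add_smul]
        exact integral_add (integrable_cont μ (cont_aux _ _)) (integrable_cont μ (cont_aux _ _)))
      (fun c k f => by
        rw [← integral_smul]
        simp only [ContinuousMap.smul_apply, smul_assoc]))
    (μ.real Set.univ) (fun k f => by
      have : ‖∫ y, f y • tr y⁻¹ k ∂μ‖ ≤ (‖k‖ * ‖f‖) * μ.real Set.univ := by
        refine norm_integral_le_of_norm_le_const (Eventually.of_forall fun y => ?_)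
        rw [norm_smul, mul_comm]
        exact mul_le_mul (norm_tr_apply_le _ _) (f.norm_coe_le_norm y) (norm_nonneg _)
          (norm_nonneg _)
      calc _ ≤ _ := this
        _ = _ := by ring)

theorem conv_def (k f : C(A, ℂ)) : conv μ k f = ∫ y, f y • tr y⁻¹ k ∂μ := rfl

theorem conv_apply (k f : C(A, ℂ)) (x : A) : conv μ k f x = ∫ y, f y * k (x * y⁻¹) ∂μ := by
  have := (ContinuousMap.evalCLM ℂ x : C(A, ℂ) →L[ℂ] ℂ).integral_comp_comm
    (integrable_cont μ (cont_aux k f))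
  rw [conv_def]
  simpa using this.symm

theorem tr_mul_conv (b : A) (k : C(A, ℂ)) : tr b * conv μ k = conv μ (tr b k) := by
  ext f x
  simp only [mul_apply_eq_comp, tr_apply, conv_apply, mul_right_comm x b]

theorem conv_mul_tr [μ.IsMulRightInvariant] (b : A) (k : C(A, ℂ)) :
    conv μ k * tr b = conv μ (tr b k) := by
  ext f x
  simp only [mul_apply_eq_comp, tr_apply, conv_apply]
  rw [← integral_mul_right_eq_self (fun y => f y * k (x * y⁻¹ * b)) b]
  congr 1
  ext y
  congr 2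
  rw [mul_inv_rev, mul_comm b⁻¹, mul_assoc, mul_assoc, inv_mul_cancel, mul_one]

/-- the map to `L²` -/
noncomputable abbrev J : C(A, ℂ) →L[ℂ] Lp ℂ 2 μ := ContinuousMap.toLp 2 μ ℂ

theorem conv_symm (k : C(A, ℂ)) (hk : ∀ x, k x⁻¹ = conj (k x)) (f g : C(A, ℂ)) :
    ⟪J μ f, J μ (conv μ k g)⟫_ℂ = ⟪J μ (conv μ k f), J μ g⟫_ℂ := by
  have h1 : J μ (conv μ k g) = ∫ y, J μ (g y • tr y⁻¹ k) ∂μ := by
    rw [conv_def, (J μ).integral_comp_comm (integrable_cont μ (cont_aux k g))]
  have h2 : Integrable (fun y => J μ (g y • tr y⁻¹ k)) μ :=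
    integrable_cont μ ((J μ).continuous.comp (cont_aux k g))
  rw [h1, ← integral_inner h2, ContinuousMap.inner_toLp]
  congr 1
  ext y
  rw [map_smul, inner_smul_right, ContinuousMap.inner_toLp, conv_apply, ← integral_conj]
  congr 2
  ext x
  rw [map_mul, ← hk, tr_apply, mul_comm, mul_inv_rev, inv_inv]

theorem growth [μ.IsOpenPosMeasure] (k : C(A, ℂ)) (hk : ∀ x, k x⁻¹ = conj (k x)) (h0 : k ≠ 0) :
    ∃ c r : ℝ, 0 < c ∧ 0 < r ∧ ∀ n : ℕ, c * r ^ n ≤ ‖conv μ k ^ n‖ := by
  have hJ : ∀ f : C(A, ℂ), f ≠ 0 → 0 < ‖J μ f‖ := fun f hf => by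
    rw [norm_pos_iff]
    intro h
    exact hf (ContinuousMap.toLp_injective μ (h.trans (map_zero _).symm))
  set R := conv μ k with hR
  let u : ℕ → ℝ := fun n => ‖J μ ((R ^ n) k)‖
  have hu0 : 0 < u 0 := hJ _ (by simpa using h0)
  have hu1 : 0 < u 1 := by
    refine hJ _ fun h => ?_
    have h1 : (R ^ 1) k 1 = ⟪J μ k, J μ k⟫_ℂ := by
      rw [pow_one, hR, conv_apply, ContinuousMap.inner_toLp]
      simp only [one_mul, hk]
    rw [h, ContinuousMap.zero_apply, eq_comm, inner_self_eq_zero] at h1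
    exact (hJ k h0).ne' (by rw [h1, norm_zero])
  have hconv : ∀ n, u (n + 1) ^ 2 ≤ u (n + 2) * u n := fun n => by
    have h1 : ⟪J μ ((R ^ (n + 1)) k), J μ ((R ^ (n + 1)) k)⟫_ℂ =
        ⟪J μ ((R ^ (n + 2)) k), J μ ((R ^ n) k)⟫_ℂ := by
      have := conv_symm μ k hk ((R ^ (n + 1)) k) ((R ^ n) k)
      rw [← hR] at this
      rw [pow_succ' R (n + 1), mul_apply_eq_comp, ← this, pow_succ' R n,
        mul_apply_eq_comp]
    have h2 := norm_inner_le_norm (𝕜 := ℂ) (J μ ((R ^ (n + 2)) k)) (J μ ((R ^ n) k))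
    rw [← h1, inner_self_eq_norm_sq_to_K] at h2
    simpa [u] using h2
  have hstep : ∀ n, 0 < u n ∧ u 1 / u 0 * u n ≤ u (n + 1) := by
    intro n
    induction n with
    | zero => exact ⟨hu0, by rw [div_mul_cancel₀ _ hu0.ne']⟩
    | succ n ih =>
      have hp : 0 < u (n + 1) := lt_of_lt_of_le (mul_pos (div_pos hu1 hu0) ih.1) ih.2
      refine ⟨hp, le_of_mul_le_mul_right ?_ ih.1⟩
      have := hconv n
      nlinarith [ih.2]
  have hgeo : ∀ n, u 0 * (u 1 / u 0) ^ n ≤ u n := by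
    intro n
    induction n with
    | zero => simp
    | succ n ih =>
      refine le_trans ?_ (hstep n).2
      rw [pow_succ, ← mul_assoc, mul_comm]
      exact mul_le_mul_of_nonneg_left ih (div_pos hu1 hu0).le
  have hD : 0 < ‖J μ‖ * ‖k‖ + 1 := by positivity
  refine ⟨u 0 / (‖J μ‖ * ‖k‖ + 1), u 1 / u 0, div_pos hu0 hD, div_pos hu1 hu0, fun n => ?_⟩
  rw [div_mul_eq_mul_div, div_le_iff₀ hD]
  refine (hgeo n).trans ?_
  have h1 : u n ≤ ‖J μ‖ * (‖R ^ n‖ * ‖k‖) :=
    ((J μ).le_opNorm _).trans (mul_le_mul_of_nonneg_left ((R ^ n).le_opNorm _) (norm_nonneg _))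
  nlinarith [norm_nonneg (R ^ n)]

omit [MeasurableSpace A] [BorelSpace A] in
/-- continuous characters separate the points of a compact abelian group -/
theorem exists_character (a : A) (ha : a ≠ 1) :
    ∃ χ : A →* Circle, Continuous χ ∧ χ a ≠ 1 := by
  borelize A
  let μ : Measure A := Measure.haar
  obtain ⟨v, hv0, hv1, -⟩ := exists_continuous_zero_one_of_isClosed
    (s := ({a, a⁻¹} : Set A)) (t := {1}) (Set.toFinite _).isClosed isClosed_singleton
    (by simp [ha, ha.symm])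
  let k : C(A, ℂ) := ⟨fun x => ((v x + v x⁻¹ : ℝ) : ℂ), by fun_prop⟩
  have hk : ∀ x, k x = ((v x + v x⁻¹ : ℝ) : ℂ) := fun _ => rfl
  have hk1 : ∀ x, k x⁻¹ = k x := fun x => by rw [hk, hk, inv_inv, add_comm]
  have hk2 : ∀ x, conj (k x) = k x := fun x => by rw [hk, Complex.conj_ofReal]
  have hva : v a = 0 := hv0 (by simp)
  have hva' : v a⁻¹ = 0 := hv0 (by simp)
  have hv1' : v 1 = 1 := hv1 (by simp)
  let k' : C(A, ℂ) := k + k - tr a k - tr a⁻¹ k
  have hk' : ∀ x, k' x⁻¹ = conj (k' x) := fun x => by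
    have e1 : k (x⁻¹ * a) = k (x * a⁻¹) := by rw [← hk1, mul_inv, inv_inv]
    have e2 : k (x⁻¹ * a⁻¹) = k (x * a) := by rw [← hk1, mul_inv, inv_inv, inv_inv]
    simp only [k', ContinuousMap.sub_apply, ContinuousMap.add_apply, tr_apply, map_sub, map_add,
      hk2, hk1, e1, e2]
    ring
  have hk0 : k' ≠ 0 := fun h => by
    have h1 : k' 1 = 0 := by rw [h]; rfl
    simp only [k', ContinuousMap.sub_apply, ContinuousMap.add_apply, tr_apply, one_mul, hk,
      inv_inv, inv_one, hva, hva', hv1'] at h1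
    norm_num at h1
  obtain ⟨c, r, hc, hr, hn⟩ := growth μ k' hk' hk0
  obtain ⟨B, hB, H⟩ := exists_char (Set.range (tr (A := A)) ∪ {conv μ k}) (by
    rintro x (⟨b, rfl⟩ | rfl) y (⟨b', rfl⟩ | rfl)
    · rw [← tr_mul, ← tr_mul, mul_comm]
    · rw [tr_mul_conv, conv_mul_tr]
    · rw [tr_mul_conv, conv_mul_tr]
    · rfl)
  let t : A → B := fun b => ⟨tr b, hB _ (Or.inl ⟨b, rfl⟩)⟩
  let T : B := ⟨conv μ k, hB _ (Or.inr rfl)⟩
  have hR : (((1 + 1 - t a - t a⁻¹) * T : B) : C(A, ℂ) →L[ℂ] C(A, ℂ)) = conv μ k' := by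
    simp only [k', map_sub, map_add, ← tr_mul_conv]
    simp [t, T, sub_mul, add_mul]
  obtain ⟨φ, hφc, hφn, hφ⟩ := H ((1 + 1 - t a - t a⁻¹) * T) c r hc hr (by rw [hR]; exact hn)
  rw [map_mul, mul_ne_zero_iff] at hφ
  have ht1 : t 1 = 1 := Subtype.ext tr_one
  have htm : ∀ b b', t (b * b') = t b * t b' := fun b b' => Subtype.ext (tr_mul b b')
  have hle : ∀ b, ‖φ (t b)‖ ≤ 1 := fun b => by
    refine (hφn _).trans ?_
    exact mul_le_one₀ (norm_tr_le b) (norm_nonneg _) ContinuousLinearMap.norm_id_le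
  have hinv : ∀ b, φ (t b) * φ (t b⁻¹) = 1 := fun b => by
    rw [← map_mul, ← htm, mul_inv_cancel, ht1, map_one]
  have hnorm : ∀ b, ‖φ (t b)‖ = 1 := fun b => by
    have h1 : ‖φ (t b)‖ * ‖φ (t b⁻¹)‖ = 1 := by rw [← norm_mul, hinv, norm_one]
    nlinarith [hle b, hle b⁻¹, norm_nonneg (φ (t b)), norm_nonneg (φ (t b⁻¹))]
  have hcont : Continuous fun b => φ (t b) := by
    have h1 : Continuous fun b => t b * T := by
      refine continuous_induced_rng.2 ?_
      have : (Subtype.val ∘ fun b => t b * T) = fun b => conv μ (tr b k) := by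
        ext1 b
        exact tr_mul_conv μ b k
      rw [this]
      exact (conv μ).continuous.comp (continuous_tr k)
    have h2 : (fun b => φ (t b)) = fun b => φ (t b * T) / φ T := by
      ext b
      rw [map_mul, mul_div_cancel_right₀ _ hφ.2]
    rw [h2]
    exact (hφc.comp h1).div_const _
  refine ⟨{ toFun := fun b => ⟨φ (t b), mem_sphere_zero_iff_norm.2 (hnorm b)⟩
            map_one' := Subtype.ext (by simp [ht1])
            map_mul' := fun b b' => Subtype.ext (by simp [htm]) }, hcont.subtype_mk _, fun h => ?_⟩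
  have h1 : φ (t a) = 1 := congrArg Subtype.val h
  have h2 : φ (t a⁻¹) = 1 := by simpa [h1] using hinv a
  apply hφ.1
  simp [h1, h2]

end Crest.Agent.R217.PChar
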