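import Crest.Agent.R217.PadicChar

/-! # R217 / PadicGen : a nontrivial compact abelian group has an element `y ≠ 1` with
`y ^ (p ^ j * n) → 1` uniformly in `n`, hence a nontrivial continuous image of `ℤ_p` -/

set_option autoImplicit false
open scoped Topology
open Filter

namespace Crest.Agent.R217.PChar

theorem circle_dense (w : Circle) (hw : ¬IsOfFinOrder w) : DenseRange fun n : ℤ => w ^ n := by
  have : Fact ((0 : ℝ) < 1) := ⟨one_pos⟩
  let e := AddCircle.homeomorphCircle (T := 1) one_ne_zero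
  obtain ⟨a, rfl⟩ := e.surjective w
  have ha : addOrderOf a = 0 := by
    rw [addOrderOf_eq_zero_iff]
    intro h
    obtain ⟨n, hn, hna⟩ := isOfFinAddOrder_iff_nsmul_eq_zero.1 h
    refine hw (isOfFinOrder_iff_pow_eq_one.2 ⟨n, hn, ?_⟩)
    rw [AddCircle.homeomorphCircle_apply, ← AddCircle.toCircle_nsmul, hna, AddCircle.toCircle_zero]
  have hd := AddCircle.denseRange_zsmul_iff.2 ha
  have : (fun n : ℤ => e a ^ n) = e ∘ fun n : ℤ => n • a := by
    ext1 n
    simp only [Function.comp, e, AddCircle.homeomorphCircle_apply, AddCircle.toCircle_zsmul]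
  rw [this]
  exact e.surjective.denseRange.comp hd e.continuous

variable {A : Type*} [CommGroup A] [TopologicalSpace A] [IsTopologicalGroup A] [CompactSpace A]
  [T2Space A]

/-- closed subgroup generated by an element -/
abbrev cl (y : A) : Subgroup A := (Subgroup.zpowers y).topologicalClosure

omit [CompactSpace A] [T2Space A] in
theorem self_mem_cl (y : A) : y ∈ cl y :=
  Subgroup.le_topologicalClosure _ (Subgroup.mem_zpowers y)

omit [CompactSpace A] [T2Space A] in
theorem cl_le {y : A} {B : Subgroup A} (hB : IsClosed (B : Set A)) (hy : y ∈ B) : cl y ≤ B :=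
  Subgroup.topologicalClosure_minimal _ ((Subgroup.zpowers_le).2 hy) hB

omit [T2Space A] in
theorem surj_of_infinite (χ : A →* Circle) (hχ : Continuous χ) (y : A)
    (hy : ¬IsOfFinOrder (χ y)) (w : Circle) : ∃ z ∈ cl y, χ z = w := by
  have hc : IsClosed (χ '' (cl y : Set A)) :=
    ((Subgroup.isClosed_topologicalClosure _).isCompact.image hχ).isClosed
  have hd : Dense (χ '' (cl y : Set A)) := by
    refine Dense.mono ?_ (circle_dense _ hy)
    rintro _ ⟨n, rfl⟩
    exact ⟨y ^ n, Subgroup.zpow_mem _ (self_mem_cl y) n, map_zpow χ y n⟩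
  have : w ∈ χ '' (cl y : Set A) := by
    rw [← hc.closure_eq]
    exact hd w
  exact this

omit [T2Space A] in
theorem exists_prime_order (χ : A →* Circle) (hχ : Continuous χ) (a : A) (ha : χ a ≠ 1) :
    ∃ (p : ℕ) (b : A), p.Prime ∧ χ b ≠ 1 ∧ χ b ^ p = 1 := by
  by_cases h : IsOfFinOrder (χ a)
  · have h1 : orderOf (χ a) ≠ 1 := by rwa [Ne, orderOf_eq_one_iff]
    obtain ⟨p, hp, m, hm⟩ := Nat.exists_prime_and_dvd h1
    have hpos := h.orderOf_pos
    have hm0 : 0 < m := by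
      rcases Nat.eq_zero_or_pos m with rfl | h0
      · simp [hm] at hpos
      · exact h0
    refine ⟨p, a ^ m, hp, ?_, ?_⟩
    · rw [map_pow]
      refine pow_ne_one_of_lt_orderOf hm0.ne' ?_
      rw [hm]
      nlinarith [hp.two_le]
    · rw [map_pow, ← pow_mul, mul_comm, ← hm, pow_orderOf_eq_one]
  · obtain ⟨z, -, hz⟩ := surj_of_infinite χ hχ a h (-1)
    refine ⟨2, z, Nat.prime_two, ?_, ?_⟩
    · rw [hz]
      intro h1
      have := congrArg (fun w : Circle => (w : ℂ)) h1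
      norm_num at this
    · rw [hz]
      simp

omit [T2Space A] in
/-- a minimal closed subgroup meeting a given fibre of a character -/
theorem exists_minimal (χ : A →* Circle) (hχ : Continuous χ) (b : A) :
    ∃ y : A, χ y = χ b ∧ ∀ z ∈ cl y, χ z = χ b → y ∈ cl z := by
  let S : Set (Set A) := {B | IsClosed B ∧ (∀ y ∈ B, (cl y : Set A) ⊆ B) ∧ ∃ y ∈ B, χ y = χ b}
  have hz := zorn_superset_nonempty S (fun c hc hch hne => by
    refine ⟨⋂₀ c, ⟨isClosed_sInter fun t ht => (hc ht).1, fun y hy => ?_, ?_⟩,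
      fun s hs => Set.sInter_subset_of_mem hs⟩
    · exact Set.subset_sInter fun t ht => (hc ht).2.1 y (hy t ht)
    · have hF : IsClosed {y | χ y = χ b} := isClosed_eq hχ continuous_const
      have : Nonempty c := hne.to_subtype
      have h1 := IsCompact.nonempty_iInter_of_directed_nonempty_isCompact_isClosed
        (fun t : c => t.1 ∩ {y | χ y = χ b}) (fun s t => ?_) (fun t => (hc t.2).2.2)
        (fun t => ((hc t.2).1.inter hF).isCompact) (fun t => (hc t.2).1.inter hF)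
      · obtain ⟨y, hy⟩ := h1
        rw [Set.mem_iInter] at hy
        exact ⟨y, fun t ht => (hy ⟨t, ht⟩).1, (hy (Classical.arbitrary c)).2⟩
      · rcases hch.total s.2 t.2 with h | h
        · exact ⟨s, le_rfl, Set.inter_subset_inter_left _ h⟩
        · exact ⟨t, Set.inter_subset_inter_left _ h, le_rfl⟩) Set.univ
    ⟨isClosed_univ, fun _ _ => Set.subset_univ _, b, trivial, rfl⟩
  obtain ⟨B, -, hB⟩ := hz
  obtain ⟨y, hyB, hy⟩ := hB.prop.2.2
  refine ⟨y, hy, fun z hz hzb => ?_⟩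
  have hzB : z ∈ B := hB.prop.2.1 y hyB hz
  have hS : (cl z : Set A) ∈ S :=
    ⟨Subgroup.isClosed_topologicalClosure _,
      fun x hx => cl_le (Subgroup.isClosed_topologicalClosure _) hx, z, self_mem_cl z, hzb⟩
  exact hB.le_of_le hS (hB.prop.2.1 z hzB) hyB

omit [CompactSpace A] [T2Space A] in
theorem pow_eq_one_of_mem_cl (χ : A →* Circle) (hχ : Continuous χ) {y z : A} (n : ℕ)
    (hz : χ z ^ n = 1) (hy : y ∈ cl z) : χ y ^ n = 1 := by
  let B : Subgroup A := ((powMonoidHom n).comp χ).ker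
  have hB : IsClosed (B : Set A) := isClosed_eq (hχ.pow n) continuous_const
  exact cl_le hB (show z ∈ B from hz) hy

theorem exists_generator (a : A) (ha : a ≠ 1) :
    ∃ (p : ℕ) (y : A), p.Prime ∧ y ≠ 1 ∧ ∀ x : A, (∀ j : ℕ, x ∈ cl (y ^ p ^ j)) → x = 1 := by
  obtain ⟨χ₀, hχ₀, h0⟩ := exists_character a ha
  obtain ⟨p, b, hp, hb1, hbp⟩ := exists_prime_order χ₀ hχ₀ a h0
  obtain ⟨y, hy, hmin⟩ := exists_minimal χ₀ hχ₀ b
  refine ⟨p, y, hp, fun h => hb1 (by rw [← hy, h, map_one]), fun x hx => ?_⟩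
  by_contra hx1
  obtain ⟨χ, hχ, hχx⟩ := exists_character x hx1
  suffices h : ∃ j : ℕ, χ y ^ p ^ j = 1 by
    obtain ⟨j, hj⟩ := h
    have := pow_eq_one_of_mem_cl χ hχ 1 (z := y ^ p ^ j) (by rw [pow_one, map_pow, hj]) (hx j)
    exact hχx (by simpa using this)
  by_cases h : IsOfFinOrder (χ y)
  · obtain ⟨j, m, hm, hjm⟩ := Nat.exists_eq_pow_mul_and_not_dvd h.orderOf_pos.ne' p hp.ne_one
    refine ⟨j, pow_eq_one_of_mem_cl χ hχ _ (z := y ^ m ^ (p - 1)) ?_ (hmin _ ?_ ?_)⟩
    · obtain ⟨q, hq⟩ : ∃ q, p - 1 = q + 1 := ⟨p - 2, by have := hp.two_le; omega⟩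
      rw [map_pow, ← pow_mul, hq, pow_succ, mul_assoc, mul_comm m, ← hjm, mul_comm, pow_mul,
        pow_orderOf_eq_one, one_pow]
    · exact Subgroup.pow_mem _ (self_mem_cl y) _
    · have h1 : m ^ (p - 1) ≡ 1 [MOD p] := by
        rw [← Nat.totient_prime hp]
        exact Nat.ModEq.pow_totient ((Nat.Prime.coprime_iff_not_dvd hp).2 hm).symm
      rw [map_pow, hy, pow_eq_pow_mod _ hbp, h1, ← pow_eq_pow_mod _ hbp, pow_one]
  · have h1 : ¬IsOfFinOrder (χ (y ^ p)) := by
      rw [map_pow, isOfFinOrder_pow]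
      push Not
      exact ⟨h, hp.ne_zero⟩
    obtain ⟨z, hz, hzy⟩ := surj_of_infinite χ hχ _ h1 (χ y)⁻¹
    have hz0 : χ₀ z = 1 := by
      have := pow_eq_one_of_mem_cl χ₀ hχ₀ 1 (z := y ^ p) (by rw [pow_one, map_pow, hy, hbp]) hz
      simpa using this
    have hzc : z ∈ cl y := cl_le (Subgroup.isClosed_topologicalClosure _)
      (Subgroup.pow_mem _ (self_mem_cl y) _) hz
    refine ⟨0, pow_eq_one_of_mem_cl χ hχ _ (z := y * z) ?_ (hmin _ ?_ ?_)⟩
    · simp [hzy]
    · exact Subgroup.mul_mem _ (self_mem_cl y) hzc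
    · rw [map_mul, hz0, mul_one, hy]

theorem exists_padic_comm (a : A) (ha : a ≠ 1) :
    ∃ (p : ℕ) (_ : Fact p.Prime) (ρ : ℤ_[p] → A), Continuous ρ ∧ ρ 0 = 1 ∧
      (∀ a b, ρ (a + b) = ρ a * ρ b) ∧ ρ 1 ≠ 1 := by
  obtain ⟨p, y, hp, hy, hint⟩ := exists_generator a ha
  have : Fact p.Prime := ⟨hp⟩
  let B : ℕ → Subgroup A := fun j => cl (y ^ p ^ j)
  have hBc : ∀ j, IsClosed (B j : Set A) := fun j => Subgroup.isClosed_topologicalClosure _
  have hBd : ∀ (j : ℕ) (n : ℤ), (p : ℤ) ^ j ∣ n → y ^ n ∈ B j := by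
    rintro j _ ⟨m, rfl⟩
    rw [zpow_mul]
    refine Subgroup.zpow_mem _ ?_ _
    rw [← Nat.cast_pow, zpow_natCast]
    exact self_mem_cl (y ^ p ^ j)
  have hBa : Antitone B := by
    intro i j hij
    refine cl_le (hBc i) ?_
    have := hBd i ((p : ℤ) ^ j) (pow_dvd_pow _ hij)
    rwa [← Nat.cast_pow, zpow_natCast] at this
  have hdvd : ∀ (j : ℕ) (n : ℤ), (n : ℤ_[p]) ∈ Ideal.span {(p : ℤ_[p]) ^ j} → (p : ℤ) ^ j ∣ n :=
    fun j n h => by
      rw [← PadicInt.norm_le_pow_iff_mem_span_pow] at h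
      exact PadicInt.norm_int_le_pow_iff_dvd.1 h
  have hex : ∀ x : ℤ_[p], ∃ z : A, ∀ j : ℕ, z * (y ^ (x.appr j : ℤ))⁻¹ ∈ B j := fun x => by
    have h1 := IsCompact.nonempty_iInter_of_sequence_nonempty_isCompact_isClosed
      (fun j : ℕ => {z : A | z * (y ^ (x.appr j : ℤ))⁻¹ ∈ B j}) (fun j z hz => ?_)
      (fun j => ⟨y ^ (x.appr j : ℤ), by simp⟩) (IsClosed.isCompact ((hBc 0).preimage (by fun_prop)))
      (fun j => (hBc j).preimage (by fun_prop))
    · obtain ⟨z, hz⟩ := h1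
      exact ⟨z, Set.mem_iInter.1 hz⟩
    · have h2 : y ^ ((x.appr (j + 1) : ℤ) - x.appr j) ∈ B j := by
        refine hBd _ _ (hdvd _ _ ?_)
        have e1 := x.appr_spec j
        have e2 : x - x.appr (j + 1) ∈ Ideal.span {(p : ℤ_[p]) ^ j} :=
          Ideal.span_singleton_le_span_singleton.2 (pow_dvd_pow _ j.le_succ) (x.appr_spec (j + 1))
        convert Ideal.sub_mem _ e1 e2 using 1
        push_cast
        ring
      have h3 := Subgroup.mul_mem _ (hBa j.le_succ hz) h2
      rw [zpow_sub, mul_assoc, inv_mul_cancel_left] at h3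
      exact h3
  choose ρ hρ using hex
  have key : ∀ (x : ℤ_[p]) (j : ℕ) (n : ℤ), x - n ∈ Ideal.span {(p : ℤ_[p]) ^ j} →
      ρ x * (y ^ n)⁻¹ ∈ B j := fun x j n h => by
    have h2 : y ^ ((x.appr j : ℤ) - n) ∈ B j := by
      refine hBd _ _ (hdvd _ _ ?_)
      convert Ideal.sub_mem _ h (x.appr_spec j) using 1
      push_cast
      ring
    have h3 := Subgroup.mul_mem _ (hρ x j) h2
    rw [zpow_sub, mul_assoc, inv_mul_cancel_left] at h3
    exact h3
  have hmul : ∀ x x', ρ (x + x') = ρ x * ρ x' := fun x x' => by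
    rw [← mul_inv_eq_one]
    refine hint _ fun j => ?_
    have h1 := key (x + x') j (x.appr j + x'.appr j) (by
      convert Ideal.add_mem _ (x.appr_spec j) (x'.appr_spec j) using 1
      push_cast
      ring)
    have h2 := Subgroup.mul_mem _ h1 (Subgroup.inv_mem _ (Subgroup.mul_mem _ (hρ x j) (hρ x' j)))
    convert h2 using 1
    rw [zpow_add]
    simp only [mul_inv, inv_inv, mul_assoc, mul_left_comm, mul_comm, mul_inv_cancel_left,
      inv_mul_cancel_left, mul_inv_cancel, mul_one]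
  refine ⟨p, this, ρ, ?_, ?_, hmul, ?_⟩
  · rw [continuous_iff_continuousAt]
    intro x
    rw [ContinuousAt, tendsto_def]
    intro V hV
    have hV1 : (fun z => z * ρ x) ⁻¹' V ∈ 𝓝 (1 : A) :=
      (continuous_mul_const (ρ x)).continuousAt.preimage_mem_nhds (by simpa using hV)
    obtain ⟨j, hj⟩ := exists_subset_nhds_of_compactSpace (V := fun j => (B j : Set A))
      (Antitone.directed_ge (f := fun j => (B j : Set A)) fun _ _ h => hBa h) hBc
      (U := (fun z => z * ρ x) ⁻¹' V) (by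
        intro z hz
        rwa [hint z (Set.mem_iInter.1 hz)])
    have hpos : (0 : ℝ) < (p : ℝ) ^ (-j : ℤ) := zpow_pos (by exact_mod_cast hp.pos) _
    filter_upwards [Metric.closedBall_mem_nhds x hpos] with x' hx'
    rw [Metric.mem_closedBall, dist_eq_norm, PadicInt.norm_le_pow_iff_mem_span_pow] at hx'
    have h1 := key (x' - x) j 0 (by simpa using hx')
    have h2 := hj h1
    have h3 : ρ x' = ρ (x' - x) * ρ x := by rw [← hmul, sub_add_cancel]
    simpa [h3] using h2
  · refine hint _ fun j => ?_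
    simpa using key 0 j 0 (by simp)
  · intro h
    apply hy
    rw [← inv_eq_one]
    refine hint _ fun j => ?_
    simpa [h] using key 1 j 1 (by simp)

end Crest.Agent.R217.PChar
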