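import Crest.Agent.R217.Beta0
import Crest.Agent.R217.PD

/-! # R217 / Scal : homeomorphisms multiply the fundamental class by a nonzero scalar -/

set_option autoImplicit false
open Set Topology Filter

namespace Crest.Agent.R217

variable {n : ℕ}

/-- `supp (pb g u) ∩ Ω ⊆ g.symm '' (supp u ∩ g '' Ω)` -/
theorem isCompact_supp_pb {E : Type*} [AddCommGroup E] [Module ℝ E]
    (g : OpenPartialHomeomorph (R n) (R n)) {Ω : Set (R n)} (hΩ : IsOpen Ω) (hs : Ω ⊆ g.source)
    {k : ℕ} {u : Co (R n) E} (hu : IsCompact (supp k u ∩ g '' Ω)) :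
    IsCompact (supp k (pb g u) ∩ Ω) := by
  have ht : supp k u ∩ g '' Ω ⊆ g.target := fun y hy => by
    obtain ⟨x, hx, rfl⟩ := hy.2
    exact g.map_source (hs hx)
  refine isCompact_supp_inter (K := g.symm '' (supp k u ∩ g '' Ω))
    (hu.image_of_continuousOn (g.continuousOn_symm.mono ht)) ?_ ?_
  · rintro _ ⟨_, ⟨-, x, hx, rfl⟩, rfl⟩
    rwa [g.left_inv (hs hx)]
  · rintro z ⟨hz, hzΩ⟩
    exact ⟨g z, ⟨supp_pb (g.continuousAt (hs hzΩ)) hz, z, hzΩ, rfl⟩, g.left_inv (hs hzΩ)⟩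

theorem conf_refl (Ω : Set (R n)) : Conf Ω Ω (OpenPartialHomeomorph.refl (R n)) 1 := by
  intro u _ _
  have : pb (OpenPartialHomeomorph.refl (R n)) u = u := by
    funext l; simp
  rw [this, one_mul]

/-- cut `u` to a global cocycle `u'` (`exists_cut`), use `lamO_mono`, `lamO_congr` -/
theorem Conf.mono (g : OpenPartialHomeomorph (R n) (R n)) {Ω Ω₁ : Set (R n)} (hΩ : IsOpen Ω)
    (hs : Ω ⊆ g.source) (h₁ : IsOpen Ω₁) (hsub : Ω₁ ⊆ Ω) {c : ℝ} (h : Conf Ω (g '' Ω) g c) :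
    Conf Ω₁ (g '' Ω₁) g c := by
  intro u hu hc
  have o1 : IsOpen (g '' Ω₁) := g.isOpen_image_of_subset_source h₁ (hsub.trans hs)
  have o2 : IsOpen (g '' Ω) := g.isOpen_image_of_subset_source hΩ hs
  obtain ⟨u', e1, e2, e3⟩ := exists_cut o1 hc
  have hu' : u' ∈ Zc (T1 (R n) ℝ) n univ := (e3 0).2 _ hu
  have hsub' : supp (n + 1) u' ⊆ g '' Ω₁ := e1 ▸ inter_subset_right
  have c1 : IsCompact (supp (n + 1) u' ∩ g '' Ω) := by
    rw [inter_eq_left.2 (hsub'.trans (image_mono hsub)), e1]; exact hc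
  have k1 : lamO (g '' Ω₁) u = lamO (g '' Ω) u' :=
    (lamO_congr e2).trans (lamO_mono o2 (image_mono hsub) c1 (inter_subset_left.trans hsub'))
  have k2 : lamO Ω₁ (pb g u) = lamO Ω (pb g u') := by
    have v : Van (n + 1) Ω₁ (pb g u - pb g u') := by
      rw [← map_sub]
      exact e2.pb h₁ (g.continuousOn.mono (hsub.trans hs)) (mapsTo_image _ _)
    refine (lamO_congr v).trans (lamO_mono hΩ hsub (isCompact_supp_pb g hΩ hs c1) ?_)
    rintro z ⟨hz, hzΩ⟩
    obtain ⟨x, hx, hxz⟩ := hsub' (supp_pb (g.continuousAt (hs hzΩ)) hz)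
    rwa [← g.injOn (hs (hsub hx)) (hs hzΩ) hxz]
  rw [k1, k2]
  exact h u' (Van.mono hu' (subset_univ _)) c1

/-- `μ u = lamO Ω (pb g u)` satisfies the hypotheses of `pd_surj` on `Ω' = g '' Ω` (`E = ℝ`,
`b = LinearMap.mul`, `p = 0`, `q = n`), so `μ u = lamO Ω' (cup mul T1 0 x u)` with `x` a `0`-cocycle, constant
`= c` on the preconnected `Ω'`.  `c ≠ 0`: (if `Ω = ∅` take `c = 1`) let `z' = g z`, `u = gen _ z'`
(support `{z'}`); if `lamO Ω (pb g u) = 0`, cut `pb g u` to a global cocycle supported in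
`{z} = Icc z z`, `lam_box` gives `w` supported in `{z}`, pull back by `g.symm`:
`u = δ (pb g.symm w)` on `Ω'`, so `lamO Ω' u = 0 ≠ 1`. -/
theorem exists_conf (g : OpenPartialHomeomorph (R n) (R n)) {Ω : Set (R n)} (hΩ : IsOpen Ω)
    (hc : IsPreconnected Ω) (hs : Ω ⊆ g.source) : ∃ c : ℝ, c ≠ 0 ∧ Conf Ω (g '' Ω) g c := by
  rcases Ω.eq_empty_or_nonempty with rfl | ⟨z, hz⟩
  · refine ⟨1, one_ne_zero, fun u _ _ => ?_⟩
    rw [lamO_van (fun _ h => h.elim), lamO_van (by simp [Van]), mul_zero]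
  have o2 : IsOpen (g '' Ω) := g.isOpen_image_of_subset_source hΩ hs
  have gc : ContinuousOn g Ω := g.continuousOn.mono hs
  have ht : g '' Ω ⊆ g.target := by
    rintro _ ⟨x, hx, rfl⟩
    exact g.map_source (hs hx)
  have him : g.symm '' (g '' Ω) = Ω := g.toPartialEquiv.symm_image_image_of_subset_source hs
  obtain ⟨x, hx, hμ⟩ := pd_surj (n := n) (E := ℝ) o2 (flat_T1 _) (b := LinearMap.mul ℝ ℝ)
    (fun e h => by simpa using h 1)
    (fun _ _ => ⟨univ, univ_mem, fun _ _ _ _ _ _ => rfl⟩) (p := 0) (q := n) (zero_add n) (lamO Ω ∘ₗ pb g)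
    (fun u hu => lamO_van (hu.pb hΩ gc (mapsTo_image _ _)))
    (fun w hw => by
      rw [LinearMap.comp_apply, pb_dT, pbT_T1]
      exact lamO_cob hΩ (isCompact_supp_pb g hΩ hs hw))
  obtain ⟨e, he⟩ := const_of_cocycle o2 (hc.image _ gc) hx
  have key : Conf Ω (g '' Ω) g e := fun u hu hcu => by
    have := hμ u hu hcu
    rw [LinearMap.comp_apply] at this
    rw [this, ← smul_eq_mul, ← map_smul]
    refine lamO_congr (van_of_forall o2 fun l hl hm => ?_)
    cases l with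
    | nil => simp at hl
    | cons y l => simp [cup_cons, T1, he y (hm y (by simp))]
  refine ⟨e, ?_, key⟩
  rintro rfl
  set u := gen (List.finRange n) (g z) with hu
  have hZ : u ∈ Zc (T1 (R n) ℝ) n univ := by
    have := gen_mem_Zc (List.finRange n) (g z)
    rwa [List.length_finRange] at this
  have hsu : supp (n + 1) u ⊆ {g z} := by
    have := supp_gen (List.finRange n) (g z)
    rw [List.length_finRange] at this
    intro y hy
    exact funext fun i => this hy i (List.mem_finRange i)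
  have cu : IsCompact (supp (n + 1) u) := ((finite_singleton _).subset hsu).isCompact
  have cu' : IsCompact (supp (n + 1) u ∩ g '' Ω) :=
    ((finite_singleton _).subset (inter_subset_left.trans hsu)).isCompact
  have h0 := key u (Van.mono hZ (subset_univ _)) cu'
  rw [zero_mul] at h0
  have c2 := isCompact_supp_pb g hΩ hs cu'
  obtain ⟨u', e1, e2, e3⟩ := exists_cut hΩ c2
  have hpZ : pb g u ∈ Zc (T1 (R n) ℝ) n Ω := by
    rw [mem_Zc, ← pbT_T1 g, ← pb_dT]
    exact Van.pb hΩ gc (mapsTo_univ _ _) hZ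
  have l0 : lam n u' = 0 := by
    rw [← lamO_eq (e1 ▸ c2) (e1 ▸ inter_subset_right) e2, h0]
  obtain ⟨w, hw, hw'⟩ := lam_box (le_refl z) ((e3 0).2 _ hpZ) (by
    rw [e1, Icc_self]
    rintro y ⟨hy, hyΩ⟩
    exact g.injOn (hs hyΩ) (hs hz) (hsu (supp_pb (g.continuousAt (hs hyΩ)) hy))) l0
  rw [Icc_self] at hw
  have v1 : Van (n + 1) Ω (pb g u - dT (T1 _ _) w) := e2.trans (hw'.mono (subset_univ _))
  have v2 := v1.pb (φ := g.symm) o2 (g.continuousOn_symm.mono ht) (mapsTo_iff_image_subset.2 him.subset)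
  rw [map_sub, pb_pb, pb_dT, pbT_T1] at v2
  have v3 : Van (n + 1) (g '' Ω) (u - pb (g ∘ g.symm) u) := by
    have := van_pb_congr (n + 1) (φ := id) (ψ := g ∘ g.symm) o2 (fun y hy => (g.right_inv (ht hy)).symm) u
    have e : pb (id : R n → R n) u = u := by funext l; simp
    rwa [e] at this
  have l1 : lamO (g '' Ω) u = 0 := by
    rw [lamO_congr (v3.trans v2)]
    refine lamO_cob o2 (isCompact_supp_pb g.symm o2 ht ?_)
    exact ((finite_singleton _).subset (inter_subset_left.trans hw)).isCompact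
  rw [lamO_eq cu (hsu.trans (singleton_subset_iff.2 (mem_image_of_mem g hz))) (fun y _ => by simp [supp_zero]),
    lam_gen_finRange] at l1
  exact one_ne_zero l1

end Crest.Agent.R217
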