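import Crest.Agent.R217.SgFlat

/-! # R217 / SgCoc : the cocycles of the surface package -/

set_option autoImplicit false
open Set Topology Filter

namespace Crest.Agent.R217

variable {n : ℕ} (E : Type*) [AddCommGroup E] [Module ℝ E]

theorem SgCoc.tauM_self (x : R (n + 3)) : tauM x x = 1 := by
  unfold tauM
  split_ifs
  · exact (gm_mul_gi x).2
  · rfl

theorem SgCoc.tauM_of_eq {x y : R (n + 3)} (h : gi x = gi y) : tauM x y = 1 := by
  unfold tauM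
  split_ifs
  · rw [h]; exact (gm_mul_gi y).2
  · rfl

theorem SgCoc.gi_a {x : R (n + 3)} (h : x 0 < 1 / 2) : gi x = 1 := by
  unfold gi; rw [if_pos h]

theorem SgCoc.gi_b {x : R (n + 3)} (h : 1 / 2 ≤ x 0) (h' : x 0 < 3 / 2) : gi x = mAi := by
  unfold gi; rw [if_neg (not_lt.2 h), if_pos h']

theorem SgCoc.gi_c {x : R (n + 3)} (h : 3 / 2 ≤ x 0) : gi x = mABi := by
  unfold gi; rw [if_neg (by linarith), if_neg (not_lt.2 h)]

theorem SgCoc.gm_a {x : R (n + 3)} (h : x 0 < 1 / 2) : gm x = 1 := by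
  unfold gm; rw [if_pos h]

theorem SgCoc.gm_b {x : R (n + 3)} (h : 1 / 2 ≤ x 0) (h' : x 0 < 3 / 2) : gm x = mA := by
  unfold gm; rw [if_neg (not_lt.2 h), if_pos h']

theorem SgCoc.gm_c {x : R (n + 3)} (h : 3 / 2 ≤ x 0) : gm x = mAB := by
  unfold gm; rw [if_neg (by linarith), if_neg (not_lt.2 h)]

theorem SgCoc.dk_pair (s : ℝ) (e : Fin 2 → E) (x y : R (n + 3)) :
    dT (tauS E n) (hm {x | s ≤ x 0} (cst _ _ e)) [x, y] =
      mt E (tauM x y * (if s ≤ y 0 then 1 else 0) - (if s ≤ x 0 then 1 else 0)) e := by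
  classical
  rw [dT_pair, hm_cons, hm_cons, mt_sub, mt_mul]
  simp only [tauS, SgCoc.tauM_self, mt_one, mem_ofPred_eq, cst_apply]
  split_ifs <;> simp [mt_one, mt_zero]

theorem SgCoc.open_lt (i : Fin (n + 3)) (a : ℝ) : IsOpen {x : R (n + 3) | x i < a} :=
  isOpen_lt (continuous_apply i) continuous_const

theorem SgCoc.open_gt (i : Fin (n + 3)) (a : ℝ) : IsOpen {x : R (n + 3) | a < x i} :=
  isOpen_lt continuous_const (continuous_apply i)

theorem SgCoc.supp_dk {s : ℝ} (hs : 3 / 2 ≤ s) (e : Fin 2 → E) :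
    supp 2 (dT (tauS E n) (hm {x | s ≤ x 0} (cst _ _ e))) ⊆ {x | x 0 = s} := by
  intro z hz
  by_contra h
  rcases lt_or_gt_of_ne h with h | h
  · refine van_of_forall (SgCoc.open_lt 0 s) (fun l h1 h2 => ?_) z h hz
    obtain ⟨x, y, rfl⟩ := List.length_eq_two.1 h1
    have hx : x 0 < s := h2 x (by simp)
    have hy : y 0 < s := h2 y (by simp)
    rw [SgCoc.dk_pair, if_neg (not_le.2 hx), if_neg (not_le.2 hy), mul_zero, sub_zero, mt_zero]
    rfl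
  · refine van_of_forall (SgCoc.open_gt 0 s) (fun l h1 h2 => ?_) z h hz
    obtain ⟨x, y, rfl⟩ := List.length_eq_two.1 h1
    have hx : s < x 0 := h2 x (by simp)
    have hy : s < y 0 := h2 y (by simp)
    rw [SgCoc.dk_pair, if_pos hx.le, if_pos hy.le, SgCoc.tauM_of_eq
      ((SgCoc.gi_c (by linarith)).trans (SgCoc.gi_c (by linarith)).symm), mul_one, sub_self, mt_zero]
    rfl

theorem SgCoc.yC_apply (s : ℝ) (e : Fin 2 → E) : yC E n s e =
    hm {x | 1 / 2 < x 1} (dT (tauS E n) (hm {x | s ≤ x 0} (cst _ _ e))) := rfl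

theorem SgCoc.xiC_apply (D : Set (R (n + 3))) (e : Fin 2 → E) : xiC E n D e =
    yC E n (3 / 2) e - dT (tauS E n) (hm D (fC E n e)) -
      hm D (yC E n (3 / 2) e - dT (tauS E n) (fC E n e)) := rfl

theorem SgCoc.fC_apply (e : Fin 2 → E) :
    fC E n e = gau (fun x => mt E (FM x)) (cst _ _ e) := rfl

/-- on lists `[x, y]` near a point off the wall: either both `x 0, y 0 < s` (`k = 0`), or both `> s ≥ 3/2`
(`tauM x y = 1`, `k` constant), or `x 1 ≤ 1/2` -/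
theorem supp_yC {s : ℝ} (hs : 3 / 2 ≤ s) (e : Fin 2 → E) :
    supp 2 (yC E n s e) ⊆ {x | x 0 = s ∧ 1 / 2 ≤ x 1} := by
  intro z hz
  rw [SgCoc.yC_apply] at hz
  obtain ⟨h1, h2⟩ := supp_hm _ _ _ hz
  exact ⟨SgCoc.supp_dk E hs e h1,
    closure_lt_subset_le continuous_const (continuous_apply (1 : Fin (n + 3))) h2⟩

/-- `supp_dT_hm`, `Flat.dT_dT`; `dT (hm {s ≤ x 0} cst)` is supported on `x 0 = s` (near the line
`x 1 = 1/2`, where `tauM = 1`) -/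
theorem yC_mem_Zc {s : ℝ} (hs : 3 / 2 ≤ s) (e : Fin 2 → E) :
    yC E n s e ∈ Zc (tauS E n) 1 ({x | dP x < 1 / 2} \ {x | x 0 = s ∧ x 1 = 1 / 2}) := by
  rw [mem_Zc, SgCoc.yC_apply]
  intro z hz hz'
  have hy : dT (tauS E n) (hm {x | s ≤ x 0} (cst _ _ e)) ∈ Zc (tauS E n) 1 {x | dP x < 1 / 2} :=
    (flat_tauS E).dT_dT _ _
  obtain ⟨h1, h2⟩ := supp_dT_hm_cocycle hy {x | 1 / 2 < x 1} ⟨hz', hz.1⟩
  exact hz.2 ⟨SgCoc.supp_dk E hs e h2,
    (frontier_lt_subset_eq continuous_const (continuous_apply (1 : Fin (n + 3))) h1).symm⟩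

theorem yC_mem_Zc' (e : Fin 2 → E) :
    yC E n (3 / 2) e ∈ Zc (tauS E n) 1 {x | dP x < 1 / 2} := by
  have := yC_mem_Zc (n := n) E (le_refl (3 / 2 : ℝ)) e
  rw [mem_Zc] at this ⊢
  refine this.mono fun z hz => ⟨hz, fun h => ?_⟩
  have h0 : z 0 = 3 / 2 := h.1
  rcases dP_half_cases hz h.2 with h' | h' | h' <;> rw [h0, abs_lt] at h' <;> linarith [h'.1, h'.2]

/-- the matrix identity behind `y = δ f` -/
def SgCoc.P (x y : R (n + 3)) : Prop :=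
  (if 1 / 2 < x 1 then tauM x y * (if 3 / 2 ≤ y 0 then 1 else 0) - (if 3 / 2 ≤ x 0 then 1 else 0)
    else 0) = tauM x y * FM y - FM x

theorem SgCoc.P_of_const {x y : R (n + 3)} (h1 : tauM x y = 1) (h2 : FM x = FM y)
    (h3 : 1 / 2 < x 1 → (3 / 2 ≤ y 0 ↔ 3 / 2 ≤ x 0)) : SgCoc.P x y := by
  unfold SgCoc.P
  rw [h1, h2, one_mul, one_mul, sub_self]
  by_cases h : 1 / 2 < x 1
  · rw [if_pos h]
    by_cases h' : 3 / 2 ≤ x 0
    · rw [if_pos h', if_pos ((h3 h).2 h'), sub_self]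
    · rw [if_neg h', if_neg (fun k => h' ((h3 h).1 k)), sub_self]
  · rw [if_neg h]

theorem SgCoc.P_of_top {x y : R (n + 3)} (hx : 1 / 2 < x 1) (hy : 1 / 2 < y 1)
    (h : gm y * (FM y - if 3 / 2 ≤ y 0 then 1 else 0) =
      gm x * (FM x - if 3 / 2 ≤ x 0 then 1 else 0)) : SgCoc.P x y := by
  unfold SgCoc.P tauM
  rw [if_pos hx, if_pos ⟨hx, hy⟩]
  have h2 := congrArg (fun M => gi x * M) h
  simp only [← mul_assoc, (gm_mul_gi x).2, one_mul] at h2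
  rw [mul_sub] at h2
  rw [sub_eq_sub_iff_sub_eq_sub, ← neg_sub, h2, neg_sub]

theorem SgCoc.FM_1 {x : R (n + 3)} (h : 0 < x 1 ∧ x 1 < 1 ∧ 0 < x 0 ∧ x 0 < 1) : FM x = 0 := by
  unfold FM reg; rw [if_pos h]

theorem SgCoc.FM_2 {x : R (n + 3)} (h : 0 < x 1 ∧ x 1 < 1 ∧ 1 < x 0 ∧ x 0 < 2) : FM x = mF2 := by
  unfold FM reg
  rw [if_neg (fun k => by linarith [k.2.2.2, h.2.2.1]), if_pos h]

theorem SgCoc.FM_3' {x : R (n + 3)} (h : 1 < x 1) (h1 : 1 / 2 ≤ x 0) (h2 : x 0 < 3 / 2) :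
    FM x = mF3' := by
  unfold FM reg
  rw [if_neg (fun k => by linarith [k.2.1]), if_neg (fun k => by linarith [k.2.1]),
    if_pos ⟨by linarith, h1, h2⟩]

theorem SgCoc.FM_3 {x : R (n + 3)} (h : (1 < x 1 ∧ x 0 < 1 / 2) ∨ (1 < x 1 ∧ 3 / 2 ≤ x 0) ∨
    x 1 < 0 ∨ x 0 < 0 ∨ 2 < x 0) : FM x = mF3 := by
  unfold FM reg
  rw [if_neg, if_neg, if_neg] <;> rintro ⟨k1, k2, k3⟩ <;>
    rcases h with ⟨h, h'⟩ | ⟨h, h'⟩ | h | h | h <;>
    linarith

theorem SgCoc.hole2 {x : R (n + 3)} (h : 0 < x 1 ∧ x 1 < 1 ∧ 1 < x 0 ∧ x 0 < 2) :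
    gm x * (FM x - if 3 / 2 ≤ x 0 then 1 else 0) = mA * mF2 := by
  rw [SgCoc.FM_2 h]
  by_cases h' : 3 / 2 ≤ x 0
  · rw [if_pos h', SgCoc.gm_c h']
    ext i j; fin_cases i <;> fin_cases j <;>
      norm_num [mA, mAB, mF2, Matrix.mul_apply, Fin.sum_univ_two, Matrix.one_apply]
  · rw [if_neg h', SgCoc.gm_b (by linarith [h.2.2.1]) (not_le.1 h'), sub_zero]

theorem SgCoc.top {x : R (n + 3)} (h : 1 < x 1) :
    gm x * (FM x - if 3 / 2 ≤ x 0 then 1 else 0) = mF3 := by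
  by_cases h' : 3 / 2 ≤ x 0
  · rw [if_pos h', SgCoc.gm_c h', SgCoc.FM_3 (Or.inr (Or.inl ⟨h, h'⟩))]
    ext i j; fin_cases i <;> fin_cases j <;>
      norm_num [mAB, mF3, Matrix.mul_apply, Fin.sum_univ_two, Matrix.one_apply]
  · rw [if_neg h', sub_zero]
    rcases lt_or_ge (x 0) (1 / 2) with h'' | h''
    · rw [SgCoc.gm_a h'', SgCoc.FM_3 (Or.inl ⟨h, h''⟩), one_mul]
    · rw [SgCoc.gm_b h'' (not_le.1 h'), SgCoc.FM_3' h h'' (not_le.1 h')]
      ext i j; fin_cases i <;> fin_cases j <;>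
        norm_num [mA, mF3, mF3', Matrix.mul_apply, Fin.sum_univ_two]

theorem SgCoc.tauM_low {x y : R (n + 3)} (h : x 1 < 1 / 2) : tauM x y = 1 := by
  unfold tauM
  rw [if_neg (fun k => by linarith [k.1])]

theorem SgCoc.P_loc {z : R (n + 3)} (h0 : 0 < dP z) (hz : dP z < 1 / 2) :
    ∃ W ∈ 𝓝 z, ∀ x ∈ W, ∀ y ∈ W, SgCoc.P x y := by
  have lt := fun (i : Fin (n + 3)) (a : ℝ) (h : z i < a) => (SgCoc.open_lt i a).mem_nhds h
  have gt := fun (i : Fin (n + 3)) (a : ℝ) (h : a < z i) => (SgCoc.open_gt i a).mem_nhds h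
  rcases dP_pos_cases h0 with h | h | h | h | h | h
  · refine ⟨_, inter_mem (gt 1 0 h.1) (inter_mem (lt 1 1 h.2.1) (inter_mem (gt 0 0 h.2.2.1)
      (lt 0 1 h.2.2.2))), fun x hx y hy => ?_⟩
    have hx' : 0 < x 1 ∧ x 1 < 1 ∧ 0 < x 0 ∧ x 0 < 1 := hx
    have hy' : 0 < y 1 ∧ y 1 < 1 ∧ 0 < y 0 ∧ y 0 < 1 := hy
    unfold SgCoc.P
    rw [SgCoc.FM_1 hx', SgCoc.FM_1 hy', if_neg (show ¬ 3 / 2 ≤ y 0 by linarith [hy'.2.2.2]),
      if_neg (show ¬ 3 / 2 ≤ x 0 by linarith [hx'.2.2.2]), mul_zero, sub_zero, ite_self]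
  · have hW : {x : R (n + 3) | 0 < x 1 ∧ x 1 < 1 ∧ 1 < x 0 ∧ x 0 < 2} ∈ 𝓝 z :=
      inter_mem (gt 1 0 h.1) (inter_mem (lt 1 1 h.2.1) (inter_mem (gt 0 1 h.2.2.1)
        (lt 0 2 h.2.2.2)))
    rcases lt_trichotomy (z 1) (1 / 2) with h1 | h1 | h1
    · refine ⟨_, inter_mem hW (lt 1 _ h1), fun x hx y hy => ?_⟩
      have hx2 : x 1 < 1 / 2 := hx.2
      exact SgCoc.P_of_const (SgCoc.tauM_low hx2) ((SgCoc.FM_2 hx.1).trans (SgCoc.FM_2 hy.1).symm)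
        fun k => by linarith
    · have h2 : z 0 < 3 / 2 ∨ 3 / 2 < z 0 := by
        rcases dP_half_cases hz h1 with k | k | k <;> rw [abs_lt] at k
        · left; linarith [k.2]
        · left; linarith [k.2]
        · right; linarith [k.1]
      rcases h2 with h2 | h2
      · refine ⟨_, inter_mem hW (lt 0 _ h2), fun x hx y hy => ?_⟩
        have hx2 : x 0 < 3 / 2 := hx.2
        have hy2 : y 0 < 3 / 2 := hy.2
        exact SgCoc.P_of_const (SgCoc.tauM_of_eq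
          ((SgCoc.gi_b (by linarith [hx.1.2.2.1]) hx2).trans
            (SgCoc.gi_b (by linarith [hy.1.2.2.1]) hy2).symm))
          ((SgCoc.FM_2 hx.1).trans (SgCoc.FM_2 hy.1).symm)
          fun _ => ⟨fun k => by linarith, fun k => by linarith⟩
      · refine ⟨_, inter_mem hW (gt 0 _ h2), fun x hx y hy => ?_⟩
        have hx2 : 3 / 2 < x 0 := hx.2
        have hy2 : 3 / 2 < y 0 := hy.2
        exact SgCoc.P_of_const (SgCoc.tauM_of_eq
          ((SgCoc.gi_c hx2.le).trans (SgCoc.gi_c hy2.le).symm))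
          ((SgCoc.FM_2 hx.1).trans (SgCoc.FM_2 hy.1).symm)
          fun _ => ⟨fun _ => hx2.le, fun _ => hy2.le⟩
    · refine ⟨_, inter_mem hW (gt 1 _ h1), fun x hx y hy => ?_⟩
      exact SgCoc.P_of_top hx.2 hy.2 ((SgCoc.hole2 hy.1).trans (SgCoc.hole2 hx.1).symm)
  · refine ⟨_, gt 1 _ h, fun x hx y hy => ?_⟩
    have hx' : 1 < x 1 := hx
    have hy' : 1 < y 1 := hy
    exact SgCoc.P_of_top (by linarith) (by linarith) ((SgCoc.top hy').trans (SgCoc.top hx').symm)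
  · refine ⟨_, lt 1 _ h, fun x hx y hy => ?_⟩
    have hx' : x 1 < 0 := hx
    have hy' : y 1 < 0 := hy
    exact SgCoc.P_of_const (SgCoc.tauM_low (by linarith))
      ((SgCoc.FM_3 (by tauto)).trans (SgCoc.FM_3 (by tauto)).symm) fun k => by linarith
  · refine ⟨_, lt 0 _ h, fun x hx y hy => ?_⟩
    have hx' : x 0 < 0 := hx
    have hy' : y 0 < 0 := hy
    exact SgCoc.P_of_const (SgCoc.tauM_of_eq
      ((SgCoc.gi_a (by linarith)).trans (SgCoc.gi_a (by linarith)).symm))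
      ((SgCoc.FM_3 (by tauto)).trans (SgCoc.FM_3 (by tauto)).symm)
      fun _ => ⟨fun k => by linarith, fun k => by linarith⟩
  · refine ⟨_, gt 0 _ h, fun x hx y hy => ?_⟩
    have hx' : 2 < x 0 := hx
    have hy' : 2 < y 0 := hy
    exact SgCoc.P_of_const (SgCoc.tauM_of_eq
      ((SgCoc.gi_c (by linarith)).trans (SgCoc.gi_c (by linarith)).symm))
      ((SgCoc.FM_3 (by tauto)).trans (SgCoc.FM_3 (by tauto)).symm)
      fun _ => ⟨fun _ => by linarith, fun _ => by linarith⟩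

/-- `y = δ f` on the walls: check on pairs `[x, y]` (`dT_pair`), region by region -/
theorem yC_sub_dT_fC (e : Fin 2 → E) :
    Van 2 {x : R (n + 3) | 0 < dP x ∧ dP x < 1 / 2} (yC E n (3 / 2) e - dT (tauS E n) (fC E n e)) := by
  classical
  intro z hz
  obtain ⟨W, hW, h⟩ := SgCoc.P_loc hz.1 hz.2
  refine not_mem_supp.2 ⟨W, hW, fun l h1 h2 => ?_⟩
  obtain ⟨x, y, rfl⟩ := List.length_eq_two.1 h1
  have hP := congrArg (fun M => mt E M e) (h x (h2 x (by simp)) y (h2 y (by simp)))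
  rw [Pi.sub_apply, SgCoc.yC_apply, hm_cons, SgCoc.dk_pair, dT_pair, SgCoc.fC_apply, sub_eq_zero]
  simp only [gau_cons, cst_apply, tauS, SgCoc.tauM_self, mt_one, LinearMap.id_apply, mem_ofPred_eq]
  rw [mt_sub E (tauM x y * FM y), mt_mul E (tauM x y) (FM y)] at hP
  simp only [LinearMap.sub_apply, LinearMap.comp_apply] at hP
  rw [← hP]
  split_ifs <;> simp [mt_zero]

theorem SgCoc.van_of_eq {F : Type*} [Zero F] {k : ℕ} {U : Set (R (n + 3))}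
    {f g : Co (R (n + 3)) F} (h : Van k U f) (e : f = g) : Van k U g := e ▸ h

theorem xiC_van (D : Set (R (n + 3))) (e : Fin 2 → E) : Van 2 (interior D) (xiC E n D e) := by
  have h1 := van_sub_hm 1 D (yC E n (3 / 2) e)
  have h2 : Van 2 (interior D)
      (dT (tauS E n) (hm D (fC E n e)) - hm D (dT (tauS E n) (fC E n e))) := fun z hz h =>
    (supp_dT_hm 0 (tauS E n) D (fC E n e) h).1.2 hz
  have := h1.sub h2
  rw [SgCoc.xiC_apply, map_sub]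
  exact SgCoc.van_of_eq this (by abel)

theorem SgCoc.van_hm (k : ℕ) (D : Set (R (n + 3))) (f : Co (R (n + 3)) E) :
    Van k (interior Dᶜ) (hm D f) := fun z hz h => by
  rw [interior_compl] at hz
  exact hz (supp_hm k D f h).2

theorem xiC_sub_yC (D : Set (R (n + 3))) (e : Fin 2 → E) :
    Van 2 (interior Dᶜ) (xiC E n D e - yC E n (3 / 2) e) := by
  have h1 := ((SgCoc.van_hm _ 1 D (fC E n e)).dT (tauS E n)).neg.sub
    (SgCoc.van_hm _ 2 D (yC E n (3 / 2) e - dT (tauS E n) (fC E n e)))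
  rw [SgCoc.xiC_apply]
  exact SgCoc.van_of_eq h1 (by abel)

theorem xiC_sub (D : Set (R (n + 3))) (e : Fin 2 → E) :
    Van 2 (interior Dᶜ ∪ {x | 0 < dP x ∧ dP x < 1 / 2})
      (xiC E n D e - (yC E n (3 / 2) e - dT (tauS E n) (hm D (fC E n e)))) := by
  have h1 : Van 2 (interior Dᶜ ∪ {x | 0 < dP x ∧ dP x < 1 / 2})
      (hm D (yC E n (3 / 2) e - dT (tauS E n) (fC E n e))) :=
    (SgCoc.van_hm _ 2 D _).union fun z hz h => yC_sub_dT_fC E e z hz (supp_hm 2 D _ h).1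
  rw [SgCoc.xiC_apply]
  exact SgCoc.van_of_eq h1.neg (by abel)

theorem xiC_wall (D : Set (R (n + 3))) (e : Fin 2 → E) :
    Van 2 {x | 0 < dP x ∧ dP x < 1 / 2} (xiC E n D e - dT (tauS E n) (hm Dᶜ (fC E n e))) := by
  have h1 := (xiC_sub E D e).mono subset_union_right
  have h2 := (van_hm_compl 0 D {x | 0 < dP x ∧ dP x < 1 / 2} (fC E n e)).dT (tauS E n)
  have h3 := (h1.add h2).add (yC_sub_dT_fC E e)
  rw [map_sub, map_add] at h3
  exact SgCoc.van_of_eq h3 (by abel)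

theorem SgCoc.xP_apply (e : Fin 2 → E) :
    xP E n e = gau (fun x => mt E (gP x)) (xiC E n {x | x 2 ≤ 0} e) := rfl

theorem SgCoc.xN_apply (e : Fin 2 → E) :
    xN E n e = gau (fun x => mt E (gN x)) (xiC E n {x | 0 < x 2} e) := rfl

theorem supp_xP (e : Fin 2 → E) : supp 2 (xP E n e) ⊆ {x | 0 ≤ x 2} := by
  intro z hz
  by_contra h
  refine xiC_van E {x | x 2 ≤ 0} e z ?_ (supp_gau _ _ _ hz)
  have h' : z 2 < 0 := not_le.1 h
  exact mem_interior.2 ⟨{x | x 2 < 0}, fun x (hx : x 2 < 0) => hx.le, SgCoc.open_lt 2 0, h'⟩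

theorem supp_xN (e : Fin 2 → E) : supp 2 (xN E n e) ⊆ {x | x 2 ≤ 0} := by
  intro z hz
  by_contra h
  refine xiC_van E {x | 0 < x 2} e z ?_ (supp_gau _ _ _ hz)
  have h' : 0 < z 2 := not_le.1 h
  exact mem_interior.2 ⟨_, subset_rfl, SgCoc.open_gt 2 0, h'⟩

theorem SgCoc.dT_xiC (D : Set (R (n + 3))) (e : Fin 2 → E) {z : R (n + 3)} (hz : dP z < 1 / 2)
    (h : z ∈ interior Dᶜ ∨ 0 < dP z) : z ∉ supp 3 (dT (tauS E n) (xiC E n D e)) := by
  rcases h with h | h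
  · have h1 := ((xiC_sub_yC E D e).dT (tauS E n)).mono (singleton_subset_iff.2 h)
    have h2 := (mem_Zc.1 (yC_mem_Zc' (n := n) E e)).mono (singleton_subset_iff.2 hz)
    have h3 := h1.add h2
    rw [map_sub, sub_add_cancel] at h3
    exact h3 z rfl
  · have h1 := ((xiC_wall E D e).dT (tauS E n)).mono (singleton_subset_iff.2 ⟨h, hz⟩)
    have h2 := ((flat_tauS (n := n) E).dT_dT 3 (hm Dᶜ (fC E n e))).mono (singleton_subset_iff.2 hz)
    have h3 := h1.add h2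
    rw [map_sub, sub_add_cancel] at h3
    exact h3 z rfl

theorem SgCoc.dT_gau {U : Set (R (n + 3))} {a : R (n + 3) → (Fin 2 → E) →ₗ[ℝ] (Fin 2 → E)}
    (ha : Inter U a (tauS E n) (TS E n)) {f : Co (R (n + 3)) (Fin 2 → E)} {z : R (n + 3)}
    (hz : z ∈ U) (h : z ∉ supp 3 (dT (tauS E n) f)) : z ∉ supp 3 (dT (TS E n) (gau a f)) := by
  intro h'
  rw [← sub_add_cancel (dT (TS E n) (gau a f)) (gau a (dT (tauS E n) f))] at h'
  rcases supp_add _ _ _ h' with k | k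
  · exact ha.van 3 f z hz k
  · exact h (supp_gau _ _ _ k)

theorem xP_mem_Zc (e : Fin 2 → E) : xP E n e ∈ Zc (TS E n) 1 (OmS n) := by
  rw [mem_Zc]
  intro z hz
  by_cases h : z ∈ UP n
  · refine SgCoc.dT_gau E (inter_gP E) h (SgCoc.dT_xiC E _ e h.1 (h.2.imp_left fun k => ?_))
    exact mem_interior.2 ⟨{x | 0 < x 2}, fun x (hx : 0 < x 2) (h2 : x 2 ≤ 0) => not_le.2 hx h2,
      SgCoc.open_gt 2 0, k⟩
  · have h' := (OmS_subset hz).resolve_left h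
    have h2 : z 2 < 0 := h'.2.resolve_right fun k => h ⟨h'.1, Or.inr k⟩
    exact fun k => not_le.2 h2 (supp_xP E e (supp_dT 2 _ _ k))

theorem xN_mem_Zc (e : Fin 2 → E) : xN E n e ∈ Zc (TS E n) 1 (OmS n) := by
  rw [mem_Zc]
  intro z hz
  by_cases h : z ∈ UN n
  · refine SgCoc.dT_gau E (inter_gN E) h (SgCoc.dT_xiC E _ e h.1 (h.2.imp_left fun k => ?_))
    exact mem_interior.2 ⟨{x | x 2 < 0}, fun x (hx : x 2 < 0) (h2 : 0 < x 2) => lt_asymm hx h2,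
      SgCoc.open_lt 2 0, k⟩
  · have h' := (OmS_subset hz).resolve_right h
    have h2 : 0 < z 2 := h'.2.resolve_right fun k => h ⟨h'.1, Or.inr k⟩
    exact fun k => not_le.2 h2 (supp_xN E e (supp_dT 2 _ _ k))

theorem xs_mem_Zc (i : Fin 4) : xs n i ∈ Zc (TS ℝ n) 1 (OmS n) := by
  fin_cases i
  · exact xP_mem_Zc ℝ _
  · exact xP_mem_Zc ℝ _
  · exact xN_mem_Zc ℝ _
  · exact xN_mem_Zc ℝ _

theorem SgCoc.mu_mt (A : M2) (e : E) :
    mt E A ∘ₗ (muS E).flip e = (muS E).flip e ∘ₗ mt ℝ A :=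
  LinearMap.ext fun v => mt_muS E A v e

theorem SgCoc.mu_gau (a : R (n + 3) → M2) (e : E) (f : Co (R (n + 3)) (Fin 2 → ℝ)) :
    gau (fun _ => (muS E).flip e) (gau (fun x => mt ℝ (a x)) f) =
      gau (fun x => mt E (a x)) (gau (fun _ => (muS E).flip e) f) := by
  rw [gau_gau, gau_gau]
  simp only [SgCoc.mu_mt]

theorem SgCoc.mu_dT (e : E) (f : Co (R (n + 3)) (Fin 2 → ℝ)) :
    gau (fun _ => (muS E).flip e) (dT (tauS ℝ n) f) =
      dT (tauS E n) (gau (fun _ => (muS E).flip e) f) :=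
  (dT_gau_const _ _ _ (fun _ _ => SgCoc.mu_mt E _ e) f).symm

theorem SgCoc.gau_mu_cst (a : R (n + 3) → (Fin 2 → E) →ₗ[ℝ] (Fin 2 → E)) (v : Fin 2 → ℝ) (e : E) :
    gau a (gau (fun _ => (muS E).flip e) (cst _ (R (n + 3)) v)) = gau a (cst _ _ (muS E v e)) := by
  funext l
  cases l <;> rfl

theorem SgCoc.mu_yC (s : ℝ) (v : Fin 2 → ℝ) (e : E) :
    gau (fun _ => (muS E).flip e) (yC ℝ n s v) = yC E n s (muS E v e) := by
  rw [SgCoc.yC_apply, SgCoc.yC_apply, ← hm_gau, SgCoc.mu_dT, ← hm_gau]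
  exact congrArg _ (congrArg _ (SgCoc.gau_mu_cst E _ v e))

theorem SgCoc.mu_fC (v : Fin 2 → ℝ) (e : E) :
    gau (fun _ => (muS E).flip e) (fC ℝ n v) = fC E n (muS E v e) := by
  rw [SgCoc.fC_apply, SgCoc.fC_apply, SgCoc.mu_gau, SgCoc.gau_mu_cst]

theorem SgCoc.mu_xiC (D : Set (R (n + 3))) (v : Fin 2 → ℝ) (e : E) :
    gau (fun _ => (muS E).flip e) (xiC ℝ n D v) = xiC E n D (muS E v e) := by
  rw [SgCoc.xiC_apply, SgCoc.xiC_apply, map_sub, map_sub, ← hm_gau, map_sub (gau _), SgCoc.mu_dT,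
    SgCoc.mu_dT, ← hm_gau, SgCoc.mu_yC, SgCoc.mu_fC]

/-- naturality in the coefficients (`dT_gau_const`, `gau_gau`, `hm_gau`, `mt_muS`) -/
theorem gau_muS_xP (v : Fin 2 → ℝ) (e : E) :
    gau (fun _ => (muS E).flip e) (xP ℝ n v) = xP E n (muS E v e) := by
  rw [SgCoc.xP_apply, SgCoc.xP_apply, SgCoc.mu_gau, SgCoc.mu_xiC]

theorem gau_muS_xN (v : Fin 2 → ℝ) (e : E) :
    gau (fun _ => (muS E).flip e) (xN ℝ n v) = xN E n (muS E v e) := by
  rw [SgCoc.xN_apply, SgCoc.xN_apply, SgCoc.mu_gau, SgCoc.mu_xiC]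

end Crest.Agent.R217
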