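import Crest.Agent.R217.Beta0

/-! # R217 / SgDefs : the genus two surface package (definitions only)

Coordinates of `x : R (n+3)`: `x 0, x 1` planar, `x 2 = t`, `tl x` the remaining ones.
`Γ` is the planar graph "8" made of the segments `[0,2]×{0,1}` and `{0,1,2}×[0,1]`; `dP` is the sup
distance to `Γ` in the plane, `hh = max |t| dP`; the levels `hh = c` (`0 < c < 1/2`) are genus two
surfaces (times `ℝⁿ`).  `tauM` is the planar flat `SL₂(ℝ)`-connection with walls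
`{x 0 = 1/2, x 1 > 1/2}` (matrix `A`), `{x 0 = 3/2, x 1 > 1/2}` (matrix `B`) -- a Fuchsian pair of
pants; `TM` is its "double" across `t = 0` glued with the reflections `RM`. -/

set_option autoImplicit false
open Set Topology Filter

namespace Crest.Agent.R217

abbrev M2 := Matrix (Fin 2) (Fin 2) ℝ

noncomputable def mA : M2 := !![2, 0; 0, 1 / 2]
noncomputable def mAi : M2 := !![1 / 2, 0; 0, 2]
noncomputable def mB : M2 := !![-5 / 2, 9 / 2; -3, 5]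
noncomputable def mAB : M2 := !![-5, 9; -3 / 2, 5 / 2]
noncomputable def mABi : M2 := !![5 / 2, -9; 3 / 2, -5]
noncomputable def mR0 : M2 := !![1, 0; 0, -1]
noncomputable def mR2 : M2 := !![-5, 6; -4, 5]
noncomputable def mR3 : M2 := !![-5, 12; -2, 5]
noncomputable def mR3' : M2 := !![-5, 3; -8, 5]
noncomputable def mF2 : M2 := !![-7, 9; -6, 8]
noncomputable def mF3 : M2 := !![4 / 3, -2; 1 / 3, -1 / 3]
noncomputable def mF3' : M2 := !![2 / 3, -1; 2 / 3, -2 / 3]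

variable {n : ℕ}

/-- the remaining coordinates -/
def tl (x : R (n + 3)) : R n := fun i => x i.succ.succ.succ

noncomputable def dI (s a b : ℝ) : ℝ := max (max (a - s) (s - b)) 0
noncomputable def dH (x : R (n + 3)) : ℝ := max (dI (x 0) 0 2) (min |x 1| |x 1 - 1|)
noncomputable def dV (x : R (n + 3)) : ℝ :=
  max (min (min |x 0| |x 0 - 1|) |x 0 - 2|) (dI (x 1) 0 1)
noncomputable def dP (x : R (n + 3)) : ℝ := min (dH x) (dV x)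
noncomputable def hh (x : R (n + 3)) : ℝ := max |x 2| (dP x)

noncomputable def gm (x : R (n + 3)) : M2 :=
  if x 0 < 1 / 2 then 1 else if x 0 < 3 / 2 then mA else mAB
noncomputable def gi (x : R (n + 3)) : M2 :=
  if x 0 < 1 / 2 then 1 else if x 0 < 3 / 2 then mAi else mABi
noncomputable def tauM (x y : R (n + 3)) : M2 :=
  if 1 / 2 < x 1 ∧ 1 / 2 < y 1 then gi x * gm y else 1

/-- a function of the region: hole 1, hole 2, outside top middle, outside -/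
noncomputable def reg (x : R (n + 3)) (M₁ M₂ M₃' M₃ : M2) : M2 :=
  if 0 < x 1 ∧ x 1 < 1 ∧ 0 < x 0 ∧ x 0 < 1 then M₁
  else if 0 < x 1 ∧ x 1 < 1 ∧ 1 < x 0 ∧ x 0 < 2 then M₂
  else if 1 / 2 < x 1 ∧ 1 / 2 ≤ x 0 ∧ x 0 < 3 / 2 then M₃' else M₃

noncomputable def RM (x : R (n + 3)) : M2 := reg x mR0 mR2 mR3' mR3
noncomputable def FM (x : R (n + 3)) : M2 := reg x 0 mF2 mF3' mF3

noncomputable def TM (x y : R (n + 3)) : M2 :=
  if 0 < x 2 then (if 0 < y 2 then tauM x y else tauM x y * RM y * mR0)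
  else (if 0 < y 2 then mR0 * RM x * tauM x y else mR0 * tauM x y * mR0)

noncomputable def gP (x : R (n + 3)) : M2 := if 0 < x 2 then 1 else mR0 * RM x
noncomputable def gPi (x : R (n + 3)) : M2 := if 0 < x 2 then 1 else RM x * mR0
noncomputable def gN (x : R (n + 3)) : M2 := if 0 < x 2 then RM x else mR0

variable (E : Type*) [AddCommGroup E] [Module ℝ E]

/-- a real matrix acting on `E²` -/
def mt (A : M2) : (Fin 2 → E) →ₗ[ℝ] (Fin 2 → E) where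
  toFun w i := ∑ j, A i j • w j
  map_add' w w' := by funext i; simp [Finset.sum_add_distrib]
  map_smul' c w := by funext i; simp [smul_smul, mul_comm]

noncomputable def tauS (n : ℕ) : Tw (R (n + 3)) (Fin 2 → E) := fun x y => mt E (tauM x y)
noncomputable def TS (n : ℕ) : Tw (R (n + 3)) (Fin 2 → E) := fun x y => mt E (TM x y)

/-- constant cochain -/
def cst (X : Type*) : E →ₗ[ℝ] Co X E := LinearMap.pi fun _ => LinearMap.id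

@[simp] theorem cst_apply (X : Type*) (e : E) (l : List X) : cst E X e l = e := rfl

noncomputable def fC (n : ℕ) : (Fin 2 → E) →ₗ[ℝ] Co (R (n + 3)) (Fin 2 → E) :=
  gau (fun x => mt E (FM x)) ∘ₗ cst _ _
/-- the wall class: supported on `{x 0 = s, x 1 ≥ 1/2}` (used for `s = 3/2` and `s = 13/8`) -/
noncomputable def yC (n : ℕ) (s : ℝ) : (Fin 2 → E) →ₗ[ℝ] Co (R (n + 3)) (Fin 2 → E) :=
  hm {x | 1 / 2 < x 1} ∘ₗ dT (tauS E n) ∘ₗ hm {x | s ≤ x 0} ∘ₗ cst _ _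
/-- `y - δ(1_D f) - 1_D (y - δ f)`: vanishes on the interior of `D` -/
noncomputable def xiC (n : ℕ) (D : Set (R (n + 3))) :
    (Fin 2 → E) →ₗ[ℝ] Co (R (n + 3)) (Fin 2 → E) :=
  yC E n (3 / 2) - dT (tauS E n) ∘ₗ hm D ∘ₗ fC E n -
    hm D ∘ₗ (yC E n (3 / 2) - dT (tauS E n) ∘ₗ fC E n)
noncomputable def xP (n : ℕ) : (Fin 2 → E) →ₗ[ℝ] Co (R (n + 3)) (Fin 2 → E) :=
  gau (fun x => mt E (gP x)) ∘ₗ xiC E n {x | x 2 ≤ 0}
noncomputable def xN (n : ℕ) : (Fin 2 → E) →ₗ[ℝ] Co (R (n + 3)) (Fin 2 → E) :=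
  gau (fun x => mt E (gN x)) ∘ₗ xiC E n {x | 0 < x 2}

/-- `ℝ² ⊗ E → E²` -/
def muS : (Fin 2 → ℝ) →ₗ[ℝ] E →ₗ[ℝ] (Fin 2 → E) :=
  LinearMap.mk₂ ℝ (fun v e i => v i • e) (by intros; funext; simp [add_smul])
    (by intros; funext; simp [smul_smul]) (by intros; funext; simp)
    (by intros; funext; simp [smul_smul, mul_comm])

variable {E}

/-- `ω ⊗ b` on `E²` -/
def bS (b : E →ₗ[ℝ] E →ₗ[ℝ] ℝ) : (Fin 2 → E) →ₗ[ℝ] (Fin 2 → E) →ₗ[ℝ] ℝ :=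
  b.compl₁₂ (LinearMap.proj 0) (LinearMap.proj 1) - b.compl₁₂ (LinearMap.proj 1) (LinearMap.proj 0)

theorem bS_apply (b : E →ₗ[ℝ] E →ₗ[ℝ] ℝ) (w w' : Fin 2 → E) :
    bS b w w' = b (w 0) (w' 1) - b (w 1) (w' 0) := rfl

/-- the symplectic form on `ℝ²` -/
noncomputable def om : (Fin 2 → ℝ) →ₗ[ℝ] (Fin 2 → ℝ) →ₗ[ℝ] ℝ := bS (LinearMap.mul ℝ ℝ)

def OmS (n : ℕ) : Set (R (n + 3)) := {x | 0 < hh x ∧ hh x < 1 / 2}
def UP (n : ℕ) : Set (R (n + 3)) := {x | dP x < 1 / 2 ∧ (0 < x 2 ∨ 0 < dP x)}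
def UN (n : ℕ) : Set (R (n + 3)) := {x | dP x < 1 / 2 ∧ (x 2 < 0 ∨ 0 < dP x)}
def Shell (c d : ℝ) (Q : Set (R n)) : Set (R (n + 3)) := {x | c < hh x ∧ hh x < d ∧ tl x ∈ Q}
def Slab (d j₁ j₂ : ℝ) (Q : Set (R n)) : Set (R (n + 3)) :=
  {x | dP x < d ∧ x 2 ∈ Ioo j₁ j₂ ∧ tl x ∈ Q}
def Wall (c d j₁ j₂ : ℝ) (Q : Set (R n)) : Set (R (n + 3)) :=
  {x | c < dP x ∧ dP x < d ∧ x 2 ∈ Ioo j₁ j₂ ∧ tl x ∈ Q}
def BQ (a₀ b₀ a₁ b₁ j₁ j₂ : ℝ) (Q : Set (R n)) : Set (R (n + 3)) :=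
  {x | x 0 ∈ Ioo a₀ b₀ ∧ x 1 ∈ Ioo a₁ b₁ ∧ x 2 ∈ Ioo j₁ j₂ ∧ tl x ∈ Q}
/-- a rectangular frame -/
def Frame (p₀ p₁ p₂ p₃ q₀ q₁ q₂ q₃ j₁ j₂ : ℝ) (Q : Set (R n)) : Set (R (n + 3)) :=
  BQ p₀ p₃ q₂ q₃ j₁ j₂ Q ∪
    (BQ p₀ p₃ q₀ q₁ j₁ j₂ Q ∪ BQ p₀ p₁ q₀ q₃ j₁ j₂ Q ∪ BQ p₂ p₃ q₀ q₃ j₁ j₂ Q)

/-- the four classes -/
noncomputable def xs (n : ℕ) : Fin 4 → Co (R (n + 3)) (Fin 2 → ℝ) :=
  ![xP ℝ n ![1, 0], xP ℝ n ![25, 19], xN ℝ n ![1, 0], xN ℝ n ![25, 19]]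

/-- the test class of degree `n + 1`, supported on `{hh = 1/4, tl = 0}` -/
noncomputable def VC (n : ℕ) : Co (R (n + 3)) ℝ :=
  dT (T1 _ _) (hm {x | 1 / 4 < hh x} (gen ((List.finRange n).map fun i => i.succ.succ.succ) 0))

/-- `⟨x ∪ v ∪ x', [OmS]⟩` -/
noncomputable def Gam (n : ℕ) (v : Co (R (n + 3)) ℝ) (x x' : Co (R (n + 3)) (Fin 2 → ℝ)) : ℝ :=
  lamO (OmS n) (cup om (TS ℝ n) 1 x (cup (LinearMap.lsmul ℝ _) (TS ℝ n) (n + 1) v x'))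

/-- the projection `ℝ^(n+3) → ℝ^(n+1)` -/
noncomputable def piS (ρ : ℝ) (x : R (n + 3)) : R (n + 1) :=
  Fin.cons (4 * ρ * (hh x - 1 / 4)) (tl x)

/-- the tensor product connection -/
noncomputable def TT (ρ : ℝ) (T : Tw (R (n + 1)) E) : Tw (R (n + 3)) (Fin 2 → E) :=
  fun x y => mt E (TM x y) ∘ₗ (T (piS ρ x) (piS ρ y)).compLeft (Fin 2)

/-- cross product of a surface class with a class downstairs -/
noncomputable def crs (ρ : ℝ) (T : Tw (R (n + 1)) E) (x : Co (R (n + 3)) (Fin 2 → ℝ)) :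
    Co (R (n + 1)) E →ₗ[ℝ] Co (R (n + 3)) (Fin 2 → E) :=
  cup (muS E) (pbT (piS ρ) T) 1 x ∘ₗ pb (piS ρ)

/-- the Leray–Hirsch map -/
noncomputable def PhiS (ρ : ℝ) (T : Tw (R (n + 1)) E) :
    (Fin 4 → Co (R (n + 1)) E) →ₗ[ℝ] Co (R (n + 3)) (Fin 2 → E) :=
  ∑ i, crs ρ T (xs n i) ∘ₗ LinearMap.proj i

end Crest.Agent.R217
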