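import Crest.Agent.R217.SgGeo
import Crest.Agent.R217.Cup

/-! # R217 / SgFlat : flatness, gauges and cocycles of the surface package

Matrix facts (check with `ext i j; fin_cases i <;> fin_cases j <;> norm_num [..., Matrix.mul_apply,
Fin.sum_univ_two]`): `mA*mB = mAB`, `mA*mAi = 1`, `mAB*mABi = 1`, `R*R = 1` for the four reflections,
`mR0*mA = mA*mR0`, `mR2*mB = mB*mR2`, `mR3*mA = mA*mR3'`, `mR3'*mB = mB*mR3`,
`mB*mF2 - mF2 = mB`, `mB*mF3 - mF3' = mB`, `mA*mF3' = mF3`; `det = 1` for `gm, gi`, `-1` for `R`. -/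

set_option autoImplicit false
open Set Topology Filter

namespace Crest.Agent.R217

variable {n : ℕ} (E : Type*) [AddCommGroup E] [Module ℝ E]

namespace SgFlat

/-- closes identities between products of the explicit matrices -/
macro "mat_calc" : tactic => `(tactic|
  (ext i j; fin_cases i <;> fin_cases j <;>
    norm_num [mA, mAi, mB, mAB, mABi, mR0, mR2, mR3, mR3', Matrix.mul_apply, Fin.sum_univ_two]))

theorem mA_mAi : mA * mAi = 1 := by mat_calc
theorem mAi_mA : mAi * mA = 1 := by mat_calc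
theorem mAB_mABi : mAB * mABi = 1 := by mat_calc
theorem mABi_mAB : mABi * mAB = 1 := by mat_calc
theorem mR0_sq : mR0 * mR0 = 1 := by mat_calc
theorem mR2_sq : mR2 * mR2 = 1 := by mat_calc
theorem mR3_sq : mR3 * mR3 = 1 := by mat_calc
theorem mR3'_sq : mR3' * mR3' = 1 := by mat_calc

theorem det_gm (x : R (n + 3)) : (gm x).det = 1 := by
  unfold gm
  split_ifs <;> norm_num [mA, mAB, Matrix.det_fin_two]

theorem det_gi (x : R (n + 3)) : (gi x).det = 1 := by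
  unfold gi
  split_ifs <;> norm_num [mAi, mABi, Matrix.det_fin_two]

theorem det_mR0 : mR0.det = -1 := by norm_num [mR0, Matrix.det_fin_two]

theorem det_RM (x : R (n + 3)) : (RM x).det = -1 := by
  unfold RM reg
  split_ifs <;> norm_num [mR0, mR2, mR3, mR3', Matrix.det_fin_two]

theorem mt_apply (A : M2) (w : Fin 2 → E) (i : Fin 2) : mt E A w i = ∑ j, A i j • w j := rfl

theorem nhds_lt {z : R (n + 3)} {i : Fin (n + 3)} {a : ℝ} (h : z i < a) :
    {x : R (n + 3) | x i < a} ∈ 𝓝 z :=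
  (isOpen_lt (continuous_apply i) continuous_const).mem_nhds h

theorem nhds_gt {z : R (n + 3)} {i : Fin (n + 3)} {a : ℝ} (h : a < z i) :
    {x : R (n + 3) | a < x i} ∈ 𝓝 z :=
  (isOpen_lt continuous_const (continuous_apply i)).mem_nhds h

theorem tauM_left {x y : R (n + 3)} (hx : x 0 < 1 / 2) (hy : y 0 < 1 / 2) : tauM x y = 1 := by
  unfold tauM gi gm
  rw [if_pos hx, if_pos hy]
  split_ifs <;> simp

theorem tauM_mid {x y : R (n + 3)} (hx : 1 / 2 < x 0) (hx' : x 0 < 3 / 2) (hy : 1 / 2 < y 0)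
    (hy' : y 0 < 3 / 2) : tauM x y = 1 := by
  unfold tauM gi gm
  rw [if_neg hx.not_gt, if_neg hy.not_gt, if_pos hx', if_pos hy', mAi_mA]
  split_ifs <;> rfl

theorem tauM_right {x y : R (n + 3)} (hx : 3 / 2 < x 0) (hy : 3 / 2 < y 0) : tauM x y = 1 := by
  unfold tauM gi gm
  rw [if_neg (by linarith : ¬ x 0 < 1 / 2), if_neg (by linarith : ¬ y 0 < 1 / 2),
    if_neg hx.not_gt, if_neg hy.not_gt, mABi_mAB]
  split_ifs <;> rfl

theorem tauM_low {x y : R (n + 3)} (hx : x 1 < 1 / 2) : tauM x y = 1 := by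
  unfold tauM
  rw [if_neg fun h => hx.not_gt h.1]

theorem tauM_high {x y : R (n + 3)} (hx : 1 / 2 < x 1) (hy : 1 / 2 < y 1) :
    tauM x y = gi x * gm y := by
  unfold tauM
  rw [if_pos ⟨hx, hy⟩]

theorem flat_of_one {z : R (n + 3)} {W : Set (R (n + 3))} (hW : W ∈ 𝓝 z)
    (h : ∀ x ∈ W, ∀ y ∈ W, tauM x y = 1) : ∃ W ∈ 𝓝 z, (∀ x ∈ W, tauM x x = 1) ∧
    ∀ x ∈ W, ∀ y ∈ W, ∀ w ∈ W, tauM x y * tauM y w = tauM x w :=
  ⟨W, hW, fun x hx => h x hx x hx, fun x hx y hy w hw => by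
    rw [h x hx y hy, h y hy w hw, h x hx w hw, mul_one]⟩

theorem RM_hole1 {x : R (n + 3)} (h : 0 < x 1 ∧ x 1 < 1 ∧ 0 < x 0 ∧ x 0 < 1) : RM x = mR0 := by
  unfold RM reg
  rw [if_pos h]

theorem RM_hole2 {x : R (n + 3)} (h : 0 < x 1 ∧ x 1 < 1 ∧ 1 < x 0 ∧ x 0 < 2) : RM x = mR2 := by
  unfold RM reg
  rw [if_neg (fun h' => by linarith [h'.2.2.2, h.2.2.1]), if_pos h]

theorem RM_out {x : R (n + 3)} (h : x 1 < 0 ∨ x 0 < 0 ∨ 2 < x 0) : RM x = mR3 := by
  unfold RM reg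
  rw [if_neg, if_neg, if_neg]
  · rintro ⟨h1, h2, h3⟩
    rcases h with h | h | h <;> linarith
  · rintro ⟨h1, h2, h3, h4⟩
    rcases h with h | h | h <;> linarith
  · rintro ⟨h1, h2, h3, h4⟩
    rcases h with h | h | h <;> linarith

theorem RM_top {x : R (n + 3)} (h : 1 < x 1) : RM x * gi x = gi x * mR3 ∧
    mR3 * gm x = gm x * RM x := by
  unfold RM reg gi gm
  rw [if_neg (fun h' => by linarith [h'.2.1]), if_neg (fun h' => by linarith [h'.2.1])]
  by_cases h1 : x 0 < 1 / 2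
  · rw [if_neg (fun h' => by linarith [h'.2.1]), if_pos h1, if_pos h1]
    simp
  · by_cases h2 : x 0 < 3 / 2
    · rw [if_pos ⟨by linarith, not_lt.1 h1, h2⟩, if_neg h1, if_neg h1, if_pos h2, if_pos h2]
      constructor <;> mat_calc
    · rw [if_neg (fun h' => h2 h'.2.2), if_neg h1, if_neg h1, if_neg h2, if_neg h2]
      constructor <;> mat_calc

end SgFlat

open SgFlat

theorem mt_one : mt E 1 = LinearMap.id := by
  refine LinearMap.ext fun w => funext fun i => ?_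
  rw [mt_apply]
  simp [Matrix.one_apply]

theorem mt_mul (A B : M2) : mt E (A * B) = mt E A ∘ₗ mt E B := by
  refine LinearMap.ext fun w => funext fun i => ?_
  simp only [LinearMap.comp_apply, mt_apply, Matrix.mul_apply, Fin.sum_univ_two, smul_add,
    smul_smul, add_smul]
  abel

theorem mt_sub (A B : M2) : mt E (A - B) = mt E A - mt E B := by
  refine LinearMap.ext fun w => funext fun i => ?_
  simp only [LinearMap.sub_apply, Pi.sub_apply, mt_apply, Matrix.sub_apply, Fin.sum_univ_two,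
    sub_smul]
  abel

theorem mt_zero : mt E 0 = 0 := by
  refine LinearMap.ext fun w => funext fun i => ?_
  simp [mt_apply]

theorem mt_muS (A : M2) (v : Fin 2 → ℝ) (e : E) : mt E A (muS E v e) = muS E (mt ℝ A v) e := by
  funext i
  simp [mt_apply, muS, add_smul, smul_smul]

theorem bS_mt {E : Type*} [AddCommGroup E] [Module ℝ E] (b : E →ₗ[ℝ] E →ₗ[ℝ] ℝ) (A : M2)
    (w w' : Fin 2 → E) : bS b (mt E A w) (mt E A w') = A.det * bS b w w' := by
  simp only [bS_apply, mt_apply, Fin.sum_univ_two, map_add, map_smul, LinearMap.add_apply,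
    LinearMap.smul_apply, smul_eq_mul, Matrix.det_fin_two]
  ring

theorem mt_bijective {A : M2} (h : A.det ≠ 0) : Function.Bijective (mt E A) := by
  have hu : IsUnit A.det := isUnit_iff_ne_zero.2 h
  refine Function.bijective_iff_has_inverse.2 ⟨mt E A⁻¹, fun w => ?_, fun w => ?_⟩
  · rw [← LinearMap.comp_apply, ← mt_mul, Matrix.nonsing_inv_mul _ hu, mt_one]; rfl
  · rw [← LinearMap.comp_apply, ← mt_mul, Matrix.mul_nonsing_inv _ hu, mt_one]; rfl

theorem gm_mul_gi (x : R (n + 3)) : gm x * gi x = 1 ∧ gi x * gm x = 1 := by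
  unfold gm gi
  split_ifs
  · simp
  · exact ⟨mA_mAi, mAi_mA⟩
  · exact ⟨mAB_mABi, mABi_mAB⟩

theorem RM_mul_self (x : R (n + 3)) : RM x * RM x = 1 := by
  unfold RM reg
  split_ifs
  exacts [mR0_sq, mR2_sq, mR3'_sq, mR3_sq]

theorem det_tauM (x y : R (n + 3)) : (tauM x y).det = 1 := by
  unfold tauM
  split_ifs
  · rw [Matrix.det_mul, det_gi, det_gm, mul_one]
  · exact Matrix.det_one

theorem det_TM (x y : R (n + 3)) : (TM x y).det = 1 := by
  unfold TM
  split_ifs <;> simp [Matrix.det_mul, det_tauM, det_RM, det_mR0]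

theorem det_gP (x : R (n + 3)) : (gP x).det = 1 := by
  unfold gP
  split_ifs <;> simp [Matrix.det_mul, det_RM, det_mR0]

theorem det_gN (x : R (n + 3)) : (gN x).det = -1 := by
  unfold gN
  split_ifs <;> simp [det_RM, det_mR0]

theorem gP_mul_gPi (x : R (n + 3)) : gP x * gPi x = 1 ∧ gPi x * gP x = 1 := by
  unfold gP gPi
  split_ifs
  · simp
  · constructor
    · rw [mul_assoc, ← mul_assoc (RM x), RM_mul_self, one_mul, mR0_sq]
    · rw [mul_assoc, ← mul_assoc mR0, mR0_sq, one_mul, RM_mul_self]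

theorem gN_mul_self (x : R (n + 3)) : gN x * gN x = 1 := by
  unfold gN
  split_ifs
  exacts [RM_mul_self x, mR0_sq]

/-- matrix form of flatness of `tauM`: cases `z 1 > 1/2`, `< 1/2`, `= 1/2` (`dP_half_cases`: then
`gm`, `gi` are constant near `z`) -/
theorem tauM_flat {z : R (n + 3)} (hz : dP z < 1 / 2) : ∃ W ∈ 𝓝 z, (∀ x ∈ W, tauM x x = 1) ∧
    ∀ x ∈ W, ∀ y ∈ W, ∀ w ∈ W, tauM x y * tauM y w = tauM x w := by
  rcases lt_trichotomy (z 1) (1 / 2) with h | h | h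
  · exact flat_of_one (nhds_lt h) fun x hx y _ => tauM_low hx
  · rcases dP_half_cases hz h with h0 | h0 | h0 <;> rw [abs_lt] at h0
    · exact flat_of_one (nhds_lt h0.2) fun x hx y hy => tauM_left hx hy
    · exact flat_of_one (inter_mem (nhds_gt (by linarith [h0.1] : 1 / 2 < z 0))
        (nhds_lt (by linarith [h0.2] : z 0 < 3 / 2))) fun x hx y hy => tauM_mid hx.1 hx.2 hy.1 hy.2
    · exact flat_of_one (nhds_gt (by linarith [h0.1] : 3 / 2 < z 0))
        fun x hx y hy => tauM_right hx hy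
  · refine ⟨_, nhds_gt h, fun x hx => ?_, fun x hx y hy w hw => ?_⟩
    · rw [tauM_high hx hx, (gm_mul_gi x).2]
    · rw [tauM_high hx hy, tauM_high hy hw, tauM_high hx hw, mul_assoc, ← mul_assoc (gm y),
        (gm_mul_gi y).1, one_mul]

/-- `RM` is parallel on the walls (`dP_pos_cases`) -/
theorem RM_parallel {z : R (n + 3)} (h0 : 0 < dP z) (hz : dP z < 1 / 2) :
    ∃ W ∈ 𝓝 z, ∀ x ∈ W, ∀ y ∈ W, RM x * tauM x y = tauM x y * RM y := by
  rcases dP_pos_cases h0 with h | h | h | h | h | h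
  · refine ⟨_, inter_mem (inter_mem (nhds_gt h.1) (nhds_lt h.2.1))
      (inter_mem (nhds_gt h.2.2.1) (nhds_lt h.2.2.2)), fun x hx y hy => ?_⟩
    have hx3 : x 0 < 3 / 2 := by linarith [show x 0 < 1 from hx.2.2]
    have hy3 : y 0 < 3 / 2 := by linarith [show y 0 < 1 from hy.2.2]
    rw [RM_hole1 ⟨hx.1.1, hx.1.2, hx.2.1, hx.2.2⟩, RM_hole1 ⟨hy.1.1, hy.1.2, hy.2.1, hy.2.2⟩]
    unfold tauM gi gm
    rw [if_pos hx3, if_pos hy3]
    split_ifs <;> mat_calc
  · refine ⟨_, inter_mem (inter_mem (nhds_gt h.1) (nhds_lt h.2.1))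
      (inter_mem (nhds_gt h.2.2.1) (nhds_lt h.2.2.2)), fun x hx y hy => ?_⟩
    have hx3 : ¬ x 0 < 1 / 2 := by linarith [show 1 < x 0 from hx.2.1]
    have hy3 : ¬ y 0 < 1 / 2 := by linarith [show 1 < y 0 from hy.2.1]
    rw [RM_hole2 ⟨hx.1.1, hx.1.2, hx.2.1, hx.2.2⟩, RM_hole2 ⟨hy.1.1, hy.1.2, hy.2.1, hy.2.2⟩]
    unfold tauM gi gm
    rw [if_neg hx3, if_neg hy3]
    split_ifs <;> mat_calc
  · refine ⟨_, nhds_gt h, fun x hx y hy => ?_⟩
    have hx1 : 1 < x 1 := hx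
    have hy1 : 1 < y 1 := hy
    rw [tauM_high (by linarith) (by linarith), ← mul_assoc, (RM_top hx1).1, mul_assoc,
      (RM_top hy1).2, mul_assoc]
  · refine ⟨_, nhds_lt h, fun x hx y hy => ?_⟩
    have hx1 : x 1 < 0 := hx
    rw [tauM_low (by linarith), RM_out (Or.inl hx), RM_out (Or.inl hy), mul_one, one_mul]
  · refine ⟨_, nhds_lt h, fun x hx y hy => ?_⟩
    have hx1 : x 0 < 0 := hx
    have hy1 : y 0 < 0 := hy
    rw [tauM_left (by linarith) (by linarith), RM_out (Or.inr (Or.inl hx)),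
      RM_out (Or.inr (Or.inl hy)), mul_one, one_mul]
  · refine ⟨_, nhds_gt h, fun x hx y hy => ?_⟩
    have hx1 : 2 < x 0 := hx
    have hy1 : 2 < y 0 := hy
    rw [tauM_right (by linarith) (by linarith), RM_out (Or.inr (Or.inr hx)),
      RM_out (Or.inr (Or.inr hy)), mul_one, one_mul]

theorem TM_gP {z : R (n + 3)} (hz : z ∈ UP n) :
    ∃ W ∈ 𝓝 z, ∀ x ∈ W, ∀ y ∈ W, TM x y * gP y = gP x * tauM x y := by
  obtain ⟨hz, h | h⟩ := hz
  · refine ⟨_, nhds_gt h, fun x hx y hy => ?_⟩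
    have hx' : 0 < x 2 := hx
    have hy' : 0 < y 2 := hy
    unfold TM gP
    rw [if_pos hx', if_pos hy', if_pos hx', if_pos hy', mul_one, one_mul]
  · obtain ⟨W, hW, hp⟩ := RM_parallel h hz
    refine ⟨W, hW, fun x hx y hy => ?_⟩
    have e := hp x hx y hy
    unfold TM gP
    split_ifs
    · rw [mul_one, one_mul]
    · rw [one_mul, mul_assoc, ← mul_assoc mR0, mR0_sq, one_mul, mul_assoc, RM_mul_self, mul_one]
    · rw [mul_one]
    · rw [mul_assoc, ← mul_assoc mR0 mR0, mR0_sq, one_mul, mul_assoc, ← e, mul_assoc]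

theorem TM_gN {z : R (n + 3)} (hz : z ∈ UN n) :
    ∃ W ∈ 𝓝 z, ∀ x ∈ W, ∀ y ∈ W, TM x y * gN y = gN x * tauM x y := by
  obtain ⟨hz, h | h⟩ := hz
  · refine ⟨_, nhds_lt h, fun x hx y hy => ?_⟩
    have hx' : ¬ 0 < x 2 := (show x 2 < 0 from hx).not_gt
    have hy' : ¬ 0 < y 2 := (show y 2 < 0 from hy).not_gt
    unfold TM gN
    rw [if_neg hx', if_neg hy', if_neg hx', if_neg hy', mul_assoc, mR0_sq, mul_one]
  · obtain ⟨W, hW, hp⟩ := RM_parallel h hz
    refine ⟨W, hW, fun x hx y hy => ?_⟩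
    have e := hp x hx y hy
    unfold TM gN
    split_ifs
    · exact e.symm
    · rw [mul_assoc, mR0_sq, mul_one, e]
    · rw [mul_assoc, ← e, mul_assoc, ← mul_assoc (RM x), RM_mul_self, one_mul]
    · rw [mul_assoc, mR0_sq, mul_one]

theorem TM_flat {z : R (n + 3)} (hz : z ∈ OmS n) : ∃ W ∈ 𝓝 z, (∀ x ∈ W, TM x x = 1) ∧
    ∀ x ∈ W, ∀ y ∈ W, ∀ w ∈ W, TM x y * TM y w = TM x w := by
  have key : ∀ g g' : R (n + 3) → M2, (∀ x, g x * g' x = 1 ∧ g' x * g x = 1) → dP z < 1 / 2 →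
      (∃ W ∈ 𝓝 z, ∀ x ∈ W, ∀ y ∈ W, TM x y * g y = g x * tauM x y) →
      ∃ W ∈ 𝓝 z, (∀ x ∈ W, TM x x = 1) ∧
        ∀ x ∈ W, ∀ y ∈ W, ∀ w ∈ W, TM x y * TM y w = TM x w := by
    rintro g g' hg hd ⟨W, hW, h⟩
    obtain ⟨W', hW', h1, h2⟩ := tauM_flat hd
    have e : ∀ x ∈ W, ∀ y ∈ W, TM x y = g x * tauM x y * g' y := fun x hx y hy => by
      rw [← h x hx y hy, mul_assoc, (hg y).1, mul_one]
    refine ⟨W ∩ W', inter_mem hW hW', fun x hx => ?_, fun x hx y hy w hw => ?_⟩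
    · rw [e x hx.1 x hx.1, h1 x hx.2, mul_one, (hg x).1]
    · rw [e x hx.1 y hy.1, e y hy.1 w hw.1, e x hx.1 w hw.1, ← h2 x hx.2 y hy.2 w hw.2]
      simp only [mul_assoc]
      rw [← mul_assoc (g' y), (hg y).2, one_mul]
  rcases OmS_subset hz with h | h
  · exact key gP gPi gP_mul_gPi h.1 (TM_gP h)
  · exact key gN gN (fun x => ⟨gN_mul_self x, gN_mul_self x⟩) h.1 (TM_gN h)

theorem flat_tauS : Flat {x : R (n + 3) | dP x < 1 / 2} (tauS E n) := by
  intro z hz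
  obtain ⟨W, hW, h1, h2⟩ := tauM_flat (z := z) hz
  refine ⟨W, hW, fun x hx => ?_, fun x hx y hy w hw => ?_⟩
  · simp only [tauS]; rw [h1 x hx, mt_one]
  · simp only [tauS]; rw [← mt_mul, h2 x hx y hy w hw]

theorem flat_TS : Flat (OmS n) (TS E n) := by
  intro z hz
  obtain ⟨W, hW, h1, h2⟩ := TM_flat (z := z) hz
  refine ⟨W, hW, fun x hx => ?_, fun x hx y hy w hw => ?_⟩
  · simp only [TS]; rw [h1 x hx, mt_one]
  · simp only [TS]; rw [← mt_mul, h2 x hx y hy w hw]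

theorem inter_gP : Inter (UP n) (fun x => mt E (gP x)) (tauS E n) (TS E n) := by
  intro z hz
  obtain ⟨W, hW, h⟩ := TM_gP hz
  refine ⟨W, hW, fun x hx y hy => ?_⟩
  simp only [TS, tauS]
  rw [← mt_mul, ← mt_mul, h x hx y hy]

theorem inter_gPi : Inter (UP n) (fun x => mt E (gPi x)) (TS E n) (tauS E n) := by
  intro z hz
  obtain ⟨W, hW, h⟩ := TM_gP hz
  refine ⟨W, hW, fun x hx y hy => ?_⟩
  simp only [TS, tauS]
  rw [← mt_mul, ← mt_mul]
  congr 1
  calc tauM x y * gPi y = gPi x * (gP x * tauM x y) * gPi y := by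
        rw [← mul_assoc (gPi x), (gP_mul_gPi x).2, one_mul]
    _ = gPi x * TM x y := by
        rw [← h x hx y hy, mul_assoc, mul_assoc, (gP_mul_gPi y).1, mul_one]

theorem inter_gN : Inter (UN n) (fun x => mt E (gN x)) (tauS E n) (TS E n) := by
  intro z hz
  obtain ⟨W, hW, h⟩ := TM_gN hz
  refine ⟨W, hW, fun x hx y hy => ?_⟩
  simp only [TS, tauS]
  rw [← mt_mul, ← mt_mul, h x hx y hy]

theorem inter_gNi : Inter (UN n) (fun x => mt E (gN x)) (TS E n) (tauS E n) := by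
  intro z hz
  obtain ⟨W, hW, h⟩ := TM_gN hz
  refine ⟨W, hW, fun x hx y hy => ?_⟩
  simp only [TS, tauS]
  rw [← mt_mul, ← mt_mul]
  congr 1
  calc tauM x y * gN y = gN x * (gN x * tauM x y) * gN y := by
        rw [← mul_assoc (gN x), gN_mul_self x, one_mul]
    _ = gN x * TM x y := by
        rw [← h x hx y hy, mul_assoc, mul_assoc, gN_mul_self y, mul_one]

end Crest.Agent.R217
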