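import Crest.Agent.R217.SgGram1

/-! # R217 / SgGram : the intersection form of the surface classes is definite -/

set_option autoImplicit false
open Set Topology Filter

namespace Crest.Agent.R217

variable {n : ℕ}

namespace Gram

abbrev E2 := Fin 2 → ℝ

theorem om_mt (A : M2) (e e' : E2) : om (mt ℝ A e) (mt ℝ A e') = A.det * om e e' := bS_mt _ A e e'

theorem compat_om_tau (U : Set (R (n + 3))) : Compat U om (tauS ℝ n) (tauS ℝ n) (T1 _ _) :=
  fun _ _ => ⟨univ, univ_mem, fun x _ y _ e e' => by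
    simp only [T1, LinearMap.id_apply, tauS]
    rw [om_mt, det_tauM, one_mul]⟩

theorem compat_om_TS (U : Set (R (n + 3))) : Compat U om (TS ℝ n) (TS ℝ n) (T1 _ _) :=
  fun _ _ => ⟨univ, univ_mem, fun x _ y _ e e' => by
    simp only [T1, LinearMap.id_apply, TS]
    rw [om_mt, det_TM, one_mul]⟩

/-- the triple product -/
noncomputable def Tr (T : Tw (R (n + 3)) E2) (x y : Co (R (n + 3)) E2) : Co (R (n + 3)) ℝ :=
  cup om T 1 x (cup (LinearMap.lsmul ℝ _) T (n + 1) (VC n) y)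

def Lev (n : ℕ) : Set (R (n + 3)) := {x | hh x = 1 / 4 ∧ tl x = 0}

theorem supp_Tr (T : Tw (R (n + 3)) E2) (x y : Co (R (n + 3)) E2) :
    supp (n + 3 + 1) (Tr T x y) ⊆ supp 2 x ∩ (Lev n ∩ supp 2 y) := fun z hz =>
  have h1 := supp_cup' (p := 1) (q := n + 2) _ _ (by omega) _ _ hz
  have h2 := supp_cup' (p := n + 1) (q := 1) _ _ (by omega) _ _ h1.2
  ⟨h1.1, supp_VC h2.1, h2.2⟩

theorem Tr_cob {O K : Set (R (n + 3))} (hO : IsOpen O) {T : Tw (R (n + 3)) E2} (hT : Flat O T)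
    (hom : Compat O om T T (T1 _ _)) {x y y' g : Co (R (n + 3)) E2} (hx : x ∈ Zc T 1 O)
    (hy : Van 2 O (y - y' - dT T g)) (hK : IsCompact K) (hKO : K ⊆ O)
    (hs : supp 2 x ∩ (Lev n ∩ supp 1 g) ∩ O ⊆ K) : lamO O (Tr T x y) = lamO O (Tr T x y') := by
  obtain ⟨w, hw, hv⟩ := triple_last (p := 1) (q := n + 1) (r := 0) (k := n + 3) hT (flat_T1 O) hT hT
    hom (compat_lsmul O T) (by omega) hx (Zc_mono VC_mem_Zc (subset_univ O)) g
  refine lamO_eq_of_cob (w := w) hO (isCompact_supp_inter hK hKO fun z hz => hs ?_) ?_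
  · have := hw hz.1
    exact ⟨⟨this.1, supp_VC this.2.1, this.2.2⟩, hz.2⟩
  · have h1 := van_cup_right (p := n + 1) (q := 1) (k := n + 2 + 1) (LinearMap.lsmul ℝ E2) T
      (by omega) (VC n) hy
    have h2 := van_cup_right (p := 1) (q := n + 2) (k := n + 3 + 1) om T (by omega) x h1
    refine van_of_eq (h2.add hv) ?_
    simp only [Tr, map_sub]
    abel

theorem van_gau_smul {X A : Type*} [TopologicalSpace X] [AddCommGroup A] [Module ℝ A] (k : ℕ)
    (U : Set X) (c : ℝ) (f : Co X A) :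
    Van (k + 1) U (gau (fun _ => c • LinearMap.id) f - c • f) := fun z _ =>
  not_mem_supp.2 ⟨univ, univ_mem, fun l hl _ => by
    cases l with
    | nil => simp at hl
    | cons x l => simp⟩

theorem Van.gau {X A A' : Type*} [TopologicalSpace X] [AddCommGroup A] [Module ℝ A]
    [AddCommGroup A'] [Module ℝ A'] {k : ℕ} {U : Set X} {f : Co X A} (h : Van k U f)
    (a : X → A →ₗ[ℝ] A') : Van k U (gau a f) := fun z hz h' => h z hz (supp_gau k a f h')

/-- gauge covariance of the triple product -/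
theorem Tr_gau {U : Set (R (n + 3))} (hU : IsOpen U) {T T' : Tw (R (n + 3)) E2}
    {a : R (n + 3) → E2 →ₗ[ℝ] E2} (ha : Inter U a T T') {c : ℝ}
    (hc : ∀ x ∈ U, ∀ e e', om (a x e) (a x e') = c * om e e') (x y : Co (R (n + 3)) E2) :
    Van (n + 3 + 1) U (Tr T' (gau a x) (gau a y) - c • Tr T x y) := by
  have h0 : Van (n + 1 + 1) U (VC n - gau (fun _ => LinearMap.id) (VC n)) :=
    (van_gau_id (n + 1) hU (fun _ _ => rfl) (VC n)).symm
  have h1 := van_cup_left (p := n + 1) (q := 1) (k := n + 2 + 1) (LinearMap.lsmul ℝ E2) T'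
    (by omega) h0 (gau a y)
  have h2 : Van (n + 2 + 1) U _ := cup_gau (μ := LinearMap.lsmul ℝ E2) (ν := LinearMap.lsmul ℝ E2)
    (a := fun _ => LinearMap.id) (a'' := a) hU ha (fun x _ e e' => by simp) (n + 1) 1 (VC n) y
  have h3 := van_cup_right (p := 1) (q := n + 2) (k := n + 3 + 1) om T' (by omega) (gau a x)
    (h1.add h2)
  have h4 := cup_gau (μ := om) (ν := om) (a := a) (a'' := fun _ => c • LinearMap.id) hU ha
    (fun x hx e e' => by simp [hc x hx]) 1 (n + 2) x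
    (cup (LinearMap.lsmul ℝ E2) T (n + 1) (VC n) y)
  rw [show 1 + (n + 2) + 1 = n + 3 + 1 by omega] at h4
  have h5 := van_gau_smul (n + 3) U c (Tr T x y)
  refine van_of_eq ((h3.add h4).add h5) ?_
  simp only [Tr, map_sub, map_add, LinearMap.sub_apply]
  abel

/-- `r ↦ r • e` -/
noncomputable abbrev sp (e : E2) : ℝ →ₗ[ℝ] E2 := LinearMap.toSpanSingleton ℝ E2 e

theorem inter_sp {B : Set (R (n + 3))} (hB : IsOpen B) {T : Tw (R (n + 3)) E2}
    (hT : ∀ x ∈ B, ∀ y ∈ B, T x y = LinearMap.id) (e : E2) :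
    Inter B (fun _ => sp e) (T1 _ ℝ) T := fun z hz =>
  ⟨B, hB.mem_nhds hz, fun x hx y hy => by rw [hT x hx y hy]; rfl⟩

/-- the local model -/
theorem Tr_local {B S : Set (R (n + 3))} (hB : IsOpen B) {T : Tw (R (n + 3)) E2}
    (hT : ∀ x ∈ B, ∀ y ∈ B, T x y = LinearMap.id) {ξ y : Co (R (n + 3)) E2} {a e' : E2} {c : ℝ}
    (hξ : Van 2 B (ξ - gau (fun _ => sp a) (th {x | 0 < x 2})))
    (hV : Van (n + 2) B (VC n - c • dT (T1 _ _) (hm S (gen (LT n) 0))))
    (hy : Van 2 B (y - gau (fun _ => sp e') (th {x | 13 / 8 ≤ x 0}))) :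
    Van (n + 3 + 1) B (Tr T ξ y - (c * om a e') • mdl n S) := by
  set W := dT (T1 _ _) (hm S (gen (LT n) (0 : R (n + 3)))) with hW
  set θ := th {x : R (n + 3) | 0 < x 2}
  set θ' := th {x : R (n + 3) | 13 / 8 ≤ x 0}
  have hV' : Van (n + 1 + 1) B (VC n - gau (fun _ => c • LinearMap.id) W) :=
    Van.trans hV (van_gau_smul (n + 1) B c W).symm
  have h1 := van_cup_left (p := n + 1) (q := 1) (k := n + 2 + 1) (LinearMap.lsmul ℝ E2) T
    (by omega) hV' y
  have h1' := van_cup_right (p := n + 1) (q := 1) (k := n + 2 + 1) (LinearMap.lsmul ℝ E2) T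
    (by omega) (gau (fun _ => c • LinearMap.id) W) hy
  have h2 : Van (n + 2 + 1) B _ := cup_gau (μ := LinearMap.mul ℝ ℝ) (ν := LinearMap.lsmul ℝ E2)
    (a := fun _ => c • LinearMap.id) (a'' := fun _ => sp (c • e')) hB (inter_sp hB hT e')
    (fun x _ r r' => by simp [smul_smul]; ring_nf) (n + 1) 1 W θ'
  have h3 := van_cup_right (p := 1) (q := n + 2) (k := n + 3 + 1) om T (by omega) ξ
    ((h1.add h1').add h2)
  set J := cup (LinearMap.mul ℝ ℝ) (T1 _ ℝ) (n + 1) W θ' with hJ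
  have h3' := van_cup_left (p := 1) (q := n + 2) (k := n + 3 + 1) om T (by omega) hξ
    (gau (fun _ => sp (c • e')) J)
  have h4 := cup_gau (μ := LinearMap.mul ℝ ℝ) (ν := om) (a := fun _ => sp a)
    (a'' := fun _ => (c * om a e') • LinearMap.id) hB (inter_sp hB hT (c • e'))
    (fun x _ r r' => by simp; ring) 1 (n + 2) θ J
  rw [show 1 + (n + 2) + 1 = n + 3 + 1 by omega] at h4
  have h5 := van_gau_smul (n + 3) B (c * om a e') (mdl n S)
  refine van_of_eq (((h3.add h3').add h4).add h5) ?_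
  have e : mdl n S = cup (LinearMap.mul ℝ ℝ) (T1 _ ℝ) 1 θ J := rfl
  simp only [Tr, map_sub, map_add, LinearMap.sub_apply, ← e]
  abel

/-- small boxes around the two intersection points -/
def Bx (n : ℕ) (s : ℝ) : Set (R (n + 3)) :=
  {x | 25 / 16 < x 0 ∧ x 0 < 27 / 16 ∧ s - 1 / 16 < x 1 ∧ x 1 < s + 1 / 16 ∧
    -(1 / 16) < x 2 ∧ x 2 < 1 / 16}

theorem isOpen_Bx (s : ℝ) : IsOpen (Bx n s) := by
  have c := fun i : Fin (n + 3) => (continuous_apply i : Continuous fun x : R (n + 3) => x i)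
  exact (isOpen_lt continuous_const (c 0)).inter ((isOpen_lt (c 0) continuous_const).inter
    ((isOpen_lt continuous_const (c 1)).inter ((isOpen_lt (c 1) continuous_const).inter
    ((isOpen_lt continuous_const (c 2)).inter (isOpen_lt (c 2) continuous_const)))))

theorem dV_ge {x : R (n + 3)} {c : ℝ} (h0 : 1 + c ≤ x 0) (h1 : x 0 ≤ 2 - c) (hc : 0 ≤ c) :
    c ≤ dV x := by
  refine le_max_of_le_left (le_min (le_min ?_ ?_) ?_)
  · exact le_abs.2 (Or.inl (by linarith))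
  · exact le_abs.2 (Or.inl (by linarith))
  · exact le_abs.2 (Or.inr (by linarith))

theorem dH_eq {x : R (n + 3)} (h0 : 0 ≤ x 0) (h1 : x 0 ≤ 2) (h2 : 1 / 2 ≤ x 1) :
    dH x = |x 1 - 1| := by
  have e1 : dI (x 0) 0 2 = 0 := max_eq_right (max_le (by linarith) (by linarith))
  have e2 : min |x 1| |x 1 - 1| = |x 1 - 1| :=
    min_eq_right (by rw [abs_of_pos (by linarith : 0 < x 1), abs_le]; constructor <;> linarith)
  rw [dH, e1, e2, max_eq_right (abs_nonneg _)]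

theorem dP_Bx {s : ℝ} (hs : s = 3 / 4 ∨ s = 5 / 4) {x : R (n + 3)} (hx : x ∈ Bx n s) :
    dP x = |x 1 - 1| ∧ hh x = |x 1 - 1| ∧ 3 / 16 < |x 1 - 1| ∧ |x 1 - 1| < 5 / 16 := by
  obtain ⟨a0, b0, a1, b1, a2, b2⟩ := hx
  have h3 : 3 / 16 < |x 1 - 1| := by
    rw [lt_abs]; rcases hs with rfl | rfl
    · right; linarith
    · left; linarith
  have h4 : |x 1 - 1| < 5 / 16 := by
    rw [abs_lt]; rcases hs with rfl | rfl <;> constructor <;> linarith
  have h5 : 5 / 16 ≤ dV x := dV_ge (by linarith) (by linarith) (by norm_num)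
  have h6 : dP x = |x 1 - 1| := by
    rw [dP, dH_eq (by linarith) (by linarith) (by rcases hs with rfl | rfl <;> linarith)]
    exact min_eq_left (by linarith)
  refine ⟨h6, ?_, h3, h4⟩
  rw [hh, h6]
  exact max_eq_right (by rw [abs_le]; constructor <;> linarith)

theorem tau_Bx {s : ℝ} {x y : R (n + 3)} (hx : x ∈ Bx n s) (hy : y ∈ Bx n s) :
    tauS ℝ n x y = LinearMap.id := by
  have e : tauM x y = 1 := by
    unfold tauM
    split_ifs
    · have : gm y = gm x := by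
        simp only [gm]
        rw [if_neg (by linarith [hy.1]), if_neg (by linarith [hy.1]), if_neg (by linarith [hx.1]),
          if_neg (by linarith [hx.1])]
      rw [this, (gm_mul_gi x).2]
    · rfl
  rw [tauS, e, mt_one]

theorem FM_in {x : R (n + 3)} (hx : x ∈ Bx n (3 / 4)) : FM x = mF2 := by
  obtain ⟨a0, b0, a1, b1, -, -⟩ := hx
  rw [FM, reg, if_neg (fun h => by linarith [h.2.2.2]),
    if_pos ⟨by linarith, by linarith, by linarith, by linarith⟩]

theorem FM_out {x : R (n + 3)} (hx : x ∈ Bx n (5 / 4)) : FM x = mF3 := by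
  obtain ⟨a0, b0, a1, b1, -, -⟩ := hx
  rw [FM, reg, if_neg (fun h => by linarith [h.2.1]), if_neg (fun h => by linarith [h.2.1]),
    if_neg (fun h => by linarith [h.2.2])]

theorem th_compl {X : Type*} [TopologicalSpace X] (U S : Set X) : Van 2 U (th Sᶜ + th S) := by
  have h1 := (van_hm_compl 0 S U (fun _ => (1 : ℝ))).dT (T1 X ℝ)
  have h2 := mem_Zc.1 (const_mem_Zc U (1 : ℝ))
  refine van_of_eq (h2.sub h1) ?_
  simp only [th, map_sub, map_add]
  abel

theorem xi_local {s : ℝ} (hs : s = 3 / 4 ∨ s = 5 / 4) {F : M2} (hF : ∀ x ∈ Bx n s, FM x = F)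
    (D : Set (R (n + 3))) (σ : ℝ)
    (hD : (D = {x | x 2 ≤ 0} ∧ σ = 1) ∨ (D = {x | 0 < x 2} ∧ σ = -1)) (e : E2) :
    Van 2 (Bx n s) (xiC ℝ n D e - gau (fun _ => sp (σ • mt ℝ F e)) (th {x | 0 < x 2})) := by
  classical
  have hB := isOpen_Bx (n := n) s
  have h1 := (xiC_sub ℝ D e).mono (U := Bx n s) fun x hx => Or.inr (by
    obtain ⟨e1, -, e3, e4⟩ := dP_Bx hs hx
    constructor <;> linarith)
  have h2 : Van 2 (Bx n s) (yC ℝ n (3 / 2) e) := fun x hx h => by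
    have := (supp_yC ℝ le_rfl e h).1
    linarith [hx.1]
  have h3 : Van 1 (Bx n s) (hm D (fC ℝ n e) - gau (fun _ => sp (mt ℝ F e)) (hm D fun _ => 1)) := by
    rw [van_one_iff hB]
    intro x hx
    simp only [Pi.sub_apply, gau_cons, hm_cons, fC, LinearMap.comp_apply, cst_apply, hF x hx]
    split_ifs <;> simp
  have h4 := (inter_sp hB (fun x hx y hy => tau_Bx hx hy) (mt ℝ F e)).van 2 (hm D fun _ => 1)
  have h5 : Van 2 (Bx n s) (th D + σ • th {x : R (n + 3) | 0 < x 2}) := by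
    rcases hD with ⟨rfl, rfl⟩ | ⟨rfl, rfl⟩
    · have : {x : R (n + 3) | x 2 ≤ 0} = {x : R (n + 3) | 0 < x 2}ᶜ := by ext; simp
      rw [this, one_smul]; exact th_compl _ _
    · refine van_of_eq (NV ℝ 2 _).zero_mem (by simp)
  have h6 := Van.gau h5 (fun _ => sp (mt ℝ F e))
  have e7 : gau (fun _ => sp (σ • mt ℝ F e)) (th {x : R (n + 3) | 0 < x 2}) =
      σ • gau (fun _ => sp (mt ℝ F e)) (th {x : R (n + 3) | 0 < x 2}) := by
    funext l; cases l <;> simp [smul_smul, mul_comm]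
  refine van_of_eq ((((h1.add h2).sub (h3.dT (tauS ℝ n))).sub h4).sub h6) ?_
  rw [e7]
  simp only [th, map_sub, map_add, map_smul]
  abel

theorem y_local {s : ℝ} (hs : s = 3 / 4 ∨ s = 5 / 4) (e : E2) :
    Van 2 (Bx n s) (yC ℝ n (13 / 8) e - gau (fun _ => sp e) (th {x | 13 / 8 ≤ x 0})) := by
  classical
  have hB := isOpen_Bx (n := n) s
  have e1 : hm {x : R (n + 3) | 13 / 8 ≤ x 0} (cst E2 _ e) =
      gau (fun _ => sp e) (hm {x : R (n + 3) | 13 / 8 ≤ x 0} fun _ => 1) := by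
    funext l
    cases l with
    | nil => rfl
    | cons x l => simp only [gau_cons, hm_cons, cst_apply]; split_ifs <;> simp
  have h1 := (van_sub_hm 1 {x : R (n + 3) | 1 / 2 < x 1}
    (dT (tauS ℝ n) (hm {x : R (n + 3) | 13 / 8 ≤ x 0} (cst E2 _ e)))).mono (U := Bx n s)
    (interior_maximal (fun x hx => by
      have := hx.2.2.1
      rcases hs with rfl | rfl <;> simp only [mem_ofPred_eq] <;> linarith) hB)
  have h2 := (inter_sp hB (fun x hx y hy => tau_Bx hx hy) e).van 2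
    (hm {x : R (n + 3) | 13 / 8 ≤ x 0} fun _ => 1)
  rw [← e1] at h2
  refine van_of_eq (h2.sub h1) ?_
  simp only [yC, LinearMap.comp_apply, th]
  abel

theorem V_out : Van (n + 2) (Bx n (5 / 4))
    (VC n - (1 : ℝ) • dT (T1 _ _) (hm {x : R (n + 3) | 5 / 4 < x 1} (gen (LT n) 0))) := by
  have := (van_hm_congr (n + 1) (isOpen_Bx (n := n) (5 / 4)) (S := {x | 1 / 4 < hh x})
    (S' := {x | 5 / 4 < x 1}) (fun x hx => by
      obtain ⟨-, e2, -, -⟩ := dP_Bx (Or.inr rfl) hx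
      simp only [mem_ofPred_eq, e2]
      rw [abs_of_pos (by linarith [hx.2.2.1])]
      constructor <;> intro <;> linarith) (gen (LT n) 0)).dT (T1 _ _)
  refine van_of_eq this ?_
  rw [one_smul, map_sub]; rfl

theorem V_in : Van (n + 2) (Bx n (3 / 4))
    (VC n - (-1 : ℝ) • dT (T1 _ _) (hm {x : R (n + 3) | 3 / 4 ≤ x 1} (gen (LT n) 0))) := by
  have h1 := (van_hm_congr (n + 1) (isOpen_Bx (n := n) (3 / 4)) (S := {x | 1 / 4 < hh x})
    (S' := {x | 3 / 4 ≤ x 1}ᶜ) (fun x hx => by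
      obtain ⟨-, e2, -, -⟩ := dP_Bx (Or.inl rfl) hx
      simp only [mem_ofPred_eq, e2, mem_compl_iff, not_le]
      rw [abs_of_neg (by linarith [hx.2.2.2.1])]
      constructor <;> intro <;> linarith) (gen (LT n) 0)).dT (T1 _ _)
  have h2 := (van_hm_compl n {x : R (n + 3) | 3 / 4 ≤ x 1} (Bx n (3 / 4)) (gen (LT n) 0)).dT (T1 _ _)
  have h3 := (mem_Zc.1 (U_mem (n := n) 0)).mono (subset_univ (Bx n (3 / 4)))
  refine van_of_eq ((h1.sub h2).add h3) ?_
  have : VC n = dT (T1 _ _) (hm {x | 1 / 4 < hh x} (gen (LT n) 0)) := rfl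
  rw [this]
  simp only [map_sub, map_add, neg_smul, one_smul]
  abel

theorem lamO_mdl {s : ℝ} (hs : s = 3 / 4 ∨ s = 5 / 4) {S : Set (R (n + 3))}
    (hS : frontier S ⊆ {x | x 1 = s}) : lamO (Bx n s) (mdl n S) = lam (n + 3) (mdl n S) := by
  refine lamO_eq (isCompact_supp_of (r := 2) (by norm_num) fun x hx => ?_) (fun x hx => ?_)
    (van_of_eq (NV ℝ _ _).zero_mem (sub_self _))
  · obtain ⟨⟨e2, e0, et⟩, e1⟩ := supp_mdl S hx
    have e1 : x 1 = s := hS e1
    refine ⟨?_, ?_, ?_, et⟩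
    · rw [e0, abs_of_pos] <;> norm_num
    · rw [e1]; rcases hs with rfl | rfl <;> rw [abs_of_pos] <;> norm_num
    · rw [e2]; norm_num
  · obtain ⟨⟨e2, e0, et⟩, e1⟩ := supp_mdl S hx
    have e1 : x 1 = s := hS e1
    simp only [Bx, mem_ofPred_eq, e0, e1, e2]
    norm_num

theorem dP_le_hh (x : R (n + 3)) : dP x ≤ hh x := le_max_right _ _

theorem dP_of_lev {x : R (n + 3)} (hx : x ∈ Lev n) (h2 : x 2 = 0) : dP x = 1 / 4 := by
  have := hx.1
  rw [hh, h2, abs_zero, max_eq_right (dP_nonneg x)] at this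
  exact this

theorem lev_subset : Lev n ⊆ OmS n := fun x hx => by
  have := hx.1
  constructor <;> linarith

theorem dP_ge {x : R (n + 3)} (h1 : x 1 = 1 / 2) (a0 : 3 / 2 ≤ x 0) (b0 : x 0 ≤ 13 / 8) :
    3 / 8 ≤ dP x := by
  refine le_min ?_ (dV_ge (by linarith) (by linarith) (by norm_num))
  rw [dH_eq (by linarith) (by linarith) h1.ge, h1]
  norm_num [abs_of_neg]

end Gram
open Gram

theorem gram_tau (D : Set (R (n + 3))) (σ : ℝ)
    (hD : (D = {x | x 2 ≤ 0} ∧ σ = 1) ∨ (D = {x | 0 < x 2} ∧ σ = -1)) (e e' : Fin 2 → ℝ) :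
    lamO (OmS n ∩ (interior Dᶜ ∪ {x | 0 < dP x}))
      (cup om (tauS ℝ n) 1 (xiC ℝ n D e)
        (cup (LinearMap.lsmul ℝ _) (tauS ℝ n) (n + 1) (VC n) (xiC ℝ n D e'))) =
      σ * lam (n + 3) (mdl n {x | 5 / 4 < x 1}) * om (mt ℝ (mF3 - mF2) e) e' := by
  classical
  set O := OmS n ∩ (interior Dᶜ ∪ {x | 0 < dP x}) with hOdef
  set τ := tauS ℝ n with hτ
  set ξ := xiC ℝ n D e with hξ
  change lamO O (Tr τ ξ (xiC ℝ n D e')) = _
  have c2 : Continuous fun x : R (n + 3) => x 2 := continuous_apply 2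
  have hside : ∀ z : R (n + 3), z 2 ≠ 0 → z ∈ interior D ∪ interior Dᶜ := by
    intro z hz
    have ho1 : IsOpen {x : R (n + 3) | x 2 < 0} := isOpen_lt c2 continuous_const
    have ho2 : IsOpen {x : R (n + 3) | 0 < x 2} := isOpen_lt continuous_const c2
    rcases hD with ⟨rfl, -⟩ | ⟨rfl, -⟩ <;> rcases lt_or_gt_of_ne hz with h | h
    · refine Or.inl (mem_interior.2 ⟨_, ?_, ho1, h⟩)
      intro x hx; simp only [mem_ofPred_eq, mem_compl_iff, not_le, not_lt] at hx ⊢; linarith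
    · refine Or.inr (mem_interior.2 ⟨_, ?_, ho2, h⟩)
      intro x hx; simp only [mem_ofPred_eq, mem_compl_iff, not_le, not_lt] at hx ⊢; linarith
    · refine Or.inr (mem_interior.2 ⟨_, ?_, ho1, h⟩)
      intro x hx; simp only [mem_ofPred_eq, mem_compl_iff, not_le, not_lt] at hx ⊢; linarith
    · exact Or.inl (interior_maximal (fun x hx => hx) ho2 h)
  have hO : IsOpen O := isOpen_OmS.inter
    (isOpen_interior.union (isOpen_lt continuous_const continuous_dP))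
  have hOd : O ⊆ {x | dP x < 1 / 2} := fun x hx => lt_of_le_of_lt (dP_le_hh x) hx.1.2
  have hOx : O ⊆ interior Dᶜ ∪ {x | 0 < dP x ∧ dP x < 1 / 2} := fun x hx =>
    hx.2.imp id fun h => ⟨h, hOd hx⟩
  have hfl : Flat O τ := (flat_tauS ℝ).mono hOd
  have hy : ∀ e, yC ℝ n (3 / 2) e ∈ Zc τ 1 O := fun e => Zc_mono (yC_mem_Zc' ℝ e) hOd
  have hξZ : ξ ∈ Zc τ 1 O :=
    Zc_congr (sub_mem (hy e) (dT_mem_Zc hfl 1 _)) ((xiC_sub ℝ D e).mono hOx)
  set K := Lev n ∩ (interior D)ᶜ with hKdef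
  have hK : IsCompact K := isCompact_level.inter_right isOpen_interior.isClosed_compl
  have hKO : K ⊆ O := fun z hz => ⟨lev_subset hz.1, by
    by_cases h2 : z 2 = 0
    · right; simp only [mem_ofPred_eq]; rw [dP_of_lev hz.1 h2]; norm_num
    · exact Or.inl ((hside z h2).resolve_left hz.2)⟩
  have hsξ : supp 2 ξ ⊆ (interior D)ᶜ := fun z hz h => xiC_van ℝ D e z h hz
  -- step 1
  have s1 : lamO O (Tr τ ξ (xiC ℝ n D e')) = lamO O (Tr τ ξ (yC ℝ n (3 / 2) e')) := by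
    refine Tr_cob (g := -hm D (fC ℝ n e')) hO hfl (compat_om_tau O) hξZ ?_ hK hKO
      fun z hz => ⟨hz.1.2.1, hsξ hz.1.1⟩
    refine van_of_eq ((xiC_sub ℝ D e').mono hOx) ?_
    rw [map_neg]; abel
  -- step 2
  set O' := O ∩ {x | hh x < 3 / 8} with hO'def
  have hO' : IsOpen O' := hO.inter (isOpen_lt continuous_hh continuous_const)
  have hKO' : K ⊆ O' := fun z hz => ⟨hKO hz, by
    have := hz.1.1
    simp only [mem_ofPred_eq]; linarith⟩
  have hsT : ∀ y, supp (n + 3 + 1) (Tr τ ξ y) ⊆ K := fun y z hz =>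
    ⟨(supp_Tr _ _ _ hz).2.1, hsξ (supp_Tr _ _ _ hz).1⟩
  have s2 : lamO O (Tr τ ξ (yC ℝ n (3 / 2) e')) = lamO O' (Tr τ ξ (yC ℝ n (3 / 2) e')) :=
    (lamO_mono hO inter_subset_left (isCompact_supp_inter hK hKO fun z hz => hsT _ hz.1)
      fun z hz => hKO' (hsT _ hz.1)).symm
  have s3 : lamO O' (Tr τ ξ (yC ℝ n (3 / 2) e')) = lamO O' (Tr τ ξ (yC ℝ n (13 / 8) e')) := by
    set k := hm {x : R (n + 3) | 3 / 2 ≤ x 0} (cst E2 _ e') -
      hm {x : R (n + 3) | 13 / 8 ≤ x 0} (cst E2 _ e') with hk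
    refine Tr_cob (g := hm {x | 1 / 2 < x 1} k) hO' (hfl.mono inter_subset_left) (compat_om_tau O')
      (Zc_mono hξZ inter_subset_left) ?_ hK hKO' fun z hz => ⟨hz.1.2.1, hsξ hz.1.1⟩
    have h1 : Van 2 O' (dT τ (hm {x | 1 / 2 < x 1} k) - hm {x | 1 / 2 < x 1} (dT τ k)) := by
      intro z hz h
      obtain ⟨h1, h2⟩ := supp_dT_hm 0 τ _ k h
      have e1 : z 1 = 1 / 2 := frontier_lt _ _ h1
      have h3 := closure_minimal (t := {x : R (n + 3) | 3 / 2 ≤ x 0 ∧ x 0 ≤ 13 / 8})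
        (fun y hy => by
          simp only [mem_ofPred_eq] at hy ⊢
          by_contra hc
          apply hy
          rw [not_and_or, not_le, not_le] at hc
          rcases hc with hc | hc <;> constructor <;> intro <;> linarith)
        ((isClosed_le continuous_const (continuous_apply 0)).inter
          (isClosed_le (continuous_apply 0) continuous_const)) (supp_hm_sub _ _ _ _ h2).2
      have h4 := dP_ge e1 h3.1 h3.2
      have h5 : hh z < 3 / 8 := hz.2
      linarith [dP_le_hh z]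
    refine van_of_eq h1.neg ?_
    simp only [hk, yC, LinearMap.comp_apply, map_sub, hτ]
    abel
  -- step 3
  have hBO : ∀ s, s = 3 / 4 ∨ s = 5 / 4 → Bx n s ⊆ O' := fun s hs x hx => by
    obtain ⟨e1, e2, e3, e4⟩ := dP_Bx hs hx
    refine ⟨⟨⟨by linarith, by linarith⟩, Or.inr ?_⟩, ?_⟩ <;> simp only [mem_ofPred_eq] <;> linarith
  set u := Tr τ ξ (yC ℝ n (13 / 8) e') with hu
  have hsu : supp (n + 3 + 1) u ⊆ Bx n (3 / 4) ∪ Bx n (5 / 4) := by
    intro z hz
    obtain ⟨h1, h2, h3⟩ := supp_Tr _ _ _ hz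
    obtain ⟨e0, e1⟩ := supp_yC ℝ (by norm_num) e' h3
    have e2 : z 2 = 0 := by
      by_contra hc
      have h4 := (hside z hc).resolve_left (hsξ h1)
      have h5 := xiC_sub_yC ℝ D e z h4
      have h6 : z ∉ supp 2 (yC ℝ n (3 / 2) e) := fun h => by
        have := (supp_yC ℝ le_rfl e h).1
        linarith
      have : ξ = (xiC ℝ n D e - yC ℝ n (3 / 2) e) + yC ℝ n (3 / 2) e := by rw [hξ]; abel
      rw [this] at h1
      exact (supp_add _ _ _ h1).elim h5 h6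
    have h7 := dP_of_lev h2 e2
    have h8 : 3 / 8 ≤ dV z := dV_ge (by linarith) (by linarith) (by norm_num)
    rw [dP, dH_eq (by linarith) (by linarith) e1] at h7
    have h9 : |z 1 - 1| = 1 / 4 := by
      rcases min_choice |z 1 - 1| (dV z) with h | h <;> linarith
    rcases abs_eq (by norm_num : (0 : ℝ) ≤ 1 / 4) |>.1 h9 with h | h
    · right; simp only [Bx, mem_ofPred_eq, e0, e2]; norm_num; constructor <;> linarith
    · left; simp only [Bx, mem_ofPred_eq, e0, e2]; norm_num; constructor <;> linarith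
  have hcu : ∀ A, Bx n (3 / 4) ∪ Bx n (5 / 4) ⊆ A → IsCompact (supp (n + 3 + 1) u ∩ A) := by
    intro A hA
    rw [inter_eq_left.2 (hsu.trans hA)]
    exact hK.of_isClosed_subset (isClosed_supp _ _) (hsT _)
  have hBB : Bx n (3 / 4) ∪ Bx n (5 / 4) ⊆ O' :=
    union_subset (hBO _ (Or.inl rfl)) (hBO _ (Or.inr rfl))
  have s4 : lamO O' u = lamO (Bx n (3 / 4)) u + lamO (Bx n (5 / 4)) u := by
    rw [← lamO_mono hO' hBB (hcu _ hBB) fun z hz => hsu hz.1]
    refine lamO_union (isOpen_Bx _) (isOpen_Bx _) ?_ (hcu _ subset_rfl)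
    rw [disjoint_left]
    intro x hx hx'
    linarith [hx.2.2.2.1, hx'.2.2.1]
  have s5 := lamO_congr (Tr_local (isOpen_Bx _) (fun x hx y hy => tau_Bx hx hy)
    (xi_local (Or.inl rfl) (fun x hx => FM_in hx) D σ hD e) V_in (y_local (Or.inl rfl) e'))
  have s6 := lamO_congr (Tr_local (isOpen_Bx _) (fun x hx y hy => tau_Bx hx hy)
    (xi_local (Or.inr rfl) (fun x hx => FM_out hx) D σ hD e) V_out (y_local (Or.inr rfl) e'))
  rw [map_smul, lamO_mdl (Or.inl rfl) (frontier_le _ _)] at s5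
  rw [map_smul, lamO_mdl (Or.inr rfl) (frontier_lt _ _)] at s6
  have s7 : lam (n + 3) (mdl n {x | 3 / 4 ≤ x 1}) = lam (n + 3) (mdl n {x | 5 / 4 < x 1}) :=
    lam_mdl_congr (C := 2) fun x hx => by
      simp only [mem_ofPred_eq]
      rcases lt_abs.1 hx with h | h <;> constructor <;> intro <;> linarith
  rw [s1, s2, s3, s4, s5, s6, s7, mt_sub]
  simp only [map_smul, LinearMap.smul_apply, smul_eq_mul, LinearMap.sub_apply, map_sub]
  ring

theorem gram_PP (e e' : Fin 2 → ℝ) : Gam n (VC n) (xP ℝ n e) (xP ℝ n e') =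
    lam (n + 3) (mdl n {x | 5 / 4 < x 1}) * om (mt ℝ (mF3 - mF2) e) e' := by
  have h := gram_tau (n := n) {x | x 2 ≤ 0} 1 (Or.inl ⟨rfl, rfl⟩) e e'
  have hi : interior {x : R (n + 3) | x 2 ≤ 0}ᶜ = {x | 0 < x 2} := by
    have : {x : R (n + 3) | x 2 ≤ 0}ᶜ = {x | 0 < x 2} := by ext; simp
    rw [this]; exact (isOpen_lt continuous_const (continuous_apply 2)).interior_eq
  rw [hi, one_mul] at h
  set O := OmS n ∩ ({x : R (n + 3) | 0 < x 2} ∪ {x | 0 < dP x}) with hOdef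
  have hO : IsOpen O := isOpen_OmS.inter ((isOpen_lt continuous_const (continuous_apply 2)).union
    (isOpen_lt continuous_const continuous_dP))
  have hOU : O ⊆ UP n := fun x hx => ⟨lt_of_le_of_lt (dP_le_hh x) hx.1.2, hx.2⟩
  have h1 := lamO_congr (Tr_gau hO ((inter_gP ℝ).mono hOU) (c := 1)
    (fun x _ a a' => by rw [om_mt, det_gP]) (xiC ℝ n {x | x 2 ≤ 0} e) (xiC ℝ n {x | x 2 ≤ 0} e'))
  rw [one_smul] at h1
  rw [← h, ← Tr, ← h1]
  change lamO (OmS n) (Tr (TS ℝ n) (xP ℝ n e) (xP ℝ n e')) = lamO O (Tr (TS ℝ n) (xP ℝ n e) (xP ℝ n e'))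
  refine (lamO_mono isOpen_OmS inter_subset_left
    (isCompact_supp_inter isCompact_level lev_subset fun z hz => (supp_Tr _ _ _ hz.1).2.1)
    fun z hz => ⟨hz.2, ?_⟩).symm
  obtain ⟨h2, h3, -⟩ := supp_Tr _ _ _ hz.1
  rcases eq_or_lt_of_le (show (0 : ℝ) ≤ z 2 from supp_xP ℝ e h2) with h4 | h4
  · right; simp only [mem_ofPred_eq]; rw [dP_of_lev h3 h4.symm]; norm_num
  · exact Or.inl h4

theorem gram_NN (e e' : Fin 2 → ℝ) : Gam n (VC n) (xN ℝ n e) (xN ℝ n e') =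
    lam (n + 3) (mdl n {x | 5 / 4 < x 1}) * om (mt ℝ (mF3 - mF2) e) e' := by
  have h := gram_tau (n := n) {x | 0 < x 2} (-1) (Or.inr ⟨rfl, rfl⟩) e e'
  have hi : interior {x : R (n + 3) | 0 < x 2}ᶜ ⊆ {x | x 2 < 0} := by
    intro z hz
    have h1 : z 2 ≤ 0 := not_lt.1 (interior_subset hz)
    refine lt_of_le_of_ne h1 fun h0 => ?_
    have h2 : ContinuousAt (fun t : ℝ => Function.update z 2 t) 0 :=
      (continuous_const.update 2 continuous_id).continuousAt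
    have h3 : Function.update z 2 (0 : ℝ) = z := by rw [← h0]; simp
    have h4 := h2.preimage_mem_nhds (h3.symm ▸ mem_interior_iff_mem_nhds.1 hz)
    obtain ⟨t, ht, ht0⟩ := ((eventually_nhdsWithin_of_eventually_nhds (s := Ioi 0) h4).and
      self_mem_nhdsWithin).exists
    exact ht (by simpa using ht0)
  set O := OmS n ∩ (interior {x : R (n + 3) | 0 < x 2}ᶜ ∪ {x | 0 < dP x}) with hOdef
  have hO : IsOpen O := isOpen_OmS.inter (isOpen_interior.union
    (isOpen_lt continuous_const continuous_dP))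
  have hOU : O ⊆ UN n := fun x hx => ⟨lt_of_le_of_lt (dP_le_hh x) hx.1.2, hx.2.imp (@hi x) id⟩
  have h1 := lamO_congr (Tr_gau hO ((inter_gN ℝ).mono hOU) (c := -1)
    (fun x _ a a' => by rw [om_mt, det_gN]) (xiC ℝ n {x | 0 < x 2} e) (xiC ℝ n {x | 0 < x 2} e'))
  rw [map_smul, Tr, Tr, h] at h1
  have h5 : Gam n (VC n) (xN ℝ n e) (xN ℝ n e') =
      lamO O (Tr (TS ℝ n) (xN ℝ n e) (xN ℝ n e')) := by
    change lamO (OmS n) (Tr (TS ℝ n) (xN ℝ n e) (xN ℝ n e')) = _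
    refine (lamO_mono isOpen_OmS inter_subset_left
      (isCompact_supp_inter isCompact_level lev_subset fun z hz => (supp_Tr _ _ _ hz.1).2.1)
      fun z hz => ⟨hz.2, ?_⟩).symm
    obtain ⟨h2, h3, -⟩ := supp_Tr _ _ _ hz.1
    rcases eq_or_lt_of_le (show z 2 ≤ 0 from supp_xN ℝ e h2) with h4 | h4
    · right; simp only [mem_ofPred_eq]; rw [dP_of_lev h3 h4]; norm_num
    · exact Or.inl (interior_maximal (fun x hx => not_lt.2 (le_of_lt hx))
        (isOpen_lt (continuous_apply 2) continuous_const) h4)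
  rw [h5]
  refine h1.trans ?_
  simp only [smul_eq_mul]; ring

namespace Gram

theorem cross {x : Co (R (n + 3)) E2} (hx : x ∈ Zc (TS ℝ n) 1 (OmS n)) {D U : Set (R (n + 3))}
    {a : R (n + 3) → E2 →ₗ[ℝ] E2} (ha : Inter U a (tauS ℝ n) (TS ℝ n))
    (hU : ∀ z, 0 < dP z → dP z < 1 / 2 → z ∈ U) (e' : E2)
    (hs : ∀ z ∈ supp 2 x, z ∉ interior D → z 2 = 0) :
    Gam n (VC n) x (gau a (xiC ℝ n D e')) = 0 := by
  set O := OmS n ∩ {x | 0 < dP x} with hOdef
  have hO : IsOpen O := isOpen_OmS.inter (isOpen_lt continuous_const continuous_dP)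
  have hOw : O ⊆ {x | 0 < dP x ∧ dP x < 1 / 2} := fun z hz =>
    ⟨hz.2, lt_of_le_of_lt (dP_le_hh z) hz.1.2⟩
  set K := Lev n ∩ {x | x 2 = 0} with hKdef
  have hK : IsCompact K :=
    isCompact_level.inter_right (isClosed_eq (continuous_apply 2) continuous_const)
  have hKO : K ⊆ O := fun z hz => ⟨lev_subset hz.1, by
    simp only [mem_ofPred_eq]; rw [dP_of_lev hz.1 hz.2]; norm_num⟩
  have h1 : Gam n (VC n) x (gau a (xiC ℝ n D e')) =
      lamO O (Tr (TS ℝ n) x (gau a (xiC ℝ n D e'))) := by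
    change lamO (OmS n) (Tr (TS ℝ n) x (gau a (xiC ℝ n D e'))) = _
    refine (lamO_mono isOpen_OmS inter_subset_left
      (isCompact_supp_inter isCompact_level lev_subset fun z hz => (supp_Tr _ _ _ hz.1).2.1)
      fun z hz => hKO ?_).symm
    obtain ⟨h2, h3, h4⟩ := supp_Tr _ _ _ hz.1
    exact ⟨h3, hs z h2 fun h => xiC_van ℝ D e' z h (supp_gau _ _ _ h4)⟩
  rw [h1, Tr_cob (y' := 0) (g := gau a (hm Dᶜ (fC ℝ n e'))) hO ((flat_TS ℝ).mono inter_subset_left)
    (compat_om_TS O) (Zc_mono hx inter_subset_left) ?_ hK hKO ?_]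
  · simp [Tr]
  · have h2 := Van.gau ((xiC_wall ℝ D e').mono hOw) a
    have h3 := (ha.mono (U := O) fun z hz => hU z (hOw hz).1 (hOw hz).2).van 2 (hm Dᶜ (fC ℝ n e'))
    refine van_of_eq (h2.sub h3) ?_
    rw [map_sub]; abel
  · rintro z ⟨⟨h2, h3, h4⟩, -⟩
    refine ⟨h3, hs z h2 ?_⟩
    have := (supp_hm _ _ _ (supp_gau _ _ _ h4)).2
    rwa [closure_compl] at this

end Gram

theorem gram_PN (e e' : Fin 2 → ℝ) : Gam n (VC n) (xP ℝ n e) (xN ℝ n e') = 0 :=
  cross (xP_mem_Zc ℝ e) (inter_gN ℝ) (fun _ h1 h2 => ⟨h2, Or.inr h1⟩) e' fun z hz hi => by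
    have h1 : (0 : ℝ) ≤ z 2 := supp_xP ℝ e hz
    rw [(isOpen_lt continuous_const (continuous_apply 2)).interior_eq] at hi
    exact le_antisymm (not_lt.1 hi) h1

theorem gram_NP (e e' : Fin 2 → ℝ) : Gam n (VC n) (xN ℝ n e) (xP ℝ n e') = 0 :=
  cross (xN_mem_Zc ℝ e) (inter_gP ℝ) (fun _ h1 h2 => ⟨h2, Or.inr h1⟩) e' fun z hz hi => by
    have h1 : z 2 ≤ 0 := supp_xN ℝ e hz
    refine le_antisymm h1 (not_lt.1 fun h => hi ?_)
    exact interior_maximal (fun x hx => le_of_lt hx)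
      (isOpen_lt (continuous_apply 2) continuous_const) h

/-- the Gram matrix is `κ • diag (19/3, 38/3, 19/3, 38/3)`, `κ = - lam (mdl ..) ≠ 0` -/
theorem gram (n : ℕ) : ∃ κ : ℝ, κ ≠ 0 ∧ ∃ q : Fin 4 → ℝ, (∀ i, 0 < q i) ∧
    ∀ i j, Gam n (VC n) (xs n i) (xs n j) = if i = j then κ * q i else 0 := by
  refine ⟨-lam (n + 3) (mdl n {x | 5 / 4 < x 1}), neg_ne_zero.2 lam_mdl_ne,
    ![19 / 3, 38 / 3, 19 / 3, 38 / 3], fun i => by fin_cases i <;> norm_num, fun i j => ?_⟩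
  have hom : ∀ e e' : Fin 2 → ℝ, om (mt ℝ (mF3 - mF2) e) e' =
      (25 / 3 * e 0 - 11 * e 1) * e' 1 - (19 / 3 * e 0 - 25 / 3 * e 1) * e' 0 := fun e e' => by
    simp [om, bS_apply, mt, mF3, mF2, Fin.sum_univ_two]
    ring
  fin_cases i <;> fin_cases j <;>
    simp [xs, gram_PP, gram_NN, gram_PN, gram_NP, hom] <;> first | ring1 | (right; norm_num)

end Crest.Agent.R217
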