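import Crest.Agent.R217.SgLH
import Crest.Agent.R217.SgGram
import Crest.Agent.R217.Beta1

/-! # R217 / SgForm : the form on cross products -/

set_option autoImplicit false
open Set Topology Filter

namespace Crest.Agent.R217

namespace SgForm
open Beta1

theorem lam_cup_dT {N p q : ℕ} (hN : N = p + q + 1) {E E' : Type*} [AddCommGroup E] [Module ℝ E] [AddCommGroup E']
    [Module ℝ E'] {μ : E →ₗ[ℝ] E' →ₗ[ℝ] ℝ} {Ω : Set (R N)} (hΩ : IsOpen Ω) {T : Tw (R N) E} {T' : Tw (R N) E'}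
    (hT : Flat Ω T) (hT' : Flat Ω T') (hμ : Compat Ω μ T T' (T1 _ ℝ)) {x : Co (R N) E} (hx : x ∈ Zc T p Ω)
    {w : Co (R N) E'} {K : Set (R N)} (hK : IsCompact K) (hKΩ : K ⊆ Ω) (hw : supp (q + 1) w ∩ Ω ⊆ K) :
    lamO Ω (cup μ T' p x (dT T' w)) = 0 := by
  have h1 := dT_cup hT hT' hμ p q x w
  have h2 : Van (p + q + 2) Ω (cup μ T' (p + 1) (dT T x) w) := van_cup_l μ T' q (by ring) hx w
  have h3 : lamO Ω (dT (T1 _ _) (cup μ T' p x w)) = lamO Ω ((-1 : ℝ) ^ p • cup μ T' p x (dT T' w)) :=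
    lamO_congr (van_cast (h1.add h2) (by omega) (by abel))
  rw [lamO_cob hΩ (isCompact_supp_inter hK hKΩ fun z hz =>
    hw ⟨(supp_cup' μ T' p q hN x w hz.1).2, hz.2⟩), map_smul, smul_eq_mul] at h3
  exact (mul_eq_zero.1 h3.symm).resolve_left (pow_ne_zero _ (by norm_num))

theorem compat_om {n : ℕ} (U : Set (R (n + 3))) : Compat U om (TS ℝ n) (TS ℝ n) (T1 _ ℝ) :=
  fun _ _ => ⟨univ, univ_mem, fun x _ y _ e e' => by
    rw [om, TS, bS_mt, det_TM, one_mul]; rfl⟩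

theorem compat_lsmul {X E : Type*} [TopologicalSpace X] [AddCommGroup E] [Module ℝ E] (U : Set X) (T : Tw X E) :
    Compat U (LinearMap.lsmul ℝ E) (T1 X ℝ) T T :=
  fun _ _ => ⟨univ, univ_mem, fun x _ y _ e e' => by simp [T1]⟩

theorem exists_box {n : ℕ} {ρ : ℝ} (hρ : 0 < ρ) {K : Set (R (n + 1))} (hK : IsCompact K)
    (hs : ∀ z ∈ K, |z 0| < ρ) : ∃ a b : R (n + 1), 0 ∈ Icc a b ∧ K ⊆ Icc a b ∧ ∀ z ∈ Icc a b, |z 0| < ρ := by
  have hK' : IsCompact (insert 0 K) := hK.insert 0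
  obtain ⟨z₀, hz₀, hmax⟩ := hK'.exists_isMaxOn (insert_nonempty _ _)
    (f := fun z : R (n + 1) => |z 0|) (by fun_prop)
  have hr : |z₀ 0| < ρ := by
    rcases hz₀ with rfl | h
    · simpa using hρ
    · exact hs _ h
  obtain ⟨C, hC⟩ := hK'.isBounded.exists_norm_le
  have key : insert 0 K ⊆ Icc (-Function.update (fun _ => C) 0 |z₀ 0|) (Function.update (fun _ => C) 0 |z₀ 0|) := by
    intro z hz
    have : ∀ i, |z i| ≤ Function.update (fun _ => C) 0 |z₀ 0| i := fun i => by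
      by_cases hi : i = 0
      · subst hi
        simpa using hmax hz
      · rw [Function.update_of_ne hi]
        exact (norm_le_pi_norm z i).trans (hC z hz)
    exact ⟨fun i => (abs_le.1 (this i)).1, fun i => (abs_le.1 (this i)).2⟩
  refine ⟨_, _, key (mem_insert _ _), (subset_insert _ _).trans key, fun z hz => lt_of_le_of_lt (abs_le.2 ⟨?_, ?_⟩) hr⟩
  · simpa using hz.1 0
  · simpa using hz.2 0

/-- the intermediate pairing -/
def nu {E : Type*} [AddCommGroup E] [Module ℝ E] (b : E →ₗ[ℝ] E →ₗ[ℝ] ℝ) : E →ₗ[ℝ] (Fin 2 → E) →ₗ[ℝ] (Fin 2 → ℝ) :=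
  LinearMap.mk₂ ℝ (fun e w i => b e (w i)) (by intros; funext; simp) (by intros; funext; simp)
    (by intros; funext; simp) (by intros; funext; simp)

end SgForm
open SgForm Beta1

/-- `Gam (pb π v) x x' = lam v * Gam VC x x'` for a global cocycle `v` with compact support in the slab:
put the support and `0` in a box `Icc a b` inside the slab `|x 0| < ρ`; `v - lam v • gen` has
`lam = 0`, so it is `δ w` with `w` supported in the box (`lam_box`); `x ∪ (δ (pb w) ∪ x')` is a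
coboundary with compact support in `OmS` (`isCompact_piS_preimage`); `pb_piS_gen`. -/
theorem Gam_pb {n : ℕ} {ρ : ℝ} (hρ : 0 < ρ) {v : Co (R (n + 1)) ℝ}
    (hv : v ∈ Zc (T1 _ _) (n + 1) univ) (hc : IsCompact (supp (n + 2) v))
    (hs : ∀ z ∈ supp (n + 2) v, |z 0| < ρ) {x x' : Co (R (n + 3)) (Fin 2 → ℝ)}
    (hx : x ∈ Zc (TS ℝ n) 1 (OmS n)) (hx' : x' ∈ Zc (TS ℝ n) 1 (OmS n)) :
    Gam n (pb (piS ρ) v) x x' = lam (n + 1) v * Gam n (VC n) x x' := by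
  obtain ⟨a, b, h0, hK, hρ'⟩ := exists_box hρ hc hs
  have hgZ : gen (List.finRange (n + 1)) (0 : R (n + 1)) ∈ Zc (T1 _ ℝ) (n + 1) univ := by
    have := gen_mem_Zc (List.finRange (n + 1)) (0 : R (n + 1))
    rwa [List.length_finRange] at this
  have hgs : supp (n + 1 + 1) (gen (List.finRange (n + 1)) (0 : R (n + 1))) ⊆ Icc a b := by
    have := supp_gen (List.finRange (n + 1)) (0 : R (n + 1))
    rw [List.length_finRange] at this
    intro y hy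
    rwa [show y = 0 from funext fun i => this hy i (List.mem_finRange i)]
  obtain ⟨w, hw, hw'⟩ := lam_box (h0.1.trans h0.2) (u := v - lam (n + 1) v • gen (List.finRange (n + 1)) 0)
    (Submodule.sub_mem _ hv (Submodule.smul_mem _ _ hgZ))
    (fun z hz => (supp_sub _ _ _ hz).elim (fun h => hK h) fun h => hgs (supp_smul _ _ _ h))
    (by rw [map_sub, map_smul, lam_gen_finRange, smul_eq_mul, mul_one, sub_self])
  have h1 := hw'.pb (φ := (piS ρ : R (n + 3) → R (n + 1))) isOpen_OmS (continuous_piS ρ).continuousOn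
    (mapsTo_univ _ _)
  rw [map_sub, map_sub, map_smul, pb_piS_gen hρ, pb_dT, pbT_T1] at h1
  have h2 := dT_cup (flat_T1 (OmS n)) (flat_TS ℝ) (compat_lsmul _ _) n 1 (pb (piS ρ) w) x'
  have h3 : Van (n + 1 + 2) (OmS n) ((-1 : ℝ) ^ n • cup (LinearMap.lsmul ℝ _) (TS ℝ n) n (pb (piS ρ) w)
      (dT (TS ℝ n) x')) := (van_cup_r _ _ n (q := 2) (by ring) _ hx').smul _
  have h4 := van_cup_l (LinearMap.lsmul ℝ (Fin 2 → ℝ)) (TS ℝ n) 1 (k := n + 1 + 2) rfl h1 x'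
  have h5 := van_cup_r om (TS ℝ n) 1 (q := n + 2) (k := n + 3 + 1) (by ring) x (h4.sub (h2.add h3))
  have h6 := lam_cup_dT (N := n + 3) (p := 1) (q := n + 1) (by ring) isOpen_OmS (flat_TS ℝ) (flat_TS ℝ)
    (compat_om _) hx (w := cup (LinearMap.lsmul ℝ _) (TS ℝ n) n (pb (piS ρ) w) x')
    (isCompact_piS_preimage hρ (isCompact_Icc (a := a) (b := b)))
    (fun z hz => (piS_mem_OmS hρ z).1 (hρ' _ hz))
    (fun z hz => hw (supp_pb (continuous_piS ρ).continuousAt (supp_cup' _ _ n 1 rfl _ _ hz.1).1))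
  have h7 := lamO_van h5
  simp only [map_sub, map_add, map_smul, LinearMap.sub_apply, LinearMap.smul_apply, h6, smul_eq_mul] at h7
  unfold Gam
  linarith

variable {m : ℕ} {E : Type*} [AddCommGroup E] [Module ℝ E] [Module ℂ E] [IsScalarTower ℝ ℂ E]
  {b : E →ₗ[ℝ] E →ₗ[ℝ] ℝ} {ρ : ℝ} {Ω S : Set (R (2 * m + 1))} {T : Tw (R (2 * m + 1)) E}

theorem HB.succ (hb : HB m b) : HB (m + 1) (bS b) := by
  refine ⟨fun w hw => ?_, fun w w' => ?_, fun w w' => ?_⟩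
  · funext i
    fin_cases i
    · exact hb.nondeg _ fun e => by simpa [bS_apply] using hw (Pi.single 1 e)
    · exact hb.nondeg _ fun e => by simpa [bS_apply] using hw (Pi.single 0 e)
  · rw [bS_apply, bS_apply, hb.symm (w 0), hb.symm (w 1)]
    ring
  · simp only [bS_apply, Pi.smul_apply, hb.herm]

/-- (`bS_mt`, `det_TM`; `frontier (π ⁻¹' S) ⊆ π ⁻¹' frontier S`) -/
theorem Cut.susp (h : Cut b Ω S T) (hρ : 0 < ρ) (hΩρ : ∀ x ∈ Ω, |x 0| < ρ) :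
    Cut (n := 2 * m + 3) (bS b) (piS ρ ⁻¹' Ω) (piS ρ ⁻¹' S) (TT ρ T) := by
  have hπ := continuous_piS (n := 2 * m) ρ
  refine ⟨h.isOpen.preimage hπ, flat_TT hρ h.isOpen hΩρ h.flat, fun z hz => ?_, fun x y c e => ?_,
    cpt_of_closed isClosed_frontier (isCompact_piS_preimage hρ h.cpt) (fun z hz => hz.2)
      fun z hz => ⟨hπ.frontier_preimage_subset S hz.1, hz.2⟩⟩
  · obtain ⟨W, hW, h1⟩ := h.compat _ hz
    refine ⟨piS ρ ⁻¹' W, hπ.continuousAt hW, fun x hx y hy e e' => ?_⟩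
    rw [SgLH.TT_apply, SgLH.TT_apply, bS_mt, det_TM, one_mul, bS_apply, bS_apply]
    simp only [LinearMap.compLeft_apply, Function.comp_apply, ← h1 _ hx _ hy]
    rfl
  · funext i
    simp [SgLH.TT_apply, mt, h.cplx, smul_comm c]

/-- Write `x ∪ y` for `crs x y`, `u' = pb π (δ (1_S y'))` (degree `m+1`, supported in the compact
`π ⁻¹' (frontier S ∩ Ω)` on `Ω' = π ⁻¹' Ω`).  `δ(1_{S'} (x' ∪ y')) = δ (x' ∪ 1_{S'} y') + δ w₁`
(`supp_cup_hm`) `= - x' ∪ u' + δ w₁`, `x' ∪ u' = (-1)^(m+1) u' ∪ x' + δ w₂` (`cup_comm`); the `δ w`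
terms do not contribute (`Cut.lam_cup_dT` upstairs).  `cup_assoc` twice:
`(x ∪ y) ∪ (u' ∪ x') = x ∪ (y ∪ (u' ∪ x')) = x ∪ ((y ∪ u') ∪ x')` with the intermediate pairing
`ν e w' = fun i => b e (w' i)`: `bS b (muS v e) w' = om v (ν e w')`,
`ν e (muS v' e') = b e e' • v'`.  `y ∪ u' = pb π v₀`, `v₀ = cup b T m y (δ 1_S y')`; cut `v₀` to a global
cocycle `v` (`exists_cut`), `lam v = beta y y'`, `lamO Ω' = lamO OmS` (`lamO_mono`), `Gam_pb`.
(`σ = (-1)^m`.) -/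
theorem beta_crs (h : Cut b Ω S T) (hρ : 0 < ρ) (hΩρ : ∀ x ∈ Ω, |x 0| < ρ) :
    ∃ σ : ℝ, σ ≠ 0 ∧ ∀ x ∈ Zc (TS ℝ (2 * m)) 1 (OmS (2 * m)), ∀ x' ∈ Zc (TS ℝ (2 * m)) 1 (OmS (2 * m)),
      ∀ y ∈ Zc T m Ω, ∀ y' ∈ Zc T m Ω,
      beta (m := m + 1) (bS b) (piS ρ ⁻¹' Ω) (piS ρ ⁻¹' S) (TT ρ T) (crs ρ T x y) (crs ρ T x' y') =
        σ * Gam (2 * m) (VC (2 * m)) x x' * beta b Ω S T y y' := by
  refine ⟨(-1) ^ m, pow_ne_zero _ (by norm_num), fun x hx x' hx' y hy y' hy' => ?_⟩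
  have hπ := continuous_piS (n := 2 * m) ρ
  have h' := h.susp hρ hΩρ
  have ho := h'.isOpen
  have hs := preimage_subset_OmS hρ hΩρ
  have fS : Flat (piS ρ ⁻¹' Ω) (TS ℝ (2 * m)) := (flat_TS ℝ).mono hs
  have fP : Flat (piS ρ ⁻¹' Ω : Set (R (2 * m + 3))) (pbT (piS ρ) T) :=
    h.flat.pbT ho hπ.continuousOn (mapsTo_preimage _ _)
  have hK := isCompact_piS_preimage (n := 2 * m) hρ h.cpt
  have hKΩ : (piS ρ ⁻¹' (frontier S ∩ Ω) : Set (R (2 * m + 3))) ⊆ piS ρ ⁻¹' Ω := fun z hz => hz.2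
  have hA := crs_mem_Zc hρ h.isOpen hΩρ h.flat hx hy
  set u := dT T (hm S y') with hu
  have huZ : u ∈ Zc T (m + 1) Ω := h.flat.dT_dT _ _
  have huZ' : pb (piS ρ) u ∈ Zc (pbT (piS ρ) T) (m + 1) (piS ρ ⁻¹' Ω : Set (R (2 * m + 3))) := by
    rw [mem_Zc, ← pb_dT]
    exact Van.pb ho hπ.continuousOn (mapsTo_preimage _ _) huZ
  -- step 1
  have s1 := lam_cup_dT (N := 2 * m + 3) (p := m + 1) (q := m + 1) (by ring) ho h'.flat h'.flat h'.compat hA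
    (w := crs ρ T x' (hm S y') - hm (piS ρ ⁻¹' S) (crs ρ T x' y')) hK hKΩ (fun z hz => by
      have := supp_cup_hm (piS ρ ⁻¹' S) (muS E) (pbT (piS ρ) T) 1 m x' (pb (piS ρ) y')
      rw [show 1 + m + 1 = m + 1 + 1 by ring, ← pb_hm] at this
      exact ⟨hπ.frontier_preimage_subset S (this hz.1).1.1, hz.2⟩)
  -- step 2
  have s2 := lamO_van (van_cup_r (bS b) (TT ρ T) (m + 1) (q := m + 2) (k := 2 * m + 3 + 1) (by ring)
    (crs ρ T x y) (SgLH.dT_crs hρ h.isOpen hΩρ h.flat hx' (m + 2) (hm S y')))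
  -- step 3
  obtain ⟨w, hw, hw'⟩ := cup_comm fS fP h'.flat (compat_muS _ ρ T) (p := 1) (q := m + 1) (Van.mono hx' hs) huZ'
  have s3 := lamO_van (van_cup_r (bS b) (TT ρ T) (m + 1) (q := 1 + (m + 1)) (k := 2 * m + 3 + 1) (by ring)
    (crs ρ T x y) hw')
  have s3' := lam_cup_dT (N := 2 * m + 3) (p := m + 1) (q := m + 1) (by ring) ho h'.flat h'.flat h'.compat hA
    (w := w) hK hKΩ (fun z hz => by
      rw [show 1 + (m + 1) = m + 1 + 1 by ring] at hw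
      exact ⟨(supp_dT_hm_cocycle hy' S ⟨supp_pb hπ.continuousAt (hw hz).2, hz.2⟩).1, hz.2⟩)
  -- step 4
  have c1 : Compat (piS ρ ⁻¹' Ω : Set (R (2 * m + 3))) (nu b) (pbT (piS ρ) T) (TT ρ T) (TS ℝ (2 * m)) := by
    intro z hz
    obtain ⟨W, hW, h1⟩ := h.compat _ hz
    refine ⟨piS ρ ⁻¹' W, hπ.continuousAt hW, fun x hx y hy e e' => funext fun i => ?_⟩
    have h2 : ∀ e e', b (T (piS ρ x) (piS ρ y) e) (T (piS ρ x) (piS ρ y) e') = b e e' :=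
      fun e e' => (h1 _ hx _ hy e e').symm
    simp [SgLH.TT_apply, TS, mt, nu, pbT, h2]
  have c2 : Compat (piS ρ ⁻¹' Ω : Set (R (2 * m + 3))) (muS E).flip (pbT (piS ρ) T) (TS ℝ (2 * m)) (TT ρ T) := by
    intro z hz
    obtain ⟨W, hW, h1⟩ := compat_muS _ ρ T z hz
    exact ⟨W, hW, fun x hx y hy e e' => h1 x hx y hy e' e⟩
  have a1 := cup_assoc (μ₁ := muS E) (μ₂ := bS b) (μ₃ := om) (μ₄ := nu b)
    (fun v e w => by simp [om, bS_apply, muS, nu]) h'.flat c1 1 m (m + 2) x (pb (piS ρ) y)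
    (cup (muS E).flip (TS ℝ (2 * m)) (m + 1) (pb (piS ρ) u) x')
  rw [add_comm 1 m] at a1
  have s4 := lamO_van (van_cast (k' := 2 * m + 3 + 1) a1 (by ring) rfl)
  -- step 5
  have a2 := cup_assoc (μ₁ := b) (μ₂ := LinearMap.lsmul ℝ (Fin 2 → ℝ)) (μ₃ := nu b) (μ₄ := (muS E).flip)
    (fun e e' v => by funext i; simp [muS, nu, mul_comm]) fS c2 m (m + 1) 1 (pb (piS ρ) y) (pb (piS ρ) u) x'
  rw [show m + (m + 1) = 2 * m + 1 by ring, ← pb_cup] at a2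
  have s5 := lamO_van (van_cup_r om (TS ℝ (2 * m)) 1 (q := 2 * m + 1 + 1) (k := 2 * m + 3 + 1) (by ring) x a2)
  -- step 6
  have k0 : supp (2 * m + 1 + 1) (cup b T m y u) ∩ Ω ⊆ frontier S ∩ Ω :=
    fun z hz => ⟨(supp_beta b y hy' hz).1.1, hz.2⟩
  have hc0 := isCompact_supp_inter h.cpt inter_subset_right k0
  obtain ⟨v, e1, e2, e3⟩ := exists_cut h.isOpen hc0
  have hvZ : v ∈ Zc (T1 _ ℝ) (2 * m + 1) univ := (e3 0).2 _ (by
    have := cup_mem_Zc h.flat h.flat h.compat hy huZ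
    rwa [show m + (m + 1) = 2 * m + 1 by ring] at this)
  have hβ : beta b Ω S T y y' = lam (2 * m + 1) v := lamO_eq (e1 ▸ hc0) (e1 ▸ inter_subset_right) e2
  have s6 := lamO_van (van_cup_r om (TS ℝ (2 * m)) 1 (q := 2 * m + 1 + 1) (k := 2 * m + 3 + 1) (by ring) x
    (van_cup_l (LinearMap.lsmul ℝ (Fin 2 → ℝ)) (TS ℝ (2 * m)) 1 rfl
      (e2.pb ho hπ.continuousOn (mapsTo_preimage _ _)) x'))
  have k1 : supp (2 * m + 3 + 1) (cup om (TS ℝ (2 * m)) 1 x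
      (cup (LinearMap.lsmul ℝ (Fin 2 → ℝ)) (TS ℝ (2 * m)) (2 * m + 1) (pb (piS ρ) v) x')) ∩ OmS (2 * m) ⊆
        piS ρ ⁻¹' (frontier S ∩ Ω) := fun z hz => by
    have := supp_pb hπ.continuousAt (supp_cup' _ _ (2 * m + 1) 1 rfl _ _
      (supp_cup' _ _ 1 (2 * m + 1 + 1) (by ring) _ _ hz.1).2).1
    rw [e1] at this
    exact k0 this
  have s7 := lamO_mono isOpen_OmS hs (isCompact_supp_inter hK (hKΩ.trans hs) k1) (k1.trans hKΩ)
  have s8 := Gam_pb hρ hvZ (e1 ▸ hc0) (fun z hz => hΩρ z (e1 ▸ hz).2) hx hx'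
  rw [Gam, ← s7] at s8
  change lamO (n := 2 * m + 3) (piS ρ ⁻¹' Ω) (cup (bS b) (TT ρ T) (m + 1) (crs ρ T x y)
    (dT (TT ρ T) (hm (piS ρ ⁻¹' S) (crs ρ T x' y')))) = _
  simp only [map_sub, map_add, map_smul, LinearMap.sub_apply, smul_eq_mul, one_mul, ← SgLH.crs_apply,
    ← hu] at s1 s2 s3 s4 s5 s6
  rw [hβ]
  rw [s3', pow_succ] at s3
  linear_combination -s1 + s2 - s3 + (-1 : ℝ) ^ m * (s4 - s5 + s6 + s8)

end Crest.Agent.R217
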