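import Crest.Agent.R217.SgDefs
import Crest.Agent.R217.Conv

/-! # R217 / SgGeo : planar geometry of the surface package
(unfold `dP dH dV dI`; `max_lt_iff`, `min_lt_iff`, `lt_max_iff`, `lt_min_iff`, `abs_lt`, `lt_abs`, case
analysis + `linarith`) -/

set_option autoImplicit false
open Set Topology Filter

namespace Crest.Agent.R217

variable {n : ℕ}

namespace SgGeo

theorem dI_lt_iff (s a b d : ℝ) : dI s a b < d ↔ a - d < s ∧ s < b + d ∧ 0 < d := by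
  unfold dI
  rw [max_lt_iff, max_lt_iff]
  constructor
  · rintro ⟨⟨h1, h2⟩, h3⟩; exact ⟨by linarith, by linarith, h3⟩
  · rintro ⟨h1, h2, h3⟩; exact ⟨⟨by linarith, by linarith⟩, h3⟩

theorem lt_dI_iff (s a b c : ℝ) : c < dI s a b ↔ s < a - c ∨ b + c < s ∨ c < 0 := by
  unfold dI
  rw [lt_max_iff, lt_max_iff]
  constructor
  · rintro ((h | h) | h)
    · exact Or.inl (by linarith)
    · exact Or.inr (Or.inl (by linarith))
    · exact Or.inr (Or.inr h)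
  · rintro (h | h | h)
    · exact Or.inl (Or.inl (by linarith))
    · exact Or.inl (Or.inr (by linarith))
    · exact Or.inr h

theorem dP_lt_iff (x : R (n + 3)) (d : ℝ) : dP x < d ↔
    ((0 - d < x 0 ∧ x 0 < 2 + d ∧ 0 < d) ∧
      ((-d < x 1 ∧ x 1 < d) ∨ (-d < x 1 - 1 ∧ x 1 - 1 < d))) ∨
    ((((-d < x 0 ∧ x 0 < d) ∨ (-d < x 0 - 1 ∧ x 0 - 1 < d)) ∨ (-d < x 0 - 2 ∧ x 0 - 2 < d)) ∧
      (0 - d < x 1 ∧ x 1 < 1 + d ∧ 0 < d)) := by
  unfold dP dH dV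
  simp only [min_lt_iff, max_lt_iff, dI_lt_iff, abs_lt]

theorem lt_dP_iff (x : R (n + 3)) (c : ℝ) : c < dP x ↔
    ((x 0 < 0 - c ∨ 2 + c < x 0 ∨ c < 0) ∨
      ((c < x 1 ∨ c < -x 1) ∧ (c < x 1 - 1 ∨ c < -(x 1 - 1)))) ∧
    ((((c < x 0 ∨ c < -x 0) ∧ (c < x 0 - 1 ∨ c < -(x 0 - 1))) ∧ (c < x 0 - 2 ∨ c < -(x 0 - 2))) ∨
      (x 1 < 0 - c ∨ 1 + c < x 1 ∨ c < 0)) := by
  unfold dP dH dV
  simp only [lt_min_iff, lt_max_iff, lt_dI_iff, lt_abs]

theorem continuous_dI (a b : ℝ) : Continuous fun s => dI s a b := by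
  unfold dI; fun_prop

theorem le_dI_left (s a b : ℝ) : a - s ≤ dI s a b := (le_max_left _ _).trans (le_max_left _ _)

theorem le_dI_right (s a b : ℝ) : s - b ≤ dI s a b := (le_max_right _ _).trans (le_max_left _ _)

theorem piS_zero (ρ : ℝ) (x : R (n + 3)) : piS ρ x 0 = 4 * ρ * (hh x - 1 / 4) := rfl

theorem piS_succ (ρ : ℝ) (x : R (n + 3)) (i : Fin n) : piS ρ x i.succ = tl x i := by
  simp [piS]

theorem coord_bound {x : R (n + 3)} {C : ℝ} (h : hh x < C) :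
    |x 0| ≤ C + 2 ∧ |x 1| ≤ C + 2 ∧ |x 2| ≤ C + 2 := by
  unfold hh at h
  rw [max_lt_iff, dP_lt_iff] at h
  obtain ⟨h2, h⟩ := h
  refine ⟨?_, ?_, by linarith⟩
  · rw [abs_le]
    rcases h with ⟨⟨h1, h2, h3⟩, _⟩ | ⟨(⟨h1, h2⟩ | ⟨h1, h2⟩) | ⟨h1, h2⟩, _, _, h3⟩ <;>
      constructor <;> linarith
  · rw [abs_le]
    rcases h with ⟨⟨_, _, h3⟩, ⟨h1, h2⟩ | ⟨h1, h2⟩⟩ | ⟨_, h1, h2, h3⟩ <;>
      constructor <;> linarith

end SgGeo

open SgGeo

theorem continuous_tl : Continuous (tl : R (n + 3) → R n) := by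
  unfold tl; fun_prop

theorem continuous_dP : Continuous (dP : R (n + 3) → ℝ) := by
  unfold dP dH dV dI; fun_prop

theorem continuous_hh : Continuous (hh : R (n + 3) → ℝ) := by
  unfold hh
  exact (continuous_apply 2).abs.max continuous_dP

theorem continuous_piS (ρ : ℝ) : Continuous (piS ρ : R (n + 3) → R (n + 1)) := by
  refine continuous_pi fun i => ?_
  refine Fin.cases ?_ (fun j => ?_) i
  · simp only [piS_zero]
    exact continuous_const.mul (continuous_hh.sub continuous_const)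
  · simp only [piS_succ]
    exact (continuous_apply j).comp continuous_tl

theorem dP_nonneg (x : R (n + 3)) : 0 ≤ dP x := by
  unfold dP dH dV dI
  exact le_min ((le_max_right _ _).trans (le_max_left _ _))
    ((le_max_right _ _).trans (le_max_right _ _))

/-- `piS` is proper: `hh x ≤ C` bounds the first three coordinates -/
theorem isCompact_piS_preimage {ρ : ℝ} (hρ : 0 < ρ) {K : Set (R (n + 1))} (hK : IsCompact K) :
    IsCompact (piS ρ ⁻¹' K : Set (R (n + 3))) := by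
  refine Metric.isCompact_of_isClosed_isBounded (hK.isClosed.preimage (continuous_piS ρ)) ?_
  obtain ⟨C, hC⟩ := hK.isBounded.exists_norm_le
  refine (isBounded_iff_forall_norm_le).2 ⟨max (|C / (4 * ρ) + 1| + 2) |C|, fun x hx => ?_⟩
  have h1 := hC _ hx
  have hhb : hh x < |C / (4 * ρ) + 1| := by
    have h0 := (norm_le_pi_norm (piS ρ x) 0).trans h1
    rw [piS_zero, Real.norm_eq_abs] at h0
    have h2 := (abs_le.1 h0).2
    have h3 : hh x - 1 / 4 ≤ C / (4 * ρ) := by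
      rw [le_div_iff₀ (by positivity)]; linarith
    have := le_abs_self (C / (4 * ρ) + 1)
    linarith
  obtain ⟨b0, b1, b2⟩ := coord_bound hhb
  refine (pi_norm_le_iff_of_nonneg (le_max_of_le_right (abs_nonneg _))).2 fun i => ?_
  rw [Real.norm_eq_abs]
  refine Fin.cases (le_max_of_le_left b0) (fun i => ?_) i
  refine Fin.cases (le_max_of_le_left b1) (fun i => ?_) i
  refine Fin.cases (le_max_of_le_left b2) (fun i => ?_) i
  refine le_max_of_le_right ?_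
  have h0 := (norm_le_pi_norm (piS ρ x) i.succ).trans h1
  rw [piS_succ, Real.norm_eq_abs] at h0
  exact h0.trans (le_abs_self C)

theorem piS_mem_OmS {ρ : ℝ} (hρ : 0 < ρ) (x : R (n + 3)) : |piS ρ x 0| < ρ ↔ x ∈ OmS n := by
  rw [piS_zero, abs_lt]
  simp only [OmS, mem_ofPred_eq]
  constructor
  · rintro ⟨h1, h2⟩
    constructor <;> nlinarith
  · rintro ⟨h1, h2⟩
    constructor <;> nlinarith

theorem piS_preimage_box {ρ : ℝ} (hρ : 0 < ρ) (a b : R (n + 1)) :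
    (piS ρ ⁻¹' Box a b : Set (R (n + 3))) =
      Shell (a 0 / (4 * ρ) + 1 / 4) (b 0 / (4 * ρ) + 1 / 4) (Box (Fin.tail a) (Fin.tail b)) := by
  ext x
  simp only [mem_preimage, Box, Shell, mem_ofPred_eq, Fin.forall_fin_succ, piS_zero, piS_succ,
    Fin.tail]
  have h4 : 0 < 4 * ρ := by positivity
  have e1 : a 0 < 4 * ρ * (hh x - 1 / 4) ↔ a 0 / (4 * ρ) + 1 / 4 < hh x := by
    rw [← lt_sub_iff_add_lt, div_lt_iff₀ h4, mul_comm]
  have e2 : 4 * ρ * (hh x - 1 / 4) < b 0 ↔ hh x < b 0 / (4 * ρ) + 1 / 4 := by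
    rw [← sub_lt_iff_lt_add, lt_div_iff₀ h4, mul_comm]
  rw [e1, e2, and_assoc]

theorem pb_piS_gen_succ (ρ : ℝ) (L : List (Fin n)) :
    pb (piS ρ) (gen (L.map Fin.succ) (0 : R (n + 1))) =
      gen (L.map fun i => i.succ.succ.succ) (0 : R (n + 3)) := by
  induction L with
  | nil => rfl
  | cons i L ih =>
    simp only [List.map_cons, gen]
    rw [pb_dT, pb_hm, ih, pbT_T1]
    congr 3

/-- `List.finRange_succ` -/
theorem pb_piS_gen {ρ : ℝ} (hρ : 0 < ρ) :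
    pb (piS ρ) (gen (List.finRange (n + 1)) (0 : R (n + 1))) = VC n := by
  rw [List.finRange_succ, gen, pb_dT, pb_hm, pb_piS_gen_succ, pbT_T1, VC]
  congr 3
  ext x
  simp only [mem_preimage, mem_ofPred_eq, piS_zero, Pi.zero_apply]
  constructor
  · intro h
    have := (mul_pos_iff_of_pos_left (by positivity : (0 : ℝ) < 4 * ρ)).1 h
    linarith
  · intro h
    exact mul_pos (by positivity) (by linarith)

theorem isOpen_OmS : IsOpen (OmS n) := by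
  exact (isOpen_lt continuous_const continuous_hh).inter (isOpen_lt continuous_hh continuous_const)

theorem isOpen_UP : IsOpen (UP n) := by
  exact (isOpen_lt continuous_dP continuous_const).inter
    ((isOpen_lt continuous_const (continuous_apply 2)).union
      (isOpen_lt continuous_const continuous_dP))

theorem isOpen_UN : IsOpen (UN n) := by
  exact (isOpen_lt continuous_dP continuous_const).inter
    ((isOpen_lt (continuous_apply 2) continuous_const).union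
      (isOpen_lt continuous_const continuous_dP))

theorem isOpen_shell (c d : ℝ) {Q : Set (R n)} (hQ : IsOpen Q) : IsOpen (Shell c d Q) := by
  exact (isOpen_lt continuous_const continuous_hh).inter
    ((isOpen_lt continuous_hh continuous_const).inter (hQ.preimage continuous_tl))

theorem isOpen_slab (d j₁ j₂ : ℝ) {Q : Set (R n)} (hQ : IsOpen Q) : IsOpen (Slab d j₁ j₂ Q) := by
  exact (isOpen_lt continuous_dP continuous_const).inter
    ((isOpen_Ioo.preimage (continuous_apply 2)).inter (hQ.preimage continuous_tl))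

theorem isOpen_wall (c d j₁ j₂ : ℝ) {Q : Set (R n)} (hQ : IsOpen Q) :
    IsOpen (Wall c d j₁ j₂ Q) := by
  exact (isOpen_lt continuous_const continuous_dP).inter
    ((isOpen_lt continuous_dP continuous_const).inter
      ((isOpen_Ioo.preimage (continuous_apply 2)).inter (hQ.preimage continuous_tl)))

theorem isOpen_BQ (a₀ b₀ a₁ b₁ j₁ j₂ : ℝ) {Q : Set (R n)} (hQ : IsOpen Q) :
    IsOpen (BQ a₀ b₀ a₁ b₁ j₁ j₂ Q) := by
  exact (isOpen_Ioo.preimage (continuous_apply 0)).inter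
    ((isOpen_Ioo.preimage (continuous_apply 1)).inter
      ((isOpen_Ioo.preimage (continuous_apply 2)).inter (hQ.preimage continuous_tl)))

theorem ac_BQ (E : Type*) [AddCommGroup E] [Module ℝ E] {a₀ b₀ a₁ b₁ j₁ j₂ : ℝ} (h₀ : a₀ < b₀)
    (h₁ : a₁ < b₁) (hj : j₁ < j₂) {Q : Set (R n)} (hQ : IsOpen Q) (hc : Convex ℝ Q)
    (hne : Q.Nonempty) : AC E (BQ a₀ b₀ a₁ b₁ j₁ j₂ Q) := by
  refine ac_convex (isOpen_BQ _ _ _ _ _ _ hQ) ?_ ?_
  · intro x hx y hy s t hs ht hst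
    refine ⟨convex_Ioo _ _ hx.1 hy.1 hs ht hst, convex_Ioo _ _ hx.2.1 hy.2.1 hs ht hst,
      convex_Ioo _ _ hx.2.2.1 hy.2.2.1 hs ht hst, ?_⟩
    exact hc hx.2.2.2 hy.2.2.2 hs ht hst
  · obtain ⟨q, hq⟩ := hne
    refine ⟨Fin.cons ((a₀ + b₀) / 2) (Fin.cons ((a₁ + b₁) / 2) (Fin.cons ((j₁ + j₂) / 2) q)),
      ⟨?_, ?_⟩, ⟨?_, ?_⟩, ⟨?_, ?_⟩, hq⟩
    · change a₀ < (a₀ + b₀) / 2; linarith
    · change (a₀ + b₀) / 2 < b₀; linarith
    · change a₁ < (a₁ + b₁) / 2; linarith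
    · change (a₁ + b₁) / 2 < b₁; linarith
    · change j₁ < (j₁ + j₂) / 2; linarith
    · change (j₁ + j₂) / 2 < j₂; linarith

theorem BQ_inter (a₀ b₀ a₁ b₁ a₀' b₀' a₁' b₁' j₁ j₂ : ℝ) (Q : Set (R n)) :
    BQ a₀ b₀ a₁ b₁ j₁ j₂ Q ∩ BQ a₀' b₀' a₁' b₁' j₁ j₂ Q =
      BQ (max a₀ a₀') (min b₀ b₀') (max a₁ a₁') (min b₁ b₁') j₁ j₂ Q := by
  ext x
  simp only [BQ, mem_inter_iff, mem_ofPred_eq, mem_Ioo, max_lt_iff, lt_min_iff]
  tauto

theorem OmS_subset : OmS n ⊆ UP n ∪ UN n := by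
  rintro x ⟨h1, h2⟩
  unfold hh at h1 h2
  rw [lt_max_iff, lt_abs] at h1
  rw [max_lt_iff] at h2
  rcases h1 with (h | h) | h
  · exact Or.inl ⟨h2.2, Or.inl h⟩
  · exact Or.inr ⟨h2.2, Or.inl (by linarith)⟩
  · exact Or.inl ⟨h2.2, Or.inr h⟩

theorem shell_eq {c d : ℝ} (hc : 0 < c) (Q : Set (R n)) :
    Shell c d Q = (Slab d c d Q ∪ Slab d (-d) (-c) Q) ∪ Wall c d (-d) d Q := by
  ext x
  simp only [Shell, Slab, Wall, hh, mem_union, mem_ofPred_eq, mem_Ioo, lt_max_iff, max_lt_iff,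
    lt_abs, abs_lt]
  constructor
  · rintro ⟨(h | h) | h, ⟨⟨h1, h2⟩, h3⟩, h4⟩
    · exact Or.inl (Or.inl ⟨h3, ⟨h, h2⟩, h4⟩)
    · exact Or.inl (Or.inr ⟨h3, ⟨h1, by linarith⟩, h4⟩)
    · exact Or.inr ⟨h, h3, ⟨h1, h2⟩, h4⟩
  · rintro ((⟨h3, ⟨h, h2⟩, h4⟩ | ⟨h3, ⟨h1, h⟩, h4⟩) | ⟨h, h3, ⟨h1, h2⟩, h4⟩)
    · exact ⟨Or.inl (Or.inl h), ⟨⟨by linarith, h2⟩, h3⟩, h4⟩
    · exact ⟨Or.inl (Or.inr (by linarith)), ⟨⟨h1, by linarith⟩, h3⟩, h4⟩
    · exact ⟨Or.inr h, ⟨⟨h1, h2⟩, h3⟩, h4⟩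

theorem slab_inter_wall {c d : ℝ} (hc : 0 < c) (hcd : c < d) (Q : Set (R n)) :
    (Slab d c d Q ∪ Slab d (-d) (-c) Q) ∩ Wall c d (-d) d Q =
      Wall c d c d Q ∪ Wall c d (-d) (-c) Q := by
  ext x
  simp only [Slab, Wall, mem_union, mem_inter_iff, mem_ofPred_eq, mem_Ioo]
  constructor
  · rintro ⟨⟨h1, h2, h3⟩ | ⟨h1, h2, h3⟩, h4, _⟩
    · exact Or.inl ⟨h4, h1, h2, h3⟩
    · exact Or.inr ⟨h4, h1, h2, h3⟩
  · rintro (⟨h4, h1, h2, h3⟩ | ⟨h4, h1, h2, h3⟩)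
    · exact ⟨Or.inl ⟨h1, h2, h3⟩, h4, h1, ⟨by linarith [h2.1], h2.2⟩, h3⟩
    · exact ⟨Or.inr ⟨h1, h2, h3⟩, h4, h1, ⟨h2.1, by linarith [h2.2]⟩, h3⟩

theorem slab_eq {d : ℝ} (hd : 0 < d) (j₁ j₂ : ℝ) (Q : Set (R n)) :
    Slab d j₁ j₂ Q = BQ (-d) (2 + d) (1 - d) (1 + d) j₁ j₂ Q ∪
      (BQ (-d) (2 + d) (-d) d j₁ j₂ Q ∪ BQ (-d) d (-d) (1 + d) j₁ j₂ Q ∪
        BQ (1 - d) (1 + d) (-d) (1 + d) j₁ j₂ Q ∪ BQ (2 - d) (2 + d) (-d) (1 + d) j₁ j₂ Q) := by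
  ext x
  simp only [Slab, BQ, mem_union, mem_ofPred_eq, mem_Ioo, dP_lt_iff]
  generalize ((j₁ < x 2 ∧ x 2 < j₂) ∧ tl x ∈ Q) = P
  generalize x 0 = u
  generalize x 1 = v
  by_cases hP : P
  · simp only [hP, and_true]
    grind
  · simp [hP]

theorem wall_eq {c d : ℝ} (hc : 0 < c) (hcd : c < d) (hd : d < 1 / 2) (j₁ j₂ : ℝ)
    (Q : Set (R n)) : Wall c d j₁ j₂ Q =
      Frame c d (1 - d) (1 - c) c d (1 - d) (1 - c) j₁ j₂ Q ∪
      Frame (1 + c) (1 + d) (2 - d) (2 - c) c d (1 - d) (1 - c) j₁ j₂ Q ∪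
      Frame (-d) (-c) (2 + c) (2 + d) (-d) (-c) (1 + c) (1 + d) j₁ j₂ Q := by
  ext x
  simp only [Wall, Frame, BQ, mem_union, mem_ofPred_eq, mem_Ioo, dP_lt_iff, lt_dP_iff]
  generalize ((j₁ < x 2 ∧ x 2 < j₂) ∧ tl x ∈ Q) = P
  generalize x 0 = u
  generalize x 1 = v
  by_cases hP : P
  · simp only [hP, and_true]
    grind (splits := 40)
  · simp [hP]

/-- where `0 < dP < 1/2`: hole 1, hole 2, or outside -/
theorem dP_pos_cases {x : R (n + 3)} (h : 0 < dP x) :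
    (0 < x 1 ∧ x 1 < 1 ∧ 0 < x 0 ∧ x 0 < 1) ∨ (0 < x 1 ∧ x 1 < 1 ∧ 1 < x 0 ∧ x 0 < 2) ∨
      1 < x 1 ∨ x 1 < 0 ∨ x 0 < 0 ∨ 2 < x 0 := by
  rw [lt_dP_iff] at h
  generalize x 0 = u at *
  generalize x 1 = v at *
  grind

/-- on the line `x 1 = 1/2` we are near a vertical segment -/
theorem dP_half_cases {x : R (n + 3)} (h : dP x < 1 / 2) (h1 : x 1 = 1 / 2) :
    |x 0| < 1 / 2 ∨ |x 0 - 1| < 1 / 2 ∨ |x 0 - 2| < 1 / 2 := by
  rw [dP_lt_iff, h1] at h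
  simp only [abs_lt]
  generalize x 0 = u at *
  grind

end Crest.Agent.R217
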