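import Crest.Agent.R217.SgCoc
import Crest.Agent.R217.Comm

/-! # R217 / SgGram0 : triple products -/

set_option autoImplicit false
open Set Topology Filter

namespace Crest.Agent.R217.Gram

section gen
variable {X : Type*} [TopologicalSpace X] {A B C D F : Type*} [AddCommGroup A] [Module ℝ A]
  [AddCommGroup B] [Module ℝ B] [AddCommGroup C] [Module ℝ C] [AddCommGroup D] [Module ℝ D]
  [AddCommGroup F] [Module ℝ F]

theorem supp_cup' (μ : A →ₗ[ℝ] B →ₗ[ℝ] C) (T' : Tw X B) {p q k : ℕ} (hk : k = p + q + 1)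
    (f : Co X A) (g : Co X B) : supp k (cup μ T' p f g) ⊆ supp (p + 1) f ∩ supp (q + 1) g := by
  subst hk; exact supp_cup μ T' p q f g

theorem van_cup_left {U : Set X} (μ : A →ₗ[ℝ] B →ₗ[ℝ] C) (T' : Tw X B) {p q k : ℕ}
    (hk : k = p + q + 1) {f : Co X A} (hf : Van (p + 1) U f) (g : Co X B) :
    Van k U (cup μ T' p f g) := fun z hz h => hf z hz (supp_cup' μ T' hk f g h).1

theorem van_cup_right {U : Set X} (μ : A →ₗ[ℝ] B →ₗ[ℝ] C) (T' : Tw X B) {p q k : ℕ}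
    (hk : k = p + q + 1) (f : Co X A) {g : Co X B} (hg : Van (q + 1) U g) :
    Van k U (cup μ T' p f g) := fun z hz h => hg z hz (supp_cup' μ T' hk f g h).2

theorem van_of_eq {k : ℕ} {U : Set X} {f g : Co X A} (h : Van k U f) (e : g = f) : Van k U g :=
  e ▸ h

/-- `f ∪ δ g = ± δ (f ∪ g)` for a cocycle `f` -/
theorem cup_dT_right {U : Set X} {μ : A →ₗ[ℝ] B →ₗ[ℝ] C} {T : Tw X A} {T' : Tw X B}
    {T'' : Tw X C} (hT : Flat U T) (hT' : Flat U T') (hμ : Compat U μ T T' T'') {p q k : ℕ}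
    (hk : k = p + q + 2) {f : Co X A} (hf : f ∈ Zc T p U) (g : Co X B) :
    Van k U (cup μ T' p f (dT T' g) - dT T'' ((-1 : ℝ) ^ p • cup μ T' p f g)) := by
  subst hk
  have h1 := dT_cup hT hT' hμ p q f g
  have h2 : Van (p + q + 2) U (cup μ T' (p + 1) (dT T f) g) :=
    van_cup_left (q := q) μ T' (by ring) (mem_Zc.1 hf) g
  have h3 := ((h1.add h2).smul ((-1 : ℝ) ^ p)).neg
  refine van_of_eq h3 ?_
  have : ((-1 : ℝ) ^ p) * (-1) ^ p = 1 := by rw [← mul_pow]; simp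
  rw [map_smul]
  simp only [smul_add, smul_sub, smul_smul, this, one_smul]
  abel

/-- `δ f ∪ g = δ (f ∪ g)` for a cocycle `g` -/
theorem cup_dT_left {U : Set X} {μ : A →ₗ[ℝ] B →ₗ[ℝ] C} {T : Tw X A} {T' : Tw X B}
    {T'' : Tw X C} (hT : Flat U T) (hT' : Flat U T') (hμ : Compat U μ T T' T'') {p q k : ℕ}
    (hk : k = p + q + 2) (f : Co X A) {g : Co X B} (hg : g ∈ Zc T' q U) :
    Van k U (cup μ T' (p + 1) (dT T f) g - dT T'' (cup μ T' p f g)) := by
  subst hk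
  have h1 := dT_cup hT hT' hμ p q f g
  have h2 : Van (p + q + 2) U (cup μ T' p f (dT T' g)) :=
    van_cup_right (q := q + 1) μ T' (by ring) f (mem_Zc.1 hg)
  have h3 := (h1.add (h2.smul ((-1 : ℝ) ^ p))).neg
  refine van_of_eq h3 ?_
  abel

/-- coboundary in the last slot -/
theorem triple_last {U : Set X} {μ : A →ₗ[ℝ] D →ₗ[ℝ] F} {ν : B →ₗ[ℝ] C →ₗ[ℝ] D} {TA : Tw X A}
    {TB : Tw X B} {TC : Tw X C} {TD : Tw X D} {TF : Tw X F} (hA : Flat U TA) (hB : Flat U TB)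
    (hC : Flat U TC) (hD : Flat U TD) (hμ : Compat U μ TA TD TF) (hν : Compat U ν TB TC TD)
    {p q r k : ℕ} (hk : k = p + q + r + 1) {x : Co X A} (hx : x ∈ Zc TA p U) {v : Co X B}
    (hv : v ∈ Zc TB q U) (g : Co X C) :
    ∃ w, supp k w ⊆ supp (p + 1) x ∩ (supp (q + 1) v ∩ supp (r + 1) g) ∧
      Van (k + 1) U (cup μ TD p x (cup ν TC q v (dT TC g)) - dT TF w) := by
  set c := (-1 : ℝ) ^ q • cup ν TC q v g with hc
  refine ⟨(-1 : ℝ) ^ p • cup μ TD p x c, ?_, ?_⟩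
  · refine (supp_smul _ _ _).trans ((supp_cup' (q := q + r) μ TD (by omega) x c).trans ?_)
    refine inter_subset_inter_right _ ((supp_smul _ _ _).trans ?_)
    exact supp_cup ν TC q r v g
  · have h1 : Van (q + r + 1 + 1) U (cup ν TC q v (dT TC g) - dT TD c) :=
      cup_dT_right (q := r) hB hC hν (by ring) hv g
    have h2 := van_cup_right (p := p) (k := k + 1) μ TD (by omega) x h1
    have h3 := cup_dT_right (q := q + r) (k := k + 1) hA hD hμ (by omega) hx c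
    refine van_of_eq (h2.add h3) ?_
    rw [map_sub]; abel

/-- coboundary in the middle slot -/
theorem triple_mid {U : Set X} {μ : A →ₗ[ℝ] D →ₗ[ℝ] F} {ν : B →ₗ[ℝ] C →ₗ[ℝ] D} {TA : Tw X A}
    {TB : Tw X B} {TC : Tw X C} {TD : Tw X D} {TF : Tw X F} (hA : Flat U TA) (hB : Flat U TB)
    (hC : Flat U TC) (hD : Flat U TD) (hμ : Compat U μ TA TD TF) (hν : Compat U ν TB TC TD)
    {p q r k : ℕ} (hk : k = p + q + r + 1) {x : Co X A} (hx : x ∈ Zc TA p U) (v : Co X B)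
    {g : Co X C} (hg : g ∈ Zc TC r U) :
    ∃ w, supp k w ⊆ supp (p + 1) x ∩ (supp (q + 1) v ∩ supp (r + 1) g) ∧
      Van (k + 1) U (cup μ TD p x (cup ν TC (q + 1) (dT TB v) g) - dT TF w) := by
  set c := cup ν TC q v g with hc
  refine ⟨(-1 : ℝ) ^ p • cup μ TD p x c, ?_, ?_⟩
  · refine (supp_smul _ _ _).trans ((supp_cup' (q := q + r) μ TD (by omega) x c).trans ?_)
    exact inter_subset_inter_right _ (supp_cup ν TC q r v g)
  · have h1 : Van (q + r + 1 + 1) U (cup ν TC (q + 1) (dT TB v) g - dT TD c) :=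
      cup_dT_left (q := r) hB hC hν (by ring) v hg
    have h2 := van_cup_right (p := p) (k := k + 1) μ TD (by omega) x h1
    have h3 := cup_dT_right (q := q + r) (k := k + 1) hA hD hμ (by omega) hx c
    refine van_of_eq (h2.add h3) ?_
    rw [map_sub]; abel

theorem compat_T1 (U : Set X) (μ : A →ₗ[ℝ] B →ₗ[ℝ] C) : Compat U μ (T1 X A) (T1 X B) (T1 X C) :=
  fun _ _ => ⟨univ, univ_mem, fun _ _ _ _ _ _ => rfl⟩

theorem compat_lsmul (U : Set X) (T : Tw X A) :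
    Compat U (LinearMap.lsmul ℝ A) (T1 X ℝ) T T :=
  fun _ _ => ⟨univ, univ_mem, fun x _ y _ e e' => by simp [T1]⟩

theorem dT_mem_Zc {U : Set X} {T : Tw X A} (hT : Flat U T) (k : ℕ) (f : Co X A) :
    dT T f ∈ Zc T k U := hT.dT_dT _ f

theorem Zc_mono {U V : Set X} {T : Tw X A} {k : ℕ} {f : Co X A} (h : f ∈ Zc T k V)
    (hUV : U ⊆ V) : f ∈ Zc T k U := (mem_Zc.1 h).mono hUV

theorem Zc_congr {U : Set X} {T : Tw X A} {k : ℕ} {f g : Co X A} (h : g ∈ Zc T k U)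
    (hfg : Van (k + 1) U (f - g)) : f ∈ Zc T k U := by
  have := (hfg.dT T).add (mem_Zc.1 h)
  refine van_of_eq this ?_
  rw [map_sub]; abel

/-- support of `hm S f - hm S' f` -/
theorem supp_hm_sub (k : ℕ) (S S' : Set X) (f : Co X A) :
    supp k (hm S f - hm S' f) ⊆ supp k f ∩ closure {x | ¬ (x ∈ S ↔ x ∈ S')} := by
  intro z hz
  refine ⟨((supp_sub k _ _ hz).elim (fun h => (supp_hm k S f h).1) fun h => (supp_hm k S' f h).1), ?_⟩
  by_contra hc
  refine van_hm_congr k (U := (closure {x | ¬ (x ∈ S ↔ x ∈ S')})ᶜ) (S := S) (S' := S')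
    isClosed_closure.isOpen_compl (fun x hx => ?_) f z hc hz
  by_contra h
  exact hx (subset_closure h)

end gen

end Crest.Agent.R217.Gram
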