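import Crest.Agent.R217.SgGram0

/-! # R217 / SgGram1 : the model class -/

set_option autoImplicit false
open Set Topology Filter

namespace Crest.Agent.R217

variable {n : ℕ}

/-- tail coordinates -/
def LT (n : ℕ) : List (Fin (n + 3)) := (List.finRange n).map fun i => i.succ.succ.succ

/-- the wall cocycle `θ_S = δ 1_S` -/
noncomputable def th {X : Type*} (S : Set X) : Co X ℝ := dT (T1 _ _) (hm S fun _ => 1)

/-- the model class `θ_{t>0} ∪ (δ(1_{x 1 > s} U) ∪ θ_{x 0 ≥ 13/8})` -/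
noncomputable def mdl (n : ℕ) (S : Set (R (n + 3))) : Co (R (n + 3)) ℝ :=
  cup (LinearMap.mul ℝ ℝ) (T1 _ _) 1 (th {x | 0 < x 2})
    (cup (LinearMap.mul ℝ ℝ) (T1 _ _) (n + 1) (dT (T1 _ _) (hm S (gen (LT n) 0)))
      (th {x | 13 / 8 ≤ x 0}))

namespace Gram

theorem length_LT (n : ℕ) : (LT n).length = n := by simp [LT]

theorem U_mem (z : R (n + 3)) : gen (LT n) z ∈ Zc (T1 (R (n + 3)) ℝ) n univ := by
  have := gen_mem_Zc (LT n) z
  rwa [length_LT] at this

theorem supp_U : supp (n + 1) (gen (LT n) (0 : R (n + 3))) ⊆ {x | tl x = 0} := by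
  have := supp_gen (LT n) (0 : R (n + 3))
  rw [length_LT] at this
  intro x hx
  funext i
  exact this hx _ (List.mem_map.2 ⟨i, List.mem_finRange i, rfl⟩)

theorem supp_dT_hm_U (S : Set (R (n + 3))) :
    supp (n + 2) (dT (T1 _ _) (hm S (gen (LT n) (0 : R (n + 3))))) ⊆ frontier S ∩ {x | tl x = 0} := by
  intro x hx
  have := supp_dT_hm_cocycle (U_mem (n := n) 0) S ⟨hx, mem_univ _⟩
  exact ⟨this.1, supp_U this.2⟩

theorem th_mem {X : Type*} [TopologicalSpace X] (U S : Set X) : th S ∈ Zc (T1 X ℝ) 1 U :=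
  dT_mem_Zc (flat_T1 U) 1 _

theorem supp_th {X : Type*} [TopologicalSpace X] (S : Set X) : supp 2 (th S) ⊆ frontier S :=
  fun _ hx => (supp_dT_hm_cocycle (const_mem_Zc univ (1 : ℝ)) S ⟨hx, mem_univ _⟩).1

theorem frontier_lt {N : ℕ} (c : ℝ) (i : Fin N) : frontier {x : R N | c < x i} ⊆ {x | x i = c} :=
  fun _ hx => (frontier_lt_subset_eq continuous_const (continuous_apply i) hx).symm

theorem frontier_le {N : ℕ} (c : ℝ) (i : Fin N) : frontier {x : R N | c ≤ x i} ⊆ {x | x i = c} :=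
  fun _ hx => (frontier_le_subset_eq continuous_const (continuous_apply i) hx).symm

theorem norm_le_of_coords {x : R (n + 3)} {r : ℝ} (hr : 0 ≤ r) (h0 : |x 0| ≤ r) (h1 : |x 1| ≤ r)
    (h2 : |x 2| ≤ r) (ht : tl x = 0) : ‖x‖ ≤ r := by
  rw [pi_norm_le_iff_of_nonneg hr]
  intro i
  refine Fin.cases h0 (fun i => Fin.cases h1 (fun i => Fin.cases h2 (fun i => ?_) i) i) i
  have : x i.succ.succ.succ = 0 := congrFun ht i
  simp [this, hr]

theorem isCompact_supp_of {E : Type*} [AddCommGroup E] {k : ℕ} {f : Co (R (n + 3)) E} {r : ℝ}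
    (hr : 0 ≤ r) (h : ∀ x ∈ supp k f, |x 0| ≤ r ∧ |x 1| ≤ r ∧ |x 2| ≤ r ∧ tl x = 0) :
    IsCompact (supp k f) :=
  (isCompact_closedBall (0 : R (n + 3)) r).of_isClosed_subset (isClosed_supp k f) fun x hx => by
    obtain ⟨h0, h1, h2, ht⟩ := h x hx
    simpa using norm_le_of_coords hr h0 h1 h2 ht

theorem lam_eq_of {N : ℕ} {u v w : Co (R N) ℝ} (hw : IsCompact (supp N w))
    (h : Van (N + 1) univ (u - v - dT (T1 _ _) w)) : lam N u = lam N v := by
  have h1 := (isLam N).van _ h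
  have h2 := (isLam N).cob _ hw
  rw [map_sub, map_sub, h2] at h1
  linarith

theorem gen_congr {N : ℕ} {L : List (Fin N)} {z z' : R N} (h : ∀ i ∈ L, z i = z' i) :
    gen L z = gen L z' := by
  induction L with
  | nil => rfl
  | cons i L ih =>
    simp only [gen]
    rw [ih fun j hj => h j (List.mem_cons_of_mem _ hj), h i List.mem_cons_self]

end Gram
open Gram

theorem VC_mem_Zc : VC n ∈ Zc (T1 (R (n + 3)) ℝ) (n + 1) univ := dT_mem_Zc (flat_T1 _) _ _

theorem supp_VC : supp (n + 2) (VC n) ⊆ {x | hh x = 1 / 4 ∧ tl x = 0} := fun _ hx =>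
  have := supp_dT_hm_U _ hx
  ⟨(frontier_lt_subset_eq continuous_const continuous_hh this.1).symm, this.2⟩

theorem isCompact_level : IsCompact {x : R (n + 3) | hh x = 1 / 4 ∧ tl x = 0} := by
  have := isCompact_piS_preimage (n := n) one_pos (isCompact_singleton (x := 0))
  convert this using 1
  ext x
  simp only [mem_ofPred_eq, mem_preimage, mem_singleton_iff, piS]
  constructor
  · rintro ⟨h1, h2⟩
    funext i
    refine Fin.cases ?_ (fun i => ?_) i
    · simp [h1]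
    · simp [h2]
  · intro h
    refine ⟨?_, funext fun i => ?_⟩
    · have := congrFun h 0
      simp only [Fin.cons_zero, Pi.zero_apply] at this
      linarith
    · simpa using congrFun h i.succ

theorem supp_mdl (S : Set (R (n + 3))) : supp (n + 3 + 1) (mdl n S) ⊆
    {x | x 2 = 0 ∧ x 0 = 13 / 8 ∧ tl x = 0} ∩ frontier S := by
  intro x hx
  have h1 := supp_cup' (p := 1) (q := n + 2) _ _ (by omega) _ _ hx
  have h2 := supp_cup' (p := n + 1) (q := 1) _ _ (by omega) _ _ h1.2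
  have h3 := supp_dT_hm_U S h2.1
  exact ⟨⟨frontier_lt _ _ (supp_th _ h1.1), frontier_le _ _ (supp_th _ h2.2), h3.2⟩, h3.1⟩

theorem lam_mdl_congr {S S' : Set (R (n + 3))} {C : ℝ}
    (h : ∀ x : R (n + 3), C < |x 1| → (x ∈ S ↔ x ∈ S')) :
    lam (n + 3) (mdl n S) = lam (n + 3) (mdl n S') := by
  obtain ⟨w, hw, hv⟩ := triple_mid (p := 1) (q := n) (r := 1) (k := n + 3) (U := univ)
    (flat_T1 _) (flat_T1 _) (flat_T1 _) (flat_T1 _) (compat_T1 _ (LinearMap.mul ℝ ℝ))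
    (compat_T1 _ (LinearMap.mul ℝ ℝ)) (by omega) (th_mem univ {x : R (n + 3) | 0 < x 2})
    (hm S (gen (LT n) 0) - hm S' (gen (LT n) 0)) (th_mem univ {x : R (n + 3) | 13 / 8 ≤ x 0})
  refine lam_eq_of (w := w) (isCompact_supp_of (r := max 2 C) (by positivity) fun x hx => ?_) ?_
  · obtain ⟨h1, h2, h3⟩ := hw hx
    have e2 : x 2 = 0 := frontier_lt _ _ (supp_th _ h1)
    have e0 : x 0 = 13 / 8 := frontier_le _ _ (supp_th _ h3)
    have h4 := supp_hm_sub _ _ _ _ h2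
    have h5 : |x 1| ≤ C := by
      refine closure_minimal (t := {x : R (n + 3) | |x 1| ≤ C}) (fun y hy => ?_)
        (isClosed_le (continuous_apply 1).abs continuous_const) h4.2
      by_contra hc
      exact hy (h y (not_le.1 hc))
    refine ⟨?_, h5.trans (le_max_right _ _), ?_, supp_U h4.1⟩
    · rw [e0]; refine le_trans ?_ (le_max_left _ _); rw [abs_of_pos] <;> norm_num
    · rw [e2]; simp
  · refine van_of_eq hv ?_
    simp only [mdl, map_sub, LinearMap.sub_apply]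

theorem lam_mdl_ne : lam (n + 3) (mdl n {x | 5 / 4 < x 1}) ≠ 0 := by
  let z : R (n + 3) := Fin.cons (13 / 8) (Fin.cons (5 / 4) 0)
  have z0 : z 0 = 13 / 8 := rfl
  have z1 : z 1 = 5 / 4 := rfl
  have z2 : z 2 = 0 := rfl
  have zt : ∀ i : Fin n, z i.succ.succ.succ = 0 := fun _ => rfl
  have hU : gen (LT n) (0 : R (n + 3)) = gen (LT n) z := gen_congr fun i hi => by
    obtain ⟨j, -, rfl⟩ := List.mem_map.1 hi
    rw [zt]; rfl
  set G1 := gen (1 :: LT n) z with hG1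
  set G2 := gen (0 :: 1 :: LT n) z with hG2
  set G3 := gen (2 :: 0 :: 1 :: LT n) z with hG3
  have eG1 : dT (T1 _ _) (hm {x : R (n + 3) | 5 / 4 < x 1} (gen (LT n) 0)) = G1 := by
    rw [hU]; rfl
  have eG2 : dT (T1 _ _) (hm {x : R (n + 3) | 13 / 8 < x 0} G1) = G2 := rfl
  have eG3 : dT (T1 _ _) (hm {x : R (n + 3) | 0 < x 2} G2) = G3 := rfl
  have mG1 : G1 ∈ Zc (T1 (R (n + 3)) ℝ) (n + 1) univ := eG1 ▸ dT_mem_Zc (flat_T1 _) _ _
  have mG2 : G2 ∈ Zc (T1 (R (n + 3)) ℝ) (n + 2) univ := eG2 ▸ dT_mem_Zc (flat_T1 _) _ _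
  have sG1 : supp (n + 2) G1 ⊆ {x | x 1 = 5 / 4 ∧ tl x = 0} := fun x hx => by
    rw [← eG1] at hx
    have := supp_dT_hm_U _ hx
    exact ⟨frontier_lt _ _ this.1, this.2⟩
  have hfl : (LinearMap.mul ℝ ℝ).flip = LinearMap.lsmul ℝ ℝ := by
    ext; simp
  have hml : LinearMap.mul ℝ ℝ = LinearMap.lsmul ℝ ℝ := by
    ext; simp
  obtain ⟨w₁, hw₁, hv₁⟩ := cup_comm (U := univ) (flat_T1 _) (flat_T1 _) (flat_T1 _)
    (compat_T1 _ (LinearMap.mul ℝ ℝ)) mG1 (th_mem univ {x : R (n + 3) | 13 / 8 ≤ x 0})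
  rw [hfl] at hv₁
  have hv₂ := cup_theta (flat_T1 univ) mG1 {x : R (n + 3) | 13 / 8 ≤ x 0}
  set s : ℝ := (-1) ^ ((n + 1) * 1) with hs
  set w₂ := hm {x : R (n + 3) | 13 / 8 ≤ x 0} G1 - hm {x : R (n + 3) | 13 / 8 < x 0} G1 with hw₂
  set J := cup (LinearMap.mul ℝ ℝ) (T1 (R (n + 3)) ℝ) (n + 1) G1 (th {x | 13 / 8 ≤ x 0}) with hJ
  have hin : Van (n + 2 + 1) univ (J - s • G2 - dT (T1 _ _) (w₁ + s • w₂)) := by
    refine van_of_eq (Van.add hv₁ (hv₂.smul s)) ?_
    rw [hw₂, ← eG2]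
    simp only [map_add, map_smul, map_sub, smul_sub, th]
    abel
  have hw : supp (n + 2) (w₁ + s • w₂) ⊆ {x | x 0 = 13 / 8 ∧ x 1 = 5 / 4 ∧ tl x = 0} := by
    intro x hx
    rcases supp_add _ _ _ hx with hx | hx
    · have := hw₁ ⟨hx, mem_univ _⟩
      exact ⟨frontier_le _ _ (supp_th _ this.2), sG1 this.1⟩
    · have := supp_hm_sub _ _ _ _ (supp_smul _ _ _ hx)
      refine ⟨?_, sG1 this.1⟩
      refine closure_minimal (t := {x : R (n + 3) | x 0 = 13 / 8}) (fun y hy => ?_)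
        (isClosed_eq (continuous_apply 0) continuous_const) this.2
      simp only [mem_ofPred_eq] at hy ⊢
      by_contra hc
      exact hy ⟨fun h => lt_of_le_of_ne h (Ne.symm hc), le_of_lt⟩
  have h1 := van_cup_right (p := 1) (k := n + 3 + 1) (LinearMap.mul ℝ ℝ) (T1 _ ℝ) (by omega)
    (th {x : R (n + 3) | 0 < x 2}) hin
  have h2 := cup_dT_right (p := 1) (q := n + 1) (k := n + 3 + 1) (flat_T1 univ) (flat_T1 univ)
    (compat_T1 _ (LinearMap.mul ℝ ℝ)) (by omega) (th_mem univ {x : R (n + 3) | 0 < x 2})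
    (w₁ + s • w₂)
  have h3 := cup_theta (flat_T1 univ) mG2 {x : R (n + 3) | 0 < x 2}
  rw [← hml, eG3] at h3
  have key : lam (n + 3) (mdl n {x | 5 / 4 < x 1}) = lam (n + 3) (s • G3) := by
    refine lam_eq_of (w := (-1 : ℝ) ^ 1 • cup (LinearMap.mul ℝ ℝ) (T1 _ ℝ) 1
      (th {x : R (n + 3) | 0 < x 2}) (w₁ + s • w₂))
      (isCompact_supp_of (r := 2) (by norm_num) fun x hx => ?_) ?_
    · have := supp_cup' (p := 1) (q := n + 1) _ _ (by omega) _ _ (supp_smul _ _ _ hx)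
      obtain ⟨e0, e1, et⟩ := hw this.2
      have e2 : x 2 = 0 := frontier_lt _ _ (supp_th _ this.1)
      refine ⟨?_, ?_, ?_, et⟩
      · rw [e0, abs_of_pos] <;> norm_num
      · rw [e1, abs_of_pos] <;> norm_num
      · rw [e2]; norm_num
    · refine van_of_eq ((h1.add h2).add (h3.smul s)) ?_
      rw [mdl, eG1, ← hJ]
      simp only [map_sub, map_smul, smul_sub, th]
      abel
  rw [key, map_smul, smul_eq_mul]
  refine mul_ne_zero (pow_ne_zero _ (by norm_num)) (lam_gen_ne ?_ ?_ z)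
  · have hL : (LT n).Nodup := (List.nodup_finRange n).map fun i j h => by simpa using h
    have hm : ∀ i ∈ LT n, 3 ≤ i.val := fun i hi => by
      obtain ⟨j, -, rfl⟩ := List.mem_map.1 hi
      simp
    have n0 : (0 : Fin (n + 3)) ∉ LT n := fun h => by simpa using hm _ h
    have n1 : (1 : Fin (n + 3)) ∉ LT n := fun h => by simpa using hm _ h
    have n2 : (2 : Fin (n + 3)) ∉ LT n := fun h => by
      have := hm _ h
      have e : ((2 : Fin (n + 3)) : ℕ) = 2 := rfl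
      omega
    have d20 : (2 : Fin (n + 3)) ≠ 0 := fun h => by
      have h' : (2 : ℕ) = 0 := congrArg Fin.val h
      omega
    have d21 : (2 : Fin (n + 3)) ≠ 1 := fun h => by
      have h' : (2 : ℕ) = 1 := congrArg Fin.val h
      omega
    simp [hL, n0, n1, n2, d20, d21]
  · intro i
    refine Fin.cases (by simp) (fun i => Fin.cases (by simp) (fun i => Fin.cases ?_ (fun i => ?_) i) i) i
    · exact List.mem_cons_self
    · refine List.mem_cons_of_mem _ (List.mem_cons_of_mem _ (List.mem_cons_of_mem _ ?_))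
      exact List.mem_map.2 ⟨i, List.mem_finRange i, rfl⟩

end Crest.Agent.R217
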