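import Crest.Agent.R217.Conv

/-! # R217 / SgGraph : twisted cohomology of a "theta graph" shaped union -/

set_option autoImplicit false
open Set Topology Filter

namespace Crest.Agent.R217

variable {X : Type*} [MetricSpace X] {E : Type*} [AddCommGroup E] [Module ℝ E]

/-- two acyclic open sets; `T` is trivial on `Y₂`, trivialised by `a` on `Y₁`; the intersection is the
disjoint union of the acyclic `C i`, on which `a = g i` -/
structure Theta {r : ℕ} (T : Tw X E) (Y₁ Y₂ : Set X) (a a' : X → E →ₗ[ℝ] E) (C : Fin r → Set X)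
    (g : Fin r → E →ₗ[ℝ] E) : Prop where
  o₁ : IsOpen Y₁
  o₂ : IsOpen Y₂
  flat : Flat (Y₁ ∪ Y₂) T
  ac₁ : AC E Y₁
  ac₂ : AC E Y₂
  ia : Inter Y₁ a (T1 X E) T
  ia' : Inter Y₁ a' T (T1 X E)
  inv : ∀ x ∈ Y₁, a x ∘ₗ a' x = LinearMap.id ∧ a' x ∘ₗ a x = LinearMap.id
  triv : Inter Y₂ (fun _ => LinearMap.id) (T1 X E) T
  oC : ∀ i, IsOpen (C i)
  acC : ∀ i, AC E (C i)
  disj : Pairwise (Function.onFun Disjoint C)
  inter : Y₁ ∩ Y₂ = ⋃ i, C i
  ga : ∀ i, ∀ x ∈ C i, a x = g i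

variable {r : ℕ} {T : Tw X E} {Y₁ Y₂ : Set X} {a a' : X → E →ₗ[ℝ] E} {C : Fin r → Set X}
  {g : Fin r → E →ₗ[ℝ] E}

namespace SgGraph

theorem inter_id_symm {U : Set X} (h : Inter U (fun _ => LinearMap.id) (T1 X E) T) :
    Inter U (fun _ => LinearMap.id) T (T1 X E) := by
  intro z hz
  obtain ⟨W, hW, h1⟩ := h z hz
  exact ⟨W, hW, fun x hx y hy => (h1 x hx y hy).symm⟩

theorem zero_cocycle {U : Set X} (hU : IsOpen U) (hac : AC E U) (h' : Inter U a' T (T1 X E))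
    (hid : ∀ x ∈ U, a x ∘ₗ a' x = LinearMap.id) {f : Co X E} (hf : f ∈ Zc T 0 U) :
    ∃ e, ∀ x ∈ U, f [x] = a x e := by
  have h1 : gau a' f ∈ Zc (T1 X E) 0 U := by
    have := (h'.van 2 f).add (fun z hz h' => hf z hz (supp_gau _ a' _ h'))
    rwa [sub_add_cancel] at this
  obtain ⟨e, he⟩ := hac.const hU h1
  refine ⟨e, fun x hx => ?_⟩
  rw [← he x hx, gau_cons]
  exact (LinearMap.congr_fun (hid x hx) _).symm

theorem C_sub (h : Theta T Y₁ Y₂ a a' C g) (i : Fin r) : C i ⊆ Y₁ ∩ Y₂ := by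
  rw [h.inter]
  exact subset_iUnion _ i

theorem const₁ (h : Theta T Y₁ Y₂ a a' C g) {f : Co X E} (hf : f ∈ Zc T 0 Y₁) :
    ∃ e, ∀ x ∈ Y₁, f [x] = a x e :=
  zero_cocycle h.o₁ h.ac₁ h.ia' (fun x hx => (h.inv x hx).1) hf

theorem const₂ (h : Theta T Y₁ Y₂ a a' C g) {f : Co X E} (hf : f ∈ Zc T 0 Y₂) :
    ∃ e, ∀ x ∈ Y₂, f [x] = e :=
  zero_cocycle (a := fun _ => LinearMap.id) h.o₂ h.ac₂ (inter_id_symm h.triv) (fun _ _ => rfl) hf

theorem constC (h : Theta T Y₁ Y₂ a a' C g) (i : Fin r) {f : Co X E} (hf : f ∈ Zc T 0 (C i)) :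
    ∃ e, ∀ x ∈ C i, f [x] = e :=
  zero_cocycle (a := fun _ => LinearMap.id) (h.oC i) (h.acC i)
    ((inter_id_symm h.triv).mono ((C_sub h i).trans inter_subset_right)) (fun _ _ => rfl) hf

theorem exT_C (h : Theta T Y₁ Y₂ a a' C g) (k : ℕ) (i : Fin r) : ExT T (k + 1) (C i) :=
  ExT.of_inter (h.oC i) (h.triv.mono ((C_sub h i).trans inter_subset_right))
    ((inter_id_symm h.triv).mono ((C_sub h i).trans inter_subset_right)) (fun _ _ => rfl)
    ((h.acC i).exT k)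

theorem exT_inter (h : Theta T Y₁ Y₂ a a' C g) (k : ℕ) : ExT T (k + 1) (Y₁ ∩ Y₂) := by
  classical
  have key : ∀ s : Finset (Fin r), ExT T (k + 1) (⋃ i ∈ s, C i) := by
    intro s
    induction s using Finset.induction_on with
    | empty => simpa using exT_empty T (k + 1)
    | insert i s hi ih =>
      rw [Finset.set_biUnion_insert]
      refine ExT.union_disjoint (h.oC i) (isOpen_biUnion fun j _ => h.oC j) ?_ (h.flat.mono ?_)
        (exT_C h k i) ih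
      · refine disjoint_iUnion₂_right.2 fun j hj => h.disj ?_
        rintro rfl
        exact hi hj
      · exact union_subset ((C_sub h i).trans (inter_subset_left.trans subset_union_left))
          (iUnion₂_subset fun j _ => (C_sub h j).trans (inter_subset_left.trans subset_union_left))
  have := key Finset.univ
  rw [h.inter]
  simpa using this

theorem sub_mem_Zc {U : Set X} {x f f' : Co X E} (h₁ : Van 2 U (x - dT T f))
    (h₂ : Van 2 U (x - dT T f')) : f - f' ∈ Zc T 0 U := by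
  have := h₂.sub h₁
  rwa [sub_sub_sub_cancel_left, ← map_sub] at this

end SgGraph

open SgGraph

theorem Theta.exT₁ (h : Theta T Y₁ Y₂ a a' C g) (k : ℕ) : ExT T (k + 1) Y₁ := by
  exact ExT.of_inter h.o₁ h.ia h.ia' (fun x hx => (h.inv x hx).1) (h.ac₁.exT k)

theorem Theta.exT₂ (h : Theta T Y₁ Y₂ a a' C g) (k : ℕ) : ExT T (k + 1) Y₂ := by
  exact ExT.of_inter h.o₂ h.triv (inter_id_symm h.triv) (fun _ _ => rfl) (h.ac₂.exT k)

theorem Theta.exT_high (h : Theta T Y₁ Y₂ a a' C g) (k : ℕ) : ExT T (k + 2) (Y₁ ∪ Y₂) := by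
  exact ExT.union h.o₁ h.o₂ h.flat (h.exT₁ (k + 1)) (h.exT₂ (k + 1)) (exT_inter h k)

/-- a `0`-cocycle is `a x e₁` on `Y₁` and `e₂` on `Y₂` -/
theorem Theta.exT_zero (h : Theta T Y₁ Y₂ a a' C g)
    (hg : ∀ e₁ e₂, (∀ i, g i e₁ = e₂) → e₁ = 0 ∧ e₂ = 0) : ExT T 0 (Y₁ ∪ Y₂) := by
  intro f hf
  obtain ⟨e₁, h₁⟩ := const₁ h (Van.mono hf subset_union_left)
  obtain ⟨e₂, h₂⟩ := const₂ h (Van.mono hf subset_union_right)
  obtain ⟨rfl, rfl⟩ := hg e₁ e₂ fun i => by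
    obtain ⟨x, hx⟩ := (h.acC i).1
    rw [← h.ga i x hx, ← h₁ x (C_sub h i hx).1, h₂ x (C_sub h i hx).2]
  refine ⟨0, ?_⟩
  rw [map_zero, sub_zero]
  refine (van_one_iff (h.o₁.union h.o₂)).2 fun x hx => hx.elim (fun hx => ?_) (h₂ x)
  rw [h₁ x hx, map_zero]

theorem Theta.exists_data (h : Theta T Y₁ Y₂ a a' C g) {x : Co X E} (hx : x ∈ Zc T 1 (Y₁ ∪ Y₂)) :
    ∃ (f₁ f₂ : Co X E) (c : Fin r → E), Van 2 Y₁ (x - dT T f₁) ∧ Van 2 Y₂ (x - dT T f₂) ∧
      ∀ i, ∀ z ∈ C i, f₁ [z] - f₂ [z] = c i := by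
  obtain ⟨f₁, h₁⟩ := h.exT₁ 0 x (Van.mono hx subset_union_left)
  obtain ⟨f₂, h₂⟩ := h.exT₂ 0 x (Van.mono hx subset_union_right)
  choose c hc using fun i => constC h i (sub_mem_Zc
    (h₁.mono ((C_sub h i).trans inter_subset_left)) (h₂.mono ((C_sub h i).trans inter_subset_right)))
  exact ⟨f₁, f₂, c, h₁, h₂, hc⟩

/-- `x` is a coboundary iff `c i = g i e₁ + e₂`: replace `f₁` by `f₁ - gau a (const e₁)`, `f₂` by
`f₂ + const e₂`; they agree in length one on `Y₁ ∩ Y₂`, so define `w [z]` piecewise. -/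
theorem Theta.cob_iff (h : Theta T Y₁ Y₂ a a' C g) {x f₁ f₂ : Co X E} {c : Fin r → E}
    (h₁ : Van 2 Y₁ (x - dT T f₁)) (h₂ : Van 2 Y₂ (x - dT T f₂))
    (hc : ∀ i, ∀ z ∈ C i, f₁ [z] - f₂ [z] = c i) :
    (∃ w, Van 2 (Y₁ ∪ Y₂) (x - dT T w)) ↔ ∃ e₁ e₂, ∀ i, c i = g i e₁ + e₂ := by
  classical
  constructor
  · rintro ⟨w, hw⟩
    obtain ⟨e₁, k₁⟩ := const₁ h (sub_mem_Zc h₁ (hw.mono subset_union_left))
    obtain ⟨e₂, k₂⟩ := const₂ h (sub_mem_Zc h₂ (hw.mono subset_union_right))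
    refine ⟨e₁, -e₂, fun i => ?_⟩
    obtain ⟨z, hz⟩ := (h.acC i).1
    rw [← hc i z hz, ← h.ga i z hz, ← k₁ z (C_sub h i hz).1, ← k₂ z (C_sub h i hz).2]
    simp
  · rintro ⟨e₁, e₂, he⟩
    have k₁ : Van 2 Y₁ (dT T (gau a fun _ => e₁)) := by
      have := (h.ia.van 2 (fun _ => e₁)).add
        (fun x hx h => const_mem_Zc Y₁ e₁ x hx (supp_gau _ a _ h))
      rwa [sub_add_cancel] at this
    have k₂ : Van 2 Y₂ (dT T (fun _ => e₂)) := by
      have := (van_dT_congr 2 h.triv (fun _ => e₂)).add (const_mem_Zc Y₂ e₂)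
      rwa [sub_add_cancel] at this
    refine ⟨hm Y₁ (f₁ - gau a fun _ => e₁) + hm Y₁ᶜ (f₂ + fun _ => e₂), Van.union ?_ ?_⟩
    · have k₃ : Van 1 Y₁ ((f₁ - gau a fun _ => e₁) -
          (hm Y₁ (f₁ - gau a fun _ => e₁) + hm Y₁ᶜ (f₂ + fun _ => e₂))) := by
        refine (van_one_iff h.o₁).2 fun z hz => ?_
        rw [Pi.sub_apply, Pi.add_apply, hm_cons, hm_cons, if_pos hz, if_neg (show z ∉ Y₁ᶜ from fun h => h hz)]
        simp
      have := (h₁.add k₁).add (k₃.dT T)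
      convert this using 1
      simp only [map_sub]
      abel
    · have k₃ : Van 1 Y₂ ((f₂ + fun _ => e₂) -
          (hm Y₁ (f₁ - gau a fun _ => e₁) + hm Y₁ᶜ (f₂ + fun _ => e₂))) := by
        refine (van_one_iff h.o₂).2 fun z hz => ?_
        rw [Pi.sub_apply, Pi.add_apply (hm _ _), hm_cons, hm_cons]
        by_cases hz' : z ∈ Y₁
        · rw [if_pos hz', if_neg (show z ∉ Y₁ᶜ from fun h => h hz')]
          have : z ∈ ⋃ i, C i := h.inter ▸ ⟨hz', hz⟩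
          obtain ⟨i, hi⟩ := mem_iUnion.1 this
          have e := hc i z hi
          rw [he i, ← h.ga i z hi] at e
          simp only [Pi.add_apply, Pi.sub_apply, gau_cons]
          rw [eq_add_of_sub_eq e]
          abel
        · rw [if_neg hz', if_pos (show z ∈ Y₁ᶜ from hz')]
          simp
      have := (h₂.sub k₂).add (k₃.dT T)
      convert this using 1
      simp only [map_sub, map_add]
      abel

/-- a ring with acyclic holonomy -/
theorem Theta.exT_ring {C : Fin 2 → Set X} {g : Fin 2 → E →ₗ[ℝ] E} (h : Theta T Y₁ Y₂ a a' C g)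
    (hg : Function.Bijective (g 0 - g 1)) (k : ℕ) : ExT T k (Y₁ ∪ Y₂) := by
  match k with
  | 0 =>
    refine h.exT_zero fun e₁ e₂ he => ?_
    have h1 : e₁ = 0 := hg.1 (by rw [LinearMap.sub_apply, he, he, sub_self, map_zero])
    exact ⟨h1, by rw [← he 0, h1, map_zero]⟩
  | 1 =>
    intro x hx
    obtain ⟨f₁, f₂, c, h₁, h₂, hc⟩ := h.exists_data hx
    obtain ⟨e₁, he⟩ := hg.2 (c 0 - c 1)
    refine (h.cob_iff h₁ h₂ hc).2 ⟨e₁, c 0 - g 0 e₁, Fin.forall_fin_two.2 ⟨by abel, ?_⟩⟩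
    rw [LinearMap.sub_apply] at he
    rw [eq_add_of_sub_eq he]
    abel
  | k + 2 => exact h.exT_high k

end Crest.Agent.R217
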