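import Crest.Agent.R217.SgShell
import Crest.Agent.R217.LG

/-! # R217 / SgLH : Leray–Hirsch -/

set_option autoImplicit false
open Set Topology Filter

namespace Crest.Agent.R217

variable {n : ℕ} {E : Type*} [AddCommGroup E] [Module ℝ E] {ρ : ℝ} {Ω : Set (R (n + 1))}
  {T : Tw (R (n + 1)) E}

namespace SgLH

theorem mt_comm {E' : Type*} [AddCommGroup E'] [Module ℝ E'] (φ : E →ₗ[ℝ] E') (A : M2) (w : Fin 2 → E) :
    φ.compLeft (Fin 2) (mt E A w) = mt E' A (φ.compLeft (Fin 2) w) := by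
  funext i
  simp [mt]

theorem compLeft_muS {E' : Type*} [AddCommGroup E'] [Module ℝ E'] (φ : E →ₗ[ℝ] E') (v : Fin 2 → ℝ) (e : E) :
    φ.compLeft (Fin 2) (muS E v e) = muS E' v (φ e) := by
  funext i
  simp [muS]

theorem TT_apply (ρ : ℝ) (T : Tw (R (n + 1)) E) (x y : R (n + 3)) (w : Fin 2 → E) :
    TT ρ T x y w = mt E (TM x y) ((T (piS ρ x) (piS ρ y)).compLeft (Fin 2) w) := rfl

theorem crs_apply (ρ : ℝ) (T : Tw (R (n + 1)) E) (x : Co (R (n + 3)) (Fin 2 → ℝ)) (y : Co (R (n + 1)) E) :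
    crs ρ T x y = cup (muS E) (pbT (piS ρ) T) 1 x (pb (piS ρ) y) := rfl

theorem PhiS_apply (ρ : ℝ) (T : Tw (R (n + 1)) E) (y : Fin 4 → Co (R (n + 1)) E) :
    PhiS ρ T y = ∑ i, crs ρ T (xs n i) (y i) := by
  simp [PhiS]

section
variable {X : Type*} [TopologicalSpace X]

theorem van_eq {k k' : ℕ} {U : Set X} {f g : Co X E} (h : Van k U f) (e : k' = k) (e' : g = f) : Van k' U g :=
  e ▸ e' ▸ h

theorem van_sum {ι : Type*} (s : Finset ι) {k : ℕ} {U : Set X} {f : ι → Co X E} (h : ∀ i ∈ s, Van k U (f i)) :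
    Van k U (∑ i ∈ s, f i) := (NV E k U).sum_mem h

theorem mem_NZ_nat {j : ℤ} {k : ℕ} (h : j = k) {U : Set X} {f : Co X E} : f ∈ NZ E j U ↔ Van (k + 1) U f := by
  rw [h, NZ_natCast, mem_NV]

theorem mem_NZ_neg {j : ℤ} (h : j < 0) {U : Set X} (f : Co X E) : f ∈ NZ E j U := by
  simp [NZ, not_le.2 h]

theorem sh_shift {Ω : Set X} {M : Type*} [AddCommGroup M] [Module ℝ M] {D : M →ₗ[ℝ] M}
    {N : ℤ → Set X → Submodule ℝ M} (h : Sh Ω (M := fun _ => M) (fun _ => D) N) :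
    Sh Ω (M := fun _ => M) (fun _ => D) (fun j => N (j - 1)) := by
  refine ⟨fun j => h.anti (j - 1), fun j U hU hΩ f hf => ?_, fun j f => ?_, fun j => h.empty (j - 1),
    fun j => h.inter (j - 1), fun j => h.glue (j - 1), fun j => h.seq_loc (j - 1), fun j => h.seq_glue (j - 1)⟩
  · have := h.d_mem (j - 1) U hU hΩ f hf
    rwa [show j - 1 + 1 = j + 1 - 1 by ring] at this
  · have := h.dd (j - 1) f
    rwa [show j - 1 + 1 + 1 = j + 1 + 1 - 1 by ring] at this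
end

theorem van_one_crs (U : Set (R (n + 3))) (x : Co (R (n + 3)) (Fin 2 → ℝ)) (y : Co (R (n + 1)) E) :
    Van 1 U (crs ρ T x y) :=
  Van.mono ((van_one_iff isOpen_univ).2 fun p _ => by simp [crs_apply, cup_cons]) (subset_univ _)

theorem van_crs {k : ℕ} {U : Set (R (n + 1))} (hU : IsOpen U) (x : Co (R (n + 3)) (Fin 2 → ℝ))
    {y : Co (R (n + 1)) E} (hy : Van (k + 1) U y) : Van (k + 2) (piS ρ ⁻¹' U) (crs ρ T x y) := by
  have h1 : Van (k + 1) (piS ρ ⁻¹' U : Set (R (n + 3))) (pb (piS ρ) y) :=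
    hy.pb (hU.preimage (continuous_piS ρ)) (continuous_piS ρ).continuousOn (mapsTo_preimage _ _)
  intro z hz h'
  rw [show k + 2 = 1 + k + 1 by ring] at h'
  exact h1 z hz (supp_cup _ _ 1 k _ _ h').2

/-- the cross product with a parallel section -/
theorem crs_const {W : Set (R (n + 1))} (hW : IsOpen W) {a : R (n + 1) → E →ₗ[ℝ] E} (ha : Inter W a (T1 _ E) T)
    (x : Co (R (n + 3)) (Fin 2 → ℝ)) {y : Co (R (n + 1)) E} {e : E} (hy : ∀ q ∈ W, y [q] = a q e) :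
    Van 2 (piS ρ ⁻¹' W) (crs ρ T x y - gau (fun p => (a (piS ρ p)).compLeft (Fin 2))
      (gau (fun _ => (muS E).flip e) x)) := by
  intro z hz
  obtain ⟨W₀, hW₀, h⟩ := ha _ hz
  refine not_mem_supp.2 ⟨piS ρ ⁻¹' (W₀ ∩ W), (continuous_piS ρ).continuousAt
    (inter_mem hW₀ (hW.mem_nhds hz)), fun l hl hm => ?_⟩
  obtain ⟨p, q, rfl⟩ := List.length_eq_two.1 hl
  have hp := hm p (by simp)
  have hq := hm q (by simp)
  have := LinearMap.congr_fun (h _ hp.1 _ hq.1) e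
  simp only [LinearMap.comp_apply, T1, LinearMap.id_apply] at this
  simp [crs_apply, cup_cons, pbT, hy _ hq.2, this, compLeft_muS]

theorem inter_A {W : Set (R (n + 1))} {a : R (n + 1) → E →ₗ[ℝ] E} (ha : Inter W a (T1 _ E) T) :
    Inter (piS ρ ⁻¹' W) (fun p => (a (piS ρ p)).compLeft (Fin 2)) (TS E n) (TT ρ T) := by
  intro z hz
  obtain ⟨W₀, hW₀, h⟩ := ha _ hz
  refine ⟨piS ρ ⁻¹' W₀, (continuous_piS ρ).continuousAt hW₀, fun x hx y hy => LinearMap.ext fun w => ?_⟩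
  rw [LinearMap.comp_apply, LinearMap.comp_apply, TT_apply, TS, mt_comm]
  congr 1
  funext i
  exact LinearMap.congr_fun (h _ hx _ hy) (w i)

theorem inter_A' {W : Set (R (n + 1))} {a : R (n + 1) → E →ₗ[ℝ] E} (ha : Inter W a T (T1 _ E)) :
    Inter (piS ρ ⁻¹' W) (fun p => (a (piS ρ p)).compLeft (Fin 2)) (TT ρ T) (TS E n) := by
  intro z hz
  obtain ⟨W₀, hW₀, h⟩ := ha _ hz
  refine ⟨piS ρ ⁻¹' W₀, (continuous_piS ρ).continuousAt hW₀, fun x hx y hy => LinearMap.ext fun w => ?_⟩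
  rw [LinearMap.comp_apply, LinearMap.comp_apply, TT_apply, TS, mt_comm]
  congr 1
  funext i
  exact LinearMap.congr_fun (h _ hx _ hy) (w i)

theorem PhiS_const {W : Set (R (n + 1))} (hW : IsOpen W) {a : R (n + 1) → E →ₗ[ℝ] E}
    (ha : Inter W a (T1 _ E) T) {y : Fin 4 → Co (R (n + 1)) E} {e : Fin 4 → E}
    (hy : ∀ i, ∀ q ∈ W, y i [q] = a q (e i)) :
    Van 2 (piS ρ ⁻¹' W) (PhiS ρ T y - gau (fun p => (a (piS ρ p)).compLeft (Fin 2))
      (xP E n (muS E ![1, 0] (e 0) + muS E ![25, 19] (e 1)) + xN E n (muS E ![1, 0] (e 2) + muS E ![25, 19] (e 3)))) := by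
  refine van_eq (van_sum Finset.univ fun i _ => crs_const (ρ := ρ) hW ha (xs n i) (hy i)) rfl ?_
  rw [Finset.sum_sub_distrib, PhiS_apply, ← map_sum]
  congr 2
  simp only [Fin.sum_univ_four, xs, Matrix.cons_val_zero, Matrix.cons_val_one, Matrix.cons_val, gau_muS_xP,
    gau_muS_xN, map_add]
  abel

theorem exists_coord (w : Fin 2 → E) : ∃ e₀ e₁ : E, muS E ![1, 0] e₀ + muS E ![25, 19] e₁ = w := by
  refine ⟨w 0 - (25 / 19 : ℝ) • w 1, (1 / 19 : ℝ) • w 1, ?_⟩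
  funext i
  fin_cases i <;> simp [muS, smul_smul] <;> norm_num

theorem coord_zero {e₀ e₁ : E} (h : muS E ![1, 0] e₀ + muS E ![25, 19] e₁ = 0) : e₀ = 0 ∧ e₁ = 0 := by
  have h0 := congrFun h 0
  have h1 := congrFun h 1
  simp [muS] at h0 h1
  simpa [h1] using h0

theorem left_mem_closure {m : ℕ} {a b : R m} (h : (Box a b).Nonempty) :
    a ∈ closure (Box a b) ∧ b ∈ closure (Box a b) := by
  obtain ⟨x, hx⟩ := h
  have e : Box a b = Set.pi univ fun i => Ioo (a i) (b i) := by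
    ext x
    simp [Box]
  have hab : ∀ i, a i < b i := fun i => (hx i).1.trans (hx i).2
  rw [e, closure_pi_set]
  constructor <;> intro i _ <;> simp only [closure_Ioo (hab i).ne]
  · exact left_mem_Icc.2 (hab i).le
  · exact right_mem_Icc.2 (hab i).le

end SgLH
open SgLH

theorem preimage_subset_OmS (hρ : 0 < ρ) (hΩρ : ∀ x ∈ Ω, |x 0| < ρ) : piS ρ ⁻¹' Ω ⊆ OmS n := by
  exact fun x hx => (piS_mem_OmS hρ x).1 (hΩρ _ hx)

/-- (`mt E A` commutes with `φ.compLeft (Fin 2)`) -/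
theorem flat_TT (hρ : 0 < ρ) (hΩ : IsOpen Ω) (hΩρ : ∀ x ∈ Ω, |x 0| < ρ) (hT : Flat Ω T) :
    Flat (piS ρ ⁻¹' Ω) (TT ρ T) := by
  intro z hz
  obtain ⟨W₁, hW₁, h1, h2⟩ := TM_flat (preimage_subset_OmS hρ hΩρ hz)
  obtain ⟨W₂, hW₂, h3, h4⟩ := hT _ hz
  refine ⟨W₁ ∩ piS ρ ⁻¹' W₂, inter_mem hW₁ ((continuous_piS ρ).continuousAt hW₂), fun x hx => ?_,
    fun x hx y hy w hw => LinearMap.ext fun v => ?_⟩
  · refine LinearMap.ext fun v => ?_
    rw [TT_apply, h1 x hx.1, h3 _ hx.2, mt_one]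
    rfl
  · rw [LinearMap.comp_apply, TT_apply, TT_apply, TT_apply, mt_comm, ← h2 x hx.1 y hy.1 w hw.1, mt_mul,
      ← h4 _ hx.2 _ hy.2 _ hw.2]
    rfl

theorem compat_muS (U : Set (R (n + 3))) (ρ : ℝ) (T : Tw (R (n + 1)) E) :
    Compat U (muS E) (TS ℝ n) (pbT (piS ρ) T) (TT ρ T) := by
  refine fun z _ => ⟨univ, univ_mem, fun x _ y _ v e => ?_⟩
  rw [TT_apply, compLeft_muS, mt_muS]
  rfl

theorem crs_mem_Zc (hρ : 0 < ρ) (hΩ : IsOpen Ω) (hΩρ : ∀ x ∈ Ω, |x 0| < ρ) (hT : Flat Ω T)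
    {x : Co (R (n + 3)) (Fin 2 → ℝ)} (hx : x ∈ Zc (TS ℝ n) 1 (OmS n)) {k : ℕ}
    {y : Co (R (n + 1)) E} (hy : y ∈ Zc T k Ω) : crs ρ T x y ∈ Zc (TT ρ T) (k + 1) (piS ρ ⁻¹' Ω) := by
  have ho : IsOpen (piS ρ ⁻¹' Ω : Set (R (n + 3))) := hΩ.preimage (continuous_piS ρ)
  have hs := preimage_subset_OmS hρ hΩρ
  have h1 : pb (piS ρ) y ∈ Zc (pbT (piS ρ) T) k (piS ρ ⁻¹' Ω : Set (R (n + 3))) := by
    rw [mem_Zc, ← pb_dT]
    exact Van.pb ho (continuous_piS ρ).continuousOn (mapsTo_preimage _ _) hy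
  have := cup_mem_Zc ((flat_TS ℝ).mono hs) (hT.pbT ho (continuous_piS ρ).continuousOn (mapsTo_preimage _ _))
    (compat_muS _ ρ T) (Van.mono hx hs) h1
  rwa [add_comm 1 k] at this

theorem SgLH.dT_crs (hρ : 0 < ρ) (hΩ : IsOpen Ω) (hΩρ : ∀ x ∈ Ω, |x 0| < ρ) (hT : Flat Ω T)
    {x : Co (R (n + 3)) (Fin 2 → ℝ)} (hx : x ∈ Zc (TS ℝ n) 1 (OmS n)) (k : ℕ) (y : Co (R (n + 1)) E) :
    Van (k + 1) (piS ρ ⁻¹' Ω) (dT (TT ρ T) (crs ρ T x y) + crs ρ T x (dT T y)) := by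
  have ho : IsOpen (piS ρ ⁻¹' Ω : Set (R (n + 3))) := hΩ.preimage (continuous_piS ρ)
  have hs := preimage_subset_OmS hρ hΩρ
  match k with
  | 0 => exact (van_one_dT _ _ _).add (van_one_crs _ _ _)
  | 1 => exact ((van_one_crs _ _ _).dT _).add (van_crs hΩ x (van_one_dT _ _ _))
  | k + 2 =>
    have h1 := dT_cup ((flat_TS ℝ).mono hs) (hT.pbT ho (continuous_piS ρ).continuousOn (mapsTo_preimage _ _))
      (compat_muS _ ρ T) 1 k x (pb (piS ρ) y)
    have h2 : Van (1 + k + 2) (piS ρ ⁻¹' Ω : Set (R (n + 3)))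
        (cup (muS E) (pbT (piS ρ) T) (1 + 1) (dT (TS ℝ n) x) (pb (piS ρ) y)) := fun z hz h' => by
      rw [show 1 + k + 2 = 1 + 1 + k + 1 by ring] at h'
      exact hx z (hs hz) (supp_cup _ _ _ k _ _ h').1
    refine van_eq (h1.add h2) (by ring) ?_
    rw [crs_apply, crs_apply, pb_dT, pow_one, neg_one_smul]
    abel

theorem SgLH.qi_box (hρ : 0 < ρ) (hΩρ : ∀ x ∈ Ω, |x 0| < ρ) {W : Set (R (n + 1))}
    (hW : W ∈ Boxes Ω fun W => Triv W T) :
    QI (M := fun _ => Fin 4 → Co (R (n + 1)) E) (M' := fun _ => Co (R (n + 3)) (Fin 2 → E))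
      (fun _ => ((-1 : ℝ) • dT T).compLeft (Fin 4)) (fun j U => Submodule.pi univ fun _ => NZ E (j - 1) U)
      (fun _ => (1 : ℝ) • dT (TT ρ T)) (fun j U => NZ (Fin 2 → E) j (piS ρ ⁻¹' U)) (fun _ => PhiS ρ T) W := by
  obtain ⟨⟨a, b, rfl⟩, hcl, hT⟩ := hW
  have mem0 : ∀ (j : ℤ) {F : Type _} [AddCommGroup F] [Module ℝ F] {m : ℕ} (f : Co (R m) F), f ∈ NZ F j ∅ := by
    intro j F _ _ m f
    rcases lt_or_ge j 0 with h | h
    · exact mem_NZ_neg h f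
    · exact (mem_NZ_nat (Int.toNat_of_nonneg h).symm).2 fun _ h => h.elim
  rcases (Box a b).eq_empty_or_nonempty with h0 | hne
  · rw [h0]
    exact ⟨fun j f _ _ => ⟨0, fun i _ => mem0 _ _⟩, fun j g _ => ⟨0, fun i _ => mem0 _ _, 0, mem0 _ _⟩⟩
  have hWo := isOpen_box a b
  have ho : IsOpen (piS ρ ⁻¹' Box a b : Set (R (n + 3))) := hWo.preimage (continuous_piS ρ)
  have ha := abs_lt.1 (hΩρ _ (hcl (left_mem_closure hne).1))
  have hb := abs_lt.1 (hΩρ _ (hcl (left_mem_closure hne).2))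
  obtain ⟨x₀, hx₀⟩ := hne
  have h4 : 0 < 4 * ρ := by positivity
  have hc : 0 < a 0 / (4 * ρ) + 1 / 4 := by
    have : -(1 / 4) < a 0 / (4 * ρ) := by rw [lt_div_iff₀ h4]; linarith [ha.1]
    linarith
  have hcd : a 0 / (4 * ρ) + 1 / 4 < b 0 / (4 * ρ) + 1 / 4 := by
    have := div_lt_div_of_pos_right ((hx₀ 0).1.trans (hx₀ 0).2) h4
    linarith
  have hd : b 0 / (4 * ρ) + 1 / 4 < 1 / 2 := by
    have : b 0 / (4 * ρ) < 1 / 4 := by rw [div_lt_iff₀ h4]; linarith [hb.2]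
    linarith
  have hQ := isOpen_box (Fin.tail a) (Fin.tail b)
  have hQc := convex_box (Fin.tail a) (Fin.tail b)
  have hQn : (Box (Fin.tail a) (Fin.tail b)).Nonempty := ⟨Fin.tail x₀, fun i => hx₀ i.succ⟩
  have hsh := piS_preimage_box hρ a b
  obtain ⟨α, α', hid, hα, hα'⟩ := id hT
  have hA := inter_A (ρ := ρ) hα
  have hA' := inter_A' (ρ := ρ) hα'
  have hAA' : ∀ p ∈ (piS ρ ⁻¹' Box a b : Set (R (n + 3))),
      (α (piS ρ p)).compLeft (Fin 2) ∘ₗ (α' (piS ρ p)).compLeft (Fin 2) = LinearMap.id := fun p hp =>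
    LinearMap.ext fun w => funext fun i => LinearMap.congr_fun (hid _ hp).1 (w i)
  have hA'A : ∀ p ∈ (piS ρ ⁻¹' Box a b : Set (R (n + 3))),
      (α' (piS ρ p)).compLeft (Fin 2) ∘ₗ (α (piS ρ p)).compLeft (Fin 2) = LinearMap.id := fun p hp =>
    LinearMap.ext fun w => funext fun i => LinearMap.congr_fun (hid _ hp).2 (w i)
  have vg : ∀ {k : ℕ} (A : R (n + 3) → (Fin 2 → E) →ₗ[ℝ] (Fin 2 → E)) {u : Co (R (n + 3)) (Fin 2 → E)},
      Van k (piS ρ ⁻¹' Box a b) u → Van k (piS ρ ⁻¹' Box a b) (gau A u) :=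
    fun A u hu z hz h' => hu z hz (supp_gau _ _ _ h')
  constructor
  · rintro j f hf ⟨w, hw⟩
    rcases lt_trichotomy j 0 with hj | rfl | hj
    · exact ⟨0, fun i _ => mem_NZ_neg (by omega) _⟩
    · have hf' : ∀ i, f i ∈ Zc T 0 (Box a b) := fun i => by
        have := ((mem_NZ_nat (k := 1) (by norm_num)).1 (hf i trivial)).neg
        exact van_eq this rfl (by simp)
      have hconst : ∀ i, ∃ e : E, ∀ q ∈ Box a b, f i [q] = α q e := fun i => by
        have h1 : gau α' (f i) ∈ Zc (T1 _ E) 0 (Box a b) :=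
          van_eq ((hα'.van 2 (f i)).add fun z hz h' => hf' i z hz (supp_gau _ _ _ h')) rfl (by abel)
        obtain ⟨e, he⟩ := const_of_cocycle hWo (convex_box a b).isPreconnected h1
        refine ⟨e, fun q hq => ?_⟩
        rw [← he q hq, gau_cons]
        exact (LinearMap.congr_fun (hid q hq).1 _).symm
      choose e he using hconst
      have h1 := PhiS_const (ρ := ρ) hWo hα he
      have h2 := (mem_NZ_nat (k := 1) (by norm_num)).1 hw
      set u := xP E n (muS E ![1, 0] (e 0) + muS E ![25, 19] (e 1)) +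
        xN E n (muS E ![1, 0] (e 2) + muS E ![25, 19] (e 3)) with hu
      have h3 := vg (fun p => (α' (piS ρ p)).compLeft (Fin 2)) (h2.sub h1)
      have h5 := van_gau_id 1 ho hA'A u
      have h6 := hA'.van 2 w
      have h7 : Van 2 (piS ρ ⁻¹' Box a b)
          (u - dT (TS E n) (gau (fun p => (α' (piS ρ p)).compLeft (Fin 2)) w)) := by
        refine van_eq ((h3.sub h5).sub h6) rfl ?_
        rw [← gau_gau]
        simp only [map_sub, one_smul]
        abel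
      rw [hsh] at h7
      obtain ⟨k1, k2⟩ := shell_indep E hc hcd hd hQ hQc hQn h7
      have k3 : ∀ i, e i = 0 := fun i => by
        fin_cases i
        · exact (coord_zero k1).1
        · exact (coord_zero k1).2
        · exact (coord_zero k2).1
        · exact (coord_zero k2).2
      refine ⟨0, fun i _ => (mem_NZ_nat (k := 0) (by norm_num)).2 ((van_one_iff hWo).2 fun q hq => ?_)⟩
      simp [he i q hq, k3]
    · obtain ⟨k, rfl⟩ : ∃ k : ℕ, j = k + 1 := ⟨(j - 1).toNat, by omega⟩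
      have hf' : ∀ i, f i ∈ Zc T (k + 1) (Box a b) := fun i => by
        have := ((mem_NZ_nat (k := k + 2) (by push_cast; ring)).1 (hf i trivial)).neg
        exact van_eq this rfl (by simp)
      choose v hv using fun i => hT.exT hWo (convex_box a b) k (f i) (hf' i)
      refine ⟨-v, fun i _ => (mem_NZ_nat (k := k + 1) (by push_cast; ring)).2 (van_eq (hv i) rfl ?_)⟩
      simp
  · intro j g hg
    rcases lt_or_ge (j + 1) 0 with hj | hj
    · exact ⟨0, by simp, 0, mem_NZ_neg hj _⟩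
    obtain ⟨k, hk⟩ : ∃ k : ℕ, j + 1 = k := ⟨(j + 1).toNat, by omega⟩
    have hg' : g ∈ Zc (TT ρ T) k (piS ρ ⁻¹' Box a b) := by
      have := (mem_NZ_nat (k := k + 1) (by push_cast; omega)).1 hg
      exact van_eq this rfl (by simp)
    by_cases hk1 : k = 1
    · subst hk1
      have h1 : gau (fun p => (α' (piS ρ p)).compLeft (Fin 2)) g ∈ Zc (TS E n) 1 (piS ρ ⁻¹' Box a b) :=
        van_eq ((hA'.van 3 g).add (vg _ hg')) rfl (by abel)
      rw [hsh] at h1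
      obtain ⟨e₁, e₂, w, hw⟩ := shell_gen E hc hcd hd hQ hQc hQn h1
      rw [← hsh] at hw
      obtain ⟨ε₀, ε₁, rfl⟩ := exists_coord e₁
      obtain ⟨ε₂, ε₃, rfl⟩ := exists_coord e₂
      have h2 := PhiS_const (ρ := ρ) hWo hα (y := fun i => gau α (cst E _ (![ε₀, ε₁, ε₂, ε₃] i)))
        (e := ![ε₀, ε₁, ε₂, ε₃]) (fun i q _ => rfl)
      refine ⟨fun i => gau α (cst E _ (![ε₀, ε₁, ε₂, ε₃] i)), fun i _ => (mem_NZ_nat (k := 1) (by omega)).2 ?_,
        gau (fun p => (α (piS ρ p)).compLeft (Fin 2)) w, (mem_NZ_nat hk).2 ?_⟩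
      · have h3 := (hα.van 2 (cst E _ (![ε₀, ε₁, ε₂, ε₃] i))).add
          (fun z hz h' => const_mem_Zc (Box a b) (![ε₀, ε₁, ε₂, ε₃] i) z hz (supp_gau _ α _ h'))
        refine van_eq h3.neg rfl ?_
        exact (neg_one_smul ℝ _).trans (congrArg Neg.neg (sub_add_cancel _ _).symm)
      · have h3 := vg (fun p => (α (piS ρ p)).compLeft (Fin 2)) hw
        have h5 := van_gau_id 1 ho hAA' g
        have h6 := hA.van 2 w
        refine van_eq (((h3.sub h5).sub h6).sub h2) rfl ?_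
        rw [← gau_gau]
        simp only [map_sub, one_smul, Matrix.cons_val_zero, Matrix.cons_val_one, Matrix.cons_val]
        abel
    · have h1 : ExT (TT ρ T) k (piS ρ ⁻¹' Box a b) :=
        ExT.of_inter ho hA hA' hAA' (by rw [hsh]; exact exT_shell E hc hcd hd hQ hQc hQn hk1)
      obtain ⟨w, hw⟩ := h1 g hg'
      exact ⟨0, by simp, w, (mem_NZ_nat hk).2 (van_eq hw rfl (by simp))⟩

/-- `Sh.qi` with `M j = Fin 4 → Co`, `d = (-1) • dT T` componentwise, `N j U = pi (NZ E (j-1) U)`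
(shifted `sh_AS`, `Sh.pi`), `M' j = Co`, `d' = 1 • dT (TT ρ T)`, `N' j U = NZ j (piS ⁻¹' U)`
(`Sh.comap`), `Φ j = PhiS` for `j ≥ 1`, `0` for `j ≤ 0`; `B = Boxes Ω (Triv · T)`.
On a nonempty box `W`: `piS ⁻¹' W = Shell c d Q` with `0 < c < d < 1/2` (`closure W ⊆ Ω`); the
gauge `x ↦ (a (piS x)).compLeft (Fin 2)` intertwines `TS E` and `TT ρ T`;
`crs (xs i) (gau a (const e))` is the gauge transform of `gau (muS.flip e) (xs i)`
(`gau_muS_xP`); every `w : Fin 2 → E` is uniquely `muS ![1,0] e₁ + muS ![25,19] e₂`.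
`exT_shell`, `shell_gen`, `shell_indep`, `Triv.exT`. -/
theorem lh_surj (hρ : 0 < ρ) (hΩ : IsOpen Ω) (hΩρ : ∀ x ∈ Ω, |x 0| < ρ) (hT : Flat Ω T) {k : ℕ}
    {g : Co (R (n + 3)) (Fin 2 → E)} (hg : g ∈ Zc (TT ρ T) (k + 1) (piS ρ ⁻¹' Ω)) :
    ∃ y : Fin 4 → Co (R (n + 1)) E, (∀ i, y i ∈ Zc T k Ω) ∧
      ∃ w, Van (k + 2) (piS ρ ⁻¹' Ω) (g - PhiS ρ T y - dT (TT ρ T) w) := by
  have h := (sh_shift (sh_AS hT (-1))).pi 4
  have h' := (sh_AS (flat_TT hρ hΩ hΩρ hT) 1).comap (continuous_piS ρ)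
  have hQ : ∀ U V : Set (R (n + 1)), U ⊆ V → Triv V T → Triv U T := fun U V h1 h2 => h2.mono h1
  have key := h.qi h' (fun _ => PhiS ρ T) (fun j U hU _ f hf => ?_) (fun j f => ?_)
    (B := Boxes Ω fun W => Triv W T)
    (fun W hW => by
      obtain ⟨⟨a, b, rfl⟩, hcl, -⟩ := hW
      exact ⟨isOpen_box a b, subset_closure.trans hcl⟩)
    (boxes_inter hQ) (fun W hW => qi_box hρ hΩρ hW) (exh_boxes hΩ hQ fun z hz => hT.triv hz)
  · obtain ⟨f, hf, w, hw⟩ := key.2 k g ((mem_NZ_nat (k := k + 2) (by push_cast; ring)).2 (van_eq hg rfl (by simp)))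
    refine ⟨f, fun i => ?_, w, van_eq ((mem_NZ_nat (k := k + 1) (by push_cast; ring)).1 hw) rfl (by simp)⟩
    exact van_eq ((mem_NZ_nat (k := k + 1) (by push_cast; ring)).1 (hf i trivial)).neg rfl (by simp)
  · rw [PhiS_apply]
    refine Submodule.sum_mem _ fun i _ => ?_
    rcases lt_trichotomy j 0 with hj | rfl | hj
    · exact mem_NZ_neg hj _
    · exact (mem_NZ_nat (k := 0) rfl).2 (van_one_crs _ _ _)
    · obtain ⟨k, rfl⟩ : ∃ k : ℕ, j = k + 1 := ⟨(j - 1).toNat, by omega⟩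
      exact (mem_NZ_nat (k := k + 1) (by push_cast; ring)).2
        (van_crs hU _ ((mem_NZ_nat (k := k) (by ring)).1 (hf i trivial)))
  · rcases lt_or_ge (j + 1) 0 with hj | hj
    · exact mem_NZ_neg hj _
    refine (mem_NZ_nat (Int.toNat_of_nonneg hj).symm).2 (van_eq (van_sum Finset.univ fun i _ =>
      dT_crs hρ hΩ hΩρ hT (xs_mem_Zc i) _ (f i)).neg rfl ?_)
    rw [PhiS_apply, PhiS_apply, Finset.sum_add_distrib, one_smul, map_sum]
    simp
    abel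

end Crest.Agent.R217
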