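import Crest.Agent.R217.SgCoc
import Crest.Agent.R217.SgGraph

/-! # R217 / SgRing : cohomology of walls and slabs for `tauS` -/

set_option autoImplicit false
open Set Topology Filter

namespace Crest.Agent.R217

variable {n : ℕ} (E : Type*) [AddCommGroup E] [Module ℝ E] {Q : Set (R n)}

namespace SgRing

/-- `tauM = 1` near `z` -/
def Loc1 (z : R (n + 3)) : Prop := ∃ W ∈ 𝓝 z, ∀ x ∈ W, ∀ y ∈ W, tauM x y = 1

theorem nhds_top {z : R (n + 3)} (h : 1 / 2 < z 1) : {x : R (n + 3) | 1 / 2 < x 1} ∈ 𝓝 z :=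
  (isOpen_lt continuous_const (continuous_apply 1)).mem_nhds h

theorem loc1_low {z : R (n + 3)} (h : z 1 < 1 / 2) : Loc1 z :=
  ⟨{x | x 1 < 1 / 2}, (isOpen_lt (continuous_apply 1) continuous_const).mem_nhds h,
    fun _ hx _ _ => if_neg fun h' => absurd h'.1 (not_lt.2 (le_of_lt hx))⟩

theorem loc1_leg {z : R (n + 3)} {p p' : ℝ} {L L' : M2} (h : z 0 ∈ Ioo p p')
    (hL : ∀ x : R (n + 3), x 0 ∈ Ioo p p' → gi x = L ∧ gm x = L') : Loc1 z := by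
  refine ⟨{x | x 0 ∈ Ioo p p'}, (isOpen_Ioo.preimage (continuous_apply 0)).mem_nhds h,
    fun x hx y hy => ?_⟩
  unfold tauM
  split_ifs
  · rw [(hL y hy).2, ← (hL x hx).2]
    exact (gm_mul_gi x).2
  · rfl

theorem tauM_top {x y : R (n + 3)} (hx : 1 / 2 < x 1) (hy : 1 / 2 < y 1) :
    tauM x y = gi x * gm y := if_pos ⟨hx, hy⟩

theorem theta_of {r : ℕ} {Y₁ Y₂ : Set (R (n + 3))} {C : Fin r → Set (R (n + 3))}
    {g : Fin r → (Fin 2 → E) →ₗ[ℝ] (Fin 2 → E)} (o₁ : IsOpen Y₁) (o₂ : IsOpen Y₂)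
    (h₁ : ∀ z ∈ Y₁, 1 / 2 < z 1) (h₂ : ∀ z ∈ Y₂, Loc1 z) (ac₁ : AC (Fin 2 → E) Y₁)
    (ac₂ : AC (Fin 2 → E) Y₂) (oC : ∀ i, IsOpen (C i)) (acC : ∀ i, AC (Fin 2 → E) (C i))
    (disj : Pairwise (Function.onFun Disjoint C)) (inter : Y₁ ∩ Y₂ = ⋃ i, C i)
    (ga : ∀ i, ∀ x ∈ C i, mt E (gi x) = g i) :
    Theta (tauS E n) Y₁ Y₂ (fun x => mt E (gi x)) (fun x => mt E (gm x)) C g := by
  refine ⟨o₁, o₂, ?_, ac₁, ac₂, fun z hz => ⟨_, nhds_top (h₁ z hz), fun x hx y hy => ?_⟩,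
    fun z hz => ⟨_, nhds_top (h₁ z hz), fun x hx y hy => ?_⟩, fun x _ => ?_, fun z hz => ?_,
    oC, acC, disj, inter, ga⟩
  · rintro z (hz | hz)
    · refine ⟨_, nhds_top (h₁ z hz), fun x hx => ?_, fun x hx y hy w hw => ?_⟩
      · rw [tauS, tauM_top hx hx, (gm_mul_gi x).2, mt_one]
      · simp only [tauS]
        rw [← mt_mul, tauM_top hx hy, tauM_top hy hw, tauM_top hx hw, mul_assoc,
          ← mul_assoc (gm y), (gm_mul_gi y).1, one_mul]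
    · obtain ⟨W, hW, h⟩ := h₂ z hz
      refine ⟨W, hW, fun x hx => ?_, fun x hx y hy w hw => ?_⟩
      · rw [tauS, h x hx x hx, mt_one]
      · simp only [tauS]
        rw [← mt_mul, h x hx y hy, h y hy w hw, h x hx w hw, one_mul]
  · simp only [tauS, T1]
    rw [← mt_mul, tauM_top hx hy, mul_assoc, (gm_mul_gi y).1, mul_one, LinearMap.comp_id]
  · simp only [tauS, T1]
    rw [← mt_mul, tauM_top hx hy, ← mul_assoc, (gm_mul_gi x).1, one_mul, LinearMap.id_comp]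
  · rw [← mt_mul, ← mt_mul, (gm_mul_gi x).1, (gm_mul_gi x).2, mt_one]
    exact ⟨rfl, rfl⟩
  · obtain ⟨W, hW, h⟩ := h₂ z hz
    refine ⟨W, hW, fun x hx y hy => ?_⟩
    simp only [tauS, T1]
    rw [h x hx y hy, mt_one]

theorem g_left {p p' : ℝ} (h : p' ≤ 1 / 2) (x : R (n + 3)) (hx : x 0 ∈ Ioo p p') :
    gi x = 1 ∧ gm x = 1 := by
  have : x 0 < 1 / 2 := hx.2.trans_le h
  exact ⟨if_pos this, if_pos this⟩

theorem g_mid {p p' : ℝ} (h : 1 / 2 ≤ p) (h' : p' ≤ 3 / 2) (x : R (n + 3)) (hx : x 0 ∈ Ioo p p') :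
    gi x = mAi ∧ gm x = mA := by
  have h1 : ¬ x 0 < 1 / 2 := not_lt.2 (h.trans hx.1.le)
  have h2 : x 0 < 3 / 2 := hx.2.trans_le h'
  exact ⟨(if_neg h1).trans (if_pos h2), (if_neg h1).trans (if_pos h2)⟩

theorem g_right {p p' : ℝ} (h : 3 / 2 ≤ p) (x : R (n + 3)) (hx : x 0 ∈ Ioo p p') :
    gi x = mABi ∧ gm x = mAB := by
  have h1 : ¬ x 0 < 1 / 2 := not_lt.2 (by linarith [hx.1])
  have h2 : ¬ x 0 < 3 / 2 := not_lt.2 (h.trans hx.1.le)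
  exact ⟨(if_neg h1).trans (if_neg h2), (if_neg h1).trans (if_neg h2)⟩

theorem det₁ : (1 - mAi).det ≠ 0 := by
  rw [Matrix.det_fin_two]
  norm_num [mAi, Matrix.one_apply]

theorem det₂ : (mAi - mABi).det ≠ 0 := by
  rw [Matrix.det_fin_two]
  norm_num [mAi, mABi]

theorem det₃ : (1 - mABi).det ≠ 0 := by
  rw [Matrix.det_fin_two]
  norm_num [mABi, Matrix.one_apply]

theorem isOpen_frame (p₀ p₁ p₂ p₃ q₀ q₁ q₂ q₃ j₁ j₂ : ℝ) (hQ : IsOpen Q) :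
    IsOpen (Frame p₀ p₁ p₂ p₃ q₀ q₁ q₂ q₃ j₁ j₂ Q) :=
  (isOpen_BQ _ _ _ _ _ _ hQ).union (((isOpen_BQ _ _ _ _ _ _ hQ).union
    (isOpen_BQ _ _ _ _ _ _ hQ)).union (isOpen_BQ _ _ _ _ _ _ hQ))

theorem mem_BQ {a₀ b₀ a₁ b₁ j₁ j₂ : ℝ} {x : R (n + 3)} : x ∈ BQ a₀ b₀ a₁ b₁ j₁ j₂ Q ↔
    (a₀ < x 0 ∧ x 0 < b₀) ∧ (a₁ < x 1 ∧ x 1 < b₁) ∧ x 2 ∈ Ioo j₁ j₂ ∧ tl x ∈ Q := Iff.rfl

omit [Module ℝ E] in
theorem ac_of {A B : Set (R (n + 3))} (h : AC (Fin 2 → E) A) (e : ∀ x, x ∈ B ↔ x ∈ A) :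
    AC (Fin 2 → E) B := Set.ext e ▸ h

theorem bij₁ : Function.Bijective fun e : Fin 2 → E => e - mt E mAi e := by
  have := mt_bijective E det₁
  rwa [mt_sub, mt_one] at this

end SgRing
open SgRing

/-- `Theta` with `Y₁` the top side (`a x = mt (gi x)`, `a' x = mt (gm x)`), `Y₂` the U shape (acyclic by
`AC.union`, `ac_BQ`, `BQ_inter`; `tauM = 1` on small pairs there), `C` the two top corners. -/
theorem exT_frame {p₀ p₁ p₂ p₃ q₀ q₁ q₂ q₃ j₁ j₂ : ℝ} (hp₀ : p₀ < p₁) (hp₁ : p₁ < p₂)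
    (hp₂ : p₂ < p₃) (hq₀ : q₀ < q₁) (hq₁ : q₁ ≤ 1 / 2) (hq₂ : 1 / 2 ≤ q₂) (hq₃ : q₂ < q₃)
    (hj : j₁ < j₂) (hQ : IsOpen Q) (hc : Convex ℝ Q) (hne : Q.Nonempty) {L L' Rr Rr' : M2}
    (hL : ∀ x : R (n + 3), x 0 ∈ Ioo p₀ p₁ → gi x = L ∧ gm x = L')
    (hR : ∀ x : R (n + 3), x 0 ∈ Ioo p₂ p₃ → gi x = Rr ∧ gm x = Rr')
    (hd : (L - Rr).det ≠ 0) (k : ℕ) :
    ExT (tauS E n) k (Frame p₀ p₁ p₂ p₃ q₀ q₁ q₂ q₃ j₁ j₂ Q) := by
  have hB := fun a₀ b₀ a₁ b₁ => isOpen_BQ a₀ b₀ a₁ b₁ j₁ j₂ hQ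
  have hA := fun a₀ b₀ a₁ b₁ (h₀ : a₀ < b₀) (h₁ : a₁ < b₁) =>
    ac_BQ (Fin 2 → E) h₀ h₁ hj hQ hc hne
  have hT : Theta (tauS E n) (BQ p₀ p₃ q₂ q₃ j₁ j₂ Q)
      (BQ p₀ p₃ q₀ q₁ j₁ j₂ Q ∪ BQ p₀ p₁ q₀ q₃ j₁ j₂ Q ∪ BQ p₂ p₃ q₀ q₃ j₁ j₂ Q)
      (fun x => mt E (gi x)) (fun x => mt E (gm x))
      ![BQ p₀ p₁ q₂ q₃ j₁ j₂ Q, BQ p₂ p₃ q₂ q₃ j₁ j₂ Q] ![mt E L, mt E Rr] := by
    refine theta_of E (hB _ _ _ _) (((hB _ _ _ _).union (hB _ _ _ _)).union (hB _ _ _ _))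
      (fun z hz => hq₂.trans_lt hz.2.1.1) ?_ (hA _ _ _ _ (by linarith) hq₃) ?_ ?_ ?_ ?_ ?_ ?_
    · rintro z ((hz | hz) | hz)
      exacts [loc1_low (hz.2.1.2.trans_le hq₁), loc1_leg hz.1 hL, loc1_leg hz.1 hR]
    · refine AC.union ((hB _ _ _ _).union (hB _ _ _ _)) (hB _ _ _ _)
        (AC.union (hB _ _ _ _) (hB _ _ _ _) (hA _ _ _ _ (by linarith) hq₀)
          (hA _ _ _ _ hp₀ (by linarith)) ?_) (hA _ _ _ _ hp₂ (by linarith)) ?_
      · refine ac_of E (hA p₀ p₁ q₀ q₁ hp₀ hq₀) fun x => ?_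
        clear hA hB
        simp only [mem_inter_iff, mem_BQ]
        grind
      · refine ac_of E (hA p₂ p₃ q₀ q₁ hp₂ hq₀) fun x => ?_
        clear hA hB
        simp only [mem_inter_iff, mem_union, mem_BQ]
        grind
    · intro i
      fin_cases i <;> exact hB _ _ _ _
    · intro i
      fin_cases i
      exacts [hA _ _ _ _ hp₀ hq₃, hA _ _ _ _ hp₂ hq₃]
    · intro i j hij
      fin_cases i <;> fin_cases j <;> first
        | exact absurd rfl hij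
        | exact disjoint_left.2 fun x hx hx' => by linarith [hx.1.1, hx.1.2, hx'.1.1, hx'.1.2]
    · ext x
      clear hA hB
      simp only [mem_inter_iff, mem_union, mem_iUnion, Fin.exists_fin_two, Matrix.cons_val_zero,
        Matrix.cons_val_one, mem_BQ]
      grind
    · intro i x hx
      fin_cases i
      exacts [congrArg (mt E) (hL x hx.1).1, congrArg (mt E) (hR x hx.1).1]
  refine hT.exT_ring ?_ k
  have := mt_bijective E hd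
  rwa [mt_sub] at this

/-- `wall_eq`, three disjoint frames; `det (1 - mAi) = det (mAi - mABi) = -1/2`,
`det (1 - mABi) = 9/2` -/
theorem exT_wall {c d j₁ j₂ : ℝ} (hc : 0 < c) (hcd : c < d) (hd : d < 1 / 2) (hj : j₁ < j₂)
    (hQ : IsOpen Q) (hcv : Convex ℝ Q) (hne : Q.Nonempty) (k : ℕ) :
    ExT (tauS E n) k (Wall c d j₁ j₂ Q) := by
  have hF : Flat (Wall c d j₁ j₂ Q) (tauS E n) := (flat_tauS E).mono fun x hx => hx.2.1.trans hd
  rw [wall_eq hc hcd hd] at hF ⊢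
  refine ExT.union_disjoint ((isOpen_frame _ _ _ _ _ _ _ _ _ _ hQ).union
    (isOpen_frame _ _ _ _ _ _ _ _ _ _ hQ)) (isOpen_frame _ _ _ _ _ _ _ _ _ _ hQ) ?_ hF
    (ExT.union_disjoint (isOpen_frame _ _ _ _ _ _ _ _ _ _ hQ) (isOpen_frame _ _ _ _ _ _ _ _ _ _ hQ) ?_
      (hF.mono subset_union_left) ?_ ?_) ?_
  · refine disjoint_left.2 fun x => ?_
    simp only [Frame, mem_union, mem_BQ]
    grind (splits := 40)
  · refine disjoint_left.2 fun x => ?_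
    simp only [Frame, mem_union, mem_BQ]
    grind (splits := 40)
  · exact exT_frame E hcd (by linarith) (by linarith) hcd hd.le (by linarith) (by linarith) hj hQ hcv
      hne (g_left hd.le) (g_mid (by linarith) (by linarith)) det₁ k
  · exact exT_frame E (by linarith) (by linarith) (by linarith) hcd hd.le (by linarith) (by linarith)
      hj hQ hcv hne (g_mid (by linarith) (by linarith)) (g_right (by linarith)) det₂ k
  · exact exT_frame E (by linarith) (by linarith) (by linarith) (by linarith) (by linarith)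
      (by linarith) (by linarith) hj hQ hcv hne (g_left (by linarith)) (g_right (by linarith)) det₃ k

/-- `slab_eq`: `Theta` with three corners, `g = ![1, mt mAi, mt mABi]` -/
theorem theta_slab {d j₁ j₂ : ℝ} (hd0 : 0 < d) (hd : d < 1 / 2) (hj : j₁ < j₂) (hQ : IsOpen Q)
    (hcv : Convex ℝ Q) (hne : Q.Nonempty) :
    Theta (tauS E n) (BQ (-d) (2 + d) (1 - d) (1 + d) j₁ j₂ Q)
      (BQ (-d) (2 + d) (-d) d j₁ j₂ Q ∪ BQ (-d) d (-d) (1 + d) j₁ j₂ Q ∪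
        BQ (1 - d) (1 + d) (-d) (1 + d) j₁ j₂ Q ∪ BQ (2 - d) (2 + d) (-d) (1 + d) j₁ j₂ Q)
      (fun x => mt E (gi x)) (fun x => mt E (gm x))
      ![BQ (-d) d (1 - d) (1 + d) j₁ j₂ Q, BQ (1 - d) (1 + d) (1 - d) (1 + d) j₁ j₂ Q,
        BQ (2 - d) (2 + d) (1 - d) (1 + d) j₁ j₂ Q]
      ![mt E 1, mt E mAi, mt E mABi] := by
  have hB := fun a₀ b₀ a₁ b₁ => isOpen_BQ a₀ b₀ a₁ b₁ j₁ j₂ hQ
  have hA := fun a₀ b₀ a₁ b₁ (h₀ : a₀ < b₀) (h₁ : a₁ < b₁) =>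
    ac_BQ (Fin 2 → E) h₀ h₁ hj hQ hcv hne
  have g₀ := g_left (n := n) (p := -d) hd.le
  have g₁ := g_mid (n := n) (p := 1 - d) (p' := 1 + d) (by linarith) (by linarith)
  have g₂ := g_right (n := n) (p := 2 - d) (p' := 2 + d) (by linarith)
  refine theta_of E (hB _ _ _ _)
    ((((hB _ _ _ _).union (hB _ _ _ _)).union (hB _ _ _ _)).union (hB _ _ _ _))
    (fun z hz => by linarith [hz.2.1.1]) ?_ (hA _ _ _ _ (by linarith) (by linarith)) ?_ ?_ ?_ ?_ ?_ ?_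
  · rintro z (((hz | hz) | hz) | hz)
    exacts [loc1_low (hz.2.1.2.trans hd), loc1_leg hz.1 g₀, loc1_leg hz.1 g₁, loc1_leg hz.1 g₂]
  · refine AC.union (((hB _ _ _ _).union (hB _ _ _ _)).union (hB _ _ _ _)) (hB _ _ _ _)
      (AC.union ((hB _ _ _ _).union (hB _ _ _ _)) (hB _ _ _ _)
        (AC.union (hB _ _ _ _) (hB _ _ _ _) (hA _ _ _ _ (by linarith) (by linarith))
          (hA _ _ _ _ (by linarith) (by linarith)) ?_)
        (hA _ _ _ _ (by linarith) (by linarith)) ?_) (hA _ _ _ _ (by linarith) (by linarith)) ?_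
    · refine ac_of E (hA (-d) d (-d) d (by linarith) (by linarith)) fun x => ?_
      clear hA hB
      simp only [mem_inter_iff, mem_BQ]
      grind
    · refine ac_of E (hA (1 - d) (1 + d) (-d) d (by linarith) (by linarith)) fun x => ?_
      clear hA hB
      simp only [mem_inter_iff, mem_union, mem_BQ]
      grind
    · refine ac_of E (hA (2 - d) (2 + d) (-d) d (by linarith) (by linarith)) fun x => ?_
      clear hA hB
      simp only [mem_inter_iff, mem_union, mem_BQ]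
      grind
  · intro i
    fin_cases i <;> exact hB _ _ _ _
  · intro i
    fin_cases i <;> exact hA _ _ _ _ (by linarith) (by linarith)
  · intro i j hij
    fin_cases i <;> fin_cases j <;> first
      | exact absurd rfl hij
      | exact disjoint_left.2 fun x hx hx' => by linarith [hx.1.1, hx.1.2, hx'.1.1, hx'.1.2]
  · ext x
    clear hA hB
    simp only [mem_inter_iff, mem_union, mem_iUnion, Fin.exists_fin_succ, Matrix.cons_val_zero,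
      Matrix.cons_val_succ, mem_BQ, IsEmpty.exists_iff, or_false]
    grind
  · intro i x hx
    fin_cases i
    exacts [congrArg (mt E) (g₀ x hx.1).1, congrArg (mt E) (g₁ x hx.1).1,
      congrArg (mt E) (g₂ x hx.1).1]

theorem exT_slab {d j₁ j₂ : ℝ} (hd0 : 0 < d) (hd : d < 1 / 2) (hj : j₁ < j₂) (hQ : IsOpen Q)
    (hcv : Convex ℝ Q) (hne : Q.Nonempty) {k : ℕ} (hk : k ≠ 1) :
    ExT (tauS E n) k (Slab d j₁ j₂ Q) := by
  have hT := theta_slab E hd0 hd hj hQ hcv hne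
  rw [slab_eq hd0]
  match k, hk with
  | 0, _ =>
    refine hT.exT_zero fun e₁ e₂ h => ?_
    have h0 : mt E 1 e₁ = e₂ := h 0
    have h1 : mt E mAi e₁ = e₂ := h 1
    rw [mt_one, LinearMap.id_apply] at h0
    have h2 : e₁ = 0 := (bij₁ E).1 (by
      simp only [map_zero, sub_zero]
      rw [h1, h0, sub_self])
    exact ⟨h2, h0 ▸ h2⟩
  | k + 2, _ => exact hT.exT_high k

namespace SgRing

theorem y_top {d j₁ j₂ : ℝ} (hd : d < 1 / 2) (e : Fin 2 → E) :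
    Van 2 (BQ (-d) (2 + d) (1 - d) (1 + d) j₁ j₂ Q)
      (yC E n (3 / 2) e - dT (tauS E n) (hm {x | 3 / 2 ≤ x 0} (cst (Fin 2 → E) (R (n + 3)) e))) := by
  refine (van_sub_hm 1 {x : R (n + 3) | 1 / 2 < x 1} _).symm.mono fun x hx => ?_
  rw [mem_interior_iff_mem_nhds]
  exact nhds_top (by linarith [hx.2.1.1])

theorem y_bot {d j₁ j₂ : ℝ} (hd : d < 1 / 2) (e : Fin 2 → E) :
    Van 2 (BQ (-d) (2 + d) (-d) d j₁ j₂ Q ∪ BQ (-d) d (-d) (1 + d) j₁ j₂ Q ∪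
        BQ (1 - d) (1 + d) (-d) (1 + d) j₁ j₂ Q ∪ BQ (2 - d) (2 + d) (-d) (1 + d) j₁ j₂ Q)
      (yC E n (3 / 2) e) := by
  intro z hz h
  have h1 := supp_yC E le_rfl e h
  simp only [mem_union, mem_BQ, mem_ofPred_eq] at hz h1
  grind

theorem y_data {d j₁ j₂ : ℝ} (hd : d < 1 / 2) (e : Fin 2 → E) (i : Fin 3) :
    ∀ z ∈ (![BQ (-d) d (1 - d) (1 + d) j₁ j₂ Q, BQ (1 - d) (1 + d) (1 - d) (1 + d) j₁ j₂ Q,
        BQ (2 - d) (2 + d) (1 - d) (1 + d) j₁ j₂ Q] : Fin 3 → Set (R (n + 3))) i,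
      hm {x | 3 / 2 ≤ x 0} (cst (Fin 2 → E) (R (n + 3)) e) [z] = (![0, 0, e] : Fin 3 → Fin 2 → E) i := by
  classical
  intro z hz
  rw [hm_cons]
  fin_cases i
  · exact if_neg (not_le.2 (by linarith [hz.1.2] : z 0 < 3 / 2))
  · exact if_neg (not_le.2 (by linarith [hz.1.2] : z 0 < 3 / 2))
  · exact if_pos (by linarith [hz.1.1] : 3 / 2 ≤ z 0)

end SgRing

/-- `yC (3/2) e` has data `f₁ = hm {3/2 ≤ x 0} (cst e)`, `f₂ = 0`, `c = (0, 0, e)`; every `c` is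
`(e₁ + e₂, A⁻¹ e₁ + e₂, (AB)⁻¹ e₁ + e₂ + e)` since `1 - A⁻¹` is invertible -/
theorem slab_gen {d j₁ j₂ : ℝ} (hd0 : 0 < d) (hd : d < 1 / 2) (hj : j₁ < j₂) (hQ : IsOpen Q)
    (hcv : Convex ℝ Q) (hne : Q.Nonempty) {x : Co (R (n + 3)) (Fin 2 → E)}
    (hx : x ∈ Zc (tauS E n) 1 (Slab d j₁ j₂ Q)) :
    ∃ e w, Van 2 (Slab d j₁ j₂ Q) (x - yC E n (3 / 2) e - dT (tauS E n) w) := by
  have hT := theta_slab E hd0 hd hj hQ hcv hne
  rw [slab_eq hd0] at hx ⊢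
  obtain ⟨f₁, f₂, c, h₁, h₂, hc⟩ := hT.exists_data hx
  obtain ⟨e₁, he₁⟩ := (bij₁ E).2 (c 0 - c 1)
  refine ⟨c 2 - mt E mABi e₁ - (c 0 - e₁), ?_⟩
  generalize he : c 2 - mt E mABi e₁ - (c 0 - e₁) = e
  refine (hT.cob_iff (f₁ := f₁ - hm {x | 3 / 2 ≤ x 0} (cst (Fin 2 → E) (R (n + 3)) e)) (f₂ := f₂)
    (c := c - ![0, 0, e]) ?_ ?_ fun i z hz => ?_).2 ⟨e₁, c 0 - e₁, fun i => ?_⟩
  · convert h₁.sub (y_top E hd e) using 1
    rw [map_sub]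
    abel
  · convert h₂.sub (y_bot E hd e) using 1
    abel
  · rw [Pi.sub_apply, Pi.sub_apply, y_data E hd e i z hz, ← hc i z hz]
    abel
  · fin_cases i
    · change c 0 - 0 = mt E 1 e₁ + (c 0 - e₁)
      rw [mt_one, LinearMap.id_apply]
      abel
    · change c 1 - 0 = mt E mAi e₁ + (c 0 - e₁)
      have : c 1 = c 0 - (e₁ - mt E mAi e₁) := by rw [show e₁ - mt E mAi e₁ = c 0 - c 1 from he₁]; abel
      rw [this]
      abel
    · change c 2 - e = mt E mABi e₁ + (c 0 - e₁)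
      rw [← he]
      abel

theorem slab_indep {d j₁ j₂ : ℝ} (hd0 : 0 < d) (hd : d < 1 / 2) (hj : j₁ < j₂) (hQ : IsOpen Q)
    (hcv : Convex ℝ Q) (hne : Q.Nonempty) {e : Fin 2 → E} {w : Co (R (n + 3)) (Fin 2 → E)}
    (h : Van 2 (Slab d j₁ j₂ Q) (yC E n (3 / 2) e - dT (tauS E n) w)) : e = 0 := by
  have hT := theta_slab E hd0 hd hj hQ hcv hne
  rw [slab_eq hd0] at h
  obtain ⟨e₁, e₂, he⟩ := (hT.cob_iff (f₂ := 0) (c := ![0, 0, e]) (y_top E hd e)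
    (by rw [map_zero, sub_zero]; exact y_bot E hd e)
    fun i z hz => by rw [y_data E hd e i z hz, Pi.zero_apply, sub_zero]).1 ⟨w, h⟩
  have h0 : 0 = mt E 1 e₁ + e₂ := he 0
  have h1 : 0 = mt E mAi e₁ + e₂ := he 1
  have h2 : e = mt E mABi e₁ + e₂ := he 2
  rw [mt_one, LinearMap.id_apply] at h0
  have h3 : e₁ = 0 := (bij₁ E).1 (by
    simp only [map_zero, sub_zero]
    rw [sub_eq_zero]
    exact add_right_cancel (h0.symm.trans h1))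
  rw [h3, zero_add] at h0
  rw [h2, h3, ← h0, map_zero, add_zero]

end Crest.Agent.R217
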