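import Crest.Agent.R217.SgRing

/-! # R217 / SgShell : cohomology of the shells for `TS`

`shell_eq`: `Shell = V₁ ∪ V₂`, `V₁ = Top ⊔ Bot`, `V₂ = Wall`, `V₁ ∩ V₂` = two walls
(`slab_inter_wall`).  `Top`, `Wall .. ⊆ UP` (gauge `gP`, equal to `1` on `Top`), `Bot ⊆ UN` (gauge
`gN`).  `ExT.of_inter` transports `exT_wall`, `exT_slab`.  On `Top`: `xP e = yC e`, `xN e = 0`;
on `Bot`: `xN e = gau gN (yC e)`, `xP e = 0` (`xiC_sub_yC`, `xiC_van`). -/

set_option autoImplicit false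
open Set Topology Filter

namespace Crest.Agent.R217

variable {n : ℕ} (E : Type*) [AddCommGroup E] [Module ℝ E] {Q : Set (R n)}

namespace SgShell

section gen
variable {X : Type*} [TopologicalSpace X] {F F' : Type*} [AddCommGroup F] [Module ℝ F]
  [AddCommGroup F'] [Module ℝ F'] {U : Set X} {a : X → F →ₗ[ℝ] F'} {a' : X → F' →ₗ[ℝ] F}
  {T : Tw X F} {T' : Tw X F'}

theorem van_gau {k : ℕ} {f : Co X F} (h : Van k U f) (a : X → F →ₗ[ℝ] F') : Van k U (gau a f) :=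
  fun z hz hs => h z hz (supp_gau k a f hs)

theorem gau_mem_Zc (ha : Inter U a T T') {k : ℕ} {x : Co X F} (hx : x ∈ Zc T k U) :
    gau a x ∈ Zc T' k U := by
  have h := (ha.van (k + 2) x).add (van_gau (mem_Zc.1 hx) a)
  rw [sub_add_cancel] at h
  exact h

theorem back (hU : IsOpen U) (ha : Inter U a T T') (hid : ∀ x ∈ U, a x ∘ₗ a' x = LinearMap.id)
    {k : ℕ} {x : Co X F'} {y w : Co X F} (h : Van (k + 1) U (gau a' x - y - dT T w)) :
    Van (k + 1) U (x - gau a y - dT T' (gau a w)) := by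
  have h1 := van_gau h a
  rw [map_sub, map_sub, gau_gau] at h1
  have h2 := van_gau_id k hU hid x
  have h3 := (h1.sub h2).sub (ha.van (k + 1) w)
  convert h3 using 1
  abel

theorem forth (hU : IsOpen U) (ha' : Inter U a' T' T) (hid : ∀ x ∈ U, a' x ∘ₗ a x = LinearMap.id)
    {k : ℕ} {y : Co X F} {w : Co X F'} (h : Van (k + 1) U (gau a y - dT T' w)) :
    Van (k + 1) U (y - dT T (gau a' w)) := by
  have h1 := van_gau h a'
  rw [map_sub, gau_gau] at h1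
  have h2 := van_gau_id k hU hid y
  have h3 := (h1.sub h2).sub (ha'.van (k + 1) w)
  convert h3 using 1
  abel

end gen

theorem gP_gPi (x : R (n + 3)) : mt E (gP x) ∘ₗ mt E (gPi x) = LinearMap.id := by
  rw [← mt_mul, (gP_mul_gPi x).1, mt_one]

theorem gPi_gP (x : R (n + 3)) : mt E (gPi x) ∘ₗ mt E (gP x) = LinearMap.id := by
  rw [← mt_mul, (gP_mul_gPi x).2, mt_one]

theorem gN_gN (x : R (n + 3)) : mt E (gN x) ∘ₗ mt E (gN x) = LinearMap.id := by
  rw [← mt_mul, gN_mul_self x, mt_one]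

theorem exT_P {U : Set (R (n + 3))} (hU : IsOpen U) (hs : U ⊆ UP n) {k : ℕ}
    (h : ExT (tauS E n) k U) : ExT (TS E n) k U :=
  ExT.of_inter hU ((inter_gP E).mono hs) ((inter_gPi E).mono hs) (fun x _ => gP_gPi E x) h

theorem exT_N {U : Set (R (n + 3))} (hU : IsOpen U) (hs : U ⊆ UN n) {k : ℕ}
    (h : ExT (tauS E n) k U) : ExT (TS E n) k U :=
  ExT.of_inter hU ((inter_gN E).mono hs) ((inter_gNi E).mono hs) (fun x _ => gN_gN E x) h

theorem top_sub {c d : ℝ} (hc : 0 < c) (hd : d < 1 / 2) (Q : Set (R n)) :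
    Slab d c d Q ⊆ UP n := fun _ hx => ⟨hx.1.trans hd, Or.inl (hc.trans hx.2.1.1)⟩

theorem bot_sub {c d : ℝ} (hc : 0 < c) (hd : d < 1 / 2) (Q : Set (R n)) :
    Slab d (-d) (-c) Q ⊆ UN n := fun _ hx => ⟨hx.1.trans hd, Or.inl (by linarith [hx.2.1.2])⟩

theorem wall_sub {c d : ℝ} (hc : 0 < c) (hd : d < 1 / 2) (j₁ j₂ : ℝ) (Q : Set (R n)) :
    Wall c d j₁ j₂ Q ⊆ UP n := fun _ hx => ⟨hx.2.1.trans hd, Or.inr (hc.trans hx.1)⟩

theorem shell_sub {c d : ℝ} (hc : 0 < c) (hd : d < 1 / 2) (Q : Set (R n)) :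
    Shell c d Q ⊆ OmS n := fun _ hx => ⟨hc.trans hx.1, hx.2.1.trans hd⟩

theorem isOpen_pos : IsOpen {x : R (n + 3) | 0 < x 2} :=
  isOpen_lt continuous_const (continuous_apply 2)

theorem isOpen_neg : IsOpen {x : R (n + 3) | x 2 < 0} :=
  isOpen_lt (continuous_apply 2) continuous_const

theorem top_pos {c d : ℝ} (hc : 0 < c) (Q : Set (R n)) :
    Slab d c d Q ⊆ interior {x : R (n + 3) | 0 < x 2} := by
  rw [isOpen_pos.interior_eq]
  exact fun _ hx => hc.trans hx.2.1.1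

theorem top_pos' {c d : ℝ} (hc : 0 < c) (Q : Set (R n)) :
    Slab d c d Q ⊆ interior {x : R (n + 3) | x 2 ≤ 0}ᶜ :=
  (top_pos hc Q).trans (interior_mono fun x (hx : 0 < x 2) (h : x 2 ≤ 0) => not_le.2 hx h)

theorem bot_neg0 {c d : ℝ} (hc : 0 < c) (Q : Set (R n)) :
    Slab d (-d) (-c) Q ⊆ interior {x : R (n + 3) | x 2 < 0} := by
  rw [isOpen_neg.interior_eq]
  intro x hx
  have := hx.2.1.2
  show x 2 < 0
  linarith

theorem bot_neg {c d : ℝ} (hc : 0 < c) (Q : Set (R n)) :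
    Slab d (-d) (-c) Q ⊆ interior {x : R (n + 3) | x 2 ≤ 0} :=
  (bot_neg0 hc Q).trans (interior_mono fun x (hx : x 2 < 0) => (show x 2 ≤ 0 from le_of_lt hx))

theorem bot_neg' {c d : ℝ} (hc : 0 < c) (Q : Set (R n)) :
    Slab d (-d) (-c) Q ⊆ interior {x : R (n + 3) | 0 < x 2}ᶜ :=
  (bot_neg0 hc Q).trans (interior_mono fun x (hx : x 2 < 0) (h : 0 < x 2) => lt_asymm hx h)

theorem disj_slab {c d : ℝ} (hc : 0 < c) (Q : Set (R n)) :
    Disjoint (Slab d c d Q) (Slab d (-d) (-c) Q) := by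
  rw [Set.disjoint_left]
  intro x h1 h2
  linarith [h1.2.1.1, h2.2.1.2]

theorem disj_wall {c d : ℝ} (hc : 0 < c) (Q : Set (R n)) :
    Disjoint (Wall c d c d Q) (Wall c d (-d) (-c) Q) := by
  rw [Set.disjoint_left]
  intro x h1 h2
  linarith [h1.2.2.1.1, h2.2.2.1.2]

theorem flat_shell {c d : ℝ} (hc : 0 < c) (hd : d < 1 / 2) (Q : Set (R n)) :
    Flat ((Slab d c d Q ∪ Slab d (-d) (-c) Q) ∪ Wall c d (-d) d Q) (TS E n) := by
  rw [← shell_eq hc]
  exact (flat_TS E).mono (shell_sub hc hd Q)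

theorem exT_W {c d j₁ j₂ : ℝ} (hc : 0 < c) (hcd : c < d) (hd : d < 1 / 2) (hj : j₁ < j₂)
    (hQ : IsOpen Q) (hcv : Convex ℝ Q) (hne : Q.Nonempty) (k : ℕ) :
    ExT (TS E n) k (Wall c d j₁ j₂ Q) :=
  exT_P E (isOpen_wall _ _ _ _ hQ) (wall_sub hc hd _ _ Q) (exT_wall E hc hcd hd hj hQ hcv hne k)

theorem exT_I {c d : ℝ} (hc : 0 < c) (hcd : c < d) (hd : d < 1 / 2)
    (hQ : IsOpen Q) (hcv : Convex ℝ Q) (hne : Q.Nonempty) (k : ℕ) :
    ExT (TS E n) k ((Slab d c d Q ∪ Slab d (-d) (-c) Q) ∩ Wall c d (-d) d Q) := by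
  have hF := (flat_shell E hc hd Q).mono
    (inter_subset_left.trans subset_union_left :
      (Slab d c d Q ∪ Slab d (-d) (-c) Q) ∩ Wall c d (-d) d Q ⊆ _)
  rw [slab_inter_wall hc hcd] at hF ⊢
  exact ExT.union_disjoint (isOpen_wall _ _ _ _ hQ) (isOpen_wall _ _ _ _ hQ) (disj_wall hc Q) hF
    (exT_W E hc hcd hd hcd hQ hcv hne k) (exT_W E hc hcd hd (by linarith) hQ hcv hne k)

theorem xP_top {c d : ℝ} (hc : 0 < c) (Q : Set (R n)) (e : Fin 2 → E) :
    Van 2 (Slab d c d Q) (xP E n e - gau (fun x => mt E (gP x)) (yC E n (3 / 2) e)) := by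
  have h := van_gau ((xiC_sub_yC E {x : R (n + 3) | x 2 ≤ 0} e).mono (top_pos' (d := d) hc Q))
    (fun x => mt E (gP x))
  rwa [map_sub] at h

theorem xN_top {c d : ℝ} (hc : 0 < c) (Q : Set (R n)) (e : Fin 2 → E) :
    Van 2 (Slab d c d Q) (xN E n e) :=
  van_gau ((xiC_van E {x : R (n + 3) | 0 < x 2} e).mono (top_pos (d := d) hc Q))
    (fun x => mt E (gN x))

theorem xN_bot {c d : ℝ} (hc : 0 < c) (Q : Set (R n)) (e : Fin 2 → E) :
    Van 2 (Slab d (-d) (-c) Q) (xN E n e - gau (fun x => mt E (gN x)) (yC E n (3 / 2) e)) := by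
  have h := van_gau ((xiC_sub_yC E {x : R (n + 3) | 0 < x 2} e).mono (bot_neg' (d := d) hc Q))
    (fun x => mt E (gN x))
  rwa [map_sub] at h

theorem xP_bot {c d : ℝ} (hc : 0 < c) (Q : Set (R n)) (e : Fin 2 → E) :
    Van 2 (Slab d (-d) (-c) Q) (xP E n e) :=
  van_gau ((xiC_van E {x : R (n + 3) | x 2 ≤ 0} e).mono (bot_neg (d := d) hc Q))
    (fun x => mt E (gP x))

end SgShell

open SgShell

theorem exT_shell {c d : ℝ} (hc : 0 < c) (hcd : c < d) (hd : d < 1 / 2) (hQ : IsOpen Q)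
    (hcv : Convex ℝ Q) (hne : Q.Nonempty) {k : ℕ} (hk : k ≠ 1) :
    ExT (TS E n) k (Shell c d Q) := by
  have hd0 : 0 < d := hc.trans hcd
  have hF := flat_shell E hc hd Q
  have h1 : ExT (TS E n) k (Slab d c d Q ∪ Slab d (-d) (-c) Q) :=
    ExT.union_disjoint (isOpen_slab _ _ _ hQ) (isOpen_slab _ _ _ hQ) (disj_slab hc Q)
      (hF.mono subset_union_left)
      (exT_P E (isOpen_slab _ _ _ hQ) (top_sub hc hd Q) (exT_slab E hd0 hd hcd hQ hcv hne hk))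
      (exT_N E (isOpen_slab _ _ _ hQ) (bot_sub hc hd Q)
        (exT_slab E hd0 hd (by linarith) hQ hcv hne hk))
  have h2 : ExT (TS E n) k (Wall c d (-d) d Q) := exT_W E hc hcd hd (by linarith) hQ hcv hne k
  rw [shell_eq hc]
  cases k with
  | zero => exact h1.union_zero h2
  | succ j =>
    exact ExT.union ((isOpen_slab _ _ _ hQ).union (isOpen_slab _ _ _ hQ)) (isOpen_wall _ _ _ _ hQ)
      hF h1 h2 (exT_I E hc hcd hd hQ hcv hne j)

/-- `x - xP e₁ - xN e₂` is a coboundary on `V₁` and on `V₂`; `mv_cob` -/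
theorem shell_gen {c d : ℝ} (hc : 0 < c) (hcd : c < d) (hd : d < 1 / 2) (hQ : IsOpen Q)
    (hcv : Convex ℝ Q) (hne : Q.Nonempty) {x : Co (R (n + 3)) (Fin 2 → E)}
    (hx : x ∈ Zc (TS E n) 1 (Shell c d Q)) :
    ∃ e₁ e₂ w, Van 2 (Shell c d Q) (x - (xP E n e₁ + xN E n e₂) - dT (TS E n) w) := by
  have hd0 : 0 < d := hc.trans hcd
  have hF := flat_shell E hc hd Q
  have hsub := shell_sub hc hd Q
  rw [shell_eq hc] at hx hsub ⊢
  have hoT : IsOpen (Slab d c d Q) := isOpen_slab _ _ _ hQ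
  have hoB : IsOpen (Slab d (-d) (-c) Q) := isOpen_slab _ _ _ hQ
  have hxT : x ∈ Zc (TS E n) 1 (Slab d c d Q) :=
    Van.mono (mem_Zc.1 hx) (subset_union_left.trans subset_union_left)
  have hxB : x ∈ Zc (TS E n) 1 (Slab d (-d) (-c) Q) :=
    Van.mono (mem_Zc.1 hx) (subset_union_right.trans subset_union_left)
  obtain ⟨e₁, w₁, h₁⟩ := slab_gen E hd0 hd hcd hQ hcv hne
    (gau_mem_Zc ((inter_gPi E).mono (top_sub hc hd Q)) hxT)
  obtain ⟨e₂, w₂, h₂⟩ := slab_gen E hd0 hd (by linarith : -d < -c) hQ hcv hne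
    (gau_mem_Zc ((inter_gNi E).mono (bot_sub hc hd Q)) hxB)
  have k₁ := back hoT ((inter_gP E).mono (top_sub hc hd Q)) (fun x _ => gP_gPi E x) h₁
  have k₂ := back hoB ((inter_gN E).mono (bot_sub hc hd Q)) (fun x _ => gN_gN E x) h₂
  have m₁ : Van (0 + 2) (Slab d c d Q) (x - (xP E n e₁ + xN E n e₂) -
      dT (TS E n) (gau (fun x => mt E (gP x)) w₁)) := by
    have := (k₁.sub (xP_top E hc Q e₁)).sub (xN_top E hc Q e₂)
    refine Glue.van_congr this fun l _ => congrFun (by abel) l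
  have m₂ : Van (0 + 2) (Slab d (-d) (-c) Q) (x - (xP E n e₁ + xN E n e₂) -
      dT (TS E n) (gau (fun x => mt E (gN x)) w₂)) := by
    have := (k₂.sub (xN_bot E hc Q e₂)).sub (xP_bot E hc Q e₁)
    refine Glue.van_congr this fun l _ => congrFun (by abel) l
  obtain ⟨w₃, h₃⟩ := mv_cob hoT hoB (hF.mono subset_union_left)
    (by rw [(disj_slab hc Q).inter_eq]; exact exT_empty _ _) m₁ m₂
  have hf : x - (xP E n e₁ + xN E n e₂) ∈ Zc (TS E n) 1 (Wall c d (-d) d Q) := by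
    refine sub_mem (Van.mono (mem_Zc.1 hx) subset_union_right) (add_mem ?_ ?_)
    · exact Van.mono (mem_Zc.1 (xP_mem_Zc E e₁)) (subset_union_right.trans hsub)
    · exact Van.mono (mem_Zc.1 (xN_mem_Zc E e₂)) (subset_union_right.trans hsub)
  obtain ⟨w₄, h₄⟩ := exT_W E hc hcd hd (by linarith : -d < d) hQ hcv hne 1 _ hf
  obtain ⟨w, hw⟩ := mv_cob (hoT.union hoB) (isOpen_wall _ _ _ _ hQ) hF
    (exT_I E hc hcd hd hQ hcv hne 0) h₃ h₄
  exact ⟨e₁, e₂, w, hw⟩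

theorem shell_indep {c d : ℝ} (hc : 0 < c) (hcd : c < d) (hd : d < 1 / 2) (hQ : IsOpen Q)
    (hcv : Convex ℝ Q) (hne : Q.Nonempty) {e₁ e₂ : Fin 2 → E} {w : Co (R (n + 3)) (Fin 2 → E)}
    (h : Van 2 (Shell c d Q) (xP E n e₁ + xN E n e₂ - dT (TS E n) w)) : e₁ = 0 ∧ e₂ = 0 := by
  have hd0 : 0 < d := hc.trans hcd
  rw [shell_eq hc] at h
  have hoT : IsOpen (Slab d c d Q) := isOpen_slab _ _ _ hQ
  have hoB : IsOpen (Slab d (-d) (-c) Q) := isOpen_slab _ _ _ hQ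
  have hT := h.mono (subset_union_left.trans subset_union_left : Slab d c d Q ⊆ _)
  have hB := h.mono (subset_union_right.trans subset_union_left : Slab d (-d) (-c) Q ⊆ _)
  have m₁ : Van (1 + 1) (Slab d c d Q)
      (gau (fun x => mt E (gP x)) (yC E n (3 / 2) e₁) - dT (TS E n) w) := by
    have := (hT.sub (xP_top E hc Q e₁)).sub (xN_top E hc Q e₂)
    refine Glue.van_congr this fun l _ => congrFun (by abel) l
  have m₂ : Van (1 + 1) (Slab d (-d) (-c) Q)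
      (gau (fun x => mt E (gN x)) (yC E n (3 / 2) e₂) - dT (TS E n) w) := by
    have := (hB.sub (xN_bot E hc Q e₂)).sub (xP_bot E hc Q e₁)
    refine Glue.van_congr this fun l _ => congrFun (by abel) l
  exact ⟨slab_indep E hd0 hd hcd hQ hcv hne
      (forth hoT ((inter_gPi E).mono (top_sub hc hd Q)) (fun x _ => gPi_gP E x) m₁),
    slab_indep E hd0 hd (by linarith : -d < -c) hQ hcv hne
      (forth hoB ((inter_gNi E).mono (bot_sub hc hd Q)) (fun x _ => gN_gN E x) m₂)⟩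

end Crest.Agent.R217
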