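import Crest.Agent.R217.SgForm
import Crest.Agent.R217.Germ

/-! # R217 / SgStep : cuts with nonzero signature in every odd dimension -/

set_option autoImplicit false
open Set Topology Filter

namespace Crest.Agent.R217

namespace SgStep

/-- the standard inner product on `ℂ` -/
noncomputable def bC : ℂ →ₗ[ℝ] ℂ →ₗ[ℝ] ℝ :=
  LinearMap.mk₂ ℝ (fun z w => z.re * w.re + z.im * w.im)
    (by intros; simp; ring) (by intros; simp; ring) (by intros; simp; ring) (by intros; simp; ring)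

theorem bC_apply (z w : ℂ) : bC z w = z.re * w.re + z.im * w.im := rfl

theorem bC_pos {z : ℂ} (hz : z ≠ 0) : 0 < bC z z := by
  have := Complex.normSq_pos.2 hz
  rwa [Complex.normSq_apply] at this

theorem bC_nonneg (z : ℂ) : 0 ≤ bC z z := by
  rw [bC_apply]; nlinarith [mul_self_nonneg z.re, mul_self_nonneg z.im]

theorem hb : HB 0 bC where
  nondeg e h := by
    by_contra he
    exact (bC_pos he).ne' (h e)
  symm e e' := by simp [bC_apply]; ring
  herm e e' := by simp [bC_apply]; ring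

theorem rf : RF (⊤ : Submodule ℝ ℂ) bC where
  symm x _ y _ := by simp [bC_apply]; ring
  fin := ⟨⊤, le_rfl, inferInstance, fun x _ => ⟨x, trivial, fun y _ => by simp⟩⟩

theorem sg_bC : sg bC ((⊤ : Submodule ℝ ℂ) : Set ℂ) = 2 := by
  unfold sg
  rw [Sig1.sPos_eq rf (LinearMap.id : ℂ →ₗ[ℝ] ℂ) (fun _ => trivial) (fun v hv => bC_pos hv)
      (N := ⊥) bot_le (fun x hx => by rw [(Submodule.mem_bot ℝ).1 hx]; simp)
      (fun x _ => ⟨x, 0, Submodule.zero_mem _, by simp⟩),
    Sig1.sPos_eq rf.neg (0 : (Fin 0 → ℝ) →ₗ[ℝ] ℂ) (fun _ => trivial)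
      (fun v hv => absurd (Subsingleton.elim v 0) hv)
      (N := ⊤) le_rfl (fun x _ => by simpa using bC_nonneg x)
      (fun x _ => ⟨0, x, trivial, by simp⟩)]
  simp

theorem cut0 : Cut (n := 2 * 0 + 1) bC univ {x | 0 < x 0} (T1 _ _) where
  isOpen := isOpen_univ
  flat := flat_T1 _
  compat z _ := ⟨univ, univ_mem, fun _ _ _ _ _ _ => rfl⟩
  cplx _ _ _ _ := rfl
  cpt := by
    refine (isCompact_singleton (x := (0 : R (2 * 0 + 1)))).of_isClosed_subset
      (isClosed_frontier.inter isClosed_univ) fun x hx => ?_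
    have h0 : x 0 = 0 := by
      have := frontier_lt_subset_eq (f := fun _ : R (2 * 0 + 1) => (0 : ℝ)) (g := fun x => x 0)
        continuous_const (continuous_apply 0) hx.1
      exact this.symm
    funext i
    have : i = 0 := Subsingleton.elim (α := Fin 1) i 0
    rw [this, h0]; rfl

theorem beta_cst (e e' : ℂ) :
    beta (m := 0) bC univ {x | 0 < x 0} (T1 _ _) (cst ℂ _ e) (cst ℂ _ e') = bC e e' := by
  classical
  rw [beta_apply, lamO_eq (u' := bC e e' • gen (List.finRange (2 * 0 + 1)) 0)]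
  · rw [map_smul, lam_gen_finRange]; simp
  · refine (isCompact_singleton (x := (0 : R (2 * 0 + 1)))).of_isClosed_subset
      (isClosed_supp _ _) fun x hx => ?_
    have h1 := supp_gen (List.finRange (2 * 0 + 1)) 0 (supp_smul _ _ _ hx)
    funext i
    exact h1 i (List.mem_finRange i)
  · exact subset_univ _
  · refine van_of_forall isOpen_univ fun l hl _ => ?_
    match l, hl with
    | [x, y], _ =>
      have hL : List.finRange (2 * 0 + 1) = [0] := rfl
      rw [hL]
      simp only [Pi.sub_apply, Pi.smul_apply, cup_cons, List.drop_zero, gau_cons, gen, dT_pair,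
        hm_cons, cst_apply, T1, LinearMap.id_apply, mem_ofPred_eq, Pi.zero_apply, smul_eq_mul]
      split_ifs <;> simp

end SgStep

/-- `E = ℂ`, `b z w = re (z * conj w)` (`= z.re w.re + z.im w.im`), `Ω = univ`, `S = {0 < x 0}`, `T = T1`.
Cocycles of degree `0` are locally constant (`const_of_cocycle`), `Φ = cst ∘ proj`;
`beta (cst e) (cst e') = b e e' * lam (gen [0] 0) = b e e'` (the integrand equals
`b e e' • gen (finRange 1) 0` on lists of length 2).  So `beta x x ≥ 0` on `Zc` (`sPos (-β) = 0`), and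
`sPos β ≥ 1` (`span {cst 1}`; the set in `sPos` is bounded by `Cut.rf`, or use `sg_transport`
from `ℂ`). -/
theorem hasBase_zero : HasBase 0 := by
  refine ⟨ℂ, inferInstance, inferInstance, inferInstance, inferInstance, inferInstance, SgStep.bC,
    univ, {x | 0 < x 0}, T1 _ _, SgStep.hb, SgStep.cut0, ?_⟩
  unfold sT
  rw [sg_transport (Z := ⊤) (β := SgStep.bC) (SgStep.cut0.rf SgStep.hb) (cst ℂ _)
    (fun e _ => const_mem_Zc _ e) one_pos (fun e _ e' _ => by rw [SgStep.beta_cst, one_mul]) ?_,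
    SgStep.sg_bC]
  · norm_num
  intro x hx
  obtain ⟨e, he⟩ := const_of_cocycle isOpen_univ isPreconnected_univ hx
  refine ⟨e, trivial, fun y hy => ?_⟩
  refine SgStep.cut0.beta_left isOpen_univ Subset.rfl inter_subset_right (v := 0) ?_ hy
  rw [map_zero, sub_zero, van_one_iff isOpen_univ]
  intro z hz
  simp [he z hz]

/-- shrink `Ω` to `Ω ∩ {|x 0| < ρ}` (`sT_mono`), `Cut.susp`, `sg_pi` with `Φ = PhiS`
(`lh_surj` + `beta_left`, `beta_crs`, `gram`), applied to `β'` or `-β'` according to the sign of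
`σ κ`: `sT' = ± 4 sT`. -/
theorem HasBase.succ {m : ℕ} (h : HasBase m) : HasBase (m + 1) := by
  obtain ⟨E, _, _, _, _, _, b, Ω₀, S, T, hb, hc₀, hs₀⟩ := h
  obtain ⟨r, hr⟩ := hc₀.cpt.isBounded.subset_closedBall (0 : R (2 * m + 1))
  set ρ : ℝ := |r| + 1 with hρdef
  have hρ : 0 < ρ := by positivity
  set Ω : Set (R (2 * m + 1)) := Ω₀ ∩ {x | |x 0| < ρ} with hΩ
  have hΩo : IsOpen Ω := hc₀.isOpen.inter
    (isOpen_lt (continuous_abs.comp (continuous_apply 0)) continuous_const)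
  have hf : frontier S ∩ Ω₀ ⊆ Ω := by
    intro x hx
    refine ⟨hx.2, ?_⟩
    have h1 : ‖x‖ ≤ r := by simpa using hr hx
    have h2 : ‖x 0‖ ≤ ‖x‖ := norm_le_pi_norm x 0
    have h3 : r ≤ |r| := le_abs_self r
    show |x 0| < ρ
    rw [Real.norm_eq_abs] at h2
    linarith
  have hc : Cut b Ω S T := hc₀.mono hΩo inter_subset_left hf
  have hs : sT b Ω S T ≠ 0 := by rwa [hc₀.sT_mono hb hΩo inter_subset_left hf]
  have hΩρ : ∀ x ∈ Ω, |x 0| < ρ := fun x hx => hx.2
  have hc' := hc.susp hρ hΩρ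
  have hb' := hb.succ
  refine ⟨Fin 2 → E, inferInstance, inferInstance, inferInstance, inferInstance, inferInstance,
    bS b, piS ρ ⁻¹' Ω, piS ρ ⁻¹' S, TT ρ T, hb', hc', ?_⟩
  obtain ⟨σ, hσ, hβ⟩ := beta_crs hc hρ hΩρ
  obtain ⟨κ, hκ, q, hq, hg⟩ := gram (2 * m)
  have hrf := Cut.rf (m := m + 1) hb' hc'
  have hΦ : ∀ y : Fin 4 → Co (R (2 * m + 1)) E, (∀ i, y i ∈ Zc T m Ω) →
      PhiS ρ T y ∈ Zc (TT ρ T) (m + 1) (piS ρ ⁻¹' Ω) := by
    intro y hy
    rw [PhiS, LinearMap.sum_apply]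
    exact Submodule.sum_mem _ fun i _ => crs_mem_Zc hρ hΩo hΩρ hc.flat (xs_mem_Zc i) (hy i)
  have hform : ∀ y y' : Fin 4 → Co (R (2 * m + 1)) E, (∀ i, y i ∈ Zc T m Ω) →
      (∀ i, y' i ∈ Zc T m Ω) →
      beta (m := m + 1) (bS b) (piS ρ ⁻¹' Ω) (piS ρ ⁻¹' S) (TT ρ T) (PhiS ρ T y) (PhiS ρ T y') =
        ∑ i, (σ * κ * q i) * beta b Ω S T (y i) (y' i) := by
    intro y y' hy hy'
    rw [PhiS, LinearMap.sum_apply, LinearMap.sum_apply, LinearMap.map_sum₂]
    refine Finset.sum_congr rfl fun i _ => ?_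
    rw [map_sum, Finset.sum_eq_single i]
    · have := hβ _ (xs_mem_Zc i) _ (xs_mem_Zc i) _ (hy i) _ (hy' i)
      rw [hg, if_pos rfl] at this
      refine this.trans ?_
      ring
    · intro j _ hj
      have := hβ _ (xs_mem_Zc i) _ (xs_mem_Zc j) _ (hy i) _ (hy' j)
      rw [hg, if_neg hj.symm] at this
      refine this.trans ?_
      ring
    · simp
  have hsurj : ∀ x' ∈ Zc (TT ρ T) (m + 1) (piS ρ ⁻¹' Ω), ∃ y : Fin 4 → Co (R (2 * m + 1)) E,
      (∀ i, y i ∈ Zc T m Ω) ∧ ∀ y' ∈ Zc (TT ρ T) (m + 1) (piS ρ ⁻¹' Ω),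
      beta (m := m + 1) (bS b) (piS ρ ⁻¹' Ω) (piS ρ ⁻¹' S) (TT ρ T) (x' - PhiS ρ T y) y' = 0 := by
    intro x' hx'
    obtain ⟨y, hy, w, hw⟩ := lh_surj hρ hΩo hΩρ hc.flat hx'
    exact ⟨y, hy, fun y' hy' => Cut.beta_left (m := m + 1) hc' hc'.isOpen Subset.rfl
      inter_subset_right hw hy'⟩
  unfold sT at hs ⊢
  rcases lt_or_gt_of_ne (mul_ne_zero hσ hκ) with hneg | hpos
  · have key := sg_pi (β := beta b Ω S T) hrf.neg (PhiS ρ T) hΦ (fun i => -(σ * κ * q i))
      (fun i => neg_pos.2 (mul_neg_of_neg_of_pos hneg (hq i)))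
      (fun y y' hy hy' => by
        rw [LinearMap.neg_apply, LinearMap.neg_apply, hform y y' hy hy', ← Finset.sum_neg_distrib]
        refine Finset.sum_congr rfl fun i _ => ?_
        ring)
      (fun x' hx' => by
        obtain ⟨y, hy, h0⟩ := hsurj x' hx'
        exact ⟨y, hy, fun y' hy' => by
          rw [LinearMap.neg_apply, LinearMap.neg_apply, h0 y' hy', neg_zero]⟩)
    rw [sg_neg] at key
    intro h0
    rw [h0] at key
    apply hs
    push_cast at key
    omega
  · have key := sg_pi (β := beta b Ω S T) hrf (PhiS ρ T) hΦ (fun i => σ * κ * q i)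
      (fun i => mul_pos hpos (hq i)) hform hsurj
    intro h0
    rw [h0] at key
    apply hs
    push_cast at key
    omega

theorem hasBase (m : ℕ) : HasBase m := by
  induction m with
  | zero => exact hasBase_zero
  | succ m ih => exact ih.succ

end Crest.Agent.R217
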