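import Crest.Agent.R217.Defs

/-! # R217 / Sig1 : signature of real symmetric forms of finite rank.

General method: for `RF Z β` the set in `sPos` is bounded by `finrank F` (a positive definite
subspace meets the radical trivially); pass to the finite-dimensional nondegenerate quotient
`Z ⧸ rad` (or to a complement of the radical inside `F`) and use Mathlib's `sigPos`, `sigNeg`
(`Mathlib/LinearAlgebra/QuadraticForm/Signature.lean`: `sigPos_add_finrank_le_of_nonpos`,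
`sigPos_add_sigNeg_add_radical`), or orthogonal bases. -/

set_option autoImplicit false
open Set

namespace Crest.Agent.R217

variable {M M' : Type*} [AddCommGroup M] [Module ℝ M] [AddCommGroup M'] [Module ℝ M']

namespace Sig1

/-- radical of `β` on `Z` -/
def rad (Z : Submodule ℝ M) (β : M →ₗ[ℝ] M →ₗ[ℝ] ℝ) : Submodule ℝ M where
  carrier := {x | x ∈ Z ∧ ∀ y ∈ Z, β x y = 0}
  add_mem' := fun {a b} ha hb => ⟨Z.add_mem ha.1 hb.1, fun y hy => by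
    simp [ha.2 y hy, hb.2 y hy]⟩
  zero_mem' := ⟨Z.zero_mem, fun y _ => by simp⟩
  smul_mem' := fun c a ha => ⟨Z.smul_mem c ha.1, fun y hy => by simp [ha.2 y hy]⟩

theorem mem_rad {Z : Submodule ℝ M} {β : M →ₗ[ℝ] M →ₗ[ℝ] ℝ} {x : M} :
    x ∈ rad Z β ↔ x ∈ Z ∧ ∀ y ∈ Z, β x y = 0 := Iff.rfl

/-- orthogonal complement inside `Z` -/
def perp (Z P : Submodule ℝ M) (β : M →ₗ[ℝ] M →ₗ[ℝ] ℝ) : Submodule ℝ M where
  carrier := {y | y ∈ Z ∧ ∀ x ∈ P, β x y = 0}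
  add_mem' := fun {a b} ha hb => ⟨Z.add_mem ha.1 hb.1, fun y hy => by
    simp [ha.2 y hy, hb.2 y hy]⟩
  zero_mem' := ⟨Z.zero_mem, fun y _ => by simp⟩
  smul_mem' := fun c a ha => ⟨Z.smul_mem c ha.1, fun y hy => by simp [ha.2 y hy]⟩

theorem mem_perp {Z P : Submodule ℝ M} {β : M →ₗ[ℝ] M →ₗ[ℝ] ℝ} {y : M} :
    y ∈ perp Z P β ↔ y ∈ Z ∧ ∀ x ∈ P, β x y = 0 := Iff.rfl

theorem fin_le {F G N : Submodule ℝ M} [FiniteDimensional ℝ G] (h0 : ∀ x ∈ F, x ∈ N → x = 0)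
    (h1 : ∀ x ∈ F, ∃ g ∈ G, x - g ∈ N) :
    FiniteDimensional ℝ F ∧ Module.finrank ℝ F ≤ Module.finrank ℝ G := by
  let φ : F →ₗ[ℝ] (G.map N.mkQ) := LinearMap.codRestrict _ (N.mkQ ∘ₗ F.subtype) fun x => by
    obtain ⟨g, hg, hx⟩ := h1 x x.2
    exact ⟨g, hg, ((Submodule.Quotient.eq N).2 hx).symm⟩
  have hφ : Function.Injective φ := by
    rw [← LinearMap.ker_eq_bot, Submodule.eq_bot_iff]
    intro x hx
    have : N.mkQ (x : M) = 0 := congrArg Subtype.val (LinearMap.mem_ker.1 hx)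
    exact Subtype.ext (h0 x x.2 ((Submodule.Quotient.mk_eq_zero N).1 this))
  exact ⟨Module.Finite.of_injective φ hφ,
    (LinearMap.finrank_le_finrank_of_injective hφ).trans (Submodule.finrank_map_le _ _)⟩

/-- a complement of `W ⊓ N` in `W` -/
theorem exists_compl (W N : Submodule ℝ M) : ∃ W₀ : Submodule ℝ M, W₀ ≤ W ∧
    (∀ x ∈ W₀, x ∈ N → x = 0) ∧ ∀ x ∈ W, ∃ w ∈ W₀, x - w ∈ N := by
  obtain ⟨C, hC⟩ := (N.comap W.subtype).exists_isCompl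
  refine ⟨C.map W.subtype, Submodule.map_subtype_le _ _, ?_, fun x hx => ?_⟩
  · rintro _ ⟨x, hx, rfl⟩ hN
    have : x ∈ N.comap W.subtype ⊓ C := ⟨hN, hx⟩
    rw [hC.inf_eq_bot, Submodule.mem_bot] at this
    rw [this, map_zero]
  · have : (⟨x, hx⟩ : W) ∈ N.comap W.subtype ⊔ C := by
      rw [hC.sup_eq_top]; trivial
    obtain ⟨a, ha, b, hb, hab⟩ := Submodule.mem_sup.1 this
    refine ⟨b, ⟨b, hb, rfl⟩, ?_⟩
    have : x - b = a := by
      have := congrArg Subtype.val hab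
      simp only [Submodule.coe_add] at this
      rw [← this, add_sub_cancel_right]
    rw [this]
    exact ha

variable {Z : Submodule ℝ M} {β : M →ₗ[ℝ] M →ₗ[ℝ] ℝ}

theorem self_add_rad (h : RF Z β) {x r : M} (hx : x ∈ Z) (hr : r ∈ rad Z β) :
    β (x + r) (x + r) = β x x := by
  simp only [map_add, LinearMap.add_apply]
  rw [hr.2 x hx, hr.2 r hr.1, h.symm x hx r hr.1, hr.2 x hx]
  ring

/-- the basic bound -/
theorem pos_le (h : RF Z β) {F G N : Submodule ℝ M} [FiniteDimensional ℝ G] (hN : N ≤ Z)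
    (hn : ∀ x ∈ N, β x x ≤ 0) (hF : F ≤ Z) (hp : ∀ x ∈ F, x ≠ 0 → 0 < β x x)
    (hs : ∀ x ∈ Z, ∃ g ∈ G, ∃ n ∈ N, x - g - n ∈ rad Z β) :
    Module.finrank ℝ F ≤ Module.finrank ℝ G := by
  refine (fin_le (N := N ⊔ rad Z β) (fun x hx hx' => ?_) fun x hx => ?_).2
  · by_contra h0
    obtain ⟨n, hn', r, hr, rfl⟩ := Submodule.mem_sup.1 hx'
    have := hp _ hx h0
    rw [self_add_rad h (hN hn') hr] at this
    exact absurd (hn n hn') (not_le.2 this)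
  · obtain ⟨g, hg, n, hn', hr⟩ := hs x (hF hx)
    refine ⟨g, hg, Submodule.mem_sup.2 ⟨n, hn', _, hr, by abel⟩⟩

/-- computing `sPos` from a parametrised positive part -/
theorem sPos_eq (h : RF Z β) {V : Type*} [AddCommGroup V] [Module ℝ V] [FiniteDimensional ℝ V]
    (g : V →ₗ[ℝ] M) (hg : ∀ v, g v ∈ Z) (hp : ∀ v, v ≠ 0 → 0 < β (g v) (g v))
    {N : Submodule ℝ M} (hN : N ≤ Z) (hn : ∀ x ∈ N, β x x ≤ 0)
    (hs : ∀ x ∈ Z, ∃ v, ∃ n ∈ N, x - g v - n ∈ rad Z β) :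
    sPos β Z = Module.finrank ℝ V := by
  have hinj : Function.Injective g := by
    rw [← LinearMap.ker_eq_bot, Submodule.eq_bot_iff]
    intro v hv
    by_contra h0
    have := hp v h0
    rw [LinearMap.mem_ker.1 hv] at this
    simp at this
  have hr : Module.finrank ℝ (LinearMap.range g) = Module.finrank ℝ V :=
    LinearMap.finrank_range_of_inj hinj
  refine IsGreatest.csSup_eq ⟨⟨LinearMap.range g, ?_, inferInstance, hr, ?_⟩, ?_⟩
  · rintro _ ⟨v, rfl⟩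
    exact hg v
  · rintro _ ⟨v, rfl⟩ h0
    exact hp v (by rintro rfl; exact h0 (map_zero g))
  · rintro k ⟨F, hF, -, rfl, hFp⟩
    rw [← hr]
    refine pos_le h hN hn hF hFp fun x hx => ?_
    obtain ⟨v, n, hn', hr⟩ := hs x hx
    exact ⟨g v, ⟨v, rfl⟩, n, hn', hr⟩

/-- orthogonal projection onto a finite dimensional nondegenerate subspace -/
theorem exists_proj (h : RF Z β) {P : Submodule ℝ M} [FiniteDimensional ℝ P] (hP : P ≤ Z)
    (hnd : ∀ x ∈ P, (∀ y ∈ P, β x y = 0) → x = 0) {x : M} (hx : x ∈ Z) :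
    ∃ p ∈ P, x - p ∈ perp Z P β := by
  let φ : P →ₗ[ℝ] Module.Dual ℝ P := β.domRestrict₁₂ P P
  have hinj : Function.Injective φ := by
    rw [← LinearMap.ker_eq_bot, Submodule.eq_bot_iff]
    intro v hv
    refine Subtype.ext (hnd v v.2 fun y hy => ?_)
    exact LinearMap.congr_fun (LinearMap.mem_ker.1 hv) ⟨y, hy⟩
  have hsurj : Function.Surjective φ :=
    (LinearMap.injective_iff_surjective_of_finrank_eq_finrank
      (Subspace.dual_finrank_eq).symm).1 hinj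
  obtain ⟨p, hp⟩ := hsurj ((β x).domRestrict P)
  refine ⟨p, p.2, Z.sub_mem hx (hP p.2), fun y hy => ?_⟩
  have : β p y = β x y := LinearMap.congr_fun hp ⟨y, hy⟩
  rw [map_sub, h.symm y (hP hy) x hx, h.symm y (hP hy) p (hP p.2), this, sub_self]

/-- a maximal positive subspace -/
theorem exists_pos (h : RF Z β) : ∃ P : Submodule ℝ M, P ≤ Z ∧ FiniteDimensional ℝ P ∧
    Module.finrank ℝ P = sPos β Z ∧ (∀ x ∈ P, x ≠ 0 → 0 < β x x) ∧
    (∀ x ∈ perp Z P β, β x x ≤ 0) ∧ ∀ x ∈ Z, ∃ p ∈ P, x - p ∈ perp Z P β := by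
  obtain ⟨G, -, hG, hGs⟩ := h.fin
  have hbdd : BddAbove {k | ∃ F : Submodule ℝ M, (F : Set M) ⊆ Z ∧ FiniteDimensional ℝ F ∧
      Module.finrank ℝ F = k ∧ ∀ x ∈ F, x ≠ 0 → 0 < β x x} := by
    refine ⟨Module.finrank ℝ G, ?_⟩
    rintro k ⟨F, hF, -, rfl, hFp⟩
    refine (fin_le (N := (perp ⊤ Z β.flip)) (fun x hx hx' => ?_) fun x hx => ?_).2
    · by_contra h0
      have := hFp x hx h0
      rw [show β x x = 0 from hx'.2 x (hF hx)] at this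
      exact lt_irrefl _ this
    · obtain ⟨f, hf, hf'⟩ := hGs x (hF hx)
      exact ⟨f, hf, trivial, hf'⟩
  have hne : {k | ∃ F : Submodule ℝ M, (F : Set M) ⊆ Z ∧ FiniteDimensional ℝ F ∧
      Module.finrank ℝ F = k ∧ ∀ x ∈ F, x ≠ 0 → 0 < β x x}.Nonempty :=
    ⟨_, ⊥, by simp, inferInstance, rfl, fun x hx h0 => absurd hx h0⟩
  obtain ⟨P, hP, hPf, hPr, hPp⟩ := Nat.sSup_mem hne hbdd
  refine ⟨P, hP, hPf, hPr, hPp, fun x hx => ?_, fun x hx => exists_proj h hP ?_ hx⟩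
  · by_contra hpos
    rw [not_le] at hpos
    have hxP : x ∉ P := fun hxP => by
      rw [hx.2 x hxP] at hpos
      exact lt_irrefl _ hpos
    have hlt : P < P ⊔ Submodule.span ℝ {x} := by
      refine lt_of_le_of_ne le_sup_left fun e => hxP ?_
      rw [e]
      exact Submodule.mem_sup_right (Submodule.mem_span_singleton_self x)
    have hle := le_csSup hbdd ⟨P ⊔ Submodule.span ℝ {x}, ?_, inferInstance, rfl, ?_⟩
    · have := Submodule.finrank_lt_finrank_of_lt hlt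
      omega
    · exact sup_le (show P ≤ Z from hP) ((Submodule.span_singleton_le_iff_mem _ _).2 hx.1)
    · intro y hy h0
      obtain ⟨p, hp, z, hz, rfl⟩ := Submodule.mem_sup.1 hy
      obtain ⟨c, rfl⟩ := Submodule.mem_span_singleton.1 hz
      have e : β (p + c • x) (p + c • x) = β p p + c ^ 2 * β x x := by
        simp only [map_add, map_smul, LinearMap.add_apply, LinearMap.smul_apply, smul_eq_mul]
        rw [h.symm x hx.1 p (hP hp), hx.2 p hp]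
        ring
      rw [e]
      by_cases hp0 : p = 0
      · have hc : c ≠ 0 := by
          rintro rfl
          simp [hp0] at h0
        rw [hp0]
        simp only [map_zero, zero_add]
        positivity
      · have := hPp p hp hp0
        positivity
  · intro x hx hx'
    by_contra h0
    have := hPp x hx h0
    rw [hx' x hx] at this
    exact lt_irrefl _ this

theorem rf_neg (h : RF Z β) : RF Z (-β) where
  symm x hx y hy := by simp [h.symm x hx y hy]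
  fin := by
    obtain ⟨F, hF, hf, hs⟩ := h.fin
    refine ⟨F, hF, hf, fun x hx => ?_⟩
    obtain ⟨f, hf, hf'⟩ := hs x hx
    exact ⟨f, hf, fun y hy => by rw [LinearMap.neg_apply, LinearMap.neg_apply, hf' y hy, neg_zero]⟩

theorem rad_neg : rad Z (-β) = rad Z β := by
  ext x
  simp [mem_rad]

/-- finite dimensional complement of the radical inside a subspace -/
theorem exists_fin (h : RF Z β) {W : Submodule ℝ M} (hW : W ≤ Z) : ∃ W₀ : Submodule ℝ M, W₀ ≤ W ∧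
    FiniteDimensional ℝ W₀ ∧ (∀ x ∈ W₀, x ∈ rad Z β → x = 0) ∧
    ∀ x ∈ W, ∃ w ∈ W₀, x - w ∈ rad Z β := by
  obtain ⟨W₀, h1, h2, h3⟩ := exists_compl W (rad Z β)
  obtain ⟨G, hGZ, hG, hGs⟩ := h.fin
  refine ⟨W₀, h1, (fin_le (G := G) h2 fun x hx => ?_).1, h2, h3⟩
  obtain ⟨f, hf, hf'⟩ := hGs x (hW (h1 hx))
  exact ⟨f, hf, Z.sub_mem (hW (h1 hx)) (hGZ hf), hf'⟩

theorem rf_mono (h : RF Z β) {W : Submodule ℝ M} (hW : W ≤ Z) : RF W β where
  symm x hx y hy := h.symm x (hW hx) y (hW hy)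
  fin := by
    obtain ⟨W₀, h1, h2, -, h3⟩ := exists_fin h hW
    refine ⟨W₀, h1, h2, fun x hx => ?_⟩
    obtain ⟨w, hw, hw'⟩ := h3 x hx
    exact ⟨w, hw, fun y hy => hw'.2 y (hW hy)⟩

theorem rf_comap {Z' : Submodule ℝ M'} {β' : M' →ₗ[ℝ] M' →ₗ[ℝ] ℝ} (h' : RF Z' β')
    (f : M →ₗ[ℝ] M') (hf : ∀ x ∈ Z, f x ∈ Z') {κ : ℝ} (hκ : κ ≠ 0)
    (hβ : ∀ x ∈ Z, ∀ y ∈ Z, β' (f x) (f y) = κ * β x y) : RF Z β where
  symm x hx y hy := by
    apply mul_left_cancel₀ hκ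
    rw [← hβ x hx y hy, ← hβ y hy x hx, h'.symm _ (hf x hx) _ (hf y hy)]
  fin := by
    obtain ⟨W₀, h1, h2, h3⟩ := exists_compl Z (rad Z β)
    obtain ⟨G, hGZ, hG, hGs⟩ := h'.fin
    have hrad : ∀ x ∈ W₀, f x ∈ rad Z' β' → x = 0 := fun x hx hr =>
      h2 x hx ⟨h1 hx, fun y hy => by
        have := hβ x (h1 hx) y hy
        rw [hr.2 _ (hf y hy)] at this
        exact (mul_eq_zero.1 this.symm).resolve_left hκ⟩
    have hfin : FiniteDimensional ℝ (W₀.map f) := by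
      refine (fin_le (G := G) (N := rad Z' β') ?_ ?_).1
      · rintro _ ⟨x, hx, rfl⟩ hr
        rw [hrad x hx hr, map_zero]
      · rintro _ ⟨x, hx, rfl⟩
        obtain ⟨g, hg, hg'⟩ := hGs _ (hf x (h1 hx))
        exact ⟨g, hg, Z'.sub_mem (hf x (h1 hx)) (hGZ hg), hg'⟩
    have hW : FiniteDimensional ℝ W₀ := by
      refine Module.Finite.of_injective (f.submoduleMap W₀) ?_
      rw [← LinearMap.ker_eq_bot, Submodule.eq_bot_iff]
      intro x hx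
      have : f x = 0 := congrArg Subtype.val (LinearMap.mem_ker.1 hx)
      exact Subtype.ext (hrad x x.2 (this ▸ (rad Z' β').zero_mem))
    refine ⟨W₀, h1, hW, fun x hx => ?_⟩
    obtain ⟨w, hw, hw'⟩ := h3 x hx
    exact ⟨w, hw, hw'.2⟩

theorem sPos_transport {Z' : Submodule ℝ M'} {β' : M' →ₗ[ℝ] M' →ₗ[ℝ] ℝ} (h' : RF Z' β')
    (f : M →ₗ[ℝ] M') (hf : ∀ x ∈ Z, f x ∈ Z')
    {κ : ℝ} (hκ : 0 < κ) (hβ : ∀ x ∈ Z, ∀ y ∈ Z, β' (f x) (f y) = κ * β x y)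
    (hs : ∀ x' ∈ Z', ∃ x ∈ Z, ∀ y' ∈ Z', β' (x' - f x) y' = 0) : sPos β' Z' = sPos β Z := by
  obtain ⟨P, hP, hPf, hPr, hPp, hN, hd⟩ := exists_pos (rf_comap h' f hf hκ.ne' hβ)
  rw [← hPr]
  refine sPos_eq h' (f ∘ₗ P.subtype) (fun v => hf _ (hP v.2)) (fun v hv => ?_)
    (N := (perp Z P β).map f) ?_ ?_ fun x' hx' => ?_
  · rw [LinearMap.comp_apply, Submodule.subtype_apply, hβ _ (hP v.2) _ (hP v.2)]
    exact mul_pos hκ (hPp _ v.2 fun e => hv (Subtype.ext e))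
  · rintro _ ⟨x, hx, rfl⟩
    exact hf x hx.1
  · rintro _ ⟨x, hx, rfl⟩
    rw [hβ _ hx.1 _ hx.1]
    exact mul_nonpos_of_nonneg_of_nonpos hκ.le (hN x hx)
  · obtain ⟨x, hx, hx''⟩ := hs x' hx'
    obtain ⟨p, hp, hp'⟩ := hd x hx
    refine ⟨⟨p, hp⟩, _, ⟨_, hp', rfl⟩, ?_⟩
    have e : x' - (f ∘ₗ P.subtype) ⟨p, hp⟩ - f (x - p) = x' - f x := by
      simp only [LinearMap.comp_apply, Submodule.subtype_apply, map_sub]
      abel
    rw [e]
    exact ⟨Z'.sub_mem hx' (hf x hx), hx''⟩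

theorem sPos_orth_add {Z₁ Z₂ : Submodule ℝ M} (h : RF Z β)
    (h₁ : Z₁ ≤ Z) (h₂ : Z₂ ≤ Z) (ho : ∀ x ∈ Z₁, ∀ y ∈ Z₂, β x y = 0)
    (hs : ∀ x ∈ Z, ∃ x₁ ∈ Z₁, ∃ x₂ ∈ Z₂, ∀ y ∈ Z, β (x - x₁ - x₂) y = 0) :
    sPos β Z = sPos β Z₁ + sPos β Z₂ := by
  obtain ⟨P₁, hP₁, hPf₁, hPr₁, hPp₁, hN₁, hd₁⟩ := exists_pos (rf_mono h h₁)
  obtain ⟨P₂, hP₂, hPf₂, hPr₂, hPp₂, hN₂, hd₂⟩ := exists_pos (rf_mono h h₂)
  have key : ∀ a ∈ Z₁, ∀ b ∈ Z₂, β (a + b) (a + b) = β a a + β b b := fun a ha b hb => by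
    simp only [map_add, LinearMap.add_apply]
    rw [h.symm b (h₂ hb) a (h₁ ha), ho a ha b hb]
    ring
  rw [← hPr₁, ← hPr₂, ← Module.finrank_prod]
  refine sPos_eq h (P₁.subtype.coprod P₂.subtype)
    (fun v => Z.add_mem (h₁ (hP₁ v.1.2)) (h₂ (hP₂ v.2.2))) (fun v hv => ?_)
    (N := perp Z₁ P₁ β ⊔ perp Z₂ P₂ β)
    (sup_le (fun x hx => h₁ hx.1) fun x hx => h₂ hx.1) ?_ fun x hx => ?_
  · simp only [LinearMap.coprod_apply, Submodule.subtype_apply]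
    rw [key _ (hP₁ v.1.2) _ (hP₂ v.2.2)]
    have n1 : 0 ≤ β v.1 v.1 := by
      by_cases e : (v.1 : M) = 0
      · simp [e]
      · exact (hPp₁ _ v.1.2 e).le
    have n2 : 0 ≤ β v.2 v.2 := by
      by_cases e : (v.2 : M) = 0
      · simp [e]
      · exact (hPp₂ _ v.2.2 e).le
    by_cases e : (v.1 : M) = 0
    · have e2 : (v.2 : M) ≠ 0 := fun e2 => hv (Prod.ext (Subtype.ext e) (Subtype.ext e2))
      have := hPp₂ _ v.2.2 e2
      linarith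
    · have := hPp₁ _ v.1.2 e
      linarith
  · intro x hx
    obtain ⟨a, ha, b, hb, rfl⟩ := Submodule.mem_sup.1 hx
    rw [key a ha.1 b hb.1]
    linarith [hN₁ a ha, hN₂ b hb]
  · obtain ⟨x₁, hx₁, x₂, hx₂, hr⟩ := hs x hx
    obtain ⟨p₁, hp₁, hp₁'⟩ := hd₁ x₁ hx₁
    obtain ⟨p₂, hp₂, hp₂'⟩ := hd₂ x₂ hx₂
    refine ⟨(⟨p₁, hp₁⟩, ⟨p₂, hp₂⟩), _, Submodule.add_mem_sup hp₁' hp₂', ?_⟩
    have e : x - (P₁.subtype.coprod P₂.subtype) (⟨p₁, hp₁⟩, ⟨p₂, hp₂⟩) - (x₁ - p₁ + (x₂ - p₂)) =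
        x - x₁ - x₂ := by
      simp only [LinearMap.coprod_apply, Submodule.subtype_apply]
      abel
    rw [e]
    exact ⟨Z.sub_mem (Z.sub_mem hx (h₁ hx₁)) (h₂ hx₂), hr⟩

theorem sPos_pi {d : ℕ} {Z' : Submodule ℝ M'} {β' : M' →ₗ[ℝ] M' →ₗ[ℝ] ℝ} (h : RF Z β)
    (h' : RF Z' β') (Φ : (Fin d → M) →ₗ[ℝ] M')
    (hΦ : ∀ y, (∀ i, y i ∈ Z) → Φ y ∈ Z') (γ : Fin d → ℝ) (hγ : ∀ i, 0 < γ i)
    (hβ : ∀ y y', (∀ i, y i ∈ Z) → (∀ i, y' i ∈ Z) →
      β' (Φ y) (Φ y') = ∑ i, γ i * β (y i) (y' i))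
    (hs : ∀ x' ∈ Z', ∃ y, (∀ i, y i ∈ Z) ∧ ∀ y' ∈ Z', β' (x' - Φ y) y' = 0) :
    sPos β' Z' = d * sPos β Z := by
  obtain ⟨P, hP, hPf, hPr, hPp, hN, hd⟩ := exists_pos h
  have hr : Module.finrank ℝ (Fin d → P) = d * sPos β Z := by
    rw [Module.finrank_pi_fintype, hPr]
    simp
  rw [← hr]
  refine sPos_eq h' (Φ ∘ₗ P.subtype.compLeft (Fin d)) (fun v => hΦ _ fun i => hP (v i).2)
    (fun v hv => ?_) (N := (Submodule.pi univ fun _ => perp Z P β).map Φ) ?_ ?_ fun x' hx' => ?_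
  · show 0 < β' (Φ fun i => v i) (Φ fun i => v i)
    rw [hβ _ _ (fun i => hP (v i).2) (fun i => hP (v i).2)]
    obtain ⟨i, hi⟩ := Function.ne_iff.1 hv
    refine Finset.sum_pos' (fun j _ => mul_nonneg (hγ j).le ?_) ⟨i, Finset.mem_univ _,
      mul_pos (hγ i) (hPp _ (v i).2 fun e => hi (Subtype.ext e))⟩
    by_cases e : (v j : M) = 0
    · show 0 ≤ β (v j) (v j)
      simp [e]
    · exact (hPp _ (v j).2 e).le
  · rintro _ ⟨y, hy, rfl⟩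
    exact hΦ y fun i => (hy i trivial).1
  · rintro _ ⟨y, hy, rfl⟩
    rw [hβ _ _ (fun i => (hy i trivial).1) (fun i => (hy i trivial).1)]
    exact Finset.sum_nonpos fun i _ =>
      mul_nonpos_of_nonneg_of_nonpos (hγ i).le (hN _ (hy i trivial))
  · obtain ⟨y, hy, hy'⟩ := hs x' hx'
    choose p hp hp' using fun i => hd (y i) (hy i)
    refine ⟨fun i => ⟨p i, hp i⟩, _, ⟨y - p, fun i _ => hp' i, rfl⟩, ?_⟩
    have e : x' - (Φ ∘ₗ P.subtype.compLeft (Fin d)) (fun i => ⟨p i, hp i⟩) - Φ (y - p) =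
        x' - Φ y := by
      have : (Φ ∘ₗ P.subtype.compLeft (Fin d)) (fun i => ⟨p i, hp i⟩) = Φ p := rfl
      rw [this, map_sub]
      abel
    rw [e]
    exact ⟨Z'.sub_mem hx' (hΦ y hy), hy'⟩

/-- an isotropic subspace has dimension at most `sPos (-β)` modulo the radical -/
theorem iso_fin (h : RF Z β) {J : Submodule ℝ M} (hJ : J ≤ Z) (hi : ∀ x ∈ J, β x x = 0) :
    ∃ J₀ : Submodule ℝ M, J₀ ≤ J ∧ FiniteDimensional ℝ J₀ ∧
      Module.finrank ℝ J₀ ≤ sPos (-β) Z ∧ ∀ x ∈ J, ∃ w ∈ J₀, x - w ∈ rad Z β := by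
  obtain ⟨J₀, h1, h2, h3, h4⟩ := exists_fin h hJ
  refine ⟨J₀, h1, h2, ?_, h4⟩
  obtain ⟨Q, hQ, hQf, hQr, hQp, hN, hd⟩ := exists_pos (rf_neg h)
  -- `N = Q^⊥` is nonnegative; inside it take a maximal positive `P`
  have hNZ : perp Z Q (-β) ≤ Z := fun x hx => hx.1
  obtain ⟨P, hP, hPf, -, hPp, hN', hd'⟩ := exists_pos (rf_mono h hNZ)
  have hrad : ∀ x ∈ perp (perp Z Q (-β)) P β, x ∈ rad Z β := by
    intro x hx
    have hx0 : β x x = 0 := le_antisymm (hN' x hx) (by simpa using hN x hx.1)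
    refine ⟨hx.1.1, fun y hy => ?_⟩
    obtain ⟨q, hq, hq'⟩ := hd y hy
    have e1 : β x q = 0 := by
      rw [h.symm x hx.1.1 q (hQ hq)]
      simpa using hx.1.2 q hq
    have e2 : β x (y - q) = 0 := by
      by_contra hne
      set z := y - q
      have hz : 0 ≤ β z z := by simpa using hN z hq'
      have hall : ∀ t : ℝ, 0 ≤ β z z + 2 * t * β x z := fun t => by
        have := hN (z + t • x) ((perp Z Q (-β)).add_mem hq' ((perp Z Q (-β)).smul_mem t hx.1))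
        simp only [LinearMap.neg_apply, map_add, map_smul, LinearMap.add_apply,
          LinearMap.smul_apply, smul_eq_mul] at this
        rw [hx0, h.symm z hq'.1 x hx.1.1] at this
        linarith
      have := hall (-(β z z + 1) / (2 * β x z))
      have e : 2 * (-(β z z + 1) / (2 * β x z)) * β x z = -(β z z + 1) := by
        field_simp
      linarith
    rw [map_sub, e1, sub_zero] at e2
    exact e2
  rw [← hQr]
  refine (fin_le (N := P ⊔ rad Z β) (fun x hx hx' => ?_) fun x hx => ?_).2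
  · obtain ⟨p, hp, r, hr, rfl⟩ := Submodule.mem_sup.1 hx'
    have e := hi _ (h1 hx)
    rw [self_add_rad h (hNZ (hP hp)) hr] at e
    have hp0 : p = 0 := by
      by_contra h0
      exact (hPp p hp h0).ne' e
    rw [hp0, zero_add] at hx ⊢
    exact h3 r hx hr
  · obtain ⟨q, hq, hq'⟩ := hd x (hJ (h1 hx))
    obtain ⟨p, hp, hp'⟩ := hd' _ hq'
    exact ⟨q, hq, Submodule.mem_sup.2 ⟨p, hp, _, hrad _ hp', by abel⟩⟩

/-- `sPos β + sPos (-β)` is at most the rank -/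
theorem add_le (h : RF Z β) {G : Submodule ℝ M} [FiniteDimensional ℝ G]
    (hs : ∀ x ∈ Z, ∃ g ∈ G, x - g ∈ rad Z β) :
    sPos β Z + sPos (-β) Z ≤ Module.finrank ℝ G := by
  obtain ⟨P, hP, hPf, hPr, hPp, -, -⟩ := exists_pos h
  obtain ⟨Q, hQ, hQf, hQr, hQp, -, -⟩ := exists_pos (rf_neg h)
  have hd : ∀ p ∈ P, ∀ q ∈ Q, p + q ∈ rad Z β → p = 0 ∧ q = 0 := by
    intro p hp q hq hr
    have e := self_add_rad h (Z.neg_mem (hQ hq)) hr
    rw [show -q + (p + q) = p by abel] at e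
    simp only [map_neg, LinearMap.neg_apply, neg_neg] at e
    have n1 : 0 ≤ β p p := by
      by_cases e : p = 0
      · simp [e]
      · exact (hPp _ hp e).le
    have n2 : β q q ≤ 0 := by
      by_cases e : q = 0
      · simp [e]
      · simpa using (hQp _ hq e).le
    constructor
    · by_contra h0
      have := hPp p hp h0
      linarith
    · by_contra h0
      have := hQp q hq h0
      simp only [LinearMap.neg_apply] at this
      linarith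
  have hdis : P ⊓ Q = ⊥ := by
    rw [Submodule.eq_bot_iff]
    intro x hx
    exact (hd x hx.1 (-x) (Q.neg_mem hx.2) (by simp)).1
  have e := Submodule.finrank_sup_add_finrank_inf_eq P Q
  rw [hdis, finrank_bot, add_zero] at e
  rw [← hPr, ← hQr, ← e]
  refine (fin_le (N := rad Z β) (fun x hx hx' => ?_) fun x hx => hs x (sup_le hP hQ hx)).2
  obtain ⟨p, hp, q, hq, rfl⟩ := Submodule.mem_sup.1 hx
  obtain ⟨rfl, rfl⟩ := hd p hp q hq hx'
  simp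

theorem two_iso_le {J₁ J₂ : Submodule ℝ M} (h : RF Z β)
    (h₁ : J₁ ≤ Z) (h₂ : J₂ ≤ Z) (hi₁ : ∀ x ∈ J₁, β x x = 0) (hi₂ : ∀ x ∈ J₂, β x x = 0)
    (hs : ∀ x ∈ Z, ∃ x₁ ∈ J₁, ∃ x₂ ∈ J₂, ∀ y ∈ Z, β (x - x₁ - x₂) y = 0) :
    sPos β Z ≤ sPos (-β) Z := by
  obtain ⟨A, hA, hAf, hAr, hAs⟩ := iso_fin h h₁ hi₁
  obtain ⟨B, hB, hBf, hBr, hBs⟩ := iso_fin h h₂ hi₂
  have e := Submodule.finrank_sup_add_finrank_inf_eq A B
  have := add_le h (G := A ⊔ B) fun x hx => by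
    obtain ⟨x₁, hx₁, x₂, hx₂, hr⟩ := hs x hx
    obtain ⟨a, ha, ha'⟩ := hAs x₁ hx₁
    obtain ⟨b, hb, hb'⟩ := hBs x₂ hx₂
    refine ⟨a + b, Submodule.add_mem_sup ha hb, ?_⟩
    have hr' : x - x₁ - x₂ ∈ rad Z β := ⟨Z.sub_mem (Z.sub_mem hx (h₁ hx₁)) (h₂ hx₂), hr⟩
    have := (rad Z β).add_mem ((rad Z β).add_mem hr' ha') hb'
    rwa [show x - x₁ - x₂ + (x₁ - a) + (x₂ - b) = x - (a + b) by abel] at this
  omega

/-- Lagrangian: `R` and its orthogonal complement are isotropic -/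
theorem lagr_le {R : Submodule ℝ M} (h : RF Z β) (hR : R ≤ Z) (hi : ∀ x ∈ R, β x x = 0)
    (hp : ∀ y ∈ Z, (∀ x ∈ R, β x y = 0) → β y y = 0) : sPos β Z ≤ sPos (-β) Z := by
  obtain ⟨A, hA, hAf, hAr, hAs⟩ := iso_fin h hR hi
  obtain ⟨P, hP, hPf, hPr, hPp, -, -⟩ := exists_pos h
  let φ : P →ₗ[ℝ] Module.Dual ℝ A := β.flip.domRestrict₁₂ P A
  have hinj : Function.Injective φ := by
    rw [← LinearMap.ker_eq_bot, Submodule.eq_bot_iff]
    intro v hv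
    by_contra h0
    refine (hPp v v.2 fun e => h0 (Subtype.ext e)).ne' (hp v (hP v.2) fun x hx => ?_)
    obtain ⟨a, ha, ha'⟩ := hAs x hx
    have e1 : β a v = 0 := LinearMap.congr_fun (LinearMap.mem_ker.1 hv) ⟨a, ha⟩
    have e2 := ha'.2 v (hP v.2)
    rwa [map_sub, LinearMap.sub_apply, e1, sub_zero] at e2
  have := LinearMap.finrank_le_finrank_of_injective hinj
  rw [Subspace.dual_finrank_eq] at this
  omega

theorem neg_neg' (β : M →ₗ[ℝ] M →ₗ[ℝ] ℝ) : - -β = β := by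
  ext x y
  simp

end Sig1

theorem sg_neg (β : M →ₗ[ℝ] M →ₗ[ℝ] ℝ) (W : Set M) : sg (-β) W = -sg β W := by
  unfold sg
  rw [Sig1.neg_neg']
  ring

theorem sg_congr {β β' : M →ₗ[ℝ] M →ₗ[ℝ] ℝ} {W : Set M} (h : ∀ x ∈ W, β x x = β' x x) :
    sg β W = sg β' W := by
  have key : ∀ {β β' : M →ₗ[ℝ] M →ₗ[ℝ] ℝ}, (∀ x ∈ W, β x x = β' x x) → sPos β W = sPos β' W := by
    intro β β' h
    unfold sPos
    congr 1
    ext k
    refine exists_congr fun F => and_congr_right fun hF => and_congr_right fun _ =>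
      and_congr_right fun _ => forall₂_congr fun x hx => ?_
    rw [h x (hF hx)]
  unfold sg
  rw [key h, key (β := -β) (β' := -β') fun x hx => by simp [h x hx]]

theorem sg_eq_zero {β : M →ₗ[ℝ] M →ₗ[ℝ] ℝ} {W : Set M} (h : ∀ x ∈ W, β x x = 0) :
    sg β W = 0 := by
  have := sg_congr (β := -β) (β' := β) (W := W) fun x hx => by simp [h x hx]
  rw [sg_neg] at this
  omega

theorem RF.neg {Z : Submodule ℝ M} {β : M →ₗ[ℝ] M →ₗ[ℝ] ℝ} (h : RF Z β) : RF Z (-β) := by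
  exact Sig1.rf_neg h

/-- (the image of `W` in the finite-dimensional `Z ⧸ rad` is finite-dimensional; lift a basis) -/
theorem RF.mono {Z W : Submodule ℝ M} {β : M →ₗ[ℝ] M →ₗ[ℝ] ℝ} (h : RF Z β) (hW : W ≤ Z) :
    RF W β := by
  exact Sig1.rf_mono h hW

/-- transport along a conformal map which is onto modulo the radical -/
theorem sg_transport {Z : Submodule ℝ M} {Z' : Submodule ℝ M'} {β : M →ₗ[ℝ] M →ₗ[ℝ] ℝ}
    {β' : M' →ₗ[ℝ] M' →ₗ[ℝ] ℝ} (h' : RF Z' β') (f : M →ₗ[ℝ] M') (hf : ∀ x ∈ Z, f x ∈ Z')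
    {κ : ℝ} (hκ : 0 < κ) (hβ : ∀ x ∈ Z, ∀ y ∈ Z, β' (f x) (f y) = κ * β x y)
    (hs : ∀ x' ∈ Z', ∃ x ∈ Z, ∀ y' ∈ Z', β' (x' - f x) y' = 0) : sg β' Z' = sg β Z := by
  unfold sg
  rw [Sig1.sPos_transport h' f hf hκ hβ hs, Sig1.sPos_transport (β := -β) h'.neg f hf hκ
    (fun x hx y hy => by simp [hβ x hx y hy]) fun x' hx' => ?_]
  obtain ⟨x, hx, hx'⟩ := hs x' hx'
  exact ⟨x, hx, fun y hy => by rw [LinearMap.neg_apply, LinearMap.neg_apply, hx' y hy, neg_zero]⟩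

theorem sg_orth_add {Z Z₁ Z₂ : Submodule ℝ M} {β : M →ₗ[ℝ] M →ₗ[ℝ] ℝ} (h : RF Z β)
    (h₁ : Z₁ ≤ Z) (h₂ : Z₂ ≤ Z) (ho : ∀ x ∈ Z₁, ∀ y ∈ Z₂, β x y = 0)
    (hs : ∀ x ∈ Z, ∃ x₁ ∈ Z₁, ∃ x₂ ∈ Z₂, ∀ y ∈ Z, β (x - x₁ - x₂) y = 0) :
    sg β Z = sg β Z₁ + sg β Z₂ := by
  unfold sg
  rw [Sig1.sPos_orth_add h h₁ h₂ ho hs, Sig1.sPos_orth_add h.neg h₁ h₂
    (fun x hx y hy => by simp [ho x hx y hy]) fun x hx => ?_]
  · push_cast
    ring
  obtain ⟨x₁, hx₁, x₂, hx₂, hr⟩ := hs x hx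
  exact ⟨x₁, hx₁, x₂, hx₂, fun y hy => by
    rw [LinearMap.neg_apply, LinearMap.neg_apply, hr y hy, neg_zero]⟩

/-- a space spanned (mod radical) by two isotropic subspaces has signature `0`: in the
nondegenerate quotient of signature `(p,q)` isotropic subspaces have dimension `≤ min p q`, so
`p + q ≤ 2 min p q`. -/
theorem sg_two_isotropic {Z J₁ J₂ : Submodule ℝ M} {β : M →ₗ[ℝ] M →ₗ[ℝ] ℝ} (h : RF Z β)
    (h₁ : J₁ ≤ Z) (h₂ : J₂ ≤ Z) (hi₁ : ∀ x ∈ J₁, β x x = 0) (hi₂ : ∀ x ∈ J₂, β x x = 0)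
    (hs : ∀ x ∈ Z, ∃ x₁ ∈ J₁, ∃ x₂ ∈ J₂, ∀ y ∈ Z, β (x - x₁ - x₂) y = 0) : sg β Z = 0 := by
  have a := Sig1.two_iso_le h h₁ h₂ hi₁ hi₂ hs
  have b := Sig1.two_iso_le h.neg h₁ h₂ (fun x hx => by simp [hi₁ x hx])
    (fun x hx => by simp [hi₂ x hx]) fun x hx => by
      obtain ⟨x₁, hx₁, x₂, hx₂, hr⟩ := hs x hx
      exact ⟨x₁, hx₁, x₂, hx₂, fun y hy => by
        rw [LinearMap.neg_apply, LinearMap.neg_apply, hr y hy, neg_zero]⟩
  rw [Sig1.neg_neg'] at b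
  unfold sg
  omega

/-- `sg Z = sg I + sg I^⊥`.  In the nondegenerate quotient `V` let `R = I ∩ I^⊥`, `I = R ⊕ I₀`,
`I^⊥ = R ⊕ I₁` with `I₀, I₁` nondegenerate; `V = I₀ ⊥ I₁ ⊥ H`, `H = (I₀ ⊕ I₁)^⊥ ⊇ R` has
dimension `2 dim R` and `R` is isotropic, so `H` has signature `0`. -/
theorem sg_perp {Z I P : Submodule ℝ M} {β : M →ₗ[ℝ] M →ₗ[ℝ] ℝ} (h : RF Z β) (hI : I ≤ Z)
    (hP : ∀ y, y ∈ P ↔ y ∈ Z ∧ ∀ x ∈ I, β x y = 0) : sg β Z = sg β I + sg β P := by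
  -- splitting off the nondegenerate part of a subspace
  have split : ∀ {Z W : Submodule ℝ M}, RF Z β → W ≤ Z → ∃ W₀ : Submodule ℝ M, W₀ ≤ W ∧
      (∀ x ∈ W₀, (∀ y ∈ W₀, β x y = 0) → x = 0) ∧
      (∀ x ∈ W, ∃ w ∈ W₀, x - w ∈ Sig1.rad W β) ∧
      sg β Z = sg β W + sg β (Sig1.perp Z W₀ β) := by
    intro Z W h hW
    obtain ⟨W₀, h1, h2, h3, h4⟩ := Sig1.exists_fin (h.mono hW) le_rfl
    have hnd : ∀ x ∈ W₀, (∀ y ∈ W₀, β x y = 0) → x = 0 := by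
      intro x hx hx'
      refine h3 x hx ⟨h1 hx, fun y hy => ?_⟩
      obtain ⟨w, hw, hw'⟩ := h4 y hy
      have e := hw'.2 x (h1 hx)
      rw [h.symm _ (hW hw'.1) _ (hW (h1 hx)), map_sub, hx' w hw, sub_zero] at e
      exact e
    refine ⟨W₀, h1, hnd, h4, ?_⟩
    have e1 : sg β W = sg β W₀ := sg_transport (h.mono hW) LinearMap.id (fun x hx => h1 hx)
      one_pos (fun x _ y _ => by simp) fun x hx => by
        obtain ⟨w, hw, hw'⟩ := h4 x hx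
        exact ⟨w, hw, hw'.2⟩
    rw [e1]
    refine sg_orth_add h (h1.trans hW) (fun x hx => hx.1) (fun x hx y hy => hy.2 x hx)
      fun x hx => ?_
    obtain ⟨p, hp, hp'⟩ := Sig1.exists_proj h (h1.trans hW) hnd hx
    exact ⟨p, hp, _, hp', fun y _ => by simp⟩
  obtain ⟨I₀, hI₀, -, hIs, e1⟩ := split h hI
  have hZ' : Sig1.perp Z I₀ β ≤ Z := fun x hx => hx.1
  have hPZ' : P ≤ Sig1.perp Z I₀ β := fun y hy =>
    ⟨((hP y).1 hy).1, fun x hx => ((hP y).1 hy).2 x (hI₀ hx)⟩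
  obtain ⟨P₀, hP₀, hnd, hPs, e2⟩ := split (h.mono hZ') hPZ'
  set Z'' := Sig1.perp (Sig1.perp Z I₀ β) P₀ β with hZ''
  have hZ''Z : Z'' ≤ Z := fun x hx => hx.1.1
  have hR : Sig1.rad I β ≤ Z'' := fun x hx =>
    ⟨⟨hI hx.1, fun y hy => by rw [h.symm y (hI (hI₀ hy)) x (hI hx.1)]; exact hx.2 y (hI₀ hy)⟩,
      fun y hy => by
        rw [h.symm y ((hP y).1 (hP₀ hy)).1 x (hI hx.1)]
        exact ((hP y).1 (hP₀ hy)).2 x hx.1⟩
  have hi : ∀ x ∈ Sig1.rad I β, β x x = 0 := fun x hx => hx.2 x hx.1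
  have hp : ∀ y ∈ Z'', (∀ x ∈ Sig1.rad I β, β x y = 0) → β y y = 0 := by
    intro y hy hy'
    have hyP : y ∈ P := by
      refine (hP y).2 ⟨hy.1.1, fun x hx => ?_⟩
      obtain ⟨w, hw, hw'⟩ := hIs x hx
      have e := hy' _ hw'
      rwa [map_sub, LinearMap.sub_apply, hy.1.2 w hw, sub_zero] at e
    obtain ⟨w, hw, hw'⟩ := hPs y hyP
    have e := hw'.2 y hyP
    rwa [map_sub, LinearMap.sub_apply, hy.2 w hw, sub_zero] at e
  have a := Sig1.lagr_le (h.mono hZ''Z) hR hi hp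
  have b := Sig1.lagr_le (h.mono hZ''Z).neg hR (fun x hx => by simp [hi x hx])
    fun y hy hy' => by simpa using hp y hy fun x hx => by simpa using hy' x hx
  rw [Sig1.neg_neg'] at b
  have e3 : sg β Z'' = 0 := by
    unfold sg
    omega
  rw [e1, e2, e3, add_zero]

/-- `d` orthogonal positively rescaled copies (induction with `sg_orth_add`, `sg_transport`). -/
theorem sg_pi {d : ℕ} {Z : Submodule ℝ M} {Z' : Submodule ℝ M'} {β : M →ₗ[ℝ] M →ₗ[ℝ] ℝ}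
    {β' : M' →ₗ[ℝ] M' →ₗ[ℝ] ℝ} (h' : RF Z' β') (Φ : (Fin d → M) →ₗ[ℝ] M')
    (hΦ : ∀ y, (∀ i, y i ∈ Z) → Φ y ∈ Z') (γ : Fin d → ℝ) (hγ : ∀ i, 0 < γ i)
    (hβ : ∀ y y', (∀ i, y i ∈ Z) → (∀ i, y' i ∈ Z) →
      β' (Φ y) (Φ y') = ∑ i, γ i * β (y i) (y' i))
    (hs : ∀ x' ∈ Z', ∃ y, (∀ i, y i ∈ Z) ∧ ∀ y' ∈ Z', β' (x' - Φ y) y' = 0) :
    sg β' Z' = d * sg β Z := by
  rcases Nat.eq_zero_or_pos d with rfl | hd
  · rw [Nat.cast_zero, zero_mul]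
    refine sg_eq_zero fun x hx => ?_
    obtain ⟨y, -, hy⟩ := hs x hx
    have := hy x hx
    rwa [Subsingleton.elim y 0, map_zero, sub_zero] at this
  have hm : ∀ (i : Fin d), ∀ x ∈ Z, ∀ j, (Pi.single i x : Fin d → M) j ∈ Z := by
    intro i x hx j
    by_cases e : j = i
    · subst e
      simpa using hx
    · simp [Pi.single_eq_of_ne e]
  have h : RF Z β := Sig1.rf_comap h' (Φ ∘ₗ LinearMap.single ℝ (fun _ => M) ⟨0, hd⟩)
    (fun x hx => hΦ _ (hm _ x hx)) (hγ ⟨0, hd⟩).ne' fun x hx y hy => by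
      simp only [LinearMap.comp_apply, LinearMap.coe_single]
      rw [hβ _ _ (hm _ x hx) (hm _ y hy), Finset.sum_eq_single ⟨0, hd⟩]
      · simp
      · intro j _ hj
        simp [Pi.single_eq_of_ne hj]
      · simp
  unfold sg
  rw [Sig1.sPos_pi h h' Φ hΦ γ hγ hβ hs, Sig1.sPos_pi h.neg h'.neg Φ hΦ γ hγ
    (fun y y' hy hy' => by simp [hβ y y' hy hy']) fun x' hx' => ?_]
  · push_cast
    ring
  obtain ⟨y, hy, hy'⟩ := hs x' hx'
  exact ⟨y, hy, fun z hz => by rw [LinearMap.neg_apply, LinearMap.neg_apply, hy' z hz, neg_zero]⟩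

end Crest.Agent.R217
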