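import Crest.Agent.R217.Sig1

/-! # R217 / Sig2 : generalised eigenspaces modulo the radical.

Method: for `HF Z β u` the radical `rad = {x ∈ Z | ∀ y ∈ Z, β x y = 0}` is a complex subspace
(`β (I x) y = - β x (I y)` from `herm`), `u` maps it to itself (the composite `Z → Z → Z/rad`
has kernel inside `rad` by `conf`, so it is onto by dimension), `V = Z / rad` is a finite
dimensional complex space with hermitian form `h x y = β x y - I β (I x) y` (or so), and `eig ζ` is the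
preimage of `maxGenEigenspace ū ζ`.  Every `ū`-invariant complex subspace is the sum of its
intersections with the generalised eigenspaces (`Module.End.iSup_maxGenEigenspace_eq_top`,
`Submodule.eq_iSup_inf_maxGenEigenspace`...).  `V_ζ ⊥ V_ζ'` unless `ζ * conj ζ' = c`
(induction on the nilpotency exponents).  It is convenient to prove first the lemmas `eig_*`. -/

set_option autoImplicit false
set_option linter.unusedSectionVars false
open Set

namespace Crest.Agent.R217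

variable {M M' : Type*} [AddCommGroup M] [Module ℝ M] [Module ℂ M] [IsScalarTower ℝ ℂ M]
  [AddCommGroup M'] [Module ℝ M'] [Module ℂ M'] [IsScalarTower ℝ ℂ M']
  {Z : Submodule ℝ M} {β : M →ₗ[ℝ] M →ₗ[ℝ] ℝ} {u : M →ₗ[ℝ] M}

namespace Sig2

theorem smul_decomp (c : ℂ) (x : M) : c • x = c.re • x + c.im • (Complex.I • x) := by
  conv_lhs => rw [← Complex.re_add_im c]
  rw [add_smul, mul_smul, ← algebraMap_smul ℂ c.re x, ← algebraMap_smul ℂ c.im (Complex.I • x)]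
  rfl

theorem real_smul (r : ℝ) (x : M) : (r : ℂ) • x = r • x := algebraMap_smul ℂ r x

/-- the operator `u - ζ` -/
def T (u : M →ₗ[ℝ] M) (ζ : ℂ) : M →ₗ[ℝ] M := u - ζ • LinearMap.id

theorem T_apply (u : M →ₗ[ℝ] M) (ζ : ℂ) (x : M) : T u ζ x = u x - ζ • x := rfl

theorem iter_eq (u : M →ₗ[ℝ] M) (ζ : ℂ) (N : ℕ) (x : M) :
    (fun v => u v - ζ • v)^[N] x = (T u ζ ^ N) x := by
  rw [Module.End.pow_apply]; rfl

theorem mem_eig {ζ : ℂ} {x : M} :
    x ∈ eig Z β u ζ ↔ x ∈ Z ∧ ∃ N : ℕ, ∀ y ∈ Z, β ((T u ζ ^ N) x) y = 0 := by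
  simp only [eig, mem_ofPred_eq, iter_eq]

end Sig2

open Sig2

theorem HF.I_left (h : HF Z β u) {x y : M} (hx : x ∈ Z) (hy : y ∈ Z) :
    β (Complex.I • x) y = -β x (Complex.I • y) := by
  have h1 := h.herm x hx (Complex.I • y) (h.smul_mem _ y hy)
  rw [smul_smul, Complex.I_mul_I, neg_smul, one_smul, map_neg] at h1
  linarith

theorem HF.smul_left (h : HF Z β u) (c : ℂ) {x y : M} (hx : x ∈ Z) (hy : y ∈ Z) :
    β (c • x) y = β x ((starRingEnd ℂ) c • y) := by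
  rw [smul_decomp c x, smul_decomp ((starRingEnd ℂ) c) y]
  simp only [map_add, map_smul, LinearMap.add_apply, LinearMap.smul_apply, smul_eq_mul,
    Complex.conj_re, Complex.conj_im, h.I_left hx hy]
  ring

theorem HF.smul_right (h : HF Z β u) (c : ℂ) {x y : M} (hx : x ∈ Z) (hy : y ∈ Z) :
    β x (c • y) = β ((starRingEnd ℂ) c • x) y := by
  rw [h.smul_left _ hx hy, Complex.conj_conj]

theorem HF.smul_rad (h : HF Z β u) (c : ℂ) {x : M} (hx : x ∈ Z) (hr : ∀ y ∈ Z, β x y = 0) :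
    ∀ y ∈ Z, β (c • x) y = 0 := fun y hy => by
  rw [h.smul_left c hx hy]; exact hr _ (h.smul_mem _ y hy)

theorem HF.T_mem (h : HF Z β u) (ζ : ℂ) {x : M} (hx : x ∈ Z) : T u ζ x ∈ Z :=
  Z.sub_mem (h.u_mem x hx) (h.smul_mem ζ x hx)

theorem HF.T_pow_mem (h : HF Z β u) (ζ : ℂ) (N : ℕ) {x : M} (hx : x ∈ Z) : (T u ζ ^ N) x ∈ Z := by
  induction N with
  | zero => simpa using hx
  | succ N ih => rw [pow_succ', Module.End.mul_apply]; exact h.T_mem ζ ih

theorem HF.T_smul (h : HF Z β u) (ζ c : ℂ) (x : M) : T u ζ (c • x) = c • T u ζ x := by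
  rw [T_apply, T_apply, h.u_smul, smul_sub, smul_comm ζ c x]

theorem HF.T_pow_smul (h : HF Z β u) (ζ c : ℂ) (N : ℕ) (x : M) :
    (T u ζ ^ N) (c • x) = c • (T u ζ ^ N) x := by
  induction N with
  | zero => simp
  | succ N ih => rw [pow_succ', Module.End.mul_apply, Module.End.mul_apply, ih, h.T_smul]

namespace Sig2

/-- `Z` as a complex subspace -/
def ZC (h : HF Z β u) : Submodule ℂ M where
  carrier := Z
  add_mem' := Z.add_mem
  zero_mem' := Z.zero_mem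
  smul_mem' c x hx := h.smul_mem c x hx

/-- the radical -/
def RC (h : HF Z β u) : Submodule ℂ (ZC h) where
  carrier := {x | ∀ y ∈ Z, β x y = 0}
  add_mem' {a b} ha hb y hy := by
    simp only [Submodule.coe_add, map_add, LinearMap.add_apply, ha y hy, hb y hy, add_zero]
  zero_mem' y _ := by simp
  smul_mem' c x hx := h.smul_rad c x.2 hx

theorem mk_eq_zero (h : HF Z β u) (x : ZC h) :
    (RC h).mkQ x = 0 ↔ ∀ y ∈ Z, β x y = 0 := by
  rw [Submodule.mkQ_apply, Submodule.Quotient.mk_eq_zero]; rfl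

theorem finite (h : HF Z β u) : Module.Finite ℂ (ZC h ⧸ RC h) := by
  obtain ⟨F, hF, hfin, hs⟩ := h.fin
  let g : F →ₗ[ℝ] (ZC h ⧸ RC h) :=
    { toFun := fun f => (RC h).mkQ ⟨f, hF f.2⟩
      map_add' := fun a b => by rw [← map_add]; rfl
      map_smul' := fun r a => by
        rw [RingHom.id_apply, ← algebraMap_smul ℂ r ((RC h).mkQ _), ← map_smul]
        congr 1
        ext
        exact (algebraMap_smul ℂ r (a : M)).symm }
  have hg : Function.Surjective g := by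
    intro v
    obtain ⟨x, rfl⟩ := (RC h).mkQ_surjective v
    obtain ⟨f, hf, hxf⟩ := hs x x.2
    refine ⟨⟨f, hf⟩, ?_⟩
    change (RC h).mkQ ⟨f, hF hf⟩ = _
    rw [eq_comm, ← sub_eq_zero, ← map_sub, mk_eq_zero]
    exact hxf
  have : Module.Finite ℝ (ZC h ⧸ RC h) := Module.Finite.of_surjective g hg
  exact Module.Finite.of_restrictScalars_finite ℝ ℂ _

/-- `u` as a complex linear map of `Z` -/
def uc (h : HF Z β u) : ZC h →ₗ[ℂ] ZC h where
  toFun x := ⟨u x, h.u_mem x x.2⟩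
  map_add' a b := by ext; simp
  map_smul' c a := by ext; exact h.u_smul c a

end Sig2

theorem eig_id (Z : Submodule ℝ M) (β : M →ₗ[ℝ] M →ₗ[ℝ] ℝ) :
    eig Z β LinearMap.id 1 = (Z : Set M) := by
  ext x
  refine ⟨fun hx => hx.1, fun hx => ⟨hx, 1, fun y _ => ?_⟩⟩
  simp

theorem eig_neg (Z : Submodule ℝ M) (β : M →ₗ[ℝ] M →ₗ[ℝ] ℝ) (u : M →ₗ[ℝ] M) (ζ : ℂ) :
    eig Z (-β) u ζ = eig Z β u ζ := by
  ext x
  simp [eig]

/-- only the values of `β` on `Z` matter -/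
theorem HF.eig_congr (h : HF Z β u) {β' : M →ₗ[ℝ] M →ₗ[ℝ] ℝ}
    (he : ∀ x ∈ Z, ∀ y ∈ Z, β x y = β' x y) (ζ : ℂ) : eig Z β u ζ = eig Z β' u ζ := by
  ext x
  rw [mem_eig, mem_eig]
  refine and_congr_right fun hx => exists_congr fun N => forall₂_congr fun y hy => ?_
  rw [he _ (h.T_pow_mem ζ N hx) y hy]

/-- `u` is onto modulo the radical -/
theorem HF.u_surj (h : HF Z β u) {y : M} (hy : y ∈ Z) :
    ∃ z ∈ Z, ∀ w ∈ Z, β (y - u z) w = 0 := by
  have := Sig2.finite h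
  obtain ⟨c, hc, hcf⟩ := h.conf
  obtain ⟨s, hs⟩ := (RC h).mkQ.exists_rightInverse_of_surjective (Submodule.range_mkQ _)
  let ψ : (ZC h ⧸ RC h) →ₗ[ℂ] (ZC h ⧸ RC h) := (RC h).mkQ ∘ₗ uc h ∘ₗ s
  have hinj : Function.Injective ψ := by
    rw [← LinearMap.ker_eq_bot, LinearMap.ker_eq_bot']
    intro v hv
    have h1 : ∀ y ∈ Z, β (u (s v)) y = 0 := (mk_eq_zero h _).mp hv
    have h2 : (RC h).mkQ (s v) = 0 := by
      rw [mk_eq_zero]
      intro y hy
      have := hcf _ (s v).2 y hy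
      rw [h1 _ (h.u_mem y hy)] at this
      exact (mul_eq_zero.mp this.symm).resolve_left hc.ne'
    rw [← h2]
    exact (LinearMap.congr_fun hs v).symm
  obtain ⟨v, hv⟩ := LinearMap.surjective_of_injective hinj ((RC h).mkQ ⟨y, hy⟩)
  refine ⟨s v, (s v).2, ?_⟩
  have : (RC h).mkQ (⟨y, hy⟩ - uc h (s v)) = 0 := by
    rw [map_sub, ← hv]; simp [ψ]
  exact (mk_eq_zero h _).mp this

theorem HF.u_rad (h : HF Z β u) {x : M} (hx : x ∈ Z) (hr : ∀ y ∈ Z, β x y = 0) :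
    ∀ y ∈ Z, β (u x) y = 0 := by
  intro y hy
  obtain ⟨c, -, hcf⟩ := h.conf
  obtain ⟨z, hz, hyz⟩ := h.u_surj hy
  have e : y = (y - u z) + u z := by abel
  rw [e, map_add, hcf x hx z hz, hr z hz,
    h.symm _ (h.u_mem x hx) _ (Z.sub_mem hy (h.u_mem z hz)), hyz _ (h.u_mem x hx)]
  simp

theorem HF.T_rad (h : HF Z β u) (ζ : ℂ) {x : M} (hx : x ∈ Z) (hr : ∀ y ∈ Z, β x y = 0) :
    ∀ y ∈ Z, β (T u ζ x) y = 0 := fun y hy => by
  rw [T_apply, map_sub, LinearMap.sub_apply, h.u_rad hx hr y hy, h.smul_rad ζ hx hr y hy, sub_zero]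

theorem HF.T_pow_rad (h : HF Z β u) (ζ : ℂ) (N : ℕ) {x : M} (hx : x ∈ Z)
    (hr : ∀ y ∈ Z, β x y = 0) : ∀ y ∈ Z, β ((T u ζ ^ N) x) y = 0 := by
  induction N with
  | zero => simpa using hr
  | succ N ih =>
    rw [pow_succ', Module.End.mul_apply]; exact h.T_rad ζ (h.T_pow_mem ζ N hx) ih

theorem HF.T_pow_rad_mono (h : HF Z β u) (ζ : ℂ) {N N' : ℕ} (hN : N ≤ N') {x : M} (hx : x ∈ Z)
    (hr : ∀ y ∈ Z, β ((T u ζ ^ N) x) y = 0) : ∀ y ∈ Z, β ((T u ζ ^ N') x) y = 0 := by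
  obtain ⟨k, rfl⟩ := Nat.exists_eq_add_of_le' hN
  rw [pow_add, Module.End.mul_apply]
  exact h.T_pow_rad ζ k (h.T_pow_mem ζ N hx) hr

/-- the eigenspace as a real subspace -/
def HF.eigS (h : HF Z β u) (ζ : ℂ) : Submodule ℝ M where
  carrier := eig Z β u ζ
  add_mem' {a b} ha hb := by
    rw [mem_eig] at ha hb ⊢
    obtain ⟨ha, N, hN⟩ := ha
    obtain ⟨hb, N', hN'⟩ := hb
    refine ⟨Z.add_mem ha hb, max N N', fun y hy => ?_⟩
    rw [map_add, map_add, LinearMap.add_apply, h.T_pow_rad_mono ζ (le_max_left _ _) ha hN y hy,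
      h.T_pow_rad_mono ζ (le_max_right _ _) hb hN' y hy, add_zero]
  zero_mem' := mem_eig.mpr ⟨Z.zero_mem, 0, fun y _ => by simp⟩
  smul_mem' r a ha := by
    rw [mem_eig] at ha ⊢
    obtain ⟨ha, N, hN⟩ := ha
    refine ⟨Z.smul_mem r ha, N, fun y hy => ?_⟩
    rw [map_smul, map_smul, LinearMap.smul_apply, hN y hy, smul_zero]

theorem HF.coe_eigS (h : HF Z β u) (ζ : ℂ) : (h.eigS ζ : Set M) = eig Z β u ζ := rfl

theorem HF.mem_eigS (h : HF Z β u) {ζ : ℂ} {x : M} : x ∈ h.eigS ζ ↔ x ∈ eig Z β u ζ := Iff.rfl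

theorem HF.eigS_le (h : HF Z β u) (ζ : ℂ) : h.eigS ζ ≤ Z := fun _ hx => hx.1

theorem HF.rad_mem_eig (_h : HF Z β u) (ζ : ℂ) {x : M} (hx : x ∈ Z) (hr : ∀ y ∈ Z, β x y = 0) :
    x ∈ eig Z β u ζ := mem_eig.mpr ⟨hx, 0, by simpa using hr⟩

theorem HF.smul_mem_eig (h : HF Z β u) {ζ : ℂ} (c : ℂ) {x : M} (hx : x ∈ eig Z β u ζ) :
    c • x ∈ eig Z β u ζ := by
  rw [mem_eig] at hx ⊢
  obtain ⟨hx, N, hN⟩ := hx
  refine ⟨h.smul_mem c x hx, N, ?_⟩
  rw [h.T_pow_smul]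
  exact h.smul_rad c (h.T_pow_mem ζ N hx) hN

theorem HF.eig_submodule (h : HF Z β u) (ζ : ℂ) :
    ∃ W : Submodule ℝ M, (W : Set M) = eig Z β u ζ ∧ W ≤ Z :=
  ⟨h.eigS ζ, rfl, h.eigS_le ζ⟩

theorem HF.eig_orth (h : HF Z β u) {c : ℝ} (hc : ∀ x ∈ Z, ∀ y ∈ Z, β (u x) (u y) = c * β x y)
    {ζ ζ' : ℂ} (hne : ζ * (starRingEnd ℂ) ζ' ≠ c) :
    ∀ x ∈ eig Z β u ζ, ∀ y ∈ eig Z β u ζ', β x y = 0 := by
  have key : ∀ N : ℕ, ∀ x ∈ Z, (∀ w ∈ Z, β ((T u ζ ^ N) x) w = 0) → ∀ N' : ℕ, ∀ y ∈ Z,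
      (∀ w ∈ Z, β ((T u ζ' ^ N') y) w = 0) → ∀ a : ℂ, β (a • x) y = 0 := by
    intro N
    induction N with
    | zero => intro x hx hr N' y hy _ a; exact h.smul_rad a hx (by simpa using hr) y hy
    | succ N ih =>
      intro x hx hr N'
      rw [pow_succ, Module.End.mul_apply] at hr
      have hx' := h.T_mem ζ hx
      induction N' with
      | zero =>
        intro y hy hr' a
        rw [h.symm _ (h.smul_mem a x hx) y hy]
        simpa using hr' _ (h.smul_mem a x hx)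
      | succ N' ih' =>
        intro y hy hr' a
        have hy' := h.T_mem ζ' hy
        have hr'' := hr'
        rw [pow_succ, Module.End.mul_apply] at hr''
        have key2 : ∀ b : ℂ, β ((b * (ζ * (starRingEnd ℂ) ζ' - c)) • x) y = 0 := by
          intro b
          have e1 : β (u (b • x)) (u y) = c * β (b • x) y := hc _ (h.smul_mem b x hx) y hy
          have ex : u (b • x) = b • T u ζ x + (b * ζ) • x := by
            rw [h.u_smul, T_apply, mul_smul, smul_sub]; abel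
          have ey : u y = T u ζ' y + ζ' • y := by rw [T_apply]; abel
          have z1 : β (b • T u ζ x) (T u ζ' y) = 0 := ih _ hx' hr N' _ hy' hr'' b
          have z2 : β (b • T u ζ x) (ζ' • y) = 0 := by
            rw [h.smul_right _ (h.smul_mem b _ hx') hy, smul_smul]
            exact ih _ hx' hr (N' + 1) y hy hr' _
          have z3 : β ((b * ζ) • x) (T u ζ' y) = 0 := ih' _ hy' hr'' _
          have z4 : β ((b * ζ) • x) (ζ' • y) = β ((b * (ζ * (starRingEnd ℂ) ζ')) • x) y := by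
            rw [h.smul_right _ (h.smul_mem _ _ hx) hy, smul_smul]
            congr 3; ring
          rw [ex, ey] at e1
          simp only [map_add, LinearMap.add_apply, z1, z2, z3, z4, zero_add] at e1
          rw [mul_sub, sub_smul, map_sub, LinearMap.sub_apply, e1, mul_comm b (c : ℂ), mul_smul,
            real_smul, map_smul β c, LinearMap.smul_apply, smul_eq_mul, sub_self]
        have := key2 (a / (ζ * (starRingEnd ℂ) ζ' - c))
        rwa [div_mul_cancel₀ _ (sub_ne_zero.mpr hne)] at this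
  intro x hx y hy
  rw [mem_eig] at hx hy
  obtain ⟨hx, N, hN⟩ := hx
  obtain ⟨hy, N', hN'⟩ := hy
  simpa using key N x hx hN N' y hy hN' 1

namespace Sig2

/-- the induced operator on `Z / rad` -/
def ub (h : HF Z β u) : (ZC h ⧸ RC h) →ₗ[ℂ] (ZC h ⧸ RC h) :=
  (RC h).mapQ (RC h) (uc h) fun x hx => h.u_rad x.2 hx

theorem ub_mk (h : HF Z β u) (x : ZC h) : ub h ((RC h).mkQ x) = (RC h).mkQ (uc h x) := rfl

theorem ub_pow_mk (h : HF Z β u) (ζ : ℂ) (N : ℕ) (x : ZC h) :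
    ((ub h - ζ • (1 : Module.End ℂ (ZC h ⧸ RC h))) ^ N) ((RC h).mkQ x) =
      (RC h).mkQ ⟨(T u ζ ^ N) x, h.T_pow_mem ζ N x.2⟩ := by
  induction N with
  | zero => rfl
  | succ N ih =>
    rw [pow_succ', Module.End.mul_apply, ih, LinearMap.sub_apply, ub_mk, LinearMap.smul_apply,
      Module.End.one_apply, ← map_smul, ← map_sub]
    congr 1
    ext
    simp only [pow_succ', Module.End.mul_apply]
    rfl

theorem mem_eig_iff (h : HF Z β u) (ζ : ℂ) (x : ZC h) :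
    (x : M) ∈ eig Z β u ζ ↔ (RC h).mkQ x ∈ Module.End.maxGenEigenspace (ub h) ζ := by
  rw [mem_eig, Module.End.mem_maxGenEigenspace]
  simp only [ub_pow_mk, mk_eq_zero]
  exact ⟨fun hx => hx.2, fun hx => ⟨x.2, hx⟩⟩

end Sig2

/-- decomposition of an invariant complex subspace `J` modulo the radical; the finite set `s` of
"eigenvalues" does not depend on `J`, and outside `s` the eigenspace is the radical -/
theorem HF.eig_decomp (h : HF Z β u) : ∃ s : Finset ℂ,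
    (∀ ζ ∉ s, ∀ x ∈ eig Z β u ζ, ∀ y ∈ Z, β x y = 0) ∧
    ∀ J : Submodule ℝ M, J ≤ Z → (∀ (c : ℂ), ∀ x ∈ J, c • x ∈ J) → (∀ x ∈ J, u x ∈ J) →
      ∀ x ∈ J, ∃ v : ℂ → M, (∀ ζ, v ζ ∈ J ∧ v ζ ∈ eig Z β u ζ) ∧
        ∀ y ∈ Z, β (x - ∑ ζ ∈ s, v ζ) y = 0 := by
  have := Sig2.finite h
  have hfin := Module.End.finite_hasEigenvalue (ub h)
  have hbot : ∀ ζ ∉ hfin.toFinset, Module.End.maxGenEigenspace (ub h) ζ = ⊥ := by
    intro ζ hζ
    by_contra hne
    apply hζ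
    rw [Finite.mem_toFinset]
    exact Module.End.HasUnifEigenvalue.lt zero_lt_one hne
  refine ⟨hfin.toFinset, fun ζ hζ x hx => ?_, fun J hJ hc hu x hx => ?_⟩
  · have := (mem_eig_iff h ζ ⟨x, hx.1⟩).mp hx
    rw [hbot ζ hζ, Submodule.mem_bot, mk_eq_zero] at this
    exact this
  · let Jc : Submodule ℂ (ZC h) :=
      { carrier := {x | (x : M) ∈ J}
        add_mem' := fun ha hb => J.add_mem ha hb
        zero_mem' := J.zero_mem
        smul_mem' := fun c x hx => hc c x hx }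
    let W := Jc.map (RC h).mkQ
    have hW : ∀ w ∈ W, ub h w ∈ W := by
      rintro _ ⟨z, hz, rfl⟩
      exact ⟨uc h z, hu z hz, rfl⟩
    have hdec := Submodule.eq_iSup_inf_genEigenspace (p := W) (f := ub h) ⊤ hW
      (Module.End.iSup_maxGenEigenspace_eq_top _)
    have hxW : (RC h).mkQ ⟨x, hJ hx⟩ ∈ W := ⟨⟨x, hJ hx⟩, hx, rfl⟩
    rw [hdec, Submodule.mem_iSup_iff_exists_finsupp] at hxW
    obtain ⟨f, hf, hsum⟩ := hxW
    have hlift : ∀ ζ, ∃ z : ZC h, (z : M) ∈ J ∧ (RC h).mkQ z = f ζ := fun ζ => by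
      obtain ⟨z, hz, e⟩ := (hf ζ).1
      exact ⟨z, hz, e⟩
    choose z hzJ hz using hlift
    refine ⟨fun ζ => z ζ, fun ζ => ⟨hzJ ζ, ?_⟩, ?_⟩
    · rw [mem_eig_iff, hz]; exact (hf ζ).2
    · have hsupp : f.support ⊆ hfin.toFinset := by
        intro ζ hζ
        by_contra hn
        have := (hf ζ).2
        change f ζ ∈ Module.End.maxGenEigenspace (ub h) ζ at this
        rw [hbot ζ hn, Submodule.mem_bot] at this
        exact (Finsupp.mem_support_iff.mp hζ) this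
      rw [Finsupp.sum_of_support_subset _ hsupp _ (fun _ _ => rfl)] at hsum
      have e : (RC h).mkQ (⟨x, hJ hx⟩ - ∑ ζ ∈ hfin.toFinset, z ζ) = 0 := by
        rw [map_sub, map_sum, ← hsum]
        simp only [hz, sub_self]
      have := (mk_eq_zero h _).mp e
      simpa using this

end Crest.Agent.R217
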