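import Crest.Agent.R217.Germ
import Crest.Agent.R217.Beta2

/-! # R217 / TW : the twisting theorem -/

set_option autoImplicit false
set_option linter.unusedSectionVars false
open Set Topology Filter

namespace Crest.Agent.R217

variable {m : ℕ} {E : Type*} [AddCommGroup E] [Module ℝ E] [Module ℂ E] [IsScalarTower ℝ ℂ E]
  [FiniteDimensional ℝ E] {b : E →ₗ[ℝ] E →ₗ[ℝ] ℝ}
  {g : OpenPartialHomeomorph (R (2 * m + 1)) (R (2 * m + 1))}

namespace TW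

/-- invariance in `iff` form -/
def Iv {n : ℕ} (g : R n → R n) (Ω A : Set (R n)) : Prop := ∀ x ∈ Ω, g x ∈ A ↔ x ∈ A

section iv
variable {n : ℕ} {g : OpenPartialHomeomorph (R n) (R n)} {Ω A B : Set (R n)}

theorem iv_of_image (hsrc : Ω ⊆ g.source) (hA : A ⊆ Ω) (h : g '' A = A) : Iv g Ω A := by
  intro x hx
  refine ⟨fun hx' => ?_, fun hx' => h.subset (mem_image_of_mem _ hx')⟩
  obtain ⟨y, hy, hyx⟩ := h.symm.subset hx'
  rwa [← g.injOn (hsrc (hA hy)) (hsrc hx) hyx]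

theorem image_of_iv (himg : g '' Ω = Ω) (hA : A ⊆ Ω) (h : Iv g Ω A) : g '' A = A := by
  apply Subset.antisymm
  · rintro _ ⟨x, hx, rfl⟩
    exact (h x (hA hx)).2 hx
  · intro y hy
    obtain ⟨x, hx, rfl⟩ := himg.symm.subset (hA hy)
    exact ⟨x, (h x hx).1 hy, rfl⟩

theorem iv_self (himg : g '' Ω = Ω) : Iv g Ω Ω := fun _ hx =>
  ⟨fun _ => hx, fun _ => himg.subset (mem_image_of_mem _ hx)⟩

theorem Iv.inter (h : Iv g Ω A) (h' : Iv g Ω B) : Iv g Ω (A ∩ B) := fun x hx => by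
  simp only [mem_inter_iff, h x hx, h' x hx]

theorem Iv.union (h : Iv g Ω A) (h' : Iv g Ω B) : Iv g Ω (A ∪ B) := fun x hx => by
  simp only [mem_union, h x hx, h' x hx]

theorem Iv.compl (h : Iv g Ω A) : Iv g Ω Aᶜ := fun x hx => by
  simp only [mem_compl_iff, h x hx]

theorem Iv.diff (h : Iv g Ω A) (h' : Iv g Ω B) : Iv g Ω (A \ B) := h.inter h'.compl

theorem Iv.mono {Ω' : Set (R n)} (h : Iv g Ω A) (hs : Ω' ⊆ Ω) : Iv g Ω' A :=
  fun x hx => h x (hs hx)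

theorem Iv.inter_interior (hΩ : IsOpen Ω) (hsrc : Ω ⊆ g.source) (himg : g '' Ω = Ω)
    (h : Iv g Ω A) : Iv g Ω (Ω ∩ interior A) :=
  iv_of_image hsrc inter_subset_left (Germ.image_inter_interior hΩ hsrc himg h)

theorem frontier_inter_eq (A Ω : Set (R n)) :
    frontier A ∩ Ω = Ω \ (Ω ∩ interior A ∪ Ω ∩ interior Aᶜ) := by
  ext x
  rw [interior_compl, frontier]
  simp only [mem_inter_iff, Set.mem_sdiff, mem_union, mem_compl_iff]
  tauto

theorem Iv.frontier_inter (hΩ : IsOpen Ω) (hsrc : Ω ⊆ g.source) (himg : g '' Ω = Ω)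
    (h : Iv g Ω A) : Iv g Ω (frontier A ∩ Ω) := by
  rw [frontier_inter_eq]
  exact (iv_self himg).diff
    ((h.inter_interior hΩ hsrc himg).union (h.compl.inter_interior hΩ hsrc himg))

end iv

/-- two connections agree near the diagonal of `U` -/
def LocEq {X : Type*} [TopologicalSpace X] (U : Set X) (T T' : Tw X E) : Prop :=
  ∀ z ∈ U, ∃ W ∈ 𝓝 z, ∀ x ∈ W, ∀ y ∈ W, T' x y = T x y

theorem LocEq.inter {X : Type*} [TopologicalSpace X] {U : Set X} {T T' : Tw X E}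
    (h : LocEq U T T') : Inter U (fun _ => LinearMap.id) T T' := by
  intro z hz
  obtain ⟨W, hW, h⟩ := h z hz
  exact ⟨W, hW, fun x hx y hy => by rw [h x hx y hy]; rfl⟩

theorem LocEq.flat {X : Type*} [TopologicalSpace X] {U : Set X} {T T' : Tw X E}
    (h : LocEq U T T') (hT : Flat U T) : Flat U T' := by
  intro z hz
  obtain ⟨W, hW, h⟩ := h z hz
  obtain ⟨W', hW', h1, h2⟩ := hT z hz
  refine ⟨W ∩ W', inter_mem hW hW', fun x hx => ?_, fun x hx y hy w hw => ?_⟩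
  · rw [h x hx.1 x hx.1, h1 x hx.2]
  · rw [h x hx.1 y hy.1, h y hy.1 w hw.1, h x hx.1 w hw.1, h2 x hx.2 y hy.2 w hw.2]

theorem LocEq.compat {X : Type*} [TopologicalSpace X] {U : Set X} {T T' : Tw X E}
    (h : LocEq U T T') (hT : Compat U b T T (T1 _ _)) : Compat U b T' T' (T1 _ _) := by
  intro z hz
  obtain ⟨W, hW, h⟩ := h z hz
  obtain ⟨W', hW', h1⟩ := hT z hz
  refine ⟨W ∩ W', inter_mem hW hW', fun x hx y hy e e' => ?_⟩
  rw [h x hx.1 y hy.1, h1 x hx.2 y hy.2]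

theorem b_smul (hb : HB m b) {c : ℂ} (hc : ‖c‖ = 1) (e e' : E) : b (c • e) (c • e') = b e e' := by
  have h1 : ∀ e : E, c • e = c.re • e + c.im • (Complex.I • e) := by
    intro e
    conv_lhs => rw [← Complex.re_add_im c]
    rw [add_smul, mul_smul, ← Complex.coe_algebraMap, algebraMap_smul, algebraMap_smul]
  have h2 : b (Complex.I • e) e' = -b e (Complex.I • e') := by
    rw [← hb.herm e (Complex.I • e'), smul_smul, Complex.I_mul_I, neg_smul, one_smul, map_neg,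
      neg_neg]
  have h3 : c.re ^ 2 + c.im ^ 2 = 1 := by
    have := Complex.sq_norm c
    rw [hc, Complex.normSq_apply] at this
    nlinarith
  rw [h1 e, h1 e']
  simp only [map_add, map_smul, LinearMap.add_apply, LinearMap.smul_apply, smul_eq_mul, h2,
    hb.herm]
  linear_combination (b e e') * h3

/-- the twisted connection -/
noncomputable def Tl {X : Type*} (τ : X → ℂ) (T : Tw X E) : Tw X E :=
  fun x y => ((τ x)⁻¹ * τ y) • T x y

theorem cut_Tl (hb : HB m b) {Ω S : Set (R (2 * m + 1))} {T : Tw (R (2 * m + 1)) E}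
    (h : Cut b Ω S T) {τ : R (2 * m + 1) → ℂ} (hτ : ∀ x ∈ Ω, ‖τ x‖ = 1) :
    Cut b Ω S (Tl τ T) := by
  have hne : ∀ x ∈ Ω, τ x ≠ 0 := fun x hx h0 => by simpa [h0] using hτ x hx
  refine ⟨h.isOpen, fun z hz => ?_, fun z hz => ?_, fun x y c e => ?_, h.cpt⟩
  · obtain ⟨W, hW, h1, h2⟩ := h.flat z hz
    refine ⟨W ∩ Ω, inter_mem hW (h.isOpen.mem_nhds hz), fun x hx => ?_, fun x hx y hy w hw => ?_⟩
    · rw [Tl, inv_mul_cancel₀ (hne x hx.2), one_smul, h1 x hx.1]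
    · ext e
      simp only [Tl, LinearMap.comp_apply, LinearMap.smul_apply, h.cplx, smul_smul]
      rw [← h2 x hx.1 y hy.1 w hw.1, LinearMap.comp_apply]
      congr 1
      field_simp [hne y hy.2]
  · obtain ⟨W, hW, h1⟩ := h.compat z hz
    refine ⟨W ∩ Ω, inter_mem hW (h.isOpen.mem_nhds hz), fun x hx y hy e e' => ?_⟩
    simp only [Tl, LinearMap.smul_apply]
    rw [b_smul hb (by rw [norm_mul, norm_inv, hτ x hx.2, hτ y hy.2]; norm_num), h1 x hx.1 y hy.1]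
  · simp only [Tl, LinearMap.smul_apply, h.cplx]
    rw [smul_comm]

theorem side (hb : HB m b) {Ω S N : Set (R (2 * m + 1))} {T T' : Tw (R (2 * m + 1)) E}
    (h : Cut b Ω S T) (hg : Sym Ω S T g) (hN : IsOpen N) (hCN : frontier S ∩ Ω ⊆ N)
    (hNc : IsCompact (closure N)) (hNΩ : closure N ⊆ Ω) (hNi : Iv g Ω N)
    (hT' : LocEq (Ω ∩ interior Sᶜ) T T') (h' : Cut b (Ω ∩ interior Sᶜ) N T')
    (hg' : Sym (Ω ∩ interior Sᶜ) N T' g) (ζ : ℂ) :
    sE b Ω S T g ζ = sE b (Ω ∩ interior Sᶜ) N T' g ζ := by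
  have hcob : ∀ x ∈ Ω, x ∉ closure N → (x ∈ S ↔ x ∈ S ∪ N) := fun x _ hx =>
    ⟨Or.inl, fun h => h.elim id fun h => absurd (subset_closure h) hx⟩
  have h1 : Cut b Ω (S ∪ N) T := h.of_cob hNc hNΩ hcob
  have hg1 : Sym Ω (S ∪ N) T g := ⟨hg.src, hg.img, Iv.union hg.cut hNi, hg.tw, hg.conf⟩
  have ho : IsOpen (Ω ∩ interior Sᶜ) := h.isOpen.inter isOpen_interior
  have hf : frontier (S ∪ N) ∩ Ω ⊆ Ω ∩ interior Sᶜ := by
    rintro x ⟨hx, hxΩ⟩
    refine ⟨hxΩ, ?_⟩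
    by_contra hc
    have hx1 : x ∉ N := fun h => hx.2 (interior_mono subset_union_right (hN.interior_eq.symm ▸ h))
    have hx2 : x ∉ interior S := fun h => hx.2 (interior_mono subset_union_left h)
    rw [interior_compl, mem_compl_iff, not_not] at hc
    exact hx1 (hCN ⟨⟨hc, hx2⟩, hxΩ⟩)
  have hi := Germ.image_inter_interior h.isOpen hg.src hg.img (Germ.sym_compl hg).cut
  have h2 := h1.mono ho inter_subset_left hf
  have hg2 := hg1.mono h.isOpen ho inter_subset_left hi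
  have hcob2 : ∀ x ∈ Ω ∩ interior Sᶜ, x ∉ (∅ : Set (R (2 * m + 1))) → (x ∈ S ∪ N ↔ x ∈ N) :=
    fun x hx _ => ⟨fun h => h.elim (fun h => absurd h (interior_subset hx.2)) id, Or.inr⟩
  have h3 := h2.of_cob isCompact_empty (empty_subset _) hcob2
  have hg3 : Sym (Ω ∩ interior Sᶜ) N T g := ⟨hg2.src, hg2.img, hg'.cut, hg2.tw, hg2.conf⟩
  rw [← h.sE_cob hb hg hNc hNΩ hcob, ← h1.sE_mono hb hg1 ho inter_subset_left hf hi,
    ← h2.sE_cob hb hg2 isCompact_empty (empty_subset _) hcob2,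
    h3.sE_congr hb h' hg3 hg' hT'.inter]

theorem glue {n : ℕ} {g : R n → R n} {Ω : Set (R n)} {ω : ℂ} (L : List (Set (R n) × (R n → ℂ)))
    (hL : ∀ q ∈ L, Iv g Ω q.1 ∧ ∀ y ∈ q.1 ∩ Ω, ‖q.2 y‖ = 1 ∧ q.2 (g y) = ω * q.2 y) :
    ∃ τ : R n → ℂ, (∀ y ∈ (⋃ q ∈ L, q.1) ∩ Ω, ‖τ y‖ = 1 ∧ τ (g y) = ω * τ y) ∧
      ∀ q ∈ L.head?, ∀ y ∈ q.1, τ y = q.2 y := by
  classical
  induction L with
  | nil => exact ⟨0, by simp, by simp⟩
  | cons q L ih =>
    obtain ⟨τ, hτ, -⟩ := ih fun q' hq' => hL q' (List.mem_cons_of_mem _ hq')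
    obtain ⟨hq1, hq2⟩ := hL q List.mem_cons_self
    refine ⟨fun y => if y ∈ q.1 then q.2 y else τ y, fun y hy => ?_, fun q' hq' y hy => ?_⟩
    · by_cases hyq : y ∈ q.1
      · simp only [hyq, (hq1 y hy.2).2 hyq, if_true]
        exact hq2 y ⟨hyq, hy.2⟩
      · have : g y ∉ q.1 := fun h => hyq ((hq1 y hy.2).1 h)
        simp only [hyq, this, if_false]
        refine hτ y ⟨?_, hy.2⟩
        have h1 := hy.1
        simp only [List.mem_cons, mem_iUnion, exists_prop] at h1 ⊢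
        obtain ⟨q', rfl | hq', h2⟩ := h1
        · exact absurd h2 hyq
        · exact ⟨q', hq', h2⟩
    · obtain rfl : q = q' := by simpa using hq'
      simp [hy]

end TW

open _root_.Crest.Agent.R217.TW in

/-- One step.  `τ : R → ℂ` has modulus one and `τ (g x) = ω τ x` on `Ω`, and is locally constant on the
invariant open set `U₀`.  `C = frontier S ∩ Ω ⊆ U₀ ∪ U₁`.  Let `ℓ x y = τ x * (τ y)⁻¹` and
`Tℓ x y = ℓ x y • T x y` (complex scalar; as real-linear map), gauge `a x = τ x • id`: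
`sE Ω S Tℓ (ω ζ) = sE Ω S T ζ` (`sE_gauge`) -- so we compare `Tℓ` at `ω ζ`...; it is more
convenient to use `τ⁻¹`: `sE Ω S T (ω ζ) = sE Ω S Tℓ' ζ` with `ℓ' x y = (τ x)⁻¹ τ y`.
`N'` invariant open nbhd of `C` with compact closure in `Ω` (`NbhdProp`), `S₁ = S ∪ N'`,
`S₂ = S \ N'`, `Ω_a = Ω ∩ interior Sᶜ`, `Ω_b = Ω ∩ interior S`, `Ω'' = Ω \ (C \ U₀)`,
`T' x y = if x ∈ S then T x y else Tℓ' x y` (flat on `Ω''`: on `U₀`, `ℓ' = 1` near the diagonal).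
`sE Ω S Tℓ' = sE Ω S₁ Tℓ' = sE Ω_a S₁ Tℓ' = sE Ω_a N' T'`,
`sE Ω S T = sE Ω S₂ T = sE Ω_b S₂ T = - sE Ω_b N' T'`, sum `= sE (Ω_a ∪ Ω_b) N' T' = sE Ω'' N' T'
= sE Ω'' N'' T'` where `N''` is an invariant open nbhd of the compact invariant set `C \ U₀` with closure in
`N' ∩ U₁` (`K = closure N' \ N''`). -/
theorem tw_step (hb : HB m b) {Ω S U₀ U₁ : Set (R (2 * m + 1))} {T : Tw (R (2 * m + 1)) E}
    (h : Cut b Ω S T) (hg : Sym Ω S T g) (hN : NbhdProp g Ω) {ω : ℂ} {τ : R (2 * m + 1) → ℂ}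
    (hτ : ∀ x ∈ Ω, ‖τ x‖ = 1 ∧ τ (g x) = ω * τ x) (hU₀ : IsOpen U₀) (hU₁ : IsOpen U₁)
    (h₀ : U₀ ⊆ Ω) (h₁ : U₁ ⊆ Ω) (hi₀ : g '' U₀ = U₀) (hi₁ : g '' U₁ = U₁)
    (hl : ∀ y ∈ U₀, ∀ᶠ z in 𝓝 y, τ z = τ y) (hC : frontier S ∩ Ω ⊆ U₀ ∪ U₁) :
    ∃ (Ω' S' : Set (R (2 * m + 1))) (T' : Tw (R (2 * m + 1)) E), Ω' ⊆ Ω ∧ Cut b Ω' S' T' ∧
      Sym Ω' S' T' g ∧ frontier S' ∩ Ω' ⊆ U₁ ∧
      ∀ ζ, sE b Ω S T g (ω * ζ) - sE b Ω S T g ζ = sE b Ω' S' T' g ζ := by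
  classical
  by_cases hC0 : frontier S ∩ Ω = ∅
  · exact ⟨Ω, S, T, Subset.rfl, h, hg, by simp [hC0], fun ζ => by simp [sE_eq_zero hC0]⟩
  have hgΩ : ∀ x ∈ Ω, g x ∈ Ω := fun x hx => hg.img.subset (mem_image_of_mem _ hx)
  have hne : ∀ x ∈ Ω, τ x ≠ 0 := fun x hx h0 => by simpa [h0] using (hτ x hx).1
  have hω : ω ≠ 0 := by
    obtain ⟨x, hx⟩ := nonempty_iff_ne_empty.2 hC0
    intro h0
    exact hne _ (hgΩ x hx.2) (by rw [(hτ x hx.2).2, h0, zero_mul])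
  have hl' : Cut b Ω S (Tl τ T) := cut_Tl hb h fun x hx => (hτ x hx).1
  have htw : ∀ x ∈ Ω, ∀ y ∈ Ω, Tl τ T (g x) (g y) = Tl τ T x y := by
    intro x hx y hy
    rw [Tl, Tl, hg.tw x hx y hy, (hτ x hx).2, (hτ y hy).2]
    congr 1
    field_simp [hne x hx]
  have hgl : Sym Ω S (Tl τ T) g := ⟨hg.src, hg.img, hg.cut, htw, hg.conf⟩
  have hgauge : ∀ ζ, sE b Ω S T g (ω * ζ) = sE b Ω S (Tl τ T) g ζ := by
    intro ζ
    refine hl'.sE_gauge hb h hgl hg (a := fun x => τ x • LinearMap.id)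
      (a' := fun x => (τ x)⁻¹ • LinearMap.id) (fun x c e => ?_) (fun z hz => ?_) (fun z hz => ?_)
      (fun x hx => ?_) (fun x hx e e' => ?_) hω (fun x hx e => ?_) ζ
    · simp only [LinearMap.smul_apply, LinearMap.id_apply]
      rw [smul_comm]
    · refine ⟨Ω, h.isOpen.mem_nhds hz, fun x hx y hy => ?_⟩
      ext e
      simp only [Tl, LinearMap.comp_apply, LinearMap.smul_apply, LinearMap.id_apply, h.cplx,
        smul_smul]
      congr 1
      field_simp [hne x hx]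
    · refine ⟨Ω, h.isOpen.mem_nhds hz, fun x hx y hy => ?_⟩
      ext e
      simp only [Tl, LinearMap.comp_apply, LinearMap.smul_apply, LinearMap.id_apply, h.cplx,
        smul_smul]
      congr 1
      field_simp [hne y hy]
    · ext e
      simp [smul_smul, hne x hx]
    · exact b_smul hb (hτ x hx).1 e e'
    · simp [(hτ x hx).2, smul_smul]
  have hivC : Iv g Ω (frontier S ∩ Ω) := Iv.frontier_inter h.isOpen hg.src hg.img hg.cut
  have hiv₀ : Iv g Ω U₀ := iv_of_image hg.src h₀ hi₀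
  have hiv₁ : Iv g Ω U₁ := iv_of_image hg.src h₁ hi₁
  obtain ⟨N, hNo, hCN, hNc, hNΩ, hNi⟩ := hN _ Ω h.cpt h.isOpen inter_subset_right Subset.rfl
    (image_of_iv hg.img inter_subset_right hivC) hg.img
  have hNs : N ⊆ Ω := subset_closure.trans hNΩ
  have hivN : Iv g Ω N := iv_of_image hg.src hNs hNi
  have hC' : IsCompact ((frontier S ∩ Ω) \ U₀) := h.cpt.diff hU₀
  have hivC' : Iv g Ω ((frontier S ∩ Ω) \ U₀) := hivC.diff hiv₀
  obtain ⟨N', hNo', hCN', hNc', hNΩ', hNi'⟩ := hN _ (N ∩ U₁) hC' (hNo.inter hU₁)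
    (fun x hx => ⟨hCN hx.1, (hC hx.1).resolve_left hx.2⟩) (inter_subset_left.trans hNs)
    (image_of_iv hg.img (fun x hx => hx.1.2) hivC')
    (image_of_iv hg.img (inter_subset_left.trans hNs) (hivN.inter hiv₁))
  have hNs' : N' ⊆ N := fun x hx => (hNΩ' (subset_closure hx)).1
  have hivN' : Iv g Ω N' := iv_of_image hg.src (hNs'.trans hNs) hNi'
  set Ω₂ := Ω \ ((frontier S ∩ Ω) \ U₀) with hΩ₂
  have hΩ₂o : IsOpen Ω₂ := h.isOpen.sdiff hC'.isClosed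
  have hΩ₂s : Ω₂ ⊆ Ω := sdiff_subset
  have hΩ₂i : g '' Ω₂ = Ω₂ := image_of_iv hg.img hΩ₂s ((iv_self hg.img).diff hivC')
  set T' : Tw (R (2 * m + 1)) E := fun x y => if x ∈ S then T x y else Tl τ T x y with hT'
  have hLa : LocEq (Ω ∩ interior Sᶜ) (Tl τ T) T' := fun z hz =>
    ⟨Sᶜ, mem_interior_iff_mem_nhds.1 hz.2, fun x hx y _ => if_neg hx⟩
  have hLb : LocEq (Ω ∩ interior Sᶜᶜ) T T' := fun z hz =>
    ⟨Sᶜᶜ, mem_interior_iff_mem_nhds.1 hz.2, fun x hx y _ => if_pos (not_not.1 hx)⟩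
  have hL0 : LocEq U₀ T T' := by
    intro z hz
    refine ⟨{x | τ x = τ z}, hl z hz, fun x hx y hy => ?_⟩
    have : Tl τ T x y = T x y := by
      rw [Tl, show τ x = τ z from hx, show τ y = τ z from hy, inv_mul_cancel₀ (hne z (h₀ hz)),
        one_smul]
    simp only [hT', this, ite_self]
  have hcov : ∀ z ∈ Ω, z ∉ frontier S → z ∈ Ω ∩ interior Sᶜ ∪ Ω ∩ interior Sᶜᶜ := by
    intro z hz hzf
    by_contra hc
    have : z ∈ frontier Sᶜ ∩ Ω := by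
      rw [frontier_inter_eq]; exact ⟨hz, hc⟩
    rw [frontier_compl] at this
    exact hzf this.1
  have hcov2 : ∀ z ∈ Ω₂, z ∈ U₀ ∨ z ∈ Ω ∩ interior Sᶜ ∨ z ∈ Ω ∩ interior Sᶜᶜ := by
    intro z hz
    by_cases hz0 : z ∈ U₀
    · exact Or.inl hz0
    · exact Or.inr (hcov z hz.1 fun hf => hz.2 ⟨⟨hf, hz.1⟩, hz0⟩)
  have hfN : frontier N ⊆ Ω ∩ interior Sᶜ ∪ Ω ∩ interior Sᶜᶜ := by
    intro x hx
    have hxΩ := hNΩ (frontier_subset_closure hx)
    refine hcov x hxΩ fun hf => ?_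
    rw [hNo.frontier_eq] at hx
    exact hx.2 (hCN ⟨hf, hxΩ⟩)
  have hab : Ω ∩ interior Sᶜ ∪ Ω ∩ interior Sᶜᶜ ⊆ Ω₂ := by
    intro x hx
    refine ⟨hx.elim (fun h => h.1) (fun h => h.1), fun hx' => ?_⟩
    have := hx'.1
    rw [← frontier_compl, frontier_inter_eq] at this
    exact this.2 hx
  have hcut2 : Cut b Ω₂ N T' := by
    refine ⟨hΩ₂o, fun z hz => ?_, fun z hz => ?_, fun x y c e => ?_, ?_⟩
    · rcases hcov2 z hz with h0 | h0 | h0
      · exact hL0.flat (h.flat.mono h₀) z h0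
      · exact hLa.flat (hl'.flat.mono inter_subset_left) z h0
      · exact hLb.flat (h.flat.mono inter_subset_left) z h0
    · rcases hcov2 z hz with h0 | h0 | h0
      · exact hL0.compat (h.compat.mono h₀) z h0
      · exact hLa.compat (hl'.compat.mono inter_subset_left) z h0
      · exact hLb.compat (h.compat.mono inter_subset_left) z h0
    · simp only [hT']
      split_ifs
      · exact h.cplx x y c e
      · exact hl'.cplx x y c e
    · rw [inter_eq_left.2 (hfN.trans hab)]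
      exact hNc.of_isClosed_subset isClosed_frontier frontier_subset_closure
  have htw' : ∀ x ∈ Ω, ∀ y ∈ Ω, T' (g x) (g y) = T' x y := by
    intro x hx y hy
    simp only [hT', hg.cut x hx, hg.tw x hx y hy, htw x hx y hy]
  have hsym : ∀ U A : Set (R (2 * m + 1)), IsOpen U → U ⊆ Ω → g '' U = U → Iv g Ω A →
      Sym U A T' g := fun U A hU hUΩ hUi hA =>
    ⟨hUΩ.trans hg.src, hUi, hA.mono hUΩ, fun x hx y hy => htw' x (hUΩ hx) y (hUΩ hy),
      (hg.mono h.isOpen hU hUΩ hUi).conf⟩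
  have hoa : IsOpen (Ω ∩ interior Sᶜ) := h.isOpen.inter isOpen_interior
  have hob : IsOpen (Ω ∩ interior Sᶜᶜ) := h.isOpen.inter isOpen_interior
  have hia := Germ.image_inter_interior h.isOpen hg.src hg.img (Germ.sym_compl hg).cut
  have hib := Germ.image_inter_interior h.isOpen hg.src hg.img
    (Germ.sym_compl (Germ.sym_compl hg)).cut
  have hiab : g '' (Ω ∩ interior Sᶜ ∪ Ω ∩ interior Sᶜᶜ) = Ω ∩ interior Sᶜ ∪ Ω ∩ interior Sᶜᶜ := by
    rw [image_union, hia, hib]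
  have hd : Disjoint (Ω ∩ interior Sᶜ) (Ω ∩ interior Sᶜᶜ) :=
    disjoint_compl_right.mono (inter_subset_right.trans interior_subset)
      (inter_subset_right.trans interior_subset)
  have hcab := hcut2.mono (hoa.union hob) hab (inter_subset_left.trans hfN)
  have hca := hcab.left hoa hob hd
  have hcb := (union_comm _ _ ▸ hcab : Cut b (Ω ∩ interior Sᶜᶜ ∪ Ω ∩ interior Sᶜ) N T').left
    hob hoa hd.symm
  have hK : IsCompact (closure N \ N') := hNc.diff hNo'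
  have hKs : closure N \ N' ⊆ Ω₂ := fun x hx => ⟨hNΩ hx.1, fun h => hx.2 (hCN' h)⟩
  have hcob : ∀ x ∈ Ω₂, x ∉ closure N \ N' → (x ∈ N ↔ x ∈ N') := fun x _ hx =>
    ⟨fun h => by_contra fun h' => hx ⟨subset_closure h, h'⟩, fun h => hNs' h⟩
  have hsym2 := hsym Ω₂ N hΩ₂o hΩ₂s hΩ₂i hivN
  refine ⟨Ω₂, N', T', hΩ₂s, hcut2.of_cob hK hKs hcob, hsym _ _ hΩ₂o hΩ₂s hΩ₂i hivN',
    fun x hx => (hNΩ' (frontier_subset_closure hx.1)).2, fun ζ => ?_⟩
  rw [hgauge, hcut2.sE_cob hb hsym2 hK hKs hcob,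
    ← hcut2.sE_mono hb hsym2 (hoa.union hob) hab (inter_subset_left.trans hfN) hiab,
    hcab.sE_union hb (hsym _ _ (hoa.union hob) (hab.trans hΩ₂s) hiab hivN) hoa hob hd hia hib,
    side hb hl' hgl hNo hCN hNc hNΩ hivN hLa hca (hsym _ _ hoa inter_subset_left hia hivN),
    ← side hb h.compl (Germ.sym_compl hg) hNo (by rwa [frontier_compl]) hNc hNΩ hivN hLb hcb
      (hsym _ _ hob inter_subset_left hib hivN), h.sE_compl hb hg, sub_eq_add_neg]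

open _root_.Crest.Agent.R217.TW in
theorem TW.iter_aux (hb : HB m b) {ω : ℂ} (L : List (Set (R (2 * m + 1)) × (R (2 * m + 1) → ℂ)))
    {Ω S : Set (R (2 * m + 1))} {T : Tw (R (2 * m + 1)) E} (h : Cut b Ω S T) (hg : Sym Ω S T g)
    (hN : NbhdProp g Ω)
    (hL : ∀ q ∈ L, IsOpen q.1 ∧ Iv g Ω q.1 ∧ ∀ y ∈ q.1 ∩ Ω,
      ‖q.2 y‖ = 1 ∧ q.2 (g y) = ω * q.2 y ∧ ∀ᶠ z in 𝓝 y, q.2 z = q.2 y)
    (hC : frontier S ∩ Ω ⊆ ⋃ q ∈ L, q.1) : (Dl ω)^[L.length] (sE b Ω S T g) = 0 := by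
  induction L generalizing Ω S T with
  | nil =>
    funext ζ
    exact sE_eq_zero (by simpa using hC) g ζ
  | cons q L ih =>
    obtain ⟨τ, hτ, hτq⟩ := glue (g := g) (Ω := Ω) (ω := ω) (q :: L) fun q' hq' =>
      ⟨(hL q' hq').2.1, fun y hy => ⟨((hL q' hq').2.2 y hy).1, ((hL q' hq').2.2 y hy).2.1⟩⟩
    have hτq' := hτq q (by simp)
    obtain ⟨hq1, hq2, hq3⟩ := hL q List.mem_cons_self
    have hUo : ∀ L' : List (Set (R (2 * m + 1)) × (R (2 * m + 1) → ℂ)), (∀ q' ∈ L', q' ∈ q :: L) →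
        IsOpen ((⋃ q ∈ L', q.1) ∩ Ω) ∧ g '' ((⋃ q ∈ L', q.1) ∩ Ω) = (⋃ q ∈ L', q.1) ∩ Ω := by
      intro L' hL'
      refine ⟨(isOpen_iUnion fun q' => isOpen_iUnion fun hq' => (hL q' (hL' q' hq')).1).inter
        h.isOpen, image_of_iv hg.img inter_subset_right (Iv.inter (fun x hx => ?_)
          (iv_self hg.img))⟩
      simp only [mem_iUnion]
      exact exists_congr fun q' => exists_congr fun hq' => (hL q' (hL' q' hq')).2.1 x hx
    obtain ⟨ho1, hi1⟩ := hUo (q :: L) fun _ h => h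
    obtain ⟨ho2, hi2⟩ := hUo L fun _ h => List.mem_cons_of_mem _ h
    have hf1 : frontier S ∩ Ω ⊆ (⋃ q' ∈ q :: L, q'.1) ∩ Ω := subset_inter hC inter_subset_right
    have hmono : sE b Ω S T g = sE b ((⋃ q' ∈ q :: L, q'.1) ∩ Ω) S T g :=
      funext fun ζ => (h.sE_mono hb hg ho1 inter_subset_right hf1 hi1 ζ).symm
    have hsub0 : q.1 ∩ Ω ⊆ (⋃ q' ∈ q :: L, q'.1) ∩ Ω := fun x hx =>
      ⟨mem_iUnion₂.2 ⟨q, List.mem_cons_self, hx.1⟩, hx.2⟩
    have hsub1 : (⋃ q' ∈ L, q'.1) ∩ Ω ⊆ (⋃ q' ∈ q :: L, q'.1) ∩ Ω := fun x hx => by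
      obtain ⟨q', hq', h2⟩ := mem_iUnion₂.1 hx.1
      exact ⟨mem_iUnion₂.2 ⟨q', List.mem_cons_of_mem _ hq', h2⟩, hx.2⟩
    obtain ⟨Ω', S', T', hs', h', hg', hf', hE⟩ := tw_step hb (U₀ := q.1 ∩ Ω)
      (U₁ := (⋃ q' ∈ L, q'.1) ∩ Ω) (h.mono ho1 inter_subset_right hf1)
      (hg.mono h.isOpen ho1 inter_subset_right hi1)
      (fun C O hC hO hCO hOs => hN C O hC hO hCO (hOs.trans inter_subset_right)) hτ
      (hq1.inter h.isOpen) ho2 hsub0 hsub1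
      (image_of_iv hg.img inter_subset_right (hq2.inter (iv_self hg.img))) hi2
      (fun y hy => by
        filter_upwards [(hq3 y hy).2.2, hq1.mem_nhds hy.1] with z hz hz'
        rw [hτq' z hz', hτq' y hy.1, hz])
      (fun x hx => by
        obtain ⟨q', hq', h2⟩ := mem_iUnion₂.1 hx.2.1
        rcases List.mem_cons.1 hq' with rfl | hq'
        · exact Or.inl ⟨h2, hx.2.2⟩
        · exact Or.inr ⟨mem_iUnion₂.2 ⟨q', hq', h2⟩, hx.2.2⟩)
    have hs'' : Ω' ⊆ Ω := hs'.trans inter_subset_right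
    rw [List.length_cons, Function.iterate_succ_apply, hmono,
      show Dl ω (sE b ((⋃ q' ∈ q :: L, q'.1) ∩ Ω) S T g) = sE b Ω' S' T' g from funext hE]
    refine ih h' hg' (fun C O hC hO hCO hOs => hN C O hC hO hCO (hOs.trans hs''))
      (fun q' hq' => ?_) (hf'.trans inter_subset_left)
    obtain ⟨a1, a2, a3⟩ := hL q' (List.mem_cons_of_mem _ hq')
    exact ⟨a1, a2.mono hs'', fun y hy => a3 y ⟨hy.1, hs'' hy.2⟩⟩

/-- Induction on the list of slices, generalising `Ω S T` (intersect the remaining slices with the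
invariant open set `Ω'`; `NbhdProp` is monotone).  For the step first shrink `Ω` to
`⋃ slices` (`sE_mono`) and glue the `τ`'s to one function on it (first slice containing `x`,
the head slice having priority). -/
theorem tw_iter (hb : HB m b) {ω : ℂ} (L : List (Set (R (2 * m + 1)) × (R (2 * m + 1) → ℂ)))
    {Ω S : Set (R (2 * m + 1))} {T : Tw (R (2 * m + 1)) E} (h : Cut b Ω S T) (hg : Sym Ω S T g)
    (hN : NbhdProp g Ω)
    (hL : ∀ q ∈ L, IsOpen q.1 ∧ q.1 ⊆ Ω ∧ g '' q.1 = q.1 ∧ ∀ y ∈ q.1,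
      ‖q.2 y‖ = 1 ∧ q.2 (g y) = ω * q.2 y ∧ ∀ᶠ z in 𝓝 y, q.2 z = q.2 y)
    (hC : frontier S ∩ Ω ⊆ ⋃ q ∈ L, q.1) : (Dl ω)^[L.length] (sE b Ω S T g) = 0 := by
  refine TW.iter_aux hb L h hg hN (fun q hq => ?_) hC
  obtain ⟨a1, a2, a3, a4⟩ := hL q hq
  exact ⟨a1, TW.iv_of_image hg.src a2 a3, fun y hy => a4 y hy.1⟩

/-- finite subcover, `tw_iter`, `sT_eq_sum`, `dvd_sum_of_Dl` -/
theorem tw (hb : HB m b) {Ω S : Set (R (2 * m + 1))} {T : Tw (R (2 * m + 1)) E} (h : Cut b Ω S T)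
    (hg : Sym Ω S T g) (hN : NbhdProp g Ω) {q : ℕ} (hq : 0 < q) {ω : ℂ}
    (hω : IsPrimitiveRoot ω q) (hS : Sliced g Ω ω) : (q : ℤ) ∣ sT b Ω S T := by
  classical
  choose! U hUo hUx hUs hUi τ hτ using hS
  obtain ⟨t, ht1, ht2⟩ := h.cpt.elim_nhds_subcover U fun x hx => (hUo x hx.2).mem_nhds (hUx x hx.2)
  have h1 := tw_iter hb (ω := ω) (t.toList.map fun x => (U x, τ x)) h hg hN (fun q hq => by
    obtain ⟨x, hx, rfl⟩ := List.mem_map.1 hq
    have hx' := (ht1 x (Finset.mem_toList.1 hx)).2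
    exact ⟨hUo x hx', hUs x hx', hUi x hx', hτ x hx'⟩) (fun y hy => by
    obtain ⟨x, hx, hyx⟩ := mem_iUnion₂.1 (ht2 hy)
    exact mem_iUnion₂.2 ⟨(U x, τ x), List.mem_map.2 ⟨x, Finset.mem_toList.2 hx, rfl⟩, hyx⟩)
  obtain ⟨h0, s, hs, hsum⟩ := h.sT_eq_sum hb hg
  rw [hsum]
  exact dvd_sum_of_Dl hq hω _ h1 h0 s hs

end Crest.Agent.R217
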